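import Crest.Agent.R216.Defs

/-!
# R216: calculus of the global derivations `A.D α`
-/

set_option autoImplicit false
set_option linter.unusedSectionVars false

open scoped Manifold ContDiff Topology
open Matrix

noncomputable section

namespace Crest.Agent.R216

variable {M : Type*} [TopologicalSpace M] [ChartedSpace E2 M]
variable {E : Type} [NormedAddCommGroup E] [NormedSpace ℝ E]
variable {F : Type} [NormedAddCommGroup F] [NormedSpace ℝ F]

/-! ### Closure properties of `Sm` (all are `ContMDiff` lemmas) -/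

theorem Sm.continuous {u : M → E} (hu : Sm u) : Continuous u := ContMDiff.continuous hu
theorem sm_const (c : E) : Sm (fun _ : M => c) := contMDiff_const
theorem Sm.comp {u : M → E} (hu : Sm u) {Φ : E → F} (hΦ : ContDiff ℝ ∞ Φ) :
    Sm (fun p => Φ (u p)) := hΦ.comp_contMDiff hu
theorem Sm.prodMk {u : M → E} {v : M → F} (hu : Sm u) (hv : Sm v) : Sm (fun p => (u p, v p)) :=
  ContMDiff.prodMk_space hu hv
theorem Sm.add {u v : M → E} (hu : Sm u) (hv : Sm v) : Sm (u + v) :=
  (hu.prodMk hv).comp (Φ := fun q : E × E => q.1 + q.2) (by fun_prop)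
theorem Sm.sub {u v : M → E} (hu : Sm u) (hv : Sm v) : Sm (u - v) :=
  (hu.prodMk hv).comp (Φ := fun q : E × E => q.1 - q.2) (by fun_prop)
theorem Sm.neg {u : M → E} (hu : Sm u) : Sm (-u) := hu.comp (Φ := fun q : E => -q) (by fun_prop)
theorem Sm.const_smul {u : M → E} (hu : Sm u) (c : ℝ) : Sm (c • u) :=
  hu.comp (Φ := fun q : E => c • q) (by fun_prop)
theorem Sm.smul {a : M → ℝ} {u : M → E} (ha : Sm a) (hu : Sm u) : Sm (fun p => a p • u p) :=
  (ha.prodMk hu).comp (Φ := fun q : ℝ × E => q.1 • q.2) (by fun_prop)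
theorem Sm.mul {a b : M → ℝ} (ha : Sm a) (hb : Sm b) : Sm (fun p => a p * b p) := ha.smul hb
theorem Sm.sum {ι : Type*} (s : Finset ι) {u : ι → M → E} (hu : ∀ i ∈ s, Sm (u i)) :
    Sm (fun p => ∑ i ∈ s, u i p) := by
  classical
  induction s using Finset.induction_on with
  | empty => simpa using sm_const (M := M) (0 : E)
  | insert a s ha ih =>
    simp only [Finset.sum_insert ha]
    exact (hu a (by simp)).add (ih fun i hi => hu i (by simp [hi]))
theorem Sm.apply {n : Type} [Fintype n] {u : M → n → ℝ} (hu : Sm u) (k : n) :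
    Sm (fun p => u p k) := hu.comp (Φ := fun q : n → ℝ => q k) (by fun_prop)
theorem sm_pi {n : Type} [Fintype n] {u : M → n → ℝ} (hu : ∀ k, Sm (fun p => u p k)) : Sm u :=
  contMDiff_pi_space.2 hu
theorem Sm.dot {n : Type} [Fintype n] {u v : M → n → ℝ} (hu : Sm u) (hv : Sm v) :
    Sm (fun p => u p ⬝ᵥ v p) :=
  Sm.sum Finset.univ fun k _ => (hu.apply k).mul (hv.apply k)

/-- Gluing: smooth near every point. -/
theorem sm_of_local {u : M → E} (h : ∀ p, ∃ v : M → E, Sm v ∧ u =ᶠ[𝓝 p] v) : Sm u := by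
  intro p
  obtain ⟨v, hv, e⟩ := h p
  exact (hv p).congr_of_eventuallyEq e

namespace Atl

variable [IsManifold (𝓡 2) ∞ M] (A : Atl M)

theorem api1_cut (i : Fin A.n) {g : M → E}
    (hg : ContMDiffOn (𝓡 2) 𝓘(ℝ, E) ∞ g (chartAt E2 (A.c i)).source) : Sm fun p => A.χ i p • g p := by
  refine contMDiff_of_tsupport fun p hp => ?_
  have hp' := A.χ_supp i (tsupport_smul_subset_left (A.χ i) g hp)
  exact (A.χ_sm i p).smul (hg.contMDiffAt ((chartAt E2 (A.c i)).open_source.mem_nhds hp'))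

theorem api1_cd (c : M) {u : M → E} (hu : Sm u) :
    ContDiffOn ℝ ∞ (u ∘ (chartAt E2 c).symm) (chartAt E2 c).target :=
  contMDiffOn_iff_contDiffOn.1 (ContMDiff.comp_contMDiffOn hu (contMDiffOn_chart_symm (I := 𝓡 2)))

theorem api1_diff {c p : M} {u : M → E} (hu : Sm u) (hp : p ∈ (chartAt E2 c).source) :
    DifferentiableAt ℝ (u ∘ (chartAt E2 c).symm) (chartAt E2 c p) :=
  ((api1_cd c hu).contDiffAt ((chartAt E2 c).open_target.mem_nhds
    ((chartAt E2 c).map_source hp))).differentiableAt (by simp)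

theorem api1_ex (i : Fin A.n) (p : M) : A.χ i p = 0 ∨ p ∈ (chartAt E2 (A.c i)).source :=
  or_iff_not_imp_left.2 fun h => A.χ_supp i (subset_tsupport _ h)

/-- On the chart source this is a product of smooth functions; off `tsupport (χ i)` it is `0`. -/
theorem x_sm (i : Fin A.n) (a : Fin 2) : Sm (A.x i a) := by
  refine A.api1_cut i (g := fun p => (chartAt E2 (A.c i) p) a) ?_
  exact (EuclideanSpace.proj (𝕜 := ℝ) a).contDiff.contMDiff.comp_contMDiffOn (contMDiffOn_chart (I := 𝓡 2))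

/-- On the chart source `u ∘ φ.symm` is `ContDiffOn` on the (open) target, so
`p ↦ fderiv (u ∘ φ.symm) (φ p) e` is smooth there; off `tsupport (χ i)` the function is `0`. -/
theorem D_sm (α : A.Idx) {u : M → E} (hu : Sm u) : Sm (A.D α u) := by
  refine A.api1_cut α.1 ?_
  have h1 : ContDiffOn ℝ ∞ (fun y => fderiv ℝ (u ∘ (chartAt E2 (A.c α.1)).symm) y
      (EuclideanSpace.single α.2 (1 : ℝ))) (chartAt E2 (A.c α.1)).target :=
    ((api1_cd _ hu).fderiv_of_isOpen (chartAt E2 (A.c α.1)).open_target (by simp)).clm_apply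
      contDiffOn_const
  exact (contMDiffOn_iff_contDiffOn.2 h1).comp (contMDiffOn_chart (I := 𝓡 2))
    fun p hp => (chartAt E2 (A.c α.1)).map_source hp

theorem Dw_sm (w : List A.Idx) {u : M → E} (hu : Sm u) : Sm (A.Dw w u) := by
  induction w with
  | nil => exact hu
  | cons α w ih => exact A.D_sm α ih

/-- Locality. If `χ i p = 0` both sides vanish; otherwise `p` is in the chart source and
`u ∘ φ.symm =ᶠ v ∘ φ.symm` near `φ p`. No smoothness needed. -/
theorem D_congr (α : A.Idx) {u v : M → E} {p : M} (h : u =ᶠ[𝓝 p] v) : A.D α u p = A.D α v p := by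
  rcases A.api1_ex α.1 p with h0 | hp
  · simp only [D, h0, zero_smul]
  · have h1 : u ∘ (chartAt E2 (A.c α.1)).symm =ᶠ[𝓝 (chartAt E2 (A.c α.1) p)]
        v ∘ (chartAt E2 (A.c α.1)).symm := ((chartAt E2 (A.c α.1)).tendsto_symm hp).eventually h
    simp only [D, h1.fderiv_eq]

theorem D_congr' (α : A.Idx) {u v : M → E} {p : M} (h : u =ᶠ[𝓝 p] v) :
    A.D α u =ᶠ[𝓝 p] A.D α v :=
  h.eventuallyEq_nhds.mono fun _ hq => A.D_congr α hq

theorem Dw_congr' (w : List A.Idx) {u v : M → E} {p : M} (h : u =ᶠ[𝓝 p] v) :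
    A.Dw w u =ᶠ[𝓝 p] A.Dw w v := by
  induction w with
  | nil => exact h
  | cons α w ih => exact A.D_congr' α ih

/-- Chain rule (all algebraic rules below are special cases). -/
theorem D_comp (α : A.Idx) {u : M → E} (hu : Sm u) {Φ : E → F} {p : M}
    (hΦ : DifferentiableAt ℝ Φ (u p)) :
    A.D α (fun q => Φ (u q)) p = fderiv ℝ Φ (u p) (A.D α u p) := by
  rcases A.api1_ex α.1 p with h0 | hp
  · simp only [D, h0, zero_smul, map_zero]
  · have e : (u ∘ (chartAt E2 (A.c α.1)).symm) (chartAt E2 (A.c α.1) p) = u p :=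
      congrArg u ((chartAt E2 (A.c α.1)).left_inv hp)
    have h1 := fderiv_comp (chartAt E2 (A.c α.1) p) (e ▸ hΦ) (api1_diff hu hp)
    rw [e] at h1
    rw [D, D, map_smul]
    exact congrArg (fun L : E2 →L[ℝ] F => A.χ α.1 p • L (EuclideanSpace.single α.2 (1 : ℝ))) h1

theorem api1_clm (α : A.Idx) {u : M → E} (hu : Sm u) (L : E →L[ℝ] F) (p : M) :
    A.D α (fun q => L (u q)) p = L (A.D α u p) := by
  rw [A.D_comp α hu L.differentiableAt, L.fderiv]

theorem D_const (α : A.Idx) (c : E) (p : M) : A.D α (fun _ => c) p = 0 := by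
  have : (fun _ : M => c) ∘ (chartAt E2 (A.c α.1)).symm = fun _ => c := rfl
  simp [D, this]

theorem D_prodMk (α : A.Idx) {u : M → E} {v : M → F} (hu : Sm u) (hv : Sm v) (p : M) :
    A.D α (fun q => (u q, v q)) p = (A.D α u p, A.D α v p) := by
  have h := hu.prodMk hv
  exact Prod.ext (A.api1_clm α h (ContinuousLinearMap.fst ℝ E F) p).symm
    (A.api1_clm α h (ContinuousLinearMap.snd ℝ E F) p).symm

theorem D_add (α : A.Idx) {u v : M → E} (hu : Sm u) (hv : Sm v) :
    A.D α (u + v) = A.D α u + A.D α v := by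
  funext p
  have h := A.api1_clm α (hu.prodMk hv) (ContinuousLinearMap.fst ℝ E E + ContinuousLinearMap.snd ℝ E E) p
  rw [A.D_prodMk α hu hv] at h
  exact h

theorem D_sub (α : A.Idx) {u v : M → E} (hu : Sm u) (hv : Sm v) :
    A.D α (u - v) = A.D α u - A.D α v := by
  funext p
  have h := A.api1_clm α (hu.prodMk hv) (ContinuousLinearMap.fst ℝ E E - ContinuousLinearMap.snd ℝ E E) p
  rw [A.D_prodMk α hu hv] at h
  exact h

theorem D_neg (α : A.Idx) {u : M → E} (hu : Sm u) : A.D α (-u) = -A.D α u := by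
  funext p
  exact A.api1_clm α hu (-ContinuousLinearMap.id ℝ E) p

theorem D_const_smul (α : A.Idx) {u : M → E} (hu : Sm u) (c : ℝ) :
    A.D α (c • u) = c • A.D α u := by
  funext p
  exact A.api1_clm α hu (c • ContinuousLinearMap.id ℝ E) p

theorem D_smul (α : A.Idx) {a : M → ℝ} {u : M → E} (ha : Sm a) (hu : Sm u) (p : M) :
    A.D α (fun q => a q • u q) p = a p • A.D α u p + A.D α a p • u p := by
  have hΦ := (hasFDerivAt_fst (𝕜 := ℝ) (p := (a p, u p))).fun_smul (hasFDerivAt_snd (𝕜 := ℝ) (p := (a p, u p)))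
  have h := A.D_comp α (ha.prodMk hu) (Φ := fun z : ℝ × E => z.1 • z.2) hΦ.differentiableAt
  rw [A.D_prodMk α ha hu, hΦ.fderiv] at h
  exact h

theorem D_mul (α : A.Idx) {a b : M → ℝ} (ha : Sm a) (hb : Sm b) (p : M) :
    A.D α (fun q => a q * b q) p = a p * A.D α b p + A.D α a p * b p := by
  exact A.D_smul α ha hb p

theorem D_sum (α : A.Idx) {ι : Type*} (s : Finset ι) {u : ι → M → E} (hu : ∀ i ∈ s, Sm (u i))
    (p : M) : A.D α (fun q => ∑ i ∈ s, u i q) p = ∑ i ∈ s, A.D α (u i) p := by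
  classical
  induction s using Finset.induction_on with
  | empty => simpa using A.D_const α (0 : E) p
  | insert a s ha ih =>
    simp only [Finset.sum_insert ha]
    have h1 : ∀ i ∈ s, Sm (u i) := fun i hi => hu i (Finset.mem_insert_of_mem hi)
    rw [← ih h1]
    exact congrFun (A.D_add α (hu a (Finset.mem_insert_self _ _)) (Sm.sum s h1)) p

theorem D_apply (α : A.Idx) {n : Type} [Fintype n] {u : M → n → ℝ} (hu : Sm u) (k : n) (p : M) :
    A.D α (fun q => u q k) p = A.D α u p k := by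
  exact A.api1_clm α hu (ContinuousLinearMap.proj (R := ℝ) (φ := fun _ : n => ℝ) k) p

theorem D_dot (α : A.Idx) {n : Type} [Fintype n] {u v : M → n → ℝ} (hu : Sm u) (hv : Sm v)
    (p : M) : A.D α (fun q => u q ⬝ᵥ v q) p = u p ⬝ᵥ A.D α v p + A.D α u p ⬝ᵥ v p := by
  simp only [dotProduct]
  rw [A.D_sum α Finset.univ (u := fun k q => u q k * v q k) fun k _ => (hu.apply k).mul (hv.apply k),
    ← Finset.sum_add_distrib]
  refine Finset.sum_congr rfl fun k _ => ?_
  rw [A.D_mul α (hu.apply k) (hv.apply k), A.D_apply α hu, A.D_apply α hv]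

/-- One-variable chain rule. -/
theorem D_comp_real (α : A.Idx) {u : M → ℝ} (hu : Sm u) {Φ : ℝ → F} {p : M}
    (hΦ : DifferentiableAt ℝ Φ (u p)) :
    A.D α (fun q => Φ (u q)) p = A.D α u p • deriv Φ (u p) := by
  rw [A.D_comp α hu hΦ, fderiv_eq_smul_deriv]

theorem Dw_add (w : List A.Idx) {u v : M → E} (hu : Sm u) (hv : Sm v) :
    A.Dw w (u + v) = A.Dw w u + A.Dw w v := by
  induction w with
  | nil => rfl
  | cons α w ih => rw [Dw, ih, A.D_add α (A.Dw_sm w hu) (A.Dw_sm w hv), Dw, Dw]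

theorem Dw_sub (w : List A.Idx) {u v : M → E} (hu : Sm u) (hv : Sm v) :
    A.Dw w (u - v) = A.Dw w u - A.Dw w v := by
  induction w with
  | nil => rfl
  | cons α w ih => rw [Dw, ih, A.D_sub α (A.Dw_sm w hu) (A.Dw_sm w hv), Dw, Dw]

theorem Dw_const_smul (w : List A.Idx) {u : M → E} (hu : Sm u) (c : ℝ) :
    A.Dw w (c • u) = c • A.Dw w u := by
  induction w with
  | nil => rfl
  | cons α w ih => rw [Dw, ih, A.D_const_smul α (A.Dw_sm w hu), Dw]

theorem Dw_apply (w : List A.Idx) {n : Type} [Fintype n] {u : M → n → ℝ} (hu : Sm u) (k : n) :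
    A.Dw w (fun q => u q k) = fun p => A.Dw w u p k := by
  induction w with
  | nil => rfl
  | cons α w ih =>
    funext p
    rw [Dw, ih, A.D_apply α (A.Dw_sm w hu), Dw]

theorem Dw_append (w w' : List A.Idx) (u : M → E) : A.Dw (w ++ w') u = A.Dw w (A.Dw w' u) := by
  induction w with
  | nil => rfl
  | cons α w ih => simp only [List.cons_append, Dw, ih]

end Atl

end Crest.Agent.R216
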