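import Crest.Agent.R216.Api1

/-!
# R216: chart facts for `A.D α`
-/

set_option autoImplicit false
set_option linter.unusedSectionVars false

open scoped Manifold ContDiff Topology
open Matrix

noncomputable section

namespace Crest.Agent.R216

variable {M : Type*} [TopologicalSpace M] [ChartedSpace E2 M]
variable {E : Type} [NormedAddCommGroup E] [NormedSpace ℝ E]
variable {F : Type} [NormedAddCommGroup F] [NormedSpace ℝ F]

theorem api2_md [IsManifold (𝓡 2) ∞ M] (c : M) : (chartAt E2 c).MDifferentiable (𝓡 2) (𝓡 2) :=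
  haveI : IsManifold (𝓡 2) 1 M := IsManifold.of_le (n := ∞) (by simp)
  mdifferentiable_chart c

theorem api2_inverse [IsManifold (𝓡 2) ∞ M] (c : M) {p : M} (hp : p ∈ (chartAt E2 c).source) :
    (mfderiv (𝓡 2) (𝓡 2) (chartAt E2 c) p).inverse =
      (((api2_md c).mfderiv hp).symm : TangentSpace (𝓡 2) (chartAt E2 c p) →L[ℝ] TangentSpace (𝓡 2) p) :=
  ContinuousLinearMap.inverse_equiv ((api2_md c).mfderiv hp)

theorem api2_fderiv [IsManifold (𝓡 2) ∞ M] (c : M) {u : M → E} (hu : Sm u) {p : M}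
    (hp : p ∈ (chartAt E2 c).source) (w : E2) :
    fderiv ℝ (u ∘ (chartAt E2 c).symm) (chartAt E2 c p) w =
      mfderiv (𝓡 2) 𝓘(ℝ, E) u p ((mfderiv (𝓡 2) (𝓡 2) (chartAt E2 c) p).inverse w) := by
  rw [api2_inverse c hp, ← mfderiv_eq_fderiv]
  exact mfderiv_comp_apply_of_eq _ ((hu p).mdifferentiableAt (by simp))
    ((api2_md c).mdifferentiableAt_symm ((chartAt E2 c).map_source hp)) ((chartAt E2 c).left_inv hp) w

theorem api2_contDiffAt [IsManifold (𝓡 2) ∞ M] (c : M) {u : M → E} (hu : Sm u) {z : E2}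
    (hz : z ∈ (chartAt E2 c).target) : ContDiffAt ℝ ∞ (u ∘ (chartAt E2 c).symm) z :=
  contMDiffAt_iff_contDiffAt.1 ((hu _).comp z
    (contMDiffOn_chart_symm.contMDiffAt ((chartAt E2 c).open_target.mem_nhds hz)))

namespace Atl

variable [IsManifold (𝓡 2) ∞ M] (A : Atl M)

theorem O_sub_source (i : Fin A.n) : A.O i ⊆ (chartAt E2 (A.c i)).source := by
  intro p hp
  refine A.χ_supp i (subset_tsupport _ ?_)
  rw [Function.mem_support, A.χ_one i p hp]
  exact one_ne_zero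

theorem K_sub_O (i : Fin A.n) : A.K i ⊆ A.O i := A.ψ_supp i

theorem exists_K (p : M) : ∃ i, A.ψ i p ≠ 0 ∧ p ∈ A.K i ∧ p ∈ A.O i := by
  by_contra h
  have h1 : ∀ i, A.ψ i p = 0 := fun i => by
    by_contra hi
    exact h ⟨i, hi, subset_tsupport _ hi, A.ψ_supp i (subset_tsupport _ hi)⟩
  have h2 := A.ψ_sq p
  simp [h1] at h2

theorem x_eq (i : Fin A.n) (a : Fin 2) {p : M} (hp : p ∈ A.O i) :
    A.x i a p = (chartAt E2 (A.c i) p) a := by
  rw [x, A.χ_one i p hp, one_mul]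

theorem x_inj (i : Fin A.n) {p q : M} (hp : p ∈ A.O i) (hq : q ∈ A.O i)
    (h : ∀ a, A.x i a p = A.x i a q) : p = q := by
  refine (chartAt E2 (A.c i)).injOn (A.O_sub_source i hp) (A.O_sub_source i hq) ?_
  ext a
  rw [← A.x_eq i a hp, ← A.x_eq i a hq, h a]

/-- points of the chart target near `φ p` come from `O i` -/
theorem api2_near (i : Fin A.n) {p : M} (hp : p ∈ A.O i) :
    ∀ᶠ z in 𝓝 (chartAt E2 (A.c i) p),
      z ∈ (chartAt E2 (A.c i)).target ∧ (chartAt E2 (A.c i)).symm z ∈ A.O i := by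
  have hs := A.O_sub_source i hp
  have ht := (chartAt E2 (A.c i)).map_source hs
  refine Filter.Eventually.and ((chartAt E2 (A.c i)).open_target.mem_nhds ht) ?_
  refine ((chartAt E2 (A.c i)).continuousAt_symm ht).eventually ?_
  rw [(chartAt E2 (A.c i)).left_inv hs]
  exact (A.O_open i).mem_nhds hp

theorem D_x (i : Fin A.n) (a b : Fin 2) {p : M} (hp : p ∈ A.O i) :
    A.D (i, a) (A.x i b) p = if a = b then 1 else 0 := by
  have h : (A.x i b ∘ (chartAt E2 (A.c i)).symm) =ᶠ[𝓝 (chartAt E2 (A.c i) p)]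
      (EuclideanSpace.proj b : E2 →L[ℝ] ℝ) := by
    filter_upwards [A.api2_near i hp] with z hz
    rw [Function.comp_apply, A.x_eq i b hz.2, (chartAt E2 (A.c i)).right_inv hz.1]
    rfl
  simp only [D]
  rw [A.χ_one i p hp, one_smul, h.fderiv_eq, ContinuousLinearMap.fderiv]
  simp [eq_comm]

/-- Relation with `mfderiv`: `D α` is differentiation along a tangent vector `V α p`, and on
`O i` the vectors `V (i,0) p`, `V (i,1) p` span the tangent space. -/
def V (α : A.Idx) (p : M) : TangentSpace (𝓡 2) p :=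
  A.χ α.1 p • (mfderiv (𝓡 2) (𝓡 2) (chartAt E2 (A.c α.1)) p).inverse
    (EuclideanSpace.single α.2 (1 : ℝ))

theorem D_eq_mfderiv (α : A.Idx) {u : M → E} (hu : Sm u) (p : M) :
    A.D α u p = mfderiv (𝓡 2) 𝓘(ℝ, E) u p (A.V α p) := by
  by_cases h : A.χ α.1 p = 0
  · rw [D, V, h, zero_smul, zero_smul, map_zero]
    rfl
  · have hp : p ∈ (chartAt E2 (A.c α.1)).source := A.χ_supp α.1 (subset_tsupport _ h)
    rw [D, V, api2_fderiv _ hu hp, map_smul]
    rfl

theorem V_span (i : Fin A.n) {p : M} (hp : p ∈ A.O i) (v : TangentSpace (𝓡 2) p) :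
    ∃ a b : ℝ, v = a • A.V (i, 0) p + b • A.V (i, 1) p := by
  have hs := A.O_sub_source i hp
  obtain ⟨w, hw⟩ : ∃ w : E2, w = (api2_md (A.c i)).mfderiv hs v := ⟨_, rfl⟩
  have h1 : w = w 0 • EuclideanSpace.single (0 : Fin 2) (1 : ℝ) +
      w 1 • EuclideanSpace.single (1 : Fin 2) (1 : ℝ) := by
    ext a
    fin_cases a <;> simp
  obtain ⟨L, hL⟩ : ∃ L : E2 →L[ℝ] TangentSpace (𝓡 2) p,
      L = (mfderiv (𝓡 2) (𝓡 2) (chartAt E2 (A.c i)) p).inverse := ⟨_, rfl⟩
  have h2 : L w = v := by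
    rw [hL, api2_inverse _ hs, hw]
    exact ((api2_md (A.c i)).mfderiv hs).symm_apply_apply v
  have h3 : ∀ a : Fin 2, A.V (i, a) p = L (EuclideanSpace.single a (1 : ℝ)) := fun a => by
    rw [V, A.χ_one i p hp, one_smul, hL]
    rfl
  refine ⟨w 0, w 1, ?_⟩
  rw [h3, h3, ← map_smul, ← map_smul, ← map_add, ← h1, h2]

/-- Change of chart. Near `p ∈ O i`, `u = (u ∘ φ.symm) ∘ (x i ·)`; apply `D_congr`, `D_comp`
(with the `E2`-valued smooth map `q ↦ χ i q • φ q`) and expand in the standard basis. -/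
theorem D_chart (α : A.Idx) (i : Fin A.n) {u : M → E} (hu : Sm u) {p : M} (hp : p ∈ A.O i) :
    A.D α u p = A.D α (A.x i 0) p • A.D (i, 0) u p + A.D α (A.x i 1) p • A.D (i, 1) u p := by
  obtain ⟨a, b, h⟩ := A.V_span i hp (A.V α p)
  have key : ∀ {G : Type} [NormedAddCommGroup G] [NormedSpace ℝ G] {w : M → G}, Sm w →
      A.D α w p = a • A.D (i, 0) w p + b • A.D (i, 1) w p := fun {G} _ _ {w} hw => by
    rw [A.D_eq_mfderiv α hw, A.D_eq_mfderiv _ hw, A.D_eq_mfderiv _ hw, h, map_add, map_smul, map_smul]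
    rfl
  rw [key hu, key (A.x_sm i 0), key (A.x_sm i 1), A.D_x i 0 0 hp, A.D_x i 1 0 hp, A.D_x i 0 1 hp,
    A.D_x i 1 1 hp]
  simp

/-- Symmetry of second derivatives in the chart (`ContDiffAt.isSymmSndFDerivAt`). -/
theorem D_comm (i : Fin A.n) (a b : Fin 2) {u : M → E} (hu : Sm u) {p : M} (hp : p ∈ A.O i) :
    A.D (i, a) (A.D (i, b) u) p = A.D (i, b) (A.D (i, a) u) p := by
  have hg := api2_contDiffAt (A.c i) hu ((chartAt E2 (A.c i)).map_source (A.O_sub_source i hp))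
  have hd : DifferentiableAt ℝ (fderiv ℝ (u ∘ (chartAt E2 (A.c i)).symm)) (chartAt E2 (A.c i) p) :=
    (hg.fderiv_right (m := 1) (by norm_cast)).differentiableAt (by simp)
  have key : ∀ a b : Fin 2, A.D (i, a) (A.D (i, b) u) p =
      fderiv ℝ (fderiv ℝ (u ∘ (chartAt E2 (A.c i)).symm)) (chartAt E2 (A.c i) p)
        (EuclideanSpace.single a (1 : ℝ)) (EuclideanSpace.single b (1 : ℝ)) := fun a b => by
    have h : (A.D (i, b) u ∘ (chartAt E2 (A.c i)).symm) =ᶠ[𝓝 (chartAt E2 (A.c i) p)]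
        fun z => fderiv ℝ (u ∘ (chartAt E2 (A.c i)).symm) z (EuclideanSpace.single b (1 : ℝ)) := by
      filter_upwards [A.api2_near i hp] with z hz
      simp only [Function.comp_apply, D]
      rw [A.χ_one i _ hz.2, one_smul, (chartAt E2 (A.c i)).right_inv hz.1]
    rw [D]
    simp only
    rw [A.χ_one i p hp, one_smul, h.fderiv_eq, fderiv_clm_apply hd (differentiableAt_const _)]
    simp
  rw [key, key]
  exact hg.isSymmSndFDerivAt (by simp; norm_cast) _ _

end Atl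

end Crest.Agent.R216
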