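import Crest.Agent.R216.Api2

/-!
# R216: sheared coordinates, descent to the chart
-/

set_option autoImplicit false
set_option linter.unusedSectionVars false

open scoped Manifold ContDiff Topology
open Matrix

noncomputable section

namespace Crest.Agent.R216

variable {M : Type*} [TopologicalSpace M] [ChartedSpace E2 M]
variable {E : Type} [NormedAddCommGroup E] [NormedSpace ℝ E]
variable {F : Type} [NormedAddCommGroup F] [NormedSpace ℝ F]

namespace Atl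

variable [IsManifold (𝓡 2) ∞ M] (A : Atl M)

/-! ### Sheared coordinates -/

theorem eta_sm (i : Fin A.n) (t : ℝ) : Sm (A.eta i t) :=
  (A.x_sm i 0).add ((sm_const t).mul (A.x_sm i 1))
theorem Psi_sm (i : Fin A.n) (t : ℝ) : Sm (A.Psi i t) := (A.eta_sm i t).prodMk (A.x_sm i 1)
theorem X_sm (i : Fin A.n) {u : M → E} (hu : Sm u) : Sm (A.X i u) := A.D_sm (i, 0) hu
theorem Y_sm (i : Fin A.n) (t : ℝ) {u : M → E} (hu : Sm u) : Sm (A.Y i t u) :=
  (A.D_sm (i, 1) hu).sub ((A.D_sm (i, 0) hu).const_smul t)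

theorem api3_D_eta (α : A.Idx) (i : Fin A.n) (t : ℝ) (p : M) :
    A.D α (A.eta i t) p = A.D α (A.x i 0) p + t * A.D α (A.x i 1) p := by
  have e : A.eta i t = A.x i 0 + t • A.x i 1 := rfl
  rw [e, A.D_add α (A.x_sm i 0) ((A.x_sm i 1).const_smul t), A.D_const_smul α (A.x_sm i 1)]
  rfl

theorem X_eta (i : Fin A.n) (t : ℝ) {p : M} (hp : p ∈ A.O i) : A.X i (A.eta i t) p = 1 := by
  rw [X, A.api3_D_eta, A.D_x i 0 0 hp, A.D_x i 0 1 hp]
  simp
theorem Y_eta (i : Fin A.n) (t t' : ℝ) {p : M} (hp : p ∈ A.O i) :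
    A.Y i t (A.eta i t') p = t' - t := by
  rw [Y, A.api3_D_eta, A.api3_D_eta, A.D_x i 0 0 hp, A.D_x i 0 1 hp, A.D_x i 1 0 hp, A.D_x i 1 1 hp]
  simp
theorem X_y (i : Fin A.n) {p : M} (hp : p ∈ A.O i) : A.X i (A.x i 1) p = 0 := by
  rw [X, A.D_x i 0 1 hp]
  simp
theorem Y_y (i : Fin A.n) (t : ℝ) {p : M} (hp : p ∈ A.O i) : A.Y i t (A.x i 1) p = 1 := by
  rw [Y, A.D_x i 0 1 hp, A.D_x i 1 1 hp]
  simp

theorem D_shear (α : A.Idx) (i : Fin A.n) (t : ℝ) {u : M → E} (hu : Sm u) {p : M}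
    (hp : p ∈ A.O i) :
    A.D α u p = A.D α (A.eta i t) p • A.X i u p + A.D α (A.x i 1) p • A.Y i t u p := by
  rw [A.D_chart α i hu hp, A.api3_D_eta, X, Y]
  module

theorem XY_comm (i : Fin A.n) (t : ℝ) {u : M → E} (hu : Sm u) {p : M} (hp : p ∈ A.O i) :
    A.X i (A.Y i t u) p = A.Y i t (A.X i u) p := by
  have e : A.Y i t u = A.D (i, 1) u - t • A.D (i, 0) u := rfl
  have e' : A.X i u = A.D (i, 0) u := rfl
  rw [e, e', X, Y, A.D_sub _ (A.D_sm _ hu) ((A.D_sm _ hu).const_smul t),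
    A.D_const_smul _ (A.D_sm _ hu), Pi.sub_apply, Pi.smul_apply, A.D_comm i 0 1 hu hp]

/-- Chain rule through the sheared chart (valid everywhere). -/
theorem D_Psi (α : A.Idx) (i : Fin A.n) (t : ℝ) {v : ℝ × ℝ → E} (hv : ContDiff ℝ ∞ v) (p : M) :
    A.D α (fun q => v (A.Psi i t q)) p =
      A.D α (A.eta i t) p • dx v (A.Psi i t p) + A.D α (A.x i 1) p • dy v (A.Psi i t p) := by
  rw [A.D_comp α (A.Psi_sm i t) (hv.differentiable (by simp) _)]
  have e : A.D α (A.Psi i t) p = A.D α (A.eta i t) p • ((1, 0) : ℝ × ℝ) +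
      A.D α (A.x i 1) p • ((0, 1) : ℝ × ℝ) := by
    have := A.D_prodMk α (A.eta_sm i t) (A.x_sm i 1) p
    refine Eq.trans this ?_
    simp
  rw [e, map_add, map_smul, map_smul]
  rfl

/-- inverse of the shear -/
def api3_bwd (t : ℝ) (z : ℝ × ℝ) : E2 := WithLp.toLp 2 ![z.1 - t * z.2, z.2]

theorem api3_bwd_sm (t : ℝ) : ContDiff ℝ ∞ (api3_bwd t) := by
  refine contDiff_euclidean.2 fun a => ?_
  fin_cases a
  · exact (by fun_prop : ContDiff ℝ ∞ fun z : ℝ × ℝ => z.1 - t * z.2)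
  · exact contDiff_snd

theorem api3_bwd_inj (t : ℝ) : Function.Injective (api3_bwd t) := by
  intro z z' h
  have h0 : z.1 - t * z.2 = z'.1 - t * z'.2 := congrArg (fun y : E2 => y 0) h
  have h1 : z.2 = z'.2 := congrArg (fun y : E2 => y 1) h
  rw [h1] at h0
  exact Prod.ext (by linarith) h1

theorem api3_bwd_Psi (i : Fin A.n) (t : ℝ) {p : M} (hp : p ∈ A.O i) :
    api3_bwd t (A.Psi i t p) = chartAt E2 (A.c i) p := by
  ext a
  rw [← A.x_eq i a hp]
  fin_cases a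
  · simp [api3_bwd, Psi, eta]
  · simp [api3_bwd, Psi]

theorem Psi_injOn (i : Fin A.n) (t : ℝ) : Set.InjOn (A.Psi i t) (A.O i) := by
  intro p hp q hq h
  refine (chartAt E2 (A.c i)).injOn (A.O_sub_source i hp) (A.O_sub_source i hq) ?_
  rw [← A.api3_bwd_Psi i t hp, ← A.api3_bwd_Psi i t hq, h]

/-- `Psi` is the chart followed by a linear homeomorphism on `O i`. -/
theorem Psi_isOpen (i : Fin A.n) (t : ℝ) {W : Set M} (hW : IsOpen W) (h : W ⊆ A.O i) :
    IsOpen (A.Psi i t '' W) := by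
  have e : A.Psi i t '' W = api3_bwd t ⁻¹' (chartAt E2 (A.c i) '' W) := by
    ext z
    constructor
    · rintro ⟨p, hp, rfl⟩
      exact ⟨p, hp, (A.api3_bwd_Psi i t (h hp)).symm⟩
    · rintro ⟨p, hp, e⟩
      exact ⟨p, hp, api3_bwd_inj t ((A.api3_bwd_Psi i t (h hp)).trans e)⟩
  rw [e]
  exact ((chartAt E2 (A.c i)).isOpen_image_of_subset_source hW
    (h.trans (A.O_sub_source i))).preimage (api3_bwd_sm t).continuous

/-- Smooth functions descend through the sheared chart near a compact subset of `O i`: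
take a smooth cut-off `ρ` equal to `1` on an open `W ⊇ K₀` with support in `O i`
(`exists_contMDiff_...`/`exists_smooth_zero_one`), and extend `(ρ • u) ∘ Psi⁻¹` by zero. -/
theorem exists_down [T2Space M] [CompactSpace M] (i : Fin A.n) (t : ℝ) {K₀ : Set M}
    (hK : IsClosed K₀) (h : K₀ ⊆ A.O i) :
    ∃ (W : Set M) (ρ : M → ℝ), IsOpen W ∧ K₀ ⊆ W ∧ W ⊆ A.O i ∧ Sm ρ ∧ (∀ p, ρ p ∈ Set.Icc 0 1) ∧
      (∀ p ∈ W, ρ p = 1) ∧ tsupport ρ ⊆ A.O i ∧
      ∀ (E : Type) [NormedAddCommGroup E] [NormedSpace ℝ E] (u : M → E), Sm u →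
        ∃ v : ℝ × ℝ → E, ContDiff ℝ ∞ v ∧ (∀ p ∈ A.O i, v (A.Psi i t p) = ρ p • u p) ∧
          ∀ z, z ∉ A.Psi i t '' tsupport ρ → v z = 0 := by
  classical
  obtain ⟨ρ, h0, h1, h01⟩ := exists_contMDiffMap_zero_one_nhds_of_isClosed (𝓡 2) (n := (⊤ : ℕ∞))
    (A.O_open i).isClosed_compl hK (Set.disjoint_left.2 fun p hp hp' => hp (h hp'))
  obtain ⟨W, hW, hKW, hW1⟩ := eventually_nhdsSet_iff_exists.1 h1
  have hρ : Sm (ρ : M → ℝ) := ρ.contMDiff
  have hs : tsupport (ρ : M → ℝ) ⊆ A.O i := fun p hp => by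
    by_contra hp'
    exact (notMem_tsupport_iff_eventuallyEq.2 (h0.filter_mono (nhds_le_nhdsSet hp'))) hp
  refine ⟨W ∩ A.O i, ρ, hW.inter (A.O_open i), Set.subset_inter hKW h, Set.inter_subset_right, hρ, h01,
    fun p hp => hW1 p hp.1, hs, fun E _ _ u hu => ?_⟩
  set φ := chartAt E2 (A.c i) with hφ
  have hv : ∀ p ∈ A.O i, (A.Psi i t '' A.O i).indicator
      (fun z => ρ (φ.symm (api3_bwd t z)) • u (φ.symm (api3_bwd t z))) (A.Psi i t p) = ρ p • u p := by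
    intro p hp
    rw [Set.indicator_of_mem (Set.mem_image_of_mem _ hp), A.api3_bwd_Psi i t hp,
      φ.left_inv (A.O_sub_source i hp)]
  have hz : ∀ z, z ∉ A.Psi i t '' tsupport (ρ : M → ℝ) → (A.Psi i t '' A.O i).indicator
      (fun z => ρ (φ.symm (api3_bwd t z)) • u (φ.symm (api3_bwd t z))) z = 0 := by
    intro z hz
    by_cases hz' : z ∈ A.Psi i t '' A.O i
    · obtain ⟨p, hp, rfl⟩ := hz'
      rw [hv p hp, image_eq_zero_of_notMem_tsupport fun h' => hz (Set.mem_image_of_mem _ h'), zero_smul]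
    · exact Set.indicator_of_notMem hz' _
  refine ⟨_, contDiff_iff_contDiffAt.2 fun z => ?_, hv, hz⟩
  by_cases hz' : z ∈ A.Psi i t '' A.O i
  · have h2 := (A.Psi_isOpen i t (A.O_open i) subset_rfl).mem_nhds hz'
    obtain ⟨p, hp, rfl⟩ := hz'
    have h3 : ContMDiffAt (𝓡 2) (𝓡 2) ∞ φ.symm (api3_bwd t (A.Psi i t p)) := by
      rw [A.api3_bwd_Psi i t hp]
      exact contMDiffOn_chart_symm.contMDiffAt
        (φ.open_target.mem_nhds (φ.map_source (A.O_sub_source i hp)))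
    have h4 : ContDiffAt ℝ ∞ (fun y => ρ (φ.symm y) • u (φ.symm y)) (api3_bwd t (A.Psi i t p)) :=
      contMDiffAt_iff_contDiffAt.1 (((hρ.smul hu) _).comp _ h3)
    exact (h4.comp _ (api3_bwd_sm t).contDiffAt).congr_of_eventuallyEq
      (Filter.eventually_of_mem h2 fun z hz => Set.indicator_of_mem hz _)
  · have h2 : IsClosed (A.Psi i t '' tsupport (ρ : M → ℝ)) :=
      ((isClosed_tsupport _).isCompact.image (A.Psi_sm i t).continuous).isClosed
    exact (contDiffAt_const (c := (0 : E))).congr_of_eventuallyEq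
      (Filter.eventually_of_mem (h2.isOpen_compl.mem_nhds fun h' => hz' (Set.image_mono hs h')) hz)

end Atl

end Crest.Agent.R216
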