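import Crest.Agent.R216.Api2

/-!
# R216: norms, tensors, positivity, linear algebra in `ℝ⁴`
-/

set_option autoImplicit false
set_option linter.unusedSectionVars false

open scoped Manifold ContDiff Topology
open Matrix

noncomputable section

namespace Crest.Agent.R216

/-! ### `cross3` -/

section Cross
variable {R : Type*} [CommRing R]

theorem cross3_dot (a b c d : Fin 4 → R) : cross3 a b c ⬝ᵥ d = Matrix.det ![a, b, c, d] := by
  change _ = Matrix.det (Matrix.of ![a, b, c, d])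
  simp [Matrix.det_succ_row_zero, Fin.sum_univ_succ, cross3, d3, dotProduct, Fin.succAbove]
  ring
theorem cross3_dot_fst (a b c : Fin 4 → R) : cross3 a b c ⬝ᵥ a = 0 := by
  simp [cross3, d3, dotProduct, Fin.sum_univ_four]; ring
theorem cross3_dot_snd (a b c : Fin 4 → R) : cross3 a b c ⬝ᵥ b = 0 := by
  simp [cross3, d3, dotProduct, Fin.sum_univ_four]; ring
theorem cross3_dot_trd (a b c : Fin 4 → R) : cross3 a b c ⬝ᵥ c = 0 := by
  simp [cross3, d3, dotProduct, Fin.sum_univ_four]; ring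
/-- Linear in the last slot, kills the first two vectors. -/
theorem cross3_lin (a b c d : Fin 4 → R) (s t u v : R) :
    cross3 a b (s • c + t • d + u • a + v • b) = s • cross3 a b c + t • cross3 a b d := by
  ext i
  fin_cases i <;> simp [cross3, d3] <;> ring
/-- Change of the tangent frame. -/
theorem cross3_frame (a b c : Fin 4 → R) (s t u v : R) :
    cross3 (s • a + t • b) (u • a + v • b) c = (s * v - t * u) • cross3 a b c := by
  ext i
  fin_cases i <;> simp [cross3, d3] <;> ring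
/-- Gram identity (Cauchy–Binet); a polynomial identity. -/
theorem cross3_dot_cross3 (a b c d : Fin 4 → R) :
    cross3 a b c ⬝ᵥ cross3 a b d =
      (a ⬝ᵥ a) * ((b ⬝ᵥ b) * (c ⬝ᵥ d) - (b ⬝ᵥ d) * (c ⬝ᵥ b))
      - (a ⬝ᵥ b) * ((a ⬝ᵥ b) * (c ⬝ᵥ d) - (b ⬝ᵥ d) * (c ⬝ᵥ a))
      + (a ⬝ᵥ d) * ((a ⬝ᵥ b) * (c ⬝ᵥ b) - (b ⬝ᵥ b) * (c ⬝ᵥ a)) := by
  simp [cross3, d3, dotProduct, Fin.sum_univ_four]
  ring
end Cross

theorem a4_cs {n : Type*} [Fintype n] (a b : n → ℝ) : (a ⬝ᵥ b) ^ 2 ≤ (a ⬝ᵥ a) * (b ⬝ᵥ b) := by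
  simpa [dotProduct, sq] using Finset.sum_mul_sq_le_sq_mul_sq Finset.univ a b

theorem a4_self_nonneg {n : Type*} [Fintype n] (a : n → ℝ) : 0 ≤ a ⬝ᵥ a :=
  Finset.sum_nonneg fun _ _ => mul_self_nonneg _

/-- If `l ⊥ a, b` then `gram2 a b * (l ⬝ c)² ≤ |l|² |cross3 a b c|²`
(`|cross3 a b c|² = gram2 a b * dist(c, span(a,b))²`). Hint: `cross3 a b l ⬝ cross3 a b l =
gram2 * |l|²`, `cross3 a b l ⬝ cross3 a b c = gram2 * (l ⬝ c)` by `cross3_dot_cross3`, and
Cauchy–Schwarz; the cases `gram2 = 0`, `l = 0` are trivial. -/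
theorem gram2_mul_sq_le (a b c l : V4) (ha : l ⬝ᵥ a = 0) (hb : l ⬝ᵥ b = 0) :
    gram2 a b * (l ⬝ᵥ c) ^ 2 ≤ (l ⬝ᵥ l) * (cross3 a b c ⬝ᵥ cross3 a b c) := by
  have h0 : 0 ≤ gram2 a b := sub_nonneg.2 (a4_cs a b)
  have h1 : cross3 a b l ⬝ᵥ cross3 a b l = gram2 a b * (l ⬝ᵥ l) := by
    rw [cross3_dot_cross3, ha, hb, dotProduct_comm a l, dotProduct_comm b l, ha, hb, gram2]
    ring
  have h2 : cross3 a b l ⬝ᵥ cross3 a b c = gram2 a b * (l ⬝ᵥ c) := by
    rw [cross3_dot_cross3, ha, hb, gram2]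
    ring
  have h3 := a4_cs (cross3 a b l) (cross3 a b c)
  rw [h1, h2] at h3
  rcases h0.eq_or_lt with h | h
  · rw [← h, zero_mul]
    exact mul_nonneg (a4_self_nonneg _) (a4_self_nonneg _)
  · refine le_of_mul_le_mul_left ?_ h
    linarith

theorem gram2_nonneg {n : Type*} [Fintype n] (a b : n → ℝ) : 0 ≤ gram2 a b := by
  exact sub_nonneg.2 (a4_cs a b)

theorem a4_pos_iff {n : Type*} [Fintype n] (a b : n → ℝ) :
    0 < gram2 a b ↔ ∀ s t : ℝ, s • a + t • b = 0 → s = 0 ∧ t = 0 := by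
  constructor
  · intro h s t hst
    have h1 := congrArg (fun v => v ⬝ᵥ a) hst
    have h2 := congrArg (fun v => v ⬝ᵥ b) hst
    simp only [add_dotProduct, smul_dotProduct, smul_eq_mul, zero_dotProduct, dotProduct_comm b a] at h1 h2
    have h3 : s * gram2 a b = 0 := by
      rw [gram2]
      linear_combination (b ⬝ᵥ b) * h1 - (a ⬝ᵥ b) * h2
    have h4 : t * gram2 a b = 0 := by
      rw [gram2]
      linear_combination (a ⬝ᵥ a) * h2 - (a ⬝ᵥ b) * h1
    exact ⟨(mul_eq_zero.1 h3).resolve_right h.ne', (mul_eq_zero.1 h4).resolve_right h.ne'⟩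
  · intro h
    refine (gram2_nonneg a b).lt_of_ne fun h0 => ?_
    have h1 : ((b ⬝ᵥ b) • a + (-(a ⬝ᵥ b)) • b) ⬝ᵥ ((b ⬝ᵥ b) • a + (-(a ⬝ᵥ b)) • b) = 0 := by
      simp only [add_dotProduct, dotProduct_add, smul_dotProduct, dotProduct_smul, smul_eq_mul,
        dotProduct_comm b a]
      rw [gram2] at h0
      linear_combination (-(b ⬝ᵥ b)) * h0
    have h2 := (h _ _ (dotProduct_self_eq_zero.1 h1)).1
    have h3 := (h 0 1 (by rw [dotProduct_self_eq_zero.1 h2]; simp)).2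
    exact one_ne_zero h3

/-- `cross3 a b c ≠ 0` forces `a, b` independent (if `gram2 a b = 0` then one of `a, b` is a
multiple of the other). -/
theorem gram2_pos_of_cross3 {a b c : V4} (h : cross3 a b c ≠ 0) : 0 < gram2 a b := by
  refine (a4_pos_iff a b).2 fun s t hst => ?_
  have z : ∀ b : V4, cross3 0 b c = 0 := fun b => by
    ext i
    fin_cases i <;> simp [cross3, d3]
  have h1 := cross3_frame a b c s t 0 1
  have h2 := cross3_frame a b c s t 1 0
  rw [hst, z] at h1 h2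
  have h3 := (smul_eq_zero.1 h1.symm).resolve_right h
  have h4 := (smul_eq_zero.1 h2.symm).resolve_right h
  constructor <;> linarith

theorem gram2_pos_iff {n : Type*} [Fintype n] (a b : n → ℝ) :
    0 < gram2 a b ↔ ∀ s t : ℝ, s • a + t • b = 0 → s = 0 ∧ t = 0 := by
  exact a4_pos_iff a b

/-- `P⁺` only depends on the tangent plane and on `v, v', m` modulo it. -/
theorem Pplus.change {T₁ T₂ v v' m : V4} (h : Pplus T₁ T₂ v v' m) {s t u w : ℝ}
    (hdet : s * w - t * u ≠ 0) (a₁ a₂ b₁ b₂ c₁ c₂ : ℝ) :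
    Pplus (s • T₁ + t • T₂) (u • T₁ + w • T₂) (v + a₁ • T₁ + a₂ • T₂) (v' + b₁ • T₁ + b₂ • T₂)
      (m + c₁ • T₁ + c₂ • T₂) := by
  have e : ∀ (x : V4) (c₁ c₂ : ℝ), cross3 (s • T₁ + t • T₂) (u • T₁ + w • T₂) (x + c₁ • T₁ + c₂ • T₂) =
      (s * w - t * u) • cross3 T₁ T₂ x := by
    intro x c₁ c₂
    have := cross3_lin T₁ T₂ x x 1 0 c₁ c₂
    rw [one_smul, zero_smul, add_zero, one_smul, zero_smul, add_zero] at this
    rw [cross3_frame, this]
  unfold Pplus at h ⊢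
  simp only [e, smul_dotProduct, dotProduct_smul, smul_eq_mul]
  have h4 : 0 < (s * w - t * u) ^ 4 := by positivity
  have := mul_lt_mul_of_pos_left h h4
  linarith

variable {M : Type*} [TopologicalSpace M] [ChartedSpace E2 M]
variable {E : Type} [NormedAddCommGroup E] [NormedSpace ℝ E]

namespace Atl

variable [IsManifold (𝓡 2) ∞ M] (A : Atl M)

/-! ### Norm bounds -/

theorem NB.mono {A : Atl M} {k k' : ℕ} {u : M → E} {C C' : ℝ} (h : A.NB k u C) (hk : k' ≤ k)
    (hC : C ≤ C') : A.NB k' u C' := fun w hw p => (h w (hw.trans hk) p).trans hC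

theorem NB.norm_le {A : Atl M} {k : ℕ} {u : M → E} {C : ℝ} (h : A.NB k u C) (p : M) :
    ‖u p‖ ≤ C := h [] (Nat.zero_le _) p

theorem a4_succ {k : ℕ} {u : M → E} {C : ℝ} :
    A.NB (k + 1) u C ↔ (∀ p, ‖u p‖ ≤ C) ∧ ∀ α, A.NB k (A.D α u) C := by
  constructor
  · intro h
    refine ⟨h.norm_le, fun α w hw p => ?_⟩
    have := h (w ++ [α]) (by simpa using hw) p
    rwa [Dw_append] at this
  · rintro ⟨h0, h⟩ w hw p
    rcases List.eq_nil_or_concat w with rfl | ⟨w', α, rfl⟩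
    · exact h0 p
    · rw [List.concat_eq_append, Dw_append]
      exact h α w' (by simpa using hw) p

theorem a4_zero {u : M → E} {C : ℝ} : A.NB 0 u C ↔ ∀ p, ‖u p‖ ≤ C := by
  refine ⟨fun h => h.norm_le, fun h w hw p => ?_⟩
  obtain rfl : w = [] := List.length_eq_zero_iff.1 (by omega)
  exact h p

/-- Finitely many words, each `Dw w u` continuous on a compact space. -/
theorem exists_NB [CompactSpace M] (k : ℕ) {u : M → E} (hu : Sm u) : ∃ C, 0 ≤ C ∧ A.NB k u C := by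
  have h0 : ∀ {u : M → E}, Sm u → ∃ C, 0 ≤ C ∧ ∀ p, ‖u p‖ ≤ C := by
    intro u hu
    obtain ⟨C, hC⟩ := isCompact_univ.exists_bound_of_continuousOn hu.continuous.continuousOn
    exact ⟨max C 0, le_max_right _ _, fun p => (hC p trivial).trans (le_max_left _ _)⟩
  induction k generalizing u with
  | zero =>
    obtain ⟨C, hC, h⟩ := h0 hu
    exact ⟨C, hC, A.a4_zero.2 h⟩
  | succ k ih =>
    obtain ⟨C, hC, h⟩ := h0 hu
    choose B _ hB using fun α => ih (A.D_sm α hu)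
    obtain ⟨B', hB'⟩ := (Set.finite_range B).bddAbove
    exact ⟨max C B', hC.trans (le_max_left _ _), A.a4_succ.2 ⟨fun p => (h p).trans (le_max_left _ _),
      fun α => (hB α).mono le_rfl ((hB' ⟨α, rfl⟩).trans (le_max_right _ _))⟩⟩

theorem NB.add {A : Atl M} {k : ℕ} {u v : M → E} {C C' : ℝ} (hu : Sm u) (hv : Sm v)
    (h : A.NB k u C) (h' : A.NB k v C') : A.NB k (u + v) (C + C') := by
  intro w hw p
  rw [A.Dw_add w hu hv]
  exact (norm_add_le _ _).trans (add_le_add (h w hw p) (h' w hw p))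

theorem NB.sub {A : Atl M} {k : ℕ} {u v : M → E} {C C' : ℝ} (hu : Sm u) (hv : Sm v)
    (h : A.NB k u C) (h' : A.NB k v C') : A.NB k (u - v) (C + C') := by
  intro w hw p
  rw [A.Dw_sub w hu hv]
  exact (norm_sub_le _ _).trans (add_le_add (h w hw p) (h' w hw p))

theorem NB.const_smul {A : Atl M} {k : ℕ} {u : M → E} {C : ℝ} (hu : Sm u) (h : A.NB k u C)
    (c : ℝ) : A.NB k (c • u) (|c| * C) := by
  intro w hw p
  rw [A.Dw_const_smul w hu, Pi.smul_apply, norm_smul]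
  exact mul_le_mul_of_nonneg_left (h w hw p) (abs_nonneg _)

theorem NB.D {A : Atl M} {k : ℕ} {u : M → E} {C : ℝ} (h : A.NB (k + 1) u C) (α : A.Idx) :
    A.NB k (A.D α u) C := by
  exact (A.a4_succ.1 h).2 α

theorem NB_succ_iff {k : ℕ} {u : M → E} {C : ℝ} :
    A.NB (k + 1) u C ↔ (∀ p, ‖u p‖ ≤ C) ∧ ∀ α, A.NB k (A.D α u) C := by
  exact A.a4_succ

theorem NB.apply {A : Atl M} {n : Type} [Fintype n] {k : ℕ} {u : M → n → ℝ} {C : ℝ} (hu : Sm u)
    (h : A.NB k u C) (j : n) : A.NB k (fun p => u p j) C := by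
  intro w hw p
  rw [A.Dw_apply w hu]
  exact (norm_le_pi_norm _ j).trans (h w hw p)

theorem NB_pi {n : Type} [Fintype n] {k : ℕ} {u : M → n → ℝ} {C : ℝ} (hu : Sm u) (hC : 0 ≤ C)
    (h : ∀ j, A.NB k (fun p => u p j) C) : A.NB k u C := by
  intro w hw p
  refine (pi_norm_le_iff_of_nonneg hC).2 fun j => ?_
  have := h j w hw p
  rwa [A.Dw_apply w hu] at this

theorem a4_graded {Λ : ℝ} (n : ℕ) : ∀ (w : List A.Idx) (a : M → ℝ) (u : M → E) (C C' : ℝ), w.length = n →
    Sm a → Sm u → (∀ j ≤ n, A.NB j a (C * Λ ^ j)) → (∀ j ≤ n, A.NB j u (C' * Λ ^ j)) →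
    ∀ p, ‖A.Dw w (fun p => a p • u p) p‖ ≤ 2 ^ n * C * C' * Λ ^ n := by
  induction n with
  | zero =>
    intro w a u C C' hw ha hu h h' p
    obtain rfl : w = [] := List.length_eq_zero_iff.1 hw
    have h1 := (h 0 le_rfl).norm_le p
    have h2 := (h' 0 le_rfl).norm_le p
    simp only [pow_zero, mul_one, one_mul] at h1 h2 ⊢
    exact (norm_smul _ _).trans_le (mul_le_mul h1 h2 (norm_nonneg _) ((norm_nonneg _).trans h1))
  | succ n ih =>
    intro w a u C C' hw ha hu h h' p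
    rcases List.eq_nil_or_concat w with rfl | ⟨w', α, rfl⟩
    · simp at hw
    have hw' : w'.length = n := by simpa using hw
    have e : A.Dw [α] (fun p => a p • u p) =
        (fun p => a p • A.D α u p) + fun p => A.D α a p • u p := funext fun q => A.D_smul α ha hu q
    rw [List.concat_eq_append, Dw_append, e, A.Dw_add w' (ha.smul (A.D_sm α hu)) ((A.D_sm α ha).smul hu)]
    have h1 := ih w' a (A.D α u) C (C' * Λ) hw' ha (A.D_sm α hu) (fun j hj => h j (by omega))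
      (fun j hj => ((h' (j + 1) (by omega)).D α).mono le_rfl (le_of_eq (by ring))) p
    have h2 := ih w' (A.D α a) u (C * Λ) C' hw' (A.D_sm α ha) hu
      (fun j hj => ((h (j + 1) (by omega)).D α).mono le_rfl (le_of_eq (by ring)))
      (fun j hj => h' j (by omega)) p
    refine (norm_add_le _ _).trans ((add_le_add h1 h2).trans (le_of_eq (by ring)))

theorem a4_graded' {k : ℕ} {a : M → ℝ} {u : M → E} {C C' Λ : ℝ} (ha : Sm a) (hu : Sm u)
    (hΛ : 1 ≤ Λ) (h : ∀ j ≤ k, A.NB j a (C * Λ ^ j)) (h' : ∀ j ≤ k, A.NB j u (C' * Λ ^ j)) :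
    A.NB k (fun p => a p • u p) (2 ^ k * C * C' * Λ ^ k) := by
  intro w hw p
  have h1 := (norm_nonneg _).trans ((h 0 (Nat.zero_le _)).norm_le p)
  have h2 := (norm_nonneg _).trans ((h' 0 (Nat.zero_le _)).norm_le p)
  rw [pow_zero, mul_one] at h1 h2
  refine (A.a4_graded _ w a u C C' rfl ha hu (fun j hj => h j (hj.trans hw))
    (fun j hj => h' j (hj.trans hw)) p).trans ?_
  gcongr
  norm_num

/-- Crude Leibniz bound (induction on `k` with `NB_succ_iff`, `D_smul`). -/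
theorem NB.smul {A : Atl M} {k : ℕ} {a : M → ℝ} {u : M → E} {C C' : ℝ} (ha : Sm a) (hu : Sm u)
    (h : A.NB k a C) (h' : A.NB k u C') : A.NB k (fun p => a p • u p) (2 ^ k * C * C') := by
  simpa using A.a4_graded' (Λ := 1) (C := C) (C' := C') ha hu le_rfl
    (fun j hj => h.mono hj (by simp)) (fun j hj => h'.mono hj (by simp))

/-- Graded Leibniz bound: `‖a‖_j ≤ C Λ^j`, `‖u‖_j ≤ C' Λ^j` for `j ≤ k`. Prove first, by
induction on `w` generalizing `a u C C' k`, the bound for `‖Dw w (a • u) p‖` (peel off the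
innermost letter with `Dw_append`; `D α a` satisfies the hypothesis with `C Λ`). -/
theorem NB_smul_graded {k : ℕ} {a : M → ℝ} {u : M → E} {C C' Λ : ℝ} (ha : Sm a) (hu : Sm u)
    (hΛ : 1 ≤ Λ) (h : ∀ j ≤ k, A.NB j a (C * Λ ^ j)) (h' : ∀ j ≤ k, A.NB j u (C' * Λ ^ j)) :
    A.NB k (fun p => a p • u p) (2 ^ k * C * C' * Λ ^ k) := by
  exact A.a4_graded' ha hu hΛ h h'

theorem NB_dot_graded {k : ℕ} {u v : M → V4} {C C' Λ : ℝ} (hu : Sm u) (hv : Sm v)
    (hΛ : 1 ≤ Λ) (h : ∀ j ≤ k, A.NB j u (C * Λ ^ j)) (h' : ∀ j ≤ k, A.NB j v (C' * Λ ^ j)) :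
    A.NB k (fun p => u p ⬝ᵥ v p) (4 * 2 ^ k * C * C' * Λ ^ k) := by
  have s : ∀ j, Sm fun p => u p j • v p j := fun j => (hu.apply j).smul (hv.apply j)
  have b : ∀ j, A.NB k (fun p => u p j • v p j) (2 ^ k * C * C' * Λ ^ k) := fun j =>
    A.a4_graded' (hu.apply j) (hv.apply j) hΛ (fun i hi => (h i hi).apply hu j) fun i hi => (h' i hi).apply hv j
  have e : (fun p => u p ⬝ᵥ v p) = (fun p => u p 0 • v p 0) + (fun p => u p 1 • v p 1) +
      (fun p => u p 2 • v p 2) + fun p => u p 3 • v p 3 := by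
    funext p
    simp [dotProduct, Fin.sum_univ_four]
  rw [e]
  exact (NB.add (((s 0).add (s 1)).add (s 2)) (s 3) (NB.add ((s 0).add (s 1)) (s 2)
    (NB.add (s 0) (s 1) (b 0) (b 1)) (b 2)) (b 3)).mono le_rfl (le_of_eq (by ring))

/-! ### Tensors -/

theorem isTen_pull {n : Type} [Fintype n] {f : M → n → ℝ} (hf : Sm f) : A.IsTen (A.pull f) := by
  refine ⟨fun α β => (A.D_sm α hf).dot (A.D_sm β hf), fun α β p => dotProduct_comm _ _,
    fun i p hp α β => ?_⟩
  unfold pull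
  rw [A.D_chart α i hf hp, A.D_chart β i hf hp]
  simp only [Fin.sum_univ_two, add_dotProduct, dotProduct_add, smul_dotProduct, dotProduct_smul, smul_eq_mul]
  ring

theorem isTen_dsq {u : M → ℝ} (hu : Sm u) : A.IsTen (A.dsq u) := by
  refine ⟨fun α β => (A.D_sm α hu).mul (A.D_sm β hu), fun α β p => mul_comm _ _, fun i p hp α β => ?_⟩
  unfold dsq
  rw [A.D_chart α i hu hp, A.D_chart β i hu hp]
  simp only [Fin.sum_univ_two, smul_eq_mul]
  ring

theorem IsTen.add {A : Atl M} {G H : A.Ten} (hG : A.IsTen G) (hH : A.IsTen H) :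
    A.IsTen (fun α β p => G α β p + H α β p) := by
  refine ⟨fun α β => (hG.sm α β).add (hH.sm α β), fun α β p => by rw [hG.symm, hH.symm],
    fun i p hp α β => ?_⟩
  rw [hG.comp i p hp α β, hH.comp i p hp α β]
  simp only [Fin.sum_univ_two]
  ring

theorem IsTen.sub {A : Atl M} {G H : A.Ten} (hG : A.IsTen G) (hH : A.IsTen H) :
    A.IsTen (fun α β p => G α β p - H α β p) := by
  refine ⟨fun α β => (hG.sm α β).sub (hH.sm α β), fun α β p => by rw [hG.symm, hH.symm],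
    fun i p hp α β => ?_⟩
  rw [hG.comp i p hp α β, hH.comp i p hp α β]
  simp only [Fin.sum_univ_two]
  ring

theorem IsTen.mul {A : Atl M} {G : A.Ten} (hG : A.IsTen G) {a : M → ℝ} (ha : Sm a) :
    A.IsTen (fun α β p => a p * G α β p) := by
  refine ⟨fun α β => ha.mul (hG.sm α β), fun α β p => by rw [hG.symm], fun i p hp α β => ?_⟩
  rw [hG.comp i p hp α β]
  simp only [Fin.sum_univ_two]
  ring

theorem IsTen.sum {A : Atl M} {ι : Type*} (s : Finset ι) {G : ι → A.Ten}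
    (hG : ∀ i ∈ s, A.IsTen (G i)) : A.IsTen (fun α β p => ∑ i ∈ s, G i α β p) := by
  refine ⟨fun α β => Sm.sum s fun i hi => (hG i hi).sm α β,
    fun α β p => Finset.sum_congr rfl fun i hi => (hG i hi).symm α β p, fun i p hp α β => ?_⟩
  rw [Finset.sum_congr rfl fun j hj => (hG j hj).comp i p hp α β]
  simp only [Fin.sum_univ_two, Finset.mul_sum, Finset.sum_add_distrib]

/-- Positivity at a point does not depend on the chart: `∑ v a v b G (i,a) (i,b)` equals
`∑ w c w d G (i',c) (i',d)` with `w c = ∑ a, v a * D (i,a) (x i' c)`, and `w ≠ 0` because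
`∑ c, D (i,a) (x i' c) * D (i',c) (x i b) = δ a b` (`D_chart`, `D_x`). -/
theorem posDef_of_exists {G : A.Ten} (hG : A.IsTen G)
    (h : ∀ p, ∃ i, p ∈ A.O i ∧ ∀ v : Fin 2 → ℝ, v ≠ 0 →
      0 < ∑ a, ∑ b, v a * v b * G (i, a) (i, b) p) : A.PosDef G := by
  intro i' p hp' v hv
  obtain ⟨i, hp, hi⟩ := h p
  have h1 := hi (fun c => v 0 * A.D (i', 0) (A.x i c) p + v 1 * A.D (i', 1) (A.x i c) p) fun hw => by
    have w0 := congrFun hw 0
    have w1 := congrFun hw 1
    have e := fun a b => (A.D_x i' a b hp').symm.trans (A.D_chart (i', a) i (A.x_sm i' b) hp)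
    have e00 := e 0 0
    have e01 := e 0 1
    have e10 := e 1 0
    have e11 := e 1 1
    simp only [Pi.zero_apply, smul_eq_mul, if_true, Fin.zero_eq_one_iff, Fin.one_eq_zero_iff,
      OfNat.ofNat_ne_one, if_false] at w0 w1 e00 e01 e10 e11
    refine hv (funext fun a => ?_)
    fin_cases a
    · change v 0 = 0
      linear_combination v 0 * e00 + v 1 * e10 + A.D (i, 0) (A.x i' 0) p * w0 + A.D (i, 1) (A.x i' 0) p * w1
    · change v 1 = 0
      linear_combination v 0 * e01 + v 1 * e11 + A.D (i, 0) (A.x i' 1) p * w0 + A.D (i, 1) (A.x i' 1) p * w1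
  refine h1.trans_eq ?_
  simp only [Fin.sum_univ_two]
  rw [hG.comp i p hp (i', 0) (i', 0), hG.comp i p hp (i', 0) (i', 1), hG.comp i p hp (i', 1) (i', 0),
    hG.comp i p hp (i', 1) (i', 1)]
  simp only [Fin.sum_univ_two]
  ring

/-- Compactness of `K i × (unit circle)`. -/
theorem exists_posB [CompactSpace M] {G : A.Ten} (hG : A.IsTen G) (h : A.PosDef G) :
    ∃ B, 1 ≤ B ∧ A.PosB G B := by
  have hd : ∀ i, ∀ p ∈ A.K i, 0 < G (i, 0) (i, 0) p * G (i, 1) (i, 1) p - G (i, 0) (i, 1) p ^ 2 := by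
    intro i p hp
    have h1 := h i p (A.K_sub_O i hp) ![1, 0] (by simp)
    simp only [Fin.sum_univ_two, Matrix.cons_val_zero, Matrix.cons_val_one] at h1
    have h0 : 0 < G (i, 0) (i, 0) p := by linarith
    have h2 := h i p (A.K_sub_O i hp) ![-G (i, 0) (i, 1) p, G (i, 0) (i, 0) p] (by simp [h0.ne'])
    simp only [Fin.sum_univ_two, Matrix.cons_val_zero, Matrix.cons_val_one] at h2
    rw [hG.symm (i, 1) (i, 0)] at h2
    refine (mul_pos_iff_of_pos_left h0).1 ?_
    linarith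
  choose C1 _ h1 using fun x : A.Idx × A.Idx => A.exists_NB 0 (hG.sm x.1 x.2)
  have h2 : ∀ i, ∃ C, ∀ p ∈ A.K i, ‖(G (i, 0) (i, 0) p + G (i, 1) (i, 1) p) /
      (G (i, 0) (i, 0) p * G (i, 1) (i, 1) p - G (i, 0) (i, 1) p ^ 2)‖ ≤ C := by
    intro i
    have c := fun α β => (hG.sm α β).continuous
    exact (isClosed_tsupport _).isCompact.exists_bound_of_continuousOn
      (((c _ _).add (c _ _)).continuousOn.div (((c _ _).mul (c _ _)).sub ((c _ _).pow 2)).continuousOn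
        fun p hp => (hd i p hp).ne')
  choose C2 h2 using h2
  obtain ⟨B1, hB1⟩ := (Set.finite_range C1).bddAbove
  obtain ⟨B2, hB2⟩ := (Set.finite_range C2).bddAbove
  refine ⟨max 1 (max B1 B2), le_max_left _ _, fun i p hp => ⟨fun a b => ?_, fun v => ?_⟩⟩
  · exact ((h1 ((i, a), (i, b))).norm_le p).trans ((hB1 ⟨_, rfl⟩).trans (le_max_of_le_right (le_max_left _ _)))
  · have h3 := (le_abs_self _).trans ((h2 i p hp).trans ((hB2 ⟨i, rfl⟩).trans
      (le_max_of_le_right (le_max_right B1 B2) : B2 ≤ max 1 (max B1 B2))))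
    have h4 : 0 ≤ ∑ a, ∑ b, v a * v b * G (i, a) (i, b) p := by
      by_cases hv : v = 0
      · simp [hv]
      · exact (h i p (A.K_sub_O i hp) v hv).le
    refine le_trans ?_ (mul_le_mul_of_nonneg_right h3 h4)
    rw [div_mul_eq_mul_div, le_div_iff₀ (hd i p hp)]
    simp only [dotProduct, Fin.sum_univ_two]
    rw [hG.symm (i, 1) (i, 0)]
    nlinarith [sq_nonneg (G (i, 0) (i, 0) p * v 0 + G (i, 0) (i, 1) p * v 1),
      sq_nonneg (G (i, 0) (i, 1) p * v 0 + G (i, 1) (i, 1) p * v 1)]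

theorem PosB.posDef {A : Atl M} {G : A.Ten} {B : ℝ} (hG : A.IsTen G) (hB : 0 < B)
    (h : A.PosB G B) : A.PosDef G := by
  refine A.posDef_of_exists hG fun p => ?_
  obtain ⟨i, -, hK, hO⟩ := A.exists_K p
  refine ⟨i, hO, fun v hv => ?_⟩
  have h1 : 0 < v ⬝ᵥ v := (a4_self_nonneg v).lt_of_ne fun e => hv (dotProduct_self_eq_zero.1 e.symm)
  exact (mul_pos_iff_of_pos_left hB).1 (h1.trans_le ((h i p hK).2 v))

/-- Stability of `PosB`. -/
theorem PosB.perturb {A : Atl M} {G G' : A.Ten} {B : ℝ} (hB : 1 ≤ B) (h : A.PosB G B)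
    (h' : ∀ α β p, |G' α β p - G α β p| ≤ 1 / (4 * B)) : A.PosB G' (2 * B) := by
  intro i p hp
  obtain ⟨h1, h2⟩ := h i p hp
  have hB0 : 0 < B := by linarith
  have hε : 1 / (4 * B) ≤ B := by
    rw [div_le_iff₀ (by positivity)]
    nlinarith
  refine ⟨fun a b => ?_, fun v => ?_⟩
  · have := abs_add_le (G' (i, a) (i, b) p - G (i, a) (i, b) p) (G (i, a) (i, b) p)
    rw [sub_add_cancel] at this
    linarith [h1 a b, h' (i, a) (i, b) p]
  · have key : ∀ a b, B * (v a * v b * G (i, a) (i, b) p) - (v a * v a + v b * v b) / 8 ≤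
        B * (v a * v b * G' (i, a) (i, b) p) := by
      intro a b
      have e1 := abs_le.1 (h' (i, a) (i, b) p)
      have e2 : -(1 / 4) ≤ B * (G' (i, a) (i, b) p - G (i, a) (i, b) p) := by
        have := mul_le_mul_of_nonneg_left e1.1 hB0.le
        rwa [show B * -(1 / (4 * B)) = -(1 / 4) by field_simp] at this
      have e3 : B * (G' (i, a) (i, b) p - G (i, a) (i, b) p) ≤ 1 / 4 := by
        have := mul_le_mul_of_nonneg_left e1.2 hB0.le
        rwa [show B * (1 / (4 * B)) = 1 / 4 by field_simp] at this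
      nlinarith [mul_nonneg (sq_nonneg (v a + v b)) (sub_nonneg.2 e2),
        mul_nonneg (sq_nonneg (v a - v b)) (sub_nonneg.2 e3)]
    have h3 := h2 v
    simp only [dotProduct, Fin.sum_univ_two] at h3 ⊢
    linarith [key 0 0, key 0 1, key 1 0, key 1 1]

/-- A uniform margin by compactness (the sum over all `α β γ δ` of `|NII|²` is continuous and
positive). -/
theorem exists_IIm [CompactSpace M] {f : M → V4} (hf : Sm f)
    (h : ∀ p, ∃ α β γ δ, A.NII f α β γ δ p ≠ 0) : ∃ m, 0 < m ∧ A.IIm f m := by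
  let g : A.Idx × A.Idx × A.Idx × A.Idx → M → ℝ := fun j p =>
    A.NII f j.1 j.2.1 j.2.2.1 j.2.2.2 p ⬝ᵥ A.NII f j.1 j.2.1 j.2.2.1 j.2.2.2 p
  have hc : ∀ j, Continuous (g j) := by
    intro j
    have c1 := (A.D_sm j.1 hf).continuous
    have c2 := (A.D_sm j.2.1 hf).continuous
    have c3 := (A.D_sm j.2.2.1 (A.D_sm j.2.2.2 hf)).continuous
    simp only [g, NII, cross3_dot_cross3]
    fun_prop
  obtain ⟨m, hm, hm'⟩ := isCompact_univ.exists_forall_le' (a := 0) (f := fun p => ∑ j, g j p)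
    (continuous_finsetSum _ fun j _ => hc j).continuousOn fun p _ => by
      obtain ⟨α, β, γ, δ, hp⟩ := h p
      refine Finset.sum_pos' (fun j _ => a4_self_nonneg _) ⟨(α, β, γ, δ), Finset.mem_univ _, ?_⟩
      exact (a4_self_nonneg _).lt_of_ne fun e => hp (dotProduct_self_eq_zero.1 e.symm)
  refine ⟨m / (Fintype.card (A.Idx × A.Idx × A.Idx × A.Idx) + 1), by positivity, fun p => ?_⟩
  by_contra hp
  push Not at hp
  have h1 := Finset.sum_le_card_nsmul Finset.univ (fun j => g j p) _ fun j _ => (hp j.1 j.2.1 j.2.2.1 j.2.2.2).le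
  have h2 := hm' p trivial
  rw [Finset.card_univ, nsmul_eq_mul, ← mul_div_assoc, le_div_iff₀ (by positivity)] at h1
  have h3 : (0 : ℝ) ≤ Fintype.card (A.Idx × A.Idx × A.Idx × A.Idx) := by positivity
  nlinarith

/-- Second derivatives along vector fields, modulo tangential terms: if on an open set
`W ⊆ O i` we have `Z u = ξ X u + ζ Y u`... stated for `D`: on `O i`,
`D γ (D δ f) = ∑ D γ x^a * D δ x^b • D_a D_b f + tangential`. -/
theorem DD_chart (γ δ : A.Idx) (i : Fin A.n) {f : M → E} (hf : Sm f) {p : M} (hp : p ∈ A.O i) :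
    A.D γ (A.D δ f) p =
      ∑ a : Fin 2, ∑ b : Fin 2, (A.D γ (A.x i a) p * A.D δ (A.x i b) p) •
          A.D (i, a) (A.D (i, b) f) p
        + A.D γ (A.D δ (A.x i 0)) p • A.D (i, 0) f p
        + A.D γ (A.D δ (A.x i 1)) p • A.D (i, 1) f p := by
  have s := fun b => A.D_sm δ (A.x_sm i b)
  have t := fun b => A.D_sm (i, b) hf
  have e : A.D δ f =ᶠ[𝓝 p] (fun q => A.D δ (A.x i 0) q • A.D (i, 0) f q) +
      fun q => A.D δ (A.x i 1) q • A.D (i, 1) f q :=
    Filter.eventually_of_mem ((A.O_open i).mem_nhds hp) fun q hq => A.D_chart δ i hf hq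
  rw [A.D_congr γ e, A.D_add γ ((s 0).smul (t 0)) ((s 1).smul (t 1)), Pi.add_apply,
    A.D_smul γ (s 0) (t 0), A.D_smul γ (s 1) (t 1), A.D_chart γ i (t 0) hp, A.D_chart γ i (t 1) hp]
  simp only [Fin.sum_univ_two]
  module

end Atl

end Crest.Agent.R216
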