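import Crest.Agent.R216.ApproxC

/-!
# R216: transplanting the local theorem

PLAN (SUB-LEAD or one strong seat; new files `R216/Approx*.lean`).

Let `i = ch j`, `t = t j`, `Ψ = Psi i t`, `K₀ = {s j ≥ 0}` (closed, `⊆ O i`), `W, ρ` from `exists_down`. `ι = {k : Fin m // j < k}`.
Descend `f, c j, s k, c k, η k, ξ k = Y_k (η j), ζ k = Y_k (x i 1)`; `s = down (s j + 1) - 1`, so `{s ≥ 0} = Ψ '' K₀` (`ρ ≤ 1`).
KEY FACT 1: if `v (Ψ p) = u p` on the open `W` then `dx v (Ψ p) = X u p`, `dy v (Ψ p) = Y u p` on `W` (`D_congr`, `D_Psi`, `X_eta`, …); iterate for second derivatives.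
KEY FACT 2 (on `O i`, smooth `g`): `Y_k g = ξ k • X g + ζ k • Y g` (`D_shear` twice), hence
`Y_k' (Y_k g) = Jet.B (X g, Y g, X X g, X Y g, Y Y g) ξ' ζ' ξ ζ + tangential terms` (`D_smul`, `XY_comm`), also for `k' = j` (`ξ = 0, ζ = 1`),
`D γ g`, `X_k g`, `Y_k g` are combinations of `X g, Y g`; for `p ∈ O (ch k)` the pair `(X_k g, Y_k g)` is obtained by an invertible matrix (apply the
formula to `η k`, `x (ch k) 1`). Use `Pplus.change`, `cross3_lin`, `cross3_frame`, `gram2_pos_of_cross3` to fill the fields of `LocData`.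
`Qs` = image under `Ψ` of the finite set of `q` with `s j q > 0`, `s j' q = 0 = s k q` for some `j' ≠ k`. Apply `hL` with `C₁ = (1 + |t|)²`.
`f₁ = f + ρ • U ∘ Ψ`, `κ₁ = ρ * κ ∘ Ψ`: equal to `f + U ∘ Ψ` on `W`, and to `f`, `0` on the open set `K₀ᶜ` (`Psi_injOn`).
NORMS: for smooth `a` and every word `w` there is `C` with `‖Dw w (a • v ∘ Ψ)‖ ≤ C * sup_{|w'| ≤ |w|} ‖pdw w' v‖` for all `v` (induction on `w` peeling the
innermost letter, generalizing `a`; `D_Psi`).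
METRIC ERROR: both sides are tensors; on `K₀` expand with `D_shear` (`D α η`, `D α y` are bounded), off `K₀` the error is `0`
(`amp j = 0` there).
OPENNESS (JL0): there is `e > 0` such that for every point `p` and smooth `f'` with `‖Dw w f' p - Dw w f p‖ ≤ e` for `|w| ≤ 2`: some `NII f' … p ≠ 0`,
`HAt j f' p`, and `PAt j' k f' p` whenever `Special j j' k p` (finitely many points: `Cover.fin`). For `HAt`: near `p₀ ∈ O i₀` with witness `l₀`, use
`l = l₀ - a • D (i₀,0) f' p - b • D (i₀,1) f' p`, the orthogonal projection (scaled by `gram2` it is a polynomial in the jet), continuity in `(p, jet)`, closedness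
of `{s k ≥ 0}`, then a finite subcover (tube lemma). `Y_k (Y_k g)` is a fixed combination of the `D γ (D δ g)`.
CONCLUSION: on `K₀` use `JGood`; for `Special (j+1) j' k q`: `s j q < 0` gives `Special j j' k q` (JL0), `s j q = 0` is excluded by `notriple`,
`s j q > 0` gives `Ψ q ∈ Qs`. `IIm f₁`: `exists_IIm` off `K₀`; on `K₀`, `cross3 (X g) (Y g) = cross3 (D₀ g) (D₁ g)` and `X X, X Y, Y Y` are
combinations of `D_a D_b` with coefficients `≤ (1 + |t|)²` in total.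
-/

set_option autoImplicit false
set_option linter.unusedSectionVars false

open scoped Manifold ContDiff Topology
open Matrix Filter

noncomputable section

namespace Crest.Agent.R216

variable {M : Type*} [TopologicalSpace M] [T2Space M] [CompactSpace M] [ChartedSpace E2 M]
  [IsManifold (𝓡 2) ∞ M]

namespace Atl.Cover

variable {A : Atl M} {C : A.Cover} {j : Fin C.m} {f : M → V4} {c : Fin C.m → M → ℝ}
  {L : LocData {k : Fin C.m // j < k}} {W : Set M} {ρ : M → ℝ}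

theorem Rep.up_ev (R : C.Rep j f c L W ρ) {E : Type} [NormedAddCommGroup E] [NormedSpace ℝ E]
    {v : ℝ × ℝ → E} (hv : ∀ z, L.s z ≤ 0 → v z = 0) {p : M} (hp : C.s j p < 0) :
    ∀ᶠ q in 𝓝 p, ρ q • v (C.Ps j q) = 0 := by
  have : ∀ᶠ q in 𝓝 p, C.s j q < 0 :=
    (isOpen_lt (C.s_sm j).continuous continuous_const).mem_nhds hp
  filter_upwards [this] with q hq
  by_cases hO : q ∈ A.O (C.ch j)
  · rw [hv _ (R.s_neg q hO hq).le, smul_zero]
  · rw [R.ρ_out q hO, zero_smul]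

theorem Rep.pull (R : C.Rep j f c L W ρ) {g : M → V4} (hg : Sm g) {v : ℝ × ℝ → V4}
    (hv : ContDiff ℝ ∞ v) (h : ∀ p ∈ W, v (C.Ps j p) = g p) (α β : A.Idx) {p : M} (hp : p ∈ W) :
    A.pull g α β p =
      A.D α (C.eta j) p * A.D β (C.eta j) p * (dx v (C.Ps j p) ⬝ᵥ dx v (C.Ps j p)) +
      (A.D α (C.eta j) p * A.D β (A.x (C.ch j) 1) p + A.D α (A.x (C.ch j) 1) p * A.D β (C.eta j) p) *
        (dx v (C.Ps j p) ⬝ᵥ dy v (C.Ps j p)) +
      A.D α (A.x (C.ch j) 1) p * A.D β (A.x (C.ch j) 1) p * (dy v (C.Ps j p) ⬝ᵥ dy v (C.Ps j p)) := by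
  have hO := R.W_sub hp
  obtain ⟨h1, h2⟩ := A.apx_d_down (C.ch j) (C.t j) R.W_open R.W_sub hv h
  rw [h1 p hp, h2 p hp, Atl.pull, A.D_shear α (C.ch j) (C.t j) hg hO,
    A.D_shear β (C.ch j) (C.t j) hg hO]
  simp only [add_dotProduct, dotProduct_add, smul_dotProduct, dotProduct_smul, smul_eq_mul, Cover.eta]
  rw [dotProduct_comm (A.Y (C.ch j) (C.t j) g p) (A.X (C.ch j) g p)]
  ring

end Atl.Cover

theorem apx_err {a a' b b' e₁ e₂ e₃ B ε : ℝ} (ha : |a| ≤ B) (ha' : |a'| ≤ B) (hb : |b| ≤ B)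
    (hb' : |b'| ≤ B) (h1 : |e₁| ≤ ε) (h2 : |e₂| ≤ ε) (h3 : |e₃| ≤ ε) :
    |a * a' * e₁ + (a * b' + b * a') * e₂ + b * b' * e₃| ≤ 4 * B ^ 2 * ε := by
  have hB : 0 ≤ B := (abs_nonneg _).trans ha
  have k : ∀ x y z : ℝ, |x| ≤ B → |y| ≤ B → |z| ≤ ε → |x * y * z| ≤ B ^ 2 * ε := by
    intro x y z hx hy hz
    rw [abs_mul, abs_mul, sq]
    gcongr
  have e : a * a' * e₁ + (a * b' + b * a') * e₂ + b * b' * e₃ =
      a * a' * e₁ + a * b' * e₂ + b * a' * e₂ + b * b' * e₃ := by ring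
  rw [e]
  have := k _ _ _ ha ha' h1
  have := k _ _ _ ha hb' h2
  have := k _ _ _ hb ha' h2
  have := k _ _ _ hb hb' h3
  have := abs_add_le (a * a' * e₁ + a * b' * e₂ + b * a' * e₂) (b * b' * e₃)
  have := abs_add_le (a * a' * e₁ + a * b' * e₂) (b * a' * e₂)
  have := abs_add_le (a * a' * e₁) (a * b' * e₂)
  linarith

theorem approx_of_loc {A : Atl M} (C : A.Cover) (hL : LocStmt) : C.ApproxStmt := by
  intro G j f c hI N
  obtain ⟨L, W, ρ, R⟩ := C.exists_rep hI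
  have hf := hI.sm
  -- the finite set of points
  have hfin : {q | 0 < C.s j q ∧ ∃ j' k, j' ≠ k ∧ C.s j' q = 0 ∧ C.s k q = 0}.Finite := by
    refine (Set.finite_iUnion fun j' : Fin C.m => Set.finite_iUnion fun k : Fin C.m =>
      (Set.Finite.subset (s := {q | j' ≠ k ∧ C.s j' q = 0 ∧ C.s k q = 0}) ?_ subset_rfl)).subset ?_
    · by_cases h : j' = k
      · simp [h]
      · exact (C.fin j' k h).subset fun q hq => hq.2
    · rintro q ⟨-, j', k, h⟩
      exact Set.mem_iUnion.2 ⟨j', Set.mem_iUnion.2 ⟨k, h⟩⟩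
  classical
  obtain ⟨Cs, m₀, lam₀, hm₀, hloc⟩ := hL _ L (hfin.toFinset.image (C.Ps j)) (by
    intro z hz
    obtain ⟨q, hq, rfl⟩ := Finset.mem_image.1 hz
    have hq' := (hfin.mem_toFinset.1 hq).1
    rw [R.s_eq q (R.K_sub q hq'.le)]
    exact hq') N ((1 + |C.t j|) ^ 2)
  obtain ⟨e, he, hopen⟩ := apx_open C j hf hI.good
  obtain ⟨m₁, hm₁, hII⟩ := A.exists_IIm hf hI.good.ii
  choose Cf Cf0 hCf using fun k => A.exists_NB k hf
  choose Cu Cu0 hCu using fun k => apx_norms (E := V4) A (C.ch j) (C.t j) k ρ R.ρ_sm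
  choose Ck Ck0 hCk using fun k => apx_norms (E := ℝ) A (C.ch j) (C.t j) k ρ R.ρ_sm
  obtain ⟨B₁, hB₁, hB₁'⟩ := A.exists_NB 1 (u := C.eta j) (A.eta_sm _ _)
  obtain ⟨B₂, hB₂, hB₂'⟩ := A.exists_NB 1 (A.x_sm (C.ch j) 1)
  have ha : ∀ α p, |A.D α (C.eta j) p| ≤ B₁ + B₂ := fun α p =>
    (hB₁' [α] le_rfl p).trans (le_add_of_nonneg_right hB₂)
  have hb : ∀ α p, |A.D α (A.x (C.ch j) 1) p| ≤ B₁ + B₂ := fun α p =>
    (hB₂' [α] le_rfl p).trans (le_add_of_nonneg_left hB₁)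
  generalize B₁ + B₂ = B at ha hb
  set Z : ℕ → ℝ := fun k => ∑ l ∈ Finset.range (k + 1), |Cs l| with hZ
  have Z0 : ∀ k, 0 ≤ Z k := fun k => Finset.sum_nonneg fun _ _ => abs_nonneg _
  have Zle : ∀ l k, l ≤ k → Cs l ≤ Z k := fun l k h => (le_abs_self _).trans
    (Finset.single_le_sum (f := fun l => |Cs l|) (fun _ _ => abs_nonneg _)
      (Finset.mem_range.2 (Nat.lt_succ_of_le h)))
  set K0 : ℝ := (4 * B ^ 2 + 1) * |Cs 0| with hK0
  have K00 : 0 ≤ K0 := by positivity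
  have ht : 0 < 4 * (1 + C.t j ^ 2) ^ 2 := by positivity
  refine ⟨fun k => K0 + (Cf k + Cu k * Z k + Ck k * Z k), min m₁ (m₀ / (4 * (1 + C.t j ^ 2) ^ 2)),
    max lam₀ (max 1 e⁻¹), lt_min hm₁ (div_pos hm₀ ht), fun lam hlam => ?_⟩
  have l1 : 1 ≤ lam := (le_max_left _ _).trans ((le_max_right _ _).trans hlam)
  have l0 : 0 < lam := one_pos.trans_le l1
  have le : lam⁻¹ ≤ e :=
    (inv_le_comm₀ l0 he).2 ((le_max_right _ _).trans ((le_max_right _ _).trans hlam))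
  obtain ⟨U, κ, hU, hκ, h0, hn, hκ0, hmet, hJ⟩ := hloc lam ((le_max_left _ _).trans hlam)
  have hUs : Sm fun p => ρ p • U (C.Ps j p) := R.ρ_sm.smul ((A.Psi_sm _ _).comp hU)
  have hκs : Sm fun p => ρ p • κ (C.Ps j p) := R.ρ_sm.smul ((A.Psi_sm _ _).comp hκ)
  have hf₁ := hf.add hUs
  set f₁ : M → V4 := f + fun p => ρ p • U (C.Ps j p) with hf₁d
  have ev : ∀ p, C.s j p < 0 → f₁ =ᶠ[𝓝 p] f := fun p hp => by
    filter_upwards [R.up_ev (fun z hz => (h0 z hz).1) hp] with q hq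
    rw [hf₁d, Pi.add_apply, hq, add_zero]
  have hLU : ContDiff ℝ ∞ (L.f + U) := L.f_sm.add hU
  have onW : ∀ p ∈ W, (L.f + U) (C.Ps j p) = f₁ p := fun p hp => by
    rw [hf₁d, Pi.add_apply, Pi.add_apply, R.f_eq p hp, R.ρ_one p hp, one_smul]
  have hs : ∀ p, 0 ≤ C.s j p → 0 ≤ L.s (C.Ps j p) := fun p hp => by
    rw [R.s_eq p (R.K_sub p hp)]; exact hp
  have hZl : ∀ k (w : List Bool), w.length ≤ k → Cs w.length * lam ^ w.length ≤ Z k * lam ^ k :=
    fun k w hw => (mul_le_mul_of_nonneg_right (Zle _ _ hw) (by positivity)).trans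
      (mul_le_mul_of_nonneg_left (pow_le_pow_right₀ l1 hw) (Z0 k))
  have R0 : ∀ k, 0 ≤ Cf k + Cu k * Z k + Ck k * Z k := fun k => by
    have := Cf0 k; have := Cu0 k; have := Ck0 k; have := Z0 k
    positivity
  have jg : ∀ f' : M → V4, Sm f' → A.NB 2 (f' - f₁) lam⁻¹ → ∀ p, 0 ≤ C.s j p →
      L.JGood (hfin.toFinset.image (C.Ps j)) m₀ (C.Ps j p) (A.jetM (C.ch j) (C.t j) f' p) := by
    intro f' hf' hc p hp
    refine hJ _ (hs p hp) _ ?_
    rw [A.apx_jet_down (C.ch j) (C.t j) R.W_open R.W_sub hLU onW (R.K_sub p hp), div_eq_mul_inv]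
    exact A.apx_close _ _ hf₁ hf' p hc
  refine ⟨f₁, fun p => ρ p • κ (C.Ps j p), hf₁, hκs, fun k => ⟨?_, ?_⟩, fun p => ?_,
    fun α β p => ?_, fun p => ?_, fun f' hf' hc => ?_⟩
  · refine (Atl.NB.add hf hUs (hCf k) (hCu k U _ hU fun w hw z =>
      (hn w z).1.trans (hZl k w hw))).mono le_rfl ?_
    have h1 : 1 ≤ lam ^ k := one_le_pow₀ l1
    have := Cf0 k; have := mul_nonneg (Ck0 k) (Z0 k)
    nlinarith
  · refine (hCk k κ _ hκ fun w hw z => (hn w z).2.trans (hZl k w hw)).mono le_rfl ?_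
    have h1 : 1 ≤ lam ^ k := one_le_pow₀ l1
    have := Cf0 k; have := mul_nonneg (Cu0 k) (Z0 k)
    nlinarith
  · beta_reduce
    rw [smul_eq_mul, abs_mul]
    refine (mul_le_of_le_one_left (abs_nonneg _) (R.ρ_le p)).trans ((hκ0 _).trans ?_)
    refine div_le_div_of_nonneg_right ?_ l0.le
    have := R0 0
    have := le_abs_self (Cs 0)
    have : 0 ≤ 4 * B ^ 2 * |Cs 0| := by positivity
    linarith
  · rcases lt_or_ge (C.s j p) 0 with hp | hp
    · have e1 : A.pull f₁ α β p = A.pull f α β p := by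
        rw [Atl.pull, Atl.pull, A.D_congr α (ev p hp), A.D_congr β (ev p hp)]
      have e2 : C.amp c j p = 0 := by
        rw [Atl.Cover.amp, expNegInvGlue.zero_of_nonpos hp.le, zero_mul]
      have e3 := (R.up_ev (fun z hz => (h0 z hz).2) hp).self_of_nhds
      beta_reduce
      rw [e1, e2, e3]
      have := R0 0
      simp only [ne_eq, OfNat.ofNat_ne_zero, not_false_eq_true, zero_pow, zero_mul, add_zero,
        sub_self, abs_zero]
      positivity
    · have hW := R.K_sub p hp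
      obtain ⟨m1, m2, m3⟩ := hmet _ (hs p hp)
      have e2 : C.amp c j p = L.a (C.Ps j p) := by
        rw [Atl.Cover.amp, LocData.a, R.s_eq p hW, R.c0_eq p hW]
      beta_reduce
      rw [R.pull hf₁ hLU onW α β hW, R.pull hf L.f_sm R.f_eq α β hW, R.rest α β hW, e2,
        R.ρ_one p hW, one_smul, Atl.dsq]
      refine le_trans (le_of_eq (congrArg _ (by ring)))
        ((apx_err (ha α p) (ha β p) (hb α p) (hb β p) m1 m2 m3).trans ?_)
      rw [← mul_div_assoc]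
      refine div_le_div_of_nonneg_right ?_ (by positivity)
      have := R0 0
      have := mul_le_mul_of_nonneg_left (le_abs_self (Cs 0)) (show 0 ≤ 4 * B ^ 2 by positivity)
      have := abs_nonneg (Cs 0)
      linarith
  · rcases lt_or_ge (C.s j p) 0 with hp | hp
    · obtain ⟨α, β, γ, δ, h⟩ := hII p
      have e1 : A.NII f₁ α β γ δ p = A.NII f α β γ δ p := by
        rw [Atl.NII, Atl.NII, A.D_congr α (ev p hp), A.D_congr β (ev p hp),
          A.D_congr γ (A.D_congr' δ (ev p hp))]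
      exact ⟨α, β, γ, δ, by rw [e1]; exact (min_le_left _ _).trans h⟩
    · have h := jg f₁ hf₁ (fun w _ q => by
        rw [A.Dw_sub w hf₁ hf₁, sub_self, Pi.zero_apply, norm_zero]; positivity) p hp
      obtain ⟨α, β, γ, δ, h⟩ := A.apx_II _ _ hf₁ p hm₀ h.2.1
      exact ⟨α, β, γ, δ, (min_le_right _ _).trans h⟩
  · have off := fun p (hp : C.s j p < 0) => hopen p f' hf' fun w hw => by
      have := hc w hw p
      rw [A.Dw_sub w hf' hf₁, Pi.sub_apply, (A.Dw_congr' w (ev p hp)).self_of_nhds] at this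
      exact this.trans le
    refine ⟨fun p => ?_, fun p => ?_, fun j' k p hsp => ?_⟩
    · rcases lt_or_ge (C.s j p) 0 with hp | hp
      · exact (off p hp).1
      · obtain ⟨α, β, γ, δ, h⟩ := A.apx_II _ _ hf' p hm₀ (jg f' hf' hc p hp).2.1
        refine ⟨α, β, γ, δ, fun h0 => ?_⟩
        rw [h0, dotProduct_zero] at h
        exact absurd (div_pos hm₀ ht) (not_lt.2 h)
    · rcases lt_or_ge (C.s j p) 0 with hp | hp
      · obtain ⟨l, h1, h2⟩ := (off p hp).2.1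
        exact ⟨l, h1, fun k hk => h2 k (Nat.le_of_succ_le hk)⟩
      · exact (R.good hf' (R.K_sub p hp) (jg f' hf' hc p hp)).1
    · have hjj : j < j' := hsp.1
      rcases lt_trichotomy (C.s j p) 0 with hp | hp | hp
      · refine (off p hp).2.2 j' k ⟨hjj.le, hsp.2.1, hsp.2.2.1, hsp.2.2.2.1, fun l hl => ?_⟩
        rcases (show j ≤ l from hl).eq_or_lt with rfl | h1
        · exact hp.le
        · exact hsp.2.2.2.2 l h1
      · exact absurd hp (C.notriple j' k j p hsp.2.1.ne hjj.ne' (hjj.trans hsp.2.1).ne'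
          hsp.2.2.1 hsp.2.2.2.1)
      · refine (R.good hf' (R.K_sub p hp.le) (jg f' hf' hc p hp.le)).2 ?_ j' k hsp
        exact Finset.mem_image_of_mem _ (hfin.mem_toFinset.2
          ⟨hp, j', k, hsp.2.1.ne, hsp.2.2.1, hsp.2.2.2.1⟩)

end Crest.Agent.R216
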