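import Crest.Agent.R216.Api3
import Crest.Agent.R216.Api4

/-!
# R216/ApproxA: jets in the sheared chart
-/

set_option autoImplicit false
set_option linter.unusedSectionVars false

open scoped Manifold ContDiff Topology
open Matrix

noncomputable section

namespace Crest.Agent.R216

variable {M : Type*} [TopologicalSpace M] [ChartedSpace E2 M]
variable {E : Type} [NormedAddCommGroup E] [NormedSpace ℝ E]

theorem apx_dx_sm {v : ℝ × ℝ → E} (hv : ContDiff ℝ ∞ v) : ContDiff ℝ ∞ (dx v) :=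
  (hv.fderiv_right (m := ∞) (by simp)).clm_apply contDiff_const

theorem apx_dy_sm {v : ℝ × ℝ → E} (hv : ContDiff ℝ ∞ v) : ContDiff ℝ ∞ (dy v) :=
  (hv.fderiv_right (m := ∞) (by simp)).clm_apply contDiff_const

/-- equality modulo the tangent plane -/
def ApxTan (T₁ T₂ v w : V4) : Prop := ∃ a b : ℝ, v = w + a • T₁ + b • T₂

theorem ApxTan.refl (T₁ T₂ v : V4) : ApxTan T₁ T₂ v v := ⟨0, 0, by simp⟩

theorem ApxTan.symm {T₁ T₂ v w : V4} (h : ApxTan T₁ T₂ v w) : ApxTan T₁ T₂ w v := by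
  obtain ⟨a, b, rfl⟩ := h
  exact ⟨-a, -b, by module⟩

theorem ApxTan.dot {T₁ T₂ v w l : V4} (h : ApxTan T₁ T₂ v w) (h1 : l ⬝ᵥ T₁ = 0) (h2 : l ⬝ᵥ T₂ = 0) :
    l ⬝ᵥ v = l ⬝ᵥ w := by
  obtain ⟨a, b, rfl⟩ := h
  simp [h1, h2]

theorem Pplus.apx_tan {T₁ T₂ v v' m w w' n : V4} (h : Pplus T₁ T₂ v v' m) {s t u r : ℝ}
    (hdet : s * r - t * u ≠ 0) (h1 : ApxTan T₁ T₂ w v) (h2 : ApxTan T₁ T₂ w' v')
    (h3 : ApxTan T₁ T₂ n m) : Pplus (s • T₁ + t • T₂) (u • T₁ + r • T₂) w w' n := by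
  obtain ⟨a₁, a₂, rfl⟩ := h1
  obtain ⟨b₁, b₂, rfl⟩ := h2
  obtain ⟨c₁, c₂, rfl⟩ := h3
  exact h.change hdet _ _ _ _ _ _

theorem Pplus.apx_tan' {T₁ T₂ v v' m w w' n : V4} (h : Pplus T₁ T₂ v v' m)
    (h1 : ApxTan T₁ T₂ w v) (h2 : ApxTan T₁ T₂ w' v') (h3 : ApxTan T₁ T₂ n m) :
    Pplus T₁ T₂ w w' n := by
  simpa using h.apx_tan (s := 1) (t := 0) (u := 0) (r := 1) (by norm_num) h1 h2 h3

theorem apx_four (a b c d : V4) (x y z w : ℝ) :
    (x • a + y • b + z • c + w • d) ⬝ᵥ (x • a + y • b + z • c + w • d) ≤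
      (x ^ 2 + y ^ 2 + z ^ 2 + w ^ 2) * (a ⬝ᵥ a + b ⬝ᵥ b + c ⬝ᵥ c + d ⬝ᵥ d) := by
  simp only [dotProduct, ← Finset.sum_add_distrib, Finset.mul_sum]
  refine Finset.sum_le_sum fun i _ => ?_
  simp only [Pi.add_apply, Pi.smul_apply, smul_eq_mul]
  nlinarith [sq_nonneg (x * b i - y * a i), sq_nonneg (x * c i - z * a i),
    sq_nonneg (x * d i - w * a i), sq_nonneg (y * c i - z * b i), sq_nonneg (y * d i - w * b i),
    sq_nonneg (z * d i - w * c i)]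

theorem apx_cross_lin (a b c d e f : V4) (x y z w : ℝ) :
    cross3 a b (x • c + y • d + z • e + w • f) =
      x • cross3 a b c + y • cross3 a b d + z • cross3 a b e + w • cross3 a b f := by
  have h1 := cross3_lin a b (x • c + y • d) (z • e + w • f) 1 1 0 0
  have h2 := cross3_lin a b c d x y 0 0
  have h3 := cross3_lin a b e f z w 0 0
  simp only [one_smul, zero_smul, add_zero] at h1 h2 h3
  rw [add_assoc, h1, h2, h3, ← add_assoc]

namespace Atl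

variable [IsManifold (𝓡 2) ∞ M] (A : Atl M)

/-- the 2-jet in the sheared chart -/
def jetM (i : Fin A.n) (t : ℝ) (g : M → V4) (p : M) : Jet :=
  ⟨A.X i g p, A.Y i t g p, A.X i (A.X i g) p, A.X i (A.Y i t g) p, A.Y i t (A.Y i t g) p⟩

theorem apx_d_down (i : Fin A.n) (t : ℝ) {W : Set M} (hW : IsOpen W) (hO : W ⊆ A.O i)
    {v : ℝ × ℝ → E} (hv : ContDiff ℝ ∞ v) {u : M → E} (h : ∀ p ∈ W, v (A.Psi i t p) = u p) :
    (∀ p ∈ W, dx v (A.Psi i t p) = A.X i u p) ∧ ∀ p ∈ W, dy v (A.Psi i t p) = A.Y i t u p := by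
  have key : ∀ α, ∀ p ∈ W, A.D α u p =
      A.D α (A.eta i t) p • dx v (A.Psi i t p) + A.D α (A.x i 1) p • dy v (A.Psi i t p) := by
    intro α p hp
    rw [← A.D_Psi α i t hv p]
    exact A.D_congr α (Filter.eventually_of_mem (hW.mem_nhds hp) fun q hq => (h q hq).symm)
  refine ⟨fun p hp => ?_, fun p hp => ?_⟩
  · have h1 := A.X_eta i t (hO hp)
    have h2 := A.X_y i (hO hp)
    unfold X at h1 h2 ⊢
    rw [key _ p hp, h1, h2, one_smul, zero_smul, add_zero]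
  · have h1 := A.Y_eta i t t (hO hp)
    have h2 := A.Y_y i t (hO hp)
    unfold Y at h1 h2 ⊢
    rw [smul_eq_mul] at h1 h2
    rw [key _ p hp, key _ p hp]
    have e : ∀ (a b c d : ℝ) (x y : E), a • x + b • y - t • (c • x + d • y) =
        (a - t * c) • x + (b - t * d) • y := fun a b c d x y => by module
    rw [e, h1, h2, sub_self, one_smul, zero_smul, zero_add]

theorem apx_jet_down (i : Fin A.n) (t : ℝ) {W : Set M} (hW : IsOpen W) (hO : W ⊆ A.O i)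
    {v : ℝ × ℝ → V4} (hv : ContDiff ℝ ∞ v) {u : M → V4} (h : ∀ p ∈ W, v (A.Psi i t p) = u p)
    {p : M} (hp : p ∈ W) : jet v (A.Psi i t p) = A.jetM i t u p := by
  obtain ⟨h1, h2⟩ := A.apx_d_down i t hW hO hv h
  obtain ⟨h3, -⟩ := A.apx_d_down i t hW hO (apx_dx_sm hv) h1
  obtain ⟨h4, h5⟩ := A.apx_d_down i t hW hO (apx_dy_sm hv) h2
  simp only [jet, jetM, h1 p hp, h2 p hp, h3 p hp, h4 p hp, h5 p hp]

theorem apx_Y_shear (i' : Fin A.n) (t' : ℝ) (i : Fin A.n) (t : ℝ) {u : M → E} (hu : Sm u) {p : M}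
    (hp : p ∈ A.O i) : A.Y i' t' u p =
      A.Y i' t' (A.eta i t) p • A.X i u p + A.Y i' t' (A.x i 1) p • A.Y i t u p := by
  rw [Y, A.D_shear (i', 1) i t hu hp, A.D_shear (i', 0) i t hu hp]
  simp only [Y, smul_eq_mul]
  module

theorem apx_DY (α : A.Idx) (i : Fin A.n) (t : ℝ) {u : M → E} (hu : Sm u) (p : M) :
    A.D α (A.Y i t u) p = A.D α (A.D (i, 1) u) p - t • A.D α (A.D (i, 0) u) p := by
  have e : A.Y i t u = A.D (i, 1) u - t • A.D (i, 0) u := rfl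
  rw [e, A.D_sub α (A.D_sm _ hu) ((A.D_sm _ hu).const_smul t), A.D_const_smul α (A.D_sm _ hu)]
  rfl

theorem apx_DY_shear (γ : A.Idx) (i' : Fin A.n) (t' : ℝ) (i : Fin A.n) (t : ℝ) {g : M → V4}
    (hg : Sm g) {p : M} (hp : p ∈ A.O i) :
    ApxTan (A.X i g p) (A.Y i t g p) (A.D γ (A.Y i' t' g) p)
      ((A.jetM i t g p).B (A.D γ (A.eta i t) p) (A.D γ (A.x i 1) p)
        (A.Y i' t' (A.eta i t) p) (A.Y i' t' (A.x i 1) p)) := by
  have hξ := A.Y_sm i' t' (A.eta_sm i t)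
  have hζ := A.Y_sm i' t' (A.x_sm i 1)
  have hX := A.X_sm i hg
  have hY := A.Y_sm i t hg
  have e : A.Y i' t' g =ᶠ[𝓝 p] (fun q => A.Y i' t' (A.eta i t) q • A.X i g q) +
      fun q => A.Y i' t' (A.x i 1) q • A.Y i t g q :=
    Filter.eventually_of_mem ((A.O_open i).mem_nhds hp) fun q hq => A.apx_Y_shear i' t' i t hg hq
  refine ⟨A.D γ (A.Y i' t' (A.eta i t)) p, A.D γ (A.Y i' t' (A.x i 1)) p, ?_⟩
  rw [A.D_congr γ e, A.D_add γ (hξ.smul hX) (hζ.smul hY), Pi.add_apply, A.D_smul γ hξ hX,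
    A.D_smul γ hζ hY, A.D_shear γ i t hX hp, A.D_shear γ i t hY hp, ← A.XY_comm i t hg hp]
  simp only [jetM, Jet.B]
  module

/-- KEY FACT 2 -/
theorem apx_YY_shear (i'' : Fin A.n) (t'' : ℝ) (i' : Fin A.n) (t' : ℝ) (i : Fin A.n) (t : ℝ)
    {g : M → V4} (hg : Sm g) {p : M} (hp : p ∈ A.O i) :
    ApxTan (A.X i g p) (A.Y i t g p) (A.Y i'' t'' (A.Y i' t' g) p)
      ((A.jetM i t g p).B (A.Y i'' t'' (A.eta i t) p) (A.Y i'' t'' (A.x i 1) p)
        (A.Y i' t' (A.eta i t) p) (A.Y i' t' (A.x i 1) p)) := by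
  obtain ⟨a, b, h1⟩ := A.apx_DY_shear (i'', 1) i' t' i t hg hp
  obtain ⟨c, d, h2⟩ := A.apx_DY_shear (i'', 0) i' t' i t hg hp
  refine ⟨a - t'' * c, b - t'' * d, ?_⟩
  rw [Y, h1, h2]
  generalize A.Y i' t' (A.eta i t) p = ξ
  generalize A.Y i' t' (A.x i 1) p = ζ
  generalize A.jetM i t g p = J
  generalize A.Y i t g p = T
  simp only [Y, Jet.B, smul_eq_mul]
  module

theorem apx_det (i' : Fin A.n) (t' : ℝ) (i : Fin A.n) (t : ℝ) {p : M} (hp' : p ∈ A.O i')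
    (hp : p ∈ A.O i) :
    A.X i' (A.eta i t) p * A.Y i' t' (A.x i 1) p - A.X i' (A.x i 1) p * A.Y i' t' (A.eta i t) p ≠ 0 := by
  have h1 := A.X_eta i' t' hp'
  have h2 := A.Y_eta i' t' t' hp'
  have h3 := A.X_y i' hp'
  have h4 := A.Y_y i' t' hp'
  rw [A.apx_Y_shear i' t' i t (A.eta_sm i' t') hp, sub_self] at h2
  rw [A.apx_Y_shear i' t' i t (A.x_sm i' 1) hp] at h4
  rw [X, A.D_shear (i', 0) i t (A.eta_sm i' t') hp] at h1
  rw [X, A.D_shear (i', 0) i t (A.x_sm i' 1) hp] at h3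
  simp only [smul_eq_mul] at h1 h2 h3 h4
  intro h
  unfold X at h
  have : (1 : ℝ) = 0 := by
    linear_combination (A.X i (A.eta i' t') p * A.Y i t (A.x i' 1) p -
      A.Y i t (A.eta i' t') p * A.X i (A.x i' 1) p) * h - h4 -
      (A.Y i' t' (A.eta i t) p * A.X i (A.x i' 1) p + A.Y i' t' (A.x i 1) p * A.Y i t (A.x i' 1) p) * h1 +
      (A.Y i' t' (A.eta i t) p * A.X i (A.eta i' t') p + A.Y i' t' (A.x i 1) p * A.Y i t (A.eta i' t') p) * h3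
  exact one_ne_zero this

theorem apx_gram (i : Fin A.n) (t : ℝ) {g : M → V4} (hg : Sm g) {p : M} (hp : p ∈ A.O i)
    (h : ∃ α β γ δ, A.NII g α β γ δ p ≠ 0) : 0 < gram2 (A.X i g p) (A.Y i t g p) := by
  obtain ⟨α, β, γ, δ, h⟩ := h
  rw [NII, A.D_shear α i t hg hp, A.D_shear β i t hg hp, cross3_frame] at h
  exact gram2_pos_of_cross3 (right_ne_zero_of_smul h)

theorem apx_II (i : Fin A.n) (t : ℝ) {g : M → V4} (hg : Sm g) (p : M) {m : ℝ} (hm : 0 < m)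
    (h : (A.jetM i t g p).II m) :
    ∃ α β γ δ, m / (4 * (1 + t ^ 2) ^ 2) ≤ A.NII g α β γ δ p ⬝ᵥ A.NII g α β γ δ p := by
  by_contra hc
  push Not at hc
  have h00 := hc (i, 0) (i, 1) (i, 0) (i, 0)
  have h01 := hc (i, 0) (i, 1) (i, 0) (i, 1)
  have h10 := hc (i, 0) (i, 1) (i, 1) (i, 0)
  have h11 := hc (i, 0) (i, 1) (i, 1) (i, 1)
  have hf : ∀ c, cross3 (A.X i g p) (A.Y i t g p) c = cross3 (A.D (i, 0) g p) (A.D (i, 1) g p) c := by
    intro c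
    have := cross3_frame (A.D (i, 0) g p) (A.D (i, 1) g p) c 1 0 (-t) 1
    simp only [one_smul, zero_smul, add_zero, zero_mul, sub_zero, mul_one] at this
    rw [← this, X, Y]
    congr 1
    module
  have key : ∀ x y z w : ℝ, x ^ 2 + y ^ 2 + z ^ 2 + w ^ 2 ≤ (1 + t ^ 2) ^ 2 → ∀ c : V4,
      c = x • A.D (i, 0) (A.D (i, 0) g) p + y • A.D (i, 0) (A.D (i, 1) g) p +
        z • A.D (i, 1) (A.D (i, 0) g) p + w • A.D (i, 1) (A.D (i, 1) g) p →
      ¬ m ≤ cross3 (A.X i g p) (A.Y i t g p) c ⬝ᵥ cross3 (A.X i g p) (A.Y i t g p) c := by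
    intro x y z w h1 c h2 h3
    rw [hf, h2, apx_cross_lin] at h3
    have h4 := h3.trans (apx_four _ _ _ _ x y z w)
    simp only [NII] at h00 h01 h10 h11
    have h5 := add_lt_add (add_lt_add (add_lt_add h00 h01) h10) h11
    have h6 : 0 < (1 + t ^ 2) ^ 2 := by positivity
    have h7 : (1 + t ^ 2) ^ 2 * (m / (4 * (1 + t ^ 2) ^ 2) + m / (4 * (1 + t ^ 2) ^ 2) +
        m / (4 * (1 + t ^ 2) ^ 2) + m / (4 * (1 + t ^ 2) ^ 2)) = m := by
      field_simp; ring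
    have h8 : ∀ a : V4, 0 ≤ a ⬝ᵥ a := fun a => Finset.sum_nonneg fun i _ => mul_self_nonneg _
    have h9 := mul_le_mul_of_nonneg_right h1 (add_nonneg (add_nonneg (add_nonneg
      (h8 (cross3 (A.D (i, 0) g p) (A.D (i, 1) g p) (A.D (i, 0) (A.D (i, 0) g) p)))
      (h8 (cross3 (A.D (i, 0) g p) (A.D (i, 1) g p) (A.D (i, 0) (A.D (i, 1) g) p))))
      (h8 (cross3 (A.D (i, 0) g p) (A.D (i, 1) g p) (A.D (i, 1) (A.D (i, 0) g) p))))
      (h8 (cross3 (A.D (i, 0) g p) (A.D (i, 1) g p) (A.D (i, 1) (A.D (i, 1) g) p))))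
    have h10 := mul_lt_mul_of_pos_left h5 h6
    linarith
  have ht := sq_nonneg t
  rcases h with h | h | h
  · refine key 1 0 0 0 (by nlinarith [sq_nonneg (t ^ 2)]) _ ?_ h
    change A.D (i, 0) (A.D (i, 0) g) p = _
    module
  · refine key (-t) 1 0 0 (by nlinarith [sq_nonneg (t ^ 2)]) _ ?_ h
    change A.D (i, 0) (A.Y i t g) p = _
    rw [A.apx_DY _ i t hg]
    module
  · refine key (t ^ 2) (-t) (-t) 1 (by nlinarith [sq_nonneg (t ^ 2)]) _ ?_ h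
    change A.D (i, 1) (A.Y i t g) p - t • A.D (i, 0) (A.Y i t g) p = _
    rw [A.apx_DY _ i t hg, A.apx_DY _ i t hg]
    module

theorem apx_close (i : Fin A.n) (t : ℝ) {g g' : M → V4} (hg : Sm g) (hg' : Sm g') (p : M) {e : ℝ}
    (h : A.NB 2 (g' - g) e) : (A.jetM i t g' p).close (A.jetM i t g p) ((1 + |t|) ^ 2 * e) := by
  have he : 0 ≤ e := (norm_nonneg _).trans (h.norm_le p)
  have ht := abs_nonneg t
  have h1 : ∀ α, ‖A.D α g' p - A.D α g p‖ ≤ e := fun α => by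
    have := h [α] (by simp) p
    rwa [A.Dw_sub _ hg' hg] at this
  have h2 : ∀ α β, ‖A.D α (A.D β g') p - A.D α (A.D β g) p‖ ≤ e := fun α β => by
    have := h [α, β] (by simp) p
    rwa [A.Dw_sub _ hg' hg] at this
  have h3 : ∀ (a b c d : V4) (x : ℝ), ‖a - c‖ ≤ x → ‖b - d‖ ≤ x →
      ‖a - t • b - (c - t • d)‖ ≤ (1 + |t|) * x := fun a b c d x h1 h2 => by
    rw [show a - t • b - (c - t • d) = (a - c) - t • (b - d) by module]
    refine (norm_sub_le _ _).trans ?_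
    rw [norm_smul, Real.norm_eq_abs, add_mul, one_mul]
    exact add_le_add h1 (mul_le_mul_of_nonneg_left h2 ht)
  have h4 : ∀ α, ‖A.D α (A.Y i t g') p - A.D α (A.Y i t g) p‖ ≤ (1 + |t|) * e := fun α => by
    rw [A.apx_DY _ i t hg, A.apx_DY _ i t hg']
    exact h3 _ _ _ _ _ (h2 _ _) (h2 _ _)
  have b1 : e ≤ (1 + |t|) * e := le_mul_of_one_le_left he (by linarith)
  have b2 : (1 + |t|) * e ≤ (1 + |t|) ^ 2 * e := by
    rw [sq, mul_assoc]
    exact mul_le_mul_of_nonneg_left b1 (by linarith)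
  refine ⟨(h1 _).trans (b1.trans b2), (h3 _ _ _ _ _ (h1 _) (h1 _)).trans b2,
    (h2 _ _).trans (b1.trans b2), (h4 _).trans b2, ?_⟩
  rw [sq, mul_assoc]
  exact h3 _ _ _ _ _ (h4 _) (h4 _)

end Atl

end Crest.Agent.R216
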