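import Crest.Agent.R216.ApproxA

/-!
# R216/ApproxB: norms of transplanted functions; openness of the jet conditions
-/

set_option autoImplicit false
set_option linter.unusedSectionVars false

open scoped Manifold ContDiff Topology
open Matrix Filter

noncomputable section

namespace Crest.Agent.R216

variable {M : Type*} [TopologicalSpace M] [T2Space M] [CompactSpace M] [ChartedSpace E2 M]
  [IsManifold (𝓡 2) ∞ M]
variable {E : Type} [NormedAddCommGroup E] [NormedSpace ℝ E]

theorem apx_pdw_append (w w' : List Bool) (v : ℝ × ℝ → E) : pdw (w ++ w') v = pdw w (pdw w' v) := by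
  induction w with
  | nil => rfl
  | cons b w ih => cases b <;> simp only [List.cons_append, pdw, ih]

theorem apx_norms (A : Atl M) (i : Fin A.n) (t : ℝ) (k : ℕ) : ∀ a : M → ℝ, Sm a → ∃ C : ℝ, 0 ≤ C ∧
    ∀ (v : ℝ × ℝ → E) (Z : ℝ), ContDiff ℝ ∞ v → (∀ w, w.length ≤ k → ∀ z, ‖pdw w v z‖ ≤ Z) →
      A.NB k (fun p => a p • v (A.Psi i t p)) (C * Z) := by
  have h0 : ∀ a : M → ℝ, Sm a → ∃ C : ℝ, 0 ≤ C ∧ ∀ (v : ℝ × ℝ → E) (Z : ℝ), (∀ z, ‖v z‖ ≤ Z) →
      ∀ p, ‖a p • v (A.Psi i t p)‖ ≤ C * Z := by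
    intro a ha
    obtain ⟨C, hC, h⟩ := A.exists_NB 0 ha
    refine ⟨C, hC, fun v Z hv p => ?_⟩
    rw [norm_smul]
    exact mul_le_mul (h.norm_le p) (hv _) (norm_nonneg _) hC
  induction k with
  | zero =>
    intro a ha
    obtain ⟨C, hC, h⟩ := h0 a ha
    refine ⟨C, hC, fun v Z _ hv w hw p => ?_⟩
    obtain rfl : w = [] := List.eq_nil_of_length_eq_zero (Nat.le_zero.1 hw)
    exact h v Z (hv [] le_rfl) p
  | succ k ih =>
    intro a ha
    obtain ⟨C0, hC0, h⟩ := h0 a ha
    choose C1 hC1 h1 using fun α => ih _ (ha.mul (A.D_sm α (A.eta_sm i t)))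
    choose C2 hC2 h2 using fun α => ih _ (ha.mul (A.D_sm α (A.x_sm i 1)))
    choose C3 hC3 h3 using fun α => ih _ (A.D_sm α ha)
    have hs : ∀ α, 0 ≤ C1 α + C2 α + C3 α := fun α => by
      have := hC1 α; have := hC2 α; have := hC3 α; positivity
    have hS : 0 ≤ ∑ α, (C1 α + C2 α + C3 α) := Finset.sum_nonneg fun α _ => hs α
    refine ⟨C0 + ∑ α, (C1 α + C2 α + C3 α), add_nonneg hC0 hS, fun v Z hv hb => ?_⟩
    have hZ : 0 ≤ Z := (norm_nonneg _).trans (hb [] (Nat.zero_le _) 0)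
    have hP := A.Psi_sm i t
    refine A.NB_succ_iff.2 ⟨fun p => (h v Z (hb [] (Nat.zero_le _)) p).trans
      (mul_le_mul_of_nonneg_right (le_add_of_nonneg_right hS) hZ), fun α => ?_⟩
    have e : A.D α (fun p => a p • v (A.Psi i t p)) =
        ((fun p => (a p * A.D α (A.eta i t) p) • dx v (A.Psi i t p)) +
          fun p => (a p * A.D α (A.x i 1) p) • dy v (A.Psi i t p)) +
          fun p => A.D α a p • v (A.Psi i t p) := by
      funext p
      rw [A.D_smul α ha (hP.comp hv), A.D_Psi α i t hv]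
      simp only [Pi.add_apply]
      module
    have s1 := (ha.mul (A.D_sm α (A.eta_sm i t))).smul (hP.comp (apx_dx_sm hv))
    have s2 := (ha.mul (A.D_sm α (A.x_sm i 1))).smul (hP.comp (apx_dy_sm hv))
    have s3 := (A.D_sm α ha).smul (hP.comp hv)
    have b1 := h1 α (dx v) Z (apx_dx_sm hv) fun w hw z => by
      have := hb (w ++ [false]) (by simpa using hw) z
      rwa [apx_pdw_append] at this
    have b2 := h2 α (dy v) Z (apx_dy_sm hv) fun w hw z => by
      have := hb (w ++ [true]) (by simpa using hw) z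
      rwa [apx_pdw_append] at this
    have b3 := h3 α v Z hv fun w hw z => hb w (hw.trans (Nat.le_succ k)) z
    rw [e]
    refine (Atl.NB.add (s1.add s2) s3 (Atl.NB.add s1 s2 b1 b2) b3).mono le_rfl ?_
    rw [← add_mul, ← add_mul]
    refine mul_le_mul_of_nonneg_right (le_trans ?_ (le_add_of_nonneg_left hC0)) hZ
    exact Finset.single_le_sum (f := fun α => C1 α + C2 α + C3 α) (fun α _ => hs α)
      (Finset.mem_univ α)

/-! ### Openness -/

namespace Atl

variable {A : Atl M}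

/-- global 2-jets -/
abbrev GJ (A : Atl M) := (A.Idx → V4) × (A.Idx → A.Idx → V4)

/-- the global 2-jet of a map -/
def gj (A : Atl M) (g : M → V4) (p : M) : A.GJ :=
  (fun α => A.D α g p, fun γ δ => A.D γ (A.D δ g) p)

theorem gj_continuous {g : M → V4} (hg : Sm g) : Continuous (A.gj g) :=
  (continuous_pi fun α => (A.D_sm α hg).continuous).prodMk
    (continuous_pi fun γ => continuous_pi fun δ => (A.D_sm γ (A.D_sm δ hg)).continuous)

namespace Cover

variable (C : A.Cover)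

/-- `Y k (Y k' g)` as a function of the jet -/
def jYY (k k' : Fin C.m) (J : A.GJ) : V4 :=
  J.2 (C.ch k, 1) (C.ch k', 1) - C.t k' • J.2 (C.ch k, 1) (C.ch k', 0) -
    C.t k • (J.2 (C.ch k, 0) (C.ch k', 1) - C.t k' • J.2 (C.ch k, 0) (C.ch k', 0))

theorem jYY_gj (k k' : Fin C.m) {g : M → V4} (hg : Sm g) (p : M) :
    C.jYY k k' (A.gj g p) = C.Y k (C.Y k' g) p := by
  change _ = A.D (C.ch k, 1) (A.Y (C.ch k') (C.t k') g) p -
    C.t k • A.D (C.ch k, 0) (A.Y (C.ch k') (C.t k') g) p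
  rw [A.apx_DY _ _ _ hg, A.apx_DY _ _ _ hg]
  rfl

theorem jYY_continuous (k k' : Fin C.m) : Continuous (C.jYY k k') := by
  unfold jYY; fun_prop

end Cover

end Atl

theorem apx_cross_continuous {X : Type*} [TopologicalSpace X] {a b c : X → V4} (ha : Continuous a)
    (hb : Continuous b) (hc : Continuous c) : Continuous fun x => cross3 (a x) (b x) (c x) := by
  refine continuous_pi fun i => ?_
  fin_cases i <;> simp only [cross3, d3] <;> simp <;> fun_prop

theorem apx_Pplus_open {X : Type*} [TopologicalSpace X] {a b c d e : X → V4} (ha : Continuous a)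
    (hb : Continuous b) (hc : Continuous c) (hd : Continuous d) (he : Continuous e) :
    IsOpen {x | Pplus (a x) (b x) (c x) (d x) (e x)} := by
  have h1 := apx_cross_continuous ha hb hc
  have h2 := apx_cross_continuous ha hb hd
  have h3 := apx_cross_continuous ha hb he
  exact isOpen_lt (((h3.dotProduct h3).mul (h1.dotProduct h1)).sub ((h3.dotProduct h1).pow 2))
    ((h1.dotProduct h2).mul (h1.dotProduct h1))

/-- projection to the orthogonal complement, scaled -/
def apxProj (l a b : V4) : V4 :=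
  gram2 a b • l - ((b ⬝ᵥ b) * (l ⬝ᵥ a) - (a ⬝ᵥ b) * (l ⬝ᵥ b)) • a -
    ((a ⬝ᵥ a) * (l ⬝ᵥ b) - (a ⬝ᵥ b) * (l ⬝ᵥ a)) • b

theorem apxProj_fst (l a b : V4) : apxProj l a b ⬝ᵥ a = 0 := by
  simp only [apxProj, gram2, sub_dotProduct, smul_dotProduct, smul_eq_mul, dotProduct_comm b a]
  ring

theorem apxProj_snd (l a b : V4) : apxProj l a b ⬝ᵥ b = 0 := by
  simp only [apxProj, gram2, sub_dotProduct, smul_dotProduct, smul_eq_mul]
  ring

theorem apxProj_of {l a b : V4} (ha : l ⬝ᵥ a = 0) (hb : l ⬝ᵥ b = 0) :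
    apxProj l a b = gram2 a b • l := by
  simp [apxProj, ha, hb]

theorem apxProj_continuous {X : Type*} [TopologicalSpace X] (l : V4) {a b : X → V4}
    (ha : Continuous a) (hb : Continuous b) : Continuous fun x => apxProj l (a x) (b x) := by
  have h1 := ha.dotProduct ha
  have h2 := ha.dotProduct hb
  have h3 := hb.dotProduct hb
  have h4 := (continuous_const (y := l)).dotProduct ha
  have h5 := (continuous_const (y := l)).dotProduct hb
  exact ((((h1.mul h3).sub (h2.pow 2)).smul continuous_const).sub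
    (((h3.mul h4).sub (h2.mul h5)).smul ha)).sub (((h1.mul h5).sub (h2.mul h4)).smul hb)

/-- (JL0) -/
theorem apx_open {A : Atl M} (C : A.Cover) (j : ℕ) {f : M → V4} (hf : Sm f) (h : C.Good j f) :
    ∃ e : ℝ, 0 < e ∧ ∀ (p : M) (f' : M → V4), Sm f' →
      (∀ w : List A.Idx, w.length ≤ 2 → ‖A.Dw w f' p - A.Dw w f p‖ ≤ e) →
      (∃ α β γ δ, A.NII f' α β γ δ p ≠ 0) ∧ C.HAt j f' p ∧
        ∀ j' k, C.Special j j' k p → C.PAt j' k f' p := by
  obtain ⟨Φ, hΦ⟩ : ∃ Φ : A.GJ × M → A.GJ, Φ = fun z => A.gj f z.2 + z.1 := ⟨_, rfl⟩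
  have hc : Continuous Φ := hΦ ▸ ((Atl.gj_continuous hf).comp continuous_snd).add continuous_fst
  have h0 : ∀ p, Φ (0, p) = A.gj f p := fun p => by rw [hΦ]; exact add_zero _
  have c1 : ∀ α, Continuous fun z => (Φ z).1 α := fun α => (continuous_apply α).comp hc.fst
  have c2 : ∀ γ δ, Continuous fun z => (Φ z).2 γ δ := fun γ δ =>
    (continuous_apply δ).comp ((continuous_apply γ).comp hc.snd)
  have c3 : ∀ k k', Continuous fun z => C.jYY k k' (Φ z) := fun k k' => (C.jYY_continuous k k').comp hc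
  have key := isCompact_univ.eventually_forall_of_forall_eventually (x₀ := (0 : A.GJ))
    (P := fun d p => (∃ α β γ δ, cross3 ((Φ (d, p)).1 α) ((Φ (d, p)).1 β) ((Φ (d, p)).2 γ δ) ≠ 0) ∧
      (∃ i, p ∈ A.O i ∧ ∃ l : V4, l ⬝ᵥ (Φ (d, p)).1 (i, 0) = 0 ∧ l ⬝ᵥ (Φ (d, p)).1 (i, 1) = 0 ∧
        ∀ k : Fin C.m, j ≤ (k : ℕ) → 0 ≤ C.s k p → 0 < l ⬝ᵥ C.jYY k k (Φ (d, p))) ∧
      ∀ j' k, C.Special j j' k p → Pplus ((Φ (d, p)).1 (C.ch j', 0))
        ((Φ (d, p)).1 (C.ch j', 1) - C.t j' • (Φ (d, p)).1 (C.ch j', 0)) (C.jYY j' j' (Φ (d, p)))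
        (C.jYY k k (Φ (d, p))) (C.jYY j' k (Φ (d, p)))) (fun p _ => by
      refine Eventually.and ?_ (Eventually.and ?_ ?_)
      · obtain ⟨α, β, γ, δ, h1⟩ := h.ii p
        have := (apx_cross_continuous (c1 α) (c1 β) (c2 γ δ)).continuousAt.eventually_ne
          (x := (0, p)) (y := 0) (by rw [h0]; exact h1)
        exact this.mono fun z hz => ⟨α, β, γ, δ, hz⟩
      · obtain ⟨i, -, -, hi⟩ := A.exists_K p
        obtain ⟨l, hl, hk⟩ := h.H p
        have hg : 0 < gram2 (A.D (i, 0) f p) (A.D (i, 1) f p) := by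
          simpa [Atl.X, Atl.Y] using A.apx_gram i 0 hf hi (h.ii p)
        have e1 : ∀ᶠ z : A.GJ × M in 𝓝 (0, p), z.2 ∈ A.O i :=
          continuous_snd.continuousAt.eventually_mem ((A.O_open i).mem_nhds hi)
        have e2 : ∀ᶠ z : A.GJ × M in 𝓝 (0, p), ∀ k : Fin C.m, j ≤ (k : ℕ) → 0 ≤ C.s k z.2 →
            0 < apxProj l ((Φ z).1 (i, 0)) ((Φ z).1 (i, 1)) ⬝ᵥ C.jYY k k (Φ z) := by
          refine eventually_all.2 fun k => ?_
          by_cases hjk : j ≤ (k : ℕ)
          · rcases le_or_gt 0 (C.s k p) with hs | hs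
            · have : ∀ᶠ z : A.GJ × M in 𝓝 (0, p),
                  0 < apxProj l ((Φ z).1 (i, 0)) ((Φ z).1 (i, 1)) ⬝ᵥ C.jYY k k (Φ z) := by
                refine ((apxProj_continuous l (c1 _) (c1 _)).dotProduct
                  (c3 k k)).continuousAt.eventually (lt_mem_nhds ?_)
                beta_reduce
                rw [h0, C.jYY_gj k k hf]
                change 0 < apxProj l (A.D (i, 0) f p) (A.D (i, 1) f p) ⬝ᵥ _
                rw [apxProj_of (hl _) (hl _), smul_dotProduct]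
                exact mul_pos hg (hk k hjk hs)
              exact this.mono fun z hz _ _ => hz
            · have : ∀ᶠ z : A.GJ × M in 𝓝 (0, p), C.s k z.2 < 0 :=
                ((C.s_sm k).continuous.comp continuous_snd).continuousAt.eventually (gt_mem_nhds hs)
              exact this.mono fun z hz _ h2 => absurd hz (not_lt.2 h2)
          · exact Eventually.of_forall fun z h1 => absurd h1 hjk
        exact (e1.and e2).mono fun z hz => ⟨i, hz.1, _, apxProj_fst _ _ _, apxProj_snd _ _ _, hz.2⟩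
      · refine eventually_all.2 fun j' => eventually_all.2 fun k => ?_
        by_cases hs : C.Special j j' k p
        · refine Eventually.mono ((apx_Pplus_open (c1 (C.ch j', 0))
            (b := fun z => (Φ z).1 (C.ch j', 1) - C.t j' • (Φ z).1 (C.ch j', 0))
            ((c1 (C.ch j', 1)).sub ((c1 (C.ch j', 0)).const_smul (C.t j'))) (c3 j' j') (c3 k k)
            (c3 j' k)).mem_nhds ?_) fun z hz _ => hz
          have := h.P j' k p hs
          rw [Set.mem_ofPred_eq, h0, C.jYY_gj _ _ hf, C.jYY_gj _ _ hf, C.jYY_gj _ _ hf]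
          exact this
        · by_cases hjk : j' = k
          · exact Eventually.of_forall fun z hz => absurd hjk hz.2.1.ne
          have hcl : IsClosed ({q | C.s j' q = 0 ∧ C.s k q = 0} \ {p}) :=
            (C.fin j' k hjk).sdiff.isClosed
          have e1 : ∀ᶠ z : A.GJ × M in 𝓝 (0, p), z.2 ∈ ({q | C.s j' q = 0 ∧ C.s k q = 0} \ {p})ᶜ :=
            continuous_snd.continuousAt.eventually_mem (hcl.isOpen_compl.mem_nhds fun h => h.2 rfl)
          refine e1.mono fun z hz h1 => absurd ?_ hs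
          have : z.2 = p := by
            by_contra hne
            exact hz ⟨⟨h1.2.2.1, h1.2.2.2.1⟩, hne⟩
          exact this ▸ h1)
  obtain ⟨e, he, hb⟩ := Metric.nhds_basis_closedBall.eventually_iff.1 key
  refine ⟨e, he, fun p f' hf' hw => ?_⟩
  have hd : A.gj f' p - A.gj f p ∈ Metric.closedBall (0 : A.GJ) e := by
    rw [mem_closedBall_zero_iff, Prod.norm_def, max_le_iff]
    exact ⟨(pi_norm_le_iff_of_nonneg he.le).2 fun α => hw [α] (by simp),
      (pi_norm_le_iff_of_nonneg he.le).2 fun γ => (pi_norm_le_iff_of_nonneg he.le).2 fun δ =>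
        hw [γ, δ] (by simp)⟩
  have hp := hb hd p (Set.mem_univ p)
  have e1 : Φ (A.gj f' p - A.gj f p, p) = A.gj f' p := by rw [hΦ]; exact add_sub_cancel _ _
  simp only [e1, C.jYY_gj _ _ hf'] at hp
  obtain ⟨h1, ⟨i, hi, l, l0, l1, hl⟩, h3⟩ := hp
  refine ⟨h1, ⟨l, fun γ => ?_, hl⟩, h3⟩
  rw [A.D_chart γ i hf' hi, dotProduct_add, dotProduct_smul, dotProduct_smul]
  change _ • (l ⬝ᵥ (A.gj f' p).1 (i, 0)) + _ • (l ⬝ᵥ (A.gj f' p).1 (i, 1)) = 0
  rw [l0, l1, smul_zero, smul_zero, add_zero]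

end Crest.Agent.R216
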