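import Crest.Agent.R216.ApproxB

/-!
# R216/ApproxC: the local data of a stage
-/

set_option autoImplicit false
set_option linter.unusedSectionVars false

open scoped Manifold ContDiff Topology
open Matrix Filter

noncomputable section

namespace Crest.Agent.R216

variable {M : Type*} [TopologicalSpace M] [T2Space M] [CompactSpace M] [ChartedSpace E2 M]
  [IsManifold (𝓡 2) ∞ M]

namespace Atl.Cover

variable {A : Atl M} (C : A.Cover)

/-- the sheared chart of disk `j` -/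
abbrev Ps (j : Fin C.m) : M → ℝ × ℝ := A.Psi (C.ch j) (C.t j)

/-- `L` represents the data of stage `j` on `W` -/
structure Rep (j : Fin C.m) (f : M → V4) (c : Fin C.m → M → ℝ) (L : LocData {k : Fin C.m // j < k})
    (W : Set M) (ρ : M → ℝ) : Prop where
  W_open : IsOpen W
  K_sub : ∀ p, 0 ≤ C.s j p → p ∈ W
  W_sub : W ⊆ A.O (C.ch j)
  ρ_sm : Sm ρ
  ρ_le : ∀ p, |ρ p| ≤ 1
  ρ_one : ∀ p ∈ W, ρ p = 1
  ρ_out : ∀ p, p ∉ A.O (C.ch j) → ρ p = 0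
  s_neg : ∀ p ∈ A.O (C.ch j), C.s j p < 0 → L.s (C.Ps j p) < 0
  s_eq : ∀ p ∈ W, L.s (C.Ps j p) = C.s j p
  c0_eq : ∀ p ∈ W, L.c0 (C.Ps j p) = c j p
  f_eq : ∀ p ∈ W, L.f (C.Ps j p) = f p
  sk_eq : ∀ k, ∀ p ∈ W, L.sk k (C.Ps j p) = C.s k p
  ck_eq : ∀ k, ∀ p ∈ W, L.ck k (C.Ps j p) = c k p
  ek_eq : ∀ k, ∀ p ∈ W, L.ek k (C.Ps j p) = C.eta k p
  ξ_eq : ∀ k, ∀ p ∈ W, L.ξ k (C.Ps j p) = C.Y k (C.eta j) p
  ζ_eq : ∀ k, ∀ p ∈ W, L.ζ k (C.Ps j p) = C.Y k (A.x (C.ch j) 1) p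

theorem apx_YY (j k k' : Fin C.m) {g : M → V4} (hg : Sm g) {p : M} (hp : p ∈ A.O (C.ch j)) :
    ApxTan (C.X j g p) (C.Y j g p) (C.Y k (C.Y k' g) p)
      ((A.jetM (C.ch j) (C.t j) g p).B (C.Y k (C.eta j) p) (C.Y k (A.x (C.ch j) 1) p)
        (C.Y k' (C.eta j) p) (C.Y k' (A.x (C.ch j) 1) p)) :=
  A.apx_YY_shear _ _ _ _ _ _ hg hp

theorem exists_rep {G : A.Ten} {j : Fin C.m} {f : M → V4} {c : Fin C.m → M → ℝ}
    (h : C.Inv G j f c) : ∃ L W ρ, C.Rep j f c L W ρ := by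
  have hK : IsClosed {p | 0 ≤ C.s j p} := isClosed_le continuous_const (C.s_sm j).continuous
  obtain ⟨W, ρ, hW, hKW, hWO, hρ, hρ01, hρ1, hρs, dn⟩ :=
    A.exists_down (C.ch j) (C.t j) hK (fun p hp => C.sub j p hp)
  have dn' : ∀ u : M → ℝ, Sm u → ∃ v : ℝ × ℝ → ℝ, ContDiff ℝ ∞ v ∧ ∀ p ∈ W, v (C.Ps j p) = u p := by
    intro u hu
    obtain ⟨v, h1, h2, -⟩ := dn ℝ u hu
    exact ⟨v, h1, fun p hp => by rw [h2 p (hWO hp), hρ1 p hp, one_smul]⟩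
  obtain ⟨vf, vf1, vf2, -⟩ := dn V4 f h.sm
  replace vf2 : ∀ p ∈ W, vf (C.Ps j p) = f p := fun p hp => by
    rw [vf2 p (hWO hp), hρ1 p hp, one_smul]
  obtain ⟨vs, vs1, vs2, vs3⟩ := dn ℝ _ ((C.s_sm j).add (sm_const 1))
  obtain ⟨v0, v01, v02⟩ := dn' _ (h.c_sm j)
  choose sk sk1 sk2 using fun k : {k : Fin C.m // j < k} => dn' _ (C.s_sm k)
  choose ck ck1 ck2 using fun k : {k : Fin C.m // j < k} => dn' _ (h.c_sm k)
  choose ek ek1 ek2 using fun k : {k : Fin C.m // j < k} => dn' (C.eta k) (A.eta_sm _ _)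
  choose ξ ξ1 ξ2 using fun k : {k : Fin C.m // j < k} =>
    dn' (C.Y k (C.eta j)) (A.Y_sm _ _ (A.eta_sm _ _))
  choose ζ ζ1 ζ2 using fun k : {k : Fin C.m // j < k} =>
    dn' (C.Y k (A.x (C.ch j) 1)) (A.Y_sm _ _ (A.x_sm _ _))
  have s_neg : ∀ p ∈ A.O (C.ch j), C.s j p < 0 → vs (C.Ps j p) - 1 < 0 := by
    intro p hp hs
    rw [vs2 p hp, smul_eq_mul, Pi.add_apply]
    obtain ⟨h1, h2⟩ := hρ01 p
    rcases le_total (C.s j p + 1) 0 with h3 | h3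
    · nlinarith
    · nlinarith
  have s_eq : ∀ p ∈ W, vs (C.Ps j p) - 1 = C.s j p := fun p hp => by
    rw [vs2 p (hWO hp), hρ1 p hp, one_smul, Pi.add_apply, add_sub_cancel_right]
  have pre : ∀ z, 0 ≤ vs z - 1 → ∃ p, 0 ≤ C.s j p ∧ p ∈ W ∧ z = C.Ps j p := by
    intro z hz
    by_cases hm : z ∈ C.Ps j '' tsupport ρ
    · obtain ⟨p, hp, rfl⟩ := hm
      have : 0 ≤ C.s j p := not_lt.1 fun hs => absurd (s_neg p (hρs hp) hs) (not_lt.2 hz)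
      exact ⟨p, this, hKW this, rfl⟩
    · rw [vs3 z hm] at hz
      norm_num at hz
  have hjet := fun p (hp : p ∈ W) => A.apx_jet_down (C.ch j) (C.t j) hW hWO vf1 vf2 hp
  have hx := (A.apx_d_down (C.ch j) (C.t j) hW hWO vf1 vf2).1
  have hy := (A.apx_d_down (C.ch j) (C.t j) hW hWO vf1 vf2).2
  have hyy := (A.apx_d_down (C.ch j) (C.t j) hW hWO (apx_dy_sm vf1) hy).2
  refine ⟨{ s := fun z => vs z - 1, c0 := v0, f := vf, sk := sk, ck := ck, ek := ek, ξ := ξ, ζ := ζ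
            s_sm := vs1.sub contDiff_const, c0_sm := v01, f_sm := vf1, sk_sm := sk1, ck_sm := ck1
            ek_sm := ek1, ξ_sm := ξ1, ζ_sm := ζ1, cpt := ?_, c0_pos := ?_, ck_pos := ?_, trans := ?_
            conc := ?_, imm := ?_, H := ?_, P := ?_ }, W, ρ,
    ⟨hW, fun p hp => hKW hp, hWO, hρ, fun p => abs_le.2 ⟨by linarith [(hρ01 p).1], (hρ01 p).2⟩, hρ1,
      fun p hp => image_eq_zero_of_notMem_tsupport fun h => hp (hρs h), s_neg, s_eq, v02, vf2, sk2, ck2,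
      ek2, ξ2, ζ2⟩⟩
  · have e : {z | 0 ≤ vs z - 1} = C.Ps j '' {p | 0 ≤ C.s j p} := by
      ext z
      constructor
      · intro hz
        obtain ⟨p, h1, -, h2⟩ := pre z hz
        exact ⟨p, h1, h2.symm⟩
      · rintro ⟨p, hp, rfl⟩
        change 0 ≤ vs (C.Ps j p) - 1
        rw [s_eq p (hKW hp)]; exact hp
    rw [e]
    exact hK.isCompact.image (A.Psi_sm _ _).continuous
  · intro z hz
    obtain ⟨p, -, hp, rfl⟩ := pre z hz
    rw [v02 p hp]; exact h.c_pos j p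
  · intro k z hz
    obtain ⟨p, -, hp, rfl⟩ := pre z hz
    rw [ck2 k p hp]; exact h.c_pos k p
  · intro k z hz hk
    obtain ⟨p, hs, hp, rfl⟩ := pre z hz
    rw [sk2 k p hp] at hk
    rw [(A.apx_d_down (C.ch j) (C.t j) hW hWO (ek1 k) (ek2 k)).2 p hp, ξ2 k p hp]
    exact ⟨C.trans j k p k.2.ne hs hk, C.trans k j p k.2.ne' hk hs⟩
  · intro k z' z hz' hk hz
    obtain ⟨p, hs, hp, rfl⟩ := pre z hz
    obtain ⟨q, hs', hq, rfl⟩ := pre z' hz'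
    rw [sk2 k q hq] at hk
    rw [(A.apx_d_down (C.ch j) (C.t j) hW hWO (apx_dy_sm (sk1 k))
      (A.apx_d_down (C.ch j) (C.t j) hW hWO (sk1 k) (sk2 k)).2).2 p hp]
    exact C.conc j k p q hs' hk hs
  · intro z hz
    obtain ⟨p, -, hp, rfl⟩ := pre z hz
    rw [hx p hp, hy p hp]
    exact A.apx_gram _ _ h.sm (hWO hp) (h.good.ii p)
  · intro z hz
    obtain ⟨p, hs, hp, rfl⟩ := pre z hz
    obtain ⟨l, hl, hk⟩ := h.good.H p
    have l1 : l ⬝ᵥ C.X j f p = 0 := hl _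
    have l2 : l ⬝ᵥ C.Y j f p = 0 := by
      change l ⬝ᵥ (_ - _ • _) = 0
      rw [dotProduct_sub, dotProduct_smul, hl, hl, smul_zero, sub_zero]
    refine ⟨l, by rw [hx p hp]; exact l1, by rw [hy p hp]; exact l2,
      by rw [hyy p hp]; exact hk j le_rfl hs, fun k hk' => ?_⟩
    rw [sk2 k p hp] at hk'
    rw [hjet p hp, ξ2 k p hp, ζ2 k p hp, ← (C.apx_YY j k k h.sm (hWO hp)).dot l1 l2]
    exact hk k k.2.le hk'
  · intro k z hz hk hl
    obtain ⟨p, hs, hp, rfl⟩ := pre z hz.ge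
    rw [s_eq p hp] at hz
    rw [sk2 k p hp] at hk
    have hsp : C.Special j j k p := by
      refine ⟨le_rfl, k.2, hz, hk, fun l hl' => ?_⟩
      rcases (show j ≤ l from hl').eq_or_lt with rfl | h1
      · exact hz.le
      · rw [← sk2 ⟨l, h1⟩ p hp]; exact hl _
    rw [hx p hp, hy p hp, hyy p hp, hjet p hp, ξ2 k p hp, ζ2 k p hp]
    have h1 := C.apx_YY j j k h.sm (hWO hp)
    have e1 : C.Y j (C.eta j) p = 0 := (A.Y_eta _ _ _ (hWO hp)).trans (sub_self _)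
    have e2 : C.Y j (A.x (C.ch j) 1) p = 1 := A.Y_y _ _ (hWO hp)
    rw [e1, e2] at h1
    exact Pplus.apx_tan' (h.good.P j k p hsp) (ApxTan.refl _ _ _)
      (C.apx_YY j k k h.sm (hWO hp)).symm h1.symm

variable {C} {j : Fin C.m} {f : M → V4} {c : Fin C.m → M → ℝ} {L : LocData {k : Fin C.m // j < k}}
  {W : Set M} {ρ : M → ℝ}

/-- the conditions at a point of the disk -/
theorem Rep.good (R : C.Rep j f c L W ρ) {Qs : Finset (ℝ × ℝ)} {m₀ : ℝ} {g : M → V4}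
    (hg : Sm g) {p : M} (hp : p ∈ W) (h : L.JGood Qs m₀ (C.Ps j p) (A.jetM (C.ch j) (C.t j) g p)) :
    C.HAt (j + 1) g p ∧ (C.Ps j p ∈ Qs → ∀ j' k, C.Special (j + 1) j' k p → C.PAt j' k g p) := by
  obtain ⟨⟨l, l1, l2, hl⟩, -, h3⟩ := h
  have hO := R.W_sub hp
  refine ⟨⟨l, fun γ => ?_, fun k hk hs => ?_⟩, fun hq j' k hs => ?_⟩
  · rw [A.D_shear γ _ (C.t j) hg hO, dotProduct_add, dotProduct_smul, dotProduct_smul]
    change _ • (l ⬝ᵥ (A.jetM (C.ch j) (C.t j) g p).x) + _ • (l ⬝ᵥ (A.jetM (C.ch j) (C.t j) g p).y) = 0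
    rw [l1, l2, smul_zero, smul_zero, add_zero]
  · have := hl ⟨k, hk⟩ (by rw [R.sk_eq _ p hp]; exact hs)
    rw [R.ξ_eq _ p hp, R.ζ_eq _ p hp] at this
    rw [(C.apx_YY j k k hg hO).dot l1 l2]
    exact this
  · obtain ⟨h4, h5, h6, h7, -⟩ := hs
    have h4' : j < j' := h4
    have := h3 hq ⟨j', h4'⟩ ⟨k, h4'.trans h5⟩ (by rw [R.sk_eq _ p hp]; exact h6.ge)
      (by rw [R.sk_eq _ p hp]; exact h7.ge)
    rw [R.ξ_eq _ p hp, R.ζ_eq _ p hp, R.ξ_eq _ p hp, R.ζ_eq _ p hp] at this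
    have h8 := this.apx_tan (A.apx_det (C.ch j') (C.t j') (C.ch j) (C.t j) (C.sub j' p h6.ge) hO)
      (C.apx_YY j j' j' hg hO) (C.apx_YY j k k hg hO) (C.apx_YY j j' k hg hO)
    have e1 : C.X j' g p = _ := A.D_shear (C.ch j', 0) (C.ch j) (C.t j) hg hO
    have e2 : C.Y j' g p = _ := A.apx_Y_shear (C.ch j') (C.t j') (C.ch j) (C.t j) hg hO
    rw [PAt, e1, e2]
    exact h8

theorem Rep.rest (R : C.Rep j f c L W ρ) (α β : A.Idx) {p : M} (hp : p ∈ W) :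
    C.rest c (j + 1) α β p =
      A.D α (C.eta j) p * A.D β (C.eta j) p * L.H11 (C.Ps j p) +
      (A.D α (C.eta j) p * A.D β (A.x (C.ch j) 1) p + A.D α (A.x (C.ch j) 1) p * A.D β (C.eta j) p) *
        L.H12 (C.Ps j p) +
      A.D α (A.x (C.ch j) 1) p * A.D β (A.x (C.ch j) 1) p * L.H22 (C.Ps j p) := by
  have hO := R.W_sub hp
  rw [Cover.rest, ← Finset.sum_filter, Finset.sum_subtype (p := fun k => j < k) _
    (fun k => by rw [Finset.mem_filter]; exact ⟨fun h => h.2, fun h => ⟨Finset.mem_univ _, h⟩⟩)]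
  simp only [LocData.H11, LocData.H12, LocData.H22, Finset.mul_sum, ← Finset.sum_add_distrib]
  refine Finset.sum_congr rfl fun k _ => ?_
  obtain ⟨h1, h2⟩ := A.apx_d_down (C.ch j) (C.t j) R.W_open R.W_sub (L.ek_sm k) (R.ek_eq k)
  have hs : Sm (C.eta k) := A.eta_sm _ _
  rw [h1 p hp, h2 p hp, LocData.bk, R.sk_eq k p hp, R.ck_eq k p hp, dsq,
    A.D_shear α (C.ch j) (C.t j) hs hO, A.D_shear β (C.ch j) (C.t j) hs hO]
  simp only [amp, Cover.eta, smul_eq_mul]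
  ring

end Atl.Cover

end Crest.Agent.R216
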