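import Crest.Agent.R216.Api4

/-!
# R216: existence of the atlas data; the metric as a tensor
-/

set_option autoImplicit false
set_option linter.unusedSectionVars false

open scoped Manifold ContDiff Topology
open Matrix

noncomputable section

namespace Crest.Agent.R216

variable {M : Type*} [TopologicalSpace M] [T2Space M] [CompactSpace M] [ChartedSpace E2 M]
  [IsManifold (𝓡 2) ∞ M]

/-- For every `p` take a `SmoothBumpFunction (𝓡 2) p` `b p` (support in the chart source, `= 1`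
near `p`), an open `O p ∋ p` on which `b p = 1`; take a finite subcover (indexed by `Fin n`), a
smooth partition of unity `ρ i` subordinate to the `O i`
(`SmoothPartitionOfUnity.exists_isSubordinate`), and `ψ i = ρ i / √(∑ j, ρ j ^ 2)`
(the sum is positive since `∑ ρ j = 1`). -/
theorem exists_atl (M : Type*) [TopologicalSpace M] [T2Space M] [CompactSpace M]
    [ChartedSpace E2 M] [IsManifold (𝓡 2) ∞ M] : Nonempty (Atl M) := by
  have hb : ∀ p : M, ∃ (b : SmoothBumpFunction (𝓡 2) p) (O : Set M),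
      IsOpen O ∧ p ∈ O ∧ ∀ q ∈ O, b q = 1 := fun p => by
    obtain ⟨b⟩ : Nonempty (SmoothBumpFunction (𝓡 2) p) := inferInstance
    obtain ⟨O, h1, h2, h3⟩ := eventually_nhds_iff.1 b.eventuallyEq_one
    exact ⟨b, O, h2, h3, h1⟩
  choose b O hO hp hb using hb
  obtain ⟨t, ht⟩ := isCompact_univ.elim_finite_subcover O hO fun p _ => Set.mem_iUnion.2 ⟨p, hp p⟩
  let c : Fin t.card → M := fun i => t.equivFin.symm i
  obtain ⟨ρ, hρ⟩ := SmoothPartitionOfUnity.exists_isSubordinate (𝓡 2) isClosed_univ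
    (fun i => O (c i)) (fun i => hO _) fun p hp => by
      obtain ⟨q, hq, hpq⟩ := Set.mem_iUnion₂.1 (ht hp)
      exact Set.mem_iUnion.2 ⟨t.equivFin ⟨q, hq⟩, by simpa [c] using hpq⟩
  have hs : ∀ i, Sm (ρ i) := fun i => (ρ i).contMDiff
  have hpos : ∀ p, 0 < ∑ j, ρ j p ^ 2 := fun p => by
    obtain ⟨i, hi⟩ := ρ.exists_pos_of_mem (Set.mem_univ p)
    exact Finset.sum_pos' (fun j _ => sq_nonneg _) ⟨i, Finset.mem_univ _, by positivity⟩
  have hS : Sm fun p => ∑ j, ρ j p ^ 2 :=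
    Sm.sum _ fun j _ => (hs j).comp (Φ := fun x : ℝ => x ^ 2) (by fun_prop)
  have hI : Sm fun p => (√(∑ j, ρ j p ^ 2))⁻¹ := fun p =>
    ContDiffAt.comp_contMDiffAt (g := fun x : ℝ => (√x)⁻¹)
      ((contDiffAt_id.sqrt (hpos p).ne').inv (Real.sqrt_pos.2 (hpos p)).ne') (hS p)
  refine ⟨⟨t.card, c, fun i => b (c i), fun i p => ρ i p * (√(∑ j, ρ j p ^ 2))⁻¹, fun i => O (c i),
    fun i => (b _).contMDiff, fun i => (hs i).mul hI, fun i => (b _).tsupport_subset_chartAt_source,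
    fun i => hO _, fun i => hb _, fun i => (tsupport_mul_subset_left).trans (hρ i), fun p => ?_⟩⟩
  simp only [mul_pow, ← Finset.sum_mul, inv_pow, Real.sq_sqrt (hpos p).le]
  exact mul_inv_cancel₀ (hpos p).ne'

theorem atlex_V (A : Atl M) (α : A.Idx) : ContMDiff (𝓡 2) ((𝓡 2).prod 𝓘(ℝ, E2)) ∞
    (fun p => Bundle.TotalSpace.mk' E2 (E := (TangentSpace (𝓡 2) : M → Type)) p (A.V α p)) := by
  refine ContMDiffOn.smul_section_of_tsupport (ψ := A.χ α.1)
    (s := VectorField.mpullback (𝓡 2) (𝓡 2) (chartAt E2 (A.c α.1))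
      fun _ => EuclideanSpace.single α.2 (1 : ℝ))
    (A.χ_sm α.1).contMDiffOn (chartAt E2 (A.c α.1)).open_source (A.χ_supp α.1) fun p hp => ?_
  refine (ContMDiffAt.mpullback_vectorField_preimage (n := ∞) ?_ ?_ ?_ (by simp)).contMDiffWithinAt
  · exact contMDiffAt_vectorSpace_iff_contDiffAt.2 contDiffAt_const
  · exact contMDiffOn_chart.contMDiffAt ((chartAt E2 (A.c α.1)).open_source.mem_nhds hp)
  · exact isInvertible_mfderiv_extChartAt (I := 𝓡 2) (x := A.c α.1) (by simpa using hp)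

theorem atlex_d (A : Atl M) {i : Fin A.n} {p : M} (hp : p ∈ A.O i) (a b : ℝ) :
    mfderiv (𝓡 2) 𝓘(ℝ, ℝ) (A.x i 0) p (a • A.V (i, 0) p + b • A.V (i, 1) p) = a ∧
      mfderiv (𝓡 2) 𝓘(ℝ, ℝ) (A.x i 1) p (a • A.V (i, 0) p + b • A.V (i, 1) p) = b := by
  have key : ∀ (k : Fin 2) (L : TangentSpace (𝓡 2) p →L[ℝ] ℝ),
      (∀ α, A.D α (A.x i k) p = L (A.V α p)) → L (a • A.V (i, 0) p + b • A.V (i, 1) p) =
        a * (if 0 = k then 1 else 0) + b * (if 1 = k then 1 else 0) := fun k L hL => by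
    rw [map_add, map_smul, map_smul, ← hL, ← hL, A.D_x i _ _ hp, A.D_x i _ _ hp]
    rfl
  exact ⟨(key 0 _ fun α => A.D_eq_mfderiv α (A.x_sm i 0) p).trans (by simp),
    (key 1 _ fun α => A.D_eq_mfderiv α (A.x_sm i 1) p).trans (by simp)⟩

theorem atlex_comp (A : Atl M) {i : Fin A.n} {p : M} (hp : p ∈ A.O i) (α : A.Idx) :
    A.V α p = A.D α (A.x i 0) p • A.V (i, 0) p + A.D α (A.x i 1) p • A.V (i, 1) p := by
  obtain ⟨a, b, h⟩ := A.V_span i hp (A.V α p)
  obtain ⟨h1, h2⟩ := atlex_d A hp a b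
  rw [← h, ← A.D_eq_mfderiv α (A.x_sm i _)] at h1 h2
  rw [h1, h2]
  exact h

/-- `G α β p = g.inner p (V α p) (V β p)`. Smoothness: `p ↦ V α p` is a smooth section of the
tangent bundle (cut-off times a coordinate vector field) and `g` is a smooth section of the bundle
of bilinear forms (`ContMDiffAt.clm_bundle_apply₂`/`ContMDiff.inner_bundle`; alternatively read
`g.contMDiff` in the trivialisation at `c i`).
Tensor rule: `V α p = D α (x i 0) p • V (i,0) p + D α (x i 1) p • V (i,1) p` on `O i` (use `V_span`,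
`D_eq_mfderiv` applied to `x i a`, and `D_x`). Positivity: `V (i,0) p`, `V (i,1) p` are
independent (apply `mfderiv (x i a)`). Final clause: `F' = WithLp.toLp 2 ∘ F`
(`EuclideanSpace.equiv`), `V_span`, bilinearity, `D_eq_mfderiv`. -/
theorem exists_ten (A : Atl M)
    (g : Bundle.ContMDiffRiemannianMetric (𝓡 2) ∞ (EuclideanSpace ℝ (Fin 2))
      (TangentSpace (𝓡 2) : M → Type)) :
    ∃ G : A.Ten, A.IsTen G ∧ A.PosDef G ∧ ∀ f : M → V4, Sm f →
      (∀ α β p, A.pull f α β p = G α β p) →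
      ∃ F : M → EuclideanSpace ℝ (Fin 4),
        ContMDiff (𝓡 2) 𝓘(ℝ, EuclideanSpace ℝ (Fin 4)) ∞ F ∧
        ∀ (p : M) (v w : TangentSpace (𝓡 2) p),
          @inner ℝ (EuclideanSpace ℝ (Fin 4)) _
            (mfderiv (𝓡 2) 𝓘(ℝ, EuclideanSpace ℝ (Fin 4)) F p v)
            (mfderiv (𝓡 2) 𝓘(ℝ, EuclideanSpace ℝ (Fin 4)) F p w) = g.inner p v w := by
  refine ⟨fun α β p => g.inner p (A.V α p) (A.V β p), ⟨fun α β p => ?_, fun α β p => g.symm _ _ _,
    fun i p hp α β => ?_⟩, fun i p hp v hv => ?_, fun f hf hG => ?_⟩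
  · have : ContMDiffAt (𝓡 2) ((𝓡 2).prod 𝓘(ℝ)) ∞ (fun m => Bundle.TotalSpace.mk' ℝ
        (E := Bundle.Trivial M ℝ) m (g.inner m (A.V α m) (A.V β m))) p :=
      ContMDiffAt.clm_bundle_apply₂ (F₁ := E2) (F₂ := E2) (g.contMDiff p) (atlex_V A α p)
        (atlex_V A β p)
    exact (Bundle.contMDiffAt_totalSpace.1 this).2
  · conv_lhs => rw [atlex_comp A hp α, atlex_comp A hp β]
    simp only [map_add, map_smul, _root_.add_apply, _root_.smul_apply, smul_eq_mul, Fin.sum_univ_two]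
    ring
  · have h := g.pos p (v 0 • A.V (i, 0) p + v 1 • A.V (i, 1) p) fun h0 => hv (by
      have h1 := atlex_d A hp (v 0) (v 1)
      rw [h0, map_zero, map_zero] at h1
      funext a
      fin_cases a
      exacts [h1.1.symm, h1.2.symm])
    simp only [map_add, map_smul, _root_.add_apply, _root_.smul_apply, smul_eq_mul] at h
    simp only [Fin.sum_univ_two]
    linarith
  · have hF : Sm fun p => (EuclideanSpace.equiv (Fin 4) ℝ).symm (f p) :=
      hf.comp (EuclideanSpace.equiv (Fin 4) ℝ).symm.contDiff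
    refine ⟨_, hF, fun p v w => ?_⟩
    obtain ⟨i, -, -, hp⟩ := A.exists_K p
    obtain ⟨a, b, rfl⟩ := A.V_span i hp v
    obtain ⟨a', b', rfl⟩ := A.V_span i hp w
    have e : ∀ α, mfderiv (𝓡 2) 𝓘(ℝ, EuclideanSpace ℝ (Fin 4))
        (fun p => (EuclideanSpace.equiv (Fin 4) ℝ).symm (f p)) p (A.V α p) =
        (EuclideanSpace.equiv (Fin 4) ℝ).symm (A.D α f p) := fun α => by
      rw [← A.D_eq_mfderiv α hF, A.D_comp α hf (EuclideanSpace.equiv (Fin 4) ℝ).symm.differentiableAt,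
        ContinuousLinearEquiv.fderiv]
      rfl
    have e2 : ∀ α β, @inner ℝ (EuclideanSpace ℝ (Fin 4)) _
        ((EuclideanSpace.equiv (Fin 4) ℝ).symm (A.D α f p))
        ((EuclideanSpace.equiv (Fin 4) ℝ).symm (A.D β f p)) = g.inner p (A.V α p) (A.V β p) :=
      fun α β => by
        refine Eq.trans ?_ (hG α β p)
        simp [Atl.pull, PiLp.inner_apply, dotProduct, mul_comm]
    have key : ∀ (L : TangentSpace (𝓡 2) p →L[ℝ] EuclideanSpace ℝ (Fin 4)),
        (∀ α, L (A.V α p) = (EuclideanSpace.equiv (Fin 4) ℝ).symm (A.D α f p)) →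
        @inner ℝ (EuclideanSpace ℝ (Fin 4)) _ (L (a • A.V (i, 0) p + b • A.V (i, 1) p))
          (L (a' • A.V (i, 0) p + b' • A.V (i, 1) p)) =
        g.inner p (a • A.V (i, 0) p + b • A.V (i, 1) p) (a' • A.V (i, 0) p + b' • A.V (i, 1) p) := by
      intro L hL
      simp only [map_add, map_smul, _root_.add_apply, _root_.smul_apply, smul_eq_mul, hL, inner_add_left,
        inner_add_right, real_inner_smul_left, real_inner_smul_right, e2]
      ring
    exact key _ e

end Crest.Agent.R216
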