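import Crest.Agent.R216.CoverC

/-!
# R216: the cover by small disks

PLAN (SUB-LEAD: write your own skeleton files `R216/Cov*.lean` and post tasks).

`ι : M → (κ → ℝ)`, `κ = Fin A.n × Fin 3`, `ι = (x i 0, x i 1, ψ i)`: smooth, injective (`exists_K`, `x_inj`), so on the compact `M`
every finite family of continuous functions is uniformly continuous with respect to `d p q = ∑ (ι p - ι q)²`, and
(Lebesgue number) for small `ρ` every `p ∈ K i` has `{q | d p q ≤ (10 ρ)²} ⊆ O i`. Let `n = card κ`.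
`B` from `exists_posB h`; `exists_triples (2B) (3 Dg + 1)` with `Dg = Dg n` the number of grid points within distance `4ρ` of a grid
point (colouring bound: grid `(ρ/(2n)) ℤ^κ`, so `Dg ≤ (16 n + 1)^n`, independent of `ρ`); `𝒯` = the finite set of all slopes.
CENTRES: the finitely many grid points `c` with some `p c ∈ M`, `|ι (p c) - c| < ρ`; every point of `M` is within `ρ/2` of a centre.
Chart `i c` with `p c ∈ K (i c)`. Disks are indexed by `(c, a)`, `a : Fin 3`; `s (c,a) p = r (c,a) - |ι p - c|²` with `r ∈ (ρ², 4ρ²)`.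
SLOPES (greedy induction over the list of centres): for `c`, each disk `k'` of an earlier centre `c'` with `|c - c'| ≤ 4ρ` excludes at most one slope
`t ∈ 𝒯`: with `(P, Q) = (Y_{k'} (x i 0), Y_{k'} (x i 1))`, `Y_{k'} (eta i t) = P + t Q`, `|P| + |Q| ≥ c₀ > 0` on
compact subsets of `O i ∩ O i'` (uniformly over the finitely many `i, i', t'`: use the points within `10ρ₀` of both `K i` and `K i'`, and
`D_shear`/`D_chart`: `Y_{k'} (x i' 1) = 1`), so at the base point `p c` at most one `t ∈ 𝒯` has `|P + tQ| < σ₁`; by uniform continuity the others have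
`P + t Q ≠ 0` on the whole disk. Among `3 Dg + 1` triples with distinct slopes one survives; its coefficients for `h` are `≥ m` at `p c`, hence `≥ m/2` on the disk.
Symmetry of transversality on `O i ∩ O i'`: `Y_k η_j = 0` implies `Y_j η_k = 0` (`D_shear`: `Y_k u = (Y_k η_j) X_j u + (Y_k y_j) Y_j u`; apply to `u = η_k`, `u = y_k`).
Same centre: `Y_eta`.
CONCAVITY: `Y Y s = -2 |Y ι|² - 2 (ι - c) ⬝ Y Y ι ≤ -2 + C ρ < 0` when `|ι p - c| ≤ 6ρ` and `p ∈ O (ch j)` (`Y_y`: `|Y ι| ≥ 1`).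
RADII: for `j ≠ k` the set of regular values of `(d_j, d_k) : M → ℝ²` (`d_k = |ι - c_k|²`) is open and dense (critical set
`{∀ α β, D α d_j * D β d_k = D β d_j * D α d_k}` is compact; its image is null by Sard in equal dimension in each chart:
`MeasureTheory.addHaar_image_eq_zero_of_det_fderivWithin_eq_zero`, `exists_down`), and regular fibres are finite (compact and discrete:
inverse function theorem, or directly: a point where the derivative is injective is isolated in its fibre); for distinct `j, k, l` the image of `(d_j, d_k, d_l)` is compact with dense complement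
(`dimH ≤ 2 < 3`: `ContDiff.dense_compl_range_of_finrank_lt_finrank` on each chart + finite unions of closed nowhere dense sets). Preimages of open dense sets under
coordinate projections (open maps) are open dense; a finite intersection of them meets the box `(ρ², 4ρ²)^{disks}`.
DECOMPOSITION: `φ c` a smooth partition of unity subordinate to `{|ι - c|² < ρ²}`; `h' = h - ε ∑ ψ_k² dη_k²` (`ψ_k = expNegInvGlue ∘ s k`), `ε` so small
that the coefficients of `h'` stay `≥ m/4` on the disks; `h' = ∑ c, φ c • h' = ∑ c a, φ c * coef … * dsq (eta)` (`IsTen.comp`, `coef_sum`,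
`D α eta = D α x⁰ + t D α x¹`); `c_k = √(ε + φ c * coef / ψ_k²)`, smooth by `sm_of_local` (`tsupport (φ c) ⊆ {ψ_k > 0}`). Reindex by `Fin m`.
-/

set_option autoImplicit false
set_option linter.unusedSectionVars false

open scoped Manifold ContDiff Topology
open Matrix

noncomputable section

namespace Crest.Agent.R216

variable {M : Type*} [TopologicalSpace M] [T2Space M] [CompactSpace M] [ChartedSpace E2 M]
  [IsManifold (𝓡 2) ∞ M]

theorem coverStmt (A : Atl M) : A.CoverStmt := by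
  classical
  intro h hh hp
  obtain ⟨B, hB1, hB⟩ := A.exists_posB hh hp
  obtain ⟨D, hD⟩ := cov_pack (EuclideanSpace ℝ (A.Idx ⊕ Fin A.n))
  obtain ⟨J, τ, m, hm, hτ, htr⟩ := exists_triples B (by linarith) (3 * D + 1)
  have e1 := Filter.eventually_all.2 A.ev_sub
  have e2 := Filter.eventually_all.2 fun x : Fin A.n × Fin J × Fin 3 =>
    A.ev_pos (A.cf_sm hh x.1 (τ x.2.1) x.2.2).continuous hm
  have e3 := Filter.eventually_all.2 fun x : (Fin A.n × Fin A.n) × (Fin J × Fin 3) ×
      (Fin J × Fin 3) × (Fin J × Fin 3) =>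
    A.ev_two x.1.1 x.1.2 (τ x.2.1.1 x.2.1.2) (τ x.2.2.1.1 x.2.2.1.2) (τ x.2.2.2.1 x.2.2.2.2)
  have e4 := Filter.eventually_all.2 fun x : Fin A.n × Fin J × Fin 3 =>
    A.ev_conc x.1 (τ x.2.1 x.2.2)
  obtain ⟨ρ, ⟨⟨f1, f2⟩, f3, f4⟩, hρ⟩ :=
    (((e1.and e2).and (e3.and e4)).and self_mem_nhdsWithin).exists
  have hρ : 0 < ρ := hρ
  obtain ⟨P, hsep, hcov⟩ := cov_net A.emb_cont hρ
  choose ch _ hch _ using A.exists_K
  have hσ : ∀ c : M, ∃ σ : Fin (3 * D + 1) → Fin J,
      Function.Injective (fun q : Fin (3 * D + 1) × Fin 3 => τ (σ q.1) q.2) ∧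
        ∀ a k, m ≤ A.cvcf h (ch c) (τ (σ a)) k c := fun c => by
    obtain ⟨h1, h2⟩ := hB (ch c) c (hch c)
    refine htr _ _ _ (h1 0 0) (h1 0 1) (h1 1 1) fun v₁ v₂ => ?_
    have h3 := h2 ![v₁, v₂]
    simp only [dotProduct, Fin.sum_univ_two, cons_val_zero, cons_val_one, cons_val_fin_one,
      hh.symm (ch c, 1) (ch c, 0) c] at h3
    convert h3 using 1 <;> ring
  choose σ hσ1 hσ2 using hσ
  obtain ⟨f, hf⟩ := cov_greedy (P := P) (D := D) (fun c a c' a' => ∃ k k' p,
      dist (A.emb p) (A.emb c) ≤ 2 * ρ ∧ dist (A.emb p) (A.emb c') ≤ 2 * ρ ∧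
      A.Y (ch c') (τ (σ c' a') k') (A.eta (ch c) (τ (σ c a) k)) p = 0)
    (fun c a c' a' ⟨k, k', p, h1, h2, h3⟩ => ⟨k', k, p, h2, h1,
      A.Y_symm (f1 _ _ (hch c) p h1) (f1 _ _ (hch c') p h2) h3⟩)
    (fun c c' a' S hS => by
      refine (Finset.card_le_card (t := Finset.univ.biUnion fun k' : Fin 3 =>
        Finset.univ.filter fun a => ∃ k p, dist (A.emb p) (A.emb c) ≤ 2 * ρ ∧
          dist (A.emb p) (A.emb c') ≤ 2 * ρ ∧
          A.Y (ch c') (τ (σ c' a') k') (A.eta (ch c) (τ (σ c a) k)) p = 0) fun a ha => ?_).trans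
        ((Finset.card_biUnion_le_card_mul _ _ 1 fun k' _ => Finset.card_le_one.2
          fun a₁ h₁ a₂ h₂ => ?_).trans (by simp))
      · obtain ⟨k, k', p, h1⟩ := hS a ha
        exact Finset.mem_biUnion.2 ⟨k', Finset.mem_univ _,
          Finset.mem_filter.2 ⟨Finset.mem_univ _, k, p, h1⟩⟩
      · obtain ⟨k₁, p₁, a1, a2, a3⟩ := (Finset.mem_filter.1 h₁).2
        obtain ⟨k₂, p₂, b1, -, b3⟩ := (Finset.mem_filter.1 h₂).2
        have := f3 ((ch c, ch c'), (σ c a₁, k₁), (σ c a₂, k₂), (σ c' a', k')) c (hch c) c' (hch c')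
          p₁ p₂ a1 a2 b1 a3 b3
        exact congrArg Prod.fst (@hσ1 c (a₁, k₁) (a₂, k₂) this))
    (fun c S hS => by
      refine hD ρ hρ _ _ (fun x : P => A.emb x) (A.emb c) (fun x hx => ?_)
        fun x _ y _ hxy => hsep x x.2 y y.2 fun h => hxy (Subtype.ext h)
      obtain ⟨a, a', k, k', p, h1, h2, -⟩ := hS x hx
      have := dist_triangle_left (A.emb x) (A.emb c) (A.emb p)
      linarith)
  obtain ⟨r, hr, hfin, hnt⟩ := cov_radii (fun k : P × Fin 3 => A.cvdd k.1)
    (fun k => (A.dd_sm _).continuous) (fun j k => A.ae_fibre_finite (A.dd_sm _) (A.dd_sm _))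
    (a := ρ ^ 2) (b := (2 * ρ) ^ 2) (by nlinarith)
  have hs : ∀ k : P × Fin 3, Sm fun p => r k - A.cvdd k.1 p := fun k => (sm_const _).sub (A.dd_sm _)
  have hle : ∀ (k : P × Fin 3) p, 0 ≤ r k - A.cvdd k.1 p → dist (A.emb p) (A.emb k.1) ≤ 2 * ρ := by
    intro k p h1
    rw [A.dd_eq] at h1
    exact (abs_le_of_sq_le_sq' (by linarith [(hr k).2]) (by linarith)).2
  obtain ⟨cc, c1, c2, c3⟩ := A.exists_decomp hh (fun c : P => ch c) (fun c => τ (σ c (f c)))
    (fun c => hτ _) (fun k p => r k - A.cvdd k.1 p) hs fun p => by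
      obtain ⟨c, hc, h1⟩ := hcov p
      refine ⟨⟨c, hc⟩, f1 _ _ (hch c) p (by linarith), fun a => ⟨?_,
        f2 (ch c, σ c (f ⟨c, hc⟩), a) c p h1 (hσ2 c _ a)⟩⟩
      have h2 := (hr (⟨c, hc⟩, a)).1
      have h3 := pow_lt_pow_left₀ h1 dist_nonneg two_ne_zero
      rw [← A.dd_eq] at h3
      exact sub_pos.2 (h3.trans h2)
  refine A.cover_of_fintype h (fun k : P × Fin 3 => ch k.1) (fun k => τ (σ k.1 (f k.1)) k.2)
    (fun k p => r k - A.cvdd k.1 p) cc hs (fun k p h1 => f1 _ _ (hch _) p (hle k p h1))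
    (fun j k l p a1 a2 a3 b1 b2 b3 => hnt j k l p a1 a2 a3 (sub_eq_zero.1 b1).symm
      (sub_eq_zero.1 b2).symm (sub_eq_zero.1 b3).symm)
    (fun j k a => (hfin j k a).subset fun p hp =>
      ⟨(sub_eq_zero.1 hp.1).symm, (sub_eq_zero.1 hp.2).symm⟩)
    (fun j k p a b1 b2 => ?_) (fun j k p q b1 b2 b3 => ?_) c1 c2 c3
  · obtain ⟨c, x⟩ := j
    obtain ⟨c', x'⟩ := k
    by_cases hc : c' = c
    · subst hc
      rw [A.Y_eta _ _ _ (f1 _ _ (hch _) p (hle (c', x) p b1)), sub_ne_zero]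
      exact fun h => a (Prod.ext rfl (hτ _ h).symm)
    · exact fun h => hf c' c hc ⟨x', x, p, hle (c', x') p b2, hle (c, x) p b1, h⟩
  · rw [A.YY_const_sub _ _ (A.dd_sm _), neg_lt_zero]
    refine f4 (ch j.1, σ j.1 (f j.1), j.2) j.1 (hch _) k.1 p (hle j p b3) ?_
    have h1 := dist_triangle (A.emb p) (A.emb j.1) (A.emb k.1)
    have h2 := dist_triangle_left (A.emb j.1) (A.emb k.1) (A.emb q)
    linarith [hle j p b3, hle j q b1, hle k q b2]

end Crest.Agent.R216
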