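import Mathlib

/-!
# R216: pure Mathlib lemmas for the cover (compactness, nets, greedy choice, generic radii)
-/

set_option autoImplicit false

open scoped Topology
open MeasureTheory Set Filter

namespace Crest.Agent.R216

/-- A positive continuous function on a closed subset of a compact space is bounded below. -/
theorem cov_small {X : Type*} [TopologicalSpace X] [CompactSpace X] {S : Set X} (hS : IsClosed S)
    {g : X → ℝ} (hg : Continuous g) (h : ∀ x ∈ S, 0 < g x) :
    ∀ᶠ ρ in 𝓝[>] (0 : ℝ), ∀ x ∈ S, ρ < g x := by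
  rcases S.eq_empty_or_nonempty with rfl | hne
  · simp
  obtain ⟨x, hx, hm⟩ := hS.isCompact.exists_isMinOn hne hg.continuousOn
  filter_upwards [mem_nhdsWithin_of_mem_nhds (Iio_mem_nhds (h x hx))] with ρ hρ y hy
  exact lt_of_lt_of_le hρ (hm hy)

theorem cov_card {E : Type*} [PseudoMetricSpace E] {K : Set E} (hK : IsCompact K) {ρ : ℝ}
    (hρ : 0 < ρ) : ∃ N : ℕ, ∀ (X : Type*) (S : Finset X) (e : X → E), (∀ x ∈ S, e x ∈ K) →
      (∀ x ∈ S, ∀ y ∈ S, x ≠ y → ρ ≤ dist (e x) (e y)) → S.card ≤ N := by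
  classical
  obtain ⟨t, -, ht, hc⟩ := finite_cover_balls_of_compact hK (half_pos hρ)
  refine ⟨ht.toFinset.card, fun X S e h1 h2 => ?_⟩
  have h3 : ∀ x ∈ S, ∃ a ∈ t, dist (e x) a < ρ / 2 := fun x hx => by
    simpa using hc (h1 x hx)
  rcases S.eq_empty_or_nonempty with rfl | ⟨x₀, -⟩
  · simp
  have : Nonempty E := ⟨e x₀⟩
  choose! f hf using h3
  refine Finset.card_le_card_of_injOn f (fun x hx => by simpa using (hf x hx).1)
    fun x hx y hy hxy => ?_
  by_contra hne
  have h4 := h2 x hx y hy hne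
  have h5 := dist_triangle_right (e x) (e y) (f x)
  have h6 := (hf x hx).2
  have h7 := (hf y hy).2
  rw [← hxy] at h7
  linarith

/-- Scale invariant packing bound. -/
theorem cov_pack (E : Type*) [NormedAddCommGroup E] [NormedSpace ℝ E] [ProperSpace E] :
    ∃ D : ℕ, ∀ ρ : ℝ, 0 < ρ → ∀ (X : Type*) (S : Finset X) (e : X → E) (c : E),
      (∀ x ∈ S, dist (e x) c ≤ 4 * ρ) →
      (∀ x ∈ S, ∀ y ∈ S, x ≠ y → ρ ≤ dist (e x) (e y)) → S.card ≤ D := by
  obtain ⟨D, hD⟩ := cov_card (isCompact_closedBall (0 : E) 4) one_pos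
  refine ⟨D, fun ρ hρ X S e c h1 h2 => hD X S (fun x => ρ⁻¹ • (e x - c)) (fun x hx => ?_)
    fun x hx y hy hxy => ?_⟩
  · rw [mem_closedBall_zero_iff, norm_smul, norm_inv, Real.norm_of_nonneg hρ.le, ← dist_eq_norm,
      inv_mul_le_iff₀ hρ, mul_comm]
    exact h1 x hx
  · rw [dist_smul₀, norm_inv, Real.norm_of_nonneg hρ.le, dist_sub_right, le_inv_mul_iff₀ hρ,
      mul_one]
    exact h2 x hx y hy hxy

/-- A maximal separated set. -/
theorem cov_net {X E : Type*} [TopologicalSpace X] [CompactSpace X] [PseudoMetricSpace E]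
    {e : X → E} (he : Continuous e) {ρ : ℝ} (hρ : 0 < ρ) :
    ∃ P : Finset X, (∀ x ∈ P, ∀ y ∈ P, x ≠ y → ρ ≤ dist (e x) (e y)) ∧
      ∀ p, ∃ c ∈ P, dist (e p) (e c) < ρ := by
  classical
  obtain ⟨N, hN⟩ := cov_card (isCompact_range he) hρ
  have h1 := Nat.sSup_mem (s := {n | ∃ P : Finset X,
    (∀ x ∈ P, ∀ y ∈ P, x ≠ y → ρ ≤ dist (e x) (e y)) ∧ P.card = n}) ⟨0, ∅, by simp, rfl⟩
    ⟨N, by rintro _ ⟨P, hP, rfl⟩; exact hN X P e (fun x _ => mem_range_self x) hP⟩
  obtain ⟨P, hP, hc⟩ := h1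
  refine ⟨P, hP, fun p => ?_⟩
  by_contra hcon
  push Not at hcon
  have hp : p ∉ P := fun h => by
    have := hcon p h
    rw [dist_self] at this
    linarith
  have h2 : (insert p P).card ≤ P.card := by
    rw [hc]
    refine le_csSup ⟨N, ?_⟩ ⟨insert p P, ?_, rfl⟩
    · rintro _ ⟨P, hP, rfl⟩
      exact hN X P e (fun x _ => mem_range_self x) hP
    · intro x hx y hy hxy
      rcases Finset.mem_insert.1 hx with hx' | hx' <;> rcases Finset.mem_insert.1 hy with hy' | hy'
      · exact absurd (hx'.trans hy'.symm) hxy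
      · exact hx' ▸ hcon y hy'
      · rw [dist_comm]
        exact hy' ▸ hcon x hx'
      · exact hP x hx' y hy' hxy
  rw [Finset.card_insert_of_notMem hp] at h2
  omega

/-- Greedy choice. -/
theorem cov_greedy {P : Type*} [Fintype P] {D : ℕ} (bad : P → Fin (3 * D + 1) → P →
      Fin (3 * D + 1) → Prop) (hs : ∀ c a c' a', bad c a c' a' → bad c' a' c a)
    (h3 : ∀ c c' a' (S : Finset (Fin (3 * D + 1))), (∀ a ∈ S, bad c a c' a') → S.card ≤ 3)
    (hD : ∀ c (S : Finset P), (∀ c' ∈ S, ∃ a a', bad c a c' a') → S.card ≤ D) :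
    ∃ f : P → Fin (3 * D + 1), ∀ c c', c ≠ c' → ¬ bad c (f c) c' (f c') := by
  classical
  suffices h : ∀ S : Finset P, ∃ f : P → Fin (3 * D + 1), ∀ c ∈ S, ∀ c' ∈ S, c ≠ c' →
      ¬ bad c (f c) c' (f c') by
    obtain ⟨f, hf⟩ := h Finset.univ
    exact ⟨f, fun c c' => hf c (Finset.mem_univ _) c' (Finset.mem_univ _)⟩
  intro S
  induction S using Finset.induction_on with
  | empty => exact ⟨fun _ => 0, by simp⟩
  | insert c₀ S hc₀ ih =>
    obtain ⟨f, hf⟩ := ih
    have h1 : ((Finset.univ.filter fun c' => ∃ a a', bad c₀ a c' a').biUnion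
        fun c' => Finset.univ.filter fun a => bad c₀ a c' (f c')).card <
        (Finset.univ : Finset (Fin (3 * D + 1))).card := by
      refine (Finset.card_biUnion_le_card_mul _ _ 3 fun c' _ => h3 c₀ c' (f c') _
        fun a ha => (Finset.mem_filter.1 ha).2).trans_lt ?_
      have := hD c₀ (Finset.univ.filter fun c' => ∃ a a', bad c₀ a c' a')
        fun a ha => (Finset.mem_filter.1 ha).2
      rw [Finset.card_univ, Fintype.card_fin]
      omega
    obtain ⟨a, -, ha⟩ := Finset.exists_mem_notMem_of_card_lt_card h1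
    have h2 : ∀ c', ¬ bad c₀ a c' (f c') := fun c' h => ha (Finset.mem_biUnion.2
      ⟨c', Finset.mem_filter.2 ⟨Finset.mem_univ _, a, _, h⟩,
        Finset.mem_filter.2 ⟨Finset.mem_univ _, h⟩⟩)
    refine ⟨Function.update f c₀ a, fun c hc c' hc' hne => ?_⟩
    rcases Finset.mem_insert.1 hc with rfl | hc <;> rcases Finset.mem_insert.1 hc' with rfl | hc'
    · exact absurd rfl hne
    · rw [Function.update_self, Function.update_of_ne hne.symm]
      exact h2 c'
    · rw [Function.update_self, Function.update_of_ne hne]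
      exact fun h => h2 c (hs _ _ _ _ h)
    · rw [Function.update_of_ne (ne_of_mem_of_not_mem hc hc₀),
        Function.update_of_ne (ne_of_mem_of_not_mem hc' hc₀)]
      exact hf c hc c' hc' hne

/-- Almost every fibre of a differentiable self-map of the plane meets a compact set in a finite
set (Sard in equal dimension). -/
theorem cov_sard {g : ℝ × ℝ → ℝ × ℝ} (hg : Differentiable ℝ g) {Z : Set (ℝ × ℝ)}
    (hZ : IsCompact Z) : ∀ᵐ y : ℝ × ℝ, {z | z ∈ Z ∧ g z = y}.Finite := by
  have h0 : volume (g '' {z | (fderiv ℝ g z).det = 0}) = 0 :=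
    addHaar_image_eq_zero_of_det_fderivWithin_eq_zero volume (f' := fderiv ℝ g)
      (fun z _ => (hg z).hasFDerivAt.hasFDerivWithinAt) fun z hz => hz
  filter_upwards [measure_eq_zero_iff_ae_notMem.1 h0] with y hy
  refine (hZ.inter_right (isClosed_eq hg.continuous continuous_const)).finite ?_
  rw [isDiscrete_iff_nhdsNE]
  intro z hz
  have hd : (fderiv ℝ g z).det ≠ 0 := fun h => hy ⟨z, h, hz.2⟩
  have h1 := (hg z).hasFDerivAt.eventually_ne (c := y)
    ⟨_, ((fderiv ℝ g z).toContinuousLinearEquivOfDetNeZero hd).antilipschitz⟩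
  rw [inf_principal_eq_bot]
  filter_upwards [h1] with w hw h
  exact hw h.2

theorem cov_ae_comp {E F : Type*} [NormedAddCommGroup E] [NormedSpace ℝ E] [MeasurableSpace E]
    [BorelSpace E] [LocallyCompactSpace E] [NormedAddCommGroup F] [NormedSpace ℝ F]
    [MeasurableSpace F] [BorelSpace F] (μ : Measure E) (ν : Measure F) [μ.IsAddHaarMeasure]
    [ν.IsAddHaarMeasure] (L : E →ₗ[ℝ] F) (hL : Function.Surjective L) {p : F → Prop}
    (h : ∀ᵐ y ∂ν, p y) : ∀ᵐ x ∂μ, p (L x) := by
  obtain ⟨s, hs, hm, hp⟩ := h.exists_measurable_mem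
  filter_upwards [(ae_comp_linearMap_mem_iff L μ ν hL hm).2 hs] with x hx
  exact hp _ hx

/-- Generic levels. -/
theorem cov_radii {X : Type*} [TopologicalSpace X] [CompactSpace X] {κ : Type*} [Fintype κ]
    (d : κ → X → ℝ) (hd : ∀ k, Continuous (d k))
    (h : ∀ j k, ∀ᵐ y : ℝ × ℝ, {p | d j p = y.1 ∧ d k p = y.2}.Finite) {a b : ℝ} (hab : a < b) :
    ∃ r : κ → ℝ, (∀ k, a < r k ∧ r k < b) ∧
      (∀ j k, j ≠ k → {p | d j p = r j ∧ d k p = r k}.Finite) ∧
      ∀ j k l p, j ≠ k → j ≠ l → k ≠ l → d j p = r j → d k p = r k → d l p ≠ r l := by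
  classical
  have h1 : ∀ᵐ r : κ → ℝ, ∀ j k, j ≠ k → {p | d j p = r j ∧ d k p = r k}.Finite := by
    refine ae_all_iff.2 fun j => ae_all_iff.2 fun k => ?_
    by_cases hjk : j = k
    · exact Eventually.of_forall fun r h => absurd hjk h
    have := cov_ae_comp (volume : Measure (κ → ℝ)) (volume : Measure (ℝ × ℝ))
      ((LinearMap.proj j).prod (LinearMap.proj k))
      (fun y => ⟨fun i => if i = j then y.1 else y.2, by simp [Ne.symm hjk]⟩) (h j k)
    filter_upwards [this] with r hr _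
    exact hr
  have h2 : ∀ᵐ r : κ → ℝ, ∀ j k l, j ≠ k → j ≠ l → k ≠ l →
      ∀ p, d j p = r j → d k p = r k → d l p ≠ r l := by
    refine ae_all_iff.2 fun j => ae_all_iff.2 fun k => ae_all_iff.2 fun l => ?_
    by_cases hjk : j = k
    · exact Eventually.of_forall fun r h => absurd hjk h
    by_cases hjl : j = l
    · exact Eventually.of_forall fun r _ h => absurd hjl h
    by_cases hkl : k = l
    · exact Eventually.of_forall fun r _ _ h => absurd hkl h
    have hc : IsClosed (range fun p => ((d j p, d k p), d l p)) :=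
      (isCompact_range (by fun_prop)).isClosed
    have h3 : ∀ᵐ y : (ℝ × ℝ) × ℝ, y ∉ range fun p => ((d j p, d k p), d l p) := by
      refine (Measure.ae_prod_iff_ae_ae hc.measurableSet.compl).2 ?_
      filter_upwards [h j k] with y hy
      filter_upwards [measure_eq_zero_iff_ae_notMem.1 ((hy.image (d l)).measure_zero volume)]
        with w hw
      rintro ⟨p, hp⟩
      simp only [Prod.ext_iff] at hp
      exact hw ⟨p, hp.1, hp.2⟩
    have : (volume : Measure ((ℝ × ℝ) × ℝ)).IsAddHaarMeasure :=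
      Measure.prod.instIsAddHaarMeasure _ _
    have := cov_ae_comp (volume : Measure (κ → ℝ)) (volume : Measure ((ℝ × ℝ) × ℝ))
      (((LinearMap.proj j).prod (LinearMap.proj k)).prod (LinearMap.proj l))
      (fun y => ⟨fun i => if i = j then y.1.1 else if i = k then y.1.2 else y.2, by
        simp [Ne.symm hjk, Ne.symm hjl, Ne.symm hkl]⟩) h3
    filter_upwards [this] with r hr _ _ _ p e1 e2 e3
    exact hr ⟨p, by simp [e1, e2, e3]⟩
  have h3 : IsOpen (Set.pi univ fun _ : κ => Ioo a b) :=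
    isOpen_set_pi finite_univ fun _ _ => isOpen_Ioo
  obtain ⟨r, hr, h4, h5⟩ := Measure.exists_mem_of_measure_ne_zero_of_ae
    (h3.measure_pos volume ⟨fun _ => (a + b) / 2, fun _ _ => ⟨by linarith, by linarith⟩⟩).ne'
    (ae_restrict_of_ae (h1.and h2))
  exact ⟨r, fun k => hr k trivial, h4, fun j k l p a1 a2 a3 => h5 j k l a1 a2 a3 p⟩

end Crest.Agent.R216
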