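import Crest.Agent.R216.Api4

/-!
# R216: finite families of directions

A symmetric form `T = (T₁₁, T₁₂, T₂₂)` is `∑ k, coef t k T • (1, t k, t k ^ 2)` for three distinct slopes `t`.
-/

set_option autoImplicit false
set_option linter.unusedSectionVars false

open scoped Manifold ContDiff Topology
open Matrix

noncomputable section

namespace Crest.Agent.R216

/-- Lagrange coefficient: `T` applied to `(s - t (k+1)) (s - t (k+2))`, normalised. -/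
def coef {R : Type*} [CommRing R] [Algebra ℝ R] (t : Fin 3 → ℝ) (k : Fin 3) (T₁₁ T₁₂ T₂₂ : R) : R :=
  ((t k - t (k + 1)) * (t k - t (k + 2)))⁻¹ •
    (T₂₂ - (t (k + 1) + t (k + 2)) • T₁₂ + (t (k + 1) * t (k + 2)) • T₁₁)

theorem coef_sum {R : Type*} [CommRing R] [Algebra ℝ R] {t : Fin 3 → ℝ}
    (ht : Function.Injective t) (T₁₁ T₁₂ T₂₂ : R) :
    ∑ k, coef t k T₁₁ T₁₂ T₂₂ = T₁₁ ∧ ∑ k, t k • coef t k T₁₁ T₁₂ T₂₂ = T₁₂ ∧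
      ∑ k, (t k ^ 2) • coef t k T₁₁ T₁₂ T₂₂ = T₂₂ := by
  have h01 : t 0 - t 1 ≠ 0 := sub_ne_zero.2 (ht.ne (by decide))
  have h02 : t 0 - t 2 ≠ 0 := sub_ne_zero.2 (ht.ne (by decide))
  have h12 : t 1 - t 2 ≠ 0 := sub_ne_zero.2 (ht.ne (by decide))
  have h10 : t 1 - t 0 ≠ 0 := sub_ne_zero.2 (ht.ne (by decide))
  have h20 : t 2 - t 0 ≠ 0 := sub_ne_zero.2 (ht.ne (by decide))
  have h21 : t 2 - t 1 ≠ 0 := sub_ne_zero.2 (ht.ne (by decide))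
  have e1 : (0 : Fin 3) + 1 = 1 := rfl
  have e2 : (0 : Fin 3) + 2 = 2 := rfl
  have e3 : (1 : Fin 3) + 1 = 2 := rfl
  have e4 : (1 : Fin 3) + 2 = 0 := rfl
  have e5 : (2 : Fin 3) + 1 = 0 := rfl
  have e6 : (2 : Fin 3) + 2 = 1 := rfl
  simp only [coef, Fin.sum_univ_three, e1, e2, e3, e4, e5, e6]
  refine ⟨?_, ?_, ?_⟩ <;> match_scalars <;> field_simp <;> ring

theorem dirs_min {ι : Type*} (s : Finset ι) (g : ι → ℝ) (hg : ∀ i ∈ s, 0 < g i) :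
    ∃ m : ℝ, 0 < m ∧ ∀ i ∈ s, m ≤ g i := by
  classical
  induction s using Finset.induction_on with
  | empty => exact ⟨1, one_pos, by simp⟩
  | insert a s ha ih =>
    obtain ⟨m, hm, h⟩ := ih fun i hi => hg i (Finset.mem_insert_of_mem hi)
    refine ⟨min m (g a), lt_min hm (hg a (Finset.mem_insert_self _ _)), fun i hi => ?_⟩
    rcases Finset.mem_insert.1 hi with rfl | hi
    · exact min_le_right _ _
    · exact (min_le_left _ _).trans (h i hi)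

theorem dirs_coef_eq (t : Fin 3 → ℝ) (k : Fin 3) (T₁₁ μ v : ℝ) :
    coef t k T₁₁ (T₁₁ * μ) (T₁₁ * (v + μ ^ 2)) =
      T₁₁ * (v + (μ - t (k + 1)) * (μ - t (k + 2))) / ((t k - t (k + 1)) * (t k - t (k + 2))) := by
  simp only [coef, smul_eq_mul]
  rw [div_eq_inv_mul]
  congr 1
  ring

theorem dirs_point (n : ℕ) {T₁₁ μ v : ℝ} (h1 : 0 < T₁₁) (hv : 0 < v) :
    ∃ ρ : Fin n → Fin 3 → ℝ, Function.Injective (fun q : Fin n × Fin 3 => ρ q.1 q.2) ∧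
      ∀ a k, 0 < coef (ρ a) k T₁₁ (T₁₁ * μ) (T₁₁ * (v + μ ^ 2)) := by
  set R : ℝ := v + 1 with hR
  have hn : (0 : ℝ) ≤ n := Nat.cast_nonneg n
  set ε : ℝ := v / ((n + 1) * (R + n)) with hε
  have hRn : 0 < R + n := by positivity
  have hε0 : 0 < ε := by positivity
  have hεv : ε * ((n + 1) * (R + n)) = v := by rw [hε]; field_simp
  have hj : ∀ j : Fin n, (0 : ℝ) ≤ (j : ℕ) ∧ ((j : ℕ) : ℝ) ≤ n := fun j =>
    ⟨Nat.cast_nonneg _, by exact_mod_cast j.2.le⟩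
  have key : ∀ j : Fin n, ε * (j : ℕ) * (R + (j : ℕ)) < v := by
    intro j
    obtain ⟨h0, h2⟩ := hj j
    have : ((j : ℕ) : ℝ) * (R + (j : ℕ)) < (n + 1) * (R + n) := by
      have : ((j : ℕ) : ℝ) * (R + (j : ℕ)) ≤ n * (R + n) := by
        apply mul_le_mul h2 (by linarith) (by positivity) hn
      nlinarith
    rw [← hεv, mul_assoc]
    exact mul_lt_mul_of_pos_left this hε0
  have key2 : ∀ j : Fin n, 0 ≤ ε * (j : ℕ) ∧ ε * (j : ℕ) < R := by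
    intro j
    obtain ⟨h0, h2⟩ := hj j
    have h3 : 0 ≤ ε * (j : ℕ) := by positivity
    refine ⟨h3, ?_⟩
    have := key j
    nlinarith
  refine ⟨fun j => ![μ - (R + (j : ℕ)), μ + ε * (j : ℕ), μ + (R + (j : ℕ))], ?_, ?_⟩
  · rintro ⟨a, k⟩ ⟨b, l⟩ h
    obtain ⟨ha0, -⟩ := hj a
    obtain ⟨hb0, -⟩ := hj b
    obtain ⟨ha1, ha2⟩ := key2 a
    obtain ⟨hb1, hb2⟩ := key2 b
    have fin : ((a : ℕ) : ℝ) = (b : ℕ) → a = b := fun h => Fin.ext (by exact_mod_cast h)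
    have hR0 : 0 < R := by positivity
    fin_cases k <;> fin_cases l <;> simp only [Fin.zero_eta, Fin.mk_one, Fin.reduceFinMk,
      Matrix.cons_val_zero, Matrix.cons_val_one, Matrix.cons_val] at h ⊢
    · rw [fin (by linarith)]
    · exfalso; linarith
    · exfalso; linarith
    · exfalso; linarith
    · rw [fin (mul_left_cancel₀ hε0.ne' (by linarith))]
    · exfalso; linarith
    · exfalso; linarith
    · exfalso; linarith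
    · rw [fin (by linarith)]
  · intro a k
    rw [dirs_coef_eq]
    obtain ⟨ha0, -⟩ := hj a
    obtain ⟨ha1, ha2⟩ := key2 a
    have ha3 := key a
    have hR0 : 0 < R := by positivity
    have e1 : (0 : Fin 3) + 1 = 1 := rfl
    have e2 : (0 : Fin 3) + 2 = 2 := rfl
    have e3 : (1 : Fin 3) + 1 = 2 := rfl
    have e4 : (1 : Fin 3) + 2 = 0 := rfl
    have e5 : (2 : Fin 3) + 1 = 0 := rfl
    have e6 : (2 : Fin 3) + 2 = 1 := rfl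
    set x : ℝ := R + (a : ℕ) with hx
    set y : ℝ := ε * (a : ℕ) with hy
    have hx0 : 0 < x := by positivity
    have hxy : y < x := by linarith
    fin_cases k
    · simp only [Fin.zero_eta, e1, e2, Matrix.cons_val_zero, Matrix.cons_val_one, Matrix.cons_val]
      apply div_pos (mul_pos h1 (by nlinarith)) (by nlinarith)
    · simp only [Fin.mk_one, e3, e4, Matrix.cons_val_zero, Matrix.cons_val_one, Matrix.cons_val]
      apply div_pos_of_neg_of_neg (mul_neg_of_pos_of_neg h1 (by nlinarith)) (by nlinarith)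
    · simp only [Fin.reduceFinMk, e5, e6, Matrix.cons_val_zero, Matrix.cons_val_one,
        Matrix.cons_val]
      apply div_pos (mul_pos h1 (by nlinarith)) (by nlinarith)

/-- For a positive definite `T` with mean `μ = T₁₂/T₁₁` and variance `v = T₂₂/T₁₁ - μ² > 0`,
`T[(s-a)(s-b)] = T₁₁ (v + (μ-a)(μ-b))`; so the slopes `(-R - j, μ + ε j, R + j)` (`R` large, `ε` small,
`j = 0, …, n-1`) give `n` triples with pairwise distinct slopes and positive coefficients. The coefficients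
are continuous in `T`: cover the compact set of forms by finitely many open sets. -/
theorem exists_triples (B : ℝ) (hB : 0 < B) (n : ℕ) :
    ∃ (J : ℕ) (τ : Fin J → Fin 3 → ℝ) (m : ℝ), 0 < m ∧ (∀ j, Function.Injective (τ j)) ∧
      ∀ T₁₁ T₁₂ T₂₂ : ℝ, |T₁₁| ≤ B → |T₁₂| ≤ B → |T₂₂| ≤ B →
        (∀ v₁ v₂ : ℝ, v₁ ^ 2 + v₂ ^ 2 ≤ B * (v₁ ^ 2 * T₁₁ + 2 * v₁ * v₂ * T₁₂ + v₂ ^ 2 * T₂₂)) →
        ∃ σ : Fin n → Fin J, Function.Injective (fun q : Fin n × Fin 3 => τ (σ q.1) q.2) ∧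
          ∀ a k, m ≤ coef (τ (σ a)) k T₁₁ T₁₂ T₂₂ := by
  classical
  let K : Set (ℝ × ℝ × ℝ) := {T | |T.1| ≤ B ∧ |T.2.1| ≤ B ∧ |T.2.2| ≤ B ∧
    ∀ v₁ v₂ : ℝ, v₁ ^ 2 + v₂ ^ 2 ≤ B * (v₁ ^ 2 * T.1 + 2 * v₁ * v₂ * T.2.1 + v₂ ^ 2 * T.2.2)}
  have hK : IsCompact K := by
    refine (isCompact_closedBall (0 : ℝ × ℝ × ℝ) B).of_isClosed_subset ?_ ?_
    · simp only [K, Set.ofPred_and, Set.ofPred_forall]
      refine (isClosed_le (by fun_prop) continuous_const).inter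
        ((isClosed_le (by fun_prop) continuous_const).inter
          ((isClosed_le (by fun_prop) continuous_const).inter ?_))
      exact isClosed_iInter fun v₁ => isClosed_iInter fun v₂ =>
        isClosed_le continuous_const (by fun_prop)
    · rintro T ⟨h1, h2, h3, -⟩
      simp only [mem_closedBall_zero_iff, Prod.norm_def, Real.norm_eq_abs, max_le_iff]
      exact ⟨h1, h2, h3⟩
  let ι := {r : (Fin n → Fin 3 → ℝ) × ℝ //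
    Function.Injective (fun q : Fin n × Fin 3 => r.1 q.1 q.2) ∧ 0 < r.2}
  let U : ι → Set (ℝ × ℝ × ℝ) := fun r => {T | ∀ a k, r.1.2 < coef (r.1.1 a) k T.1 T.2.1 T.2.2}
  have hU : ∀ r, IsOpen (U r) := by
    intro r
    simp only [U, Set.ofPred_forall]
    refine isOpen_iInter_of_finite fun a => isOpen_iInter_of_finite fun k =>
      isOpen_lt continuous_const ?_
    simp only [coef, smul_eq_mul]
    fun_prop
  have hcov : K ⊆ ⋃ r, U r := by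
    rintro ⟨T₁₁, T₁₂, T₂₂⟩ ⟨-, -, -, h⟩
    simp only at h
    have h1 : 0 < T₁₁ := by
      have := h 1 0
      by_contra hc
      push Not at hc
      nlinarith [mul_nonneg hB.le (neg_nonneg.2 hc)]
    set μ := T₁₂ / T₁₁ with hμ
    set v := T₂₂ / T₁₁ - μ ^ 2 with hv
    have e1 : T₁₂ = T₁₁ * μ := by rw [hμ]; field_simp
    have e2 : T₂₂ = T₁₁ * (v + μ ^ 2) := by rw [hv]; field_simp; ring
    have hv0 : 0 < v := by
      have := h (-μ) 1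
      rw [e2, e1] at this
      have h3 : 0 < B * T₁₁ * v := by nlinarith [sq_nonneg μ]
      exact (mul_pos_iff_of_pos_left (mul_pos hB h1)).1 h3
    obtain ⟨ρ, hρ, hpos⟩ := dirs_point n (μ := μ) h1 hv0
    rw [← e1, ← e2] at hpos
    obtain ⟨m, hm, hle⟩ := dirs_min (Finset.univ : Finset (Fin n × Fin 3))
      (fun q => coef (ρ q.1) q.2 T₁₁ T₁₂ T₂₂) fun q _ => hpos q.1 q.2
    refine Set.mem_iUnion.2 ⟨⟨(ρ, m / 2), hρ, by positivity⟩, fun a k => ?_⟩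
    have := hle (a, k) (Finset.mem_univ _)
    simp only at this ⊢
    linarith
  obtain ⟨s, hs⟩ := hK.elim_finite_subcover U hU hcov
  obtain ⟨m, hm, hle⟩ := dirs_min s (fun r => r.1.2) fun r _ => r.2.2
  let S : Finset (Fin 3 → ℝ) := s.biUnion fun r => Finset.univ.image r.1.1
  refine ⟨S.card, fun j => (S.equivFin.symm j).1, m, hm, fun j => ?_, ?_⟩
  · obtain ⟨r, -, hr⟩ := Finset.mem_biUnion.1 (S.equivFin.symm j).2
    obtain ⟨a, -, ha⟩ := Finset.mem_image.1 hr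
    intro k l hkl
    simp only [← ha] at hkl
    exact (Prod.mk.inj (r.2.1 (a₁ := (a, k)) (a₂ := (a, l)) hkl)).2
  · intro T₁₁ T₁₂ T₂₂ h1 h2 h3 h4
    have hT : (T₁₁, T₁₂, T₂₂) ∈ K := ⟨h1, h2, h3, h4⟩
    obtain ⟨r, hr, hTr⟩ := Set.mem_iUnion₂.1 (hs hT)
    have hmem : ∀ a, r.1.1 a ∈ S := fun a =>
      Finset.mem_biUnion.2 ⟨r, hr, Finset.mem_image_of_mem _ (Finset.mem_univ a)⟩
    refine ⟨fun a => S.equivFin ⟨r.1.1 a, hmem a⟩, ?_, fun a k => ?_⟩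
    · simp only [Equiv.symm_apply_apply]
      exact r.2.1
    · simp only [Equiv.symm_apply_apply]
      exact (hle r hr).trans (hTr a k).le

theorem dirs_cs (a b c : ℝ) (x y z : V4) :
    (a • x + b • y + c • z) ⬝ᵥ (a • x + b • y + c • z) ≤
      (a ^ 2 + b ^ 2 + c ^ 2) * (x ⬝ᵥ x + y ⬝ᵥ y + z ⬝ᵥ z) := by
  simp only [dotProduct, ← Finset.sum_add_distrib, Finset.mul_sum]
  refine Finset.sum_le_sum fun i _ => ?_
  simp only [Pi.add_apply, Pi.smul_apply, smul_eq_mul]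
  nlinarith [sq_nonneg (a * y i - b * x i), sq_nonneg (a * z i - c * x i),
    sq_nonneg (b * z i - c * y i)]

theorem dirs_lag {t₁ t₂ t₃ : ℝ} (h12 : t₁ ≠ t₂) (h13 : t₁ ≠ t₃) (h23 : t₂ ≠ t₃) :
    ∃ a₁ a₂ a₃ b₁ b₂ b₃ c₁ c₂ c₃ : ℝ, ∀ P Q R : V4,
      P = a₁ • (P - (2 * t₁) • Q + t₁ ^ 2 • R) + a₂ • (P - (2 * t₂) • Q + t₂ ^ 2 • R)
        + a₃ • (P - (2 * t₃) • Q + t₃ ^ 2 • R) ∧
      Q = b₁ • (P - (2 * t₁) • Q + t₁ ^ 2 • R) + b₂ • (P - (2 * t₂) • Q + t₂ ^ 2 • R)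
        + b₃ • (P - (2 * t₃) • Q + t₃ ^ 2 • R) ∧
      R = c₁ • (P - (2 * t₁) • Q + t₁ ^ 2 • R) + c₂ • (P - (2 * t₂) • Q + t₂ ^ 2 • R)
        + c₃ • (P - (2 * t₃) • Q + t₃ ^ 2 • R) := by
  have n12 := sub_ne_zero.2 h12
  have n13 := sub_ne_zero.2 h13
  have n23 := sub_ne_zero.2 h23
  have n21 := sub_ne_zero.2 h12.symm
  have n31 := sub_ne_zero.2 h13.symm
  have n32 := sub_ne_zero.2 h23.symm
  refine ⟨t₂ * t₃ / ((t₁ - t₂) * (t₁ - t₃)), t₁ * t₃ / ((t₂ - t₁) * (t₂ - t₃)),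
    t₁ * t₂ / ((t₃ - t₁) * (t₃ - t₂)), (t₂ + t₃) / 2 / ((t₁ - t₂) * (t₁ - t₃)),
    (t₁ + t₃) / 2 / ((t₂ - t₁) * (t₂ - t₃)), (t₁ + t₂) / 2 / ((t₃ - t₁) * (t₃ - t₂)),
    1 / ((t₁ - t₂) * (t₁ - t₃)), 1 / ((t₂ - t₁) * (t₂ - t₃)), 1 / ((t₃ - t₁) * (t₃ - t₂)),
    fun P Q R => ⟨?_, ?_, ?_⟩⟩ <;> match_scalars <;> field_simp <;> ring

theorem dirs_fin {A₁ A₂ A₃ c' m w₁ w₂ w₃ p q r : ℝ} (p1 : 0 ≤ A₁) (p2 : 0 ≤ A₂) (p3 : 0 ≤ A₃)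
    (hc : c' ≤ 1 / (3 * (A₁ + A₂ + A₃ + 1))) (hm0 : 0 < m) (s0 : 0 ≤ w₁ + w₂ + w₃)
    (w1 : w₁ < c' * m) (w2 : w₂ < c' * m) (w3 : w₃ < c' * m) (bP : p ≤ A₁ * (w₁ + w₂ + w₃))
    (bQ : q ≤ A₂ * (w₁ + w₂ + w₃)) (bR : r ≤ A₃ * (w₁ + w₂ + w₃))
    (hm : m ≤ p ∨ m ≤ q ∨ m ≤ r) : False := by
  generalize hs : w₁ + w₂ + w₃ = s at s0 bP bQ bR
  have s1 : s < 3 * (c' * m) := by linarith
  have hc1 : c' * (3 * (A₁ + A₂ + A₃ + 1)) ≤ 1 := by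
    rwa [le_div_iff₀ (by positivity)] at hc
  have s2 : (A₁ + A₂ + A₃ + 1) * s < m := by
    calc (A₁ + A₂ + A₃ + 1) * s < (A₁ + A₂ + A₃ + 1) * (3 * (c' * m)) :=
          mul_lt_mul_of_pos_left s1 (by positivity)
      _ = c' * (3 * (A₁ + A₂ + A₃ + 1)) * m := by ring
      _ ≤ 1 * m := mul_le_mul_of_nonneg_right hc1 hm0.le
      _ = m := one_mul m
  have q1 := mul_nonneg p1 s0
  have q2 := mul_nonneg p2 s0
  have q3 := mul_nonneg p3 s0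
  have e : (A₁ + A₂ + A₃ + 1) * s = A₁ * s + A₂ * s + A₃ * s + s := by ring
  rcases hm with h | h | h <;> linarith

theorem dirs_quad {t₁ t₂ t₃ : ℝ} (h12 : t₁ ≠ t₂) (h13 : t₁ ≠ t₃) (h23 : t₂ ≠ t₃) :
    ∃ c : ℝ, 0 < c ∧ ∀ c' : ℝ, 0 < c' → c' ≤ c → ∀ (P Q R : V4) (m : ℝ),
      (m ≤ P ⬝ᵥ P ∨ m ≤ Q ⬝ᵥ Q ∨ m ≤ R ⬝ᵥ R) →
      ∃ t, (t = t₁ ∨ t = t₂ ∨ t = t₃) ∧
        c' * m ≤ (P - (2 * t) • Q + t ^ 2 • R) ⬝ᵥ (P - (2 * t) • Q + t ^ 2 • R) := by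
  obtain ⟨a₁, a₂, a₃, b₁, b₂, b₃, c₁, c₂, c₃, H⟩ := dirs_lag h12 h13 h23
  refine ⟨1 / (3 * ((a₁ ^ 2 + a₂ ^ 2 + a₃ ^ 2) + (b₁ ^ 2 + b₂ ^ 2 + b₃ ^ 2)
    + (c₁ ^ 2 + c₂ ^ 2 + c₃ ^ 2) + 1)), by positivity, fun c' hc0 hc P Q R m hm => ?_⟩
  obtain ⟨eP, eQ, eR⟩ := H P Q R
  have nn : ∀ x : V4, 0 ≤ x ⬝ᵥ x := fun x => Finset.sum_nonneg fun i _ => mul_self_nonneg _
  rcases le_or_gt m 0 with hm0 | hm0
  · exact ⟨t₁, Or.inl rfl, (mul_nonpos_of_nonneg_of_nonpos hc0.le hm0).trans (nn _)⟩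
  by_contra hcon
  push Not at hcon
  have w1 := hcon t₁ (Or.inl rfl)
  have w2 := hcon t₂ (Or.inr (Or.inl rfl))
  have w3 := hcon t₃ (Or.inr (Or.inr rfl))
  generalize P - (2 * t₁) • Q + t₁ ^ 2 • R = W₁ at eP eQ eR w1
  generalize P - (2 * t₂) • Q + t₂ ^ 2 • R = W₂ at eP eQ eR w2
  generalize P - (2 * t₃) • Q + t₃ ^ 2 • R = W₃ at eP eQ eR w3
  have bP := dirs_cs a₁ a₂ a₃ W₁ W₂ W₃
  have bQ := dirs_cs b₁ b₂ b₃ W₁ W₂ W₃
  have bR := dirs_cs c₁ c₂ c₃ W₁ W₂ W₃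
  rw [← eP] at bP
  rw [← eQ] at bQ
  rw [← eR] at bR
  exact dirs_fin (by positivity) (by positivity) (by positivity) hc hm0
    (add_nonneg (add_nonneg (nn _) (nn _)) (nn _)) w1 w2 w3 bP bQ bR hm

/-- A vector-valued quadratic polynomial is controlled by its values at three distinct points of
a fixed finite set (Lagrange interpolation). -/
theorem exists_quad_const (S : Finset ℝ) : ∃ c : ℝ, 0 < c ∧ ∀ t₁ ∈ S, ∀ t₂ ∈ S, ∀ t₃ ∈ S,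
    t₁ ≠ t₂ → t₁ ≠ t₃ → t₂ ≠ t₃ → ∀ (P Q R : V4) (m : ℝ),
      (m ≤ P ⬝ᵥ P ∨ m ≤ Q ⬝ᵥ Q ∨ m ≤ R ⬝ᵥ R) →
      ∃ t, (t = t₁ ∨ t = t₂ ∨ t = t₃) ∧
        c * m ≤ (P - (2 * t) • Q + t ^ 2 • R) ⬝ᵥ (P - (2 * t) • Q + t ^ 2 • R) := by
  classical
  have h : ∀ q : ℝ × ℝ × ℝ, ∃ c : ℝ, 0 < c ∧ (q.1 ≠ q.2.1 → q.1 ≠ q.2.2 → q.2.1 ≠ q.2.2 →
      ∀ c' : ℝ, 0 < c' → c' ≤ c → ∀ (P Q R : V4) (m : ℝ),
      (m ≤ P ⬝ᵥ P ∨ m ≤ Q ⬝ᵥ Q ∨ m ≤ R ⬝ᵥ R) →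
      ∃ t, (t = q.1 ∨ t = q.2.1 ∨ t = q.2.2) ∧
        c' * m ≤ (P - (2 * t) • Q + t ^ 2 • R) ⬝ᵥ (P - (2 * t) • Q + t ^ 2 • R)) := by
    intro q
    by_cases hq : q.1 ≠ q.2.1 ∧ q.1 ≠ q.2.2 ∧ q.2.1 ≠ q.2.2
    · obtain ⟨c, hc, h⟩ := dirs_quad hq.1 hq.2.1 hq.2.2
      exact ⟨c, hc, fun _ _ _ => h⟩
    · exact ⟨1, one_pos, fun h1 h2 h3 => absurd ⟨h1, h2, h3⟩ hq⟩
  choose g hg0 hg using h
  obtain ⟨c, hc, hle⟩ := dirs_min (S ×ˢ S ×ˢ S) g fun q _ => hg0 q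
  refine ⟨c, hc, fun t₁ h1 t₂ h2 t₃ h3 h12 h13 h23 P Q R m hm => ?_⟩
  exact hg (t₁, t₂, t₃) h12 h13 h23 c hc
    (hle _ (Finset.mem_product.2 ⟨h1, Finset.mem_product.2 ⟨h2, h3⟩⟩)) P Q R m hm

end Crest.Agent.R216
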