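import Crest.Agent.R216.Api3
import Crest.Agent.R216.Dirs
import Crest.Agent.R216.CoverA

/-!
# R216: the embedding used for the cover, calculus of `Y`, Sard on the surface
-/

set_option autoImplicit false
set_option linter.unusedSectionVars false

open scoped Manifold ContDiff Topology
open Matrix MeasureTheory

noncomputable section

namespace Crest.Agent.R216

variable {M : Type*} [TopologicalSpace M] [T2Space M] [CompactSpace M] [ChartedSpace E2 M]
  [IsManifold (𝓡 2) ∞ M]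

namespace Atl

variable (A : Atl M)

/-- coordinates of the embedding -/
def io (a : A.Idx ⊕ Fin A.n) : M → ℝ := Sum.elim (fun α => A.x α.1 α.2) A.ψ a

/-- the embedding -/
def emb (p : M) : EuclideanSpace ℝ (A.Idx ⊕ Fin A.n) := WithLp.toLp 2 fun a => A.io a p

/-- squared distance -/
def cvdd (c p : M) : ℝ := ∑ a, (A.io a p - A.io a c) * (A.io a p - A.io a c)

theorem io_sm (a : A.Idx ⊕ Fin A.n) : Sm (A.io a) := by
  cases a with
  | inl α => exact A.x_sm α.1 α.2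
  | inr i => exact A.ψ_sm i

theorem io_sub_sm (a : A.Idx ⊕ Fin A.n) (c : M) : Sm fun p => A.io a p - A.io a c :=
  (A.io_sm a).sub (sm_const _)

theorem emb_cont : Continuous A.emb :=
  (PiLp.continuous_toLp 2 _).comp (continuous_pi fun a => (A.io_sm a).continuous)

theorem emb_inj : Function.Injective A.emb := by
  intro p q h
  have h1 : ∀ a, A.io a p = A.io a q := fun a => congrFun (congrArg WithLp.ofLp h) a
  obtain ⟨i, hi, -, hp⟩ := A.exists_K p
  have h2 : A.ψ i q ≠ 0 := fun h0 => hi ((h1 (Sum.inr i)).trans h0)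
  exact A.x_inj i hp (A.K_sub_O i (subset_tsupport _ h2)) fun a => h1 (Sum.inl (i, a))

theorem dd_eq (c p : M) : A.cvdd c p = dist (A.emb p) (A.emb c) ^ 2 := by
  rw [EuclideanSpace.dist_sq_eq]
  refine Finset.sum_congr rfl fun a _ => ?_
  rw [Real.dist_eq, sq_abs, sq]
  rfl

theorem dd_sm (c : M) : Sm (A.cvdd c) :=
  Sm.sum _ fun a _ => (A.io_sub_sm a c).mul (A.io_sub_sm a c)

theorem K_closed (i : Fin A.n) : IsClosed (A.K i) := isClosed_tsupport _

/-! ### Calculus of `Y` -/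

theorem Y_sum (i : Fin A.n) (t : ℝ) {ι : Type*} (s : Finset ι) {u : ι → M → ℝ}
    (hu : ∀ a ∈ s, Sm (u a)) (p : M) :
    A.Y i t (fun q => ∑ a ∈ s, u a q) p = ∑ a ∈ s, A.Y i t (u a) p := by
  simp only [Y, A.D_sum _ s hu, Finset.sum_sub_distrib, Finset.smul_sum]

theorem Y_mul (i : Fin A.n) (t : ℝ) {a b : M → ℝ} (ha : Sm a) (hb : Sm b) (p : M) :
    A.Y i t (fun q => a q * b q) p = a p * A.Y i t b p + A.Y i t a p * b p := by
  simp only [Y, A.D_mul _ ha hb, smul_eq_mul]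
  ring

theorem D_sub_const (α : A.Idx) {u : M → ℝ} (hu : Sm u) (r : ℝ) (p : M) :
    A.D α (fun q => u q - r) p = A.D α u p := by
  have := congrFun (A.D_sub α hu (sm_const r)) p
  rw [Pi.sub_apply, A.D_const, sub_zero] at this
  exact this

theorem D_const_sub (α : A.Idx) {u : M → ℝ} (hu : Sm u) (r : ℝ) (p : M) :
    A.D α (fun q => r - u q) p = -A.D α u p := by
  have := congrFun (A.D_sub α (sm_const r) hu) p
  rw [Pi.sub_apply, A.D_const, zero_sub] at this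
  exact this

theorem Y_sub_const (i : Fin A.n) (t : ℝ) {u : M → ℝ} (hu : Sm u) (r : ℝ) (p : M) :
    A.Y i t (fun q => u q - r) p = A.Y i t u p := by
  simp only [Y, A.D_sub_const _ hu]

theorem Y_const_sub (i : Fin A.n) (t : ℝ) {u : M → ℝ} (hu : Sm u) (r : ℝ) (p : M) :
    A.Y i t (fun q => r - u q) p = -A.Y i t u p := by
  simp only [Y, A.D_const_sub _ hu, smul_eq_mul]
  ring

theorem YY_const_sub (i : Fin A.n) (t : ℝ) {u : M → ℝ} (hu : Sm u) (r : ℝ) (p : M) :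
    A.Y i t (A.Y i t fun q => r - u q) p = -A.Y i t (A.Y i t u) p := by
  have : (A.Y i t fun q => r - u q) = fun q => 0 - A.Y i t u q :=
    funext fun q => by rw [A.Y_const_sub i t hu, zero_sub]
  rw [this, A.Y_const_sub i t (A.Y_sm i t hu)]

theorem YY_dd (i : Fin A.n) (t : ℝ) (c p : M) :
    A.Y i t (A.Y i t (A.cvdd c)) p = ∑ a, (2 * A.Y i t (A.io a) p ^ 2 +
      2 * (A.io a p - A.io a c) * A.Y i t (A.Y i t (A.io a)) p) := by
  have h1 : A.Y i t (A.cvdd c) = fun q => ∑ a, (2 * (A.io a q - A.io a c)) * A.Y i t (A.io a) q := by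
    funext q
    unfold cvdd
    rw [A.Y_sum i t _ fun a _ => (A.io_sub_sm a c).mul (A.io_sub_sm a c)]
    refine Finset.sum_congr rfl fun a _ => ?_
    rw [A.Y_mul i t (A.io_sub_sm a c) (A.io_sub_sm a c), A.Y_sub_const i t (A.io_sm a)]
    ring
  have h2 : ∀ a, Sm fun q => 2 * (A.io a q - A.io a c) := fun a =>
    (sm_const 2).mul (A.io_sub_sm a c)
  rw [h1, A.Y_sum i t _ fun a _ => (h2 a).mul (A.Y_sm i t (A.io_sm a))]
  refine Finset.sum_congr rfl fun a _ => ?_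
  rw [A.Y_mul i t (h2 a) (A.Y_sm i t (A.io_sm a)), A.Y_mul i t (sm_const 2) (A.io_sub_sm a c),
    A.Y_sub_const i t (A.io_sm a)]
  simp only [Y, A.D_const]
  ring

theorem Y_shear (i' : Fin A.n) (t' : ℝ) (i : Fin A.n) (t : ℝ) {u : M → ℝ} (hu : Sm u) {p : M}
    (hp : p ∈ A.O i) : A.Y i' t' u p =
      A.Y i' t' (A.eta i t) p * A.X i u p + A.Y i' t' (A.x i 1) p * A.Y i t u p := by
  rw [Y, A.D_shear (i', 1) i t hu hp, A.D_shear (i', 0) i t hu hp]
  generalize A.Y i t u p = y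
  simp only [Y, smul_eq_mul]
  ring

theorem Y_symm {i i' : Fin A.n} {t t' : ℝ} {p : M} (hp : p ∈ A.O i) (hp' : p ∈ A.O i')
    (h : A.Y i' t' (A.eta i t) p = 0) : A.Y i t (A.eta i' t') p = 0 := by
  have h1 := A.Y_shear i' t' i t (A.eta_sm i' t') hp
  have h2 := A.Y_shear i' t' i t (A.x_sm i' 1) hp
  rw [A.Y_eta i' t' t' hp', h, sub_self, zero_mul, zero_add] at h1
  rw [A.Y_y i' t' hp', h, zero_mul, zero_add] at h2
  refine (mul_eq_zero.1 h1.symm).resolve_left fun h3 => ?_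
  rw [h3, zero_mul] at h2
  exact one_ne_zero h2

theorem Y_two {i i' : Fin A.n} {t₁ t₂ t' : ℝ} {p : M} (hp : p ∈ A.O i) (hp' : p ∈ A.O i')
    (h₁ : A.Y i' t' (A.eta i t₁) p = 0) (h₂ : A.Y i' t' (A.eta i t₂) p = 0) : t₁ = t₂ := by
  have h1 := A.Y_shear i' t' i t₁ (A.eta_sm i t₂) hp
  have h2 := A.Y_shear i' t' i t₁ (A.x_sm i' 1) hp
  rw [A.Y_eta i t₁ t₂ hp, h₁, h₂, zero_mul, zero_add] at h1
  rw [A.Y_y i' t' hp', h₁, zero_mul, zero_add] at h2
  refine (sub_eq_zero.1 ((mul_eq_zero.1 h1.symm).resolve_left fun h3 => ?_)).symm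
  rw [h3, zero_mul] at h2
  exact one_ne_zero h2

/-! ### Sard -/

include A in
theorem ae_fibre_finite {u v : M → ℝ} (hu : Sm u) (hv : Sm v) :
    ∀ᵐ y : ℝ × ℝ, {p | u p = y.1 ∧ v p = y.2}.Finite := by
  have h : ∀ i, ∀ᵐ y : ℝ × ℝ, {p | p ∈ A.K i ∧ u p = y.1 ∧ v p = y.2}.Finite := by
    intro i
    obtain ⟨W, ρ, -, hKW, hWO, -, -, hρ, -, hdown⟩ :=
      A.exists_down i 0 (A.K_closed i) (A.K_sub_O i)
    obtain ⟨g, hg, hg1, -⟩ := hdown _ _ (hu.prodMk hv)
    filter_upwards [cov_sard (hg.differentiable (by simp))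
      ((A.K_closed i).isCompact.image (A.Psi_sm i 0).continuous)] with y hy
    refine Set.Finite.of_finite_image (f := A.Psi i 0) (hy.subset ?_)
      ((A.Psi_injOn i 0).mono fun p hp => A.K_sub_O i hp.1)
    rintro _ ⟨p, hp, rfl⟩
    refine ⟨⟨p, hp.1, rfl⟩, ?_⟩
    rw [hg1 p (A.K_sub_O i hp.1), hρ p (hKW hp.1), one_smul]
    exact Prod.ext hp.2.1 hp.2.2
  filter_upwards [ae_all_iff.2 h] with y hy
  refine (Set.finite_iUnion hy).subset fun p hp => ?_
  obtain ⟨i, -, hi, -⟩ := A.exists_K p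
  exact Set.mem_iUnion.2 ⟨i, hi, hp⟩

/-! ### Smallness of the disks -/

theorem ev_sub (i : Fin A.n) : ∀ᶠ ρ in 𝓝[>] (0 : ℝ), ∀ c ∈ A.K i, ∀ p,
    dist (A.emb p) (A.emb c) ≤ 2 * ρ → p ∈ A.O i := by
  have hc := A.emb_cont
  filter_upwards [cov_small (S := A.K i ×ˢ (A.O i)ᶜ)
    ((A.K_closed i).prod (A.O_open i).isClosed_compl)
    (g := fun x => dist (A.emb x.2) (A.emb x.1) / 2) (by fun_prop) fun x hx =>
      half_pos (dist_pos.2 fun h => hx.2 (A.emb_inj h ▸ A.K_sub_O i hx.1))] with ρ hρ c hc p hp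
  by_contra h
  have := hρ (c, p) ⟨hc, h⟩
  simp only at this
  linarith

theorem ev_pos {f : M → ℝ} (hf : Continuous f) {m : ℝ} (hm : 0 < m) :
    ∀ᶠ ρ in 𝓝[>] (0 : ℝ), ∀ c p, dist (A.emb p) (A.emb c) < ρ → m ≤ f c → 0 < f p := by
  have hc := A.emb_cont
  filter_upwards [cov_small (S := {x | m ≤ f x} ×ˢ {x | f x ≤ 0})
    ((isClosed_le continuous_const hf).prod (isClosed_le hf continuous_const))
    (g := fun x => dist (A.emb x.2) (A.emb x.1)) (by fun_prop) fun x hx =>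
      dist_pos.2 fun h => by
        have h1 : f x.2 ≤ 0 := hx.2
        have h2 : m ≤ f x.1 := hx.1
        rw [A.emb_inj h] at h1
        linarith] with ρ hρ c p hp h1
  by_contra h
  have := hρ (c, p) ⟨h1, not_lt.1 h⟩
  simp only at this
  linarith

theorem ev_two (i i' : Fin A.n) (t₁ t₂ t' : ℝ) : ∀ᶠ ρ in 𝓝[>] (0 : ℝ), ∀ c ∈ A.K i, ∀ c' ∈ A.K i',
    ∀ p₁ p₂, dist (A.emb p₁) (A.emb c) ≤ 2 * ρ → dist (A.emb p₁) (A.emb c') ≤ 2 * ρ →
      dist (A.emb p₂) (A.emb c) ≤ 2 * ρ → A.Y i' t' (A.eta i t₁) p₁ = 0 →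
      A.Y i' t' (A.eta i t₂) p₂ = 0 → t₁ = t₂ := by
  by_cases ht : t₁ = t₂
  · exact Filter.Eventually.of_forall fun _ _ _ _ _ _ _ _ _ _ _ _ => ht
  have hc := A.emb_cont
  have h1 := (A.Y_sm i' t' (A.eta_sm i t₁)).continuous
  have h2 := (A.Y_sm i' t' (A.eta_sm i t₂)).continuous
  refine (cov_small (S := (A.K i ×ˢ A.K i') ×ˢ
      ({p | A.Y i' t' (A.eta i t₁) p = 0} ×ˢ {p | A.Y i' t' (A.eta i t₂) p = 0}))
    (((A.K_closed i).prod (A.K_closed i')).prod
      ((isClosed_eq h1 continuous_const).prod (isClosed_eq h2 continuous_const)))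
    (g := fun x => (dist (A.emb x.2.1) (A.emb x.1.1) + dist (A.emb x.2.1) (A.emb x.1.2) +
      dist (A.emb x.2.2) (A.emb x.1.1)) / 6) (by fun_prop) ?_).mono
    fun ρ hρ c hc c' hc' p₁ p₂ a1 a2 a3 a4 a5 => ?_
  swap
  · have := hρ ((c, c'), (p₁, p₂)) ⟨⟨hc, hc'⟩, a4, a5⟩
    simp only at this
    linarith
  · rintro ⟨⟨c, c'⟩, p₁, p₂⟩ ⟨⟨hc, hc'⟩, a4, a5⟩
    by_contra h
    simp only [not_lt] at h hc hc'
    have b1 := dist_nonneg (x := A.emb p₁) (y := A.emb c)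
    have b2 := dist_nonneg (x := A.emb p₁) (y := A.emb c')
    have b3 := dist_nonneg (x := A.emb p₂) (y := A.emb c)
    obtain rfl := A.emb_inj (dist_le_zero.1 (by linarith : dist (A.emb p₁) (A.emb c) ≤ 0))
    obtain rfl := A.emb_inj (dist_le_zero.1 (by linarith : dist (A.emb p₁) (A.emb c') ≤ 0))
    obtain rfl := A.emb_inj (dist_le_zero.1 (by linarith : dist (A.emb p₂) (A.emb p₁) ≤ 0))
    exact ht (A.Y_two (A.K_sub_O i hc) (A.K_sub_O i' hc') a4 a5)

theorem ev_conc (i : Fin A.n) (t : ℝ) : ∀ᶠ ρ in 𝓝[>] (0 : ℝ), ∀ c' ∈ A.K i, ∀ c p,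
    dist (A.emb p) (A.emb c') ≤ 2 * ρ → dist (A.emb p) (A.emb c) ≤ 6 * ρ →
      0 < A.Y i t (A.Y i t (A.cvdd c)) p := by
  have hc := A.emb_cont
  have h1 : ∀ a, Continuous (A.io a) := fun a => (A.io_sm a).continuous
  have h2 : ∀ a, Continuous (A.Y i t (A.io a)) := fun a => (A.Y_sm i t (A.io_sm a)).continuous
  have h3 : ∀ a, Continuous (A.Y i t (A.Y i t (A.io a))) := fun a =>
    (A.Y_sm i t (A.Y_sm i t (A.io_sm a))).continuous
  have h4 : Continuous fun x : M × M => A.Y i t (A.Y i t (A.cvdd x.1)) x.2 := by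
    simp only [A.YY_dd]
    fun_prop
  refine (cov_small (S := A.K i ×ˢ {x : M × M | A.Y i t (A.Y i t (A.cvdd x.1)) x.2 ≤ 0})
    ((A.K_closed i).prod (isClosed_le h4 continuous_const))
    (g := fun x => (dist (A.emb x.2.2) (A.emb x.1) + dist (A.emb x.2.2) (A.emb x.2.1)) / 8)
    (by fun_prop) ?_).mono fun ρ hρ c' hc' c p a1 a2 => ?_
  swap
  · by_contra h
    have := hρ (c', (c, p)) ⟨hc', not_lt.1 h⟩
    simp only at this
    linarith
  · rintro ⟨c', c, p⟩ ⟨hc', a⟩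
    by_contra h
    simp only [not_lt, Set.mem_ofPred_eq] at h hc' a
    have b1 := dist_nonneg (x := A.emb p) (y := A.emb c')
    have b2 := dist_nonneg (x := A.emb p) (y := A.emb c)
    obtain rfl := A.emb_inj (dist_le_zero.1 (by linarith : dist (A.emb p) (A.emb c') ≤ 0))
    obtain rfl := A.emb_inj (dist_le_zero.1 (by linarith : dist (A.emb p) (A.emb c) ≤ 0))
    rw [A.YY_dd] at a
    simp only [sub_self, mul_zero, zero_mul, add_zero] at a
    have b3 := Finset.single_le_sum (f := fun a => 2 * A.Y i t (A.io a) p ^ 2)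
      (fun a _ => by positivity) (Finset.mem_univ (Sum.inl (i, 1)))
    have b4 : A.Y i t (A.io (Sum.inl (i, 1))) p = 1 := A.Y_y i t (A.K_sub_O i hc')
    simp only [b4] at b3
    linarith

end Atl

end Crest.Agent.R216
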