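import Crest.Agent.R216.CoverB

/-!
# R216: decomposition of a positive definite tensor along a cover
-/

set_option autoImplicit false
set_option linter.unusedSectionVars false

open scoped Manifold ContDiff Topology
open Matrix MeasureTheory

noncomputable section

namespace Crest.Agent.R216

variable {M : Type*} [TopologicalSpace M] [T2Space M] [CompactSpace M] [ChartedSpace E2 M]
  [IsManifold (𝓡 2) ∞ M]

namespace Atl

variable (A : Atl M)

/-- Lagrange coefficient of the tensor `G` in chart `i`. -/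
def cvcf (G : A.Ten) (i : Fin A.n) (τ : Fin 3 → ℝ) (k : Fin 3) (p : M) : ℝ :=
  coef τ k (G (i, 0) (i, 0) p) (G (i, 0) (i, 1) p) (G (i, 1) (i, 1) p)

theorem cf_sm {G : A.Ten} (hG : A.IsTen G) (i : Fin A.n) (τ : Fin 3 → ℝ) (k : Fin 3) :
    Sm (A.cvcf G i τ k) :=
  (((hG.sm _ _).sub ((hG.sm _ _).const_smul _)).add ((hG.sm _ _).const_smul _)).const_smul _

theorem cf_sub (G H : A.Ten) (ε : ℝ) (i : Fin A.n) (τ : Fin 3 → ℝ) (k : Fin 3) (p : M) :
    A.cvcf (fun α β p => G α β p - ε * H α β p) i τ k p = A.cvcf G i τ k p - ε * A.cvcf H i τ k p := by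
  simp only [cvcf, coef, smul_eq_mul]
  ring

theorem D_eta (α : A.Idx) (i : Fin A.n) (t : ℝ) (p : M) :
    A.D α (A.eta i t) p = A.D α (A.x i 0) p + t * A.D α (A.x i 1) p := by
  have h1 := congrFun (A.D_add α (A.x_sm i 0) ((A.x_sm i 1).const_smul t)) p
  rw [A.D_const_smul α (A.x_sm i 1)] at h1
  exact h1

theorem ten_decomp {G : A.Ten} (hG : A.IsTen G) {i : Fin A.n} {τ : Fin 3 → ℝ}
    (hτ : Function.Injective τ) {p : M} (hp : p ∈ A.O i) (α β : A.Idx) :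
    ∑ k, A.cvcf G i τ k p * A.dsq (A.eta i (τ k)) α β p = G α β p := by
  obtain ⟨h1, h2, h3⟩ := coef_sum hτ (G (i, 0) (i, 0) p) (G (i, 0) (i, 1) p) (G (i, 1) (i, 1) p)
  rw [hG.comp i p hp α β]
  simp only [Fin.sum_univ_two, Fin.sum_univ_three, cvcf, dsq, D_eta, smul_eq_mul,
    hG.symm (i, 1) (i, 0) p] at h1 h2 h3 ⊢
  linear_combination A.D α (A.x i 0) p * A.D β (A.x i 0) p * h1 +
    (A.D α (A.x i 0) p * A.D β (A.x i 1) p + A.D α (A.x i 1) p * A.D β (A.x i 0) p) * h2 +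
    A.D α (A.x i 1) p * A.D β (A.x i 1) p * h3

theorem exists_decomp {h : A.Ten} (hh : A.IsTen h) {P : Type*} [Fintype P] (ch : P → Fin A.n)
    (τ : P → Fin 3 → ℝ) (hτ : ∀ c, Function.Injective (τ c)) (s : P × Fin 3 → M → ℝ)
    (hs : ∀ k, Sm (s k)) (hcov : ∀ p, ∃ c, p ∈ A.O (ch c) ∧
      ∀ a, 0 < s (c, a) p ∧ 0 < A.cvcf h (ch c) (τ c) a p) :
    ∃ cc : P × Fin 3 → M → ℝ, (∀ k, Sm (cc k)) ∧ (∀ k p, 0 < cc k p) ∧ ∀ α β p, h α β p =
      ∑ k, (expNegInvGlue (s k p) * cc k p) ^ 2 * A.dsq (A.eta (ch k.1) (τ k.1 k.2)) α β p := by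
  obtain ⟨φ, hφ⟩ := SmoothPartitionOfUnity.exists_isSubordinate (𝓡 2) (s := (Set.univ : Set M))
    isClosed_univ
    (fun c => A.O (ch c) ∩ ⋂ a, {p | 0 < s (c, a) p} ∩ {p | 0 < A.cvcf h (ch c) (τ c) a p})
    (fun c => (A.O_open _).inter (isOpen_iInter_of_finite fun a =>
      (isOpen_lt continuous_const (hs _).continuous).inter
        (isOpen_lt continuous_const (A.cf_sm hh _ _ _).continuous)))
    (fun p _ => by
      obtain ⟨c, h1, h2⟩ := hcov p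
      exact Set.mem_iUnion.2 ⟨c, h1, Set.mem_iInter.2 h2⟩)
  have hφ1 : ∀ c, ∀ p ∈ tsupport (φ c), p ∈ A.O (ch c) ∧
      ∀ a, 0 < s (c, a) p ∧ 0 < A.cvcf h (ch c) (τ c) a p := fun c p hp =>
    ⟨(hφ c hp).1, Set.mem_iInter.1 (hφ c hp).2⟩
  have hψ : ∀ k, Sm fun p => expNegInvGlue (s k p) := fun k =>
    (hs k).comp expNegInvGlue.contDiff
  have hψ2 : ∀ k, Sm fun p => expNegInvGlue (s k p) ^ 2 := fun k =>
    (hψ k).comp (Φ := fun x : ℝ => x ^ 2) (by fun_prop)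
  obtain ⟨H, hH⟩ : ∃ H : A.Ten, H = fun α β p =>
    ∑ k, expNegInvGlue (s k p) ^ 2 * A.dsq (A.eta (ch k.1) (τ k.1 k.2)) α β p := ⟨_, rfl⟩
  have hHt : A.IsTen H := hH ▸ IsTen.sum Finset.univ fun k _ =>
    (A.isTen_dsq (A.eta_sm _ _)).mul (hψ2 k)
  have hev : ∀ᶠ ε in 𝓝[>] (0 : ℝ), ∀ k : P × Fin 3, ∀ p ∈ tsupport (φ k.1),
      ε < A.cvcf h (ch k.1) (τ k.1) k.2 p / (1 + |A.cvcf H (ch k.1) (τ k.1) k.2 p|) := by
    refine Filter.eventually_all.2 fun k => cov_small (isClosed_tsupport _)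
      ((A.cf_sm hh _ _ _).continuous.div
        (continuous_const.add (A.cf_sm hHt _ _ _).continuous.abs) fun p => by positivity)
      fun p hp => div_pos ((hφ1 _ p hp).2 _).2 (by positivity)
  obtain ⟨ε, hε, hε0⟩ := (hev.and self_mem_nhdsWithin).exists
  have hε0 : 0 < ε := hε0
  have ht : A.IsTen fun α β p => h α β p - ε * H α β p := hh.sub (hHt.mul (sm_const ε))
  obtain ⟨h', hh'⟩ : ∃ h' : A.Ten, h' = fun α β p => h α β p - ε * H α β p := ⟨_, rfl⟩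
  rw [← hh'] at ht
  have hpos : ∀ (k : P × Fin 3) p, 0 ≤ φ k.1 p * A.cvcf h' (ch k.1) (τ k.1) k.2 p := by
    intro k p
    by_cases hp : φ k.1 p = 0
    · rw [hp, zero_mul]
    refine mul_nonneg (φ.nonneg _ _) ?_
    have h1 := hε k p (subset_tsupport _ hp)
    rw [lt_div_iff₀ (by positivity)] at h1
    rw [hh', A.cf_sub]
    nlinarith [le_abs_self (A.cvcf H (ch k.1) (τ k.1) k.2 p)]
  have hu : ∀ k : P × Fin 3, Sm fun p =>
      φ k.1 p * A.cvcf h' (ch k.1) (τ k.1) k.2 p / expNegInvGlue (s k p) ^ 2 := by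
    intro k
    refine contMDiff_of_tsupport fun p hp => ?_
    have h1 : p ∈ tsupport (φ k.1) := by
      refine closure_mono (fun q hq => ?_) hp
      rw [Function.mem_support] at hq ⊢
      exact fun h0 => hq (by simp [h0])
    have h2 : Sm fun p => φ k.1 p * A.cvcf h' (ch k.1) (τ k.1) k.2 p :=
      Sm.mul (φ k.1).contMDiff (A.cf_sm ht _ _ _)
    exact (h2 p).div₀ (hψ2 k p)
      (pow_pos (expNegInvGlue.pos_of_pos ((hφ1 _ p h1).2 k.2).1) 2).ne'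
  have hpos2 : ∀ (k : P × Fin 3) p,
      0 < ε + φ k.1 p * A.cvcf h' (ch k.1) (τ k.1) k.2 p / expNegInvGlue (s k p) ^ 2 := fun k p =>
    add_pos_of_pos_of_nonneg hε0 (div_nonneg (hpos k p) (sq_nonneg _))
  refine ⟨fun k p => √(ε + φ k.1 p * A.cvcf h' (ch k.1) (τ k.1) k.2 p / expNegInvGlue (s k p) ^ 2),
    fun k p => ?_, fun k p => Real.sqrt_pos.2 (hpos2 k p), fun α β p => ?_⟩
  · exact ContDiffAt.comp_contMDiffAt (g := Real.sqrt) (f := fun p =>
      ε + φ k.1 p * A.cvcf h' (ch k.1) (τ k.1) k.2 p / expNegInvGlue (s k p) ^ 2)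
      (Real.contDiffAt_sqrt (hpos2 k p).ne') ((sm_const ε).add (hu k) p)
  have h1 : ∀ k : P × Fin 3, (expNegInvGlue (s k p) *
      √(ε + φ k.1 p * A.cvcf h' (ch k.1) (τ k.1) k.2 p / expNegInvGlue (s k p) ^ 2)) ^ 2 =
      ε * expNegInvGlue (s k p) ^ 2 + φ k.1 p * A.cvcf h' (ch k.1) (τ k.1) k.2 p := by
    intro k
    rw [mul_pow, Real.sq_sqrt (hpos2 k p).le]
    by_cases hp : φ k.1 p = 0
    · rw [hp]
      ring
    · have := (expNegInvGlue.pos_of_pos ((hφ1 _ p (subset_tsupport _ hp)).2 k.2).1).ne'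
      field_simp
  have h2 : ∀ c, ∑ a, φ c p * A.cvcf h' (ch c) (τ c) a p * A.dsq (A.eta (ch c) (τ c a)) α β p =
      φ c p * h' α β p := by
    intro c
    by_cases hp : φ c p = 0
    · simp [hp]
    · rw [← A.ten_decomp ht (hτ c) (hφ1 _ p (subset_tsupport _ hp)).1 α β, Finset.mul_sum]
      simp only [mul_assoc]
  have h3 : ∑ c, φ c p = 1 := by
    rw [← finsum_eq_sum_of_fintype]
    exact φ.sum_eq_one (Set.mem_univ p)
  simp only [h1, add_mul, Finset.sum_add_distrib]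
  rw [Fintype.sum_prod_type (f := fun k : P × Fin 3 => φ k.1 p * A.cvcf h' (ch k.1) (τ k.1) k.2 p *
    A.dsq (A.eta (ch k.1) (τ k.1 k.2)) α β p)]
  simp only [h2]
  rw [← Finset.sum_mul, h3, one_mul, hh', hH]
  simp only [Finset.mul_sum, mul_assoc]
  ring

/-- Reindexing by `Fin m`. -/
theorem cover_of_fintype (h : A.Ten) {κ : Type*} [Fintype κ] (ch : κ → Fin A.n) (t : κ → ℝ)
    (s cc : κ → M → ℝ) (s_sm : ∀ k, Sm (s k)) (sub : ∀ k p, 0 ≤ s k p → p ∈ A.O (ch k))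
    (notriple : ∀ j k l p, j ≠ k → j ≠ l → k ≠ l → s j p = 0 → s k p = 0 → s l p ≠ 0)
    (fin : ∀ j k, j ≠ k → {p | s j p = 0 ∧ s k p = 0}.Finite)
    (trans : ∀ j k p, j ≠ k → 0 ≤ s j p → 0 ≤ s k p →
      A.Y (ch j) (t j) (A.eta (ch k) (t k)) p ≠ 0)
    (conc : ∀ j k p q, 0 ≤ s j q → 0 ≤ s k q → 0 ≤ s j p →
      A.Y (ch j) (t j) (A.Y (ch j) (t j) (s k)) p < 0)
    (h1 : ∀ k, Sm (cc k)) (h2 : ∀ k p, 0 < cc k p) (h3 : ∀ α β p, h α β p =
      ∑ k, (expNegInvGlue (s k p) * cc k p) ^ 2 * A.dsq (A.eta (ch k) (t k)) α β p) :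
    ∃ (C : A.Cover) (c : Fin C.m → M → ℝ),
      (∀ k, Sm (c k)) ∧ (∀ k p, 0 < c k p) ∧ ∀ α β p, h α β p = C.rest c 0 α β p := by
  let e := (Fintype.equivFin κ).symm
  refine ⟨⟨Fintype.card κ, fun k => ch (e k), fun k => t (e k), fun k => s (e k),
    fun k => s_sm _, fun k => sub _,
    fun j k l p a b c => notriple _ _ _ p (e.injective.ne a) (e.injective.ne b) (e.injective.ne c),
    fun j k a => fin _ _ (e.injective.ne a), fun j k p a => trans _ _ p (e.injective.ne a),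
    fun j k => conc _ _⟩, fun k => cc (e k), fun k => h1 _, fun k => h2 _, fun α β p => ?_⟩
  rw [h3, ← e.sum_comp]
  simp only [Cover.rest, Cover.amp, Cover.eta, Nat.zero_le, if_true]

end Atl

end Crest.Agent.R216
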