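import Mathlib

/-!
# R216 (S0335): definitions and module interfaces

Smooth isometric immersion of a compact Riemannian surface into `ℝ⁴`.
Everything is expressed through a finite atlas `Atl M` with cut-offs, the global derivations
`A.D α` (`α = (i, a)`: chart `i`, coordinate direction `a`), and words `A.Dw w` of them.
-/

set_option autoImplicit false

open scoped Manifold ContDiff Topology
open Matrix

noncomputable section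

namespace Crest.Agent.R216

abbrev E2 := EuclideanSpace ℝ (Fin 2)
abbrev V4 := Fin 4 → ℝ

/-! ## Linear algebra in `ℝ⁴` -/

/-- `3 × 3` minor of the rows `a b c` on the columns `i j k`. -/
def d3 {R : Type*} [CommRing R] (a b c : Fin 4 → R) (i j k : Fin 4) : R :=
  a i * (b j * c k - b k * c j) - a j * (b i * c k - b k * c i) + a k * (b i * c j - b j * c i)

/-- Triple cross product: `cross3 a b c ⬝ᵥ d = det ![a, b, c, d]`. -/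
def cross3 {R : Type*} [CommRing R] (a b c : Fin 4 → R) : Fin 4 → R :=
  ![-d3 a b c 1 2 3, d3 a b c 0 2 3, -d3 a b c 0 1 3, d3 a b c 0 1 2]

/-- Gram determinant of two vectors. -/
def gram2 {n : Type*} [Fintype n] (a b : n → ℝ) : ℝ := (a ⬝ᵥ a) * (b ⬝ᵥ b) - (a ⬝ᵥ b) ^ 2

/-- Condition `P⁺`: with `N = cross3 T₁ T₂` (kills the tangent plane, conformal on the normal
plane): `|N m|² |N v|² - ⟨N m, N v⟩² < ⟨N v, N v'⟩ |N v|²`. -/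
def Pplus (T₁ T₂ v v' m : V4) : Prop :=
  (cross3 T₁ T₂ m ⬝ᵥ cross3 T₁ T₂ m) * (cross3 T₁ T₂ v ⬝ᵥ cross3 T₁ T₂ v)
      - (cross3 T₁ T₂ m ⬝ᵥ cross3 T₁ T₂ v) ^ 2
    < (cross3 T₁ T₂ v ⬝ᵥ cross3 T₁ T₂ v') * (cross3 T₁ T₂ v ⬝ᵥ cross3 T₁ T₂ v)

/-! ## Atlas data and global derivations -/

section Mfd

variable {M : Type*} [TopologicalSpace M] [ChartedSpace E2 M]
variable {E : Type} [NormedAddCommGroup E] [NormedSpace ℝ E]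

/-- Smooth `E`-valued function on the surface. -/
def Sm (u : M → E) : Prop := ContMDiff (𝓡 2) 𝓘(ℝ, E) ∞ u

/-- Finite atlas with cut-offs `χ i` (`= 1` on the open set `O i`, supported in the chart) and
`ψ i` (supported in `O i`, `∑ ψ i ^ 2 = 1`). -/
structure Atl (M : Type*) [TopologicalSpace M] [ChartedSpace E2 M] where
  n : ℕ
  c : Fin n → M
  χ : Fin n → M → ℝ
  ψ : Fin n → M → ℝ
  O : Fin n → Set M
  χ_sm : ∀ i, Sm (χ i)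
  ψ_sm : ∀ i, Sm (ψ i)
  χ_supp : ∀ i, tsupport (χ i) ⊆ (chartAt E2 (c i)).source
  O_open : ∀ i, IsOpen (O i)
  χ_one : ∀ i, ∀ p ∈ O i, χ i p = 1
  ψ_supp : ∀ i, tsupport (ψ i) ⊆ O i
  ψ_sq : ∀ p, ∑ i, ψ i p ^ 2 = 1

namespace Atl

variable (A : Atl M)

abbrev Idx := Fin A.n × Fin 2

/-- The compact sets `K i ⊆ O i`; they cover `M`. -/
def K (i : Fin A.n) : Set M := tsupport (A.ψ i)

/-- Global smooth function equal to the `a`-th coordinate of chart `i` on `O i`. -/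
def x (i : Fin A.n) (a : Fin 2) (p : M) : ℝ := A.χ i p * (chartAt E2 (A.c i) p) a

/-- Global derivation: `χ i` times the `a`-th partial derivative in chart `i`. -/
def D (α : A.Idx) (u : M → E) (p : M) : E :=
  A.χ α.1 p • fderiv ℝ (u ∘ (chartAt E2 (A.c α.1)).symm) (chartAt E2 (A.c α.1) p)
    (EuclideanSpace.single α.2 (1 : ℝ))

/-- Words of derivations. -/
def Dw : List A.Idx → (M → E) → (M → E)
  | [], u => u
  | α :: w, u => A.D α (Dw w u)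

/-- `C^k` norm bound. -/
def NB (k : ℕ) (u : M → E) (C : ℝ) : Prop :=
  ∀ w : List A.Idx, w.length ≤ k → ∀ p, ‖A.Dw w u p‖ ≤ C

/-- Symmetric 2-tensors are recorded by their values on all pairs of derivations. -/
abbrev Ten := A.Idx → A.Idx → M → ℝ

/-- Pull-back of the Euclidean metric. -/
def pull {n : Type} [Fintype n] (f : M → n → ℝ) : A.Ten :=
  fun α β p => A.D α f p ⬝ᵥ A.D β f p

/-- The tensor `du²`. -/
def dsq (u : M → ℝ) : A.Ten := fun α β p => A.D α u p * A.D β u p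

/-- Smooth symmetric tensor: on `O i` it is determined by its entries in chart `i`. -/
structure IsTen (G : A.Ten) : Prop where
  sm : ∀ α β, Sm (G α β)
  symm : ∀ α β p, G α β p = G β α p
  comp : ∀ i, ∀ p ∈ A.O i, ∀ α β, G α β p =
    ∑ a : Fin 2, ∑ b : Fin 2, A.D α (A.x i a) p * A.D β (A.x i b) p * G (i, a) (i, b) p

/-- Positive definite. -/
def PosDef (G : A.Ten) : Prop :=
  ∀ i, ∀ p ∈ A.O i, ∀ v : Fin 2 → ℝ, v ≠ 0 → 0 < ∑ a, ∑ b, v a * v b * G (i, a) (i, b) p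

/-- Quantitative positivity on the compact sets `K i`. -/
def PosB (G : A.Ten) (B : ℝ) : Prop :=
  ∀ i, ∀ p ∈ A.K i, (∀ a b, |G (i, a) (i, b) p| ≤ B) ∧
    ∀ v : Fin 2 → ℝ, v ⬝ᵥ v ≤ B * ∑ a, ∑ b, v a * v b * G (i, a) (i, b) p

/-- `df ∧ df ∧ d²f`. -/
def NII (f : M → V4) (α β γ δ : A.Idx) (p : M) : V4 :=
  cross3 (A.D α f p) (A.D β f p) (A.D γ (A.D δ f) p)

/-- Immersion whose second fundamental form does not vanish, with margin `m`. -/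
def IIm (f : M → V4) (m : ℝ) : Prop :=
  ∀ p, ∃ α β γ δ, m ≤ A.NII f α β γ δ p ⬝ᵥ A.NII f α β γ δ p

/-- Sheared coordinates of chart `i` with slope `t`: `η = x⁰ + t x¹`, `y = x¹`, with dual
derivations `X = ∂₀`, `Y = ∂₁ - t ∂₀` (on `O i`: `X η = 1`, `Y η = 0`, `X y = 0`, `Y y = 1`). -/
def eta (i : Fin A.n) (t : ℝ) (p : M) : ℝ := A.x i 0 p + t * A.x i 1 p
def X (i : Fin A.n) (u : M → E) (p : M) : E := A.D (i, 0) u p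
def Y (i : Fin A.n) (t : ℝ) (u : M → E) (p : M) : E := A.D (i, 1) u p - t • A.D (i, 0) u p
def Psi (i : Fin A.n) (t : ℝ) (p : M) : ℝ × ℝ := (A.eta i t p, A.x i 1 p)

/-! ### Interfaces of the analytic modules -/

/-- Smoothing operators of order `N`. -/
def SmoothStmt : Prop :=
  ∀ N : ℕ, ∃ S : ℝ → (M → ℝ) → (M → ℝ),
    (∀ l u, 0 < l → l ≤ 1 → Sm u → Sm (S l u)) ∧
    (∀ k r : ℕ, ∃ C : ℝ, ∀ l u (Z : ℝ), 0 < l → l ≤ 1 → Sm u → A.NB k u Z →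
      A.NB (k + r) (S l u) (C * Z / l ^ r)) ∧
    (∀ k : ℕ, ∃ C : ℝ, ∀ l u (Z : ℝ), 0 < l → l ≤ 1 → Sm u → A.NB (k + N) u Z →
      A.NB k (S l u - u) (C * Z * l ^ N))

/-- A sequence of smooth maps whose increments are summable in every `C^k` norm has a smooth
limit. -/
def LimitStmt : Prop :=
  ∀ u : ℕ → M → V4, (∀ n, Sm (u n)) →
    (∀ k : ℕ, ∃ a : ℕ → ℝ, Summable a ∧ ∀ᶠ n in Filter.atTop, A.NB k (u (n + 1) - u n) (a n)) →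
    ∃ v : M → V4, Sm v ∧
      ∀ w p, Filter.Tendsto (fun n => A.Dw w (u n) p) Filter.atTop (𝓝 (A.Dw w v p))

/-- Hypotheses of the perturbation theorem and of its iteration step. -/
structure Adm (B L Λ : ℝ) (N : ℕ) (f : M → V4) (G : A.Ten) : Prop where
  two_le : 2 ≤ L
  sm : Sm f
  ten : A.IsTen G
  pos : A.PosB G B
  low : A.NB 3 f L
  ii : A.IIm f L⁻¹
  highf : ∀ k ≤ N, A.NB k f (Λ ^ (k + 1))
  highG : ∀ k ≤ N, ∀ α β, A.NB k (G α β) (Λ ^ (k + 1))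

/-- One step of the perturbation theorem: an error `Λ^{-(C+1)}` is replaced by
`(Λ^{5/4})^{-(C+2)}`; the map is first shrunk by the factor `√(1 - Λ^{-C})`. -/
def StepStmt : Prop :=
  ∀ B : ℝ, 1 ≤ B → ∃ C₀ : ℕ, ∀ C : ℕ, C₀ ≤ C → ∃ N : ℕ, ∀ Kk : ℕ, ∃ n₀ : ℕ,
    ∀ (L Λ : ℝ) (f : M → V4) (G : A.Ten), A.Adm B L Λ N f G → L ^ n₀ ≤ Λ →
      (∀ α β p, |G α β p - A.pull f α β p| ≤ Λ ^ (-((C : ℝ) + 1))) →
      ∃ U : M → V4, Sm U ∧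
        (∀ k ≤ Kk, A.NB k U (Λ ^ ((5 / 4 : ℝ) * k - C / 2))) ∧
        ∀ α β p, |G α β p - A.pull (Real.sqrt (1 - Λ ^ (-(C : ℝ))) • f + U) α β p|
          ≤ Λ ^ (-((5 / 4 : ℝ) * (C + 2)))

/-- The perturbation theorem. -/
def TStmt : Prop :=
  ∀ B : ℝ, 1 ≤ B → ∃ C N n₀ : ℕ, ∀ (L Λ : ℝ) (f : M → V4) (G : A.Ten),
    A.Adm B L Λ N f G → L ^ n₀ ≤ Λ →
      (∀ α β p, |G α β p - A.pull f α β p| ≤ Λ ^ (-(C : ℝ))) →
      ∃ f' : M → V4, Sm f' ∧ (∀ α β p, A.pull f' α β p = G α β p) ∧ A.NB 2 (f' - f) Λ⁻¹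

/-- Every compact surface immerses in `ℝ³`. -/
def Imm3Stmt : Prop :=
  ∃ F : M → Fin 3 → ℝ, Sm F ∧ ∀ i, ∀ p ∈ A.O i, 0 < gram2 (A.D (i, 0) F p) (A.D (i, 1) F p)

/-! ### The cover by disks and the invariant -/

/-- Closed disks `{s k ≥ 0}` with a chart and a slope each. -/
structure Cover where
  m : ℕ
  ch : Fin m → Fin A.n
  t : Fin m → ℝ
  s : Fin m → M → ℝ
  s_sm : ∀ k, Sm (s k)
  sub : ∀ k p, 0 ≤ s k p → p ∈ A.O (ch k)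
  notriple : ∀ j k l p, j ≠ k → j ≠ l → k ≠ l → s j p = 0 → s k p = 0 → s l p ≠ 0
  fin : ∀ j k, j ≠ k → {p | s j p = 0 ∧ s k p = 0}.Finite
  trans : ∀ j k p, j ≠ k → 0 ≤ s j p → 0 ≤ s k p → A.Y (ch j) (t j) (A.eta (ch k) (t k)) p ≠ 0
  conc : ∀ j k p q, 0 ≤ s j q → 0 ≤ s k q → 0 ≤ s j p →
    A.Y (ch j) (t j) (A.Y (ch j) (t j) (s k)) p < 0

variable {A}

namespace Cover

variable (C : A.Cover)

def eta (k : Fin C.m) : M → ℝ := A.eta (C.ch k) (C.t k)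
def X (k : Fin C.m) (u : M → E) : M → E := A.X (C.ch k) u
def Y (k : Fin C.m) (u : M → E) : M → E := A.Y (C.ch k) (C.t k) u

/-- Amplitude `b k = expNegInvGlue (s k) * c k`. -/
def amp (c : Fin C.m → M → ℝ) (k : Fin C.m) (p : M) : ℝ := expNegInvGlue (C.s k p) * c k p

/-- The part `∑_{k ≥ j} b_k² dη_k²` of the metric that is still to be added. -/
def rest (c : Fin C.m → M → ℝ) (j : ℕ) : A.Ten := fun α β p =>
  ∑ k : Fin C.m, if j ≤ (k : ℕ) then C.amp c k p ^ 2 * A.dsq (C.eta k) α β p else 0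

/-- Condition (H) at a point. -/
def HAt (j : ℕ) (f : M → V4) (p : M) : Prop :=
  ∃ l : V4, (∀ γ, l ⬝ᵥ A.D γ f p = 0) ∧
    ∀ k : Fin C.m, j ≤ (k : ℕ) → 0 ≤ C.s k p → 0 < l ⬝ᵥ C.Y k (C.Y k f) p

/-- Special points for the pair `j' < k` at stage `j`. -/
def Special (j : ℕ) (j' k : Fin C.m) (q : M) : Prop :=
  j ≤ (j' : ℕ) ∧ j' < k ∧ C.s j' q = 0 ∧ C.s k q = 0 ∧ ∀ l : Fin C.m, j ≤ (l : ℕ) → C.s l q ≤ 0

/-- Condition `P⁺` for the pair `j', k` at `q`. -/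
def PAt (j' k : Fin C.m) (f : M → V4) (q : M) : Prop :=
  Pplus (C.X j' f q) (C.Y j' f q) (C.Y j' (C.Y j' f) q) (C.Y k (C.Y k f) q) (C.Y j' (C.Y k f) q)

/-- The open conditions on the 2-jet of `f` at stage `j`. -/
structure Good (j : ℕ) (f : M → V4) : Prop where
  ii : ∀ p, ∃ α β γ δ, A.NII f α β γ δ p ≠ 0
  H : ∀ p, C.HAt j f p
  P : ∀ j' k q, C.Special j j' k q → C.PAt j' k f q

/-- The invariant before stage `j`. -/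
structure Inv (G : A.Ten) (j : ℕ) (f : M → V4) (c : Fin C.m → M → ℝ) : Prop where
  sm : Sm f
  c_sm : ∀ k, Sm (c k)
  c_pos : ∀ k p, 0 < c k p
  exact : ∀ α β p, A.pull f α β p + C.rest c j α β p = G α β p
  good : C.Good j f

/-- The approximate stage: a corrugation at frequency `lam`, exact up to `lam^{-N}`. -/
def ApproxStmt : Prop :=
  ∀ (G : A.Ten) (j : Fin C.m) (f : M → V4) (c : Fin C.m → M → ℝ), C.Inv G j f c →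
    ∀ N : ℕ, ∃ (Cs : ℕ → ℝ) (m₀ lam₀ : ℝ), 0 < m₀ ∧ ∀ lam : ℝ, lam₀ ≤ lam →
      ∃ (f₁ : M → V4) (κ : M → ℝ), Sm f₁ ∧ Sm κ ∧
        (∀ k, A.NB k f₁ (Cs k * lam ^ k) ∧ A.NB k κ (Cs k * lam ^ k)) ∧
        (∀ p, |κ p| ≤ Cs 0 / lam) ∧
        (∀ α β p, |A.pull f₁ α β p - (A.pull f α β p + C.amp c j p ^ 2 * A.dsq (C.eta j) α β p
            + κ p * C.rest c (j + 1) α β p)| ≤ Cs 0 / lam ^ N) ∧
        A.IIm f₁ m₀ ∧
        ∀ f' : M → V4, Sm f' → A.NB 2 (f' - f₁) lam⁻¹ → C.Good (j + 1) f'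

end Cover

variable (A)

/-- Decomposition of a positive definite tensor along a cover. -/
def CoverStmt : Prop :=
  ∀ h : A.Ten, A.IsTen h → A.PosDef h → ∃ (C : A.Cover) (c : Fin C.m → M → ℝ),
    (∀ k, Sm (c k)) ∧ (∀ k p, 0 < c k p) ∧ ∀ α β p, h α β p = C.rest c 0 α β p

end Atl

end Mfd

/-! ## The local corrugation theorem on `ℝ²` -/

section Loc

variable {E : Type} [NormedAddCommGroup E] [NormedSpace ℝ E]

def dx (v : ℝ × ℝ → E) (z : ℝ × ℝ) : E := fderiv ℝ v z (1, 0)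
def dy (v : ℝ × ℝ → E) (z : ℝ × ℝ) : E := fderiv ℝ v z (0, 1)

/-- Words of partial derivatives (`false = x`, `true = y`). -/
def pdw : List Bool → (ℝ × ℝ → E) → (ℝ × ℝ → E)
  | [], v => v
  | false :: w, v => dx (pdw w v)
  | true :: w, v => dy (pdw w v)

/-- 2-jets (without the value). -/
structure Jet where
  x : V4
  y : V4
  xx : V4
  xy : V4
  yy : V4

def jet (F : ℝ × ℝ → V4) (z : ℝ × ℝ) : Jet :=
  ⟨dx F z, dy F z, dx (dx F) z, dx (dy F) z, dy (dy F) z⟩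

def Jet.close (J J' : Jet) (e : ℝ) : Prop :=
  ‖J.x - J'.x‖ ≤ e ∧ ‖J.y - J'.y‖ ≤ e ∧ ‖J.xx - J'.xx‖ ≤ e ∧ ‖J.xy - J'.xy‖ ≤ e ∧
    ‖J.yy - J'.yy‖ ≤ e

/-- The Hessian on the vectors `(ξ, ζ)`, `(ξ', ζ')`. -/
def Jet.B (J : Jet) (ξ ζ ξ' ζ' : ℝ) : V4 :=
  (ξ * ξ') • J.xx + (ξ * ζ' + ζ * ξ') • J.xy + (ζ * ζ') • J.yy

/-- Margin for `II ≠ 0`. -/
def Jet.II (J : Jet) (m : ℝ) : Prop :=
  m ≤ cross3 J.x J.y J.xx ⬝ᵥ cross3 J.x J.y J.xx ∨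
  m ≤ cross3 J.x J.y J.xy ⬝ᵥ cross3 J.x J.y J.xy ∨
  m ≤ cross3 J.x J.y J.yy ⬝ᵥ cross3 J.x J.y J.yy

/-- Data of one stage in the sheared chart of the current disk `{s ≥ 0}`; `ι` indexes the later
disks `{sk k ≥ 0}`, whose directions are `ξ k ∂x + ζ k ∂y`. -/
structure LocData (ι : Type) [Fintype ι] where
  s : ℝ × ℝ → ℝ
  c0 : ℝ × ℝ → ℝ
  f : ℝ × ℝ → V4
  sk : ι → ℝ × ℝ → ℝ
  ck : ι → ℝ × ℝ → ℝ
  ek : ι → ℝ × ℝ → ℝ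
  ξ : ι → ℝ × ℝ → ℝ
  ζ : ι → ℝ × ℝ → ℝ
  s_sm : ContDiff ℝ ∞ s
  c0_sm : ContDiff ℝ ∞ c0
  f_sm : ContDiff ℝ ∞ f
  sk_sm : ∀ k, ContDiff ℝ ∞ (sk k)
  ck_sm : ∀ k, ContDiff ℝ ∞ (ck k)
  ek_sm : ∀ k, ContDiff ℝ ∞ (ek k)
  ξ_sm : ∀ k, ContDiff ℝ ∞ (ξ k)
  ζ_sm : ∀ k, ContDiff ℝ ∞ (ζ k)
  cpt : IsCompact {z | 0 ≤ s z}
  c0_pos : ∀ z, 0 ≤ s z → 0 < c0 z
  ck_pos : ∀ k z, 0 ≤ s z → 0 < ck k z
  trans : ∀ k z, 0 ≤ s z → 0 ≤ sk k z → dy (ek k) z ≠ 0 ∧ ξ k z ≠ 0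
  conc : ∀ k q z, 0 ≤ s q → 0 ≤ sk k q → 0 ≤ s z → dy (dy (sk k)) z < 0
  imm : ∀ z, 0 ≤ s z → 0 < gram2 (dx f z) (dy f z)
  H : ∀ z, 0 ≤ s z → ∃ l : V4, l ⬝ᵥ dx f z = 0 ∧ l ⬝ᵥ dy f z = 0 ∧ 0 < l ⬝ᵥ dy (dy f) z ∧
    ∀ k, 0 ≤ sk k z → 0 < l ⬝ᵥ (jet f z).B (ξ k z) (ζ k z) (ξ k z) (ζ k z)
  P : ∀ k z, s z = 0 → sk k z = 0 → (∀ l, sk l z ≤ 0) →
    Pplus (dx f z) (dy f z) (dy (dy f) z) ((jet f z).B (ξ k z) (ζ k z) (ξ k z) (ζ k z))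
      ((jet f z).B 0 1 (ξ k z) (ζ k z))

namespace LocData

variable {ι : Type} [Fintype ι] (L : LocData ι)

def a (z : ℝ × ℝ) : ℝ := expNegInvGlue (L.s z) * L.c0 z
def bk (k : ι) (z : ℝ × ℝ) : ℝ := expNegInvGlue (L.sk k z) * L.ck k z
def H11 (z : ℝ × ℝ) : ℝ := ∑ k, L.bk k z ^ 2 * (dx (L.ek k) z * dx (L.ek k) z)
def H12 (z : ℝ × ℝ) : ℝ := ∑ k, L.bk k z ^ 2 * (dx (L.ek k) z * dy (L.ek k) z)
def H22 (z : ℝ × ℝ) : ℝ := ∑ k, L.bk k z ^ 2 * (dy (L.ek k) z * dy (L.ek k) z)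

/-- What is wanted from a jet `J` at the point `z` after the stage. -/
def JGood (Qs : Finset (ℝ × ℝ)) (m₀ : ℝ) (z : ℝ × ℝ) (J : Jet) : Prop :=
  (∃ l : V4, l ⬝ᵥ J.x = 0 ∧ l ⬝ᵥ J.y = 0 ∧
    ∀ k, 0 ≤ L.sk k z → 0 < l ⬝ᵥ J.B (L.ξ k z) (L.ζ k z) (L.ξ k z) (L.ζ k z)) ∧
  J.II m₀ ∧
  (z ∈ Qs → ∀ k' k, 0 ≤ L.sk k' z → 0 ≤ L.sk k z →
    Pplus J.x J.y (J.B (L.ξ k' z) (L.ζ k' z) (L.ξ k' z) (L.ζ k' z))
      (J.B (L.ξ k z) (L.ζ k z) (L.ξ k z) (L.ζ k z))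
      (J.B (L.ξ k' z) (L.ζ k' z) (L.ξ k z) (L.ζ k z)))

end LocData

/-- The local corrugation theorem. -/
def LocStmt : Prop :=
  ∀ (ι : Type) [Fintype ι] (L : LocData ι) (Qs : Finset (ℝ × ℝ)), (∀ q ∈ Qs, 0 < L.s q) →
    ∀ (N : ℕ) (C₁ : ℝ), ∃ (Cs : ℕ → ℝ) (m₀ lam₀ : ℝ), 0 < m₀ ∧ ∀ lam : ℝ, lam₀ ≤ lam →
      ∃ (U : ℝ × ℝ → V4) (κ : ℝ × ℝ → ℝ), ContDiff ℝ ∞ U ∧ ContDiff ℝ ∞ κ ∧
        (∀ z, L.s z ≤ 0 → U z = 0 ∧ κ z = 0) ∧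
        (∀ w z, ‖pdw w U z‖ ≤ Cs w.length * lam ^ w.length ∧
          |pdw w κ z| ≤ Cs w.length * lam ^ w.length) ∧
        (∀ z, |κ z| ≤ Cs 0 / lam) ∧
        (∀ z, 0 ≤ L.s z →
          |dx (L.f + U) z ⬝ᵥ dx (L.f + U) z
            - (dx L.f z ⬝ᵥ dx L.f z + L.a z ^ 2 + κ z * L.H11 z)| ≤ Cs 0 / lam ^ N ∧
          |dx (L.f + U) z ⬝ᵥ dy (L.f + U) z
            - (dx L.f z ⬝ᵥ dy L.f z + κ z * L.H12 z)| ≤ Cs 0 / lam ^ N ∧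
          |dy (L.f + U) z ⬝ᵥ dy (L.f + U) z
            - (dy L.f z ⬝ᵥ dy L.f z + κ z * L.H22 z)| ≤ Cs 0 / lam ^ N) ∧
        ∀ z, 0 ≤ L.s z → ∀ J : Jet, J.close (jet (L.f + U) z) (C₁ / lam) → L.JGood Qs m₀ z J

end Loc

end Crest.Agent.R216
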