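import Crest.Agent.R216.Flat

/-!
# R216: evaluation of the formal series at frequency `lam`

PLAN. `evl G z = G (z, lam * z.1 + ψ z + θ₀)` is a ring homomorphism `Per R2 → (R2 → ℝ)` into smooth functions with
`dx (evl G) = lam * evl (Th G) + evl (Xp G)`, `dy (evl G) = evl (Yp G)`. If `G` vanishes on `{s < 0} × ℝ` so do its derivatives (`pd_congr`), and `G` is bounded (`exists_bound` on the disk); by induction on `w`
(generalizing `G`, peel the innermost letter) `|pdw w (evl G)| ≤ C lam^|w|` for `lam ≥ 1`, uniformly in `θ₀`; take the maximum over the finitely many words of a given length.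
With `ε = lam⁻¹`, `F = f + U`: `dx F = ∑_{n ≤ N} ε^n evl (PP n) + ε^(N+1) evl (Xp (U N))`, `dy F = ∑_{n ≤ N+1} ε^n evl (QQ n)`. A product of two such sums is `∑_{n ≤ N} ε^n conv n + O(ε^(N+1))`
(lemma on real sequences: `(∑_{i ≤ N+1} ε^i p i)(∑_{j ≤ N+1} ε^j q j) - ∑_{n ≤ N} ε^n ∑_{i ≤ n} p i q (n-i)` is a sum of terms `ε^(i+j) p i q j` with `i + j > N`; `Finset.sum_mul_sum`, `Finset.sum_sigma'`/`Finset.Nat.sum_antidiagonal`…).
Jets: differentiate once more; `dx (dy F) = dy (dx F)`; `PP 0 = TT`, `AA = X (PP 0) + Θ (PP 1)`, `N ≥ 1`.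
-/

set_option autoImplicit false
set_option linter.unusedSectionVars false

open scoped Manifold ContDiff Topology
open Matrix

noncomputable section

namespace Crest.Agent.R216

open Real Per

section Aux

open Finset

variable {E : Type} [NormedAddCommGroup E] [NormedSpace ℝ E]

theorem ev_pdw_append (w w' : List Bool) (v : R2 → E) : pdw (w ++ w') v = pdw w (pdw w' v) := by
  induction w with
  | nil => rfl
  | cons b w ih => cases b <;> simp only [List.cons_append, pdw, ih]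

theorem ev_pdw_sm (w : List Bool) {v : R2 → E} (hv : ContDiff ℝ ∞ v) : ContDiff ℝ ∞ (pdw w v) := by
  induction w with
  | nil => exact hv
  | cons b w ih => cases b; exacts [dx_sm ih, dy_sm ih]

theorem ev_pdw_lin (w : List Bool) (c : ℝ) {u v : R2 → E} (hu : ContDiff ℝ ∞ u)
    (hv : ContDiff ℝ ∞ v) : pdw w (c • u + v) = c • pdw w u + pdw w v := by
  induction w with
  | nil => rfl
  | cons b w ih =>
    have h1 := (ev_pdw_sm w hu).differentiable (by simp)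
    have h2 := (ev_pdw_sm w hv).differentiable (by simp)
    cases b <;> funext z <;> simp only [pdw, ih, dx, dy] <;>
      rw [fderiv_add ((h1 z).const_smul c) (h2 z), fderiv_const_smul (h1 z)] <;> rfl

theorem ev_gen {T : Type} (Vn : T → Prop) (Θ X Y : T → T) (e : T → ℝ → ℝ → R2 → E)
    (hV : ∀ G, Vn G → Vn (Θ G) ∧ Vn (X G) ∧ Vn (Y G))
    (hs : ∀ G lam θ, ContDiff ℝ ∞ (e G lam θ))
    (hx : ∀ G lam θ, dx (e G lam θ) = lam • e (Θ G) lam θ + e (X G) lam θ)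
    (hy : ∀ G lam θ, dy (e G lam θ) = e (Y G) lam θ)
    (h0 : ∀ G, Vn G → ∃ C, 0 ≤ C ∧ ∀ lam θ, 1 ≤ lam → ∀ z, ‖e G lam θ z‖ ≤ C) (k : ℕ) :
    ∀ G, Vn G → ∃ C, 0 ≤ C ∧ ∀ lam θ, 1 ≤ lam → ∀ w : List Bool, w.length = k → ∀ z,
      ‖pdw w (e G lam θ) z‖ ≤ C * lam ^ k := by
  induction k with
  | zero =>
    intro G hG
    obtain ⟨C, C0, hC⟩ := h0 G hG
    refine ⟨C, C0, fun lam θ hl w hw z => ?_⟩
    obtain rfl := List.length_eq_zero_iff.1 hw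
    simpa [pdw] using hC lam θ hl z
  | succ k ih =>
    intro G hG
    obtain ⟨C₁, c1, h1⟩ := ih _ (hV G hG).1
    obtain ⟨C₂, c2, h2⟩ := ih _ (hV G hG).2.1
    obtain ⟨C₃, c3, h3⟩ := ih _ (hV G hG).2.2
    refine ⟨C₁ + C₂ + C₃, by positivity, fun lam θ hl w hw z => ?_⟩
    obtain rfl | ⟨w', b, rfl⟩ := w.eq_nil_or_concat'
    · simp at hw
    have hw' : w'.length = k := by simpa using hw
    have l0 : 0 ≤ lam := zero_le_one.trans hl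
    have hp : lam ^ k ≤ lam ^ (k + 1) := pow_le_pow_right₀ hl k.le_succ
    have hq : 0 ≤ lam ^ (k + 1) := by positivity
    rw [ev_pdw_append]
    cases b
    · change ‖pdw w' (dx (e G lam θ)) z‖ ≤ _
      rw [hx, ev_pdw_lin w' lam (hs _ _ _) (hs _ _ _), Pi.add_apply, Pi.smul_apply]
      refine (norm_add_le _ _).trans ?_
      rw [norm_smul, Real.norm_of_nonneg l0]
      have e1 := mul_le_mul_of_nonneg_left (h1 lam θ hl w' hw' z) l0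
      have e2 := (h2 lam θ hl w' hw' z).trans (mul_le_mul_of_nonneg_left hp c2)
      have e3 := mul_nonneg c3 hq
      rw [pow_succ] at *
      linarith
    · change ‖pdw w' (dy (e G lam θ)) z‖ ≤ _
      rw [hy]
      have e2 := (h3 lam θ hl w' hw' z).trans (mul_le_mul_of_nonneg_left hp c3)
      have := mul_nonneg c1 hq
      have := mul_nonneg c2 hq
      linarith

theorem ev_prod (p q : ℕ → V4) (r : ℕ → ℝ) {g H ε B : ℝ} (N : ℕ) (h0 : 0 ≤ ε) (h1 : ε ≤ 1)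
    (hc0 : p 0 ⬝ᵥ q 0 = g)
    (hc : ∀ n < N, ∑ i ∈ range (n + 1 + 1), p i ⬝ᵥ q (n + 1 - i) = r n * H)
    (hB : ∀ i j, i < N + 2 → j < N + 2 → |p i ⬝ᵥ q j| ≤ B) (hr : |r N * H| ≤ B) :
    |(∑ n ∈ range (N + 2), ε ^ n • p n) ⬝ᵥ (∑ n ∈ range (N + 2), ε ^ n • q n) -
      (g + (ε * ∑ n ∈ range (N + 1), ε ^ n * r n) * H)| ≤ ((N + 2) * (N + 2) + 1) * B * ε ^ N := by
  have B0 : 0 ≤ B := (abs_nonneg _).trans hr
  have e1 : (∑ n ∈ range (N + 2), ε ^ n • p n) ⬝ᵥ (∑ n ∈ range (N + 2), ε ^ n • q n) =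
      ∑ i ∈ range (N + 2), ∑ j ∈ range (N + 2), ε ^ (i + j) * (p i ⬝ᵥ q j) := by
    rw [sum_dotProduct]
    refine sum_congr rfl fun i _ => ?_
    rw [dotProduct_sum]
    refine sum_congr rfl fun j _ => ?_
    rw [smul_dotProduct, dotProduct_smul, smul_eq_mul, smul_eq_mul, pow_add, mul_assoc]
  have e2 : ∑ i ∈ range (N + 2), ∑ j ∈ range (N + 1 - i), ε ^ (i + j) * (p i ⬝ᵥ q j) =
      g + (ε * ∑ n ∈ range N, ε ^ n * r n) * H := by
    rw [sum_range_succ, Nat.sub_self, range_zero, sum_empty, add_zero,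
      ← sum_range_diag_flip (N + 1) fun i j => ε ^ (i + j) * (p i ⬝ᵥ q j), sum_range_succ', add_comm,
      mul_sum, sum_mul]
    congr 1
    · simp [hc0]
    · refine sum_congr rfl fun n hn => ?_
      rw [← mul_assoc, mul_assoc, ← hc n (mem_range.1 hn), mul_sum]
      refine sum_congr rfl fun i hi => ?_
      rw [Nat.add_sub_cancel' (Nat.lt_succ_iff.1 (mem_range.1 hi)), pow_succ']
  have e3 : ∀ i ∈ range (N + 2), |∑ j ∈ range (N + 2), ε ^ (i + j) * (p i ⬝ᵥ q j) -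
      ∑ j ∈ range (N + 1 - i), ε ^ (i + j) * (p i ⬝ᵥ q j)| ≤ (N + 2) * (B * ε ^ N) := by
    intro i hi
    rw [← sum_Ico_eq_sub _ (by omega)]
    refine (abs_sum_le_sum_abs _ _).trans ((sum_le_card_nsmul _ _ (B * ε ^ N) fun j hj => ?_).trans ?_)
    · obtain ⟨j1, j2⟩ := mem_Ico.1 hj
      rw [abs_mul, abs_of_nonneg (pow_nonneg h0 _), mul_comm]
      exact mul_le_mul (hB i j (mem_range.1 hi) j2) (pow_le_pow_of_le_one h0 h1 (by omega))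
        (pow_nonneg h0 _) B0
    · rw [nsmul_eq_mul, Nat.card_Ico]
      refine mul_le_mul_of_nonneg_right ?_ (by positivity)
      exact_mod_cast Nat.sub_le _ _
  have e4 := (abs_sum_le_sum_abs _ _).trans (sum_le_card_nsmul _ _ _ e3)
  rw [sum_sub_distrib, e2, card_range, nsmul_eq_mul] at e4
  have e5 : |ε * ε ^ N * (r N * H)| ≤ B * ε ^ N := by
    rw [abs_mul, abs_of_nonneg (by positivity), mul_comm]
    exact mul_le_mul hr (mul_le_of_le_one_left (pow_nonneg h0 _) h1) (by positivity) B0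
  rw [e1, sum_range_succ (fun n => ε ^ n * r n)]
  push_cast at e4
  rw [abs_le] at e4 e5 ⊢
  constructor <;> linarith [e4.1, e4.2, e5.1, e5.2]

variable (ψ : R2 → ℝ)

/-- scalar series -/
def evS (c : ℕ → Per R2) (m : ℕ) (lam θ₀ : ℝ) (z : R2) : ℝ :=
  ∑ n ∈ range m, lam⁻¹ ^ n * (c n).1 (z, lam * z.1 + ψ z + θ₀)

/-- vector series -/
def evV (c : ℕ → Fin 4 → Per R2) (m : ℕ) (lam θ₀ : ℝ) (z : R2) : V4 :=
  fun i => evS ψ (fun n => c n i) m lam θ₀ z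

theorem evV_eq (c : ℕ → Fin 4 → Per R2) (m : ℕ) (lam θ₀ : ℝ) (z : R2) :
    evV ψ c m lam θ₀ z = ∑ n ∈ range m, lam⁻¹ ^ n • vev (c n) (z, lam * z.1 + ψ z + θ₀) := by
  funext i
  rw [Finset.sum_apply]; rfl

theorem evV_succ (c : ℕ → Fin 4 → Per R2) (m : ℕ) (lam θ₀ : ℝ) (z : R2) :
    evV ψ c (m + 1) lam θ₀ z =
      vev (c 0) (z, lam * z.1 + ψ z + θ₀) + lam⁻¹ • evV ψ (fun n => c (n + 1)) m lam θ₀ z := by
  rw [evV_eq, evV_eq, sum_range_succ', pow_zero, one_smul, add_comm, smul_sum]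
  congr 1
  exact sum_congr rfl fun n _ => by rw [smul_smul, pow_succ']

theorem evS_bound {K : Set R2} (hK : IsCompact K) (c : ℕ → Per R2) (m : ℕ) :
    ∃ C, 0 ≤ C ∧ ∀ lam θ₀, 1 ≤ lam → ∀ z ∈ K, |evS ψ c m lam θ₀ z| ≤ C := by
  choose C C0 hC using fun n => exists_bound hK (c n)
  refine ⟨∑ n ∈ range m, C n, sum_nonneg fun n _ => C0 n, fun lam θ₀ hl z hz =>
    (abs_sum_le_sum_abs _ _).trans (sum_le_sum fun n _ => ?_)⟩
  have h1 : 0 ≤ lam⁻¹ := inv_nonneg.2 (zero_le_one.trans hl)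
  rw [abs_mul, abs_of_nonneg (pow_nonneg h1 _)]
  exact (mul_le_of_le_one_left (abs_nonneg _) (pow_le_one₀ h1 (inv_le_one_of_one_le₀ hl))).trans
    (hC n z hz _)

theorem evV_bound {K : Set R2} (hK : IsCompact K) (c : ℕ → Fin 4 → Per R2) (m : ℕ) :
    ∃ C, 0 ≤ C ∧ ∀ lam θ₀, 1 ≤ lam → ∀ z ∈ K, ‖evV ψ c m lam θ₀ z‖ ≤ C := by
  choose C C0 hC using fun i => evS_bound ψ hK (fun n => c n i) m
  have : 0 ≤ ∑ i, C i := sum_nonneg fun i _ => C0 i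
  exact ⟨∑ i, C i, this, fun lam θ₀ hl z hz => (pi_norm_le_iff_of_nonneg this).2 fun i =>
    (hC i lam θ₀ hl z hz).trans (single_le_sum (fun i _ => C0 i) (mem_univ i))⟩

theorem evV_lead {K : Set R2} (hK : IsCompact K) (c : ℕ → Fin 4 → Per R2) (m : ℕ) :
    ∃ C, 0 ≤ C ∧ ∀ lam θ₀, 1 ≤ lam → ∀ z ∈ K,
      ‖evV ψ c (m + 1) lam θ₀ z - vev (c 0) (z, lam * z.1 + ψ z + θ₀)‖ ≤ C / lam := by
  obtain ⟨C, C0, hC⟩ := evV_bound ψ hK (fun n => c (n + 1)) m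
  refine ⟨C, C0, fun lam θ₀ hl z hz => ?_⟩
  have h1 : 0 ≤ lam⁻¹ := inv_nonneg.2 (zero_le_one.trans hl)
  rw [evV_succ, add_sub_cancel_left, norm_smul, Real.norm_of_nonneg h1, div_eq_inv_mul]
  exact mul_le_mul_of_nonneg_left (hC lam θ₀ hl z hz) h1

theorem ev_metric {K : Set R2} (hK : IsCompact K) {N : ℕ} {P Q P' Q' : ℕ → Fin 4 → Per R2}
    {g H : Per R2} {k : ℕ → Per R2} (hP : ∀ n ≤ N, P' n = P n) (hQ : ∀ n ≤ N, Q' n = Q n)
    (h : ∀ n, conv P Q n = rhs g k H n) :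
    ∃ C, 0 ≤ C ∧ ∀ lam θ₀, 1 ≤ lam → ∀ z ∈ K,
      |evV ψ P' (N + 2) lam θ₀ z ⬝ᵥ evV ψ Q' (N + 2) lam θ₀ z - (g.1 (z, lam * z.1 + ψ z + θ₀) +
        lam⁻¹ * evS ψ k (N + 1) lam θ₀ z * H.1 (z, lam * z.1 + ψ z + θ₀))| ≤ C / lam ^ N := by
  choose C C0 hC using fun q : ℕ × ℕ => exists_bound hK (P' q.1 ⬝ᵥ Q' q.2)
  obtain ⟨C', C'0, hC'⟩ := exists_bound hK (k N * H)
  have S0 : 0 ≤ ∑ q ∈ range (N + 2) ×ˢ range (N + 2), C q := sum_nonneg fun q _ => C0 q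
  refine ⟨((N + 2) * (N + 2) + 1) * (∑ q ∈ range (N + 2) ×ˢ range (N + 2), C q + C'), by positivity,
    fun lam θ₀ hl z hz => ?_⟩
  rw [evV_eq, evV_eq, evS, div_eq_mul_inv, ← inv_pow]
  generalize lam * z.1 + ψ z + θ₀ = θ
  refine ev_prod (fun n => vev (P' n) (z, θ)) (fun n => vev (Q' n) (z, θ)) (fun n => (k n).1 (z, θ)) N
    (inv_nonneg.2 (zero_le_one.trans hl)) (inv_le_one_of_one_le₀ hl) ?_ (fun n hn => ?_)
    (fun i j hi hj => ?_) ((hC' z hz θ).trans (le_add_of_nonneg_left S0))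
  · have := congrArg (ev (z, θ)) (h 0)
    rw [conv, sum_range_one, ev_apply, dot_val] at this
    rw [hP 0 N.zero_le, hQ 0 N.zero_le]
    exact this
  · have := congrArg (ev (z, θ)) (h (n + 1))
    rw [conv, map_sum] at this
    refine (sum_congr rfl fun i hi => ?_).trans this
    have := mem_range.1 hi
    rw [ev_apply, dot_val, hP i (by omega), hQ _ (by omega)]
  · rw [← dot_val]
    refine (hC (i, j) z hz θ).trans ((single_le_sum (fun q _ => C0 q)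
      (mem_product.2 ⟨mem_range.2 hi, mem_range.2 hj⟩)).trans (le_add_of_nonneg_right C'0))

variable {ψ} (hψ : ContDiff ℝ ∞ ψ)
include hψ

theorem evS_sm (c : ℕ → Per R2) (m : ℕ) (lam θ₀ : ℝ) : ContDiff ℝ ∞ (evS ψ c m lam θ₀) :=
  ContDiff.sum fun n _ => contDiff_const.mul ((sm (c n)).comp (by fun_prop))

theorem evV_sm (c : ℕ → Fin 4 → Per R2) (m : ℕ) (lam θ₀ : ℝ) : ContDiff ℝ ∞ (evV ψ c m lam θ₀) :=
  contDiff_pi.2 fun _ => evS_sm hψ _ _ _ _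

theorem evS_fderiv (c : ℕ → Per R2) (m : ℕ) (lam θ₀ : ℝ) (z v : R2) :
    fderiv ℝ (evS ψ c m lam θ₀) z v = ∑ n ∈ range m, lam⁻¹ ^ n *
      ((pd (v, 0) (c n)).1 (z, lam * z.1 + ψ z + θ₀) +
        (lam * v.1 + fderiv ℝ ψ z v) * (Th (c n)).1 (z, lam * z.1 + ψ z + θ₀)) := by
  have h1 : HasFDerivAt (fun z : R2 => (z, lam * z.1 + ψ z + θ₀)) _ z :=
    (hasFDerivAt_id z).prodMk (((hasFDerivAt_fst.const_mul lam).add
      (hψ.differentiable (by simp) z).hasFDerivAt).add_const θ₀)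
  have h2 := HasFDerivAt.fun_sum (u := range m) fun n _ =>
    ((per_diff (c n) _).hasFDerivAt.comp z h1).const_mul (lam⁻¹ ^ n)
  refine (congrArg (fun L : R2 →L[ℝ] ℝ => L v) h2.fderiv).trans ?_
  simp only [_root_.sum_apply]
  refine sum_congr rfl fun n _ => ?_
  rw [pd_val, pd_val, ← smul_eq_mul (lam * v.1 + fderiv ℝ ψ z v), ← map_smul, ← map_add]
  simp

theorem evS_dx (c : ℕ → Per R2) (m : ℕ) (lam θ₀ : ℝ) : dx (evS ψ c m lam θ₀) =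
    lam • evS ψ (fun n => Th (c n)) m lam θ₀ + evS ψ (fun n => Xp ψ hψ (c n)) m lam θ₀ := by
  funext z
  rw [dx, evS_fderiv hψ, Pi.add_apply, Pi.smul_apply, evS, evS, smul_eq_mul, mul_sum,
    ← sum_add_distrib]
  refine sum_congr rfl fun n _ => ?_
  rw [Xp_apply]
  change _ = _ + _ * (_ + fderiv ℝ ψ z (1, 0) * _)
  ring

theorem evS_dy (c : ℕ → Per R2) (m : ℕ) (lam θ₀ : ℝ) : dy (evS ψ c m lam θ₀) =
    evS ψ (fun n => Yp ψ hψ (c n)) m lam θ₀ := by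
  funext z
  rw [dy, evS_fderiv hψ, evS]
  refine sum_congr rfl fun n _ => ?_
  rw [Yp_apply]
  change _ = _ * (_ + fderiv ℝ ψ z (0, 1) * _)
  ring

theorem evV_fderiv (c : ℕ → Fin 4 → Per R2) (m : ℕ) (lam θ₀ : ℝ) (z v : R2) (i : Fin 4) :
    fderiv ℝ (evV ψ c m lam θ₀) z v i = fderiv ℝ (evS ψ (fun n => c n i) m lam θ₀) z v := by
  have := fderiv_pi (𝕜 := ℝ) (φ := fun i => evS ψ (fun n => c n i) m lam θ₀) (x := z) fun i =>
    (evS_sm hψ _ _ _ _).differentiable (by simp) z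
  exact congrArg (fun L : R2 →L[ℝ] V4 => L v i) this

theorem evV_dx (c : ℕ → Fin 4 → Per R2) (m : ℕ) (lam θ₀ : ℝ) : dx (evV ψ c m lam θ₀) =
    lam • evV ψ (fun n => vD Th (c n)) m lam θ₀ + evV ψ (fun n => vD (Xp ψ hψ) (c n)) m lam θ₀ := by
  funext z i
  exact (evV_fderiv hψ c m lam θ₀ z _ i).trans (congrFun (evS_dx hψ _ m lam θ₀) z)

theorem evV_dy (c : ℕ → Fin 4 → Per R2) (m : ℕ) (lam θ₀ : ℝ) : dy (evV ψ c m lam θ₀) =
    evV ψ (fun n => vD (Yp ψ hψ) (c n)) m lam θ₀ := by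
  funext z i
  exact (evV_fderiv hψ c m lam θ₀ z _ i).trans (congrFun (evS_dy hψ _ m lam θ₀) z)

theorem ev_van {Ω : Set R2} (hΩ : IsOpen Ω) {G : Per R2} (h : ∀ z ∈ Ω, ∀ θ, G.1 (z, θ) = 0) :
    (∀ z ∈ Ω, ∀ θ, (Th G).1 (z, θ) = 0) ∧ (∀ z ∈ Ω, ∀ θ, (Xp ψ hψ G).1 (z, θ) = 0) ∧
      ∀ z ∈ Ω, ∀ θ, (Yp ψ hψ G).1 (z, θ) = 0 := by
  refine ⟨fun z hz θ => ?_, fun z hz θ => ?_, fun z hz θ => ?_⟩
  · rw [pd_congr _ (G := 0) hΩ h z hz, map_zero]; rfl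
  · rw [Xp_congr ψ hψ (G := 0) hΩ h z hz, map_zero]; rfl
  · rw [Yp_congr ψ hψ (G := 0) hΩ h z hz, map_zero]; rfl

end Aux

namespace LocData

variable {ι : Type} [Fintype ι] {L : LocData ι}

/-- Truncated series. -/
def Ser.Ul (S : L.Ser) (N : ℕ) (lam θ₀ : ℝ) (z : R2) : V4 :=
  ∑ n ∈ Finset.range (N + 1), (lam⁻¹ ^ (n + 1)) • vev (S.U n) (z, lam * z.1 + S.ψ z + θ₀)

def Ser.kl (S : L.Ser) (N : ℕ) (lam θ₀ : ℝ) (z : R2) : ℝ :=
  ∑ n ∈ Finset.range (N + 1), lam⁻¹ ^ (n + 1) * (S.k n).1 (z, lam * z.1 + S.ψ z + θ₀)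

/-- coefficients of `f + U` -/
def Ser.evC (S : L.Ser) : ℕ → Fin 4 → Per R2
  | 0 => vcst L.f L.f_sm
  | n + 1 => S.U n

/-- coefficients of `dx (f + U)` -/
def Ser.evP (S : L.Ser) (N n : ℕ) : Fin 4 → Per R2 :=
  if n ≤ N then PP (Xp S.ψ S.ψ_sm) Th L.fxP S.U n else vD (Xp S.ψ S.ψ_sm) (S.U N)

theorem Ser.Ul_eq (S : L.Ser) (N : ℕ) (lam θ₀ : ℝ) :
    S.Ul N lam θ₀ = lam⁻¹ • evV S.ψ S.U (N + 1) lam θ₀ := by
  funext z
  rw [Pi.smul_apply, evV_eq, Finset.smul_sum]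
  exact Finset.sum_congr rfl fun n _ => by rw [smul_smul, pow_succ']

theorem Ser.kl_eq (S : L.Ser) (N : ℕ) (lam θ₀ : ℝ) :
    S.kl N lam θ₀ = lam⁻¹ • evS S.ψ S.k (N + 1) lam θ₀ := by
  funext z
  rw [Pi.smul_apply, evS, smul_eq_mul, Finset.mul_sum]
  exact Finset.sum_congr rfl fun n _ => by rw [← mul_assoc, pow_succ']

theorem Ser.F_eq (S : L.Ser) (N : ℕ) (lam θ₀ : ℝ) :
    L.f + S.Ul N lam θ₀ = evV S.ψ S.evC (N + 2) lam θ₀ := by
  funext z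
  rw [evV_succ, S.Ul_eq]; rfl

theorem Ser.dx_eq (S : L.Ser) (N : ℕ) {lam : ℝ} (θ₀ : ℝ) (hl : lam ≠ 0) :
    dx (L.f + S.Ul N lam θ₀) = evV S.ψ (S.evP N) (N + 2) lam θ₀ := by
  funext z
  rw [S.F_eq, evV_dx S.ψ_sm, Pi.add_apply, Pi.smul_apply, evV_succ, smul_add, smul_inv_smul₀ hl,
    evC, Th_vcst, evV_eq, evV_eq, evV_eq, Finset.sum_range_succ _ (N + 1),
    Finset.sum_range_succ _ (N + 1), evP, if_neg N.not_succ_le_self, ← add_assoc]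
  congr 1
  change lam • (0 : V4) + _ + _ = _
  rw [smul_zero, zero_add, ← Finset.sum_add_distrib]
  refine Finset.sum_congr rfl fun n hn => ?_
  rw [evP, if_pos (Nat.lt_succ_iff.1 (Finset.mem_range.1 hn)), ← smul_add]
  congr 1
  cases n with
  | zero => rw [evC, evC, Xp_vcst, add_comm]; rfl
  | succ n => rfl

theorem Ser.dy_eq (S : L.Ser) (N : ℕ) (lam θ₀ : ℝ) :
    dy (L.f + S.Ul N lam θ₀) = evV S.ψ (QQ (Yp S.ψ S.ψ_sm) L.fyP S.U) (N + 2) lam θ₀ := by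
  rw [S.F_eq, evV_dy S.ψ_sm]
  congr 1
  funext n
  cases n with
  | zero => exact Yp_vcst _ _ _ L.f_sm
  | succ n => rfl

theorem Ser.eval (S : L.Ser) (N : ℕ) (hN : 1 ≤ N) : ∃ Cs : ℕ → ℝ, (∀ n, 0 ≤ Cs n) ∧
    ∀ lam θ₀ : ℝ, 1 ≤ lam →
      ContDiff ℝ ∞ (S.Ul N lam θ₀) ∧ ContDiff ℝ ∞ (S.kl N lam θ₀) ∧
      (∀ z, L.s z ≤ 0 → S.Ul N lam θ₀ z = 0 ∧ S.kl N lam θ₀ z = 0) ∧
      (∀ w z, ‖pdw w (S.Ul N lam θ₀) z‖ ≤ Cs w.length * lam ^ w.length ∧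
        |pdw w (S.kl N lam θ₀) z| ≤ Cs w.length * lam ^ w.length) ∧
      (∀ z, |S.kl N lam θ₀ z| ≤ Cs 0 / lam) ∧
      (∀ z, 0 ≤ L.s z →
        |dx (L.f + S.Ul N lam θ₀) z ⬝ᵥ dx (L.f + S.Ul N lam θ₀) z
          - (dx L.f z ⬝ᵥ dx L.f z + L.a z ^ 2 + S.kl N lam θ₀ z * L.H11 z)| ≤ Cs 0 / lam ^ N ∧
        |dx (L.f + S.Ul N lam θ₀) z ⬝ᵥ dy (L.f + S.Ul N lam θ₀) z
          - (dx L.f z ⬝ᵥ dy L.f z + S.kl N lam θ₀ z * L.H12 z)| ≤ Cs 0 / lam ^ N ∧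
        |dy (L.f + S.Ul N lam θ₀) z ⬝ᵥ dy (L.f + S.Ul N lam θ₀) z
          - (dy L.f z ⬝ᵥ dy L.f z + S.kl N lam θ₀ z * L.H22 z)| ≤ Cs 0 / lam ^ N) ∧
      ∀ z, 0 ≤ L.s z → (jet (L.f + S.Ul N lam θ₀) z).close
        (L.mjet S.ψ S.ψ_sm S.U lam (z, lam * z.1 + S.ψ z + θ₀)) (Cs 0 / lam) := by
  have hψ := S.ψ_sm
  have hΩ : IsOpen {z | L.s z < 0} := isOpen_lt L.s_sm.continuous continuous_const
  have hS0 : ∀ (c : ℕ → Per R2) (lam θ₀ : ℝ) z, (∀ n θ, (c n).1 (z, θ) = 0) →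
      evS S.ψ c (N + 1) lam θ₀ z = 0 := fun c lam θ₀ z h =>
    Finset.sum_eq_zero fun n _ => by rw [h, mul_zero]
  choose CU CU0 hCU using fun k => ev_gen
    (fun c : ℕ → Fin 4 → Per R2 => ∀ n i, ∀ z ∈ {z | L.s z < 0}, ∀ θ, (c n i).1 (z, θ) = 0)
    (fun c n => vD Th (c n)) (fun c n => vD (Xp S.ψ hψ) (c n)) (fun c n => vD (Yp S.ψ hψ) (c n))
    (fun c => evV S.ψ c (N + 1))
    (fun c h => ⟨fun n i => (ev_van hψ hΩ (h n i)).1, fun n i => (ev_van hψ hΩ (h n i)).2.1,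
      fun n i => (ev_van hψ hΩ (h n i)).2.2⟩)
    (fun c => evV_sm hψ c _) (fun c => evV_dx hψ c _) (fun c => evV_dy hψ c _)
    (fun c h => by
      obtain ⟨C, C0, hC⟩ := evV_bound S.ψ L.cpt c (N + 1)
      refine ⟨C, C0, fun lam θ₀ hl z => ?_⟩
      rcases le_or_gt 0 (L.s z) with hz | hz
      · exact hC lam θ₀ hl z hz
      · rw [show evV S.ψ c (N + 1) lam θ₀ z = 0 from
          funext fun i => hS0 _ lam θ₀ z fun n => h n i z hz, norm_zero]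
        exact C0) k S.U fun n i z hz θ => congrFun (S.van n z θ (le_of_lt hz)).1 i
  choose Ck Ck0 hCk using fun k => ev_gen
    (fun c : ℕ → Per R2 => ∀ n, ∀ z ∈ {z | L.s z < 0}, ∀ θ, (c n).1 (z, θ) = 0)
    (fun c n => Th (c n)) (fun c n => Xp S.ψ hψ (c n)) (fun c n => Yp S.ψ hψ (c n))
    (fun c => evS S.ψ c (N + 1))
    (fun c h => ⟨fun n => (ev_van hψ hΩ (h n)).1, fun n => (ev_van hψ hΩ (h n)).2.1,
      fun n => (ev_van hψ hΩ (h n)).2.2⟩)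
    (fun c => evS_sm hψ c _) (fun c => evS_dx hψ c _) (fun c => evS_dy hψ c _)
    (fun c h => by
      obtain ⟨C, C0, hC⟩ := evS_bound S.ψ L.cpt c (N + 1)
      refine ⟨C, C0, fun lam θ₀ hl z => ?_⟩
      rcases le_or_gt 0 (L.s z) with hz | hz
      · exact hC lam θ₀ hl z hz
      · rw [hS0 _ lam θ₀ z fun n => h n z hz, norm_zero]
        exact C0) k S.k fun n z hz θ => (S.van n z θ (le_of_lt hz)).2
  have hP : ∀ n ≤ N, S.evP N n = PP (Xp S.ψ S.ψ_sm) Th L.fxP S.U n := fun n hn => if_pos hn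
  obtain ⟨A₁, a1, m1⟩ := ev_metric S.ψ L.cpt hP hP S.eqs.e1
  obtain ⟨A₂, a2, m2⟩ := ev_metric S.ψ L.cpt hP (fun _ _ => rfl) S.eqs.e2
  obtain ⟨A₃, a3, m3⟩ := ev_metric S.ψ L.cpt (N := N) (fun _ _ => rfl) (fun _ _ => rfl) S.eqs.e3
  obtain ⟨B₁, b1, j1⟩ := evV_lead S.ψ L.cpt (S.evP N) (N + 1)
  obtain ⟨B₂, b2, j2⟩ := evV_lead S.ψ L.cpt (QQ (Yp S.ψ hψ) L.fyP S.U) (N + 1)
  obtain ⟨B₃, b3, j3⟩ := evV_lead S.ψ L.cpt (fun n => vD Th (S.evP N (n + 1))) N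
  obtain ⟨B₄, b4, j4⟩ := evV_lead S.ψ L.cpt (fun n => vD (Xp S.ψ hψ) (S.evP N n)) (N + 1)
  obtain ⟨B₅, b5, j5⟩ := evV_lead S.ψ L.cpt (fun n => vD (Yp S.ψ hψ) (S.evP N n)) (N + 1)
  obtain ⟨B₆, b6, j6⟩ := evV_lead S.ψ L.cpt
    (fun n => vD (Yp S.ψ hψ) (QQ (Yp S.ψ hψ) L.fyP S.U n)) (N + 1)
  refine ⟨fun n => CU n + Ck n + (A₁ + A₂ + A₃ + B₁ + B₂ + B₃ + B₄ + B₅ + B₆), fun n => by
    have := CU0 n; have := Ck0 n; positivity, fun lam θ₀ hl => ?_⟩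
  have l0 : 0 < lam := one_pos.trans_le hl
  have i0 : 0 ≤ lam⁻¹ := inv_nonneg.2 l0.le
  have i1 : lam⁻¹ ≤ 1 := inv_le_one_of_one_le₀ hl
  have u0 := CU0 0
  have k0 := Ck0 0
  have hU := evV_sm hψ S.U (N + 1) lam θ₀
  have hk := evS_sm hψ S.k (N + 1) lam θ₀
  have key : ∀ {E : Type} [NormedAddCommGroup E] [NormedSpace ℝ E] {v : R2 → E},
      ContDiff ℝ ∞ v → ∀ w z, ‖pdw w (lam⁻¹ • v) z‖ = lam⁻¹ * ‖pdw w v z‖ := by
    intro E _ _ v hv w z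
    have h1 := ev_pdw_lin w lam⁻¹ hv hv
    have h2 := ev_pdw_lin w 1 (hv.const_smul lam⁻¹) hv
    rw [one_smul, one_smul] at h2
    have h3 : pdw w (lam⁻¹ • v) = lam⁻¹ • pdw w v := add_right_cancel (h2.symm.trans h1)
    rw [h3, Pi.smul_apply, norm_smul, Real.norm_of_nonneg i0]
  have dv : ∀ {x C C' p : ℝ}, x ≤ C / p → C ≤ C' → 0 ≤ p → x ≤ C' / p := fun h1 h2 h3 =>
    h1.trans (div_le_div_of_nonneg_right h2 h3)
  refine ⟨S.Ul_eq N lam θ₀ ▸ hU.const_smul lam⁻¹, S.kl_eq N lam θ₀ ▸ hk.const_smul lam⁻¹,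
    fun z hz => ⟨Finset.sum_eq_zero fun n _ => by rw [(S.van n z _ hz).1, smul_zero],
      Finset.sum_eq_zero fun n _ => by rw [(S.van n z _ hz).2, mul_zero]⟩,
    fun w z => ⟨?_, ?_⟩, fun z => ?_, fun z hz => ?_, fun z hz => ?_⟩
  · rw [S.Ul_eq, key hU]
    refine (mul_le_of_le_one_left (norm_nonneg _) i1).trans ((hCU _ lam θ₀ hl w rfl z).trans
      (mul_le_mul_of_nonneg_right ?_ (by positivity)))
    have := Ck0 w.length
    linarith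
  · rw [S.kl_eq, ← Real.norm_eq_abs, key hk]
    refine (mul_le_of_le_one_left (norm_nonneg _) i1).trans ((hCk _ lam θ₀ hl w rfl z).trans
      (mul_le_mul_of_nonneg_right ?_ (by positivity)))
    have := CU0 w.length
    linarith
  · have := hCk 0 lam θ₀ hl [] rfl z
    rw [pow_zero, mul_one] at this
    rw [S.kl_eq, Pi.smul_apply, smul_eq_mul, abs_mul, abs_of_nonneg i0, div_eq_inv_mul]
    exact mul_le_mul_of_nonneg_left (this.trans (by linarith)) i0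
  · rw [S.dx_eq N θ₀ l0.ne', S.dy_eq, S.kl_eq]
    have e1 := m1 lam θ₀ hl z hz
    have e2 := m2 lam θ₀ hl z hz
    have e3 := m3 lam θ₀ hl z hz
    rw [dot_val] at e2 e3
    rw [Subalgebra.coe_add, Pi.add_apply, dot_val] at e1
    have p0 : 0 ≤ lam ^ N := by positivity
    exact ⟨dv e1 (by linarith) p0, dv e2 (by linarith) p0, dv e3 (by linarith) p0⟩
  · have hF : ContDiff ℝ ∞ (L.f + S.Ul N lam θ₀) := S.F_eq N lam θ₀ ▸ evV_sm hψ _ _ _ _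
    have e1 := j1 lam θ₀ hl z hz
    have e2 := j2 lam θ₀ hl z hz
    have e3 := j3 lam θ₀ hl z hz
    have e4 := j4 lam θ₀ hl z hz
    have e5 := j5 lam θ₀ hl z hz
    have e6 := j6 lam θ₀ hl z hz
    rw [hP 0 N.zero_le] at e1 e4 e5
    rw [hP (0 + 1) hN] at e3
    rw [QQ, fyP, Yp_vcst] at e6
    unfold jet
    rw [dx_dy_comm hF, S.dx_eq N θ₀ l0.ne', S.dy_eq, evV_dx hψ, evV_dy hψ, evV_dy hψ]
    refine ⟨dv e1 (by linarith) l0.le, dv e2 (by linarith) l0.le, ?_, dv e5 (by linarith) l0.le,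
      dv e6 (by linarith) l0.le⟩
    refine dv (C := B₃ + B₄) (le_trans (le_of_eq (congrArg _ ?_))
      ((norm_add_le _ _).trans ((add_le_add e3 e4).trans (add_div _ _ _).ge))) (by linarith) l0.le
    change lam • evV S.ψ _ (N + 1 + 1) lam θ₀ z + _ - (lam • vev (vD Th (PP _ _ _ _ 0)) _ +
      (vev (vD _ (PP _ _ _ _ 0)) _ + vev (vD _ (PP _ _ _ _ 1)) _)) = _
    rw [evV_succ, smul_add, smul_inv_smul₀ l0.ne', hP 0 N.zero_le]
    abel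

end LocData

end Crest.Agent.R216
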