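import Crest.Agent.R216.Defs

/-!
# R216: formal corrugation series: abstract setting
-/

set_option autoImplicit false
set_option linter.unusedSectionVars false

open scoped Manifold ContDiff Topology
open Matrix

noncomputable section

namespace Crest.Agent.R216

section

variable {R : Type} [CommRing R] [Algebra ℝ R]

/-- A derivation applied to a vector. -/
def vD (D : Derivation ℝ R R) (V : Fin 4 → R) : Fin 4 → R := fun i => D (V i)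

/-- Coefficients of `∂ₓ F` for `F = f + ∑ ε^(n+1) U n`, `∂ₓ = ε⁻¹ Θ + X`. -/
def PP (X Θ : Derivation ℝ R R) (fx : Fin 4 → R) (U : ℕ → Fin 4 → R) : ℕ → Fin 4 → R
  | 0 => fx + vD Θ (U 0)
  | n + 1 => vD Θ (U (n + 1)) + vD X (U n)

/-- Coefficients of `∂_y F`. -/
def QQ (Y : Derivation ℝ R R) (b : Fin 4 → R) (U : ℕ → Fin 4 → R) : ℕ → Fin 4 → R
  | 0 => b
  | n + 1 => vD Y (U n)

/-- Coefficient of `ε^n` in a product. -/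
def conv (P Q : ℕ → Fin 4 → R) (n : ℕ) : R := ∑ i ∈ Finset.range (n + 1), P i ⬝ᵥ Q (n - i)

/-- Right-hand sides `g + ε k H`. -/
def rhs (g : R) (k : ℕ → R) (H : R) : ℕ → R
  | 0 => g
  | n + 1 => k n * H

/-- The formal metric equations `F^* e = f^* e + a² dx² + ε k H` to all orders. -/
structure Eqs (X Y Θ : Derivation ℝ R R) (fx b : Fin 4 → R) (a H11 H12 H22 : R)
    (U : ℕ → Fin 4 → R) (k : ℕ → R) : Prop where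
  e1 : ∀ n, conv (PP X Θ fx U) (PP X Θ fx U) n = rhs (fx ⬝ᵥ fx + a ^ 2) k H11 n
  e2 : ∀ n, conv (PP X Θ fx U) (QQ Y b U) n = rhs (fx ⬝ᵥ b) k H12 n
  e3 : ∀ n, conv (QQ Y b U) (QQ Y b U) n = rhs (b ⬝ᵥ b) k H22 n

/-- Abstract differential algebra with mean, primitive and the flat ideals `W2 ≤ W1`. -/
structure DAlg (R : Type) [CommRing R] [Algebra ℝ R] where
  X : Derivation ℝ R R
  Y : Derivation ℝ R R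
  Θ : Derivation ℝ R R
  mean : R →ₗ[ℝ] R
  prim : R →ₗ[ℝ] R
  W1 : Ideal R
  W2 : Ideal R
  a : R
  XΘ : ∀ u, X (Θ u) = Θ (X u)
  YΘ : ∀ u, Y (Θ u) = Θ (Y u)
  Θ_mean : ∀ u, Θ (mean u) = 0
  mean_mul : ∀ k u, Θ k = 0 → mean (k * u) = k * mean u
  mean_one : mean 1 = 1
  mean_Θ : ∀ u, mean (Θ u) = 0
  Θ_prim : ∀ u, Θ (prim u) = u - mean u
  mean_prim : ∀ u, mean (prim u) = 0
  mean_X : ∀ u, mean (X u) = X (mean u)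
  mean_Y : ∀ u, mean (Y u) = Y (mean u)
  le : W2 ≤ W1
  mul_mem : ∀ u ∈ W1, ∀ v ∈ W1, u * v ∈ W2
  X1 : ∀ u ∈ W1, X u ∈ W1
  Y1 : ∀ u ∈ W1, Y u ∈ W1
  Θ1 : ∀ u ∈ W1, Θ u ∈ W1
  mean1 : ∀ u ∈ W1, mean u ∈ W1
  prim1 : ∀ u ∈ W1, prim u ∈ W1
  X2 : ∀ u ∈ W2, X u ∈ W2
  Y2 : ∀ u ∈ W2, Y u ∈ W2
  mean2 : ∀ u ∈ W2, mean u ∈ W2
  a_mem : a ∈ W1
  Θ_a : Θ a = 0
  div : ∀ w ∈ W2, ∃ w' ∈ W1, Θ w' = 0 ∧ mean w = a * w'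

/-- Frame, loop and kernel element. -/
structure FData (D : DAlg R) where
  fx : Fin 4 → R
  b : Fin 4 → R
  E1 : Fin 4 → R
  E2 : Fin 4 → R
  ν : Fin 4 → R
  H11 : R
  H12 : R
  H22 : R
  p0 : R
  β1 : R
  β' : R
  γ : R
  c' : R
  cb : R
  r : R
  ib : R
  ic : R
  ir : R
  ip : R
  u1 : R
  u2 : R
  nh : R
  in2 : R
  V1 : R
  V2 : R
  K1 : R
  K2 : R
  iΩ : R
  Θ_fx : vD D.Θ fx = 0
  Θ_b : vD D.Θ b = 0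
  Θ_E1 : vD D.Θ E1 = 0
  Θ_E2 : vD D.Θ E2 = 0
  Θ_ν : vD D.Θ ν = 0
  Θ_H11 : D.Θ H11 = 0
  Θ_H12 : D.Θ H12 = 0
  Θ_H22 : D.Θ H22 = 0
  Θ_p0 : D.Θ p0 = 0
  Θ_β1 : D.Θ β1 = 0
  Θ_β' : D.Θ β' = 0
  Θ_γ : D.Θ γ = 0
  Θ_c' : D.Θ c' = 0
  Θ_cb : D.Θ cb = 0
  Θ_r : D.Θ r = 0
  Θ_ib : D.Θ ib = 0
  Θ_ic : D.Θ ic = 0
  Θ_ir : D.Θ ir = 0
  Θ_ip : D.Θ ip = 0
  Θ_in2 : D.Θ in2 = 0
  Θ_iΩ : D.Θ iΩ = 0
  E11 : E1 ⬝ᵥ E1 = 1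
  E22 : E2 ⬝ᵥ E2 = 1
  νν : ν ⬝ᵥ ν = 1
  E12 : E1 ⬝ᵥ E2 = 0
  E1ν : E1 ⬝ᵥ ν = 0
  E2ν : E2 ⬝ᵥ ν = 0
  E1b : E1 ⬝ᵥ b = 0
  E2b : E2 ⬝ᵥ b = 0
  νb : ν ⬝ᵥ b = 0
  ib_mul : ib * (b ⬝ᵥ b) = 1
  ic_mul : ic * c' = 1
  ir_mul : ir * r = 1
  ip_mul : ip * p0 = 1
  fx_eq : fx = p0 • E1 + β1 • ν + β' • b
  c_eq : vD D.Y b = cb • b + (γ * H22) • E2 + c' • ν
  r_sq : r ^ 2 = p0 ^ 2 + D.a ^ 2
  u_sq : u1 ^ 2 + u2 ^ 2 = 1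
  u1_mem : u1 - 1 ∈ D.W1
  u2_eq : u2 = D.a * nh
  mean_u1 : r * D.mean u1 = p0
  mean_nh : D.mean nh = 0
  mean_nh_u1 : D.mean (nh * u1) = 0
  in2_mul : in2 * D.mean (nh ^ 2) = 1
  Θ_V1 : D.a * D.Θ V1 = r * u1 - p0
  Θ_V2 : D.Θ V2 = r * nh
  mean_V1 : D.mean V1 = 0
  mean_V2 : D.mean V2 = 0
  phase : D.mean (vD D.Θ (V1 • E1 + V2 • E2) ⬝ᵥ vD D.Y (V1 • E1 + V2 • E2)) = 0
  mean_K1 : D.mean K1 = 0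
  mean_K2 : D.mean K2 = 0
  K_ker : u1 * D.Θ K1 + u2 * D.Θ K2 = 0
  K_orth : D.mean (D.Θ V1 * K1 + D.Θ V2 * K2) = 0
  iΩ_mul : iΩ * D.mean (vD D.Θ (K1 • E1 + K2 • E2) ⬝ᵥ vD D.Y (V1 • E1 + V2 • E2)) = 1

end

end Crest.Agent.R216
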