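import Crest.Agent.R216.LocDefs

/-!
# R216: flat elements
-/

set_option autoImplicit false
set_option linter.unusedSectionVars false

open scoped Manifold ContDiff Topology
open Matrix

noncomputable section

namespace Crest.Agent.R216

open Real Per

namespace LocData

variable {ι : Type} [Fintype ι] {L : LocData ι}

theorem Flat.van {m : ℕ} (hm : 1 ≤ m) {F : Per R2} (h : L.Flat m F) {z : R2} (hz : L.s z ≤ 0)
    (θ : ℝ) : F.1 (z, θ) = 0 := by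
  obtain ⟨n, G, e⟩ := h
  rw [e, expNegInvGlue.zero_of_nonpos hz, zero_pow (by omega), zero_mul, zero_mul]

theorem flat_zero (m : ℕ) : L.Flat m 0 := ⟨0, 0, fun _ => (mul_zero _).symm⟩

theorem Flat.mul_left {m : ℕ} {F : Per R2} (h : L.Flat m F) (G : Per R2) : L.Flat m (G * F) := by
  obtain ⟨n, G', e⟩ := h
  refine ⟨n, G * G', fun q => ?_⟩
  show G.1 q * F.1 q = _ * (G.1 q * G'.1 q)
  rw [e]
  ring

/-- Raise `n`: `ψ^m s^{-n} G = ψ^m s^{-(n+n')} (s^{n'} G)` (both sides vanish at `s = 0`). -/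
theorem Flat.add {m : ℕ} (hm : 1 ≤ m) {F G : Per R2} (h : L.Flat m F) (h' : L.Flat m G) :
    L.Flat m (F + G) := by
  obtain ⟨n, F', e⟩ := h
  obtain ⟨n', G', e'⟩ := h'
  refine ⟨n + n', cst L.s L.s_sm ^ n' * F' + cst L.s L.s_sm ^ n * G', fun q => ?_⟩
  show F.1 q + G.1 q = _ * (L.s q.1 ^ n' * F'.1 q + L.s q.1 ^ n * G'.1 q)
  rw [e, e']
  by_cases hs : L.s q.1 = 0
  · rw [expNegInvGlue.zero_of_nonpos hs.le, zero_pow (by omega)]
    ring
  · simp only [inv_pow]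
    field_simp
    ring

theorem Flat.mul {m m' : ℕ} {F G : Per R2} (h : L.Flat m F) (h' : L.Flat m' G) :
    L.Flat (m + m') (F * G) := by
  obtain ⟨n, F', e⟩ := h
  obtain ⟨n', G', e'⟩ := h'
  refine ⟨n + n', F' * G', fun q => ?_⟩
  show F.1 q * G.1 q = _ * (F'.1 q * G'.1 q)
  rw [e, e']
  ring

theorem Flat.mono {F : Per R2} (h : L.Flat 2 F) : L.Flat 1 F := by
  obtain ⟨n, G, e⟩ := h
  refine ⟨n, cst (fun z => expNegInvGlue (L.s z)) (expNegInvGlue.contDiff.comp L.s_sm) * G,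
    fun q => ?_⟩
  show F.1 q = _ * (expNegInvGlue (L.s q.1) * G.1 q)
  rw [e]
  ring

/-- `t ↦ expNegInvGlue t ^ m * t⁻¹ ^ n` (`m ≥ 1`) is smooth with derivative
`expNegInvGlue t ^ m * t⁻¹ ^ (n + 2) * (m - n t)`
(`expNegInvGlue.hasDerivAt_polynomial_eval_inv_mul`, `contDiff_polynomial_eval_inv_mul`). -/
theorem flat_fun (m n : ℕ) (hm : 1 ≤ m) :
    ContDiff ℝ ∞ (fun t : ℝ => expNegInvGlue t ^ m * t⁻¹ ^ n) ∧
      ∀ t : ℝ, HasDerivAt (fun t : ℝ => expNegInvGlue t ^ m * t⁻¹ ^ n)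
        (expNegInvGlue t ^ m * t⁻¹ ^ (n + 2) * (m - n * t)) t := by
  have h1 : ContDiff ℝ ∞ fun t : ℝ => t⁻¹ ^ n * expNegInvGlue t := by
    simpa using expNegInvGlue.contDiff_polynomial_eval_inv_mul (n := ⊤) (Polynomial.X ^ n)
  have h0 : ∀ t : ℝ, HasDerivAt expNegInvGlue (t⁻¹ ^ 2 * expNegInvGlue t) t := fun t => by
    simpa using expNegInvGlue.hasDerivAt_polynomial_eval_inv_mul 1 t
  have h2 : ∀ t : ℝ, HasDerivAt (fun t : ℝ => t⁻¹ ^ n * expNegInvGlue t)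
      (t⁻¹ ^ (n + 2) * (1 - n * t) * expNegInvGlue t) t := fun t => by
    have := expNegInvGlue.hasDerivAt_polynomial_eval_inv_mul (Polynomial.X ^ n) t
    simp only [Polynomial.eval_pow, Polynomial.eval_X, Polynomial.eval_mul, Polynomial.eval_sub,
      Polynomial.derivative_X_pow, Polynomial.eval_C] at this
    refine this.congr_deriv ?_
    congr 1
    rcases eq_or_ne t 0 with rfl | ht
    · simp
    · rcases n with _ | n
      · simp
      · simp only [Nat.add_sub_cancel, inv_pow]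
        field_simp
        ring
  induction m, hm using Nat.le_induction with
  | base =>
    simp only [pow_one, Nat.cast_one, mul_comm (expNegInvGlue _)]
    exact ⟨h1, fun t => (h2 t).congr_deriv (by ring)⟩
  | succ m _ ih =>
    have e : (fun t : ℝ => expNegInvGlue t ^ (m + 1) * t⁻¹ ^ n) =
        fun t => expNegInvGlue t * (expNegInvGlue t ^ m * t⁻¹ ^ n) := by
      funext t
      ring
    rw [e]
    refine ⟨expNegInvGlue.contDiff.mul ih.1, fun t => ((h0 t).fun_mul (ih.2 t)).congr_deriv ?_⟩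
    push_cast
    ring

/-- The function `ψ(s)^m s^{-n}`. -/
def flt (L : LocData ι) (m n : ℕ) (hm : 1 ≤ m) : Per R2 :=
  cst (fun z => expNegInvGlue (L.s z) ^ m * (L.s z)⁻¹ ^ n) ((flat_fun m n hm).1.comp L.s_sm)

theorem flt_flat {m : ℕ} (hm : 1 ≤ m) (n : ℕ) (G : Per R2) : L.Flat m (L.flt m n hm * G) :=
  ⟨n, G, fun _ => rfl⟩

theorem Flat.flt {m : ℕ} (hm : 1 ≤ m) {F : Per R2} (h : L.Flat m F) :
    ∃ n G, F = L.flt m n hm * G := by
  obtain ⟨n, G, e⟩ := h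
  exact ⟨n, G, Subtype.ext (funext e)⟩

theorem flt_Th {m : ℕ} (hm : 1 ≤ m) (n : ℕ) : Th (L.flt m n hm) = 0 := Th_cst _ _

theorem flt_pd {m : ℕ} (hm : 1 ≤ m) (n : ℕ) (v : R2 × ℝ) : L.Flat m (pd v (L.flt m n hm)) := by
  obtain ⟨v, t⟩ := v
  have hs := L.s_sm
  have hd : ContDiff ℝ ∞ fun z => fderiv ℝ L.s z v :=
    (hs.fderiv_right (m := ∞) (by simp)).clm_apply contDiff_const
  refine ⟨n + 2, cst (fun z => ((m : ℝ) - n * L.s z) * fderiv ℝ L.s z v)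
    ((contDiff_const.sub (contDiff_const.mul hs)).mul hd), fun q => ?_⟩
  have h1 := ((flat_fun m n hm).2 (L.s q.1)).comp_hasFDerivAt q.1
    (hs.differentiable (by simp) q.1).hasFDerivAt
  rw [LocData.flt, pd_cst]
  refine (congrArg (fun T : R2 →L[ℝ] ℝ => T v) h1.fderiv).trans ?_
  simp only [_root_.smul_apply, smul_eq_mul, cst_val]
  ring

theorem Flat.pd {m : ℕ} (hm : 1 ≤ m) {F : Per R2} (h : L.Flat m F) (v : R2 × ℝ) :
    L.Flat m (pd v F) := by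
  obtain ⟨n, G, rfl⟩ := h.flt hm
  rw [Derivation.leibniz]
  exact (flt_flat hm n _).add hm ((flt_pd hm n v).mul_left G)

theorem Flat.Xp {m : ℕ} (hm : 1 ≤ m) {F : Per R2} (h : L.Flat m F) (ψ : R2 → ℝ)
    (hψ : ContDiff ℝ ∞ ψ) : L.Flat m (Xp ψ hψ F) :=   (h.pd hm _).add hm ((h.pd hm _).mul_left _)

theorem Flat.Yp {m : ℕ} (hm : 1 ≤ m) {F : Per R2} (h : L.Flat m F) (ψ : R2 → ℝ)
    (hψ : ContDiff ℝ ∞ ψ) : L.Flat m (Yp ψ hψ F) :=   (h.pd hm _).add hm ((h.pd hm _).mul_left _)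

/-- `F = cst (ψ^m s^{-n}) * G`, `mean_mul`, `prim_mul`. -/
theorem Flat.mean {m : ℕ} (hm : 1 ≤ m) {F : Per R2} (h : L.Flat m F) : L.Flat m (mean F) := by
  obtain ⟨n, G, rfl⟩ := h.flt hm
  rw [mean_mul (flt_Th hm n)]
  exact flt_flat hm n _

theorem Flat.prim {m : ℕ} (hm : 1 ≤ m) {F : Per R2} (h : L.Flat m F) : L.Flat m (prim F) := by
  obtain ⟨n, G, rfl⟩ := h.flt hm
  rw [prim_mul (flt_Th hm n)]
  exact flt_flat hm n _

theorem flat_aP : L.Flat 1 L.aP := by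
  refine ⟨0, cst L.c0 L.c0_sm, fun q => ?_⟩
  show expNegInvGlue (L.s q.1) * L.c0 q.1 = _ * L.c0 q.1
  ring

/-- `mean F = ψ² s^{-n} mean G = a * (ψ s^{-n} * mean G * c0⁻¹)` on the disk, with the inverse of
`c0` from `exists_inv_on`; off the disk both sides vanish. -/
theorem Flat.div {F : Per R2} (h : L.Flat 2 F) :
    ∃ G : Per R2, L.Flat 1 G ∧ Th G = 0 ∧ Per.mean F = L.aP * G := by
  obtain ⟨n, G, rfl⟩ := h.flt one_le_two
  obtain ⟨ic, h1, h2⟩ := exists_inv_on L.cpt (cst L.c0 L.c0_sm) fun z hz _ => (L.c0_pos z hz).ne'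
  refine ⟨L.flt 1 n le_rfl * (Per.mean G * ic), flt_flat le_rfl n _, ?_, ?_⟩
  · simp only [Derivation.leibniz, flt_Th, Th_mean, h2 (Th_cst _ _), smul_zero, add_zero]
  · rw [mean_mul (flt_Th one_le_two n)]
    ext z θ
    show expNegInvGlue (L.s z) ^ 2 * (L.s z)⁻¹ ^ n * (Per.mean G).1 (z, θ) =
      expNegInvGlue (L.s z) * L.c0 z * (expNegInvGlue (L.s z) ^ 1 * (L.s z)⁻¹ ^ n *
        ((Per.mean G).1 (z, θ) * ic.1 (z, θ)))
    rcases le_total 0 (L.s z) with hz | hz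
    · have h3 : ic.1 (z, θ) * L.c0 z = 1 := h1 z hz θ
      linear_combination (-(expNegInvGlue (L.s z) ^ 2 * (L.s z)⁻¹ ^ n * (Per.mean G).1 (z, θ))) * h3
    · rw [expNegInvGlue.zero_of_nonpos hz]
      ring

/-- The ideal of flat elements. -/
def flatIdeal (L : LocData ι) (m : ℕ) (hm : 1 ≤ m) : Ideal (Per R2) where
  carrier := {F | L.Flat m F}
  zero_mem' := flat_zero m
  add_mem' := fun h h' => Flat.add hm h h'
  smul_mem' := fun G _ h => Flat.mul_left h G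

end LocData

/-! ### The derivations `Xp`, `Yp` -/

section

open Per

variable (ψ : R2 → ℝ) (hψ : ContDiff ℝ ∞ ψ)

theorem Xp_apply (F : Per R2) :
    Xp ψ hψ F = pd ((1, 0), 0) F + cst (dx ψ) (dx_sm hψ) * Th F := rfl
theorem Yp_apply (F : Per R2) :
    Yp ψ hψ F = pd ((0, 1), 0) F + cst (dy ψ) (dy_sm hψ) * Th F := rfl
theorem Xp_Th (F : Per R2) : Xp ψ hψ (Th F) = Th (Xp ψ hψ F) := by
  simp only [Xp_apply, map_add, Derivation.leibniz, Th_cst, mul_zero, add_zero, smul_eq_mul]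
  rw [pd_comm]
theorem Yp_Th (F : Per R2) : Yp ψ hψ (Th F) = Th (Yp ψ hψ F) := by
  simp only [Yp_apply, map_add, Derivation.leibniz, Th_cst, mul_zero, add_zero, smul_eq_mul]
  rw [pd_comm]
theorem dx_dy_comm {E : Type} [NormedAddCommGroup E] [NormedSpace ℝ E] {v : R2 → E}
    (hv : ContDiff ℝ ∞ v) : dx (dy v) = dy (dx v) := by
  funext q
  have hd : DifferentiableAt ℝ (fderiv ℝ v) q :=
    (hv.fderiv_right (m := ∞) (by simp)).differentiable (by simp) q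
  have e : ∀ u u' : R2, fderiv ℝ (fun q => fderiv ℝ v q u') q u = fderiv ℝ (fderiv ℝ v) q u u' := by
    intro u u'
    rw [fderiv_clm_apply hd (differentiableAt_const _)]
    simp
  change fderiv ℝ (fun q => fderiv ℝ v q (0, 1)) q (1, 0) =
    fderiv ℝ (fun q => fderiv ℝ v q (1, 0)) q (0, 1)
  rw [e, e]
  exact (hv.contDiffAt.isSymmSndFDerivAt (by simp; exact WithTop.coe_le_coe.2 le_top)).eq _ _
theorem Xp_cst (u : R2 → ℝ) (hu : ContDiff ℝ ∞ u) :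
    Xp ψ hψ (cst u hu) = cst (dx u) (dx_sm hu) := by
  rw [Xp_apply, Th_cst, mul_zero, add_zero]
  exact Subtype.ext (funext fun q => pd_cst _ _ u hu q)
theorem Yp_cst (u : R2 → ℝ) (hu : ContDiff ℝ ∞ u) :
    Yp ψ hψ (cst u hu) = cst (dy u) (dy_sm hu) := by
  rw [Yp_apply, Th_cst, mul_zero, add_zero]
  exact Subtype.ext (funext fun q => pd_cst _ _ u hu q)

theorem flat_fd_apply {u : R2 → V4} (hu : ContDiff ℝ ∞ u) (i : Fin 4) (z v : R2) :
    fderiv ℝ (fun z => u z i) z v = fderiv ℝ u z v i := by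
  rw [fderiv_apply (hu.differentiable (by simp) z) i]
  rfl
theorem Xp_vcst (u : R2 → V4) (hu : ContDiff ℝ ∞ u) :
    vD (Xp ψ hψ) (vcst u hu) = vcst (dx u) (dx_sm hu) := by
  funext i
  exact (Xp_cst ψ hψ _ _).trans (Subtype.ext (funext fun q => flat_fd_apply hu i q.1 _))
theorem Yp_vcst (u : R2 → V4) (hu : ContDiff ℝ ∞ u) :
    vD (Yp ψ hψ) (vcst u hu) = vcst (dy u) (dy_sm hu) := by
  funext i
  exact (Yp_cst ψ hψ _ _).trans (Subtype.ext (funext fun q => flat_fd_apply hu i q.1 _))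
theorem Th_vcst (u : R2 → V4) (hu : ContDiff ℝ ∞ u) : vD Th (vcst u hu) = 0 :=   funext fun _ => Th_cst _ _
theorem Xp_Yp (F : Per R2) : Xp ψ hψ (Yp ψ hψ F) = Yp ψ hψ (Xp ψ hψ F) := by
  have e : Xp ψ hψ (cst (dy ψ) (dy_sm hψ)) = Yp ψ hψ (cst (dx ψ) (dx_sm hψ)) := by
    rw [Xp_cst, Yp_cst]
    exact Subtype.ext (funext fun q => congrFun (dx_dy_comm hψ) q.1)
  rw [Yp_apply ψ hψ F, Xp_apply ψ hψ F, map_add, map_add, Derivation.leibniz, Derivation.leibniz, e,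
    Xp_apply ψ hψ (pd _ F), Yp_apply ψ hψ (pd _ F), Xp_apply ψ hψ (Th F), Yp_apply ψ hψ (Th F),
    pd_comm ((1, 0), 0) ((0, 1), 0) F, pd_comm ((1, 0), 0) (0, 1) F, pd_comm ((0, 1), 0) (0, 1) F]
  simp only [smul_eq_mul]
  ring
theorem mean_Xp (F : Per R2) : mean (Xp ψ hψ F) = Xp ψ hψ (mean F) := by
  rw [Xp_apply, Xp_apply, map_add, mean_pd, mean_mul (Th_cst _ _), mean_Th, Th_mean]
theorem mean_Yp (F : Per R2) : mean (Yp ψ hψ F) = Yp ψ hψ (mean F) := by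
  rw [Yp_apply, Yp_apply, map_add, mean_pd, mean_mul (Th_cst _ _), mean_Th, Th_mean]
theorem Xp_congr {F G : Per R2} {Ω : Set R2} (hΩ : IsOpen Ω)
    (h : ∀ z ∈ Ω, ∀ θ, F.1 (z, θ) = G.1 (z, θ)) :
    ∀ z ∈ Ω, ∀ θ, (Xp ψ hψ F).1 (z, θ) = (Xp ψ hψ G).1 (z, θ) := by
  intro z hz θ
  show (pd ((1, 0), 0) F).1 (z, θ) + dx ψ z * (Th F).1 (z, θ) =
    (pd ((1, 0), 0) G).1 (z, θ) + dx ψ z * (Th G).1 (z, θ)
  rw [pd_congr _ hΩ h z hz θ, pd_congr (0, 1) hΩ h z hz θ]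
theorem Yp_congr {F G : Per R2} {Ω : Set R2} (hΩ : IsOpen Ω)
    (h : ∀ z ∈ Ω, ∀ θ, F.1 (z, θ) = G.1 (z, θ)) :
    ∀ z ∈ Ω, ∀ θ, (Yp ψ hψ F).1 (z, θ) = (Yp ψ hψ G).1 (z, θ) := by
  intro z hz θ
  show (pd ((0, 1), 0) F).1 (z, θ) + dy ψ z * (Th F).1 (z, θ) =
    (pd ((0, 1), 0) G).1 (z, θ) + dy ψ z * (Th G).1 (z, θ)
  rw [pd_congr _ hΩ h z hz θ, pd_congr (0, 1) hΩ h z hz θ]

end

end Crest.Agent.R216
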