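import Crest.Agent.R216.FDefs

/-!
# R216: formal corrugation series: existence

Notation: `T = PP 0 = fx + Θ U₀ = r (u1 E1 + u2 E2) + β1 ν + β' b`, `V̂ = V1 E1 + V2 E2`, `U₀ = a V̂`, `K = K1 E1 + K2 E2`.

STATE at stage `n` (a pair of sequences `U, k`, only the indices `≤ n` matter; or lists/`Function.update`): `U 0 = U₀`; `U m i ∈ W1`,
`mean (U m i) ∈ W2`, `k m ∈ W1`, `mean (k m) ∈ W2` for `m ≤ n`; `e1 m`, `e2 m` for `m ≤ n`; `e3 m` for `m ≤ n + 1`; and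
`(M)`: `mean (R2 n) = 0`, where `R2 n = k n * H12 - X (U n) ⬝ b - ∑_{i+j = n+1, j ≥ 1} PP i ⬝ QQ j` (so `e2 (n+1)` reads `Θ U_{n+1} ⬝ b = R2 n`).
It is convenient to prove first a STEP lemma about abstract right-hand sides:

SOLVE: for `ρ₁ ρ₂ ρ₃ e ∈ W1` with `mean ρ₁ ∈ W2`, `mean ρ₂ = 0`, `mean ρ₃ ∈ W2`, `mean e ∈ W2` there are `Z : Fin 4 → R`, `κ`, in `W1` with means in `W2`, such that
`2 T ⬝ Θ Z = ρ₁`, `Θ Z ⬝ b = ρ₂`, `2 b ⬝ Y Z + ρ₃ = κ H22`, `κ = -2 γ (E2 ⬝ Z) + e`. Construction: `v = prim ρ₂`;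
`σ = ic (2 Y v - 2 cb v + ρ₃ - e H22)/2`; `ρ = ir (ρ₁ - 2 β1 Θ σ - 2 β' Θ v)/2` (`mean ρ ∈ W2`); `mean (ρ u1) = mean (ρ + ρ (u1 - 1)) = a w'` by `div`
(note `mean (mean w) = mean w`); `B = in2 w'`, `A = - r ip mean (ρ u2)`, `τ = A + B nh`; `Z1 = prim (ρ u1 - τ u2)`, `Z2 = prim (ρ u2 + τ u1)` (both integrands have zero mean);
`Z = ib v b + σ ν + Z1 E1 + Z2 E2`; use `b ⬝ Y Z = Y (b ⬝ Z) - Y b ⬝ Z`.
KERNEL: for `μ ∈ W1`, `Θ μ = 0`, `(Z + μ K, κ - 2 γ μ K2)` has the same properties (`b ⬝ Y (μ K) = - γ H22 μ K2`).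
STEP `n → n+1`: `ρ₁ = k n H11 - 2 T ⬝ X (U n) - ∑_{i+j=n+1, i,j ≥ 1} PP i ⬝ PP j` where `PP (n+1)` does not occur in the sum (`mean (T ⬝ X U n) = fx ⬝ X (mean U n) + mean (ΘU₀ ⬝ X U n) ∈ W2`),
`ρ₂ = R2 n`, `ρ₃ = ∑_{i+j=n+2, i,j ≥ 1} QQ i ⬝ QQ j` (`QQ (n+2)` does not occur), `e` for `n = 0`, `0` later. `R2 (n+1)` computed with `(Z, κ)` lies in `W1` with mean in `W2`;
replacing `Z` by `Z + μ K` changes its mean by `- mean (ΘU₀ ⬝ Y (μ K) + μ Θ K ⬝ Y U₀) = - 2 μ a Ω`, `Ω = mean (Θ K ⬝ Y V̂)`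
(`mean (ΘU₀ ⬝ Y(μK)) = Y (mean (ΘU₀ ⬝ μ K)) - mean (Θ Y U₀ ⬝ μ K) = μ mean (Y U₀ ⬝ Θ K)`, `mean (V̂ ⬝ Θ K) = - mean (Θ V̂ ⬝ K) = 0`; the linear terms have zero mean because `mean K = 0`).
Take `μ = iΩ w'/2` with `mean (R2) = a w'`.
BASE: `e1 0`, `e2 0`, `e3 0`, `e3 1` with `k 0 = -2 γ E2 ⬝ U₀`; `(M)`: `mean (ΘU₀ ⬝ Y U₀) = a² mean (ΘV̂ ⬝ Y V̂) + a (Y a) mean (ΘV̂ ⬝ V̂) = 0`.
Finally pass to the limit (dependent recursion: `U n` is fixed from stage `n` on).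
-/

set_option autoImplicit false
set_option linter.unusedSectionVars false

open scoped Manifold ContDiff Topology
open Matrix

noncomputable section

namespace Crest.Agent.R216

variable {R : Type} [CommRing R] [Algebra ℝ R]

/-! ### Dependent recursion -/

theorem formal_rec {S : Type} (s0 : S) (C : ℕ → (ℕ → S) → Prop)
    (hc : ∀ m f g, (∀ i ≤ m, f i = g i) → C m f → C m g)
    (hs : ∀ n f, (∀ m < n, C m f) → ∃ s, C n (Function.update f n s)) :
    ∃ f, ∀ n, C n f := by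
  classical
  let g : ℕ → ℕ → S := fun n => Nat.rec (fun _ => s0) (fun n f =>
    if h : ∀ m < n, C m f then Function.update f n (hs n f h).choose else f) n
  have hg : ∀ n, g (n + 1) = if h : ∀ m < n, C m (g n) then
      Function.update (g n) n (hs n (g n) h).choose else g n := fun n => rfl
  have h1 : ∀ n, ∀ m < n, C m (g n) := by
    intro n
    induction n with
    | zero => intro m hm; omega
    | succ n ih =>
      intro m hm
      rw [hg, dif_pos ih]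
      rcases Nat.lt_succ_iff_lt_or_eq.1 hm with h | rfl
      · exact hc m (g n) _ (fun i hi => (Function.update_of_ne (by omega) _ _).symm) (ih m h)
      · exact (hs m (g m) ih).choose_spec
  have h2 : ∀ i n, i < n → g n i = g (i + 1) i := by
    intro i n hn
    induction n, hn using Nat.le_induction with
    | base => rfl
    | succ n hn ih =>
      have hne : i ≠ n := by omega
      rw [hg, dif_pos (h1 n), Function.update_of_ne hne, ih]
  exact ⟨fun i => g (i + 1) i, fun n => hc n (g (n + 1)) _ (fun i hi => h2 i (n + 1) (by omega))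
    (h1 (n + 1) n (by omega))⟩

/-! ### Vector calculus -/

section vec
variable (δ : Derivation ℝ R R) (P Q : Fin 4 → R) (c : R)

theorem formal_vD_add : vD δ (P + Q) = vD δ P + vD δ Q := by
  funext i; simp [vD]

theorem formal_vD_smul : vD δ (c • P) = c • vD δ P + δ c • P := by
  funext i; simp [vD, Derivation.leibniz]; ring

theorem formal_vD_dot : δ (P ⬝ᵥ Q) = vD δ P ⬝ᵥ Q + P ⬝ᵥ vD δ Q := by
  simp only [dotProduct, map_sum, vD, Derivation.leibniz, smul_eq_mul, ← Finset.sum_add_distrib]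
  exact Finset.sum_congr rfl fun i _ => by ring

theorem formal_mul (u v : R) : δ (u * v) = u * δ v + v * δ u := by
  simp [Derivation.leibniz]

theorem formal_two : δ (2 : R) = 0 := by
  have : (2 : R) = 1 + 1 := by norm_num
  rw [this, map_add, Derivation.map_one_eq_zero, add_zero]

end vec

/-- one half -/
def formal_h (R : Type) [CommRing R] [Algebra ℝ R] : R := algebraMap ℝ R (1 / 2)

theorem formal_two_h : 2 * formal_h R = 1 := by
  have : (2 : R) = algebraMap ℝ R 2 := by simp [map_ofNat]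
  rw [this, formal_h, ← map_mul]; norm_num

theorem formal_D_h (δ : Derivation ℝ R R) : δ (formal_h R) = 0 := δ.map_algebraMap _

/-! ### The module `M` of elements of `W1` with mean in `W2` -/

section M
variable {D : DAlg R}

/-- in `W1` with mean in `W2` -/
def formal_M (D : DAlg R) (u : R) : Prop := u ∈ D.W1 ∧ D.mean u ∈ D.W2

theorem formal_mean_mean (u : R) : D.mean (D.mean u) = D.mean u := by
  have := D.mean_mul (D.mean u) 1 (D.Θ_mean u)
  rwa [mul_one, D.mean_one, mul_one] at this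

theorem formal_mean_mul' {k : R} (hk : D.Θ k = 0) (u : R) : D.mean (u * k) = D.mean u * k := by
  rw [mul_comm, D.mean_mul k u hk, mul_comm]

theorem formal_cmul {k l : R} (hk : D.Θ k = 0) (hl : D.Θ l = 0) : D.Θ (k * l) = 0 := by
  rw [formal_mul, hk, hl]; simp

theorem formal_M.add {u v : R} (hu : formal_M D u) (hv : formal_M D v) : formal_M D (u + v) :=
  ⟨add_mem hu.1 hv.1, by rw [map_add]; exact add_mem hu.2 hv.2⟩

theorem formal_M.sub {u v : R} (hu : formal_M D u) (hv : formal_M D v) : formal_M D (u - v) :=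
  ⟨sub_mem hu.1 hv.1, by rw [map_sub]; exact sub_mem hu.2 hv.2⟩

theorem formal_M.cmul {u k : R} (hk : D.Θ k = 0) (hu : formal_M D u) : formal_M D (k * u) :=
  ⟨D.W1.mul_mem_left _ hu.1, by rw [D.mean_mul k u hk]; exact D.W2.mul_mem_left _ hu.2⟩

theorem formal_M.mulc {u k : R} (hu : formal_M D u) (hk : D.Θ k = 0) : formal_M D (u * k) := by
  rw [mul_comm]; exact hu.cmul hk

theorem formal_M_of_W2 {u : R} (hu : u ∈ D.W2) : formal_M D u := ⟨D.le hu, D.mean2 u hu⟩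

theorem formal_M_of_zero {u : R} (hu : u ∈ D.W1) (h : D.mean u = 0) : formal_M D u :=
  ⟨hu, by rw [h]; exact zero_mem _⟩

theorem formal_M_zero : formal_M D 0 := formal_M_of_W2 (zero_mem _)

theorem formal_M.X {u : R} (hu : formal_M D u) : formal_M D (D.X u) :=
  ⟨D.X1 u hu.1, by rw [D.mean_X]; exact D.X2 _ hu.2⟩

theorem formal_M.Y {u : R} (hu : formal_M D u) : formal_M D (D.Y u) :=
  ⟨D.Y1 u hu.1, by rw [D.mean_Y]; exact D.Y2 _ hu.2⟩

theorem formal_M_Θ {u : R} (hu : u ∈ D.W1) : formal_M D (D.Θ u) :=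
  formal_M_of_zero (D.Θ1 u hu) (D.mean_Θ u)

theorem formal_M_prim {u : R} (hu : u ∈ D.W1) : formal_M D (D.prim u) :=
  formal_M_of_zero (D.prim1 u hu) (D.mean_prim u)

theorem formal_M_sum {ι : Type} (s : Finset ι) {f : ι → R} (h : ∀ i ∈ s, formal_M D (f i)) :
    formal_M D (∑ i ∈ s, f i) :=
  ⟨sum_mem fun i hi => (h i hi).1, by rw [map_sum]; exact sum_mem fun i hi => (h i hi).2⟩

theorem formal_M_dot {c Z : Fin 4 → R} (hc : vD D.Θ c = 0) (hZ : ∀ i, formal_M D (Z i)) :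
    formal_M D (c ⬝ᵥ Z) :=
  formal_M_sum _ fun i _ => (hZ i).cmul (congrFun hc i)

theorem formal_dot_W2 {P Q : Fin 4 → R} (hP : ∀ i, P i ∈ D.W1) (hQ : ∀ i, Q i ∈ D.W1) :
    P ⬝ᵥ Q ∈ D.W2 := sum_mem fun i _ => D.mul_mem _ (hP i) _ (hQ i)

theorem formal_mean_dot {c Z : Fin 4 → R} (hc : vD D.Θ c = 0) (hZ : ∀ i, D.mean (Z i) = 0) :
    D.mean (c ⬝ᵥ Z) = 0 := by
  rw [dotProduct, map_sum]
  exact Finset.sum_eq_zero fun i _ => by rw [D.mean_mul _ _ (congrFun hc i), hZ i, mul_zero]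

theorem formal_parts (P Q : Fin 4 → R) :
    D.mean (vD D.Θ P ⬝ᵥ Q) = - D.mean (P ⬝ᵥ vD D.Θ Q) := by
  have := D.mean_Θ (P ⬝ᵥ Q)
  rw [formal_vD_dot, map_add] at this
  exact eq_neg_of_add_eq_zero_left this

theorem formal_div {u : R} (hu : D.mean u ∈ D.W2) :
    ∃ w ∈ D.W1, D.Θ w = 0 ∧ D.mean u = D.a * w := by
  obtain ⟨w, h1, h2, h3⟩ := D.div _ hu
  exact ⟨w, h1, h2, by rw [← h3, formal_mean_mean]⟩

end M

/-! ### The frame -/

section frame
variable {D : DAlg R} (F : FData D)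

/-- `V̂` -/
def formal_V : Fin 4 → R := F.V1 • F.E1 + F.V2 • F.E2
/-- `U₀` -/
def formal_U : Fin 4 → R := D.a • formal_V F
/-- `K` -/
def formal_K : Fin 4 → R := F.K1 • F.E1 + F.K2 • F.E2
/-- `T` -/
def formal_T : Fin 4 → R := F.fx + vD D.Θ (formal_U F)
/-- a vector in the frame -/
def formal_fr (x y z w : R) : Fin 4 → R := x • F.E1 + y • F.E2 + z • F.ν + w • F.b

theorem formal_fr_dot (x y z w x' y' z' w' : R) :
    formal_fr F x y z w ⬝ᵥ formal_fr F x' y' z' w' =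
      x * x' + y * y' + z * z' + w * w' * (F.b ⬝ᵥ F.b) := by
  have h1 : F.E2 ⬝ᵥ F.E1 = 0 := by rw [dotProduct_comm]; exact F.E12
  have h2 : F.ν ⬝ᵥ F.E1 = 0 := by rw [dotProduct_comm]; exact F.E1ν
  have h3 : F.ν ⬝ᵥ F.E2 = 0 := by rw [dotProduct_comm]; exact F.E2ν
  have h4 : F.b ⬝ᵥ F.E1 = 0 := by rw [dotProduct_comm]; exact F.E1b
  have h5 : F.b ⬝ᵥ F.E2 = 0 := by rw [dotProduct_comm]; exact F.E2b
  have h6 : F.b ⬝ᵥ F.ν = 0 := by rw [dotProduct_comm]; exact F.νb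
  simp only [formal_fr, add_dotProduct, dotProduct_add, smul_dotProduct, dotProduct_smul,
    smul_eq_mul, h1, h2, h3, h4, h5, h6, F.E11, F.E22, F.νν, F.E12, F.E1ν, F.E2ν, F.E1b, F.E2b,
    F.νb]
  ring

theorem formal_fr_Θ (x y z w : R) :
    vD D.Θ (formal_fr F x y z w) = formal_fr F (D.Θ x) (D.Θ y) (D.Θ z) (D.Θ w) := by
  simp only [formal_fr, formal_vD_add, formal_vD_smul, F.Θ_E1, F.Θ_E2, F.Θ_ν, F.Θ_b, smul_zero,
    zero_add]

theorem formal_fr_smul (c x y z w : R) :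
    c • formal_fr F x y z w = formal_fr F (c * x) (c * y) (c * z) (c * w) := by
  simp only [formal_fr, smul_add, smul_smul]

theorem formal_fr_add (x y z w x' y' z' w' : R) :
    formal_fr F x y z w + formal_fr F x' y' z' w' =
      formal_fr F (x + x') (y + y') (z + z') (w + w') := by
  simp only [formal_fr, add_smul]; abel

theorem formal_fr_M {x y z w : R} (hx : formal_M D x) (hy : formal_M D y) (hz : formal_M D z)
    (hw : formal_M D w) (i : Fin 4) : formal_M D (formal_fr F x y z w i) :=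
  (((hx.mulc (congrFun F.Θ_E1 i)).add (hy.mulc (congrFun F.Θ_E2 i))).add
    (hz.mulc (congrFun F.Θ_ν i))).add (hw.mulc (congrFun F.Θ_b i))

theorem formal_fr_mean {x y : R} (hx : D.mean x = 0) (hy : D.mean y = 0) (i : Fin 4) :
    D.mean (formal_fr F x y 0 0 i) = 0 := by
  simp only [formal_fr, Pi.add_apply, Pi.smul_apply, smul_eq_mul, zero_mul, add_zero, map_add]
  rw [formal_mean_mul' (congrFun F.Θ_E1 i), formal_mean_mul' (congrFun F.Θ_E2 i), hx, hy]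
  simp

theorem formal_b_eq : F.b = formal_fr F 0 0 0 1 := by simp [formal_fr]
theorem formal_E2_eq : F.E2 = formal_fr F 0 1 0 0 := by simp [formal_fr]
theorem formal_V_eq : formal_V F = formal_fr F F.V1 F.V2 0 0 := by simp [formal_fr, formal_V]
theorem formal_K_eq : formal_K F = formal_fr F F.K1 F.K2 0 0 := by simp [formal_fr, formal_K]
theorem formal_U_eq : formal_U F = formal_fr F (D.a * F.V1) (D.a * F.V2) 0 0 := by
  rw [formal_U, formal_V_eq, formal_fr_smul]; simp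
theorem formal_fx_eq : F.fx = formal_fr F F.p0 0 F.β1 F.β' := by
  rw [F.fx_eq]; simp [formal_fr]
theorem formal_Yb_eq : vD D.Y F.b = formal_fr F 0 (F.γ * F.H22) F.c' F.cb := by
  rw [F.c_eq]; simp only [formal_fr, zero_smul, zero_add]; abel

theorem formal_T_eq : formal_T F = formal_fr F (F.r * F.u1) (F.r * F.u2) F.β1 F.β' := by
  rw [formal_T, formal_U_eq, formal_fr_Θ, formal_fx_eq, formal_fr_add, formal_mul, formal_mul,
    D.Θ_a, F.Θ_V1, F.Θ_V2, F.u2_eq]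
  simp only [map_zero]
  congr 1 <;> ring

theorem formal_b_dot (x y z w : R) : F.b ⬝ᵥ formal_fr F x y z w = w * (F.b ⬝ᵥ F.b) := by
  have := formal_fr_dot F 0 0 0 1 x y z w
  rw [← formal_b_eq] at this
  rw [this]; ring

theorem formal_E2_dot (x y z w : R) : F.E2 ⬝ᵥ formal_fr F x y z w = y := by
  have := formal_fr_dot F 0 1 0 0 x y z w
  rw [← formal_E2_eq] at this
  rw [this]; ring

theorem formal_b_Y (x y z w : R) : F.b ⬝ᵥ vD D.Y (formal_fr F x y z w) =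
    D.Y (w * (F.b ⬝ᵥ F.b)) - (F.γ * F.H22 * y + F.c' * z + F.cb * w * (F.b ⬝ᵥ F.b)) := by
  have h1 := formal_vD_dot D.Y F.b (formal_fr F x y z w)
  rw [formal_b_dot, formal_Yb_eq, formal_fr_dot] at h1
  rw [h1]; ring

theorem formal_U_mean (i : Fin 4) : D.mean (formal_U F i) = 0 := by
  rw [formal_U_eq]
  exact formal_fr_mean F (by rw [D.mean_mul _ _ D.Θ_a, F.mean_V1, mul_zero])
    (by rw [D.mean_mul _ _ D.Θ_a, F.mean_V2, mul_zero]) i

theorem formal_U_M (i : Fin 4) : formal_M D (formal_U F i) :=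
  formal_M_of_zero (D.W1.mul_mem_right _ D.a_mem) (formal_U_mean F i)

theorem formal_T_dot {Z : Fin 4 → R} (hZ : ∀ i, formal_M D (Z i)) :
    formal_M D (formal_T F ⬝ᵥ Z) := by
  rw [formal_T, add_dotProduct]
  exact (formal_M_dot F.Θ_fx hZ).add (formal_M_of_W2
    (formal_dot_W2 (fun i => D.Θ1 _ (formal_U_M F i).1) fun i => (hZ i).1))

/-- the linear equations of one step -/
structure formal_Sol (ρ₁ ρ₂ ρ₃ e : R) (Z : Fin 4 → R) (κ : R) : Prop where
  hZ : ∀ i, formal_M D (Z i)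
  hκ : formal_M D κ
  s1 : 2 * (formal_T F ⬝ᵥ vD D.Θ Z) = ρ₁
  s2 : vD D.Θ Z ⬝ᵥ F.b = ρ₂
  s3 : 2 * (F.b ⬝ᵥ vD D.Y Z) + ρ₃ = κ * F.H22
  s4 : κ = -2 * F.γ * (F.E2 ⬝ᵥ Z) + e

theorem formal_cγ : D.Θ (-2 * F.γ) = 0 :=
  formal_cmul (by rw [map_neg, formal_two, neg_zero]) F.Θ_γ

theorem formal_loop {ρ : R} (hρ : formal_M D ρ) : ∃ Z1 Z2, formal_M D Z1 ∧ formal_M D Z2 ∧
    F.u1 * D.Θ Z1 + F.u2 * D.Θ Z2 = ρ := by
  have hu2 : F.u2 ∈ D.W1 := by rw [F.u2_eq]; exact D.W1.mul_mem_right _ D.a_mem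
  have h1 : D.mean (ρ * F.u1) ∈ D.W2 := by
    have : ρ * F.u1 = ρ + ρ * (F.u1 - 1) := by ring
    rw [this]
    exact (hρ.add (formal_M_of_W2 (D.mul_mem _ hρ.1 _ F.u1_mem))).2
  obtain ⟨w, hw1, hw2, hw3⟩ := formal_div h1
  obtain ⟨A, hA⟩ : ∃ A, A = -(F.r * F.ip) * D.mean (ρ * F.u2) := ⟨_, rfl⟩
  obtain ⟨B, hB⟩ : ∃ B, B = F.in2 * w := ⟨_, rfl⟩
  have hA1 : A ∈ D.W1 := by
    rw [hA]; exact D.W1.mul_mem_left _ (D.mean1 _ (D.W1.mul_mem_right _ hρ.1))
  have hB1 : B ∈ D.W1 := by rw [hB]; exact D.W1.mul_mem_left _ hw1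
  have hA2 : D.Θ A = 0 := by
    rw [hA]
    exact formal_cmul (by rw [map_neg, formal_cmul F.Θ_r F.Θ_ip, neg_zero]) (D.Θ_mean _)
  have hB2 : D.Θ B = 0 := by rw [hB]; exact formal_cmul F.Θ_in2 hw2
  have hτ : A + B * F.nh ∈ D.W1 := add_mem hA1 (D.W1.mul_mem_right _ hB1)
  have m1 : D.mean (ρ * F.u1 - (A + B * F.nh) * F.u2) = 0 := by
    have : (A + B * F.nh) * F.u2 = (A * D.a) * F.nh + (B * D.a) * F.nh ^ 2 := by
      rw [F.u2_eq]; ring
    rw [this, map_sub, map_add, D.mean_mul _ _ (formal_cmul hA2 D.Θ_a),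
      D.mean_mul _ _ (formal_cmul hB2 D.Θ_a), F.mean_nh, hw3, hB]
    linear_combination (-(w * D.a)) * F.in2_mul
  have m2 : D.mean (ρ * F.u2 + (A + B * F.nh) * F.u1) = 0 := by
    have : (A + B * F.nh) * F.u1 = A * F.u1 + B * (F.nh * F.u1) := by ring
    rw [this, map_add, map_add, D.mean_mul _ _ hA2, D.mean_mul _ _ hB2, F.mean_nh_u1, hA]
    linear_combination (-(F.ip * D.mean (ρ * F.u2))) * F.mean_u1 -
      D.mean (ρ * F.u2) * F.ip_mul
  refine ⟨D.prim (ρ * F.u1 - (A + B * F.nh) * F.u2), D.prim (ρ * F.u2 + (A + B * F.nh) * F.u1),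
    formal_M_prim (sub_mem (D.W1.mul_mem_right _ hρ.1) (D.W1.mul_mem_right _ hτ)),
    formal_M_prim (add_mem (D.W1.mul_mem_right _ hρ.1) (D.W1.mul_mem_right _ hτ)), ?_⟩
  rw [D.Θ_prim, D.Θ_prim, m1, m2]
  linear_combination ρ * F.u_sq

theorem formal_solve {ρ₁ ρ₂ ρ₃ e : R} (h1 : formal_M D ρ₁) (h2 : ρ₂ ∈ D.W1) (h2' : D.mean ρ₂ = 0)
    (h3 : formal_M D ρ₃) (he : formal_M D e) : ∃ Z κ, formal_Sol F ρ₁ ρ₂ ρ₃ e Z κ := by
  obtain ⟨v, hv⟩ : ∃ v, v = D.prim ρ₂ := ⟨_, rfl⟩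
  have hvM : formal_M D v := hv ▸ formal_M_prim h2
  have hvΘ : D.Θ v = ρ₂ := by rw [hv, D.Θ_prim, h2', sub_zero]
  have c2 : D.Θ 2 = 0 := formal_two _
  obtain ⟨σ, hσ⟩ : ∃ σ, σ = (F.ic * formal_h R) *
    (2 * D.Y v - 2 * (F.cb * v) + ρ₃ - e * F.H22) := ⟨_, rfl⟩
  have hσM : formal_M D σ := hσ ▸ ((((hvM.Y.cmul c2).sub ((hvM.cmul F.Θ_cb).cmul c2)).add h3).sub
    (he.mulc F.Θ_H22)).cmul (formal_cmul F.Θ_ic (formal_D_h _))
  obtain ⟨ρ, hρ⟩ : ∃ ρ, ρ = (F.ir * formal_h R) *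
    (ρ₁ - 2 * (F.β1 * D.Θ σ) - 2 * (F.β' * D.Θ v)) := ⟨_, rfl⟩
  have hρM : formal_M D ρ := hρ ▸ ((h1.sub (((formal_M_Θ hσM.1).cmul F.Θ_β1).cmul c2)).sub
    (((formal_M_Θ hvM.1).cmul F.Θ_β').cmul c2)).cmul (formal_cmul F.Θ_ir (formal_D_h _))
  obtain ⟨Z1, Z2, hZ1, hZ2, hZ⟩ := formal_loop F hρM
  have hib : F.ib * v * (F.b ⬝ᵥ F.b) = v := by linear_combination v * F.ib_mul
  have hΘib : D.Θ (F.ib * v) = F.ib * ρ₂ := by rw [formal_mul, F.Θ_ib, hvΘ]; ring
  have hσ2 : 2 * (F.c' * σ) = 2 * D.Y v - 2 * (F.cb * v) + ρ₃ - e * F.H22 := by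
    rw [hσ]
    linear_combination (2 * D.Y v - 2 * (F.cb * v) + ρ₃ - e * F.H22) *
      (2 * formal_h R * F.ic_mul + formal_two_h (R := R))
  have hρ2 : 2 * (F.r * ρ) = ρ₁ - 2 * (F.β1 * D.Θ σ) - 2 * (F.β' * D.Θ v) := by
    rw [hρ]
    linear_combination (ρ₁ - 2 * (F.β1 * D.Θ σ) - 2 * (F.β' * D.Θ v)) *
      (2 * formal_h R * F.ir_mul + formal_two_h (R := R))
  refine ⟨formal_fr F Z1 Z2 σ (F.ib * v), -2 * F.γ * Z2 + e,
    formal_fr_M F hZ1 hZ2 hσM (hvM.cmul F.Θ_ib), (hZ2.cmul (formal_cγ F)).add he, ?_, ?_, ?_, ?_⟩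
  · rw [formal_T_eq, formal_fr_Θ, formal_fr_dot, hΘib]
    rw [hvΘ] at hρ2
    linear_combination hρ2 + 2 * F.r * hZ + 2 * F.β' * ρ₂ * F.ib_mul
  · rw [dotProduct_comm, formal_fr_Θ, formal_b_dot, hΘib]
    linear_combination ρ₂ * F.ib_mul
  · rw [formal_b_Y, hib]
    linear_combination - hσ2 - 2 * F.cb * hib
  · rw [formal_E2_dot]

theorem formal_μK (μ : R) : μ • formal_K F = formal_fr F (μ * F.K1) (μ * F.K2) 0 0 := by
  rw [formal_K_eq, formal_fr_smul]; simp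

theorem formal_μK_mean {μ : R} (hμ' : D.Θ μ = 0) (i : Fin 4) : D.mean ((μ • formal_K F) i) = 0 := by
  rw [formal_μK]
  exact formal_fr_mean F (by rw [D.mean_mul _ _ hμ', F.mean_K1, mul_zero])
    (by rw [D.mean_mul _ _ hμ', F.mean_K2, mul_zero]) i

theorem formal_kernel {ρ₁ ρ₂ ρ₃ e : R} {Z : Fin 4 → R} {κ : R} (h : formal_Sol F ρ₁ ρ₂ ρ₃ e Z κ)
    {μ : R} (hμ : μ ∈ D.W1) (hμ' : D.Θ μ = 0) :
    formal_Sol F ρ₁ ρ₂ ρ₃ e (Z + μ • formal_K F) (κ + -2 * F.γ * (μ * F.K2)) := by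
  have h1 : formal_M D (μ * F.K2) := formal_M_of_zero (D.W1.mul_mem_right _ hμ)
    (by rw [D.mean_mul _ _ hμ', F.mean_K2, mul_zero])
  refine ⟨fun i => (h.hZ i).add (formal_M_of_zero (D.W1.mul_mem_right _ hμ)
    (formal_μK_mean F hμ' i)), h.hκ.add (h1.cmul (formal_cγ F)), ?_, ?_, ?_, ?_⟩
  · rw [formal_vD_add, dotProduct_add, mul_add, h.s1, formal_μK, formal_fr_Θ, formal_T_eq,
      formal_fr_dot, formal_mul, formal_mul, hμ', map_zero]
    linear_combination 2 * F.r * μ * F.K_ker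
  · rw [formal_vD_add, add_dotProduct, h.s2, formal_μK, formal_fr_Θ, dotProduct_comm,
      formal_b_dot, map_zero]
    ring
  · rw [formal_vD_add, dotProduct_add, formal_μK, formal_b_Y, zero_mul, map_zero]
    linear_combination h.s3
  · rw [dotProduct_add, formal_μK, formal_E2_dot, h.s4]
    ring

/-- the part of the next solvability condition that depends on the new terms -/
def formal_L (Z : Fin 4 → R) (κ : R) : R :=
  κ * F.H12 - vD D.X Z ⬝ᵥ F.b - formal_T F ⬝ᵥ vD D.Y Z - vD D.Θ Z ⬝ᵥ vD D.Y (formal_U F)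

theorem formal_L_add (Z Z' : Fin 4 → R) (κ κ' : R) :
    formal_L F (Z + Z') (κ + κ') = formal_L F Z κ + formal_L F Z' κ' := by
  simp only [formal_L, formal_vD_add, add_dotProduct, dotProduct_add]
  ring

theorem formal_L_M {Z : Fin 4 → R} {κ : R} (hZ : ∀ i, formal_M D (Z i)) (hκ : formal_M D κ) :
    formal_M D (formal_L F Z κ) := by
  refine (((hκ.mulc F.Θ_H12).sub ?_).sub (formal_T_dot F fun i => (hZ i).Y)).sub
    (formal_M_of_W2 (formal_dot_W2 (fun i => D.Θ1 _ (hZ i).1) fun i => (formal_U_M F i).Y.1))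
  rw [dotProduct_comm]
  exact formal_M_dot F.Θ_b fun i => (hZ i).X

theorem formal_YΘ (P : Fin 4 → R) : vD D.Y (vD D.Θ P) = vD D.Θ (vD D.Y P) :=
  funext fun i => D.YΘ (P i)

theorem formal_VK : D.mean (vD D.Θ (formal_V F) ⬝ᵥ formal_K F) = 0 := by
  rw [formal_V_eq, formal_K_eq, formal_fr_Θ, formal_fr_dot]
  simpa using F.K_orth

theorem formal_lin_mean {Z : Fin 4 → R} {κ : R} (hZ : ∀ i, D.mean (Z i) = 0) (hκ : D.mean κ = 0) :
    D.mean (κ * F.H12 - vD D.X Z ⬝ᵥ F.b - formal_T F ⬝ᵥ vD D.Y Z) =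
      - D.mean (vD D.Θ (formal_U F) ⬝ᵥ vD D.Y Z) := by
  rw [formal_T, add_dotProduct, map_sub, map_sub, map_add, formal_mean_mul' F.Θ_H12, hκ,
    dotProduct_comm _ F.b, formal_mean_dot F.Θ_b fun i => by
      rw [vD, D.mean_X, hZ i, map_zero], formal_mean_dot F.Θ_fx fun i => by
      rw [vD, D.mean_Y, hZ i, map_zero]]
  ring

theorem formal_L_K {μ : R} (hμ' : D.Θ μ = 0) :
    D.mean (formal_L F (μ • formal_K F) (-2 * F.γ * (μ * F.K2))) =
      -2 * μ * D.a * D.mean (vD D.Θ (formal_K F) ⬝ᵥ vD D.Y (formal_V F)) := by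
  have cY : D.Θ (D.Y D.a) = 0 := by rw [← D.YΘ, D.Θ_a, map_zero]
  have h1 : vD D.Θ (μ • formal_K F) = μ • vD D.Θ (formal_K F) := by
    rw [formal_vD_smul, hμ']; simp
  have h2 : vD D.Θ (formal_U F) = D.a • vD D.Θ (formal_V F) := by
    rw [formal_U, formal_vD_smul, D.Θ_a]; simp
  have h3 : D.mean (vD D.Θ (formal_K F) ⬝ᵥ formal_V F) = 0 := by
    rw [formal_parts, dotProduct_comm, formal_VK, neg_zero]
  have h4 : D.mean (vD D.Θ (μ • formal_K F) ⬝ᵥ vD D.Y (formal_U F)) =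
      μ * D.a * D.mean (vD D.Θ (formal_K F) ⬝ᵥ vD D.Y (formal_V F)) := by
    rw [h1, formal_U, formal_vD_smul, smul_dotProduct, dotProduct_add, dotProduct_smul,
      dotProduct_smul, smul_eq_mul, smul_eq_mul, smul_eq_mul, D.mean_mul _ _ hμ', map_add,
      D.mean_mul _ _ D.Θ_a, D.mean_mul _ _ cY, h3]
    ring
  have h5 : D.mean (vD D.Θ (formal_U F) ⬝ᵥ (μ • formal_K F)) = 0 := by
    rw [h2, smul_dotProduct, dotProduct_smul, smul_eq_mul, smul_eq_mul, D.mean_mul _ _ D.Θ_a,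
      D.mean_mul _ _ hμ', formal_VK]
    ring
  have h6 : D.mean (vD D.Θ (formal_U F) ⬝ᵥ vD D.Y (μ • formal_K F)) =
      D.mean (vD D.Θ (μ • formal_K F) ⬝ᵥ vD D.Y (formal_U F)) := by
    have a1 := D.mean_Y (vD D.Θ (formal_U F) ⬝ᵥ (μ • formal_K F))
    rw [h5, map_zero, formal_vD_dot, map_add, formal_YΘ, formal_parts] at a1
    rw [dotProduct_comm (vD D.Θ (μ • formal_K F))]
    linear_combination a1
  rw [formal_L, map_sub, formal_lin_mean F (formal_μK_mean F hμ')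
    (by rw [D.mean_mul _ _ (formal_cγ F), D.mean_mul _ _ hμ', F.mean_K2]; ring), h6, h4]
  ring

theorem formal_step {ρ₁ ρ₂ ρ₃ e ρ₄ : R} (h1 : formal_M D ρ₁) (h2 : ρ₂ ∈ D.W1)
    (h2' : D.mean ρ₂ = 0) (h3 : formal_M D ρ₃) (he : formal_M D e) (h4 : formal_M D ρ₄) :
    ∃ Z κ, formal_Sol F ρ₁ ρ₂ ρ₃ e Z κ ∧ D.mean (formal_L F Z κ - ρ₄) = 0 := by
  obtain ⟨Z, κ, h⟩ := formal_solve F h1 h2 h2' h3 he
  obtain ⟨w, hw1, hw2, hw3⟩ := formal_div ((formal_L_M F h.hZ h.hκ).sub h4).2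
  have hμ' : D.Θ (F.iΩ * formal_h R * w) = 0 :=
    formal_cmul (formal_cmul F.Θ_iΩ (formal_D_h _)) hw2
  refine ⟨_, _, formal_kernel F h (D.W1.mul_mem_left (F.iΩ * formal_h R) hw1) hμ', ?_⟩
  rw [map_sub] at hw3
  have h5 : F.iΩ * D.mean (vD D.Θ (formal_K F) ⬝ᵥ vD D.Y (formal_V F)) = 1 := F.iΩ_mul
  rw [formal_L_add, map_sub, map_add, formal_L_K F hμ']
  linear_combination hw3 - (2 * formal_h R * w * D.a) * h5 - w * D.a * formal_two_h (R := R)

theorem formal_base_mean :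
    D.mean (-2 * F.γ * (F.E2 ⬝ᵥ formal_U F) * F.H12 - vD D.X (formal_U F) ⬝ᵥ F.b -
      formal_T F ⬝ᵥ vD D.Y (formal_U F)) = 0 := by
  have cY : D.Θ (D.Y D.a) = 0 := by rw [← D.YΘ, D.Θ_a, map_zero]
  have h2 : vD D.Θ (formal_U F) = D.a • vD D.Θ (formal_V F) := by
    rw [formal_U, formal_vD_smul, D.Θ_a]; simp
  have h3 : D.mean (vD D.Θ (formal_V F) ⬝ᵥ formal_V F) = 0 := by
    have := formal_parts (D := D) (formal_V F) (formal_V F)
    rw [dotProduct_comm (formal_V F)] at this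
    linear_combination formal_h R * this -
      D.mean (vD D.Θ (formal_V F) ⬝ᵥ formal_V F) * formal_two_h (R := R)
  have h4 : D.mean (vD D.Θ (formal_V F) ⬝ᵥ vD D.Y (formal_V F)) = 0 := F.phase
  rw [formal_lin_mean F (formal_U_mean F)
    (by rw [D.mean_mul _ _ (formal_cγ F), formal_mean_dot F.Θ_E2 (formal_U_mean F), mul_zero]),
    h2, formal_U, formal_vD_smul, smul_dotProduct, dotProduct_add, dotProduct_smul,
    dotProduct_smul, smul_eq_mul, smul_eq_mul, smul_eq_mul, D.mean_mul _ _ D.Θ_a, map_add,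
    D.mean_mul _ _ D.Θ_a, D.mean_mul _ _ cY, h3, h4]
  ring

end frame

/-! ### The recursion -/

section recur
variable {D : DAlg R} (F : FData D)

/-- right-hand side of `e1 (n+1)` -/
def formal_r1 (U : ℕ → Fin 4 → R) (k : ℕ → R) (n : ℕ) : R :=
  k n * F.H11 - 2 * (formal_T F ⬝ᵥ vD D.X (U n)) -
    ∑ i ∈ Finset.range n, PP D.X D.Θ F.fx U (i + 1) ⬝ᵥ PP D.X D.Θ F.fx U (n - (i + 1) + 1)

/-- right-hand side of `e2 (n+1)` -/
def formal_r2 (U : ℕ → Fin 4 → R) (k : ℕ → R) (n : ℕ) : R :=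
  k n * F.H12 - vD D.X (U n) ⬝ᵥ F.b -
    ∑ i ∈ Finset.range (n + 1), PP D.X D.Θ F.fx U i ⬝ᵥ vD D.Y (U (n - i))

/-- the quadratic terms of `e3 (n+2)` -/
def formal_r3 (D : DAlg R) (U : ℕ → Fin 4 → R) (n : ℕ) : R :=
  ∑ i ∈ Finset.range (n + 1), vD D.Y (U i) ⬝ᵥ vD D.Y (U (n - i))

/-- the old terms of `r2 (n+1)` -/
def formal_r4 (U : ℕ → Fin 4 → R) (n : ℕ) : R :=
  vD D.X (U n) ⬝ᵥ vD D.Y (formal_U F) +
    ∑ i ∈ Finset.range n, PP D.X D.Θ F.fx U (i + 1) ⬝ᵥ vD D.Y (U (n - i))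

variable {U U' : ℕ → Fin 4 → R} {k k' : ℕ → R} {n : ℕ}

theorem formal_PP_congr (h : ∀ i ≤ n, U i = U' i) {i : ℕ} (hi : i ≤ n) :
    PP D.X D.Θ F.fx U i = PP D.X D.Θ F.fx U' i := by
  cases i with
  | zero => simp only [PP, h 0 hi]
  | succ i => simp only [PP, h _ hi, h i (by omega)]

theorem formal_r1_congr (h : ∀ i ≤ n, U i = U' i) (hk : k n = k' n) :
    formal_r1 F U k n = formal_r1 F U' k' n := by
  rw [formal_r1, formal_r1, hk, h n le_rfl]
  congr 1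
  refine Finset.sum_congr rfl fun i hi => ?_
  have := Finset.mem_range.1 hi
  rw [formal_PP_congr F h (i := i + 1) (by omega),
    formal_PP_congr F h (i := n - (i + 1) + 1) (by omega)]

theorem formal_r2_congr (h : ∀ i ≤ n, U i = U' i) (hk : k n = k' n) :
    formal_r2 F U k n = formal_r2 F U' k' n := by
  rw [formal_r2, formal_r2, hk, h n le_rfl]
  congr 1
  refine Finset.sum_congr rfl fun i hi => ?_
  have := Finset.mem_range.1 hi
  rw [formal_PP_congr F h (i := i) (by omega), h (n - i) (by omega)]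

theorem formal_r3_congr (h : ∀ i ≤ n, U i = U' i) : formal_r3 D U n = formal_r3 D U' n := by
  refine Finset.sum_congr rfl fun i hi => ?_
  have := Finset.mem_range.1 hi
  rw [h i (by omega), h (n - i) (by omega)]

theorem formal_r4_congr (h : ∀ i ≤ n, U i = U' i) : formal_r4 F U n = formal_r4 F U' n := by
  rw [formal_r4, formal_r4, h n le_rfl]
  congr 1
  refine Finset.sum_congr rfl fun i hi => ?_
  have := Finset.mem_range.1 hi
  rw [formal_PP_congr F h (i := i + 1) (by omega), h (n - i) (by omega)]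

theorem formal_PP0 (h0 : U 0 = formal_U F) : PP D.X D.Θ F.fx U 0 = formal_T F := by
  simp only [PP, h0, formal_T]

theorem formal_r2_zero (h0 : U 0 = formal_U F) : formal_r2 F U k 0 =
    k 0 * F.H12 - vD D.X (formal_U F) ⬝ᵥ F.b - formal_T F ⬝ᵥ vD D.Y (formal_U F) := by
  rw [formal_r2, Finset.sum_range_one, formal_PP0 F h0, h0]

theorem formal_r2_succ (h0 : U 0 = formal_U F) : formal_r2 F U k (n + 1) =
    formal_L F (U (n + 1)) (k (n + 1)) - formal_r4 F U n := by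
  rw [formal_r2, Finset.sum_range_succ, Finset.sum_range_succ', formal_PP0 F h0, formal_L,
    formal_r4, Nat.sub_self, h0, Nat.sub_zero]
  simp only [Nat.add_sub_add_right]
  rw [show PP D.X D.Θ F.fx U (n + 1) = vD D.Θ (U (n + 1)) + vD D.X (U n) from rfl, add_dotProduct]
  ring

theorem formal_PP_W1 (h : ∀ m ≤ n, ∀ i, formal_M D (U m i)) {m : ℕ} (hm : m + 1 ≤ n) (i : Fin 4) :
    PP D.X D.Θ F.fx U (m + 1) i ∈ D.W1 :=
  add_mem (D.Θ1 _ (h _ hm i).1) (D.X1 _ (h m (by omega) i).1)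

theorem formal_r1_M (h : ∀ m ≤ n, ∀ i, formal_M D (U m i)) (hk : formal_M D (k n)) :
    formal_M D (formal_r1 F U k n) :=
  ((hk.mulc F.Θ_H11).sub ((formal_T_dot F fun i => (h n le_rfl i).X).cmul (formal_two _))).sub
    (formal_M_sum _ fun i hi => by
      have := Finset.mem_range.1 hi
      exact formal_M_of_W2 (formal_dot_W2 (formal_PP_W1 F h (by omega))
        (formal_PP_W1 F h (by omega))))

theorem formal_r2_W1 (h : ∀ m ≤ n, ∀ i, formal_M D (U m i)) (hk : formal_M D (k n)) :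
    formal_r2 F U k n ∈ D.W1 :=
  sub_mem (sub_mem (D.W1.mul_mem_right _ hk.1)
    (sum_mem fun i _ => D.W1.mul_mem_right _ (h n le_rfl i).X.1))
    (sum_mem fun j _ => sum_mem fun i _ => D.W1.mul_mem_left _ (h (n - j) (by omega) i).Y.1)

theorem formal_r3_M (h : ∀ m ≤ n, ∀ i, formal_M D (U m i)) : formal_M D (formal_r3 D U n) :=
  formal_M_sum _ fun j hj => by
    have := Finset.mem_range.1 hj
    exact formal_M_of_W2 (formal_dot_W2 (fun i => (h j (by omega) i).Y.1)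
      fun i => (h (n - j) (by omega) i).Y.1)

theorem formal_r4_M (h : ∀ m ≤ n, ∀ i, formal_M D (U m i)) : formal_M D (formal_r4 F U n) :=
  (formal_M_of_W2 (formal_dot_W2 (fun i => (h n le_rfl i).X.1)
    fun i => (formal_U_M F i).Y.1)).add (formal_M_sum _ fun j hj => by
      have := Finset.mem_range.1 hj
      exact formal_M_of_W2 (formal_dot_W2 (formal_PP_W1 F h (by omega))
        fun i => (h (n - j) (by omega) i).Y.1))

/-- the condition at level `n` -/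
def formal_C (e : R) (U : ℕ → Fin 4 → R) (k : ℕ → R) : ℕ → Prop
  | 0 => U 0 = formal_U F ∧ k 0 = -2 * F.γ * (F.E2 ⬝ᵥ formal_U F)
  | n + 1 => formal_Sol F (formal_r1 F U k n) (formal_r2 F U k n) (formal_r3 D U n)
      (if n = 0 then e else 0) (U (n + 1)) (k (n + 1)) ∧
      D.mean (formal_L F (U (n + 1)) (k (n + 1)) - formal_r4 F U n) = 0

theorem formal_C_congr {e : R} (h : ∀ i ≤ n, U i = U' i) (hk : ∀ i ≤ n, k i = k' i)
    (hC : formal_C F e U k n) : formal_C F e U' k' n := by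
  cases n with
  | zero => rw [formal_C, ← h 0 le_rfl, ← hk 0 le_rfl]; exact hC
  | succ n =>
    have h' : ∀ i ≤ n, U i = U' i := fun i hi => h i (by omega)
    rw [formal_C, ← h _ le_rfl, ← hk _ le_rfl, ← formal_r1_congr F h' (hk n (by omega)),
      ← formal_r2_congr F h' (hk n (by omega)), ← formal_r3_congr h', ← formal_r4_congr F h']
    exact hC

theorem formal_C_M {e : R} (hC : formal_C F e U k n) :
    (∀ i, formal_M D (U n i)) ∧ formal_M D (k n) := by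
  cases n with
  | zero =>
    rw [hC.1, hC.2]
    exact ⟨formal_U_M F, (formal_M_dot F.Θ_E2 (formal_U_M F)).cmul (formal_cγ F)⟩
  | succ n => exact ⟨hC.1.hZ, hC.1.hκ⟩

theorem formal_C_mean {e : R} (h0 : formal_C F e U k 0) (hC : formal_C F e U k n) :
    D.mean (formal_r2 F U k n) = 0 := by
  cases n with
  | zero => rw [formal_r2_zero F h0.1, h0.2]; exact formal_base_mean F
  | succ n => rw [formal_r2_succ F h0.1]; exact hC.2

theorem formal_exists {e : R} (he : formal_M D e) :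
    ∃ (U : ℕ → Fin 4 → R) (k : ℕ → R), ∀ n, formal_C F e U k n := by
  obtain ⟨f, hf⟩ := formal_rec (S := (Fin 4 → R) × R) (0, 0)
    (fun n f => formal_C F e (fun i => (f i).1) (fun i => (f i).2) n)
    (fun m f g h hC => formal_C_congr F (fun i hi => by rw [h i hi]) (fun i hi => by rw [h i hi]) hC)
    (fun n f h => by
      cases n with
      | zero => exact ⟨(formal_U F, -2 * F.γ * (F.E2 ⬝ᵥ formal_U F)), by simp [formal_C]⟩
      | succ n =>
        have hU : ∀ m ≤ n, ∀ i, formal_M D ((f m).1 i) := fun m hm =>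
          (formal_C_M F (h m (by omega))).1
        have hk : formal_M D (f n).2 := (formal_C_M F (h n (by omega))).2
        obtain ⟨Z, κ, h1, h2⟩ := formal_step F (e := if n = 0 then e else 0)
          (formal_r1_M F (U := fun i => (f i).1) (k := fun i => (f i).2) hU hk)
          (formal_r2_W1 F (U := fun i => (f i).1) (k := fun i => (f i).2) hU hk)
          (formal_C_mean F (h 0 (by omega)) (h n (by omega)))
          (formal_r3_M (U := fun i => (f i).1) hU)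
          (by split_ifs; exacts [he, formal_M_zero])
          (formal_r4_M F (U := fun i => (f i).1) hU)
        refine ⟨(Z, κ), ?_⟩
        have h' : ∀ i ≤ n, (f i).1 = (Function.update f (n + 1) (Z, κ) i).1 := fun i hi => by
          rw [Function.update_of_ne (by omega)]
        have hk' : (f n).2 = (Function.update f (n + 1) (Z, κ) n).2 := by
          rw [Function.update_of_ne (by omega)]
        rw [formal_C, Function.update_self,
          ← formal_r1_congr F (k := fun i => (f i).2) h' hk',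
          ← formal_r2_congr F (k := fun i => (f i).2) h' hk', ← formal_r3_congr h',
          ← formal_r4_congr F h']
        exact ⟨h1, h2⟩)
  exact ⟨_, _, hf⟩

theorem formal_e1 {e : R} (h : ∀ n, formal_C F e U k n) (n : ℕ) :
    conv (PP D.X D.Θ F.fx U) (PP D.X D.Θ F.fx U) n = rhs (F.fx ⬝ᵥ F.fx + D.a ^ 2) k F.H11 n := by
  cases n with
  | zero =>
    rw [conv, Finset.sum_range_one, formal_PP0 F (h 0).1, rhs, formal_T_eq, formal_fx_eq,
      formal_fr_dot, formal_fr_dot]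
    linear_combination F.r_sq + F.r ^ 2 * F.u_sq
  | succ n =>
    have h1 := (h (n + 1)).1.s1
    have h2 : ∑ i ∈ Finset.range n, PP D.X D.Θ F.fx U (i + 1) ⬝ᵥ
        PP D.X D.Θ F.fx U (n + 1 - (i + 1)) = ∑ i ∈ Finset.range n, PP D.X D.Θ F.fx U (i + 1) ⬝ᵥ
        PP D.X D.Θ F.fx U (n - (i + 1) + 1) := Finset.sum_congr rfl fun i hi => by
      have := Finset.mem_range.1 hi
      rw [show n + 1 - (i + 1) = n - (i + 1) + 1 by omega]
    rw [conv, Finset.sum_range_succ, Finset.sum_range_succ', h2, Nat.sub_self, Nat.sub_zero,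
      formal_PP0 F (h 0).1, rhs, dotProduct_comm _ (formal_T F),
      show PP D.X D.Θ F.fx U (n + 1) = vD D.Θ (U (n + 1)) + vD D.X (U n) from rfl, dotProduct_add]
    rw [formal_r1] at h1
    linear_combination h1

theorem formal_e2 {e : R} (h : ∀ n, formal_C F e U k n) (n : ℕ) :
    conv (PP D.X D.Θ F.fx U) (QQ D.Y F.b U) n = rhs (F.fx ⬝ᵥ F.b) k F.H12 n := by
  cases n with
  | zero =>
    rw [conv, Finset.sum_range_one, formal_PP0 F (h 0).1, rhs, formal_T_eq, formal_fx_eq,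
      show QQ D.Y F.b U (0 - 0) = F.b from rfl, dotProduct_comm, formal_b_dot, dotProduct_comm _ F.b,
      dotProduct_comm (formal_fr _ _ _ _ _), formal_b_dot]
  | succ n =>
    have h1 := (h (n + 1)).1.s2
    have h2 : ∑ i ∈ Finset.range (n + 1), PP D.X D.Θ F.fx U i ⬝ᵥ QQ D.Y F.b U (n + 1 - i) =
        ∑ i ∈ Finset.range (n + 1), PP D.X D.Θ F.fx U i ⬝ᵥ vD D.Y (U (n - i)) :=
      Finset.sum_congr rfl fun i hi => by
        have := Finset.mem_range.1 hi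
        rw [show n + 1 - i = n - i + 1 by omega, QQ]
    rw [conv, Finset.sum_range_succ, h2, Nat.sub_self, rhs, QQ,
      show PP D.X D.Θ F.fx U (n + 1) = vD D.Θ (U (n + 1)) + vD D.X (U n) from rfl, add_dotProduct]
    rw [formal_r2] at h1
    linear_combination h1

theorem formal_e3 {e : R} (h : ∀ n, formal_C F e U k n) (n : ℕ) :
    conv (QQ D.Y F.b U) (QQ D.Y F.b U) n = rhs (F.b ⬝ᵥ F.b) k F.H22 n := by
  rcases n with _ | _ | n
  · rw [conv, Finset.sum_range_one]; rfl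
  · rw [conv, Finset.sum_range_succ, Finset.sum_range_one, rhs, (h 0).2]
    change F.b ⬝ᵥ vD D.Y (U 0) + vD D.Y (U 0) ⬝ᵥ F.b = _
    rw [dotProduct_comm _ F.b, (h 0).1, formal_U_eq, formal_b_Y, formal_E2_dot, zero_mul, map_zero]
    ring
  · have h1 := (h (n + 1)).1.s3
    have h2 : ∑ i ∈ Finset.range (n + 1), QQ D.Y F.b U (i + 1) ⬝ᵥ
        QQ D.Y F.b U (n + 1 + 1 - (i + 1)) = formal_r3 D U n :=
      Finset.sum_congr rfl fun i hi => by
        have := Finset.mem_range.1 hi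
        rw [show n + 1 + 1 - (i + 1) = n - i + 1 by omega, QQ, QQ]
    rw [conv, Finset.sum_range_succ, Finset.sum_range_succ', h2, Nat.sub_self, Nat.sub_zero, rhs,
      QQ, QQ, dotProduct_comm _ F.b]
    linear_combination h1

end recur

theorem exists_series (D : DAlg R) (F : FData D) (e : R) (he : e ∈ D.W1) (he' : D.mean e ∈ D.W2) :
    ∃ (U : ℕ → Fin 4 → R) (k : ℕ → R), U 0 = D.a • (F.V1 • F.E1 + F.V2 • F.E2) ∧
      (∀ n i, U n i ∈ D.W1) ∧ (∀ n, k n ∈ D.W1) ∧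
      Eqs D.X D.Y D.Θ F.fx F.b D.a F.H11 F.H12 F.H22 U k ∧
      k 0 = -2 * F.γ * (F.E2 ⬝ᵥ U 0) ∧ k 1 = -2 * F.γ * (F.E2 ⬝ᵥ U 1) + e := by
  obtain ⟨U, k, h⟩ := formal_exists F (e := e) ⟨he, he'⟩
  refine ⟨U, k, (h 0).1, fun n i => ((formal_C_M F (h n)).1 i).1, fun n => (formal_C_M F (h n)).2.1,
    ⟨formal_e1 F h, formal_e2 F h, formal_e3 F h⟩, ?_, ?_⟩
  · rw [(h 0).2, (h 0).1]
  · simpa using (h 1).1.s4

end Crest.Agent.R216
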