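import Crest.Agent.R216.Tilt

/-!
# R216: the adapted frame
-/

set_option autoImplicit false
set_option linter.unusedSectionVars false

open scoped Manifold ContDiff Topology
open Matrix

noncomputable section

namespace Crest.Agent.R216

open Real Per

namespace LocData

variable {ι : Type} [Fintype ι] {L : LocData ι}

/-- Four nonzero pairwise orthogonal vectors of `ℝ⁴` form a basis. -/
theorem span4 (E1 E2 ν b x : V4) (h1 : E1 ⬝ᵥ E1 = 1) (h2 : E2 ⬝ᵥ E2 = 1) (h3 : ν ⬝ᵥ ν = 1)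
    (hb : b ≠ 0) (h12 : E1 ⬝ᵥ E2 = 0) (h13 : E1 ⬝ᵥ ν = 0) (h23 : E2 ⬝ᵥ ν = 0) (h1b : E1 ⬝ᵥ b = 0)
    (h2b : E2 ⬝ᵥ b = 0) (h3b : ν ⬝ᵥ b = 0) :
    x = (x ⬝ᵥ E1) • E1 + (x ⬝ᵥ E2) • E2 + (x ⬝ᵥ ν) • ν + ((x ⬝ᵥ b) / (b ⬝ᵥ b)) • b := by
  have hbb : b ⬝ᵥ b ≠ 0 := fun h => hb (dotProduct_self_eq_zero.1 h)
  have hg : 0 < gram2 E1 E2 := by rw [gram2, h1, h2, h12]; norm_num
  have key : ∀ A : V4, A ⬝ᵥ x = A ⬝ᵥ ((x ⬝ᵥ E1) • E1 + (x ⬝ᵥ E2) • E2 + (x ⬝ᵥ ν) • ν +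
      ((x ⬝ᵥ b) / (b ⬝ᵥ b)) • b) := fun A => by
    rw [dot_split E1 E2 ν b A x hg h3 hb (by rwa [dotProduct_comm]) (by rwa [dotProduct_comm])
      (by rwa [dotProduct_comm]) (by rwa [dotProduct_comm]) h3b]
    simp only [tang, h1, h2, h12, dotProduct_add, dotProduct_smul, smul_eq_mul]
    rw [dotProduct_comm A E1, dotProduct_comm A E2, dotProduct_comm A ν, dotProduct_comm A b,
      dotProduct_comm x E1, dotProduct_comm x E2, dotProduct_comm x ν, dotProduct_comm x b]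
    field_simp
    ring
  ext i
  simpa only [single_one_dotProduct] using key (Pi.single i 1)

/-- Normalisation. -/
def frN (x : V4) : V4 := (√(x ⬝ᵥ x))⁻¹ • x

theorem fr_pos {x : V4} (hx : x ≠ 0) : 0 < x ⬝ᵥ x :=
  (a4_self_nonneg x).lt_of_ne fun h => hx (dotProduct_self_eq_zero.1 h.symm)

theorem frN_eq {x : V4} (hx : x ≠ 0) : ∃ t : ℝ, 0 < t ∧ frN x = t • x ∧ frN x ⬝ᵥ frN x = 1 := by
  have h := fr_pos hx
  have h' := Real.sqrt_pos.2 h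
  refine ⟨_, inv_pos.2 h', rfl, ?_⟩
  simp only [frN, smul_dotProduct, dotProduct_smul, smul_eq_mul]
  nth_rewrite 3 [← Real.mul_self_sqrt h.le]
  field_simp

theorem fr_dot_sm {u v : R2 → V4} (hu : ContDiff ℝ ∞ u) (hv : ContDiff ℝ ∞ v) :
    ContDiff ℝ ∞ fun z => u z ⬝ᵥ v z :=
  ContDiff.sum fun i _ => (contDiff_pi.1 hu i).mul (contDiff_pi.1 hv i)

theorem fr_cross_sm {a b c : R2 → V4} (ha : ContDiff ℝ ∞ a) (hb : ContDiff ℝ ∞ b)
    (hc : ContDiff ℝ ∞ c) : ContDiff ℝ ∞ fun z => cross3 (a z) (b z) (c z) := by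
  have h : ∀ i j k, ContDiff ℝ ∞ fun z => d3 (a z) (b z) (c z) i j k := fun i j k => by
    have ha := contDiff_pi.1 ha
    have hb := contDiff_pi.1 hb
    have hc := contDiff_pi.1 hc
    exact (((ha i).mul (((hb j).mul (hc k)).sub ((hb k).mul (hc j)))).sub
      ((ha j).mul (((hb i).mul (hc k)).sub ((hb k).mul (hc i))))).add
      ((ha k).mul (((hb i).mul (hc j)).sub ((hb j).mul (hc i))))
  refine contDiff_pi.2 fun i => ?_
  fin_cases i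
  exacts [(h 1 2 3).neg, h 0 2 3, (h 0 1 3).neg, h 0 1 2]

theorem frN_sm {u : R2 → V4} (hu : ContDiff ℝ ∞ u) {Ω : Set R2} (h : ∀ z ∈ Ω, u z ≠ 0) :
    ContDiffOn ℝ ∞ (fun z => frN (u z)) Ω :=
  (((fr_dot_sm hu hu).contDiffOn.sqrt fun z hz => (fr_pos (h z hz)).ne').inv
    fun z hz => (Real.sqrt_pos.2 (fr_pos (h z hz))).ne').smul hu.contDiffOn

/-- The frame before normalisation. -/
def frB (a b c : V4) (δ : ℝ) : V4 :=
  gram2 a b • cross3 a b c + δ • -cross3 a b (cross3 a b c)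
def frA (a b c : V4) (δ : ℝ) : V4 := -cross3 b c (frB a b c δ)
def frC (a b c : V4) (δ : ℝ) : V4 := cross3 b (frA a b c δ) (frB a b c δ)

theorem fr_swap1 (a b c d : V4) : cross3 a b d ⬝ᵥ c = -(cross3 a b c ⬝ᵥ d) := by
  simp [cross3, d3, dotProduct, Fin.sum_univ_four]; ring
theorem fr_swap2 (a b c d : V4) : cross3 b c d ⬝ᵥ a = -(cross3 a b c ⬝ᵥ d) := by
  simp [cross3, d3, dotProduct, Fin.sum_univ_four]; ring
theorem fr_swap3 (a b c d : V4) : cross3 a d c ⬝ᵥ b = -(cross3 a b c ⬝ᵥ d) := by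
  simp [cross3, d3, dotProduct, Fin.sum_univ_four]; ring

/-- The pointwise properties of the frame. -/
structure FrPt (a b c : V4) (δ : ℝ) (E1 E2 ν : V4) : Prop where
  E11 : E1 ⬝ᵥ E1 = 1
  E22 : E2 ⬝ᵥ E2 = 1
  νν : ν ⬝ᵥ ν = 1
  E12 : E1 ⬝ᵥ E2 = 0
  E1ν : E1 ⬝ᵥ ν = 0
  E2ν : E2 ⬝ᵥ ν = 0
  E1b : E1 ⬝ᵥ b = 0
  E2b : E2 ⬝ᵥ b = 0
  νb : ν ⬝ᵥ b = 0
  aE1 : 0 < a ⬝ᵥ E1
  aE2 : a ⬝ᵥ E2 = 0
  cE1 : c ⬝ᵥ E1 = 0
  cE2 : δ = 0 → c ⬝ᵥ E2 = 0
  cν : 0 < c ⬝ᵥ ν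
  b_ne : b ≠ 0
  tilt : ∃ t : ℝ, 0 < t ∧ (a ⬝ᵥ E1) • ν - (a ⬝ᵥ ν) • E1 =
    t • (-cross3 a b (cross3 a b c) - δ • cross3 a b c)

theorem fr_raw {a b c : V4} (δ : ℝ) (hN : cross3 a b c ≠ 0) :
    0 < a ⬝ᵥ frA a b c δ ∧ 0 < cross3 a b c ⬝ᵥ frB a b c δ ∧ 0 < c ⬝ᵥ frC a b c δ := by
  have hg := gram2_pos_of_cross3 hN
  have hNN := fr_pos hN
  have h1 : 0 < cross3 a b c ⬝ᵥ frB a b c δ := by
    rw [frB, dotProduct_add, dotProduct_smul, dotProduct_smul, dotProduct_neg,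
      dotProduct_comm _ (cross3 a b (cross3 a b c)), cross3_dot_trd]
    simpa using mul_pos hg hNN
  have h2 : 0 < a ⬝ᵥ frA a b c δ := by
    rwa [frA, dotProduct_neg, dotProduct_comm, fr_swap2, neg_neg]
  refine ⟨h2, h1, ?_⟩
  have h3 : frA a b c δ ≠ 0 := fun h => by simp [h] at h2
  rw [dotProduct_comm, frC, fr_swap3, ← neg_dotProduct]
  exact fr_pos h3

theorem fr_ne {a b c : V4} (δ : ℝ) (hN : cross3 a b c ≠ 0) :
    frA a b c δ ≠ 0 ∧ frB a b c δ ≠ 0 ∧ frC a b c δ ≠ 0 := by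
  obtain ⟨h1, h2, h3⟩ := fr_raw δ hN
  exact ⟨fun h => by simp [h] at h1, fun h => by simp [h] at h2, fun h => by simp [h] at h3⟩

theorem fr_pt {a b c : V4} (δ : ℝ) (hN : cross3 a b c ≠ 0) :
    FrPt a b c δ (frN (frA a b c δ)) (frN (frB a b c δ)) (frN (frC a b c δ)) := by
  have hg := gram2_pos_of_cross3 hN
  have hNN := fr_pos hN
  obtain ⟨pA, -, pC⟩ := fr_raw δ hN
  obtain ⟨nA, nB, nC⟩ := fr_ne δ hN
  obtain ⟨t1, ht1, e1, h11⟩ := frN_eq nA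
  obtain ⟨t2, ht2, e2, h22⟩ := frN_eq nB
  obtain ⟨t3, ht3, e3, h33⟩ := frN_eq nC
  have hb : b ≠ 0 := fun h => by simp [h, gram2] at hg
  have Na := cross3_dot_fst a b c
  have Nb := cross3_dot_snd a b c
  have Nc := cross3_dot_trd a b c
  have va := cross3_dot_fst a b (cross3 a b c)
  have vb := cross3_dot_snd a b (cross3 a b c)
  have vN := cross3_dot_trd a b (cross3 a b c)
  have vc := fr_swap1 a b c (cross3 a b c)
  have vv : cross3 a b (cross3 a b c) ⬝ᵥ cross3 a b (cross3 a b c) =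
      gram2 a b * (cross3 a b c ⬝ᵥ cross3 a b c) := by
    rw [cross3_dot_cross3, Na, Nb, dotProduct_comm a (cross3 a b c), dotProduct_comm b (cross3 a b c),
      Na, Nb, gram2]
    ring
  have Ba : frB a b c δ ⬝ᵥ a = 0 := by simp [frB, add_dotProduct, Na, va]
  have Bb : frB a b c δ ⬝ᵥ b = 0 := by simp [frB, add_dotProduct, Nb, vb]
  have Bc : frB a b c δ ⬝ᵥ c = δ * (cross3 a b c ⬝ᵥ cross3 a b c) := by
    simp [frB, add_dotProduct, Nc, vc]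
  have Ab : frA a b c δ ⬝ᵥ b = 0 := by rw [frA, neg_dotProduct, cross3_dot_fst, neg_zero]
  have Ac : frA a b c δ ⬝ᵥ c = 0 := by rw [frA, neg_dotProduct, cross3_dot_snd, neg_zero]
  have AB : frA a b c δ ⬝ᵥ frB a b c δ = 0 := by rw [frA, neg_dotProduct, cross3_dot_trd, neg_zero]
  have Cb : frC a b c δ ⬝ᵥ b = 0 := cross3_dot_fst _ _ _
  have CA : frC a b c δ ⬝ᵥ frA a b c δ = 0 := cross3_dot_snd _ _ _
  have CB : frC a b c δ ⬝ᵥ frB a b c δ = 0 := cross3_dot_trd _ _ _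
  have lB : (-cross3 a b (cross3 a b c) - δ • cross3 a b c) ⬝ᵥ frB a b c δ = 0 := by
    simp only [frB, sub_dotProduct, dotProduct_add, neg_dotProduct, dotProduct_neg, smul_dotProduct,
      dotProduct_smul, smul_eq_mul, vN, vv, dotProduct_comm (cross3 a b c) (cross3 a b (cross3 a b c))]
    ring
  have la : (-cross3 a b (cross3 a b c) - δ • cross3 a b c) ⬝ᵥ a = 0 := by
    simp [sub_dotProduct, va, Na]
  have lb : (-cross3 a b (cross3 a b c) - δ • cross3 a b c) ⬝ᵥ b = 0 := by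
    simp [sub_dotProduct, vb, Nb]
  have lc : 0 < (-cross3 a b (cross3 a b c) - δ • cross3 a b c) ⬝ᵥ c := by
    simpa [sub_dotProduct, vc, Nc] using hNN
  have h12 : frN (frA a b c δ) ⬝ᵥ frN (frB a b c δ) = 0 := by simp [e1, e2, AB]
  have h13 : frN (frA a b c δ) ⬝ᵥ frN (frC a b c δ) = 0 := by
    rw [dotProduct_comm]; simp [e1, e3, CA]
  have h23 : frN (frB a b c δ) ⬝ᵥ frN (frC a b c δ) = 0 := by
    rw [dotProduct_comm]; simp [e2, e3, CB]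
  have h1b : frN (frA a b c δ) ⬝ᵥ b = 0 := by simp [e1, Ab]
  have h2b : frN (frB a b c δ) ⬝ᵥ b = 0 := by simp [e2, Bb]
  have h3b : frN (frC a b c δ) ⬝ᵥ b = 0 := by simp [e3, Cb]
  have aE1 : 0 < a ⬝ᵥ frN (frA a b c δ) := by
    rw [e1, dotProduct_smul]; exact mul_pos ht1 pA
  have cE1 : frN (frA a b c δ) ⬝ᵥ c = 0 := by simp [e1, Ac]
  have cν : 0 < c ⬝ᵥ frN (frC a b c δ) := by
    rw [e3, dotProduct_smul]; exact mul_pos ht3 pC
  have l2 : (-cross3 a b (cross3 a b c) - δ • cross3 a b c) ⬝ᵥ frN (frB a b c δ) = 0 := by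
    rw [e2, dotProduct_smul, lB, smul_zero]
  refine ⟨h11, h22, h33, h12, h13, h23, h1b, h2b, h3b, aE1, ?_, ?_, fun h => ?_, cν, hb, ?_⟩
  · rw [dotProduct_comm, e2, smul_dotProduct, Ba, smul_zero]
  · rwa [dotProduct_comm]
  · rw [dotProduct_comm, e2, smul_dotProduct, Bc, h, zero_mul, smul_zero]
  · have hl := span4 _ _ _ b (-cross3 a b (cross3 a b c) - δ • cross3 a b c) h11 h22 h33 hb h12 h13 h23
      h1b h2b h3b
    rw [l2, lb, zero_div, zero_smul, zero_smul, add_zero, add_zero] at hl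
    generalize -cross3 a b (cross3 a b c) - δ • cross3 a b c = l at hl la lc ⊢
    generalize frN (frA a b c δ) = E1 at hl aE1 cE1 ⊢
    generalize frN (frC a b c δ) = ν at hl cν ⊢
    generalize l ⬝ᵥ E1 = α at hl
    generalize l ⬝ᵥ ν = α' at hl
    subst hl
    simp only [add_dotProduct, smul_dotProduct, smul_eq_mul, cE1, mul_zero, zero_add,
      dotProduct_comm E1 a, dotProduct_comm ν a, dotProduct_comm ν c] at la lc
    have hα : 0 < α' := (mul_pos_iff_of_pos_right cν).1 lc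
    refine ⟨a ⬝ᵥ E1 / α', div_pos aE1 hα, ?_⟩
    have h1 : a ⬝ᵥ E1 / α' * α = -(a ⬝ᵥ ν) := by field_simp; linarith
    rw [smul_add, smul_smul, smul_smul, h1, div_mul_cancel₀ _ hα.ne', neg_smul, neg_add_eq_sub]

/-- With `fx, b = fy, c = fyy`, `g = gram2 fx b`, `N₀ = cross3 fx b c`, `v = - cross3 fx b N₀` (`|v|² = g |N₀|²` by `cross3_dot_cross3`), `δ, μ` from
`exists_tilt`: `Ẽ₂ = g • N₀ + δ • v`, `Ẽ₁ = - cross3 b c Ẽ₂`, `ν̃ = cross3 b Ẽ₁ Ẽ₂`. Determinant identities (`cross3_dot`, or `simp [cross3, d3]; ring`):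
`fx ⬝ Ẽ₁ = N₀ ⬝ Ẽ₂ = g |N₀|²`, `c ⬝ ν̃ = |Ẽ₁|²`, `c ⬝ Ẽ₁ = 0`, `c ⬝ Ẽ₂ = δ |N₀|²`, `fx ⬝ Ẽ₂ = 0`, `Ẽ₂ ⊥ v - δ N₀`. On the open set `Ω₀ = {N₀ ≠ 0} ⊇ K` (there `g > 0`) all three are
nonzero; normalise. `p0 = fx ⬝ E1 > 0`, `β1 = fx ⬝ ν`, `β' = fx ⬝ b/|b|²`, `c' = c ⬝ ν > 0`, `cb = c ⬝ b/|b|²`, `γ = (c ⬝ E2) Φ(H22)` with `Φ` smooth, `Φ t = t⁻¹` for `t ≥ μ/2`
(or glue: `γ = 0` on `{H22 < μ}`, `(c ⬝ E2)/H22` on `{H22 > 0}`). `Ω` open with `K ⊆ Ω ⊆ closure Ω ⊆ Ω₀` (`exists_open_between_and_isCompact_closure`), extend by `exists_extend`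
(`s = univ` or `Ioi 0`). Tilt: expand `l = v - δ N₀` by `span4`: `l = α E1 + α' ν` (`l ⊥ E2, b`), `l ⊥ fx` gives `α p0 + α' β1 = 0`, `l ⬝ c = α' c' = |N₀|² > 0`, so
`p0 ν - β1 E1 = (p0/α') l`. -/
theorem exists_frame (L : LocData ι) : Nonempty L.Frame := by
  obtain ⟨δ, μ, hδ, hμ, hδ0, ht⟩ := exists_tilt L
  have ha := dx_sm L.f_sm
  have hb := dy_sm L.f_sm
  have hc := dy_sm hb
  have hN := fr_cross_sm ha hb hc
  have hB : ContDiff ℝ ∞ fun z => frB (dx L.f z) (dy L.f z) (dy (dy L.f) z) (δ z) :=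
    ((((fr_dot_sm ha ha).mul (fr_dot_sm hb hb)).sub ((fr_dot_sm ha hb).pow 2)).smul hN).add
      (hδ.smul (fr_cross_sm ha hb hN).neg)
  have hA : ContDiff ℝ ∞ fun z => frA (dx L.f z) (dy L.f z) (dy (dy L.f) z) (δ z) :=
    (fr_cross_sm hb hc hB).neg
  have hC : ContDiff ℝ ∞ fun z => frC (dx L.f z) (dy L.f z) (dy (dy L.f) z) (δ z) :=
    fr_cross_sm hb hA hB
  set Ω₀ : Set R2 := {z | cross3 (dx L.f z) (dy L.f z) (dy (dy L.f) z) ≠ 0} with hΩ₀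
  have o₀ : IsOpen Ω₀ := isOpen_ne_fun hN.continuous continuous_const
  obtain ⟨Ω, oΩ, hK, hcl, -⟩ := exists_open_between_and_isCompact_closure L.cpt o₀
    fun z hz => N0_ne hz
  have sA := frN_sm hA (Ω := Ω₀) fun z hz => (fr_ne (δ z) hz).1
  have sB := frN_sm hB (Ω := Ω₀) fun z hz => (fr_ne (δ z) hz).2.1
  have sC := frN_sm hC (Ω := Ω₀) fun z hz => (fr_ne (δ z) hz).2.2
  have dot : ∀ {u v : R2 → V4}, ContDiffOn ℝ ∞ u Ω₀ → ContDiffOn ℝ ∞ v Ω₀ →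
      ContDiffOn ℝ ∞ (fun z => u z ⬝ᵥ v z) Ω₀ := fun hu hv =>
    ContDiffOn.sum fun i _ => (contDiffOn_pi.1 hu i).mul (contDiffOn_pi.1 hv i)
  obtain ⟨E1, s1, e1, -⟩ := exists_extend o₀ isClosed_closure hcl sA convex_univ Set.univ_nonempty
    fun _ _ => Set.mem_univ _
  obtain ⟨E2, s2, e2, -⟩ := exists_extend o₀ isClosed_closure hcl sB convex_univ Set.univ_nonempty
    fun _ _ => Set.mem_univ _
  obtain ⟨ν, s3, e3, -⟩ := exists_extend o₀ isClosed_closure hcl sC convex_univ Set.univ_nonempty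
    fun _ _ => Set.mem_univ _
  obtain ⟨p0, s4, e4, p4⟩ := exists_extend o₀ isClosed_closure hcl (dot ha.contDiffOn sA)
    (convex_Ioi 0) Set.nonempty_Ioi fun z hz => (fr_pt (δ z) hz).aE1
  obtain ⟨c', s5, e5, p5⟩ := exists_extend o₀ isClosed_closure hcl (dot hc.contDiffOn sC)
    (convex_Ioi 0) Set.nonempty_Ioi fun z hz => (fr_pt (δ z) hz).cν
  obtain ⟨ib, s6, e6, -⟩ := exists_extend o₀ isClosed_closure hcl
    ((fr_dot_sm hb hb).contDiffOn.inv fun z hz => (fr_pos (fr_pt (δ z) hz).b_ne).ne')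
    convex_univ Set.univ_nonempty fun _ _ => Set.mem_univ _
  obtain ⟨iH, s7, e7, -⟩ := exists_extend (Ω := {z | 0 < L.H22 z}) (C := {z | μ ≤ L.H22 z})
    (isOpen_lt continuous_const L.H22_sm.continuous) (isClosed_le continuous_const L.H22_sm.continuous)
    (fun z hz => hμ.trans_le hz) (L.H22_sm.contDiffOn.inv fun z hz => ne_of_gt hz)
    convex_univ Set.univ_nonempty fun _ _ => Set.mem_univ _
  have P : ∀ z ∈ Ω, FrPt (dx L.f z) (dy L.f z) (dy (dy L.f) z) (δ z) (E1 z) (E2 z) (ν z) := fun z hz => by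
    have hz' := subset_closure hz
    rw [e1 z hz', e2 z hz', e3 z hz']
    exact fr_pt (δ z) (hcl hz')
  have e4' : ∀ z ∈ Ω, p0 z = dx L.f z ⬝ᵥ E1 z := fun z hz => by
    rw [e4 z (subset_closure hz), e1 z (subset_closure hz)]
  have e5' : ∀ z ∈ Ω, c' z = dy (dy L.f) z ⬝ᵥ ν z := fun z hz => by
    rw [e5 z (subset_closure hz), e3 z (subset_closure hz)]
  have sp : ∀ z (hz : z ∈ Ω) (x : V4), x = (x ⬝ᵥ E1 z) • E1 z + (x ⬝ᵥ E2 z) • E2 z + (x ⬝ᵥ ν z) • ν z +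
      ((x ⬝ᵥ dy L.f z) * ib z) • dy L.f z := fun z hz x => by
    have h := P z hz
    rw [e6 z (subset_closure hz)]
    exact span4 _ _ _ _ x h.E11 h.E22 h.νν h.b_ne h.E12 h.E1ν h.E2ν h.E1b h.E2b h.νb
  refine ⟨⟨Ω, E1, E2, ν, p0, fun z => dx L.f z ⬝ᵥ ν z, fun z => (dx L.f z ⬝ᵥ dy L.f z) * ib z,
    fun z => (dy (dy L.f) z ⬝ᵥ E2 z) * iH z, c', fun z => (dy (dy L.f) z ⬝ᵥ dy L.f z) * ib z,
    s1, s2, s3, s4, fr_dot_sm ha s3, (fr_dot_sm ha hb).mul s6, (fr_dot_sm hc s2).mul s7, s5,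
    (fr_dot_sm hc hb).mul s6, oΩ, fun z hz => hK hz, p4, p5, fun z hz => (P z hz).E11,
    fun z hz => (P z hz).E22, fun z hz => (P z hz).νν, fun z hz => (P z hz).E12,
    fun z hz => (P z hz).E1ν, fun z hz => (P z hz).E2ν, fun z hz => (P z hz).E1b,
    fun z hz => (P z hz).E2b, fun z hz => (P z hz).νb, fun z hz => ?_, fun z hz => ?_,
    fun z hz k hk => ?_⟩⟩
  · have h := sp z hz (dx L.f z)
    rw [(P z hz).aE2, zero_smul, add_zero, ← e4' z hz] at h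
    exact h
  · have h := sp z hz (dy (dy L.f) z)
    rw [(P z hz).cE1, zero_smul, zero_add, ← e5' z hz] at h
    have h2 : dy (dy L.f) z ⬝ᵥ E2 z * iH z * L.H22 z = dy (dy L.f) z ⬝ᵥ E2 z := by
      rcases le_total (L.H22 z) μ with h3 | h3
      · rw [(P z hz).cE2 (hδ0 z h3), zero_mul, zero_mul]
      · rw [e7 z h3, mul_assoc, Pi.inv_apply, inv_mul_cancel₀ (hμ.trans_le h3).ne', mul_one]
    rw [h2]
    refine h.trans ?_
    abel
  · have hz' : z ∈ Ω := hK hz.ge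
    obtain ⟨t, ht0, e⟩ := (P z hz').tilt
    rw [e4' z hz', e, smul_dotProduct]
    exact mul_pos ht0 (ht z hz k hk)

end LocData

end Crest.Agent.R216
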