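import Crest.Agent.R216.FDefs
import Crest.Agent.R216.Api4

/-!
# R216: order-zero consequences of the formal equations
-/

set_option autoImplicit false
set_option linter.unusedSectionVars false
set_option linter.unusedVariables false

open scoped Manifold ContDiff Topology
open Matrix

noncomputable section

namespace Crest.Agent.R216

section

variable {R : Type} [CommRing R] [Algebra ℝ R]

/-- Order-zero part of `∂ₓ∂ₓ F`. -/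
def AA (X Θ : Derivation ℝ R R) (fx : Fin 4 → R) (U : ℕ → Fin 4 → R) : Fin 4 → R :=
  vD X (PP X Θ fx U 0) + vD Θ (PP X Θ fx U 1)

variable {X Y Θ : Derivation ℝ R R} {fx b : Fin 4 → R} {a H11 H12 H22 : R}
  {U : ℕ → Fin 4 → R} {k : ℕ → R}

theorem gs_add (δ : Derivation ℝ R R) (P Q : Fin 4 → R) : vD δ (P + Q) = vD δ P + vD δ Q := by
  funext i; simp [vD]

theorem gs_sub (δ : Derivation ℝ R R) (P Q : Fin 4 → R) : vD δ (P - Q) = vD δ P - vD δ Q := by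
  funext i; simp [vD]

theorem gs_zero (δ : Derivation ℝ R R) : vD δ (0 : Fin 4 → R) = 0 := by
  funext i; simp [vD]

theorem gs_dot (δ : Derivation ℝ R R) (P Q : Fin 4 → R) :
    δ (P ⬝ᵥ Q) = vD δ P ⬝ᵥ Q + P ⬝ᵥ vD δ Q := by
  simp only [dotProduct, map_sum, vD, Derivation.leibniz, smul_eq_mul, ← Finset.sum_add_distrib]
  exact Finset.sum_congr rfl fun i _ => by ring

theorem gs_comm {δ δ' : Derivation ℝ R R} (h : ∀ u, δ (δ' u) = δ' (δ u)) (P : Fin 4 → R) :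
    vD δ (vD δ' P) = vD δ' (vD δ P) := by
  funext i; exact h _

theorem gs_half {x : R} (h : 2 * x = 0) : x = 0 := by
  have e : (algebraMap ℝ R (1 / 2)) * 2 = 1 := by
    have : (2 : R) = algebraMap ℝ R 2 := by simp [map_ofNat]
    rw [this, ← map_mul]; norm_num
  calc x = (algebraMap ℝ R (1 / 2) * 2) * x := by rw [e, one_mul]
    _ = 0 := by rw [mul_assoc, h, mul_zero]

theorem gs_eqs (h : Eqs X Y Θ fx b a H11 H12 H22 U k) :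
    fx ⬝ᵥ fx + a ^ 2 = PP X Θ fx U 0 ⬝ᵥ PP X Θ fx U 0 ∧
    k 0 * H11 = PP X Θ fx U 0 ⬝ᵥ PP X Θ fx U 1 + PP X Θ fx U 1 ⬝ᵥ PP X Θ fx U 0 ∧
    fx ⬝ᵥ b = PP X Θ fx U 0 ⬝ᵥ b ∧
    k 0 * H12 = PP X Θ fx U 0 ⬝ᵥ vD Y (U 0) + PP X Θ fx U 1 ⬝ᵥ b ∧
    k 0 * H22 = b ⬝ᵥ vD Y (U 0) + vD Y (U 0) ⬝ᵥ b ∧
    k 1 * H22 = b ⬝ᵥ vD Y (U 1) + vD Y (U 0) ⬝ᵥ vD Y (U 0) + vD Y (U 1) ⬝ᵥ b := by
  refine ⟨?_, ?_, ?_, ?_, ?_, ?_⟩
  · simpa [conv, rhs] using (h.e1 0).symm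
  · simpa [conv, rhs, Finset.sum_range_succ] using (h.e1 1).symm
  · simpa [conv, rhs, QQ] using (h.e2 0).symm
  · simpa [conv, rhs, QQ, Finset.sum_range_succ] using (h.e2 1).symm
  · simpa [conv, rhs, QQ, Finset.sum_range_succ] using (h.e3 1).symm
  · simpa [conv, rhs, QQ, Finset.sum_range_succ] using (h.e3 2).symm

/-- Differentiate `e1 0, e1 1, e2 0, e2 1, e3 0, e3 1, e3 2`. Write `P₀ = T`, `P₁`, `Q₀ = b`,
`Q₁ = Y U₀`, `Q₂ = Y U₁`; compatibility: `Y P₀ = X Q₀ + Θ Q₁`, `Y P₁ = X Q₁ + Θ Q₂`, `Θ Q₀ = 0`.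
First prove `D (V ⬝ W) = vD D V ⬝ W + V ⬝ vD D W`. The last identity is the Gauss equation
`∂x∂y (P⬝Q) - ½ ∂y² (P⬝P) - ½ ∂x² (Q⬝Q) = P_x ⬝ Q_y - P_y ⬝ P_y` at order zero:
`X Y (P₀⬝Q₀) + Θ Y (P₁⬝Q₀ + P₀⬝Q₁) - ½ Y Y (P₀⬝P₀) - ½ (X X (Q₀⬝Q₀) + 2 X Θ (2 Q₀⬝Q₁) + Θ Θ (2 Q₀⬝Q₂ + Q₁⬝Q₁))`. -/
theorem gauss (hXY : ∀ u, X (Y u) = Y (X u)) (hXΘ : ∀ u, X (Θ u) = Θ (X u))
    (hYΘ : ∀ u, Y (Θ u) = Θ (Y u)) (hfx : vD Θ fx = 0) (hb : vD Θ b = 0) (ha : Θ a = 0)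
    (hc : vD Y fx = vD X b) (h : Eqs X Y Θ fx b a H11 H12 H22 U k) :
    let T := PP X Θ fx U 0
    let w := vD Θ T
    let A := AA X Θ fx U
    let M := vD Y T
    let c := vD Y b
    let g11 := fx ⬝ᵥ fx + a ^ 2
    let g12 := fx ⬝ᵥ b
    let g22 := b ⬝ᵥ b
    T ⬝ᵥ T = g11 ∧ T ⬝ᵥ b = g12 ∧ w ⬝ᵥ T = 0 ∧ w ⬝ᵥ b = 0 ∧
    2 * (T ⬝ᵥ A) + 2 * (w ⬝ᵥ PP X Θ fx U 1) = X g11 + Θ (k 0 * H11) ∧
    2 * (T ⬝ᵥ M) = Y g11 ∧
    b ⬝ᵥ A + T ⬝ᵥ M + w ⬝ᵥ vD Y (U 0) = X g12 + Θ (k 0 * H12) ∧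
    2 * (b ⬝ᵥ M) = X g22 + Θ (k 0 * H22) ∧
    T ⬝ᵥ c + b ⬝ᵥ M = Y g12 ∧
    2 * (b ⬝ᵥ c) = Y g22 ∧
    2 * (A ⬝ᵥ c + w ⬝ᵥ vD Y (vD Y (U 0)) - M ⬝ᵥ M) =
      2 * X (Y g12) - Y (Y g11) - X (X g22) + 2 * Θ (Y (k 0 * H12)) - 2 * X (Θ (k 0 * H22))
        - Θ (Θ (k 1 * H22)) := by
  intro T w A M c g11 g12 g22
  obtain ⟨e10, e11, e20, e21, e31, e32⟩ := gs_eqs h
  have hΘ11 : Θ g11 = 0 := by
    simp [g11, gs_dot, hfx, ha, pow_two, Derivation.leibniz]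
  have hΘ12 : Θ g12 = 0 := by simp [g12, gs_dot, hfx, hb]
  have e10' : g11 = T ⬝ᵥ T := e10
  have e20' : g12 = T ⬝ᵥ b := e20
  have hM : vD Y T = vD X b + vD Θ (vD Y (U 0)) := by
    simp only [T, PP, gs_add, hc, gs_comm hYΘ]
  have hP1 : vD Y (PP X Θ fx U 1) = vD Θ (vD Y (U 1)) + vD X (vD Y (U 0)) := by
    simp only [PP, gs_add, gs_comm hYΘ, ← gs_comm hXY, zero_add]
  have hΘc : vD Θ (vD Y b) = 0 := by rw [← gs_comm hYΘ, hb, gs_zero]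
  have hΘXb : vD Θ (vD X b) = 0 := by rw [← gs_comm hXΘ, hb, gs_zero]
  have hYX : vD Y (vD X b) = vD X (vD Y b) := (gs_comm hXY b).symm
  have hΘX : vD Θ (vD X (vD Y (U 0))) = vD X (vD Θ (vD Y (U 0))) := (gs_comm hXΘ _).symm
  have hYΘ' : vD Y (vD Θ (vD Y (U 0))) = vD Θ (vD Y (vD Y (U 0))) := gs_comm hYΘ _
  have hA : A = vD X T + vD Θ (PP X Θ fx U 1) := rfl
  have hw : w = vD Θ T := rfl
  have hMM : M = vD Y T := rfl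
  have hcc : c = vD Y b := rfl
  have hg22 : g22 = b ⬝ᵥ b := rfl
  change k 0 * H11 = T ⬝ᵥ _ + _ ⬝ᵥ T at e11
  change k 0 * H12 = T ⬝ᵥ _ + _ at e21
  clear_value T w A M c g11 g12 g22
  subst hA hw hMM hcc hg22 e10' e20'
  generalize PP X Θ fx U 1 = P1 at *
  generalize vD Y (U 0) = Q1 at *
  generalize vD Y (U 1) = Q2 at *
  rw [e11, e21, e31, e32]
  rw [gs_dot] at hΘ11 hΘ12
  rw [hb, dotProduct_zero, add_zero] at hΘ12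
  refine ⟨rfl, rfl, gs_half ?_, hΘ12, ?_, ?_, ?_, ?_, ?_, ?_, ?_⟩
  · rw [dotProduct_comm T] at hΘ11; linear_combination hΘ11
  all_goals
    simp only [map_add, gs_dot, hM, hP1, gs_add, hb, hΘc, hΘXb, hYX, hΘX, hYΘ', gs_zero]
    simp only [dotProduct, Fin.sum_univ_four, Pi.add_apply, Pi.zero_apply]
    ring

/-- Two series with the same `U 0`, `k 0`: identities for `Δ = A' - A = Θ Θ (U' 1 - U 1)`.
From `e1 1`: `T ⬝ Θ d = 0`, from `e2 1`: `b ⬝ Θ d = 0`, from `e3 2`: `2 b ⬝ Y d = (k' 1 - k 1) H22`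
(`d = U' 1 - U 1`); `b ⬝ Y (Θ Θ d) = Y (b ⬝ Θ Θ d) - Y b ⬝ Θ Θ d`. In a `ℚ`-algebra `2 x = 0 → x = 0`. -/
theorem gauss_diff {U' : ℕ → Fin 4 → R} {k' : ℕ → R} (hXΘ : ∀ u, X (Θ u) = Θ (X u))
    (hYΘ : ∀ u, Y (Θ u) = Θ (Y u)) (hb : vD Θ b = 0) (hH : Θ H22 = 0)
    (h : Eqs X Y Θ fx b a H11 H12 H22 U k) (h' : Eqs X Y Θ fx b a H11 H12 H22 U' k')
    (h0 : U' 0 = U 0) (hk : k' 0 = k 0) :
    let T := PP X Θ fx U 0
    let d := U' 1 - U 1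
    let Δ := vD Θ (vD Θ d)
    AA X Θ fx U' = AA X Θ fx U + Δ ∧ T ⬝ᵥ Δ + vD Θ T ⬝ᵥ vD Θ d = 0 ∧ b ⬝ᵥ Δ = 0 ∧
      -2 * (vD Y b ⬝ᵥ Δ) = Θ (Θ (k' 1 - k 1)) * H22 := by
  intro T d Δ
  obtain ⟨-, e11, -, e21, -, e32⟩ := gs_eqs h
  obtain ⟨-, f11, -, f21, -, f32⟩ := gs_eqs h'
  have hT : PP X Θ fx U' 0 = T := by simp only [T, PP, h0]
  have hU1 : U' 1 = U 1 + d := by simp [d]
  have hP : PP X Θ fx U' 1 = PP X Θ fx U 1 + vD Θ d := by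
    simp only [PP, zero_add, h0, hU1, gs_add]; abel
  rw [hT, hP, hk] at f11 f21
  rw [h0] at f21 f32
  rw [hU1, gs_add] at f32
  change k 0 * H11 = T ⬝ᵥ _ + _ ⬝ᵥ T at e11
  change k 0 * H12 = T ⬝ᵥ _ + _ at e21
  have a1 : T ⬝ᵥ vD Θ d = 0 := by
    refine gs_half ?_
    rw [dotProduct_add, add_dotProduct, dotProduct_comm (vD Θ d)] at f11
    linear_combination e11 - f11
  have a2 : b ⬝ᵥ vD Θ d = 0 := by
    rw [add_dotProduct, dotProduct_comm (vD Θ d)] at f21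
    linear_combination e21 - f21
  have a3 : (k' 1 - k 1) * H22 = b ⬝ᵥ vD Y d + b ⬝ᵥ vD Y d := by
    rw [dotProduct_add, add_dotProduct, dotProduct_comm (vD Y d)] at f32
    linear_combination f32 - e32
  have a4 : b ⬝ᵥ Δ = 0 := by
    have := congrArg Θ a2
    rwa [gs_dot, hb, zero_dotProduct, zero_add, map_zero] at this
  refine ⟨?_, ?_, a4, ?_⟩
  · simp only [AA, hT, hP, gs_add, T, Δ]; abel
  · have := congrArg Θ a1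
    rw [gs_dot, map_zero] at this
    linear_combination this
  · have t1 := congrArg (fun u => Θ (Θ u)) a3
    have t2 := congrArg Y a4
    simp only [map_add, gs_dot, hb, zero_dotProduct, zero_add, Derivation.leibniz, hH,
      smul_eq_mul, mul_zero, map_zero] at t1 t2
    have t3 : vD Y Δ = vD Θ (vD Θ (vD Y d)) := by
      simp only [Δ, gs_comm hYΘ]
    rw [t3] at t2
    linear_combination -t1 - 2 * t2

end

/-- Tangential part of a scalar product, from the products with `T` and `b`. -/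
def tang (g11 g12 g22 TA bA Tc bc : ℝ) : ℝ :=
  (g22 * (TA * Tc) - g12 * (TA * bc + bA * Tc) + g11 * (bA * bc)) / (g11 * g22 - g12 ^ 2)

/-- Parseval in the basis `T, b, n, l` of `ℝ⁴` (`n, l` orthogonal to each other and to `T, b`).
The four vectors are linearly independent, hence span (dimension count); expand `c`. -/
theorem dot_split (T b n l A c : V4) (hg : 0 < gram2 T b) (hn : n ⬝ᵥ n = 1) (hl : l ≠ 0)
    (hnT : n ⬝ᵥ T = 0) (hnb : n ⬝ᵥ b = 0) (hlT : l ⬝ᵥ T = 0) (hlb : l ⬝ᵥ b = 0) (hnl : n ⬝ᵥ l = 0) :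
    A ⬝ᵥ c = tang (T ⬝ᵥ T) (T ⬝ᵥ b) (b ⬝ᵥ b) (T ⬝ᵥ A) (b ⬝ᵥ A) (T ⬝ᵥ c) (b ⬝ᵥ c)
      + (n ⬝ᵥ A) * (n ⬝ᵥ c) + (l ⬝ᵥ A) * (l ⬝ᵥ c) / (l ⬝ᵥ l) := by
  have hll : l ⬝ᵥ l ≠ 0 := fun h => hl (dotProduct_self_eq_zero.1 h)
  have hG : (T ⬝ᵥ T) * (b ⬝ᵥ b) - (T ⬝ᵥ b) ^ 2 ≠ 0 := hg.ne'
  have hTn : T ⬝ᵥ n = 0 := by rw [dotProduct_comm]; exact hnT
  have hbn : b ⬝ᵥ n = 0 := by rw [dotProduct_comm]; exact hnb
  have hTl : T ⬝ᵥ l = 0 := by rw [dotProduct_comm]; exact hlT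
  have hbl : b ⬝ᵥ l = 0 := by rw [dotProduct_comm]; exact hlb
  have hln : l ⬝ᵥ n = 0 := by rw [dotProduct_comm]; exact hnl
  have hbT : b ⬝ᵥ T = T ⬝ᵥ b := dotProduct_comm _ _
  have hli : LinearIndependent ℝ ![T, b, n, l] := by
    rw [Fintype.linearIndependent_iff]
    intro g hg0
    simp only [Fin.sum_univ_four, Matrix.cons_val_zero, Matrix.cons_val_one, Matrix.cons_val] at hg0
    have h2 := congrArg (fun u => n ⬝ᵥ u) hg0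
    have h3 := congrArg (fun u => l ⬝ᵥ u) hg0
    simp only [dotProduct_add, dotProduct_smul, hnT, hnb, hn, hnl, hlT, hlb, hln, smul_eq_mul,
      mul_zero, mul_one, zero_add, add_zero, dotProduct_zero] at h2 h3
    have h3' : g 3 = 0 := (mul_eq_zero.1 h3).resolve_right hll
    rw [h2, h3', zero_smul, zero_smul, add_zero, add_zero] at hg0
    obtain ⟨h0, h1⟩ := (gram2_pos_iff T b).1 hg _ _ hg0
    intro i
    fin_cases i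
    exacts [h0, h1, h2, h3']
  have hsp := hli.span_eq_top_of_card_eq_finrank' (by simp)
  have hc : c ∈ Submodule.span ℝ (Set.range ![T, b, n, l]) := by rw [hsp]; trivial
  obtain ⟨g, rfl⟩ := (Submodule.mem_span_range_iff_exists_fun ℝ).1 hc
  simp only [Fin.sum_univ_four, Matrix.cons_val_zero, Matrix.cons_val_one, Matrix.cons_val,
    dotProduct_add, dotProduct_smul, hnT, hnb, hn, hnl, hlT, hlb, hln, hTn, hbn, hTl, hbl, hbT,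
    smul_eq_mul, tang]
  rw [dotProduct_comm A T, dotProduct_comm A b, dotProduct_comm A n, dotProduct_comm A l]
  have hG' : (b ⬝ᵥ b) * (T ⬝ᵥ T) - (T ⬝ᵥ b) ^ 2 ≠ 0 := by rwa [mul_comm]
  field_simp
  ring

/-- `P⁺` in the normal frame `(n, l)` when `n ⊥ v`, `l ⬝ v > 0`: by `cross3_dot_cross3` and
`dot_split`, `cross3 T b x ⬝ cross3 T b y = gram2 T b * ((n⬝x)(n⬝y) + (l⬝x)(l⬝y)/|l|²)`. -/
theorem Pplus.frame {T b n l v v' m : V4} (h : Pplus T b v v' m) (hg : 0 < gram2 T b)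
    (hn : n ⬝ᵥ n = 1) (hl : l ≠ 0) (hnT : n ⬝ᵥ T = 0) (hnb : n ⬝ᵥ b = 0) (hlT : l ⬝ᵥ T = 0)
    (hlb : l ⬝ᵥ b = 0) (hnl : n ⬝ᵥ l = 0) (hnv : n ⬝ᵥ v = 0) (hlv : 0 < l ⬝ᵥ v) :
    (l ⬝ᵥ l) * (n ⬝ᵥ m) ^ 2 < (l ⬝ᵥ v) * (l ⬝ᵥ v') := by
  have hll : 0 < l ⬝ᵥ l :=
    lt_of_le_of_ne (Finset.sum_nonneg fun i _ => mul_self_nonneg _)
      fun h => hl (dotProduct_self_eq_zero.1 h.symm)
  have hG : (T ⬝ᵥ T) * (b ⬝ᵥ b) - (T ⬝ᵥ b) ^ 2 ≠ 0 := hg.ne'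
  have key : ∀ x y : V4, cross3 T b x ⬝ᵥ cross3 T b y =
      gram2 T b * ((n ⬝ᵥ x) * (n ⬝ᵥ y) + (l ⬝ᵥ x) * (l ⬝ᵥ y) / (l ⬝ᵥ l)) := fun x y => by
    rw [cross3_dot_cross3, dot_split T b n l x y hg hn hl hnT hnb hlT hlb hnl,
      dotProduct_comm x b, dotProduct_comm x T]
    unfold tang gram2
    field_simp
    ring
  unfold Pplus at h
  simp only [key, hnv] at h
  generalize gram2 T b = G at *
  generalize l ⬝ᵥ l = L at *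
  generalize l ⬝ᵥ v = x at *
  generalize l ⬝ᵥ v' = x' at *
  generalize l ⬝ᵥ m = z at *
  generalize n ⬝ᵥ m = y at *
  generalize n ⬝ᵥ v' = y' at *
  have hpos : 0 < G ^ 2 * x ^ 2 / L ^ 2 := by positivity
  refine lt_of_mul_lt_mul_left ?_ hpos.le
  have e1 : G * (y * y + z * z / L) * (G * (0 * 0 + x * x / L)) - (G * (y * 0 + z * x / L)) ^ 2 =
      G ^ 2 * x ^ 2 / L ^ 2 * (L * y ^ 2) := by field_simp; ring
  have e2 : G * (0 * y' + x * x' / L) * (G * (0 * 0 + x * x / L)) =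
      G ^ 2 * x ^ 2 / L ^ 2 * (x * x') := by field_simp; ring
  rwa [e1, e2] at h

end Crest.Agent.R216
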