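import Crest.Agent.R216.Api3
import Crest.Agent.R216.Api4

/-!
# R216: immersions into `ℝ³`: definitions and interfaces
-/

set_option autoImplicit false
set_option linter.unusedSectionVars false

open scoped Manifold ContDiff Topology
open Matrix

noncomputable section

namespace Crest.Agent.R216

variable {M : Type*} [TopologicalSpace M] [T2Space M] [CompactSpace M] [ChartedSpace E2 M]
  [IsManifold (𝓡 2) ∞ M]

abbrev V3 := Fin 3 → ℝ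

/-- Nondegeneracy of a 2-jet of a map `ℝ² → ℝ³` (immersive point or Whitney umbrella). -/
def NDJ (F₁ F₂ F₁₁ F₁₂ F₂₂ : V3) : Prop :=
  (F₁ ≠ 0 ∨ F₂ ≠ 0) ∧ ∀ v₁ v₂ : ℝ, (v₁ ≠ 0 ∨ v₂ ≠ 0) → v₁ • F₁ + v₂ • F₂ = 0 →
    ∀ l : V3, l ⬝ᵥ F₁ = 0 → l ⬝ᵥ F₂ = 0 → l ⬝ᵥ (v₁ • F₁₁ + v₂ • F₁₂) = 0 →
      l ⬝ᵥ (v₁ • F₁₂ + v₂ • F₂₂) = 0 → l = 0

namespace Atl

variable (A : Atl M)

/-- Smooth map with only Whitney umbrellas as singularities. -/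
def Umb (F : M → V3) : Prop :=
  Sm F ∧ ∀ i, ∀ p ∈ A.O i, NDJ (A.D (i, 0) F p) (A.D (i, 1) F p) (A.D (i, 0) (A.D (i, 0) F) p)
    (A.D (i, 0) (A.D (i, 1) F) p) (A.D (i, 1) (A.D (i, 1) F) p)

/-- Singular set. On `O i` it is `{gram2 (D (i,0) F) (D (i,1) F) = 0}` (by `D_chart`). -/
def Sing (F : M → V3) : Set M := {p | ∀ α β, gram2 (A.D α F p) (A.D β F p) = 0}

/-- (A, B) A generic map has an even number of umbrellas on every clopen set. -/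
def ImGenStmt : Prop :=
  ∃ F : M → V3, A.Umb F ∧ (A.Sing F).Finite ∧ ∀ S : Set M, IsClopen S → Even (A.Sing F ∩ S).ncard

/-- (C) Umbrellas of a connected clopen set can be moved into any nonempty open subset. -/
def ImMoveStmt : Prop :=
  ∀ (F : M → V3) (S W : Set M), A.Umb F → (A.Sing F).Finite → IsClopen S → IsPreconnected S →
    IsOpen W → W.Nonempty → W ⊆ S →
    ∃ F' : M → V3, A.Umb F' ∧ (A.Sing F').Finite ∧ A.Sing F' \ S = A.Sing F \ S ∧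
      A.Sing F' ∩ S ⊆ W ∧ (A.Sing F' ∩ S).ncard = (A.Sing F ∩ S).ncard

end Atl

/-- Euclidean norm squared on `ℝ × ℝ`. -/
def nsq (z : ℝ × ℝ) : ℝ := z.1 ^ 2 + z.2 ^ 2

/-- (D, E) An even number of umbrellas in a disk can be removed. -/
def ImLocStmt : Prop :=
  ∀ (F : ℝ × ℝ → V3) (T : Finset (ℝ × ℝ)), ContDiff ℝ ∞ F → Even T.card →
    (∀ z ∈ T, nsq z < 1) →
    (∀ z, nsq z ≤ 9 → NDJ (dx F z) (dy F z) (dx (dx F) z) (dx (dy F) z) (dy (dy F) z)) →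
    (∀ z, nsq z ≤ 9 → (gram2 (dx F z) (dy F z) = 0 ↔ z ∈ T)) →
    ∃ F' : ℝ × ℝ → V3, ContDiff ℝ ∞ F' ∧ (∀ z, 4 ≤ nsq z → F' z = F z) ∧
      ∀ z, nsq z ≤ 9 → 0 < gram2 (dx F' z) (dy F' z)

end Crest.Agent.R216
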