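import Crest.Agent.R216.ImGenD

/-!
# R216/ImGenC: passing to a chart
-/

set_option autoImplicit false
set_option linter.unusedSectionVars false

open scoped Manifold ContDiff Topology
open Matrix Set Filter

noncomputable section

namespace Crest.Agent.R216

variable {M : Type*} [TopologicalSpace M] [T2Space M] [CompactSpace M] [ChartedSpace E2 M]
  [IsManifold (𝓡 2) ∞ M]

namespace Atl

variable (A : Atl M)

theorem igc_D (i : Fin A.n) {W : Set M} (hW : IsOpen W) (hO : W ⊆ A.O i) {u : M → V3}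
    {v : ℝ × ℝ → V3} (hv : ContDiff ℝ ∞ v) (h : ∀ q ∈ W, u q = v (A.Psi i 0 q)) :
    (∀ q ∈ W, A.D (i, 0) u q = dx v (A.Psi i 0 q)) ∧
      ∀ q ∈ W, A.D (i, 1) u q = dy v (A.Psi i 0 q) := by
  have key : ∀ α, ∀ q ∈ W, A.D α u q = A.D α (A.eta i 0) q • dx v (A.Psi i 0 q) +
      A.D α (A.x i 1) q • dy v (A.Psi i 0 q) := fun α q hq =>
    (A.D_congr α (eventuallyEq_of_mem (hW.mem_nhds hq) h)).trans (A.D_Psi α i 0 hv q)
  have e : A.eta i 0 = A.x i 0 := funext fun q => by simp [eta]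
  constructor <;> intro q hq <;> simp [key _ q hq, e, A.D_x i _ _ (hO hq)]

theorem igc_dx {v : ℝ × ℝ → V3} (hv : ContDiff ℝ ∞ v) (a : ℝ × ℝ) :
    ContDiff ℝ ∞ fun z => fderiv ℝ v z a :=
  (hv.fderiv_right (m := ∞) le_rfl).clm_apply contDiff_const

/-- `exists_down i 0` for `K₀ = {p}`; the chart is `chartAt` restricted to `W` followed by `E2 ≃ₜ ℝ × ℝ`, it agrees with
`Psi i 0` on `W` (`x_eq`).  On `W`: `F =ᶠ f ∘ Psi`, so `D_congr`, `D_Psi`, `X_eta`, `Y_eta`, `D_x` give the first derivatives; repeat. -/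
theorem exists_loc (i : Fin A.n) {p : M} (hp : p ∈ A.O i) {F : M → V3} (hF : Sm F) :
    ∃ (e : OpenPartialHomeomorph M (ℝ × ℝ)) (f : ℝ × ℝ → V3), p ∈ e.source ∧ e.source ⊆ A.O i ∧
      ContDiff ℝ ∞ f ∧ ∀ q ∈ e.source, F q = f (e q) ∧ A.D (i, 0) F q = dx f (e q) ∧
        A.D (i, 1) F q = dy f (e q) ∧ A.D (i, 0) (A.D (i, 0) F) q = dx (dx f) (e q) ∧
        A.D (i, 0) (A.D (i, 1) F) q = dx (dy f) (e q) ∧
        A.D (i, 1) (A.D (i, 1) F) q = dy (dy f) (e q) := by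
  obtain ⟨W, ρ, h1, h2, h3, -, -, h4, -, h5⟩ :=
    A.exists_down i 0 isClosed_singleton (singleton_subset_iff.2 hp)
  obtain ⟨f, hf, h6, -⟩ := h5 V3 F hF
  have h7 : ∀ q ∈ W, F q = f (A.Psi i 0 q) := fun q hq => by rw [h6 q (h3 hq), h4 q hq, one_smul]
  obtain ⟨a0, a1⟩ := A.igc_D i h1 h3 hf h7
  obtain ⟨b0, -⟩ := A.igc_D i h1 h3 (v := dx f) (igc_dx hf _) a0
  obtain ⟨b1, b2⟩ := A.igc_D i h1 h3 (v := dy f) (igc_dx hf _) a1
  have hs : ∀ q ∈ ((chartAt E2 (A.c i)).restrOpen W h1).source, q ∈ W := fun q hq => hq.2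
  refine ⟨((chartAt E2 (A.c i)).restrOpen W h1).transHomeomorph
    ((EuclideanSpace.equiv (Fin 2) ℝ).toHomeomorph.trans Homeomorph.finTwoArrow), f,
    ⟨A.O_sub_source i hp, h2 rfl⟩, fun q hq => h3 (hs q hq), hf, fun q hq => ?_⟩
  have hq' := hs q hq
  have e : A.Psi i 0 q = ((chartAt E2 (A.c i)).restrOpen W h1).transHomeomorph
      ((EuclideanSpace.equiv (Fin 2) ℝ).toHomeomorph.trans Homeomorph.finTwoArrow) q := by
    simp only [Psi, eta, zero_mul, add_zero, A.x_eq i _ (h3 hq')]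
    rfl
  rw [← e]
  exact ⟨h7 q hq', a0 q hq', a1 q hq', b0 q hq', b1 q hq', b2 q hq'⟩

theorem igc_gram (a b : V3) (s t u v : ℝ) :
    gram2 (s • a + t • b) (u • a + v • b) = (s * v - t * u) ^ 2 * gram2 a b := by
  simp only [gram2, add_dotProduct, dotProduct_add, smul_dotProduct, dotProduct_smul, smul_eq_mul,
    dotProduct_comm b a]
  ring

/-- `D_chart`: `gram2 (s a + t b) (u a + v b) = (s v - t u)² gram2 a b`. -/
theorem mem_sing_iff (i : Fin A.n) {p : M} (hp : p ∈ A.O i) {F : M → V3} (hF : Sm F) :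
    p ∈ A.Sing F ↔ gram2 (A.D (i, 0) F p) (A.D (i, 1) F p) = 0 :=
  ⟨fun h => h _ _, fun h α β => by
    rw [A.D_chart α i hF hp, A.D_chart β i hF hp, igc_gram, h, mul_zero]⟩

theorem isClosed_sing {F : M → V3} (hF : Sm F) : IsClosed (A.Sing F) := by
  simp only [Sing, ofPred_forall]
  refine isClosed_iInter fun α => isClosed_iInter fun β => isClosed_eq ?_ continuous_const
  have h1 := A.D_sm α hF
  have h2 := A.D_sm β hF
  exact ((h1.dot h1).continuous.mul (h2.dot h2).continuous).sub ((h1.dot h2).continuous.pow 2)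

end Atl

end Crest.Agent.R216
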