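import Crest.Agent.R216.ImGenD

/-!
# R216/ImGenL: curves from the implicit function theorem; immersive points
-/

set_option autoImplicit false
set_option linter.unusedSectionVars false

open scoped Manifold ContDiff Topology
open Matrix Set Filter

noncomputable section

namespace Crest.Agent.R216

section crv
variable {Y Y' : Type*} [TopologicalSpace Y] [TopologicalSpace Y'] {X : Set Y} {X' : Set Y'} {x : Y}

theorem Crv.of_chart (e : OpenPartialHomeomorph Y Y') (hx : x ∈ e.source) (h : Crv X' (e x))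
    (hX : ∀ᶠ y in 𝓝 x, y ∈ X ↔ e y ∈ X') : Crv X x := by
  obtain ⟨c, τ, h0, h1, h2, h3⟩ := h
  have hc : Tendsto c (𝓝 0) (𝓝 (e x)) := h0 ▸ h2.self_of_nhds.1.tendsto
  have hs := (e.tendsto_symm hx).comp hc
  refine ⟨e.symm ∘ c, τ ∘ e, by simp [h0, hx], h1.comp (e.continuousAt hx), ?_, ?_⟩
  · filter_upwards [h2, hc.eventually (e.open_target.mem_nhds (e.map_source hx)), hs.eventually hX]
      with t a1 a2 a3
    simp only [Function.comp_apply, e.right_inv a2] at a3 ⊢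
    exact ⟨(e.continuousAt_symm a2).comp a1.1, a3.2 a1.2.1, a1.2.2⟩
  · filter_upwards [(e.continuousAt hx).eventually h3, hX, e.open_source.mem_nhds hx]
      with y a1 a2 a3 a4
    simp only [Function.comp_apply, a1 (a2.1 a4), e.left_inv a3]

end crv

theorem crv_of_submersion {D E : Type} [NormedAddCommGroup D] [NormedSpace ℝ D]
    [FiniteDimensional ℝ D] [NormedAddCommGroup E] [NormedSpace ℝ E] [FiniteDimensional ℝ E]
    {g : D → E} {g' : D →L[ℝ] E} {a : D} (hg : HasStrictFDerivAt g g' a) (hs : g'.range = ⊤)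
    (hd : Module.finrank ℝ D = Module.finrank ℝ E + 1) : Crv {z | g z = g a} a := by
  have := FiniteDimensional.complete ℝ D
  have h1 : Module.finrank ℝ g'.ker = Module.finrank ℝ ℝ := by
    have := LinearMap.finrank_range_add_finrank_ker (g' : D →ₗ[ℝ] E)
    rw [hs, finrank_top, hd] at this
    rw [Module.finrank_self]
    omega
  obtain ⟨L⟩ := FiniteDimensional.nonempty_continuousLinearEquiv_of_finrank_eq h1
  refine Crv.of_chart (X' := {w | w.1 = g a}) (hg.implicitToOpenPartialHomeomorph g g' hs)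
    (hg.mem_implicitToOpenPartialHomeomorph_source hs) ?_ (Eventually.of_forall fun y => Iff.rfl)
  rw [hg.implicitToOpenPartialHomeomorph_self]
  refine ⟨fun t => (g a, L.symm t), fun w => L w.2, by simp, by fun_prop,
    Eventually.of_forall fun t => ⟨by fun_prop, rfl, by simp⟩, Eventually.of_forall fun y hy => ?_⟩
  exact Prod.ext hy.symm (by simp)

theorem igl_range_top {D : Type} [NormedAddCommGroup D] [NormedSpace ℝ D] (B : D →L[ℝ] V3)
    (h : ∀ l : V3, (∀ y, l ⬝ᵥ B y = 0) → l = 0) : B.range = ⊤ := by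
  by_contra h1
  obtain ⟨φ, h2, h3⟩ := Submodule.exists_le_ker_of_lt_top _ (lt_top_iff_ne_top.2 h1)
  have h4 : ∀ y, φ y = (fun i => φ fun j => if i = j then 1 else 0) ⬝ᵥ y := fun y => by
    rw [LinearMap.pi_apply_eq_sum_univ, dotProduct]
    exact Finset.sum_congr rfl fun i _ => mul_comm _ _
  have h5 := h _ fun y => (h4 _).symm.trans (h3 ⟨y, rfl⟩)
  exact h2 (LinearMap.ext fun y => by rw [h4, h5, zero_dotProduct, LinearMap.zero_apply])

theorem igl_fderiv (f : ℝ × ℝ → V3) (p x : ℝ × ℝ) :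
    fderiv ℝ f p x = x.1 • dx f p + x.2 • dy f p := by
  rw [dx, dy, ← map_smul, ← map_smul, ← map_add]
  simp

theorem igl_sing (f : ℝ × ℝ → V3) (p : ℝ × ℝ) :
    gram2 (dx f p) (dy f p) = 0 ↔ ∃ x, x ≠ 0 ∧ fderiv ℝ f p x = 0 := by
  rw [← (gram2_nonneg _ _).ge_iff_eq', ← not_lt, gram2_pos_iff]
  constructor
  · intro h
    by_contra h1
    refine h fun s t h2 => ?_
    by_contra h3
    exact h1 ⟨(s, t), fun h4 => h3 (Prod.mk.inj h4), (igl_fderiv f p _).trans h2⟩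
  · rintro ⟨x, h1, h2⟩ h3
    obtain ⟨h4, h5⟩ := h3 _ _ ((igl_fderiv f p x).symm.trans h2)
    exact h1 (Prod.ext h4 h5)

theorem igl_small {f : ℝ × ℝ → V3} (hf : ContDiff ℝ ∞ f) (z : ℝ × ℝ) {δ : ℝ} (hδ : 0 < δ) :
    ∀ᶠ y in 𝓝 (z, z), y ∈ dbl f → ∃ x, x ≠ 0 ∧ ‖fderiv ℝ f z x‖ ≤ δ * ‖x‖ ∧
      (x = y.2 - y.1 ∨ y.1 = y.2 ∧ fderiv ℝ f y.1 x = 0) := by
  have h1 := (hf.contDiffAt.hasStrictFDerivAt (x := z) (by simp)).isLittleO.def hδ
  have h2 : ContinuousAt (fun y : (ℝ × ℝ) × ℝ × ℝ => fderiv ℝ f y.1) (z, z) :=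
    ((hf.continuous_fderiv (by simp)).comp continuous_fst).continuousAt
  filter_upwards [h1, h2.eventually (Metric.closedBall_mem_nhds _ hδ)] with y a1 a2 a3
  by_cases h : y.1 = y.2
  · obtain ⟨x, b1, b2⟩ := (igl_sing f _).1 (a3.2 h)
    refine ⟨x, b1, ?_, Or.inr ⟨h, b2⟩⟩
    rw [← sub_zero (fderiv ℝ f z x), ← b2, ← _root_.sub_apply]
    exact (fderiv ℝ f z - fderiv ℝ f y.1).le_of_opNorm_le (mem_closedBall_iff_norm'.1 a2) x
  · refine ⟨_, sub_ne_zero.2 (Ne.symm h), ?_, Or.inl rfl⟩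
    rwa [a3.1, sub_self, zero_sub, ← map_neg, neg_sub, norm_sub_rev y.1] at a1

theorem crv_double {f₁ f₂ : ℝ × ℝ → V3} (h₁ : ContDiff ℝ ∞ f₁) (h₂ : ContDiff ℝ ∞ f₂)
    {z₁ z₂ : ℝ × ℝ} (h : f₁ z₁ = f₂ z₂) (ht : ∀ l : V3, l ⬝ᵥ dx f₁ z₁ = 0 → l ⬝ᵥ dy f₁ z₁ = 0 →
      l ⬝ᵥ dx f₂ z₂ = 0 → l ⬝ᵥ dy f₂ z₂ = 0 → l = 0) :
    Crv {w : (ℝ × ℝ) × (ℝ × ℝ) | f₁ w.1 = f₂ w.2} (z₁, z₂) := by
  have a1 := (h₁.contDiffAt.hasStrictFDerivAt (x := z₁) (by simp)).comp (z₁, z₂)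
    (hasStrictFDerivAt_fst (𝕜 := ℝ) (p := (z₁, z₂)))
  have a2 := (h₂.contDiffAt.hasStrictFDerivAt (x := z₂) (by simp)).comp (z₁, z₂)
    (hasStrictFDerivAt_snd (𝕜 := ℝ) (p := (z₁, z₂)))
  have := crv_of_submersion (a1.sub a2) (igl_range_top _ fun l hl => ht l
    (by simpa [dx] using hl ((1, 0), 0)) (by simpa [dy] using hl ((0, 1), 0))
    (by simpa [dx] using hl (0, (1, 0))) (by simpa [dy] using hl (0, (0, 1)))) (by simp)
  simpa [h, sub_eq_zero] using this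

theorem loc_inj {f : ℝ × ℝ → V3} (hf : ContDiff ℝ ∞ f) {z : ℝ × ℝ}
    (h : gram2 (dx f z) (dy f z) ≠ 0) : ∀ᶠ w in 𝓝 (z, z), w ∉ dbl f := by
  obtain ⟨K, -, hK⟩ := LinearMap.exists_antilipschitzWith (fderiv ℝ f z : ℝ × ℝ →ₗ[ℝ] V3)
    (LinearMap.ker_eq_bot'.2 fun x hx => by_contra fun h1 => h ((igl_sing f z).2 ⟨x, h1, hx⟩))
  filter_upwards [igl_small hf z (δ := 1 / (K + 1)) (by positivity)] with y a1 a2
  obtain ⟨x, b1, b2, -⟩ := a1 a2
  have b3 : ‖x‖ ≤ K * ‖fderiv ℝ f z x‖ := hK.le_mul_norm (map_zero _) x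
  have b4 := norm_pos_iff.2 b1
  rw [one_div, inv_mul_eq_div, le_div_iff₀ (by positivity)] at b2
  have b5 : 0 < ‖fderiv ℝ f z x‖ := norm_pos_iff.2 fun h1 => h ((igl_sing f z).2 ⟨x, b1, h1⟩)
  linarith

end Crest.Agent.R216
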