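import Crest.Agent.R216.ImGenD

/-!
# R216/ImGenT: an involution of a compact curve has an even number of fixed points
-/

set_option autoImplicit false
set_option linter.unusedSectionVars false

open scoped Manifold ContDiff Topology
open Matrix Set Filter

noncomputable section

namespace Crest.Agent.R216

variable {Y : Type*} [TopologicalSpace Y] [T2Space Y]

/-- Arcs.  Take `ε` with `[-ε, ε]` inside the eventual set; `c` is continuous and injective there (left inverse `τ`).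
There is an open `V ∋ x` with `V ∩ X ⊆ c '' [-ε, ε]`; take `δ ≤ ε` with `c '' [-δ, δ] ⊆ V`.  For `-δ ≤ a`, `b ≤ δ` put
`O = V \ c '' ([-ε, ε] \ (a, b))` (the image of a compact set is closed). -/
theorem Crv.exists_arc {X : Set Y} {x : Y} (h : Crv X x) :
    ∃ (c : ℝ → Y) (δ : ℝ), 0 < δ ∧ c 0 = x ∧ ContinuousOn c (Icc (-δ) δ) ∧ InjOn c (Icc (-δ) δ) ∧
      MapsTo c (Icc (-δ) δ) X ∧
      ∀ a b, -δ ≤ a → b ≤ δ → ∃ O, IsOpen O ∧ O ∩ X = c '' Ioo a b := by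
  obtain ⟨c, τ, h0, h1, h2, h3⟩ := h
  obtain ⟨ε, hε, h4⟩ := Metric.nhds_basis_closedBall.eventually_iff.1 h2
  rw [Real.closedBall_zero_eq_Icc] at h4
  have hτ : τ x = 0 := h0 ▸ h2.self_of_nhds.2.2
  obtain ⟨V, v1, v2, v3⟩ := mem_nhds_iff.1
    (h3.and (h1.eventually (Icc_mem_nhds (hτ ▸ neg_lt_zero.2 hε) (hτ ▸ hε))))
  obtain ⟨δ, hδ, h5⟩ := Metric.nhds_basis_closedBall.eventually_iff.1
    ((h2.self_of_nhds.1.eventually (v2.mem_nhds (h0 ▸ v3))).and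
      (Icc_mem_nhds (neg_lt_zero.2 hε) hε))
  rw [Real.closedBall_zero_eq_Icc] at h5
  have hc : ContinuousOn c (Icc (-ε) ε) := fun t ht => (h4 ht).1.continuousWithinAt
  have hi : InjOn c (Icc (-ε) ε) := fun s hs t ht h => by rw [← (h4 hs).2.2, h, (h4 ht).2.2]
  have hs : Icc (-δ) δ ⊆ Icc (-ε) ε := fun t ht => (h5 ht).2
  refine ⟨c, δ, hδ, h0, hc.mono hs, hi.mono hs, fun t ht => (h4 (hs ht)).2.1, fun a b ha hb => ?_⟩
  have hab : Ioo a b ⊆ Icc (-δ) δ := fun t ht => ⟨ha.trans ht.1.le, ht.2.le.trans hb⟩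
  refine ⟨V \ c '' (Icc (-ε) ε \ Ioo a b), v2.sdiff ((isCompact_Icc.diff isOpen_Ioo).image_of_continuousOn
    (hc.mono sdiff_subset)).isClosed, subset_antisymm ?_ ?_⟩
  · rintro y ⟨⟨a1, a2⟩, a3⟩
    obtain ⟨a4, a5⟩ := v1 a1
    exact ⟨τ y, by_contra fun a6 => a2 ⟨τ y, ⟨a5, a6⟩, a4 a3⟩, a4 a3⟩
  · rintro _ ⟨t, ht, rfl⟩
    refine ⟨⟨(h5 (hab ht)).1, ?_⟩, (h4 (hs (hab ht))).2.1⟩
    rintro ⟨s, a1, a2⟩
    exact a1.2 (hi a1.1 (hs (hab ht)) a2 ▸ ht)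

theorem igt_even {α : Type*} (s : Finset α) (g : α → α) (hm : ∀ a ∈ s, g a ∈ s)
    (hi : ∀ a ∈ s, g (g a) = a) (hne : ∀ a ∈ s, g a ≠ a) : Even s.card := by
  have h := Finset.sum_involution (s := s) (f := fun _ => (1 : ZMod 2)) (fun a _ => g a)
    (fun _ _ => by decide) (fun a ha _ => hne a ha) hm hi
  rw [Finset.sum_const, nsmul_eq_mul, mul_one] at h
  exact ZMod.natCast_eq_zero_iff_even.1 h

structure igt_Arc (X : Set Y) (c : ℝ → Y) (a b : ℝ) : Prop where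
  cont : ContinuousOn c (Icc a b)
  inj : InjOn c (Icc a b)
  maps : MapsTo c (Icc a b) X
  opn : ∀ a' b', a ≤ a' → b' ≤ b → ∃ O, IsOpen O ∧ O ∩ X = c '' Ioo a' b'

def igt_Edge (X V e : Set Y) : Prop :=
  ∃ c a b, a < b ∧ igt_Arc X c a b ∧ c a ∈ V ∧ c b ∈ V ∧ (∀ t ∈ Ioo a b, c t ∉ V) ∧ e = c '' Ioo a b

section edge
variable {X V e e' : Set Y} {c : ℝ → Y} {a b : ℝ} {σ : Y → Y}

theorem igt_Arc.mono (h : igt_Arc X c a b) {a' b' : ℝ} (ha : a ≤ a') (hb : b' ≤ b) :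
    igt_Arc X c a' b' :=
  ⟨h.cont.mono (Icc_subset_Icc ha hb), h.inj.mono (Icc_subset_Icc ha hb),
    h.maps.mono_left (Icc_subset_Icc ha hb), fun _ _ h1 h2 => h.opn _ _ (ha.trans h1) (h2.trans hb)⟩

theorem igt_Arc.closure (h : igt_Arc X c a b) (hab : a < b) :
    closure (c '' Ioo a b) = c '' Icc a b := by
  refine subset_antisymm (closure_minimal (image_mono Ioo_subset_Icc_self)
    (isCompact_Icc.image_of_continuousOn h.cont).isClosed) ?_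
  rw [← closure_Ioo hab.ne]
  exact ContinuousOn.image_closure (by rw [closure_Ioo hab.ne]; exact h.cont)

theorem igt_Arc.map (h : igt_Arc X c a b) (hσ : Continuous σ) (hi : Function.Involutive σ)
    (hm : MapsTo σ X X) : igt_Arc X (σ ∘ c) a b := by
  refine ⟨hσ.comp_continuousOn h.cont, hi.injective.comp_injOn h.inj, hm.comp h.maps,
    fun a' b' h1 h2 => ?_⟩
  obtain ⟨O, h3, h4⟩ := h.opn a' b' h1 h2
  refine ⟨σ ⁻¹' O, h3.preimage hσ, ?_⟩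
  rw [image_comp, ← h4]
  exact subset_antisymm (fun y hy => ⟨σ y, ⟨hy.1, hm hy.2⟩, hi y⟩)
    (image_subset_iff.2 fun y hy => ⟨by rw [mem_preimage, hi]; exact hy.1, hm hy.2⟩)

theorem igt_Edge.sub (h : igt_Edge X V e) : e ⊆ X \ V := by
  obtain ⟨c, a, b, -, h1, -, -, h2, rfl⟩ := h
  rintro _ ⟨t, ht, rfl⟩
  exact ⟨h1.maps (Ioo_subset_Icc_self ht), h2 t ht⟩

theorem igt_Edge.subset (h : igt_Edge X V e) (h' : igt_Edge X V e') {y : Y} (hy : y ∈ e)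
    (hy' : y ∈ e') : e' ⊆ e := by
  have hs := h'.sub
  have hp : IsPreconnected e' := by
    obtain ⟨c, a, b, -, h1, -, -, -, rfl⟩ := h'
    exact isPreconnected_Ioo.image _ (h1.cont.mono Ioo_subset_Icc_self)
  obtain ⟨c, a, b, -, h1, ha, hb, -, rfl⟩ := h
  obtain ⟨O, h3, h4⟩ := h1.opn a b le_rfl le_rfl
  have h5 : ∀ z ∈ e', z ∈ c '' Icc a b → z ∈ c '' Ioo a b := by
    rintro _ hz ⟨t, ht, rfl⟩
    exact ⟨t, ⟨ht.1.lt_of_ne fun h => (hs hz).2 (h ▸ ha), ht.2.lt_of_ne fun h => (hs hz).2 (h ▸ hb)⟩,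
      rfl⟩
  intro z hz
  by_contra h6
  obtain ⟨w, w1, w2, w3⟩ := hp O (c '' Icc a b)ᶜ h3
    (isCompact_Icc.image_of_continuousOn h1.cont).isClosed.isOpen_compl
    (fun w hw => or_iff_not_imp_right.2 fun h => (h4.ge (h5 w hw (not_not.1 h))).1)
    ⟨y, hy', (h4.ge hy).1⟩ ⟨z, hz, fun h => h6 (h5 z hz h)⟩
  exact w3 (image_mono Ioo_subset_Icc_self (h4.le ⟨w2, (hs w1).1⟩))

theorem igt_Edge.two (h : igt_Edge X V e) :
    ∃ x y, x ≠ y ∧ ∀ v, v ∈ V ∧ v ∈ closure e ↔ v = x ∨ v = y := by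
  obtain ⟨c, a, b, hab, h1, ha, hb, h2, rfl⟩ := h
  refine ⟨c a, c b, fun h => hab.ne (h1.inj (left_mem_Icc.2 hab.le) (right_mem_Icc.2 hab.le) h),
    fun v => ?_⟩
  rw [h1.closure hab]
  constructor
  · rintro ⟨hv, t, ht, rfl⟩
    by_contra h3
    push Not at h3
    exact h2 t ⟨ht.1.lt_of_ne fun h => h3.1 (by rw [h]), ht.2.lt_of_ne fun h => h3.2 (by rw [h])⟩ hv
  · rintro (rfl | rfl)
    · exact ⟨ha, a, left_mem_Icc.2 hab.le, rfl⟩
    · exact ⟨hb, b, right_mem_Icc.2 hab.le, rfl⟩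

theorem igt_Arc.two (h : igt_Arc X c a b) (hV : V.Finite) (ha : c a ∈ V) (hb : c b ∈ V) {t : ℝ}
    (ht : t ∈ Ioo a b) (hv : c t ∈ V) :
    ∃ e₁ e₂, e₁ ≠ e₂ ∧ ∀ e, igt_Edge X V e ∧ c t ∈ _root_.closure e ↔ e = e₁ ∨ e = e₂ := by
  have hT : (Icc a b ∩ c ⁻¹' V).Finite :=
    Finite.of_injOn (f := c) (fun _ hs => hs.2) (h.inj.mono inter_subset_left) hV
  obtain ⟨a', ⟨⟨a1, a2⟩, a3⟩, a4⟩ := exists_max_image _ id (hT.inter_of_left (Iio t))
    ⟨a, ⟨left_mem_Icc.2 (ht.1.trans ht.2).le, ha⟩, ht.1⟩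
  obtain ⟨b', ⟨⟨b1, b2⟩, b3⟩, b4⟩ := exists_min_image _ id (hT.inter_of_left (Ioi t))
    ⟨b, ⟨right_mem_Icc.2 (ht.1.trans ht.2).le, hb⟩, ht.2⟩
  have c1 := h.mono a1.1 ht.2.le
  have c2 := h.mono ht.1.le b1.2
  have e1 : igt_Edge X V (c '' Ioo a' t) := ⟨c, a', t, a3, c1, a2, hv, fun s hs h5 => hs.1.not_ge
    (a4 s ⟨⟨⟨a1.1.trans hs.1.le, (hs.2.trans ht.2).le⟩, h5⟩, hs.2⟩), rfl⟩
  have e2 : igt_Edge X V (c '' Ioo t b') := ⟨c, t, b', b3, c2, hv, b2, fun s hs h5 => hs.2.not_ge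
    (b4 s ⟨⟨⟨(ht.1.trans hs.1).le, hs.2.le.trans b1.2⟩, h5⟩, hs.1⟩), rfl⟩
  refine ⟨c '' Ioo a' t, c '' Ioo t b', fun h5 => ?_, fun e => ⟨fun ⟨h5, h6⟩ => ?_, ?_⟩⟩
  · obtain ⟨s, hs⟩ := nonempty_Ioo.2 (show a' < t from a3)
    obtain ⟨s', hs', h6⟩ := h5.le ⟨s, hs, rfl⟩
    exact (hs.2.trans hs'.1).ne' (h.inj ⟨(ht.1.trans hs'.1).le, hs'.2.le.trans b1.2⟩
      ⟨a1.1.trans hs.1.le, (hs.2.trans ht.2).le⟩ h6)
  · obtain ⟨O, h7, h8⟩ := h.opn a' b' a1.1 b1.2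
    obtain ⟨y, y1, y2⟩ := mem_closure_iff.1 h6 O h7 (h8.ge ⟨t, ⟨a3, b3⟩, rfl⟩).1
    obtain ⟨s, hs, rfl⟩ := h8.le ⟨y1, (h5.sub y2).1⟩
    rcases lt_trichotomy s t with h9 | rfl | h9
    · have : c s ∈ c '' Ioo a' t := ⟨s, ⟨hs.1, h9⟩, rfl⟩
      exact Or.inl (subset_antisymm (e1.subset h5 this y2) (h5.subset e1 y2 this))
    · exact absurd hv (h5.sub y2).2
    · have : c s ∈ c '' Ioo t b' := ⟨s, ⟨h9, hs.2⟩, rfl⟩
      exact Or.inr (subset_antisymm (e2.subset h5 this y2) (h5.subset e2 y2 this))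
  · rintro (rfl | rfl)
    · exact ⟨e1, by rw [c1.closure a3]; exact ⟨t, right_mem_Icc.2 (le_of_lt a3), rfl⟩⟩
    · exact ⟨e2, by rw [c2.closure b3]; exact ⟨t, left_mem_Icc.2 (le_of_lt b3), rfl⟩⟩

theorem igt_Arc.fixed (h : igt_Arc X c a b) (hab : a < b) (hσ : Continuous σ)
    (hi : Function.Involutive σ) (hm : σ '' (c '' Ioo a b) ⊆ c '' Ioo a b) :
    ∃ t ∈ Ioo a b, σ (c t) = c t := by
  have h1 : ∀ t : Ioo a b, ∃ s : Icc a b, (s : ℝ) ∈ Ioo a b ∧ c s = σ (c t) := fun t =>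
    let ⟨s, hs, h⟩ := hm ⟨_, ⟨t, t.2, rfl⟩, rfl⟩
    ⟨⟨s, Ioo_subset_Icc_self hs⟩, hs, h⟩
  choose s s1 s2 using h1
  have h2 := (continuousOn_iff_continuous_domRestrict.1 h.cont).isClosedEmbedding
    (injOn_iff_injective.1 h.inj)
  have h3 : Continuous s := h2.isInducing.continuous_iff.2 (by
    rw [show (Icc a b).domRestrict c ∘ s = fun t : Ioo a b => σ (c t) from funext s2]
    exact hσ.comp (continuousOn_iff_continuous_domRestrict.1 (h.cont.mono Ioo_subset_Icc_self)))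
  have := isPreconnected_iff_preconnectedSpace.1 (isPreconnected_Ioo (a := a) (b := b))
  obtain ⟨t, ht⟩ := nonempty_Ioo.2 hab
  have h4 : (s ⟨s ⟨t, ht⟩, s1 _⟩ : ℝ) = t :=
    h.inj (s _).2 (Ioo_subset_Icc_self ht) (by rw [s2, s2, hi])
  have h5 : ∃ t : Ioo a b, (t : ℝ) = s t := by
    rcases le_total t (s ⟨t, ht⟩) with h6 | h6
    · exact intermediate_value_univ₂ (a := ⟨t, ht⟩) (b := ⟨s ⟨t, ht⟩, s1 _⟩) continuous_subtype_val
        (continuous_subtype_val.comp h3) h6 (h4.trans_le h6)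
    · exact intermediate_value_univ₂ (b := ⟨t, ht⟩) (a := ⟨s ⟨t, ht⟩, s1 _⟩) continuous_subtype_val
        (continuous_subtype_val.comp h3) (h6.trans_eq h4.symm) h6
  obtain ⟨u, hu⟩ := h5
  exact ⟨u, u.2, by rw [← s2, ← hu]⟩

theorem igt_main (hσ : Continuous σ) (hi : Function.Involutive σ) (hm : MapsTo σ X X)
    (hV : V.Finite) (hVσ : MapsTo σ V V) (hfix : ∀ x ∈ X, σ x = x → x ∈ V)
    (hc : ∀ x ∈ V, ∃ c a b t, igt_Arc X c a b ∧ c a ∈ V ∧ c b ∈ V ∧ t ∈ Ioo a b ∧ c t = x) :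
    Even hV.toFinset.card := by
  classical
  have h1 : ∀ v ∈ V, ∃ e₁ e₂, e₁ ≠ e₂ ∧ ∀ e, igt_Edge X V e ∧ v ∈ closure e ↔ e = e₁ ∨ e = e₂ := by
    intro v hv
    obtain ⟨c, a, b, t, a1, a2, a3, a4, rfl⟩ := hc v hv
    exact a1.two hV a2 a3 a4 hv
  have hE : {e | igt_Edge X V e}.Finite := by
    refine (hV.biUnion (t := fun v => {e | igt_Edge X V e ∧ v ∈ closure e}) fun v hv => ?_).subset
      fun e he => ?_
    · obtain ⟨e₁, e₂, -, h⟩ := h1 v hv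
      exact (toFinite {e₁, e₂}).subset fun e he => (h e).1 he
    · obtain ⟨x, y, -, h⟩ := igt_Edge.two he
      obtain ⟨a1, a2⟩ := (h x).2 (Or.inl rfl)
      exact mem_biUnion a1 ⟨he, a2⟩
  have h2 := Finset.card_mul_eq_card_mul (s := hV.toFinset) (t := hE.toFinset) (m := 2) (n := 2)
    (fun v e => v ∈ closure e)
    (fun v hv => by
      obtain ⟨e₁, e₂, a1, h⟩ := h1 v (hV.mem_toFinset.1 hv)
      exact Finset.card_eq_two.2 ⟨e₁, e₂, a1, Finset.ext fun e => by simpa using h e⟩)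
    (fun e he => by
      obtain ⟨x, y, a1, h⟩ := igt_Edge.two (hE.mem_toFinset.1 he)
      exact Finset.card_eq_two.2 ⟨x, y, a1, Finset.ext fun v => by simpa using h v⟩)
  rw [Nat.eq_of_mul_eq_mul_right two_pos h2]
  refine igt_even _ (image σ) (fun e he => ?_) (fun e _ => hi.leftInverse.image_image e)
    fun e he h => ?_
  · obtain ⟨c, a, b, a1, a2, a3, a4, a5, rfl⟩ := hE.mem_toFinset.1 he
    exact hE.mem_toFinset.2 ⟨σ ∘ c, a, b, a1, a2.map hσ hi hm, hVσ a3, hVσ a4,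
      fun t ht h => a5 t ht (hi (c t) ▸ hVσ h), (image_comp _ _ _).symm⟩
  · obtain ⟨c, a, b, a1, a2, -, -, a5, rfl⟩ := hE.mem_toFinset.1 he
    obtain ⟨t, ht, h3⟩ := a2.fixed a1 hσ hi h.le
    exact a5 t ht (hfix _ (a2.maps (Ioo_subset_Icc_self ht)) h3)

end edge

/-- Finitely many arcs `c i` whose open parts `c i '' Ioo (-δ i) (δ i)` cover `X`.  `V` = the end points `c i (± δ i)`, their
`σ`-images and the fixed points: finite, `σ`-invariant, inside `X`.  An EDGE is a set `c i '' Ioo a b` with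
`-δ i ≤ a < b ≤ δ i`, `c i a, c i b ∈ V`, disjoint from `V`; there are finitely many (the set
`T i = {t ∈ Icc (-δ i) (δ i) | c i t ∈ V}` is finite).  (1) Every `z ∈ X \ V` lies in an edge (neighbours in `T i`).  (2) An edge `e` has
`closure e = c i '' Icc a b = e ∪ {c i a, c i b}`, so a preconnected `s ⊆ X \ V` that meets `e` is inside `e`
(`IsPreconnected.subset_of_closure_inter_subset`-type argument with the open `O`, `O ∩ X = e`, and the open complement of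
`c i '' Icc a b`); two edges that meet are equal, and `σ '' e` is an edge (it is inside the edge `e'` of one of its points, and
`σ '' e' ⊆ e`).  (3) Each edge has exactly two points of `V` in its closure; each `v = c i t ∈ V` (`-δ i < t < δ i`) is in the
closure of exactly the two edges `c i '' Ioo a t`, `c i '' Ioo t b` (`a, b` the neighbours of `t` in `T i`; an edge whose closure
contains `v` meets the relatively open `c i '' Ioo a b` outside `V`).  `Finset.card_mul_eq_card_mul` gives `#V = #E`.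
(4) `σ '' e ≠ e`: otherwise `s = (c i)⁻¹ ∘ σ ∘ c i` is a continuous involution of `Ioo a b` and has a fixed point.  To avoid
the inverse of `c i`: the sets `{t | ∃ t' ∈ Ioo a t, σ (c t) = c t'}` and `{t | ∃ t' ∈ Ioo t b, σ (c t) = c t'}` are relatively
open, disjoint, cover `Ioo a b` and are exchanged by `s`; or use `ContinuousOn` of `Function.invFunOn` on the compact image
(`IsCompact` + `Continuous.homeoOfEquivCompactToT2`, `IsClosedEmbedding`).  So `#E` is even, and `#V ≡ #Fix` mod 2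
(`Function.Involutive.card_fixedPoints_modEq`, `Finset.even_card_of_involution`-type lemma, or `Finset.card_involution`). -/
theorem even_fixed {X : Set Y} (hX : IsCompact X) (hc : ∀ x ∈ X, Crv X x) {σ : Y → Y}
    (hσ : Continuous σ) (hi : Function.Involutive σ) (hm : MapsTo σ X X)
    (hf : {x ∈ X | σ x = x}.Finite) : Even {x ∈ X | σ x = x}.ncard := by
  classical
  choose c δ hδ h0 h1 h2 h3 h4 using fun x : X => (hc x x.2).exists_arc
  choose O o1 o2 using fun x : X => h4 x _ _ le_rfl le_rfl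
  obtain ⟨T, hT⟩ := hX.elim_nhds_subcover' (fun x hx => O ⟨x, hx⟩) fun x hx =>
    (o1 _).mem_nhds ((o2 ⟨x, hx⟩).ge ⟨0, ⟨neg_lt_zero.2 (hδ _), hδ _⟩, h0 _⟩).1
  obtain ⟨V₀, f0, m0, x0⟩ : ∃ V₀ : Set Y, V₀.Finite ∧ (∀ x ∈ T, c x (-δ x) ∈ V₀ ∧ c x (δ x) ∈ V₀) ∧
      V₀ ⊆ X := by
    refine ⟨⋃ x ∈ T, {c x (-δ x), c x (δ x)}, T.finite_toSet.biUnion fun _ _ => toFinite _,
      fun x hx => ⟨mem_biUnion hx (Or.inl rfl), mem_biUnion hx (Or.inr rfl)⟩,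
      iUnion₂_subset fun x _ => ?_⟩
    have := (neg_lt_self (hδ x)).le
    rintro _ (rfl | rfl)
    exacts [h3 x (left_mem_Icc.2 this), h3 x (right_mem_Icc.2 this)]
  have hV : (V₀ ∪ σ '' V₀ ∪ {x ∈ X | σ x = x}).Finite := (f0.union (f0.image σ)).union hf
  have hVX : V₀ ∪ σ '' V₀ ∪ {x ∈ X | σ x = x} ⊆ X :=
    union_subset (union_subset x0 (image_subset_iff.2 fun x hx => hm (x0 hx))) fun _ hx => hx.1
  have hVσ : MapsTo σ (V₀ ∪ σ '' V₀ ∪ {x ∈ X | σ x = x}) (V₀ ∪ σ '' V₀ ∪ {x ∈ X | σ x = x}) := by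
    rintro x ((hx | ⟨y, hy, rfl⟩) | hx)
    · exact Or.inl (Or.inr ⟨x, hx, rfl⟩)
    · exact Or.inl (Or.inl (by rwa [hi]))
    · exact Or.inr (by rw [hx.2]; exact hx)
  have h5 := igt_main hσ hi hm hV hVσ (fun x hx h => Or.inr ⟨hx, h⟩) fun x hx => by
    obtain ⟨y, hy, a1⟩ := mem_iUnion₂.1 (hT (hVX hx))
    obtain ⟨t, ht, a2⟩ := (o2 y).le ⟨a1, hVX hx⟩
    exact ⟨c y, _, _, t, ⟨h1 y, h2 y, h3 y, h4 y⟩, Or.inl (Or.inl (m0 y hy).1),
      Or.inl (Or.inl (m0 y hy).2), ht, a2⟩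
  have h6 := igt_even (hV.toFinset.filter fun x => ¬ σ x = x) σ
    (fun x hx => Finset.mem_filter.2 ⟨hV.mem_toFinset.2 (hVσ (hV.mem_toFinset.1
      (Finset.mem_filter.1 hx).1)), fun h => (Finset.mem_filter.1 hx).2 (hi.injective h)⟩)
    (fun x _ => hi x) fun x hx => (Finset.mem_filter.1 hx).2
  rw [← Finset.card_filter_add_card_filter_not (fun x => σ x = x), Nat.even_add] at h5
  rw [show {x ∈ X | σ x = x} = ↑(hV.toFinset.filter fun x => σ x = x) from ?_, ncard_coe_finset]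
  · exact h5.2 h6
  · ext x
    rw [Finset.coe_filter, mem_ofPred_eq, mem_ofPred_eq, hV.mem_toFinset]
    exact ⟨fun h => ⟨Or.inr h, h.2⟩, fun h => ⟨hVX h.1, h.2⟩⟩

end Crest.Agent.R216
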