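import Crest.Agent.R216.ImGenL
import Crest.Agent.R192.PInt

/-!
# R216/ImGenW: the double curve at a Whitney umbrella
-/

set_option autoImplicit false
set_option linter.unusedSectionVars false

open scoped Manifold ContDiff Topology
open Matrix Set Filter

noncomputable section

namespace Crest.Agent.R216

/-- the divided difference -/
def igw_G (f : ℝ × ℝ → V3) (v w : ℝ × ℝ) (y : ℝ × (ℝ × ℝ) × ℝ) : V3 :=
  ∫ t in (0 : ℝ)..1, fderiv ℝ f (y.2.1 + (t * y.1) • (v + y.2.2 • w)) (v + y.2.2 • w)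

variable {f : ℝ × ℝ → V3} {z v w : ℝ × ℝ}

theorem igw_contDiff (hf : ContDiff ℝ ∞ f) (v w : ℝ × ℝ) : ContDiff ℝ 1 (igw_G f v w) := by
  have h1 : ContDiff ℝ 1 (fderiv ℝ f) := hf.fderiv_right (by norm_cast)
  exact Crest.Agent.R192.contDiff_pint 1 (f := fun q : (ℝ × (ℝ × ℝ) × ℝ) × ℝ =>
    fderiv ℝ f (q.1.2.1 + (q.2 * q.1.1) • (v + q.1.2.2 • w)) (v + q.1.2.2 • w))
    ((h1.comp (by fun_prop)).clm_apply (by fun_prop)) 0 1

theorem igw_zero (p : ℝ × ℝ) (κ : ℝ) : igw_G f v w (0, p, κ) = fderiv ℝ f p (v + κ • w) := by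
  simp [igw_G]

theorem igw_smul (hf : ContDiff ℝ ∞ f) (s : ℝ) (p : ℝ × ℝ) (κ : ℝ) :
    s • igw_G f v w (s, p, κ) = f (p + s • (v + κ • w)) - f p := by
  have h1 : Continuous (fderiv ℝ f) := hf.continuous_fderiv (by simp)
  rw [igw_G, ← intervalIntegral.integral_smul,
    intervalIntegral.integral_eq_sub_of_hasDerivAt (f := fun t => f (p + (t * s) • (v + κ • w)))]
  · simp
  · intro t _
    have h2 : HasDerivAt (fun t : ℝ => p + (t * s) • (v + κ • w)) (s • (v + κ • w)) t := by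
      simpa using (((hasDerivAt_id t).mul_const s).smul_const (v + κ • w)).const_add p
    have h3 := (hf.differentiable (by simp) _).hasFDerivAt.comp_hasDerivAt t h2
    rwa [map_smul] at h3
  · exact Continuous.intervalIntegrable (by fun_prop) _ _

theorem igw_fderiv (hf : ContDiff ℝ ∞ f) (y : (ℝ × ℝ) × ℝ) :
    (fderiv ℝ (igw_G f v w) (0, z, 0) ∘L ContinuousLinearMap.inr ℝ ℝ _) y =
      fderiv ℝ (fderiv ℝ f) z y.1 v + y.2 • fderiv ℝ f z w := by
  have h1 : ContDiff ℝ 1 (fderiv ℝ f) := hf.fderiv_right (by norm_cast)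
  have h2 := ((igw_contDiff hf v w).differentiable (by simp) (0, z, 0)).hasFDerivAt.comp (z, (0 : ℝ))
    (hasFDerivAt_prodMk_right (𝕜 := ℝ) (0 : ℝ) (z, (0 : ℝ)))
  have h3 := ((h1.differentiable (by simp) z).hasFDerivAt.comp (z, (0 : ℝ))
    (hasFDerivAt_fst (𝕜 := ℝ) (p := (z, (0 : ℝ))))).clm_apply
    (((hasFDerivAt_snd (𝕜 := ℝ) (p := (z, (0 : ℝ)))).smul_const w).const_add v)
  rw [h2.unique (h3.congr_of_eventuallyEq (Eventually.of_forall fun y => igw_zero y.1 y.2))]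
  simp [add_comm]

theorem igw_dd (hf : ContDiff ℝ ∞ f) (a b : ℝ × ℝ) :
    fderiv ℝ (fun p => fderiv ℝ f p b) z a = fderiv ℝ (fderiv ℝ f) z a b := by
  have h1 : ContDiff ℝ 1 (fderiv ℝ f) := hf.fderiv_right (by norm_cast)
  rw [((h1.differentiable (by simp) z).hasFDerivAt.clm_apply (hasFDerivAt_const b z)).fderiv]
  simp

theorem igw_lin {B : ℝ × ℝ →L[ℝ] V3} (hv : B v = 0) (hw : B w ≠ 0) {ε : ℝ} (hε : 0 < ε) :
    ∃ δ > 0, ∀ a b : ℝ, a • v + b • w ≠ 0 → ‖B (a • v + b • w)‖ ≤ δ * ‖a • v + b • w‖ →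
      a ≠ 0 ∧ |b / a| < ε := by
  have h1 := norm_pos_iff.2 hw
  have h2 := norm_nonneg v
  have h3 := norm_nonneg w
  obtain ⟨δ, h4, h5, h6⟩ : ∃ δ > 0, δ * ‖w‖ ≤ ‖B w‖ / 2 ∧ δ * ‖v‖ < ε * (‖B w‖ / 2) := by
    have c1 : ∀ᶠ δ in 𝓝[>] (0 : ℝ), δ * ‖w‖ < ‖B w‖ / 2 :=
      nhdsWithin_le_nhds (ContinuousAt.eventually_lt (by fun_prop) continuousAt_const (by simpa))
    have c2 : ∀ᶠ δ in 𝓝[>] (0 : ℝ), δ * ‖v‖ < ε * (‖B w‖ / 2) :=
      nhdsWithin_le_nhds (ContinuousAt.eventually_lt (by fun_prop) continuousAt_const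
        (by rw [zero_mul]; positivity))
    obtain ⟨δ, a1, a2, a3⟩ := (c1.and (c2.and self_mem_nhdsWithin)).exists
    exact ⟨δ, a3, a1.le, a2⟩
  refine ⟨δ, h4, fun a b hx h => ?_⟩
  have h7 := (norm_add_le (a • v) (b • w))
  rw [map_add, map_smul, map_smul, hv, smul_zero, zero_add, norm_smul, Real.norm_eq_abs] at h
  rw [norm_smul, norm_smul, Real.norm_eq_abs, Real.norm_eq_abs] at h7
  have h8 : |b| * (‖B w‖ / 2) ≤ |a| * (δ * ‖v‖) := by
    have := mul_le_mul_of_nonneg_left h7 h4.le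
    have := mul_le_mul_of_nonneg_left h5 (abs_nonneg b)
    nlinarith
  have ha : a ≠ 0 := by
    rintro rfl
    rw [abs_zero, zero_mul] at h8
    have : |b| ≤ 0 := by by_contra h9; exact absurd h8 (not_le.2 (mul_pos (not_le.1 h9) (by positivity)))
    exact hx (by simp [abs_nonpos_iff.1 this])
  refine ⟨ha, ?_⟩
  have h9 := abs_pos.2 ha
  rw [abs_div, div_lt_iff₀ h9]
  have := mul_lt_mul_of_pos_left h6 h9
  exact lt_of_mul_lt_mul_right (a := ‖B w‖ / 2) (by linarith) (by positivity)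

theorem igw_core (hf : ContDiff ℝ ∞ f) {π₁ π₂ : ℝ × ℝ → ℝ} (c1 : Continuous π₁)
    (hb : ∀ x, x = π₁ x • v + π₂ x • w) (h1 : ∀ s κ : ℝ, π₁ (s • (v + κ • w)) = s)
    (hv : fderiv ℝ f z v = 0) (hw : fderiv ℝ f z w ≠ 0)
    (hl : ∀ l : V3, l ⬝ᵥ fderiv ℝ f z w = 0 → (∀ x, l ⬝ᵥ fderiv ℝ (fderiv ℝ f) z x v = 0) → l = 0) :
    Crv (dbl f) (z, z) ∧ ∀ᶠ p in 𝓝 z, gram2 (dx f p) (dy f p) = 0 → p = z := by
  have h0 : π₁ 0 = 0 := by simpa using h1 0 0
  have hv0 : v ≠ 0 := by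
    rintro rfl
    simpa [h0] using h1 1 0
  have hG := (igw_contDiff hf v w).contDiffAt (x := (0, z, 0))
  have hI : (fderiv ℝ (igw_G f v w) (0, z, 0) ∘L ContinuousLinearMap.inr ℝ ℝ _).IsInvertible := by
    have a1 := igl_range_top (fderiv ℝ (igw_G f v w) (0, z, 0) ∘L ContinuousLinearMap.inr ℝ ℝ _)
      fun l h => hl l
        (by simpa only [igw_fderiv hf, map_zero, _root_.zero_apply, zero_add, one_smul] using h (0, 1))
        fun x => by simpa only [igw_fderiv hf, zero_smul, add_zero] using h (x, 0)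
    exact ⟨ContinuousLinearEquiv.ofBijective _
      ((LinearMap.ker_eq_bot_iff_range_eq_top_of_finrank_eq_finrank (by simp)).2 a1) a1, rfl⟩
  have e0 : igw_G f v w (0, z, 0) = 0 := by simp [igw_zero, hv]
  have p0 := hG.implicitFunction_apply_self one_ne_zero hI
  have p1 := hG.eventually_apply_implicitFunction one_ne_zero hI
  have p2 := hG.eventually_apply_eq_iff_implicitFunction one_ne_zero hI
  have p3 := (hG.contDiffAt_implicitFunction one_ne_zero hI).eventually (by simp)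
  generalize hG.implicitFunction one_ne_zero hI = ψ at p0 p1 p2 p3
  rw [e0] at p1 p2
  dsimp only at p0 p1 p3
  obtain ⟨ε, hε, p2⟩ := Metric.eventually_nhds_iff.1 p2
  obtain ⟨δ, hδ, hlin⟩ := igw_lin hv hw hε
  have cτ : Continuous fun y : (ℝ × ℝ) × ℝ × ℝ => π₁ (y.2 - y.1) := by fun_prop
  have key : ∀ᶠ y in 𝓝 (z, z), y ∈ dbl f → ((ψ (π₁ (y.2 - y.1))).1, (ψ (π₁ (y.2 - y.1))).1 +
      π₁ (y.2 - y.1) • (v + (ψ (π₁ (y.2 - y.1))).2 • w)) = y := by
    filter_upwards [igl_small hf z hδ, cτ.continuousAt.eventually (Metric.ball_mem_nhds _ hε),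
      continuous_fst.continuousAt.eventually (Metric.ball_mem_nhds _ hε)] with y a1 a2 a3 a4
    obtain ⟨x, b1, b2, b3⟩ := a1 a4
    rw [hb x] at b1 b2
    obtain ⟨b4, b5⟩ := hlin _ _ b1 b2
    have b6 : π₁ x • (v + (π₂ x / π₁ x) • w) = x := by
      rw [smul_add, smul_smul, mul_div_cancel₀ _ b4, ← hb]
    have b7 : igw_G f v w (π₁ (y.2 - y.1), y.1, π₂ x / π₁ x) = 0 ∧
        y.1 + π₁ (y.2 - y.1) • (v + (π₂ x / π₁ x) • w) = y.2 := by
      rcases b3 with b3 | ⟨b3, b8⟩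
      · rw [← b3, b6]
        refine ⟨(smul_eq_zero.1 ?_).resolve_left b4, by rw [b3, add_sub_cancel]⟩
        rw [igw_smul hf, b6, b3, add_sub_cancel, a4.1, sub_self]
      · rw [← b3, sub_self, h0, zero_smul, add_zero, igw_zero]
        refine ⟨(smul_eq_zero.1 ?_).resolve_left b4, rfl⟩
        rw [← map_smul, b6, b8]
    have b8 : ψ (π₁ (y.2 - y.1)) = (y.1, π₂ x / π₁ x) := by
      refine (p2 ?_).1 b7.1
      rw [sub_self, h0] at a2
      rw [Prod.dist_eq, Prod.dist_eq]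
      exact max_lt a2 (max_lt a3 (by rwa [Real.dist_eq, sub_zero]))
    rw [b8, b7.2]
  constructor
  · refine ⟨fun s => ((ψ s).1, (ψ s).1 + s • (v + (ψ s).2 • w)), fun y => π₁ (y.2 - y.1),
      by simp [p0], cτ.continuousAt, ?_, key⟩
    filter_upwards [p1, p3] with s a1 a2
    have a3 := a2.continuousAt
    refine ⟨by fun_prop, ⟨?_, fun h => ?_⟩, by rw [add_sub_cancel_left, h1]⟩
    · have := igw_smul (v := v) (w := w) hf s (ψ s).1 (ψ s).2
      rw [a1, smul_zero] at this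
      exact (sub_eq_zero.1 this.symm).symm
    · have a4 : s = 0 := by rw [← h1 s (ψ s).2, left_eq_add.1 h, h0]
      subst a4
      exact (igl_sing f _).2 ⟨v, hv0, by rw [p0]; exact hv⟩
  · filter_upwards [(continuous_id.prodMk continuous_id).continuousAt.eventually key] with p a1 a2
    have a3 := congrArg Prod.fst (a1 ⟨rfl, fun _ => a2⟩)
    simpa [h0, p0] using a3.symm

theorem crv_umb {f : ℝ × ℝ → V3} (hf : ContDiff ℝ ∞ f) {z : ℝ × ℝ}
    (hN : NDJ (dx f z) (dy f z) (dx (dx f) z) (dx (dy f) z) (dy (dy f) z))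
    (h0 : gram2 (dx f z) (dy f z) = 0) :
    Crv (dbl f) (z, z) ∧ ∀ᶠ p in 𝓝 z, gram2 (dx f p) (dy f p) = 0 → p = z := by
  obtain ⟨v, hv0, hv⟩ := (igl_sing f z).1 h0
  have h1 : v.1 ≠ 0 ∨ v.2 ≠ 0 := by
    by_contra h
    push Not at h
    exact hv0 (Prod.ext h.1 h.2)
  have h2 : v.1 ^ 2 + v.2 ^ 2 ≠ 0 := by rcases h1 with h | h <;> positivity
  have hb : ∀ x : ℝ × ℝ, x = ((v.1 * x.1 + v.2 * x.2) / (v.1 ^ 2 + v.2 ^ 2)) • v +
      ((v.1 * x.2 - v.2 * x.1) / (v.1 ^ 2 + v.2 ^ 2)) • (-v.2, v.1) := fun x => by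
    ext <;> simp only [Prod.fst_add, Prod.snd_add, Prod.smul_fst, Prod.smul_snd, smul_eq_mul] <;>
      field_simp <;> ring
  have h3 : ∀ l : V3, l ⬝ᵥ fderiv ℝ f z (-v.2, v.1) = 0 → ∀ x, l ⬝ᵥ fderiv ℝ f z x = 0 :=
    fun l hl x => by
      rw [hb x, map_add, map_smul, map_smul, hv, smul_zero, zero_add, dotProduct_smul, hl, smul_zero]
  have h4 : ∀ x, fderiv ℝ (fderiv ℝ f) z x v = v.1 • fderiv ℝ (fderiv ℝ f) z x (1, 0) +
      v.2 • fderiv ℝ (fderiv ℝ f) z x (0, 1) := fun x => by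
    rw [← map_smul, ← map_smul, ← map_add]
    simp
  refine igw_core hf (by fun_prop) hb (fun s κ => ?_) hv (fun h => ?_) fun l a1 a2 => ?_
  · simp only [Prod.fst_add, Prod.snd_add, Prod.smul_fst, Prod.smul_snd, smul_eq_mul]
    field_simp
    ring
  · have a1 : ∀ x, fderiv ℝ f z x = 0 := fun x =>
      dotProduct_self_eq_zero.1 (h3 _ (by rw [h, dotProduct_zero]) x)
    exact hN.1.elim (fun h => h (a1 _)) fun h => h (a1 _)
  · refine hN.2 v.1 v.2 h1 ((igl_fderiv f z v).symm.trans hv) l (h3 l a1 _) (h3 l a1 _) ?_ ?_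
    · rw [← a2 (1, 0), h4, ← igw_dd hf, ← igw_dd hf]
      rfl
    · rw [← a2 (0, 1), h4, (hf.contDiffAt.isSymmSndFDerivAt (by rw [minSmoothness_of_isRCLikeNormedField]; norm_cast)).eq (0, 1) (1, 0),
        ← igw_dd hf, ← igw_dd hf]
      rfl

end Crest.Agent.R216
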