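import Crest.Agent.R216.ImGenG
import Crest.Agent.R216.ImGenT
import Crest.Agent.R216.ImGenL
import Crest.Agent.R216.ImGenW
import Crest.Agent.R216.ImGenC

/-!
# R216: generic maps to `ℝ³` and parity of the umbrellas

PLAN (SUB-LEAD: write your own skeleton files `R216/ImGen*.lean` and post tasks).

`ι : M → ℝ^n`, `ι = (x i a, ψ i)_{i,a}`, is smooth, injective (`exists_K`, `x_inj`) and immersive.
Family `F_P = ∑ m, u m • P m`, `P : (index) → V3`, `u m` = products of at most three of the functions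
`1, x i a, ψ i`. Such `F_P` realise every 2-jet at one point (use `1, x-x(p), (x-x(p))²`), and every
pair of 1-jets at two points `p ≠ q` (take a coordinate `h` of `ι` with `h p ≠ h q`;
`(h - h q)² * (affine in x i)` has zero 1-jet at `q` and arbitrary 1-jet at `p`).

(A) PARAMETRIC LEMMA: `𝒫` finite-dimensional, `U ⊆ ℝ^d` open (any finite-dim. space),
`Φ : U → (𝒫 →L ℝ^e)` of class `C¹`, every `Φ u` surjective, `d < e`. Then
`dimH {P | ∃ u ∈ U, Φ u P = 0} < finrank 𝒫`. Proof: near `u₀` with a right inverse `R` of `Φ u₀`,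
`Φ u ∘ R` is invertible and `ker (Φ u)` is the image of `ker (Φ u₀)` under
`k ↦ k - R (Φ u R)⁻¹ Φ u k`; so the bad set is locally inside a `C¹` image of `U' × ker (Φ u₀)`
(dimension `d + dim 𝒫 - e`); `ContDiffOn.dimH_image_le`, countable subcover, `dimH_bUnion`.
Apply it (in charts via `exists_down`, `p ∈ ℝ²`; `v = (cos a, sin a)`; `l` on the sphere through two
angles, or three affine charts `l j = 1`) to: (G1) `dF(p) = 0` (6 equations, `d = 2`);
(G2) `d_v F = 0, l·d_w F = 0 (w ⊥ v), l·d²F(v,v) = 0, l·d²F(v,w) = 0` (6 equations, `d = 5`);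
(G3) `p ≠ q, F p = F q, l ⊥ dF_p, l ⊥ dF_q` (7 equations, `d = 6`). A finite union of sets of
`dimH < dim` is not everything: pick `P`.

(B1) TOPOLOGICAL LEMMA: `X` compact Hausdorff, every point has an open neighbourhood
homeomorphic to an open interval (an `OpenPartialHomeomorph X ℝ`, or an open embedding `ℝ → X`
through the point), `σ : X → X` a continuous involution with finitely many fixed points. Then
their number is even. Proof: finitely many closed chart intervals `I i = c i [a i, b i]` whose interiors cover;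
`V` = endpoints, their `σ`-images, and the fixed points (finite, `σ`-invariant). Edges = connected
components of `X \ V`. If `z ∈ int (I i) \ V`, with `α < β` the neighbours in `c⁻¹(V)` of its coordinate,
`c (α, β)` is preconnected and clopen in `X \ V` (`= c [α, β] \ V`), so it is the edge of `z`. Hence finitely many
edges, each with exactly two vertices in its closure, and each vertex is in the closure of exactly
two edges: `#V = #E` by double counting. `σ` acts on edges without fixed edge (a continuous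
involution of an interval has a fixed point by the intermediate value theorem applied to
`σ t - t` at `t` and `σ t`), so `#E` is even; `#Fix ≡ #V (mod 2)`
(`Function.Involutive.card_fixedPoints..`/`Finset.card_involution`-type lemma).

(B2) `X_S = {(p,q) ∈ S × S | p ≠ q, F p = F q} ∪ {(p,p) | p ∈ Sing F ∩ S}`, `σ = swap`. Off the diagonal
`(p,q) ↦ F p - F q` is a submersion `ℝ⁴ → ℝ³` (G3): implicit function theorem
(`HasStrictFDerivAt.implicitToOpenPartialHomeomorph`, kernel of dimension one). Near `(p,p)` with `p`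
immersive `F` is injective. Near `(p₀,p₀)`, `p₀` singular with kernel `v₀` (unit): in the chart let
`G(z,κ,s) = ∫ t in 0..1, (d_v F(z + t s v) + d_v F(z - t s v))/2`, `v = v₀ + κ v₀^⊥`, so
`2 s G = F(z + s v) - F(z - s v)`, `G(z,κ,0) = d_v F(z)`, `G` smooth (`Crest.Agent.R192.contDiff_pint`).
Its derivative in `(z,κ)` at `(z₀,0,0)` is `(w, k) ↦ d²F(v₀,w) + k d_{v₀^⊥} F`, onto `ℝ³` by `NDJ`, so the zero set of
`G` is locally a curve `s ↦ (z s, κ s, s)`. Pairs `p ≠ q` near `p₀` with `F p = F q`, and singular `p` near `p₀`,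
have direction close to `± v₀` (otherwise `|d_v F| ≥ c`), so they come from zeros of `G` with small `κ`;
`s ↦ (z s + s v s, z s - s v s)` parametrises `X` near `(p₀,p₀)` (inverse: `s = ⟨p - q, v₀⟩/2`). In particular
umbrellas are isolated, `Sing F` is closed, hence finite; `X_S` is closed in `M × M`.
-/

set_option autoImplicit false
set_option linter.unusedSectionVars false

open scoped Manifold ContDiff Topology
open Matrix Set Filter

noncomputable section

namespace Crest.Agent.R216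

variable {M : Type*} [TopologicalSpace M] [T2Space M] [CompactSpace M] [ChartedSpace E2 M]
  [IsManifold (𝓡 2) ∞ M]

namespace Atl

variable (A : Atl M) {F : M → V3}

/-- double points and singular points -/
def Dbl (F : M → V3) : Set (M × M) := {w | F w.1 = F w.2 ∧ (w.1 = w.2 → w.1 ∈ A.Sing F)}

theorem exists_loc_dbl (hF : A.Umb F) (p : M) :
    ∃ (e : OpenPartialHomeomorph M (ℝ × ℝ)) (f : ℝ × ℝ → V3), p ∈ e.source ∧ ContDiff ℝ ∞ f ∧
      NDJ (dx f (e p)) (dy f (e p)) (dx (dx f) (e p)) (dx (dy f) (e p)) (dy (dy f) (e p)) ∧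
      (∀ q ∈ e.source, q ∈ A.Sing F ↔ gram2 (dx f (e q)) (dy f (e q)) = 0) ∧
      ∀ᶠ w in 𝓝 (p, p), w ∈ A.Dbl F ↔ e.prod e w ∈ dbl f := by
  obtain ⟨i, -, -, hi⟩ := A.exists_K p
  obtain ⟨e, f, h1, h2, h3, h4⟩ := A.exists_loc i hi hF.1
  have h5 : ∀ q ∈ e.source, q ∈ A.Sing F ↔ gram2 (dx f (e q)) (dy f (e q)) = 0 := fun q hq => by
    rw [A.mem_sing_iff i (h2 hq) hF.1, (h4 q hq).2.1, (h4 q hq).2.2.1]
  refine ⟨e, f, h1, h3, ?_, h5, ?_⟩
  · obtain ⟨-, a1, a2, a3, a4, a5⟩ := h4 p h1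
    rw [← a1, ← a2, ← a3, ← a4, ← a5]
    exact hF.2 i p hi
  · filter_upwards [prod_mem_nhds (e.open_source.mem_nhds h1) (e.open_source.mem_nhds h1)] with w hw
    show F w.1 = F w.2 ∧ _ ↔ f (e w.1) = f (e w.2) ∧ (e w.1 = e w.2 → gram2 (dx f (e w.1)) _ = 0)
    rw [(h4 _ hw.1).1, (h4 _ hw.2).1, h5 _ hw.1, e.injOn.eq_iff hw.1 hw.2]
    rfl

theorem isClosed_dbl (hF : A.Umb F) : IsClosed (A.Dbl F) := by
  refine ⟨isOpen_iff_mem_nhds.2 fun w hw => ?_⟩
  by_cases h : F w.1 = F w.2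
  · obtain ⟨p, q⟩ := w
    obtain ⟨rfl, h2⟩ : p = q ∧ p ∉ A.Sing F := by
      by_contra h3
      exact hw ⟨h, fun h4 => by_contra fun h5 => h3 ⟨h4, h5⟩⟩
    obtain ⟨e, f, h1, h3, -, h5, h6⟩ := A.exists_loc_dbl hF p
    have h7 := ((e.prod e).continuousAt (x := (p, p)) ⟨h1, h1⟩).eventually
      (loc_inj h3 (mt (h5 p h1).2 h2))
    filter_upwards [h6, h7] with w a1 a2 a3 using a2 (a1.1 a3)
  · have hc := hF.1.continuous
    exact mem_of_superset ((isOpen_ne_fun (hc.comp continuous_fst) (hc.comp continuous_snd)).mem_nhds h)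
      fun w h1 h2 => h1 h2.1

theorem crv_dbl (hF : A.Umb F) (hT : A.Trv F) {w : M × M} (hw : w ∈ A.Dbl F) :
    Crv (A.Dbl F) w := by
  obtain ⟨p, q⟩ := w
  by_cases h : p = q
  · subst h
    obtain ⟨e, f, h1, h3, h4, h5, h6⟩ := A.exists_loc_dbl hF p
    exact Crv.of_chart (e.prod e) ⟨h1, h1⟩ (crv_umb h3 h4 ((h5 p h1).1 (hw.2 rfl))).1 h6
  · obtain ⟨i, -, -, hi⟩ := A.exists_K p
    obtain ⟨j, -, -, hj⟩ := A.exists_K q
    obtain ⟨e, f, h1, -, h3, h4⟩ := A.exists_loc i hi hF.1
    obtain ⟨e', f', h1', -, h3', h4'⟩ := A.exists_loc j hj hF.1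
    refine Crv.of_chart (e.prod e') ⟨h1, h1'⟩ (crv_double h3 h3' (z₁ := e p) (z₂ := e' q)
      (by rw [← (h4 p h1).1, ← (h4' q h1').1]; exact hw.1) fun l => ?_) ?_
    · rw [← (h4 p h1).2.1, ← (h4 p h1).2.2.1, ← (h4' q h1').2.1, ← (h4' q h1').2.2.1]
      exact hT i j p hi q hj h hw.1 l
    · filter_upwards [prod_mem_nhds (e.open_source.mem_nhds h1) (e'.open_source.mem_nhds h1'),
        (isOpen_ne_fun continuous_fst continuous_snd).mem_nhds (show (p, q).1 ≠ (p, q).2 from h)]
        with w hw hne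
      show F w.1 = F w.2 ∧ _ ↔ f (e w.1) = f' (e' w.2)
      rw [(h4 _ hw.1).1, (h4' _ hw.2).1]
      exact and_iff_left fun h => absurd h hne

theorem finite_sing (hF : A.Umb F) : (A.Sing F).Finite := by
  refine (A.isClosed_sing hF.1).isCompact.finite (isDiscrete_iff_forall_mem_exists_isOpen.2 fun p hp => ?_)
  obtain ⟨e, f, h1, h3, h4, h5, -⟩ := A.exists_loc_dbl hF p
  have h7 := (e.continuousAt h1).eventually (crv_umb h3 h4 ((h5 p h1).1 hp)).2
  obtain ⟨U, a1, a2, a3⟩ := mem_nhds_iff.1 (h7.and (e.open_source.mem_nhds h1))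
  refine ⟨U, a2, subset_antisymm (fun q hq => ?_) (singleton_subset_iff.2 ⟨a3, hp⟩)⟩
  obtain ⟨b1, b2⟩ := a1 hq.1
  exact e.injOn b2 h1 (b1 ((h5 q b2).1 hq.2))

end Atl

theorem imGenStmt (A : Atl M) : A.ImGenStmt := by
  obtain ⟨F, hF, hT⟩ := A.exists_generic
  refine ⟨F, hF, A.finite_sing hF, fun S hS => ?_⟩
  have e : {x ∈ A.Dbl F ∩ S ×ˢ S | Prod.swap x = x} = (fun p => (p, p)) '' (A.Sing F ∩ S) := by
    ext ⟨p, q⟩
    constructor
    · rintro ⟨⟨h1, h2⟩, h3⟩
      obtain rfl : p = q := (Prod.mk.inj h3).2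
      exact ⟨p, ⟨h1.2 rfl, h2.1⟩, rfl⟩
    · rintro ⟨p, h1, h2⟩
      obtain ⟨rfl, rfl⟩ := Prod.mk.inj h2
      exact ⟨⟨⟨rfl, fun _ => h1.1⟩, h1.2, h1.2⟩, rfl⟩
  have h := even_fixed (X := A.Dbl F ∩ S ×ˢ S) ((A.isClosed_dbl hF).inter (hS.prod hS).1).isCompact
    (fun w hw => Crv.of_chart (OpenPartialHomeomorph.refl _) (mem_univ _) (A.crv_dbl hF hT hw.1)
      (mem_of_superset ((hS.prod hS).2.mem_nhds hw.2) fun y hy => and_iff_left hy))
    continuous_swap Prod.swap_swap
    (fun w hw => ⟨⟨hw.1.1.symm, fun h => h ▸ hw.1.2 h.symm⟩, hw.2.2, hw.2.1⟩)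
    (e ▸ ((A.finite_sing hF).inter_of_left S).image _)
  rwa [e, ncard_image_of_injective _ fun p q h => (Prod.mk.inj h).1] at h

end Crest.Agent.R216
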