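import Crest.Agent.R216.ImGenD

/-!
# R216/ImGenA: parametric genericity through the Hausdorff dimension
-/

set_option autoImplicit false
set_option linter.unusedSectionVars false

open scoped Manifold ContDiff Topology
open Matrix Set Filter

noncomputable section

namespace Crest.Agent.R216

open Module

variable {D : Type} [NormedAddCommGroup D] [NormedSpace ℝ D] [FiniteDimensional ℝ D]

/-- Near `u₀ ∈ U` take a right inverse `R` of `Φ u₀` (`LinearMap.exists_rightInverse_of_surjective`,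
`LinearMap.toContinuousLinearMap`).  On a neighbourhood `U' ⊆ U` of `u₀` the endomorphism `Φ u ∘L R` of `E` is a unit
(`Units.isOpen`), and `g (u, k) = k - R (Ring.inverse (Φ u ∘L R) (Φ u k))` is `C¹` on `U' × ker (Φ u₀)`
(`contDiffAt_ringInverse`), hence locally Lipschitz (`ContDiffAt.exists_lipschitzOnWith`,
`dimH_image_le_of_locally_lipschitzOn`).  If `Φ u P = 0` then `P = g (u, P - R (Φ u₀ P))`.  The dimension of
`D × ker (Φ u₀)` is `dim D + dim Q - dim E` (`LinearMap.finrank_range_add_finrank_ker`, `Real.dimH_univ_eq_finrank`).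
Countably many `U'` cover `U` (`TopologicalSpace.countable_cover_nhdsWithin`), `dimH_bUnion`. -/
theorem dimH_bad_le {Q E : Type} [NormedAddCommGroup Q] [NormedSpace ℝ Q] [FiniteDimensional ℝ Q]
    [NormedAddCommGroup E] [NormedSpace ℝ E] [FiniteDimensional ℝ E] {U : Set D} (hU : IsOpen U)
    (Φ : D → Q →L[ℝ] E) (hΦ : ContDiffOn ℝ 1 Φ U) (hs : ∀ u ∈ U, Function.Surjective (Φ u))
    (hd : finrank ℝ D < finrank ℝ E) :
    dimH {P | ∃ u ∈ U, Φ u P = 0} ≤ (finrank ℝ Q - 1 : ℕ) := by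
  have := FiniteDimensional.complete ℝ E
  have key : ∀ u₀ ∈ U, ∃ t ∈ 𝓝[U] u₀, dimH {P | ∃ u ∈ t, Φ u P = 0} ≤ (finrank ℝ Q - 1 : ℕ) := by
    intro u₀ h₀
    have hr : (Φ u₀).range = ⊤ := LinearMap.range_eq_top.2 (hs u₀ h₀)
    obtain ⟨R, hR⟩ := (Φ u₀).exists_rightInverse_of_surjective hr
    have h1 : ContDiffOn ℝ 1 (fun u => Φ u ∘L R) U := hΦ.clm_comp contDiffOn_const
    have h2 := h1.continuousOn.isOpen_inter_preimage hU Units.isOpen
    refine ⟨_, mem_nhdsWithin_of_mem_nhds (h2.mem_nhds ⟨h₀, by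
      rw [mem_preimage, hR]; exact isUnit_one⟩), ?_⟩
    refine le_trans (dimH_mono ?_) ((dimH_image_le_of_locally_lipschitzOn
      (s := (U ∩ (fun u => Φ u ∘L R) ⁻¹' {x | IsUnit x}) ×ˢ (univ : Set (Φ u₀).ker))
      (f := fun y => (y.2 : Q) - R (Ring.inverse (Φ y.1 ∘L R) (Φ y.1 y.2))) fun y hy => ?_).trans
      ((dimH_mono (subset_univ _)).trans ?_))
    · rintro P ⟨u, hu, hP⟩
      refine ⟨(u, ⟨P - R (Φ u₀ P), ?_⟩), ⟨hu, mem_univ _⟩, ?_⟩
      · show Φ u₀ (P - R (Φ u₀ P)) = 0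
        rw [map_sub, sub_eq_zero]
        exact (DFunLike.congr_fun hR (Φ u₀ P)).symm
      · have h3 : Ring.inverse (Φ u ∘L R) (Φ u (R (Φ u₀ P))) = Φ u₀ P :=
          DFunLike.congr_fun (Ring.inverse_mul_cancel _ hu.2) (Φ u₀ P)
        simp only [map_sub, hP, map_zero, h3]
        abel
    · have h3 : ContDiffAt ℝ 1 (fun y : D × (Φ u₀).ker => Φ y.1) y :=
        (hΦ.contDiffAt (hU.mem_nhds hy.1.1)).comp y contDiffAt_fst
      have h4 : ContDiffAt ℝ 1 (fun y : D × (Φ u₀).ker => (y.2 : Q)) y :=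
        (Φ u₀).ker.subtypeL.contDiff.contDiffAt.comp y contDiffAt_snd
      have h5 : ContDiffAt ℝ 1 Ring.inverse (Φ y.1 ∘L R) := contDiffAt_ringInverse ℝ hy.1.2.unit
      obtain ⟨K, t, ht, h6⟩ := (h4.sub (R.contDiff.contDiffAt.comp y ((h5.comp y
        (h3.clm_comp contDiffAt_const)).clm_apply (h3.clm_apply h4)))).exists_lipschitzOnWith
      exact ⟨K, t, mem_nhdsWithin_of_mem_nhds ht, h6⟩
    · have h3 := LinearMap.finrank_range_add_finrank_ker (Φ u₀ : Q →ₗ[ℝ] E)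
      rw [hr, finrank_top] at h3
      rw [Real.dimH_univ_eq_finrank, finrank_prod, Nat.cast_le]
      omega
  choose! t ht h using key
  obtain ⟨s, h1, h2, h3⟩ := TopologicalSpace.countable_cover_nhdsWithin ht
  refine (dimH_mono (t := ⋃ u₀ ∈ s, {P | ∃ u ∈ t u₀, Φ u P = 0}) ?_).trans ?_
  · rintro P ⟨u, hu, hP⟩
    obtain ⟨u₀, a1, a2⟩ := mem_iUnion₂.1 (h3 hu)
    exact mem_biUnion a1 ⟨u, a2, hP⟩
  · rw [dimH_bUnion h2]
    exact iSup₂_le fun u hu => h u (h1 hu)

theorem iga_prescribe {W ι : Type} [NormedAddCommGroup W] [NormedSpace ℝ W] [FiniteDimensional ℝ W]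
    [Fintype ι] {a : ι → W} (ha : LinearIndependent ℝ a) (y : ι → V3) :
    ∃ P : W →L[ℝ] V3, ∀ j, P (a j) = y j := by
  classical
  obtain ⟨g, hg⟩ := (Fintype.linearCombination ℝ a).exists_leftInverse_of_injective
    (LinearMap.ker_eq_bot.2 (linearIndependent_iff_injective_fintypeLinearCombination.1 ha))
  refine ⟨LinearMap.toContinuousLinearMap (Fintype.linearCombination ℝ y ∘ₗ g), fun j => ?_⟩
  have h := DFunLike.congr_fun hg (Pi.single j 1)
  rw [LinearMap.comp_apply, Fintype.linearCombination_apply_single, one_smul] at h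
  simp [h]

/-- the equations, as a linear map in `P` -/
def iga_Phi {W : Type} [NormedAddCommGroup W] [NormedSpace ℝ W] [FiniteDimensional ℝ W] {r : ℕ}
    (a : Fin (r + 1) → W) (l : V3) : (W →L[ℝ] V3) →L[ℝ] V3 × (Fin r → ℝ) :=
  LinearMap.toContinuousLinearMap
    { toFun := fun P => (P (a 0), fun j => l ⬝ᵥ P (a j.succ))
      map_add' := fun P P' => by ext <;> simp
      map_smul' := fun c P => by ext <;> simp }

/-- Three affine charts for `l`: some `l k ≠ 0`, and `(l k)⁻¹ • l = Fin.insertNth k 1 m`, `m : Fin 2 → ℝ`.  For each `k`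
apply `dimH_bad_le` on `U ×ˢ univ ⊆ D × (Fin 2 → ℝ)` to `Φ (u, m) P = (P (a 0 u), fun j => l ⬝ᵥ P (a j.succ u))` with values in
`V3 × (Fin r → ℝ)` (smoothness: `contDiffOn_clm_apply`).  Surjectivity: a linear map may be prescribed on independent
vectors (`LinearIndependent.exists_linearMap..`/`LinearIndependent.repr` + `LinearMap.exists_extend`, or
`Module.Basis.constr` on `Basis.extend`); send `a 0 u ↦ y`, `a j.succ u ↦ s j • Pi.single k 1`. -/
theorem dimH_bad_le' {W : Type} [NormedAddCommGroup W] [NormedSpace ℝ W] [FiniteDimensional ℝ W]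
    {r : ℕ} {U : Set D} (hU : IsOpen U) (a : Fin (r + 1) → D → W)
    (ha : ∀ j, ContDiffOn ℝ 1 (a j) U) (hi : ∀ u ∈ U, LinearIndependent ℝ fun j => a j u)
    (hd : finrank ℝ D < r + 1) :
    dimH {P : W →L[ℝ] V3 | ∃ u ∈ U, ∃ l : V3, l ≠ 0 ∧ P (a 0 u) = 0 ∧
      ∀ j : Fin r, l ⬝ᵥ P (a j.succ u) = 0} ≤ (finrank ℝ (W →L[ℝ] V3) - 1 : ℕ) := by
  have key := fun k : Fin 3 => dimH_bad_le (D := D × (Fin 2 → ℝ)) (hU.prod isOpen_univ)
    (fun y => iga_Phi (fun j => a j y.1) (Fin.insertNth (α := fun _ => ℝ) k 1 y.2))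
    (contDiffOn_clm_apply.2 fun P => by
      have h1 : ∀ j, ContDiffOn ℝ 1 (fun y : D × (Fin 2 → ℝ) => P (a j y.1)) (U ×ˢ univ) := fun j =>
        P.contDiff.comp_contDiffOn ((ha j).comp contDiffOn_fst fun _ hy => hy.1)
      refine (h1 0).prodMk (contDiffOn_pi.2 fun j => ?_)
      simp only [dotProduct, Fin.sum_univ_succAbove _ k, Fin.insertNth_apply_same,
        Fin.insertNth_apply_succAbove]
      exact (contDiffOn_const.mul (contDiffOn_pi.1 (h1 _) _)).add (ContDiffOn.sum fun i _ =>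
        (by fun_prop : ContDiff ℝ 1 fun y : D × (Fin 2 → ℝ) => y.2 i).contDiffOn.mul
          (contDiffOn_pi.1 (h1 _) _)))
    (fun y hy w => by
      obtain ⟨P, hP⟩ := iga_prescribe (hi _ hy.1) (Fin.cons w.1 fun j => Pi.single k (w.2 j))
      refine ⟨P, Prod.ext (hP 0) (funext fun j => ?_)⟩
      show _ ⬝ᵥ P (a j.succ y.1) = _
      rw [hP, Fin.cons_succ, dotProduct_single, Fin.insertNth_apply_same, one_mul])
    (by simp; omega)
  refine (dimH_mono ?_).trans ((dimH_iUnion _).trans_le (iSup_le key))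
  rintro P ⟨u, hu, l, hl, h0, h1⟩
  obtain ⟨k, hk⟩ := Function.ne_iff.1 hl
  refine mem_iUnion.2 ⟨k, (u, k.removeNth ((l k)⁻¹ • l)), ⟨hu, mem_univ _⟩,
    Prod.ext h0 (funext fun j => ?_)⟩
  show Fin.insertNth (α := fun _ => ℝ) k 1 (k.removeNth ((l k)⁻¹ • l)) ⬝ᵥ P (a j.succ u) = 0
  rw [← inv_mul_cancel₀ hk, show (l k)⁻¹ * l k = ((l k)⁻¹ • l) k from rfl,
    Fin.insertNth_self_removeNth, smul_dotProduct, h1, smul_zero]

end Crest.Agent.R216
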