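import Crest.Agent.R216.ImDefs

/-!
# R216/ImGenD: definitions for `ImGen` (curves, the cubic family, double points)
-/

set_option autoImplicit false
set_option linter.unusedSectionVars false

open scoped Manifold ContDiff Topology
open Matrix Set Filter

noncomputable section

namespace Crest.Agent.R216

/-- `X` is a curve near `x`: it is parametrised by `c`, with the coordinate `τ`. -/
def Crv {Y : Type*} [TopologicalSpace Y] (X : Set Y) (x : Y) : Prop :=
  ∃ (c : ℝ → Y) (τ : Y → ℝ), c 0 = x ∧ ContinuousAt τ x ∧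
    (∀ᶠ t in 𝓝 (0 : ℝ), ContinuousAt c t ∧ c t ∈ X ∧ τ (c t) = t) ∧
    ∀ᶠ y in 𝓝 x, y ∈ X → c (τ y) = y

/-- double points and singular points of a map of the plane -/
def dbl (f : ℝ × ℝ → V3) : Set ((ℝ × ℝ) × (ℝ × ℝ)) :=
  {w | f w.1 = f w.2 ∧ (w.1 = w.2 → gram2 (dx f w.1) (dy f w.1) = 0)}

namespace Atl

variable {M : Type*} [TopologicalSpace M] [ChartedSpace E2 M] (A : Atl M)

abbrev Kap := Option (A.Idx ⊕ Fin A.n)
abbrev Wsp := A.Kap × A.Kap × A.Kap → ℝ

/-- the functions `1`, `x i a`, `ψ i` -/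
def yy : A.Kap → M → ℝ
  | none => fun _ => 1
  | some (.inl α) => A.x α.1 α.2
  | some (.inr i) => A.ψ i

/-- all products of three of them -/
def UU (p : M) : A.Wsp := fun m => A.yy m.1 p * A.yy m.2.1 p * A.yy m.2.2 p

/-- transversality at double points -/
def Trv (F : M → V3) : Prop :=
  ∀ i j, ∀ p ∈ A.O i, ∀ q ∈ A.O j, p ≠ q → F p = F q → ∀ l : V3,
    l ⬝ᵥ A.D (i, 0) F p = 0 → l ⬝ᵥ A.D (i, 1) F p = 0 → l ⬝ᵥ A.D (j, 0) F q = 0 →
    l ⬝ᵥ A.D (j, 1) F q = 0 → l = 0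

end Atl

end Crest.Agent.R216
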