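import Crest.Agent.R216.ImGenD

/-!
# R216/ImGenU: the cubic family realises all jets

For `α β γ : A.Kap → ℝ` let `φ : A.Wsp →L[ℝ] ℝ`, `φ w = ∑ m, α m.1 * β m.2.1 * γ m.2.2 * w m`; then
`φ (UU p) = (∑ a, α a * yy a p) (∑ b, β b * yy b p) (∑ c, γ c * yy c p)`.  So for every product `h` of three functions of the
form `1` or `yy a - c` there is `φ` with `φ ∘ UU = h`, and `φ (D α UU p) = D α h p` (`D_comp`,
`ContinuousLinearMap.fderiv`), the same for second derivatives.  Apply `φ` to the given relation.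
-/

set_option autoImplicit false
set_option linter.unusedSectionVars false

open scoped Manifold ContDiff Topology
open Matrix Set Filter

noncomputable section

namespace Crest.Agent.R216

variable {M : Type*} [TopologicalSpace M] [T2Space M] [CompactSpace M] [ChartedSpace E2 M]
  [IsManifold (𝓡 2) ∞ M]

namespace Atl

variable (A : Atl M)

theorem igu_yy_sm (a : A.Kap) : Sm (A.yy a) := by
  rcases a with _ | α | i
  exacts [sm_const 1, A.x_sm _ _, A.ψ_sm i]

theorem UU_sm : Sm A.UU :=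
  sm_pi fun m => ((A.igu_yy_sm m.1).mul (A.igu_yy_sm m.2.1)).mul (A.igu_yy_sm m.2.2)

/-- linear combinations of the `yy a` -/
def igu_Aff (f : M → ℝ) : Prop := ∃ α : A.Kap → ℝ, ∀ p, f p = ∑ a, α a * A.yy a p

theorem igu_aff_sub (a : A.Kap) (c : ℝ) : A.igu_Aff fun p => A.yy a p - c := by
  classical
  refine ⟨Pi.single a 1 - Pi.single none c, fun p => ?_⟩
  simp [sub_mul, Pi.single_apply, yy]

theorem igu_aff_one : A.igu_Aff fun _ => 1 := by
  obtain ⟨α, h⟩ := A.igu_aff_sub none 0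
  exact ⟨α, fun p => by rw [← h p]; simp [yy]⟩

theorem igu_cub {f g k : M → ℝ} (hf : A.igu_Aff f) (hg : A.igu_Aff g) (hk : A.igu_Aff k) :
    ∃ φ : A.Wsp →L[ℝ] ℝ, (fun p => φ (A.UU p)) = fun p => f p * g p * k p := by
  obtain ⟨α, hf⟩ := hf
  obtain ⟨β, hg⟩ := hg
  obtain ⟨γ, hk⟩ := hk
  refine ⟨∑ m : A.Kap × A.Kap × A.Kap, (α m.1 * β m.2.1 * γ m.2.2) • ContinuousLinearMap.proj m,
    funext fun p => ?_⟩
  rw [hf, hg, hk, mul_assoc, Finset.sum_mul_sum _ _ (fun b => β b * A.yy b p), ← Finset.sum_product',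
    Finset.sum_mul_sum, ← Finset.sum_product', Finset.univ_product_univ, Finset.univ_product_univ,
    _root_.sum_apply]
  refine Finset.sum_congr rfl fun m _ => ?_
  simp only [_root_.smul_apply, ContinuousLinearMap.proj_apply, UU, smul_eq_mul]
  ring

theorem igu_D (φ : A.Wsp →L[ℝ] ℝ) (α : A.Idx) {u : M → A.Wsp} (hu : Sm u) :
    A.D α (fun q => φ (u q)) = fun p => φ (A.D α u p) :=
  funext fun p => by rw [A.D_comp α hu φ.differentiableAt, φ.fderiv]

theorem igu_D_sub (α : A.Idx) {u : M → ℝ} (hu : Sm u) (c : ℝ) (p : M) :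
    A.D α (fun q => u q - c) p = A.D α u p := by
  have h := congrFun (A.D_sub α hu (sm_const c)) p
  rw [Pi.sub_apply, A.D_const, sub_zero] at h
  exact h

theorem igu_one (i : Fin A.n) (a b c : Fin 2) (t : ℝ) {p : M} (hp : p ∈ A.O i) :
    A.D (i, b) (fun q => A.x i a q - t) p = (if b = a then 1 else 0) ∧
    A.D (i, c) (A.D (i, b) fun q => A.x i a q - t) p = 0 := by
  have h : ∀ q ∈ A.O i, A.D (i, b) (fun q => A.x i a q - t) q = if b = a then 1 else 0 :=
    fun q hq => by rw [A.igu_D_sub _ (A.x_sm i a), A.D_x i b a hq]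
  exact ⟨h p hp, (A.D_congr _ (eventuallyEq_of_mem ((A.O_open i).mem_nhds hp) h)).trans
    (A.D_const _ _ _)⟩

theorem igu_prod (i : Fin A.n) (a b c d : Fin 2) {p : M} (hp : p ∈ A.O i) :
    A.D (i, c) (fun q => (A.x i a q - A.x i a p) * (A.x i b q - A.x i b p)) p = 0 ∧
    A.D (i, d) (A.D (i, c) fun q => (A.x i a q - A.x i a p) * (A.x i b q - A.x i b p)) p =
      (if d = a then 1 else 0) * (if c = b then 1 else 0) +
        (if c = a then 1 else 0) * (if d = b then 1 else 0) := by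
  have s : ∀ a, Sm fun q => A.x i a q - A.x i a p := fun a => (A.x_sm i a).sub (sm_const _)
  have e := funext (A.D_mul (i, c) (s a) (s b))
  refine ⟨by rw [e]; simp, ?_⟩
  have h := congrFun (A.D_add (i, d) ((s a).mul (A.D_sm (i, c) (s b)))
    ((A.D_sm (i, c) (s a)).mul (s b))) p
  rw [Pi.add_apply, A.D_mul _ (s a) (A.D_sm _ (s b)), A.D_mul _ (A.D_sm _ (s a)) (s b),
    (A.igu_one i a d d _ hp).1, (A.igu_one i b c d _ hp).1, (A.igu_one i a c d _ hp).1,
    (A.igu_one i b d d _ hp).1, sub_self, sub_self, zero_mul, mul_zero, zero_add, add_zero] at h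
  rw [e]
  exact h

/-- Test with `h = ξ a` and `h = ξ a * ξ b`, `ξ a = x i a - x i a p`.  On the open set `O i`, `D (i,a) (ξ b)` is the
constant `δ a b` (`D_x`), so `D (i,c) (D (i,a) (ξ b)) p = 0` (`D_congr`, `D_const`); `D_mul`. -/
theorem UU_free (i : Fin A.n) {p : M} (hp : p ∈ A.O i) {s₁ s₂ s₃ s₄ s₅ : ℝ}
    (h : s₁ • A.D (i, 0) A.UU p + s₂ • A.D (i, 1) A.UU p + s₃ • A.D (i, 0) (A.D (i, 0) A.UU) p +
      s₄ • A.D (i, 0) (A.D (i, 1) A.UU) p + s₅ • A.D (i, 1) (A.D (i, 1) A.UU) p = 0) :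
    s₁ = 0 ∧ s₂ = 0 ∧ s₃ = 0 ∧ s₄ = 0 ∧ s₅ = 0 := by
  have key : ∀ {f g : M → ℝ}, A.igu_Aff f → A.igu_Aff g →
      s₁ * A.D (i, 0) (fun q => f q * g q) p + s₂ * A.D (i, 1) (fun q => f q * g q) p +
      s₃ * A.D (i, 0) (A.D (i, 0) fun q => f q * g q) p +
      s₄ * A.D (i, 0) (A.D (i, 1) fun q => f q * g q) p +
      s₅ * A.D (i, 1) (A.D (i, 1) fun q => f q * g q) p = 0 := fun hf hg => by
    obtain ⟨φ, e⟩ := A.igu_cub hf hg A.igu_aff_one
    simp only [mul_one] at e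
    have h1 := congrArg φ h
    simp only [map_add, map_smul, map_zero, smul_eq_mul] at h1
    simp only [← e, A.igu_D φ _ A.UU_sm, A.igu_D φ _ (A.D_sm _ A.UU_sm)]
    exact h1
  have af : ∀ a, A.igu_Aff fun q => A.x i a q - A.x i a p := fun a =>
    A.igu_aff_sub (some (.inl (i, a))) _
  have k1 := fun a => key (af a) A.igu_aff_one
  have k2 := fun a b => key (af a) (af b)
  simp only [mul_one, (A.igu_one i _ _ 0 _ hp).1, (A.igu_one i _ _ _ _ hp).2] at k1
  simp only [(A.igu_prod i _ _ _ 0 hp).1, (A.igu_prod i _ _ _ _ hp).2] at k2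
  exact ⟨by simpa using k1 0, by simpa using k1 1, by simpa using k2 0 0, by simpa using k2 0 1,
    by simpa using k2 1 1⟩

theorem igu_sq (α : A.Idx) {y k : M → ℝ} (hy : Sm y) (hk : Sm k) (c : ℝ) (p : M) :
    A.D α (fun q => (y q - c) * (y q - c) * k q) p =
      (y p - c) * (y p - c) * A.D α k p + 2 * (y p - c) * A.D α y p * k p := by
  have s : Sm fun q => y q - c := hy.sub (sm_const _)
  rw [A.D_mul α (s.mul s) hk, A.D_mul α s s, A.igu_D_sub α hy]
  ring

/-- Some `y = yy a` has `y p ≠ y q` (`exists_K p` gives `i'` with `ψ i' p ≠ 0`; if all `yy a` agree then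
`q ∈ tsupport (ψ i') ⊆ O i'` and `x_inj` gives `p = q`).  Test with `(y - y q)² (x i a - x i a p)` (gives `s₁ = s₂ = 0`),
`(y - y p)² (x j a - x j a q)` (gives `s₃ = s₄ = 0`), and `y`. -/
theorem UU_two (i j : Fin A.n) {p q : M} (hp : p ∈ A.O i) (hq : q ∈ A.O j) (hpq : p ≠ q)
    {s₀ s₁ s₂ s₃ s₄ : ℝ}
    (h : s₀ • (A.UU p - A.UU q) + s₁ • A.D (i, 0) A.UU p + s₂ • A.D (i, 1) A.UU p +
      s₃ • A.D (j, 0) A.UU q + s₄ • A.D (j, 1) A.UU q = 0) :
    s₀ = 0 ∧ s₁ = 0 ∧ s₂ = 0 ∧ s₃ = 0 ∧ s₄ = 0 := by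
  have key : ∀ {f g k : M → ℝ}, A.igu_Aff f → A.igu_Aff g → A.igu_Aff k →
      s₀ * (f p * g p * k p - f q * g q * k q) + s₁ * A.D (i, 0) (fun q => f q * g q * k q) p +
      s₂ * A.D (i, 1) (fun q => f q * g q * k q) p + s₃ * A.D (j, 0) (fun q => f q * g q * k q) q +
      s₄ * A.D (j, 1) (fun q => f q * g q * k q) q = 0 := fun hf hg hk => by
    obtain ⟨φ, e⟩ := A.igu_cub hf hg hk
    have h1 := congrArg φ h
    simp only [map_add, map_smul, map_sub, map_zero, smul_eq_mul] at h1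
    rw [← congrFun e p, ← congrFun e q]
    simp only [← e, A.igu_D φ _ A.UU_sm]
    exact h1
  obtain ⟨a, ha⟩ : ∃ a, A.yy a p ≠ A.yy a q := by
    by_contra h1
    push Not at h1
    obtain ⟨k, h2, -, h3⟩ := A.exists_K p
    have h4 : A.ψ k q ≠ 0 := (h1 (some (.inr k))).symm.trans_ne h2
    exact hpq (A.x_inj k h3 (A.ψ_supp k (subset_tsupport _ h4)) fun a => h1 (some (.inl (k, a))))
  have h1 := sub_ne_zero.2 ha
  have h2 := sub_ne_zero.2 ha.symm
  have k1 := fun b => key (A.igu_aff_sub a (A.yy a q)) (A.igu_aff_sub a (A.yy a q))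
    (show A.igu_Aff fun r => A.x i b r - A.x i b p from A.igu_aff_sub (some (.inl (i, b))) _)
  have k2 := fun b => key (A.igu_aff_sub a (A.yy a p)) (A.igu_aff_sub a (A.yy a p))
    (show A.igu_Aff fun r => A.x j b r - A.x j b q from A.igu_aff_sub (some (.inl (j, b))) _)
  have k3 := key (A.igu_aff_sub a 0) A.igu_aff_one A.igu_aff_one
  have s : ∀ i b c, Sm fun r => A.x i b r - c := fun i b c => (A.x_sm i b).sub (sm_const c)
  simp only [A.igu_sq _ (A.igu_yy_sm a) (s _ _ _), (A.igu_one i _ _ 0 _ hp).1,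
    (A.igu_one j _ _ 0 _ hq).1, sub_self] at k1 k2
  have e1 : s₁ = 0 := by simpa [h1] using k1 0
  have e2 : s₂ = 0 := by simpa [h1] using k1 1
  have e3 : s₃ = 0 := by simpa [h2] using k2 0
  have e4 : s₄ = 0 := by simpa [h2] using k2 1
  exact ⟨by simpa [e1, e2, e3, e4, h1] using k3, e1, e2, e3, e4⟩

end Atl

end Crest.Agent.R216
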