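import Crest.Agent.R216.ImGenA
import Crest.Agent.R216.ImGenU

/-!
# R216/ImGenG: a generic map
-/

set_option autoImplicit false
set_option linter.unusedSectionVars false

open scoped Manifold ContDiff Topology
open Matrix Set Filter

noncomputable section

namespace Crest.Agent.R216

variable {M : Type*} [TopologicalSpace M] [T2Space M] [CompactSpace M] [ChartedSpace E2 M]
  [IsManifold (𝓡 2) ∞ M]

theorem igg_cd {E : Type} [NormedAddCommGroup E] [NormedSpace ℝ E] (c : M) {u : M → E} (hu : Sm u) :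
    ContDiffOn ℝ 1 (fun z => u ((chartAt E2 c).symm z)) (chartAt E2 c).target :=
  (contMDiffOn_iff_contDiffOn.1 (hu.comp_contMDiffOn contMDiffOn_chart_symm)).of_le (by norm_cast)

theorem igg_ndj {F₁ F₂ F₁₁ F₁₂ F₂₂ : V3} (h : ∀ θ : ℝ, Real.cos θ • F₁ + Real.sin θ • F₂ = 0 →
    ∀ l : V3, l ⬝ᵥ (-Real.sin θ • F₁ + Real.cos θ • F₂) = 0 →
      l ⬝ᵥ (Real.cos θ • F₁₁ + Real.sin θ • F₁₂) = 0 →
      l ⬝ᵥ (Real.cos θ • F₁₂ + Real.sin θ • F₂₂) = 0 → l = 0) : NDJ F₁ F₂ F₁₁ F₁₂ F₂₂ := by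
  constructor
  · by_contra h1
    push Not at h1
    obtain ⟨rfl, rfl⟩ := h1
    obtain ⟨l, h2, h3⟩ := (Submodule.ne_bot_iff _).1 (LinearMap.ker_ne_bot_of_finrank_lt
      (f := (Matrix.of ![F₁₁, F₁₂]).mulVecLin) (by simp))
    refine h3 (h 0 (by simp) l (by simp) ?_ ?_)
    · simpa [dotProduct_comm] using congrFun h2 0
    · simpa [dotProduct_comm] using congrFun h2 1
  · intro v₁ v₂ hv h0 l h1 h2 h3 h4
    have hz : (⟨v₁, v₂⟩ : ℂ) ≠ 0 := fun h => by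
      obtain ⟨a, b⟩ := Complex.ext_iff.1 h
      exact hv.elim (fun h => h a) fun h => h b
    have key : ∀ a b : V3, Real.cos (Complex.arg ⟨v₁, v₂⟩) • a + Real.sin (Complex.arg ⟨v₁, v₂⟩) • b =
        ‖(⟨v₁, v₂⟩ : ℂ)‖⁻¹ • (v₁ • a + v₂ • b) := fun a b => by
      rw [Complex.cos_arg hz, Complex.sin_arg, smul_add, smul_smul, smul_smul, div_eq_inv_mul,
        div_eq_inv_mul]
    refine h (Complex.arg ⟨v₁, v₂⟩) (by rw [key, h0, smul_zero]) l ?_ ?_ ?_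
    · simp [h1, h2]
    · rw [key, dotProduct_smul, h3, smul_zero]
    · rw [key, dotProduct_smul, h4, smul_zero]

namespace Atl

variable (A : Atl M)

theorem igg_D {W : Type} [NormedAddCommGroup W] [NormedSpace ℝ W] (P : W →L[ℝ] V3) (α : A.Idx)
    {u : M → W} (hu : Sm u) : A.D α (fun q => P (u q)) = fun p => P (A.D α u p) :=
  funext fun p => by rw [A.D_comp α hu P.differentiableAt, P.fderiv]

/-- the image of `O i` in the chart -/
def igg_T (i : Fin A.n) : Set E2 :=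
  (chartAt E2 (A.c i)).target ∩ (chartAt E2 (A.c i)).symm ⁻¹' A.O i

theorem igg_open (i : Fin A.n) : IsOpen (A.igg_T i) :=
  (chartAt E2 (A.c i)).isOpen_inter_preimage_symm (A.O_open i)

theorem igg_mem (i : Fin A.n) {p : M} (hp : p ∈ A.O i) :
    ∃ z ∈ A.igg_T i, (chartAt E2 (A.c i)).symm z = p := by
  have h := A.O_sub_source i hp
  have e := (chartAt E2 (A.c i)).left_inv h
  exact ⟨_, ⟨(chartAt E2 (A.c i)).map_source h, by rwa [mem_preimage, e]⟩, e⟩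

theorem igg_one (i : Fin A.n) : dimH {P : A.Wsp →L[ℝ] V3 | ∃ p ∈ A.O i, ∃ θ : ℝ, ∃ l : V3, l ≠ 0 ∧
    P (Real.cos θ • A.D (i, 0) A.UU p + Real.sin θ • A.D (i, 1) A.UU p) = 0 ∧
    l ⬝ᵥ P (-Real.sin θ • A.D (i, 0) A.UU p + Real.cos θ • A.D (i, 1) A.UU p) = 0 ∧
    l ⬝ᵥ P (Real.cos θ • A.D (i, 0) (A.D (i, 0) A.UU) p +
      Real.sin θ • A.D (i, 0) (A.D (i, 1) A.UU) p) = 0 ∧
    l ⬝ᵥ P (Real.cos θ • A.D (i, 0) (A.D (i, 1) A.UU) p +
      Real.sin θ • A.D (i, 1) (A.D (i, 1) A.UU) p) = 0} ≤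
    (Module.finrank ℝ (A.Wsp →L[ℝ] V3) - 1 : ℕ) := by
  have s0 := A.D_sm (i, 0) A.UU_sm
  have s1 := A.D_sm (i, 1) A.UU_sm
  have key : ∀ {u u' : M → A.Wsp} {a b : ℝ → ℝ}, Sm u → Sm u' → ContDiff ℝ 1 a → ContDiff ℝ 1 b →
      ContDiffOn ℝ 1 (fun y : E2 × ℝ => a y.2 • u ((chartAt E2 (A.c i)).symm y.1) +
        b y.2 • u' ((chartAt E2 (A.c i)).symm y.1)) (A.igg_T i ×ˢ univ) := fun hu hu' ha hb =>
    ((ha.comp contDiff_snd).contDiffOn.smul
      ((igg_cd _ hu).comp contDiffOn_fst fun _ hy => hy.1.1)).add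
    ((hb.comp contDiff_snd).contDiffOn.smul
      ((igg_cd _ hu').comp contDiffOn_fst fun _ hy => hy.1.1))
  refine le_trans (dimH_mono ?_) (dimH_bad_le' (D := E2 × ℝ) (r := 3)
    ((A.igg_open i).prod isOpen_univ)
    ![fun y => Real.cos y.2 • A.D (i, 0) A.UU ((chartAt E2 (A.c i)).symm y.1) +
        Real.sin y.2 • A.D (i, 1) A.UU ((chartAt E2 (A.c i)).symm y.1),
      fun y => -Real.sin y.2 • A.D (i, 0) A.UU ((chartAt E2 (A.c i)).symm y.1) +
        Real.cos y.2 • A.D (i, 1) A.UU ((chartAt E2 (A.c i)).symm y.1),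
      fun y => Real.cos y.2 • A.D (i, 0) (A.D (i, 0) A.UU) ((chartAt E2 (A.c i)).symm y.1) +
        Real.sin y.2 • A.D (i, 0) (A.D (i, 1) A.UU) ((chartAt E2 (A.c i)).symm y.1),
      fun y => Real.cos y.2 • A.D (i, 0) (A.D (i, 1) A.UU) ((chartAt E2 (A.c i)).symm y.1) +
        Real.sin y.2 • A.D (i, 1) (A.D (i, 1) A.UU) ((chartAt E2 (A.c i)).symm y.1)]
    (fun j => ?_) (fun y hy => ?_) (by simp))
  · rintro P ⟨p, hp, θ, l, h0, h1, h2, h3, h4⟩
    obtain ⟨z, hz, rfl⟩ := A.igg_mem i hp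
    refine ⟨(z, θ), ⟨hz, mem_univ _⟩, l, h0, h1, fun j => ?_⟩
    fin_cases j
    exacts [h2, h3, h4]
  · fin_cases j
    · exact key s0 s1 Real.contDiff_cos Real.contDiff_sin
    · exact key s0 s1 Real.contDiff_sin.neg Real.contDiff_cos
    · exact key (A.D_sm _ s0) (A.D_sm _ s1) Real.contDiff_cos Real.contDiff_sin
    · exact key (A.D_sm _ s1) (A.D_sm _ s1) Real.contDiff_cos Real.contDiff_sin
  · refine Fintype.linearIndependent_iff.2 fun g hg => ?_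
    rw [Fin.sum_univ_four] at hg
    simp only [cons_val_zero, cons_val_one, cons_val] at hg
    obtain ⟨a1, a2, a3, a4, a5⟩ := A.UU_free i hy.1.2
      (s₁ := g 0 * Real.cos y.2 - g 1 * Real.sin y.2) (s₂ := g 0 * Real.sin y.2 + g 1 * Real.cos y.2)
      (s₃ := g 2 * Real.cos y.2) (s₄ := g 2 * Real.sin y.2 + g 3 * Real.cos y.2)
      (s₅ := g 3 * Real.sin y.2) (by rw [← hg]; module)
    have h := Real.sin_sq_add_cos_sq y.2
    generalize Real.cos y.2 = c at *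
    generalize Real.sin y.2 = s at *
    intro j
    fin_cases j
    · show g 0 = 0
      linear_combination c * a1 + s * a2 - g 0 * h
    · show g 1 = 0
      linear_combination c * a2 - s * a1 - g 1 * h
    · show g 2 = 0
      linear_combination c * a3 + s * a4 - c * a5 - g 2 * h
    · show g 3 = 0
      linear_combination s * a5 + c * a4 - s * a3 - g 3 * h

theorem igg_two (i j : Fin A.n) : dimH {P : A.Wsp →L[ℝ] V3 | ∃ p ∈ A.O i, ∃ q ∈ A.O j, p ≠ q ∧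
    ∃ l : V3, l ≠ 0 ∧ P (A.UU p - A.UU q) = 0 ∧ l ⬝ᵥ P (A.D (i, 0) A.UU p) = 0 ∧
    l ⬝ᵥ P (A.D (i, 1) A.UU p) = 0 ∧ l ⬝ᵥ P (A.D (j, 0) A.UU q) = 0 ∧
    l ⬝ᵥ P (A.D (j, 1) A.UU q) = 0} ≤ (Module.finrank ℝ (A.Wsp →L[ℝ] V3) - 1 : ℕ) := by
  have ho : IsOpen (A.igg_T i ×ˢ A.igg_T j ∩ (fun y : E2 × E2 =>
      ((chartAt E2 (A.c i)).symm y.1, (chartAt E2 (A.c j)).symm y.2)) ⁻¹' {w | w.1 ≠ w.2}) :=
    ContinuousOn.isOpen_inter_preimage
      (((chartAt E2 (A.c i)).continuousOn_symm.comp continuousOn_fst fun _ hy => hy.1.1).prodMk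
        ((chartAt E2 (A.c j)).continuousOn_symm.comp continuousOn_snd fun _ hy => hy.2.1))
      ((A.igg_open i).prod (A.igg_open j)) (isOpen_ne_fun continuous_fst continuous_snd)
  refine le_trans (dimH_mono ?_) (dimH_bad_le' (r := 4) ho
    ![fun y => A.UU ((chartAt E2 (A.c i)).symm y.1) - A.UU ((chartAt E2 (A.c j)).symm y.2),
      fun y => A.D (i, 0) A.UU ((chartAt E2 (A.c i)).symm y.1),
      fun y => A.D (i, 1) A.UU ((chartAt E2 (A.c i)).symm y.1),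
      fun y => A.D (j, 0) A.UU ((chartAt E2 (A.c j)).symm y.2),
      fun y => A.D (j, 1) A.UU ((chartAt E2 (A.c j)).symm y.2)]
    (fun k => ?_) (fun y hy => ?_) (by simp))
  · rintro P ⟨p, hp, q, hq, hpq, l, h0, h1, h2, h3, h4, h5⟩
    obtain ⟨z, hz, rfl⟩ := A.igg_mem i hp
    obtain ⟨z', hz', rfl⟩ := A.igg_mem j hq
    refine ⟨(z, z'), ⟨⟨hz, hz'⟩, hpq⟩, l, h0, h1, fun k => ?_⟩
    fin_cases k
    exacts [h2, h3, h4, h5]
  · fin_cases k
    · exact ((igg_cd _ A.UU_sm).comp contDiffOn_fst fun _ hy => hy.1.1.1).sub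
        ((igg_cd _ A.UU_sm).comp contDiffOn_snd fun _ hy => hy.1.2.1)
    · exact (igg_cd _ (A.D_sm _ A.UU_sm)).comp contDiffOn_fst fun _ hy => hy.1.1.1
    · exact (igg_cd _ (A.D_sm _ A.UU_sm)).comp contDiffOn_fst fun _ hy => hy.1.1.1
    · exact (igg_cd _ (A.D_sm _ A.UU_sm)).comp contDiffOn_snd fun _ hy => hy.1.2.1
    · exact (igg_cd _ (A.D_sm _ A.UU_sm)).comp contDiffOn_snd fun _ hy => hy.1.2.1
  · refine Fintype.linearIndependent_iff.2 fun g hg => ?_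
    rw [Fin.sum_univ_five] at hg
    obtain ⟨a0, a1, a2, a3, a4⟩ := A.UU_two i j hy.1.1.2 hy.1.2.2 hy.2 hg
    intro k
    fin_cases k
    exacts [a0, a1, a2, a3, a4]

end Atl

/-- `F = P ∘ UU` for `P : A.Wsp →L[ℝ] V3` outside finitely many sets of small dimension. -/
theorem Atl.exists_generic (A : Atl M) : ∃ F : M → V3, A.Umb F ∧ A.Trv F := by
  have h0 : 0 < Module.finrank ℝ (A.Wsp →L[ℝ] V3) := by
    refine Module.finrank_pos_iff.2 ⟨(ContinuousLinearMap.proj (R := ℝ) (φ := fun _ => ℝ)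
      (none, none, none)).smulRight 1, 0, fun h => ?_⟩
    simpa using congrFun (DFunLike.congr_fun h 1) 0
  have h1 := max_le (iSup_le A.igg_one) (iSup_le fun i => iSup_le (A.igg_two i))
  simp only [← dimH_iUnion, ← dimH_union] at h1
  obtain ⟨P, hP⟩ := (dense_compl_of_dimH_lt_finrank (h1.trans_lt
    (Nat.cast_lt.2 (Nat.sub_lt h0 one_pos)))).nonempty
  simp only [mem_compl_iff, mem_union, mem_iUnion, not_or, not_exists] at hP
  refine ⟨fun p => P (A.UU p), ⟨A.UU_sm.comp P.contDiff, fun i p hp => ?_⟩,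
    fun i j p hp q hq hpq h l h1 h2 h3 h4 => ?_⟩
  · simp only [A.igg_D P _ A.UU_sm, A.igg_D P _ (A.D_sm _ A.UU_sm)]
    refine igg_ndj fun θ a0 l a1 a2 a3 => by_contra fun hl => hP.1 i ⟨p, hp, θ, l, hl, ?_⟩
    simp only [map_add, map_smul]
    exact ⟨a0, a1, a2, a3⟩
  · simp only [A.igg_D P _ A.UU_sm] at h1 h2 h3 h4
    exact by_contra fun hl => hP.2 i j
      ⟨p, hp, q, hq, hpq, l, hl, by rw [map_sub, sub_eq_zero]; exact h, h1, h2, h3, h4⟩

end Crest.Agent.R216
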