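import Crest.Agent.R216.ImLocDefs

/-! # R216 ImLoc: one step of convex integration -/

set_option autoImplicit false
set_option linter.unusedSectionVars false

open scoped ContDiff Topology
open Matrix

noncomputable section

namespace Crest.Agent.R216

/-- the component of `P` orthogonal to `Q` -/
def ciB (P Q : V3) : V3 := (Q ⬝ᵥ Q) • P - (P ⬝ᵥ Q) • Q

/-- the cross product -/
def ciC (P Q : V3) : V3 := ![Q 1 * P 2 - Q 2 * P 1, Q 2 * P 0 - Q 0 * P 2, Q 0 * P 1 - Q 1 * P 0]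

theorem ci_dots (P Q : V3) : ciB P Q ⬝ᵥ ciB P Q = (Q ⬝ᵥ Q) * gram2 P Q ∧ ciC P Q ⬝ᵥ ciC P Q = gram2 P Q ∧
    ciB P Q ⬝ᵥ ciC P Q = 0 ∧ Q ⬝ᵥ ciB P Q = 0 ∧ Q ⬝ᵥ ciC P Q = 0 ∧ P ⬝ᵥ ciB P Q = gram2 P Q ∧
    P ⬝ᵥ ciC P Q = 0 := by
  simp only [ciB, ciC, gram2, dotProduct, Fin.sum_univ_three, Pi.sub_apply, Pi.smul_apply, smul_eq_mul,
    Matrix.cons_val_zero, Matrix.cons_val_one, Matrix.cons_val]
  refine ⟨by ring, by ring, by ring, by ring, by ring, by ring, by ring⟩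

theorem ci_QQ {P Q : V3} (hg : 0 < gram2 P Q) : 0 < Q ⬝ᵥ Q := by
  have h0 : 0 ≤ Q ⬝ᵥ Q := Finset.sum_nonneg fun i _ => mul_self_nonneg _
  refine h0.lt_of_ne fun e => ?_
  unfold gram2 at hg
  rw [← e] at hg
  nlinarith [sq_nonneg (P ⬝ᵥ Q)]

theorem ci_alg {A P Q : V3} {R s c σ : ℝ} (hg : 0 < gram2 P Q) (hc : c ^ 2 + σ ^ 2 = 1) (hR : 0 ≤ R)
    (h : P = A ∨ (s = 1 ∧ |A ⬝ᵥ ciB P Q| / ((Q ⬝ᵥ Q) * gram2 P Q) + |A ⬝ᵥ ciC P Q| / gram2 P Q < R)) :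
    0 < gram2 (A + (c ^ 2 - σ ^ 2) • (R * s ^ 2) • ciB P Q + σ • (2 * R * s) • ciC P Q) Q := by
  obtain ⟨d1, d2, d3, d4, d5, d6, d7⟩ := ci_dots P Q
  have hQ := ci_QQ hg
  refine (gram2_pos_iff _ _).2 fun α t e => ?_
  have e1 := congrArg (· ⬝ᵥ ciB P Q) e
  have e2 := congrArg (· ⬝ᵥ ciC P Q) e
  have e3 := congrArg (· ⬝ᵥ Q) e
  simp only [add_dotProduct, smul_dotProduct, zero_dotProduct, smul_eq_mul, d1, d2, d3, d4, d5,
    dotProduct_comm (ciC P Q) (ciB P Q), mul_zero, add_zero] at e1 e2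
  have hα : α = 0 := by
    by_contra hα
    have f1 := (mul_eq_zero.1 e1).resolve_left hα
    have f2 := (mul_eq_zero.1 e2).resolve_left hα
    generalize gram2 P Q = g at *
    generalize Q ⬝ᵥ Q = q at *
    rcases h with rfl | ⟨rfl, h⟩
    · rw [d6] at f1
      rw [d7, zero_add] at f2
      have f3 : σ * (R * s) = 0 := by
        apply mul_right_cancel₀ hg.ne'
        linarith
      have f4 : (c ^ 2 - σ ^ 2) * (R * s ^ 2) = R * s ^ 2 := by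
        linear_combination R * s ^ 2 * hc - 2 * σ * s * f3
      have f5 : 0 ≤ R * s ^ 2 * (q * g) := by positivity
      have f6 : (c ^ 2 - σ ^ 2) * (R * s ^ 2 * (q * g)) = R * s ^ 2 * (q * g) := by
        rw [← mul_assoc, f4]
      linarith
    · have f3 : A ⬝ᵥ ciB P Q = -((c ^ 2 - σ ^ 2) * R) * (q * g) := by linarith
      have f4 : A ⬝ᵥ ciC P Q = -(σ * (2 * R)) * g := by linarith
      have hqg : 0 < q * g := by positivity
      rw [f3, f4, abs_mul _ (q * g), abs_of_pos hqg, abs_mul _ g, abs_of_pos hg,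
        mul_div_cancel_right₀ _ hqg.ne', mul_div_cancel_right₀ _ hg.ne', abs_neg, abs_neg,
        abs_mul _ R, abs_mul σ, abs_of_nonneg hR, abs_of_nonneg (by positivity : 0 ≤ 2 * R)] at h
      have f5 : σ ^ 2 ≤ |σ| := by
        have := abs_nonneg σ
        have h1 : |σ| ≤ 1 := by
          rw [← sq_le_one_iff_abs_le_one]
          nlinarith [sq_nonneg c]
        rw [← sq_abs]
        nlinarith
      have f6 : 1 ≤ |c ^ 2 - σ ^ 2| + |σ| * 2 := by linarith [le_abs_self (c ^ 2 - σ ^ 2)]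
      nlinarith
  rw [hα, zero_smul, zero_add, smul_dotProduct, zero_dotProduct, smul_eq_mul] at e3
  exact ⟨hα, (mul_eq_zero.1 e3).resolve_right hQ.ne'⟩

theorem ci_dot_contDiff {P Q : ℝ × ℝ → V3} (hP : ContDiff ℝ ∞ P) (hQ : ContDiff ℝ ∞ Q) :
    ContDiff ℝ ∞ fun z => P z ⬝ᵥ Q z :=
  ContDiff.sum fun i _ => (contDiff_pi.1 hP i).mul (contDiff_pi.1 hQ i)

theorem ciB_contDiff {P Q : ℝ × ℝ → V3} (hP : ContDiff ℝ ∞ P) (hQ : ContDiff ℝ ∞ Q) :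
    ContDiff ℝ ∞ fun z => ciB (P z) (Q z) :=
  ((ci_dot_contDiff hQ hQ).smul hP).sub ((ci_dot_contDiff hP hQ).smul hQ)

theorem ciC_contDiff {P Q : ℝ × ℝ → V3} (hP : ContDiff ℝ ∞ P) (hQ : ContDiff ℝ ∞ Q) :
    ContDiff ℝ ∞ fun z => ciC (P z) (Q z) := by
  have p := contDiff_pi.1 hP
  have q := contDiff_pi.1 hQ
  refine contDiff_pi.2 fun i => ?_
  fin_cases i
  · exact ((q 1).mul (p 2)).sub ((q 2).mul (p 1))
  · exact ((q 2).mul (p 0)).sub ((q 0).mul (p 2))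
  · exact ((q 0).mul (p 1)).sub ((q 1).mul (p 0))

theorem ci_deriv {F B C : ℝ × ℝ → V3} (hF : ContDiff ℝ ∞ F) (hB : ContDiff ℝ ∞ B)
    (hC : ContDiff ℝ ∞ C) {φ ψ : ℝ → ℝ} {φ' ψ' : ℝ} {z : ℝ × ℝ} (hφ : HasDerivAt φ φ' z.1)
    (hψ : HasDerivAt ψ ψ' z.1) :
    dx (fun w => F w + φ w.1 • B w + ψ w.1 • C w) z =
      dx F z + φ' • B z + ψ' • C z + (φ z.1 • dx B z + ψ z.1 • dx C z) ∧
    dy (fun w => F w + φ w.1 • B w + ψ w.1 • C w) z = dy F z + (φ z.1 • dy B z + ψ z.1 • dy C z) := by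
  have h1 := (hF.differentiable (by simp) z).hasFDerivAt
  have h2 := (hB.differentiable (by simp) z).hasFDerivAt
  have h3 := (hC.differentiable (by simp) z).hasFDerivAt
  have h4 := hφ.comp_hasFDerivAt z (hasFDerivAt_fst (𝕜 := ℝ) (p := z))
  have h5 := hψ.comp_hasFDerivAt z (hasFDerivAt_fst (𝕜 := ℝ) (p := z))
  have h : HasFDerivAt (fun w => F w + φ w.1 • B w + ψ w.1 • C w) _ z :=
    (h1.add (h4.smul h2)).add (h5.smul h3)
  unfold dx dy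
  rw [h.fderiv]
  constructor
  · simp
    abel
  · simp
    abel

/-- `b = |Q|² P - (P ⬝ Q) Q`, `b' = Q × P`, `s` a cut-off (`1` for `nsq ≤ r₁`, `0` for `r₂ ≤ nsq`),
`F₁ = F + (R/N) (s² sin(2 N x)/2 • b - 2 s cos(N x) • b')`. -/
theorem convex_step (F P Q : ℝ × ℝ → V3) (hF : ContDiff ℝ ∞ F) (hP : ContDiff ℝ ∞ P)
    (hQ : ContDiff ℝ ∞ Q) {r₁ r₂ : ℝ} (hr : r₁ < r₂)
    (hg : ∀ z ∈ Dsk, 0 < gram2 (P z) (Q z)) (hout : ∀ z, r₁ ≤ nsq z → P z = dx F z) :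
    ∃ F₁ : ℝ × ℝ → V3, ContDiff ℝ ∞ F₁ ∧ (∀ z, r₂ ≤ nsq z → F₁ z = F z) ∧
      ∀ z ∈ Dsk, 0 < gram2 (dx F₁ z) (Q z + dy F₁ z - dy F z) := by
  obtain ⟨s, hs, hs1, hs0⟩ := exists_cutoff hr
  have hb := ciB_contDiff hP hQ
  have hc := ciC_contDiff hP hQ
  have hgr : Continuous fun z => gram2 (P z) (Q z) :=
    (((ci_dot_contDiff hP hP).mul (ci_dot_contDiff hQ hQ)).sub
      ((ci_dot_contDiff hP hQ).pow 2)).continuous
  have hφ : ContinuousOn (fun z => |dx F z ⬝ᵥ ciB (P z) (Q z)| / ((Q z ⬝ᵥ Q z) * gram2 (P z) (Q z)) +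
      |dx F z ⬝ᵥ ciC (P z) (Q z)| / gram2 (P z) (Q z)) Dsk :=
    ((ci_dot_contDiff (dx_contDiff hF) hb).continuous.abs.continuousOn.div
      ((ci_dot_contDiff hQ hQ).continuous.mul hgr).continuousOn
      fun z hz => (mul_pos (ci_QQ (hg z hz)) (hg z hz)).ne').add
    ((ci_dot_contDiff (dx_contDiff hF) hc).continuous.abs.continuousOn.div hgr.continuousOn
      fun z hz => (hg z hz).ne')
  obtain ⟨R0, hR0⟩ := isCompact_Dsk.bddAbove_image hφ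
  obtain ⟨R, hR, hRR⟩ : ∃ R : ℝ, 0 ≤ R ∧ R0 < R := ⟨|R0| + 1, by positivity, by
    linarith [le_abs_self R0]⟩
  set B : ℝ × ℝ → V3 := fun z => (R * s z ^ 2) • ciB (P z) (Q z) with hBd
  set C : ℝ × ℝ → V3 := fun z => (2 * R * s z) • ciC (P z) (Q z) with hCd
  have hB : ContDiff ℝ ∞ B := (contDiff_const.mul (hs.pow 2)).smul hb
  have hC : ContDiff ℝ ∞ C := (contDiff_const.mul hs).smul hc
  set G : ℝ → (ℝ × ℝ) × (ℝ × ℝ) → ℝ := fun ε y =>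
    gram2 (dx F y.1 + (y.2.1 ^ 2 - y.2.2 ^ 2) • B y.1 + y.2.2 • C y.1 +
        ((ε * (y.2.2 * y.2.1)) • dx B y.1 + (-(ε * y.2.1)) • dx C y.1))
      (Q y.1 + ((ε * (y.2.2 * y.2.1)) • dy B y.1 + (-(ε * y.2.1)) • dy C y.1)) with hG
  have hGc : Continuous fun w : ℝ × (ℝ × ℝ) × (ℝ × ℝ) => G w.1 w.2 := by
    have c1 := (dx_contDiff hF).continuous
    have c2 := hB.continuous
    have c3 := hC.continuous
    have c4 := (dx_contDiff hB).continuous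
    have c5 := (dx_contDiff hC).continuous
    have c6 := (dy_contDiff hB).continuous
    have c7 := (dy_contDiff hC).continuous
    have c8 := hQ.continuous
    have c9 : Continuous fun p : V3 × V3 => gram2 p.1 p.2 := by
      unfold gram2
      fun_prop
    exact c9.comp (f := fun w : ℝ × (ℝ × ℝ) × (ℝ × ℝ) =>
      (dx F w.2.1 + (w.2.2.1 ^ 2 - w.2.2.2 ^ 2) • B w.2.1 + w.2.2.2 • C w.2.1 +
        ((w.1 * (w.2.2.2 * w.2.2.1)) • dx B w.2.1 + (-(w.1 * w.2.2.1)) • dx C w.2.1),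
      Q w.2.1 + ((w.1 * (w.2.2.2 * w.2.2.1)) • dy B w.2.1 + (-(w.1 * w.2.2.1)) • dy C w.2.1)))
      (by fun_prop)
  have hK : IsCompact (Dsk ×ˢ {p : ℝ × ℝ | nsq p = 1}) :=
    isCompact_Dsk.prod (isCompact_Dsk.of_isClosed_subset
      (isClosed_eq nsq_contDiff.continuous continuous_const) fun p hp => by
        show nsq p ≤ 9
        rw [show nsq p = 1 from hp]
        norm_num)
  have h0 : ∀ y ∈ Dsk ×ˢ {p : ℝ × ℝ | nsq p = 1}, 0 < G 0 y := by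
    rintro ⟨z, c, σ⟩ ⟨hz, hp⟩
    simp only [hG, zero_mul, neg_zero, zero_smul, add_zero]
    refine ci_alg (hg z hz) hp hR ?_
    rcases le_total r₁ (nsq z) with h | h
    · exact Or.inl (hout z h)
    · exact Or.inr ⟨hs1 z h, (hR0 ⟨z, hz, rfl⟩).trans_lt hRR⟩
  have hev : ∀ᶠ ε in 𝓝 (0 : ℝ), ∀ y ∈ Dsk ×ˢ {p : ℝ × ℝ | nsq p = 1}, 0 < G ε y :=
    hK.eventually_forall_of_forall_eventually (P := fun ε y => 0 < G ε y) fun y hy =>
      hGc.continuousAt.eventually (lt_mem_nhds (h0 y hy))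
  obtain ⟨ε, hε, hε0⟩ := ((hev.filter_mono nhdsWithin_le_nhds).and
    (self_mem_nhdsWithin (s := Set.Ioi (0 : ℝ)))).exists
  have hε1 : ε ≠ 0 := ne_of_gt hε0
  refine ⟨fun w => F w + (ε * (Real.sin (w.1 / ε) * Real.cos (w.1 / ε))) • B w +
    (-(ε * Real.cos (w.1 / ε))) • C w, ?_, fun z hz => ?_, fun z hz => ?_⟩
  · have a1 : ContDiff ℝ ∞ fun w : ℝ × ℝ => ε * (Real.sin (w.1 / ε) * Real.cos (w.1 / ε)) := by
      fun_prop
    have a2 : ContDiff ℝ ∞ fun w : ℝ × ℝ => -(ε * Real.cos (w.1 / ε)) := by fun_prop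
    exact (hF.add (a1.smul hB)).add (a2.smul hC)
  · simp [hBd, hCd, hs0 z hz]
  · have d0 : HasDerivAt (fun x : ℝ => x / ε) (1 / ε) z.1 := (hasDerivAt_id z.1).div_const ε
    have d1 : HasDerivAt (fun x : ℝ => ε * (Real.sin (x / ε) * Real.cos (x / ε)))
        (Real.cos (z.1 / ε) ^ 2 - Real.sin (z.1 / ε) ^ 2) z.1 := by
      refine ((d0.sin.mul d0.cos).const_mul ε).congr_deriv ?_
      field_simp
      ring
    have d2 : HasDerivAt (fun x : ℝ => -(ε * Real.cos (x / ε))) (Real.sin (z.1 / ε)) z.1 := by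
      refine (d0.cos.const_mul ε).neg.congr_deriv ?_
      field_simp
    obtain ⟨e1, e2⟩ := ci_deriv hF hB hC d1 d2
    rw [e1, e2, add_sub_assoc, add_sub_cancel_left]
    exact hε (z, Real.cos (z.1 / ε), Real.sin (z.1 / ε)) ⟨hz, Real.cos_sq_add_sin_sq _⟩

end Crest.Agent.R216
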