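import Crest.Agent.R216.ImLocND
import Crest.Agent.R216.ImLocCI

/-!
# R216: cancelling an even number of umbrellas in a disk

PLAN (SUB-LEAD: write your own skeleton files `R216/ImLoc*.lean` and post tasks).

(D0) After a rotation of the plane (avoid the finitely many kernel directions; `NDJ`, `gram2 > 0`, `nsq` are invariant)
we may assume `dy F z ≠ 0` for `nsq z ≤ 9`. (Equivalently work with `∂_u, ∂_v` for an orthonormal basis.)
(D1) `e = dy F / |dy F|` (smooth on a neighbourhood of the disk; globalise with a cut-off or use `ContDiffOn`).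
There is a smooth unit field `E₁ ⊥ e` on the disk: with `t_k = k/n`,
`E^{k+1}(z) = normalize (E^k z - (E^k z ⬝ e (t_{k+1} z)) • e (t_{k+1} z))`, `E^0` constant `⊥ e 0`; nonzero by uniform
continuity of `e`. `E₂ = e × E₁`.
(D2) `ζ = dx F ⬝ E₁ + i dx F ⬝ E₂ : ℂ` vanishes exactly on `T`, and `dζ` is invertible there (`NDJ`: at
`σ ∈ T`, `dx F = c • dy F`, `v = (1, -c)`, and `dζ(w) = (d²F(v,w) ⬝ E₁, d²F(v,w) ⬝ E₂)`; an
`l = l₁ E₁ + l₂ E₂` annihilating the range vanishes).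
(D3) With `ℓ_σ z = dζ_σ (z - σ)`, `η = ζ / ∏ ℓ_σ` extends continuously and without zeros to the disk
(`ζ/ℓ_σ → 1` at `σ`); it has a continuous logarithm `λ` on the (convex) disk (covering `Complex.exp`,
`IsCoveringMap.existsUnique_continuousMap_lifts`, or radial steps `η(t_{k+1} z)/η(t_k z) ∈ slitPlane`: a product of
principal square roots gives directly a square root that is smooth where all the `η(t_k z)` are, so prefer:
replace `η` by a smooth approximation, or note that a continuous square root of a smooth nonvanishing function is smooth).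
For `|z| > 1 > |σ|`, writing `ℓ_σ z = α (z-σ) + β conj (z-σ)`, `|α| ≠ |β|`:
`ℓ_σ z = α z (1 - σ/z) (1 + (β/α) conj(z-σ)/(z-σ))` (last two factors in the right half plane), similarly in the other case with
`conj z = z (|z|/z)²`; so `ℓ_σ = z s_σ²` with `s_σ` smooth on the annulus, and since `#T` is even `ζ = W²` with `W` smooth and
nonvanishing on `1 < nsq z < 9+`.
(D4) `w = W/|W| = w₀ + i w₁`, `χ` a cut-off (`0` for `nsq ≤ 1.2`, `1` for `nsq ≥ 1.5`), quaternion
`q = (χ w₀, χ w₁, 1 - χ, 0) ≠ 0`; the rotation matrix of `q/|q|` (explicit quadratic formulas divided by `|q|²`) has first two columns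
`r⁰, r¹`, orthonormal, and for `χ = 1`: `r⁰ = (1,0,0)`, `r¹ = (0, w₀² - w₁², 2 w₀ w₁)`. Put `ẽ = r⁰₀ e + r⁰₁ E₁ + r⁰₂ E₂`, `Ẽ` likewise with
`r¹`, `Q = |dy F| ẽ`, `P = (χ |ζ| + 1 - χ) Ẽ + (dx F ⬝ e) ẽ` (use `χ |W|²` for `χ |ζ|`). Then `P, Q` are smooth, independent on the disk
and equal to `dx F, dy F` for `nsq ≥ 1.5`.
(E) CONVEX INTEGRATION STEP: `F, P, Q` smooth, `gram2 P Q > 0` on `nsq ≤ 9`, `P = dx F` for `nsq ≥ r₁`, `r₁ < r₂ ≤ 4`. Then there is a smooth
`F₁ = F` for `nsq ≥ r₂` with `gram2 (dx F₁) Q > 0` and `gram2 (dx F₁) (Q + dy F₁ - dy F) > 0` on the disk. Take `b` = unit vector along the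
component of `P` orthogonal to `Q`, `b' = Q × b / |Q|`, `s` a cut-off (`1` for `nsq ≤ r₁`, `0` for `nsq ≥ r₂`), `R > sup |dx F|`,
`F₁ = F + (R/N) (s² sin(2 N x)/2 • b - 2 s cos(N x) • b')`. Then `dx F₁ = γ(z, N x) + O(1/N)`, `dy F₁ = dy F + O(1/N)`,
`γ(z,θ) = dx F + R (s² cos 2θ • b + 2 s sin θ • b')`, and `gram2 γ Q > 0` on the compact set `disk × [0, 2π]`: where `s = 1`,
`cos² 2θ + 4 sin² θ = 1 + 4 sin⁴ θ ≥ 1`; where `s < 1`, `dx F = P`, the `b'`-component of `γ` is `2 R s sin θ`, and if it vanishes the `b`-component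
is `P ⬝ b + R s² > 0`. Apply the step once, then again with `x, y` swapped (`P := Q`, `Q := dx F₁`, radii `r₂ < r₃ ≤ 4`).
-/

set_option autoImplicit false
set_option linter.unusedSectionVars false

open scoped Manifold ContDiff Topology
open Matrix

noncomputable section

namespace Crest.Agent.R216

theorem dx_comp_swap {F : ℝ × ℝ → V3} (hF : ContDiff ℝ ∞ F) (z : ℝ × ℝ) :
    dx (F ∘ Prod.swap) z = dy F z.swap ∧ dy (F ∘ Prod.swap) z = dx F z.swap := by
  have h : HasFDerivAt (F ∘ Prod.swap) ((fderiv ℝ F z.swap).comp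
      (ContinuousLinearEquiv.prodComm ℝ ℝ ℝ : ℝ × ℝ →L[ℝ] ℝ × ℝ)) z :=
    (hF.differentiable (by simp) _).hasFDerivAt.comp z
      (ContinuousLinearEquiv.prodComm ℝ ℝ ℝ).hasFDerivAt
  unfold dx dy
  rw [h.fderiv]
  exact ⟨rfl, rfl⟩

theorem nsq_swap (z : ℝ × ℝ) : nsq z.swap = nsq z := by
  simp [nsq, add_comm]

theorem gram2_comm (a b : V3) : gram2 a b = gram2 b a := by
  unfold gram2; rw [dotProduct_comm a b]; ring

theorem imLocStmt : ImLocStmt := by
  intro F T hF hT h1 hnd h0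
  obtain ⟨P, Q, hP, hQ, hout, hg⟩ := exists_formal F T hF hT h1 hnd h0
  obtain ⟨F₁, hF₁, hout₁, hg₁⟩ := convex_step F P Q hF hP hQ (r₁ := 3 / 2) (r₂ := 2) (by norm_num)
    hg fun z hz => (hout z hz).1
  have hsw : ContDiff ℝ ∞ (Prod.swap : ℝ × ℝ → ℝ × ℝ) := contDiff_snd.prodMk contDiff_fst
  obtain ⟨F₂, hF₂, hout₂, hg₂⟩ := convex_step (F₁ ∘ Prod.swap)
    (fun z => Q z.swap + dy F₁ z.swap - dy F z.swap) (fun z => dx F₁ z.swap) (hF₁.comp hsw)
    (((hQ.add (dy_contDiff hF₁)).sub (dy_contDiff hF)).comp hsw) ((dx_contDiff hF₁).comp hsw)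
    (r₁ := 3) (r₂ := 4) (by norm_num)
    (fun z hz => by
      rw [gram2_comm]; exact hg₁ z.swap (by show nsq z.swap ≤ 9; rw [nsq_swap]; exact hz))
    (fun z hz => by
      rw [(dx_comp_swap hF₁ z).1, (hout z.swap (by rw [nsq_swap]; linarith)).2]; abel)
  refine ⟨F₂ ∘ Prod.swap, hF₂.comp hsw, fun z hz => ?_, fun z hz => ?_⟩
  · show F₂ z.swap = F z
    rw [hout₂ _ (by rwa [nsq_swap])]
    exact hout₁ z (by linarith)
  · have h := hg₂ z.swap (by show nsq z.swap ≤ 9; rwa [nsq_swap])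
    rw [(dx_comp_swap hF₁ _).2, add_sub_cancel_left] at h
    rw [(dx_comp_swap hF₂ z).1, (dx_comp_swap hF₂ z).2, gram2_comm]
    exact h

end Crest.Agent.R216
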