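import Crest.Agent.R216.ImDefs

/-! # R216 ImLoc: definitions (continuous square roots) and elementary facts -/

set_option autoImplicit false
set_option linter.unusedSectionVars false

open scoped ContDiff Topology
open Matrix

noncomputable section

namespace Crest.Agent.R216

/-- A point of the plane as a complex number. -/
def cz (z : ℝ × ℝ) : ℂ := z.1 + z.2 * Complex.I

/-- The closed disk `nsq ≤ 9`. -/
def Dsk : Set (ℝ × ℝ) := {z | nsq z ≤ 9}

/-- The open annulus `1 < nsq < 9`. -/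
def Ann : Set (ℝ × ℝ) := {z | 1 < nsq z ∧ nsq z < 9}

/-- `f` has a continuous square root on `U`. -/
def HasSqrt (f : ℝ × ℝ → ℂ) (U : Set (ℝ × ℝ)) : Prop :=
  ∃ g : ℝ × ℝ → ℂ, ContinuousOn g U ∧ ∀ z ∈ U, g z ^ 2 = f z

theorem nsq_contDiff : ContDiff ℝ ∞ nsq := by
  unfold nsq; fun_prop

theorem nsq_nonneg (z : ℝ × ℝ) : 0 ≤ nsq z := by
  unfold nsq; positivity

theorem nsq_smul (t : ℝ) (z : ℝ × ℝ) : nsq (t • z) = t ^ 2 * nsq z := by
  simp [nsq]; ring

theorem normSq_cz (z : ℝ × ℝ) : Complex.normSq (cz z) = nsq z := by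
  rw [cz, Complex.normSq_add_mul_I, nsq]

theorem cz_continuous : Continuous cz := by
  unfold cz; fun_prop

theorem isOpen_Ann : IsOpen Ann :=
  (isOpen_lt continuous_const nsq_contDiff.continuous).inter
    (isOpen_lt nsq_contDiff.continuous continuous_const)

theorem Ann_subset_Dsk : Ann ⊆ Dsk := fun _ h => h.2.le

theorem isCompact_Dsk : IsCompact Dsk := by
  refine (isCompact_Icc (a := ((-3, -3) : ℝ × ℝ)) (b := (3, 3))).of_isClosed_subset
    (isClosed_le nsq_contDiff.continuous continuous_const) fun z hz => ?_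
  have h : z.1 ^ 2 + z.2 ^ 2 ≤ 9 := hz
  refine ⟨⟨?_, ?_⟩, ⟨?_, ?_⟩⟩ <;> simp only <;> nlinarith [sq_nonneg z.1, sq_nonneg z.2]

theorem smul_mem_Dsk {t : ℝ} (h0 : 0 ≤ t) (h1 : t ≤ 1) {z : ℝ × ℝ} (hz : z ∈ Dsk) :
    t • z ∈ Dsk := by
  have h : nsq z ≤ 9 := hz
  show nsq (t • z) ≤ 9
  rw [nsq_smul]
  have : t ^ 2 ≤ 1 := by nlinarith
  nlinarith [nsq_nonneg z]

/-- A smooth radial cut-off: `1` for `nsq ≤ a`, `0` for `b ≤ nsq`. -/
theorem exists_cutoff {a b : ℝ} (hab : a < b) : ∃ s : ℝ × ℝ → ℝ, ContDiff ℝ ∞ s ∧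
    (∀ z, nsq z ≤ a → s z = 1) ∧ (∀ z, b ≤ nsq z → s z = 0) := by
  refine ⟨fun z => Real.smoothTransition ((b - nsq z) / (b - a)), ?_, fun z hz => ?_, fun z hz => ?_⟩
  · exact Real.smoothTransition.contDiff.comp ((contDiff_const.sub nsq_contDiff).div_const _)
  · exact Real.smoothTransition.one_of_one_le ((one_le_div (by linarith)).2 (by linarith))
  · exact Real.smoothTransition.zero_of_nonpos
      (div_nonpos_of_nonpos_of_nonneg (by linarith) (by linarith))

theorem dx_contDiff {E : Type} [NormedAddCommGroup E] [NormedSpace ℝ E] {v : ℝ × ℝ → E}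
    (hv : ContDiff ℝ ∞ v) : ContDiff ℝ ∞ (dx v) :=
  (hv.fderiv_right (m := ∞) (by simp)).clm_apply contDiff_const

theorem dy_contDiff {E : Type} [NormedAddCommGroup E] [NormedSpace ℝ E] {v : ℝ × ℝ → E}
    (hv : ContDiff ℝ ∞ v) : ContDiff ℝ ∞ (dy v) :=
  (hv.fderiv_right (m := ∞) (by simp)).clm_apply contDiff_const

end Crest.Agent.R216
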