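import Crest.Agent.R216.ImLocSqrt

/-! # R216 ImLoc: square root of a function with an even number of nondegenerate zeros -/

set_option autoImplicit false
set_option linter.unusedSectionVars false

open scoped ContDiff Topology
open Matrix

noncomputable section

namespace Crest.Agent.R216

private theorem div_one_add {u : ℝ × ℝ → ℂ} {U : Set (ℝ × ℝ)} (hu : ContinuousOn u U)
    (h : ∀ z ∈ U, ‖u z‖ < 1) : HasSqrt (fun z => 1 + u z) U :=
  hasSqrt_of_re_pos (continuousOn_const.add hu) fun z hz => by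
    have := Complex.abs_re_le_norm (u z)
    have := h z hz
    have := neg_abs_le (u z).re
    simp only [Complex.add_re, Complex.one_re]
    linarith

/-- `L (z - σ) = α w + β conj w`, `w = cz z - cz σ`, `α = (a - I b)/2`, `β = (a + I b)/2`,
`a = L (1,0)`, `b = L (0,1)`; `|α| ≠ |β|` by injectivity (if `|α| = |β|` then
`Im (conj a * b) = 0`). If `|β| < |α|`: `L (z-σ)/cz z = α (1 - σ/z) (1 + (β/α) conj w / w)`; otherwise
`= β (|z|/z)² (1 - conj (σ/z)) (1 + (α/β) w / conj w)`. -/
theorem hasSqrt_lin (L : ℝ × ℝ →L[ℝ] ℂ) (hL : Function.Injective L) (σ : ℝ × ℝ) (hσ : nsq σ < 1) :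
    HasSqrt (fun z => L (z - σ) / cz z) Ann := by
  set a := L (1, 0) with ha
  set b := L (0, 1) with hb
  set α : ℂ := (a - Complex.I * b) / 2 with hα
  set β : ℂ := (a + Complex.I * b) / 2 with hβ
  have hL' : ∀ w : ℝ × ℝ, L w = w.1 * a + w.2 * b := fun w => by
    have : w = w.1 • ((1, 0) : ℝ × ℝ) + w.2 • ((0, 1) : ℝ × ℝ) := by simp
    conv_lhs => rw [this, map_add, map_smul, map_smul]
    simp [ha, hb]
  have hLw : ∀ z : ℝ × ℝ, L (z - σ) =
      α * (cz z - cz σ) + β * (starRingEnd ℂ) (cz z - cz σ) := fun z => by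
    rw [hL', hα, hβ]
    simp only [cz, Prod.fst_sub, Prod.snd_sub, map_sub, map_add, map_mul, Complex.conj_ofReal,
      Complex.conj_I]
    push_cast
    linear_combination (((z.2 : ℂ) - σ.2) * b) * Complex.I_sq
  have hne : ‖α‖ ≠ ‖β‖ := by
    intro h
    have h1 : Complex.normSq α = Complex.normSq β := by
      rw [Complex.normSq_eq_norm_sq, Complex.normSq_eq_norm_sq, h]
    have h2 : a.re * b.im - a.im * b.re = 0 := by
      simp only [hα, hβ, map_div₀, Complex.normSq_apply, Complex.sub_re, Complex.sub_im,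
        Complex.add_re, Complex.add_im, Complex.mul_re, Complex.mul_im, Complex.I_re,
        Complex.I_im] at h1
      norm_num at h1
      linarith
    have key : ∀ x y : ℝ, x * a.re + y * b.re = 0 → x * a.im + y * b.im = 0 → x = 0 ∧ y = 0 := by
      intro x y e1 e2
      have : L (x, y) = L 0 := by
        rw [hL', map_zero]; apply Complex.ext <;> simp [e1, e2]
      exact Prod.ext_iff.1 (hL this)
    have k1 := key b.re (-a.re) (by ring) (by linarith)
    have k2 := key b.im (-a.im) (by linarith) (by ring)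
    exact one_ne_zero (key 1 0 (by linarith [k1.2]) (by linarith [k2.2])).1
  have hz0 : ∀ z ∈ Ann, ‖cz σ‖ < ‖cz z‖ := fun z hz => by
    refine lt_of_pow_lt_pow_left₀ 2 (norm_nonneg _) ?_
    rw [← Complex.normSq_eq_norm_sq, ← Complex.normSq_eq_norm_sq, normSq_cz, normSq_cz]
    linarith [hz.1]
  have hz1 : ∀ z ∈ Ann, cz z ≠ 0 := fun z hz h => by
    have := hz0 z hz; rw [h, norm_zero] at this; exact absurd this (not_lt.2 (norm_nonneg _))
  have hw : ∀ z ∈ Ann, cz z - cz σ ≠ 0 := fun z hz h => by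
    have := hz0 z hz; rw [sub_eq_zero.1 h] at this; exact lt_irrefl _ this
  have hw' : ∀ z ∈ Ann, (starRingEnd ℂ) (cz z - cz σ) ≠ 0 := fun z hz =>
    (map_ne_zero _).2 (hw z hz)
  have hc := cz_continuous
  have hcc : Continuous fun z => (starRingEnd ℂ) (cz z - cz σ) :=
    Complex.continuous_conj.comp (hc.sub continuous_const)
  have s1 : HasSqrt (fun z => 1 + -(cz σ / cz z)) Ann :=
    div_one_add (continuousOn_const.div hc.continuousOn hz1).neg fun z hz => by
      rw [norm_neg, norm_div, div_lt_one (norm_pos_iff.2 (hz1 z hz))]; exact hz0 z hz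
  rcases lt_or_gt_of_ne hne with h | h
  · have hβ0 : β ≠ 0 := fun h0 => by rw [h0, norm_zero] at h; exact absurd h (not_lt.2 (norm_nonneg _))
    have s2 : HasSqrt (fun z => 1 + α / β * ((cz z - cz σ) / (starRingEnd ℂ) (cz z - cz σ))) Ann :=
      div_one_add (continuousOn_const.mul ((hc.sub continuous_const).continuousOn.div
        hcc.continuousOn hw')) fun z hz => by
        rw [norm_mul, norm_div (cz z - cz σ), Complex.norm_conj,
          div_self (norm_ne_zero_iff.2 (hw z hz)), mul_one, norm_div,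
          div_lt_one (norm_pos_iff.2 hβ0)]
        exact h
    have s3 : HasSqrt (fun z => 1 + -(starRingEnd ℂ) (cz σ / cz z)) Ann :=
      div_one_add (Complex.continuous_conj.comp_continuousOn
        (continuousOn_const.div hc.continuousOn hz1)).neg fun z hz => by
        rw [norm_neg, Complex.norm_conj, norm_div, div_lt_one (norm_pos_iff.2 (hz1 z hz))]
        exact hz0 z hz
    have s4 : HasSqrt (fun z => (starRingEnd ℂ) (cz z) / cz z) Ann := by
      refine ⟨fun z => (‖cz z‖ : ℂ) / cz z,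
        (Complex.continuous_ofReal.comp hc.norm).continuousOn.div hc.continuousOn hz1,
        fun z hz => ?_⟩
      have := hz1 z hz
      rw [div_pow, ← Complex.mul_conj']
      field_simp
    refine ((((hasSqrt_const β Ann).mul s4).mul s3).mul s2).congr fun z hz => ?_
    have e1 := hz1 z hz
    have e2 := hw' z hz
    have e3 : (starRingEnd ℂ) (cz z) ≠ 0 := (map_ne_zero _).2 e1
    rw [hLw, map_div₀]
    rw [map_sub] at e2 ⊢
    field_simp
    ring
  · have hα0 : α ≠ 0 := fun h0 => by rw [h0, norm_zero] at h; exact absurd h (not_lt.2 (norm_nonneg _))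
    have s2 : HasSqrt (fun z => 1 + β / α * ((starRingEnd ℂ) (cz z - cz σ) / (cz z - cz σ))) Ann :=
      div_one_add (continuousOn_const.mul (hcc.continuousOn.div
        (hc.sub continuous_const).continuousOn hw)) fun z hz => by
        rw [norm_mul, norm_div _ (cz z - cz σ), Complex.norm_conj,
          div_self (norm_ne_zero_iff.2 (hw z hz)), mul_one, norm_div,
          div_lt_one (norm_pos_iff.2 hα0)]
        exact h
    refine (((hasSqrt_const α Ann).mul s1).mul s2).congr fun z hz => ?_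
    have e1 := hz1 z hz
    have e2 := hw z hz
    rw [hLw]
    field_simp
    ring

/-- `f z / L (z - σ) → 1` (`‖w‖ ≤ C ‖L w‖`, `f z - L (z - σ) = o (z - σ)`). -/
theorem continuousAt_div_lin {f : ℝ × ℝ → ℂ} {L : ℝ × ℝ →L[ℝ] ℂ} (hL : Function.Injective L)
    {σ : ℝ × ℝ} (h0 : f σ = 0) (hf : HasFDerivAt f L σ) :
    ContinuousAt (Function.update (fun z => f z / L (z - σ)) σ 1) σ := by
  rw [continuousAt_update_same]
  obtain ⟨K, hK⟩ := L.toLinearMap.exists_antilipschitzWith (LinearMap.ker_eq_bot.2 hL)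
  have h1 : (fun z => f z - L (z - σ)) =o[𝓝 σ] fun z => L (z - σ) := by
    have h2 := hf.isLittleO
    simp only [h0, sub_zero] at h2
    refine h2.trans_isBigO (Asymptotics.IsBigO.of_bound K (Filter.Eventually.of_forall fun z => ?_))
    simpa using hK.2.le_mul_dist (z - σ) 0
  have h3 := (h1.tendsto_div_nhds_zero.mono_left (nhdsWithin_le_nhds (s := {σ}ᶜ))).add_const 1
  rw [zero_add] at h3
  refine h3.congr' ?_
  filter_upwards [self_mem_nhdsWithin] with z hz
  have : L (z - σ) ≠ 0 := fun h => hz (sub_eq_zero.1 (hL (h.trans (map_zero L).symm)))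
  field_simp
  ring

/-- Induction on `T`, dividing by `L σ (z - σ)`; at another zero `τ` the quotient has
derivative `(L σ (τ - σ))⁻¹ • L τ`. -/
theorem hasSqrt_div_pow (T : Finset (ℝ × ℝ)) : ∀ (f : ℝ × ℝ → ℂ), ContinuousOn f Dsk →
    (∀ z ∈ T, nsq z < 1) → (∀ z ∈ Dsk, (f z = 0 ↔ z ∈ T)) →
    (∀ σ ∈ T, ∃ L : ℝ × ℝ →L[ℝ] ℂ, Function.Injective L ∧ HasFDerivAt f L σ) →
    HasSqrt (fun z => f z / cz z ^ T.card) Ann := by
  classical
  induction T using Finset.induction_on with
  | empty =>
    intro f hf _ h0 _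
    refine ((hasSqrt_Dsk hf fun z hz h => ?_).mono Ann_subset_Dsk).congr fun z _ => by simp
    simpa using (h0 z hz).1 h
  | insert σ T hσT ih =>
    intro f hf h1 h0 hd
    obtain ⟨L, hL, hfL⟩ := hd σ (by simp)
    have hσ1 := h1 σ (by simp)
    have hσD : σ ∈ Dsk := show nsq σ ≤ 9 by linarith
    have hf0 : f σ = 0 := (h0 σ hσD).2 (by simp)
    have hL0 : ∀ z, z ≠ σ → L (z - σ) ≠ 0 := fun z hz h =>
      hz (sub_eq_zero.1 (hL (h.trans (map_zero L).symm)))
    set g := Function.update (fun z => f z / L (z - σ)) σ 1 with hg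
    have hev : ∀ z, z ≠ σ → g =ᶠ[𝓝 z] fun z => f z / L (z - σ) := fun z hz => by
      filter_upwards [isOpen_compl_singleton.mem_nhds hz] with w hw
      exact Function.update_of_ne hw _ _
    have hLc : Continuous fun z => L (z - σ) := by fun_prop
    have := ih g (fun z hz => by
        by_cases hzσ : z = σ
        · rw [hzσ]; exact (continuousAt_div_lin hL hf0 hfL).continuousWithinAt
        · exact ((hf z hz).div hLc.continuousWithinAt (hL0 z hzσ)).congr_of_eventuallyEq
            ((hev z hzσ).filter_mono nhdsWithin_le_nhds) (hev z hzσ).eq_of_nhds)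
      (fun z hz => h1 z (by simp [hz]))
      (fun z hz => by
        by_cases hzσ : z = σ
        · rw [hzσ, hg, Function.update_self]; simp [hσT]
        · rw [(hev z hzσ).eq_of_nhds, div_eq_zero_iff, h0 z hz, or_iff_left (hL0 z hzσ)]
          simp [hzσ])
      (fun τ hτ => by
        have hτσ : τ ≠ σ := fun h => hσT (h ▸ hτ)
        obtain ⟨M, hM, hfM⟩ := hd τ (by simp [hτ])
        have hτ1 := h1 τ (by simp [hτ])
        have hfτ : f τ = 0 := (h0 τ (show nsq τ ≤ 9 by linarith)).2 (by simp [hτ])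
        have hi : DifferentiableAt ℝ (fun z => (L (z - σ))⁻¹) τ :=
          DifferentiableAt.inv (by fun_prop) (hL0 τ hτσ)
        have hm := hfM.mul hi.hasFDerivAt
        rw [hfτ] at hm
        refine ⟨_, ?_, (hm.congr_of_eventuallyEq ((hev τ hτσ).trans
          (Filter.Eventually.of_forall fun z => div_eq_mul_inv _ _)))⟩
        intro x y hxy
        apply hM
        have h3 := hL0 τ hτσ
        simp only [ContinuousLinearMap.add_apply, ContinuousLinearMap.smul_apply, smul_eq_mul,
          zero_mul, zero_add] at hxy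
        exact mul_left_cancel₀ (inv_ne_zero h3) hxy)
    refine (this.mul (hasSqrt_lin L hL σ hσ1)).congr fun z hz => ?_
    have hzσ : z ≠ σ := fun h => by have := hz.1; rw [h] at this; linarith
    have := hL0 z hzσ
    rw [(hev z hzσ).eq_of_nhds, Finset.card_insert_of_notMem hσT, pow_succ]
    field_simp

theorem exists_smooth_sqrt (T : Finset (ℝ × ℝ)) (hT : Even T.card) (f : ℝ × ℝ → ℂ)
    (hf : ContDiff ℝ ∞ f) (h1 : ∀ z ∈ T, nsq z < 1) (h0 : ∀ z ∈ Dsk, (f z = 0 ↔ z ∈ T))
    (hd : ∀ σ ∈ T, Function.Injective (fderiv ℝ f σ)) :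
    ∃ W : ℝ × ℝ → ℂ, ∀ z ∈ Ann, ContDiffAt ℝ ∞ W z ∧ W z ≠ 0 ∧ W z ^ 2 = f z := by
  obtain ⟨g, hg, hgf⟩ := hasSqrt_div_pow T f hf.continuous.continuousOn h1 h0 fun σ hσ =>
    ⟨_, hd σ hσ, (hf.differentiable (by simp) σ).hasFDerivAt⟩
  obtain ⟨k, hk⟩ := hT
  have hz1 : ∀ z ∈ Ann, cz z ≠ 0 := fun z hz h => by
    have := normSq_cz z; rw [h, map_zero] at this; linarith [hz.1]
  have hsq : ∀ z ∈ Ann, (g z * cz z ^ k) ^ 2 = f z := fun z hz => by
    have := hz1 z hz
    rw [mul_pow, hgf z hz, hk]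
    field_simp
    ring
  refine ⟨fun z => g z * cz z ^ k, fun z hz => ?_⟩
  have hne : g z * cz z ^ k ≠ 0 := fun h => by
    have h2 := hsq z hz
    rw [h, zero_pow two_ne_zero] at h2
    have := h1 z ((h0 z (Ann_subset_Dsk hz)).1 h2.symm)
    linarith [hz.1]
  refine ⟨contDiffAt_of_sq ((hg.continuousAt (isOpen_Ann.mem_nhds hz)).mul
    (cz_continuous.pow k).continuousAt) hne hf.contDiffAt ?_, hne, hsq z hz⟩
  filter_upwards [isOpen_Ann.mem_nhds hz] with w hw using hsq w hw

end Crest.Agent.R216
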