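import Crest.Agent.R216.ImLocDefs

/-! # R216 ImLoc: a normal field, and the formal immersion built from a square root -/

set_option autoImplicit false
set_option linter.unusedSectionVars false

open scoped ContDiff Topology
open Matrix

noncomputable section

namespace Crest.Agent.R216

theorem frm_dot {f g : ℝ × ℝ → V3} {z : ℝ × ℝ} (hf : ContDiffAt ℝ ∞ f z) (hg : ContDiffAt ℝ ∞ g z) :
    ContDiffAt ℝ ∞ (fun z => f z ⬝ᵥ g z) z := by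
  simp only [dotProduct]
  exact ContDiffAt.sum fun i _ => (contDiffAt_pi.1 hf i).mul (contDiffAt_pi.1 hg i)

theorem frm_cross {f g : ℝ × ℝ → V3} {z : ℝ × ℝ} (hf : ContDiffAt ℝ ∞ f z)
    (hg : ContDiffAt ℝ ∞ g z) : ContDiffAt ℝ ∞ (fun z => f z ⨯₃ g z) z := by
  have hf' := contDiffAt_pi.1 hf
  have hg' := contDiffAt_pi.1 hg
  refine contDiffAt_pi.2 fun i => ?_
  simp only [cross_apply]
  fin_cases i
  · exact ((hf' 1).mul (hg' 2)).sub ((hf' 2).mul (hg' 1))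
  · exact ((hf' 2).mul (hg' 0)).sub ((hf' 0).mul (hg' 2))
  · exact ((hf' 0).mul (hg' 1)).sub ((hf' 1).mul (hg' 0))

theorem frm_pos {b : V3} (hb : b ≠ 0) : 0 < b ⬝ᵥ b :=
  lt_of_le_of_ne (Finset.sum_nonneg fun i _ => mul_self_nonneg _)
    fun h => hb (dotProduct_self_eq_zero.1 h.symm)

theorem frm_delta (B : ℝ × ℝ → V3) (hB : Continuous B) (h0 : ∀ z ∈ Dsk, B z ≠ 0) :
    ∃ δ : ℝ, 0 < δ ∧ ∀ s ∈ Set.Icc (0 : ℝ) 1, ∀ t ∈ Set.Icc (0 : ℝ) 1, |s - t| ≤ δ →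
      ∀ z ∈ Dsk, 0 < B (s • z) ⬝ᵥ B (t • z) := by
  let g : (ℝ × ℝ) × (ℝ × ℝ) → ℝ := fun q => B (q.1.1 • q.2) ⬝ᵥ B (q.1.2 • q.2)
  have hg : Continuous g := by
    simp only [g, dotProduct]
    fun_prop
  have hK : IsCompact (((Set.Icc (0 : ℝ) 1 ×ˢ Set.Icc (0 : ℝ) 1) ×ˢ Dsk) ∩ {q | g q ≤ 0}) :=
    ((isCompact_Icc.prod isCompact_Icc).prod isCompact_Dsk).inter_right
      (isClosed_le hg continuous_const)
  obtain ⟨δ, hδ, h⟩ := hK.exists_forall_le' (f := fun q => |q.1.1 - q.1.2|) (a := 0)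
    (by fun_prop) (by
      rintro ⟨⟨s, t⟩, z⟩ ⟨⟨⟨hs, -⟩, hz⟩, hq⟩
      refine abs_pos.2 fun hst => ?_
      have e : s = t := sub_eq_zero.1 hst
      subst e
      exact absurd hq (not_le.2 (frm_pos (h0 _ (smul_mem_Dsk hs.1 hs.2 hz)))))
  refine ⟨δ / 2, by positivity, fun s hs t ht hst z hz => ?_⟩
  by_contra hc
  have := h ((s, t), z) ⟨⟨⟨hs, ht⟩, hz⟩, not_lt.1 hc⟩
  simp only at this
  linarith

/-- `E⁰` a constant vector `⊥ B 0`, `E^{k+1} z = |B_{k+1}|² E^k - (E^k ⬝ B_{k+1}) B_{k+1}` with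
`B_k z = B (k/n • z)`; nonzero because `B_k ⬝ B_{k+1} > 0` (uniform continuity). -/
theorem exists_normal (B : ℝ × ℝ → V3) (hB : ContDiff ℝ ∞ B) (h0 : ∀ z ∈ Dsk, B z ≠ 0) :
    ∃ E : ℝ × ℝ → V3, ContDiff ℝ ∞ E ∧ (∀ z, E z ⬝ᵥ B z = 0) ∧ ∀ z ∈ Dsk, E z ≠ 0 := by
  obtain ⟨δ, hδ, hd⟩ := frm_delta B hB.continuous h0
  have key : ∀ k : ℕ, ∀ t ∈ Set.Icc (0 : ℝ) 1, t ≤ k * δ →
      ∃ E : ℝ × ℝ → V3, ContDiff ℝ ∞ E ∧ (∀ z, E z ⬝ᵥ B (t • z) = 0) ∧ ∀ z ∈ Dsk, E z ≠ 0 := by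
    intro k
    induction k with
    | zero =>
      intro t ht h
      have e : t = 0 := le_antisymm (by simpa using h) ht.1
      subst e
      simp only [zero_smul]
      by_cases h1 : B 0 0 = 0
      · refine ⟨fun _ => ![1, 0, 0], contDiff_const, fun _ => ?_, fun _ _ h => ?_⟩
        · simp [dotProduct, Fin.sum_univ_three, h1]
        · simpa using congrFun h 0
      · refine ⟨fun _ => ![-B 0 1, B 0 0, 0], contDiff_const, fun _ => ?_, fun _ _ h => ?_⟩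
        · simp [dotProduct, Fin.sum_univ_three]; ring
        · exact h1 (by simpa using congrFun h 1)
    | succ k ih =>
      intro t ht h
      have hs : max 0 (t - δ) ∈ Set.Icc (0 : ℝ) 1 :=
        ⟨le_max_left _ _, max_le zero_le_one (by linarith [ht.2])⟩
      obtain ⟨E, hE, h1, h2⟩ := ih _ hs (max_le (by positivity) (by push_cast at h; linarith))
      have hst : |max 0 (t - δ) - t| ≤ δ := by
        rw [abs_le]
        constructor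
        · linarith [le_max_right 0 (t - δ)]
        · have : max 0 (t - δ) ≤ t := max_le ht.1 (by linarith)
          linarith
      have hb : ContDiff ℝ ∞ fun z : ℝ × ℝ => B (t • z) := hB.comp (contDiff_id.const_smul t)
      refine ⟨fun z => (B (t • z) ⬝ᵥ B (t • z)) • E z - (E z ⬝ᵥ B (t • z)) • B (t • z), ?_,
        fun z => ?_, fun z hz hE' => ?_⟩
      · refine contDiff_iff_contDiffAt.2 fun z => ?_
        exact ((frm_dot hb.contDiffAt hb.contDiffAt).smul hE.contDiffAt).sub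
          ((frm_dot hE.contDiffAt hb.contDiffAt).smul hb.contDiffAt)
      · simp only [sub_dotProduct, smul_dotProduct, smul_eq_mul]
        ring
      · have p1 := hd _ hs t ht hst z hz
        have p2 := frm_pos (h0 _ (smul_mem_Dsk ht.1 ht.2 hz))
        have p3 := congrArg (fun v => v ⬝ᵥ B (max 0 (t - δ) • z)) hE'
        simp only [sub_dotProduct, smul_dotProduct, smul_eq_mul, h1, zero_dotProduct] at p3
        rw [dotProduct_comm] at p1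
        have p4 : E z ⬝ᵥ B (t • z) = 0 := by
          have : (E z ⬝ᵥ B (t • z)) * (B (t • z) ⬝ᵥ B (max 0 (t - δ) • z)) = 0 := by linarith
          exact (mul_eq_zero.1 this).resolve_right p1.ne'
        simp only [p4, zero_smul, sub_zero] at hE'
        exact h2 z hz ((smul_eq_zero.1 hE').resolve_left p2.ne')
  obtain ⟨k, hk⟩ := exists_nat_ge (1 / δ)
  obtain ⟨E, hE, h1, h2⟩ := key k 1 ⟨zero_le_one, le_rfl⟩ (by rwa [div_le_iff₀ hδ] at hk)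
  exact ⟨E, hE, by simpa using h1, h2⟩

/-- The complex normal component of `A` in the frame `B, E, B × E` (times `|B × E|²`). -/
def zeta (A B E : ℝ × ℝ → V3) (z : ℝ × ℝ) : ℂ :=
  ((A z ⬝ᵥ E z) * (B z ⬝ᵥ B z) : ℝ) + (A z ⬝ᵥ (B z ⨯₃ E z) : ℝ) * Complex.I

def frmQ (b e : V3) (x₀ x₁ x₂ : ℝ) : V3 :=
  (x₀ ^ 2 + x₁ ^ 2 + x₂ ^ 2)⁻¹ • ((x₀ ^ 2 + x₁ ^ 2 - x₂ ^ 2) • b + (2 * x₁ * x₂) • e
    + (-2 * x₀ * x₂) • (b ⨯₃ e))

def frmP (a b e : V3) (x₀ x₁ x₂ : ℝ) : V3 :=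
  (a ⬝ᵥ b * (b ⬝ᵥ b)⁻¹) • frmQ b e x₀ x₁ x₂ + ((b ⬝ᵥ b) * (e ⬝ᵥ e))⁻¹ •
    ((2 * x₁ * x₂) • b + (x₀ ^ 2 - x₁ ^ 2 + x₂ ^ 2) • e + (2 * x₀ * x₁) • (b ⨯₃ e))

theorem frm_indep {b e : V3} (heb : e ⬝ᵥ b = 0) (hb : b ≠ 0) (he : e ≠ 0) {α β γ : ℝ}
    (h : α • b + β • e + γ • (b ⨯₃ e) = 0) : α = 0 ∧ β = 0 ∧ γ = 0 := by
  have hbe : b ⬝ᵥ e = 0 := by rw [dotProduct_comm]; exact heb
  have p1 := frm_pos hb
  have p2 := frm_pos he
  have h1 := congrArg (fun v => b ⬝ᵥ v) h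
  have h2 := congrArg (fun v => e ⬝ᵥ v) h
  simp only [dotProduct_add, dotProduct_smul, smul_eq_mul, dot_self_cross, dot_cross_self, hbe, heb,
    dotProduct_zero, mul_zero, add_zero, zero_add] at h1 h2
  have a0 : α = 0 := (mul_eq_zero.1 h1).resolve_right p1.ne'
  have b0 : β = 0 := (mul_eq_zero.1 h2).resolve_right p2.ne'
  refine ⟨a0, b0, ?_⟩
  rw [a0, b0, zero_smul, zero_smul, add_zero, zero_add] at h
  refine (smul_eq_zero.1 h).resolve_right fun h3 => ?_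
  have h4 := cross_dot_cross b e b e
  rw [h3, hbe, zero_dotProduct] at h4
  nlinarith [mul_pos p1 p2]

theorem frm_gram (a : V3) {b e : V3} (heb : e ⬝ᵥ b = 0) (hb : b ≠ 0) (he : e ≠ 0) {x₀ x₁ x₂ : ℝ}
    (hx : x₀ ^ 2 + x₁ ^ 2 + x₂ ^ 2 ≠ 0) : 0 < gram2 (frmP a b e x₀ x₁ x₂) (frmQ b e x₀ x₁ x₂) := by
  refine (gram2_pos_iff _ _).2 fun s t h => ?_
  have hd : ((b ⬝ᵥ b) * (e ⬝ᵥ e))⁻¹ ≠ 0 := inv_ne_zero (mul_pos (frm_pos hb) (frm_pos he)).ne'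
  have hn := inv_ne_zero hx
  simp only [frmP, frmQ] at h
  generalize ((b ⬝ᵥ b) * (e ⬝ᵥ e))⁻¹ = d at h hd
  generalize a ⬝ᵥ b * (b ⬝ᵥ b)⁻¹ = c at h
  generalize (x₀ ^ 2 + x₁ ^ 2 + x₂ ^ 2)⁻¹ = n at h hn
  obtain ⟨h1, h2, h3⟩ := frm_indep heb hb he
    (α := (s * c + t) * n * (x₀ ^ 2 + x₁ ^ 2 - x₂ ^ 2) + s * d * (2 * x₁ * x₂))
    (β := (s * c + t) * n * (2 * x₁ * x₂) + s * d * (x₀ ^ 2 - x₁ ^ 2 + x₂ ^ 2))
    (γ := (s * c + t) * n * (-2 * x₀ * x₂) + s * d * (2 * x₀ * x₁)) (by rw [← h]; module)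
  have e1 : s * d * (x₀ ^ 2 + x₁ ^ 2 + x₂ ^ 2) ^ 2 = 0 := by
    linear_combination (2 * x₁ * x₂) * h1 + (x₀ ^ 2 - x₁ ^ 2 + x₂ ^ 2) * h2 + (2 * x₀ * x₁) * h3
  have e2 : (s * c + t) * n * (x₀ ^ 2 + x₁ ^ 2 + x₂ ^ 2) ^ 2 = 0 := by
    linear_combination (x₀ ^ 2 + x₁ ^ 2 - x₂ ^ 2) * h1 + (2 * x₁ * x₂) * h2 + (-2 * x₀ * x₂) * h3
  have s0 : s = 0 :=
    (mul_eq_zero.1 ((mul_eq_zero.1 e1).resolve_right (pow_ne_zero 2 hx))).resolve_right hd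
  have t0 := (mul_eq_zero.1 ((mul_eq_zero.1 e2).resolve_right (pow_ne_zero 2 hx))).resolve_right hn
  rw [s0, zero_mul, zero_add] at t0
  exact ⟨s0, t0⟩

theorem frm_Q_eq (b e : V3) {x₀ x₁ : ℝ} (hx : x₀ ^ 2 + x₁ ^ 2 ≠ 0) : frmQ b e x₀ x₁ 0 = b := by
  simp only [frmQ, ne_eq, OfNat.ofNat_ne_zero, not_false_eq_true, zero_pow, add_zero, sub_zero,
    mul_zero, zero_smul, smul_smul, inv_mul_cancel₀ hx, one_smul]

theorem frm_expand (a : V3) {b e : V3} (heb : e ⬝ᵥ b = 0) :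
    ((b ⬝ᵥ b) * (e ⬝ᵥ e)) • a = ((a ⬝ᵥ b) * (e ⬝ᵥ e)) • b + ((a ⬝ᵥ e) * (b ⬝ᵥ b)) • e
      + (a ⬝ᵥ (b ⨯₃ e)) • (b ⨯₃ e) := by
  funext i
  simp only [dotProduct, Fin.sum_univ_three] at heb
  fin_cases i <;>
    simp only [dotProduct, Fin.sum_univ_three, cross_apply, Pi.add_apply, Pi.smul_apply,
      smul_eq_mul, Fin.zero_eta, Fin.mk_one, Fin.reduceFinMk, Matrix.cons_val_zero,
      Matrix.cons_val_one, Matrix.cons_val]
  · linear_combination ((e 0 * b 0 + e 1 * b 1 + e 2 * b 2) * a 0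
      - (a 0 * e 0 + a 1 * e 1 + a 2 * e 2) * b 0 - (a 0 * b 0 + a 1 * b 1 + a 2 * b 2) * e 0) * heb
  · linear_combination ((e 0 * b 0 + e 1 * b 1 + e 2 * b 2) * a 1
      - (a 0 * e 0 + a 1 * e 1 + a 2 * e 2) * b 1 - (a 0 * b 0 + a 1 * b 1 + a 2 * b 2) * e 1) * heb
  · linear_combination ((e 0 * b 0 + e 1 * b 1 + e 2 * b 2) * a 2
      - (a 0 * e 0 + a 1 * e 1 + a 2 * e 2) * b 2 - (a 0 * b 0 + a 1 * b 1 + a 2 * b 2) * e 2) * heb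

theorem frm_P_eq (a : V3) {b e : V3} (heb : e ⬝ᵥ b = 0) (hb : b ≠ 0) (he : e ≠ 0) {x₀ x₁ : ℝ}
    (hx : x₀ ^ 2 + x₁ ^ 2 ≠ 0) (h1 : x₀ ^ 2 - x₁ ^ 2 = (a ⬝ᵥ e) * (b ⬝ᵥ b))
    (h2 : 2 * x₀ * x₁ = a ⬝ᵥ (b ⨯₃ e)) : frmP a b e x₀ x₁ 0 = a := by
  have p1 := (frm_pos hb).ne'
  have p2 := (frm_pos he).ne'
  have h := frm_expand a heb
  have h' : a = ((b ⬝ᵥ b) * (e ⬝ᵥ e))⁻¹ • (((b ⬝ᵥ b) * (e ⬝ᵥ e)) • a) := by
    rw [smul_smul, inv_mul_cancel₀ (mul_ne_zero p1 p2), one_smul]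
  rw [frmP, frm_Q_eq b e hx, h2, show x₀ ^ 2 - x₁ ^ 2 + 0 ^ 2 = (a ⬝ᵥ e) * (b ⬝ᵥ b) by
    rw [← h1]; ring]
  conv_rhs => rw [h', h]
  generalize a ⬝ᵥ (b ⨯₃ e) = u
  generalize b ⨯₃ e = n
  generalize a ⬝ᵥ b = v
  generalize a ⬝ᵥ e = w
  generalize b ⬝ᵥ b = p at p1
  generalize e ⬝ᵥ e = q at p2
  match_scalars <;> field_simp <;> ring

theorem frm_glue {P₀ A : ℝ × ℝ → V3} (hA : ContDiff ℝ ∞ A)
    (h1 : ∀ z, nsq z < 4 → ContDiffAt ℝ ∞ P₀ z) (h2 : ∀ z, 3 / 2 ≤ nsq z → nsq z < 4 → P₀ z = A z) :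
    ContDiff ℝ ∞ fun z => if nsq z < 4 then P₀ z else A z := by
  refine contDiff_iff_contDiffAt.2 fun z => ?_
  by_cases hz : nsq z < 4
  · refine (h1 z hz).congr_of_eventuallyEq ?_
    filter_upwards [(isOpen_lt nsq_contDiff.continuous continuous_const).mem_nhds hz] with y hy
    exact if_pos hy
  · refine hA.contDiffAt.congr_of_eventuallyEq ?_
    have hz' : 3 / 2 < nsq z := by linarith [not_lt.1 hz]
    filter_upwards [(isOpen_lt continuous_const nsq_contDiff.continuous).mem_nhds hz'] with y hy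
    split_ifs with h
    · exact h2 y (le_of_lt hy) h
    · rfl

/-- `χ = 0` for `nsq ≤ 6/5`, `1` for `nsq ≥ 3/2`; `x = (χ Re W, χ Im W, 1 - χ) ≠ 0`,
`r⁰ = (x₀²+x₁²-x₂², 2x₁x₂, -2x₀x₂)`, `r¹ = (2x₁x₂, x₀²-x₁²+x₂², 2x₀x₁)` (orthogonal, of length
`|x|²`), `Q₀ = |x|⁻² (r⁰₀ B + r⁰₁ E + r⁰₂ B×E)`,
`P₀ = (A⬝B/B⬝B) Q₀ + |B×E|⁻² (r¹₀ B + r¹₁ E + r¹₂ B×E)`; finally `P = P₀` for `nsq < 4`, else `A`. -/
theorem formal_of_sqrt (A B E : ℝ × ℝ → V3) (hA : ContDiff ℝ ∞ A) (hB : ContDiff ℝ ∞ B)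
    (hE : ContDiff ℝ ∞ E) (hEB : ∀ z, E z ⬝ᵥ B z = 0) (hB0 : ∀ z ∈ Dsk, B z ≠ 0)
    (hE0 : ∀ z ∈ Dsk, E z ≠ 0) (hg : ∀ z ∈ Dsk, 1 ≤ nsq z → 0 < gram2 (A z) (B z))
    (W : ℝ × ℝ → ℂ) (hW : ∀ z ∈ Ann, ContDiffAt ℝ ∞ W z ∧ W z ≠ 0 ∧ W z ^ 2 = zeta A B E z) :
    ∃ P Q : ℝ × ℝ → V3, ContDiff ℝ ∞ P ∧ ContDiff ℝ ∞ Q ∧
      (∀ z, 3 / 2 ≤ nsq z → P z = A z ∧ Q z = B z) ∧ ∀ z ∈ Dsk, 0 < gram2 (P z) (Q z) := by
  obtain ⟨s, hs, hs1, hs0⟩ := exists_cutoff (a := 6 / 5) (b := 3 / 2) (by norm_num)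
  let x₀ : ℝ × ℝ → ℝ := fun z => (1 - s z) * (W z).re
  let x₁ : ℝ × ℝ → ℝ := fun z => (1 - s z) * (W z).im
  have cut : ∀ L : ℂ →L[ℝ] ℝ, ∀ z, nsq z < 4 → ContDiffAt ℝ ∞ (fun z => (1 - s z) * L (W z)) z := by
    intro L z hz
    by_cases h : nsq z < 6 / 5
    · refine (contDiffAt_const (c := (0 : ℝ))).congr_of_eventuallyEq ?_
      filter_upwards [(isOpen_lt nsq_contDiff.continuous continuous_const).mem_nhds h] with y hy
      rw [hs1 y (le_of_lt hy), sub_self, zero_mul]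
    · have hz' : z ∈ Ann := ⟨by linarith [not_lt.1 h], by linarith⟩
      exact (contDiffAt_const.sub hs.contDiffAt).mul (L.contDiff.contDiffAt.comp z (hW z hz').1)
  have c0 : ∀ z, nsq z < 4 → ContDiffAt ℝ ∞ x₀ z := cut Complex.reCLM
  have c1 : ∀ z, nsq z < 4 → ContDiffAt ℝ ∞ x₁ z := cut Complex.imCLM
  have hWn : ∀ z ∈ Ann, (W z).re ^ 2 + (W z).im ^ 2 ≠ 0 := by
    intro z hz h
    refine (hW z hz).2.1 (Complex.normSq_eq_zero.1 ?_)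
    rw [Complex.normSq_apply, ← h]
    ring
  have hx : ∀ z, nsq z < 4 → x₀ z ^ 2 + x₁ z ^ 2 + s z ^ 2 ≠ 0 := by
    intro z hz h
    have h2 : s z = 0 := by
      have : s z ^ 2 = 0 := by nlinarith [sq_nonneg (x₀ z), sq_nonneg (x₁ z), sq_nonneg (s z)]
      exact pow_eq_zero_iff (two_ne_zero) |>.1 this
    have h3 : 1 < nsq z := by
      by_contra hc
      rw [hs1 z (by linarith [not_lt.1 hc])] at h2
      exact one_ne_zero h2
    refine hWn z ⟨h3, by linarith⟩ ?_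
    simpa [x₀, x₁, h2] using h
  have hD : ∀ z, nsq z < 4 → z ∈ Dsk := fun z hz => show nsq z ≤ 9 by linarith
  have cQ : ∀ z, nsq z < 4 →
      ContDiffAt ℝ ∞ (fun z => frmQ (B z) (E z) (x₀ z) (x₁ z) (s z)) z := by
    intro z hz
    have a0 := c0 z hz
    have a1 := c1 z hz
    have a2 : ContDiffAt ℝ ∞ s z := hs.contDiffAt
    simp only [frmQ]
    refine (ContDiffAt.inv (((a0.pow 2).add (a1.pow 2)).add (a2.pow 2)) (hx z hz)).smul ?_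
    exact (((((a0.pow 2).add (a1.pow 2)).sub (a2.pow 2)).smul hB.contDiffAt).add
      (((contDiffAt_const.mul a1).mul a2).smul hE.contDiffAt)).add
      (((contDiffAt_const.mul a0).mul a2).smul (frm_cross hB.contDiffAt hE.contDiffAt))
  have cP : ∀ z, nsq z < 4 →
      ContDiffAt ℝ ∞ (fun z => frmP (A z) (B z) (E z) (x₀ z) (x₁ z) (s z)) z := by
    intro z hz
    have a0 := c0 z hz
    have a1 := c1 z hz
    have a2 : ContDiffAt ℝ ∞ s z := hs.contDiffAt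
    have p1 := (frm_pos (hB0 z (hD z hz))).ne'
    have p2 := (frm_pos (hE0 z (hD z hz))).ne'
    have bb := frm_dot (z := z) hB.contDiffAt hB.contDiffAt
    have ee := frm_dot (z := z) hE.contDiffAt hE.contDiffAt
    simp only [frmP]
    refine (((frm_dot hA.contDiffAt hB.contDiffAt).mul (bb.inv p1)).smul (cQ z hz)).add
      (((bb.mul ee).inv (mul_ne_zero p1 p2)).smul ?_)
    exact ((((contDiffAt_const.mul a1).mul a2).smul hB.contDiffAt).add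
      ((((a0.pow 2).sub (a1.pow 2)).add (a2.pow 2)).smul hE.contDiffAt)).add
      (((contDiffAt_const.mul a0).mul a1).smul (frm_cross hB.contDiffAt hE.contDiffAt))
  have eQ : ∀ z, 3 / 2 ≤ nsq z → nsq z < 4 → frmQ (B z) (E z) (x₀ z) (x₁ z) (s z) = B z := by
    intro z h1 h2
    have hz : z ∈ Ann := ⟨by linarith, by linarith⟩
    simp only [x₀, x₁, hs0 z h1, sub_zero, one_mul]
    exact frm_Q_eq _ _ (hWn z hz)
  have eP : ∀ z, 3 / 2 ≤ nsq z → nsq z < 4 →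
      frmP (A z) (B z) (E z) (x₀ z) (x₁ z) (s z) = A z := by
    intro z h1 h2
    have hz : z ∈ Ann := ⟨by linarith, by linarith⟩
    simp only [x₀, x₁, hs0 z h1, sub_zero, one_mul]
    have h3 := (hW z hz).2.2
    refine frm_P_eq _ (hEB z) (hB0 z (hD z h2)) (hE0 z (hD z h2)) (hWn z hz) ?_ ?_
    · have := congrArg Complex.re h3
      simp only [zeta, pow_two, Complex.mul_re, Complex.add_re, Complex.ofReal_re,
        Complex.ofReal_im, Complex.I_re, Complex.I_im] at this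
      linear_combination this
    · have := congrArg Complex.im h3
      simp only [zeta, pow_two, Complex.mul_im, Complex.add_im, Complex.ofReal_re,
        Complex.ofReal_im, Complex.I_re, Complex.I_im] at this
      linear_combination this
  refine ⟨fun z => if nsq z < 4 then frmP (A z) (B z) (E z) (x₀ z) (x₁ z) (s z) else A z,
    fun z => if nsq z < 4 then frmQ (B z) (E z) (x₀ z) (x₁ z) (s z) else B z,
    frm_glue hA cP eP, frm_glue hB cQ eQ, fun z hz => ?_, fun z hz => ?_⟩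
  · by_cases h : nsq z < 4
    · simp only [if_pos h]
      exact ⟨eP z hz h, eQ z hz h⟩
    · simp only [if_neg h, and_self]
  · by_cases h : nsq z < 4
    · simp only [if_pos h]
      exact frm_gram _ (hEB z) (hB0 z hz) (hE0 z hz) (hx z h)
    · simp only [if_neg h]
      exact hg z hz (by linarith [not_lt.1 h])

end Crest.Agent.R216
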