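import Crest.Agent.R216.ImLocDiv
import Crest.Agent.R216.ImLocFrame

/-! # R216 ImLoc: the formal immersion -/

set_option autoImplicit false
set_option linter.unusedSectionVars false

open scoped ContDiff Topology
open Matrix

noncomputable section

namespace Crest.Agent.R216

private theorem nd_pos {a : V3} (h : a ≠ 0) : 0 < a ⬝ᵥ a :=
  lt_of_le_of_ne (Finset.sum_nonneg fun _ _ => mul_self_nonneg _)
    fun h' => h (dotProduct_self_eq_zero.1 h'.symm)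

private theorem nd_dot {u v : ℝ × ℝ → V3} (hu : ContDiff ℝ ∞ u) (hv : ContDiff ℝ ∞ v) :
    ContDiff ℝ ∞ fun z => u z ⬝ᵥ v z :=
  ContDiff.sum fun i _ => ((contDiff_pi.1 hu) i).mul ((contDiff_pi.1 hv) i)

private theorem nd_cross {u v : ℝ × ℝ → V3} (hu : ContDiff ℝ ∞ u) (hv : ContDiff ℝ ∞ v) :
    ContDiff ℝ ∞ fun z => u z ⨯₃ v z := by
  have hui : ∀ i, ContDiff ℝ ∞ fun z => u z i := fun i => (contDiff_pi.1 hu) i
  have hvi : ∀ i, ContDiff ℝ ∞ fun z => v z i := fun i => (contDiff_pi.1 hv) i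
  refine contDiff_pi.2 fun i => ?_
  fin_cases i <;> simp only [cross_apply] <;> simp <;>
    exact ((hui _).mul (hvi _)).sub ((hui _).mul (hvi _))

private theorem nd_zeta_contDiff {A B E : ℝ × ℝ → V3} (hA : ContDiff ℝ ∞ A) (hB : ContDiff ℝ ∞ B)
    (hE : ContDiff ℝ ∞ E) : ContDiff ℝ ∞ (zeta A B E) :=
  (Complex.ofRealCLM.contDiff.comp ((nd_dot hA hE).mul (nd_dot hB hB))).add
    ((Complex.ofRealCLM.contDiff.comp (nd_dot hA (nd_cross hB hE))).mul contDiff_const)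

/-- derivative of `G ⬝ V` at a zero of `G` -/
private theorem nd_fderiv_dot {G V : ℝ × ℝ → V3} (hG : ContDiff ℝ ∞ G) (hV : ContDiff ℝ ∞ V)
    {σ : ℝ × ℝ} (h0 : G σ = 0) (w : ℝ × ℝ) :
    fderiv ℝ (fun z => G z ⬝ᵥ V z) σ w = fderiv ℝ G σ w ⬝ᵥ V σ := by
  have h1 := (hG.differentiable (by simp) σ).hasFDerivAt
  have h2 := (hV.differentiable (by simp) σ).hasFDerivAt
  have h := HasFDerivAt.fun_sum (u := Finset.univ) fun i _ =>
    ((hasFDerivAt_pi'.1 h1) i).mul ((hasFDerivAt_pi'.1 h2) i)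
  have e := h.fderiv
  refine (congrArg (fun L => L w) e).trans ?_
  simp [h0, dotProduct, mul_comm]

private theorem nd_symm {F : ℝ × ℝ → V3} (hF : ContDiff ℝ ∞ F) (z : ℝ × ℝ) :
    dy (dx F) z = dx (dy F) z := by
  have hd : DifferentiableAt ℝ (fderiv ℝ F) z :=
    (hF.fderiv_right (m := ∞) (by simp)).differentiable (by simp) z
  have hs := (hF.contDiffAt (x := z)).isSymmSndFDerivAt (by
    rw [minSmoothness_of_isRCLikeNormedField]; exact WithTop.coe_le_coe.2 le_top)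
  unfold dx dy
  rw [fderiv_clm_apply hd (differentiableAt_const _), fderiv_clm_apply hd (differentiableAt_const _)]
  simp [hs.eq]

theorem zeta_eq_zero_iff {A B E : ℝ × ℝ → V3} {z : ℝ × ℝ} (hEB : E z ⬝ᵥ B z = 0) (hB : B z ≠ 0)
    (hE : E z ≠ 0) : zeta A B E z = 0 ↔ gram2 (A z) (B z) = 0 := by
  have pB := nd_pos hB
  have pE := nd_pos hE
  have key : gram2 (A z) (B z) * (E z ⬝ᵥ E z) =
      (B z ⬝ᵥ B z) * (A z ⬝ᵥ E z) ^ 2 + (A z ⬝ᵥ (B z ⨯₃ E z)) ^ 2 := by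
    have h := hEB
    simp only [gram2, dotProduct, Fin.sum_univ_three, cross_apply, Matrix.cons_val_zero,
      Matrix.cons_val_one, Matrix.cons_val] at h ⊢
    linear_combination ((A z 0 * A z 0 + A z 1 * A z 1 + A z 2 * A z 2) *
      (E z 0 * B z 0 + E z 1 * B z 1 + E z 2 * B z 2) -
      2 * (A z 0 * B z 0 + A z 1 * B z 1 + A z 2 * B z 2) *
      (A z 0 * E z 0 + A z 1 * E z 1 + A z 2 * E z 2)) * h
  unfold zeta
  rw [Complex.ext_iff]
  simp only [Complex.add_re, Complex.ofReal_re, Complex.mul_re, Complex.I_re, mul_zero,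
    Complex.ofReal_im, Complex.I_im, mul_one, sub_self, add_zero, Complex.zero_re, Complex.add_im,
    Complex.mul_im, zero_add, Complex.zero_im]
  constructor
  · rintro ⟨h1, h2⟩
    have h3 : A z ⬝ᵥ E z = 0 := (mul_eq_zero.1 h1).resolve_right pB.ne'
    rw [h3, h2] at key
    exact (mul_eq_zero.1 (by linarith)).resolve_right pE.ne'
  · intro h
    rw [h, zero_mul] at key
    have h1 : 0 ≤ (B z ⬝ᵥ B z) * (A z ⬝ᵥ E z) ^ 2 := by positivity
    have h2 := sq_nonneg (A z ⬝ᵥ (B z ⨯₃ E z))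
    have h3 : (A z ⬝ᵥ E z) ^ 2 = 0 :=
      (mul_eq_zero.1 (by linarith : (B z ⬝ᵥ B z) * (A z ⬝ᵥ E z) ^ 2 = 0)).resolve_left pB.ne'
    exact ⟨by rw [pow_eq_zero_iff (by norm_num)] at h3; rw [h3, zero_mul],
      pow_eq_zero_iff (n := 2) (by norm_num) |>.1 (by linarith)⟩

/-- At a zero `A σ = c • B σ`, and `dζ w = ((dA w - c dB w) ⬝ E) |B|² + i (dA w - c dB w) ⬝ (B × E)`
(differentiate `E ⬝ B = 0`, `B ⬝ (B × E) = 0`). If `dζ` is not injective, some nonzero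
`l = l₁ E + l₂ B × E` annihilates `dA w - c dB w` for all `w`. -/
theorem zeta_fderiv_injective {A B E : ℝ × ℝ → V3} (hA : ContDiff ℝ ∞ A) (hB : ContDiff ℝ ∞ B)
    (hE : ContDiff ℝ ∞ E) (hEB : ∀ z, E z ⬝ᵥ B z = 0) {σ : ℝ × ℝ} (hB0 : B σ ≠ 0) (hE0 : E σ ≠ 0)
    {c : ℝ} (hc : A σ = c • B σ)
    (hnd : ∀ l : V3, l ⬝ᵥ B σ = 0 → l ⬝ᵥ (dx A σ - c • dx B σ) = 0 →
      l ⬝ᵥ (dy A σ - c • dy B σ) = 0 → l = 0) :
    Function.Injective (fderiv ℝ (zeta A B E) σ) := by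
  set G : ℝ × ℝ → V3 := fun z => A z - c • B z with hG
  set V₁ : ℝ × ℝ → V3 := fun z => (B z ⬝ᵥ B z) • E z with hV₁
  set V₂ : ℝ × ℝ → V3 := fun z => B z ⨯₃ E z with hV₂
  have hGs : ContDiff ℝ ∞ G := hA.sub (hB.const_smul c)
  have h1s : ContDiff ℝ ∞ V₁ := (nd_dot hB hB).smul hE
  have h2s : ContDiff ℝ ∞ V₂ := nd_cross hB hE
  have hG0 : G σ = 0 := by simp [hG, hc]
  have b1 : ∀ z, B z ⬝ᵥ V₁ z = 0 := fun z => by
    simp [hV₁, dotProduct_comm (B z) (E z), hEB]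
  have b2 : ∀ z, B z ⬝ᵥ V₂ z = 0 := fun z => dot_self_cross _ _
  have e : zeta A B E = fun z => ((G z ⬝ᵥ V₁ z : ℝ) : ℂ) + ((G z ⬝ᵥ V₂ z : ℝ) : ℂ) * Complex.I := by
    funext z
    simp only [zeta, hG, sub_dotProduct, smul_dotProduct, b1, b2, smul_zero, sub_zero]
    simp only [hV₁, hV₂, dotProduct_smul, smul_eq_mul, mul_comm]
  have d1 := ((nd_dot hGs h1s).differentiable (by simp) σ).hasFDerivAt
  have d2 := ((nd_dot hGs h2s).differentiable (by simp) σ).hasFDerivAt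
  have d := ((Complex.ofRealCLM.hasFDerivAt.comp σ d1).add
    ((Complex.ofRealCLM.hasFDerivAt.comp σ d2).mul_const Complex.I)).fderiv
  have dG : ∀ w, fderiv ℝ G σ w = fderiv ℝ A σ w - c • fderiv ℝ B σ w := fun w => by
    have := (((hA.differentiable (by simp) σ).hasFDerivAt).sub
      (((hB.differentiable (by simp) σ).hasFDerivAt).const_smul c)).fderiv
    exact congrArg (fun L => L w) this
  set X := dx A σ - c • dx B σ with hX
  set Y := dy A σ - c • dy B σ with hY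
  have dG' : ∀ w : ℝ × ℝ, fderiv ℝ G σ w = w.1 • X + w.2 • Y := fun w => by
    have : w = w.1 • ((1, 0) : ℝ × ℝ) + w.2 • ((0, 1) : ℝ × ℝ) := by simp
    rw [hX, hY]; unfold dx dy
    rw [← dG, ← dG, ← map_smul, ← map_smul, ← map_add, ← this]
  rw [injective_iff_map_eq_zero]
  intro w hw
  have hw' : ((fderiv ℝ (fun z => G z ⬝ᵥ V₁ z) σ w : ℝ) : ℂ) +
      ((fderiv ℝ (fun z => G z ⬝ᵥ V₂ z) σ w : ℝ) : ℂ) * Complex.I = 0 := by
    rw [e] at hw
    have := (congrArg (fun L => L w) d).symm.trans hw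
    simpa [mul_comm] using this
  rw [nd_fderiv_dot hGs h1s hG0, nd_fderiv_dot hGs h2s hG0, dG', Complex.ext_iff] at hw'
  simp only [Complex.add_re, Complex.ofReal_re, Complex.mul_re, Complex.I_re, mul_zero,
    Complex.ofReal_im, Complex.I_im, mul_one, sub_self, add_zero, Complex.zero_re, Complex.add_im,
    Complex.mul_im, zero_add, Complex.zero_im, add_dotProduct, smul_dotProduct, smul_eq_mul] at hw'
  obtain ⟨w1, w2⟩ := hw'
  have pB := nd_pos hB0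
  have pE := nd_pos hE0
  have n1 : V₁ σ ⬝ᵥ E σ = (B σ ⬝ᵥ B σ) * (E σ ⬝ᵥ E σ) := by simp [hV₁]
  have n2 : V₂ σ ⬝ᵥ E σ = 0 := by rw [dotProduct_comm]; exact dot_cross_self _ _
  have n3 : V₁ σ ⬝ᵥ V₂ σ = 0 := by simp [hV₁, dotProduct_comm (E σ) (V₂ σ), n2]
  have n4 : V₂ σ ⬝ᵥ V₂ σ = (B σ ⬝ᵥ B σ) * (E σ ⬝ᵥ E σ) := by
    simp only [hV₂]; rw [cross_dot_cross, hEB σ, mul_zero, sub_zero]
  have key : ∀ l₁ l₂ : ℝ, l₁ * (X ⬝ᵥ V₁ σ) + l₂ * (X ⬝ᵥ V₂ σ) = 0 →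
      l₁ * (Y ⬝ᵥ V₁ σ) + l₂ * (Y ⬝ᵥ V₂ σ) = 0 → l₁ = 0 ∧ l₂ = 0 := by
    intro l₁ l₂ a1 a2
    have := hnd (l₁ • V₁ σ + l₂ • V₂ σ)
      (by simp [add_dotProduct, dotProduct_comm (V₁ σ) (B σ), dotProduct_comm (V₂ σ) (B σ), b1, b2])
      (by simpa [add_dotProduct, dotProduct_comm (V₁ σ) X, dotProduct_comm (V₂ σ) X] using a1)
      (by simpa [add_dotProduct, dotProduct_comm (V₁ σ) Y, dotProduct_comm (V₂ σ) Y] using a2)
    have c1 := congrArg (fun v => v ⬝ᵥ E σ) this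
    have c2 := congrArg (fun v => v ⬝ᵥ V₂ σ) this
    simp only [add_dotProduct, smul_dotProduct, n1, n2, n3, n4, smul_eq_mul, mul_zero, add_zero,
      zero_add, zero_dotProduct] at c1 c2
    exact ⟨(mul_eq_zero.1 c1).resolve_right (by positivity),
      (mul_eq_zero.1 c2).resolve_right (by positivity)⟩
  by_contra hw0
  have hdet : (X ⬝ᵥ V₁ σ) * (Y ⬝ᵥ V₂ σ) - (Y ⬝ᵥ V₁ σ) * (X ⬝ᵥ V₂ σ) = 0 := by
    by_contra hd
    apply hw0
    have a1 : w.1 * ((X ⬝ᵥ V₁ σ) * (Y ⬝ᵥ V₂ σ) - (Y ⬝ᵥ V₁ σ) * (X ⬝ᵥ V₂ σ)) = 0 := by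
      linear_combination (Y ⬝ᵥ V₂ σ) * w1 - (Y ⬝ᵥ V₁ σ) * w2
    have a2 : w.2 * ((X ⬝ᵥ V₁ σ) * (Y ⬝ᵥ V₂ σ) - (Y ⬝ᵥ V₁ σ) * (X ⬝ᵥ V₂ σ)) = 0 := by
      linear_combination (X ⬝ᵥ V₁ σ) * w2 - (X ⬝ᵥ V₂ σ) * w1
    exact Prod.ext ((mul_eq_zero.1 a1).resolve_right hd) ((mul_eq_zero.1 a2).resolve_right hd)
  have k1 := key (X ⬝ᵥ V₂ σ) (-(X ⬝ᵥ V₁ σ)) (by ring) (by linear_combination -hdet)
  have k2 := key (Y ⬝ᵥ V₂ σ) (-(Y ⬝ᵥ V₁ σ)) (by linear_combination hdet) (by ring)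
  have k3 := key 1 0 (by linarith [k1.2]) (by linarith [k2.2])
  exact one_ne_zero k3.1

/-- Choose `t` with `B = dy F + t • dx F ≠ 0` on the disk (at each `σ ∈ T` at most one `t` is
bad), `A = dx F`; `gram2 A B = gram2 (dx F) (dy F)`; return `P`, `Q - t • P`. -/
theorem exists_formal (F : ℝ × ℝ → V3) (T : Finset (ℝ × ℝ)) (hF : ContDiff ℝ ∞ F)
    (hT : Even T.card) (h1 : ∀ z ∈ T, nsq z < 1)
    (hnd : ∀ z, nsq z ≤ 9 → NDJ (dx F z) (dy F z) (dx (dx F) z) (dx (dy F) z) (dy (dy F) z))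
    (h0 : ∀ z, nsq z ≤ 9 → (gram2 (dx F z) (dy F z) = 0 ↔ z ∈ T)) :
    ∃ P Q : ℝ × ℝ → V3, ContDiff ℝ ∞ P ∧ ContDiff ℝ ∞ Q ∧
      (∀ z, 3 / 2 ≤ nsq z → P z = dx F z ∧ Q z = dy F z) ∧ ∀ z ∈ Dsk, 0 < gram2 (P z) (Q z) := by
  have hx := dx_contDiff hF
  have hy := dy_contDiff hF
  have hfin : (⋃ σ ∈ (T : Set (ℝ × ℝ)), {t : ℝ | dy F σ + t • dx F σ = 0}).Finite := by
    refine T.finite_toSet.biUnion fun σ hσ => Set.Subsingleton.finite fun s hs t ht => ?_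
    have hs' : dy F σ + s • dx F σ = 0 := hs
    have ht' : dy F σ + t • dx F σ = 0 := ht
    by_contra hne
    have h2 : (s - t) • dx F σ = 0 := by rw [sub_smul]; linear_combination (exp := 1) hs' - ht'
    have h3 : dx F σ = 0 := (smul_eq_zero.1 h2).resolve_left (sub_ne_zero.2 hne)
    rw [h3, smul_zero, add_zero] at hs'
    rcases (hnd σ (by linarith [h1 σ hσ])).1 with h | h
    exacts [h h3, h hs']
  obtain ⟨t, ht⟩ := hfin.infinite_compl.nonempty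
  simp only [Set.mem_compl_iff, Set.mem_iUnion, not_exists, Set.mem_ofPred_eq, Finset.mem_coe] at ht
  set B : ℝ × ℝ → V3 := fun z => dy F z + t • dx F z with hB
  have hBs : ContDiff ℝ ∞ B := hy.add (hx.const_smul t)
  have gsh : ∀ a b : V3, ∀ s : ℝ, gram2 a (b + s • a) = gram2 a b := fun a b s => by
    simp only [gram2, dotProduct, Fin.sum_univ_three, Pi.add_apply, Pi.smul_apply, smul_eq_mul]
    ring
  have hpos : ∀ z ∈ Dsk, z ∉ T → 0 < gram2 (dx F z) (dy F z) := fun z hz hzT =>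
    lt_of_le_of_ne (gram2_nonneg _ _) fun h => hzT ((h0 z hz).1 h.symm)
  have hB0 : ∀ z ∈ Dsk, B z ≠ 0 := by
    intro z hz h
    by_cases hzT : z ∈ T
    · exact ht z hzT h
    · have := (gram2_pos_iff _ _).1 (hpos z hz hzT) t 1 (by rw [one_smul, add_comm]; exact h)
      exact one_ne_zero this.2
  obtain ⟨E, hE, hEB, hE0⟩ := exists_normal B hBs hB0
  have hTD : ∀ σ ∈ T, σ ∈ Dsk := fun σ hσ => show nsq σ ≤ 9 by linarith [h1 σ hσ]
  obtain ⟨W, hW⟩ := exists_smooth_sqrt T hT (zeta (dx F) B E) (nd_zeta_contDiff hx hBs hE) h1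
    (fun z hz => by
      rw [zeta_eq_zero_iff (hEB z) (hB0 z hz) (hE0 z hz), gsh]; exact h0 z hz)
    (fun σ hσ => by
      have hD := hTD σ hσ
      have hz : ¬ 0 < gram2 (dx F σ) (B σ) := by rw [gsh, (h0 σ hD).2 hσ]; exact lt_irrefl _
      rw [gram2_pos_iff] at hz
      push Not at hz
      obtain ⟨s, s', hss, hne⟩ := hz
      have hs0 : s ≠ 0 := by
        intro h
        rw [h, zero_smul, zero_add] at hss
        exact hne h ((smul_eq_zero.1 hss).resolve_right (hB0 σ hD))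
      have hc : dx F σ = (-s' / s) • B σ := by
        have : s • dx F σ = s • ((-s' / s) • B σ) := by
          rw [smul_smul, mul_div_cancel₀ _ hs0, neg_smul]; exact eq_neg_of_add_eq_zero_left hss
        exact smul_right_injective _ hs0 this
      set c := -s' / s with hcdef
      refine zeta_fderiv_injective hx hBs hE hEB (hB0 σ hD) (hE0 σ hD) hc fun l l1 l2 l3 => ?_
      have dB : ∀ w, fderiv ℝ B σ w = fderiv ℝ (dy F) σ w + t • fderiv ℝ (dx F) σ w := fun w => by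
        have := (((hy.differentiable (by simp) σ).hasFDerivAt).add
          (((hx.differentiable (by simp) σ).hasFDerivAt).const_smul t)).fderiv
        exact congrArg (fun L => L w) this
      have dBx : dx B σ = dx (dy F) σ + t • dx (dx F) σ := dB _
      have dBy : dy B σ = dy (dy F) σ + t • dy (dx F) σ := dB _
      have lx : l ⬝ᵥ dx F σ = 0 := by rw [hc, dotProduct_smul, l1, smul_zero]
      have ly : l ⬝ᵥ dy F σ = 0 := by
        simpa [hB, dotProduct_add, dotProduct_smul, lx] using l1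
      refine (hnd σ hD).2 (1 - c * t) (-c) ?_ ?_ l lx ly ?_ ?_
      · by_cases h : c = 0
        · left; rw [h]; norm_num
        · right; exact neg_ne_zero.2 h
      · have h2 : dx F σ = c • (dy F σ + t • dx F σ) := hc
        rw [sub_smul, one_smul, mul_smul, neg_smul]
        rw [smul_add] at h2
        linear_combination (exp := 1) h2
      · rw [← l2, dBx]; congr 1; module
      · rw [← l3, dBy, nd_symm hF]; congr 1; module)
  obtain ⟨P, Q, hP, hQ, hout, hg⟩ := formal_of_sqrt (dx F) B E hx hBs hE hEB hB0 hE0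
    (fun z hz h => by
      rw [gsh]; exact hpos z hz fun hzT => by linarith [h1 z hzT]) W hW
  refine ⟨P, fun z => Q z + (-t) • P z, hP, hQ.add (hP.const_smul _), fun z hz => ?_,
    fun z hz => by rw [gsh]; exact hg z hz⟩
  refine ⟨(hout z hz).1, ?_⟩
  show Q z + (-t) • P z = dy F z
  rw [(hout z hz).1, (hout z hz).2]
  simp [hB]

end Crest.Agent.R216
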