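import Crest.Agent.R216.ImLocDefs

/-! # R216 ImLoc: continuous square roots -/

set_option autoImplicit false
set_option linter.unusedSectionVars false

open scoped ContDiff Topology
open Matrix

noncomputable section

namespace Crest.Agent.R216

theorem HasSqrt.mul {f g : ℝ × ℝ → ℂ} {U : Set (ℝ × ℝ)} (hf : HasSqrt f U) (hg : HasSqrt g U) :
    HasSqrt (fun z => f z * g z) U := by
  obtain ⟨a, ha, ha'⟩ := hf
  obtain ⟨b, hb, hb'⟩ := hg
  exact ⟨fun z => a z * b z, ha.mul hb, fun z hz => by rw [mul_pow, ha' z hz, hb' z hz]⟩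

theorem HasSqrt.congr {f g : ℝ × ℝ → ℂ} {U : Set (ℝ × ℝ)} (hf : HasSqrt f U)
    (h : ∀ z ∈ U, f z = g z) : HasSqrt g U := by
  obtain ⟨a, ha, ha'⟩ := hf
  exact ⟨a, ha, fun z hz => (ha' z hz).trans (h z hz)⟩

theorem HasSqrt.mono {f : ℝ × ℝ → ℂ} {U V : Set (ℝ × ℝ)} (hf : HasSqrt f U) (h : V ⊆ U) :
    HasSqrt f V := by
  obtain ⟨a, ha, ha'⟩ := hf
  exact ⟨a, ha.mono h, fun z hz => ha' z (h hz)⟩

theorem hasSqrt_const (c : ℂ) (U : Set (ℝ × ℝ)) : HasSqrt (fun _ => c) U := by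
  exact ⟨fun _ => c ^ (2⁻¹ : ℂ), continuousOn_const, fun _ _ => Complex.cpow_ofNat_inv_pow c 2⟩

/-- principal root `f ^ (1/2)` -/
theorem hasSqrt_of_re_pos {f : ℝ × ℝ → ℂ} {U : Set (ℝ × ℝ)} (hf : ContinuousOn f U)
    (h : ∀ z ∈ U, 0 < (f z).re) : HasSqrt f U := by
  exact ⟨fun z => f z ^ (2⁻¹ : ℂ), hf.cpow_const fun z hz => Or.inl (h z hz),
    fun z _ => Complex.cpow_ofNat_inv_pow _ 2⟩

/-- `f z = f 0 ∏_{k<n} f ((k+1)/n • z) / f (k/n • z)`, each quotient has positive real part by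
uniform continuity and `inf |f| > 0` on the compact disk. -/
theorem hasSqrt_Dsk {f : ℝ × ℝ → ℂ} (hf : ContinuousOn f Dsk) (h : ∀ z ∈ Dsk, f z ≠ 0) :
    HasSqrt f Dsk := by
  have h9 : ∀ z, (0 : ℝ) < max 9 (nsq z) := fun z => lt_max_of_lt_left (by norm_num)
  have hr : Continuous fun z : ℝ × ℝ => (9 / max 9 (nsq z)) • z :=
    (continuous_const.div (continuous_const.max nsq_contDiff.continuous) fun z => (h9 z).ne').smul
      continuous_id
  have hm : ∀ z : ℝ × ℝ, (9 / max 9 (nsq z)) • z ∈ Dsk := fun z => by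
    show nsq _ ≤ 9
    rw [nsq_smul, div_pow, div_mul_eq_mul_div, div_le_iff₀ (pow_pos (h9 z) 2)]
    nlinarith [le_max_left 9 (nsq z), le_max_right 9 (nsq z)]
  have hc : ContractibleSpace (Set.univ : Set (ℝ × ℝ)) := convex_univ.contractibleSpace Set.univ_nonempty
  obtain ⟨g, hg, hg'⟩ := Complex.exists_continuousOn_pow_eq (U := (Set.univ : Set (ℝ × ℝ)))
    (SimplyConnectedSpace.ofContractible _) isOpen_univ (hf.comp_continuous hr hm).continuousOn
    (fun ⟨z, _, hz⟩ => h _ (hm z) hz) two_ne_zero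
  refine ⟨g, hg.mono (Set.subset_univ _), fun z hz => ?_⟩
  rw [hg', Function.comp_apply, max_eq_left hz, div_self (by norm_num), one_smul]

/-- near `z`: `g = g z * (f / f z) ^ (1/2)` (`Complex.sq_cpow_two_inv`) -/
theorem contDiffAt_of_sq {f g : ℝ × ℝ → ℂ} {z : ℝ × ℝ} (hg : ContinuousAt g z) (h0 : g z ≠ 0)
    (hf : ContDiffAt ℝ ∞ f z) (h : ∀ᶠ w in 𝓝 z, g w ^ 2 = f w) : ContDiffAt ℝ ∞ g z := by
  have hz : g z ^ 2 = f z := h.self_of_nhds
  have hf0 : f z ≠ 0 := hz ▸ pow_ne_zero 2 h0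
  have h1 : ContDiffAt ℝ ∞ (fun w => g z * Complex.exp (Complex.log (f w / f z) * 2⁻¹)) z := by
    refine contDiffAt_const.mul (ContDiffAt.cexp (ContDiffAt.mul ?_ contDiffAt_const))
    exact ((Complex.contDiffAt_log (by rw [div_self hf0]; exact Complex.one_mem_slitPlane)).restrict_scalars
      ℝ).comp z (hf.div_const _)
  have h2 : ∀ᶠ w in 𝓝 z, 0 < (g w / g z).re :=
    (Complex.continuous_re.continuousAt.comp (hg.div_const _)).eventually
      (lt_mem_nhds (by simp [h0]))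
  refine h1.congr_of_eventuallyEq ?_
  filter_upwards [h, h2] with w hw hw'
  have h3 : g w / g z ≠ 0 := fun e => by simp [e] at hw'
  rw [← hw, ← hz, ← div_pow, ← Complex.cpow_def_of_ne_zero (pow_ne_zero 2 h3),
    Complex.sq_cpow_two_inv hw', mul_div_cancel₀ _ h0]

end Crest.Agent.R216
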