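import Crest.Agent.R216.ImMoveB

/-!
# R216: moving umbrellas; assembly of the immersion

PLAN (SUB-LEAD or one strong seat; new files `R216/ImMove*.lean`).

LOCAL PUSH: every `a₀ ∈ M` has arbitrarily small open neighbourhoods `N ⊆ N'` such that for
`a, a' ∈ N` there is a smooth injective `φ : M → M`, equal to the identity off a compact subset of `N'`, with `φ a' = a`, which in
the chart `Psi i 0` is `z ↦ z + ρ z • v` with `ρ` a fixed bump and `v` so small that `ρ • v` is
`1/2`-Lipschitz (so `φ` is injective with invertible derivative). It is enough to construct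
`F' = F ∘ φ` through the chart: `F' = F + ρ₀ • ((G ∘ φ̂ - G) ∘ Psi)` with `G` the descent of `F`.
`NDJ` is invariant under such a change of variables (chain rule of order two; the term
`dF(φ'')` is killed by `l`) and under change of charts (`D_chart`, `DD_chart`), so it suffices to have
it in one chart at each point; `Sing F' = φ⁻¹ (Sing F)`.
CLOPEN ARGUMENT: fix `b ∈ Sing F ∩ S`, `Σ' = Sing F \ {b}`, `R = {a ∉ Σ' | ∃ F', Umb F' ∧ Sing F' = insert a Σ'}`.
By the local push `R` and `Σ'ᶜ \ R` are open. Each `a₀` has a chart ball `N` with `N \ {a₀}` preconnected and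
disjoint from `Σ'`, so `N \ {a₀} ⊆ R` or is disjoint from `R`. Hence `R' = {a | ∀ᶠ a' in 𝓝[≠] a, a' ∈ R}` is
clopen, contains `b`, so contains `S`; thus `R` meets `W \ Σ'`. Induct on the number of points of
`Sing F ∩ S` outside `W`.
-/

set_option autoImplicit false
set_option linter.unusedSectionVars false

open scoped Manifold ContDiff Topology
open Matrix

noncomputable section

namespace Crest.Agent.R216

variable {M : Type*} [TopologicalSpace M] [T2Space M] [CompactSpace M] [ChartedSpace E2 M]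
  [IsManifold (𝓡 2) ∞ M]

theorem imMoveStmt (A : Atl M) : A.ImMoveStmt := by
  intro F S W hF hfin hS hSc hW hne hWS
  induction hn : ((A.Sing F ∩ S) \ W).ncard using Nat.strong_induction_on generalizing F with
  | _ n ih =>
  by_cases h0 : A.Sing F ∩ S ⊆ W
  · exact ⟨F, hF, hfin, rfl, h0, rfl⟩
  obtain ⟨b, ⟨hbF, hbS⟩, hbW⟩ := Set.not_subset.1 h0
  set Z := A.Sing F \ {b} with hZ
  have hZf : Z.Finite := hfin.subset Set.sdiff_subset
  have hins : A.Sing F = insert b Z := by
    rw [hZ, Set.insert_sdiff_singleton, Set.insert_eq_of_mem hbF]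
  obtain ⟨a, haW, haZ, F₁, hF₁, hS₁⟩ := reach_of_local (Z := Z)
    (R := {a | a ∉ Z ∧ ∃ F', A.Umb F' ∧ A.Sing F' = insert a Z}) (S := S) (W := W) hZf
    (fun a₀ ha₀ => by
      obtain ⟨N, hN, h⟩ := A.local_push hZf.isClosed ha₀
      exact ⟨N, hN, fun a ha a' ha' hR => ⟨(h a ha a' ha').1, (h a ha a' ha').2 hR.2⟩⟩)
    hSc hbS ⟨by simp [hZ], F, hF, hins⟩ (by simp [hZ]) hW hne hWS
  have haS : a ∈ S := hWS haW
  have hlt : ((A.Sing F₁ ∩ S) \ W).ncard < n := by
    rw [← hn]
    refine Set.ncard_lt_ncard ⟨?_, fun h => ?_⟩ (hfin.subset fun x hx => hx.1.1)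
    · rintro x ⟨⟨hx1, hx2⟩, hx3⟩
      rw [hS₁] at hx1
      rcases hx1 with rfl | hx1
      · exact (hx3 haW).elim
      · exact ⟨⟨hx1.1, hx2⟩, hx3⟩
    · have hb : b ∈ A.Sing F₁ := (h ⟨⟨hbF, hbS⟩, hbW⟩).1.1
      rw [hS₁] at hb
      rcases hb with rfl | hb
      · exact hbW haW
      · exact hb.2 rfl
  obtain ⟨F', h1, h2, h3, h4, h5⟩ := ih _ hlt F₁ hF₁ (hS₁ ▸ hZf.insert a) rfl
  refine ⟨F', h1, h2, h3.trans ?_, h4, h5.trans ?_⟩
  · rw [hS₁, hins, Set.insert_sdiff_of_mem _ haS, Set.insert_sdiff_of_mem _ hbS]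
  · rw [hS₁, hins, Set.insert_inter_of_mem haS, Set.insert_inter_of_mem hbS,
      Set.ncard_insert_of_notMem (fun h => haZ h.1) (hZf.subset Set.inter_subset_left),
      Set.ncard_insert_of_notMem (fun h => h.1.2 rfl) (hZf.subset Set.inter_subset_left)]

theorem nsq_smul_mv (r : ℝ) (z : ℝ × ℝ) : nsq (r • z) = r ^ 2 * nsq z := by
  simp only [nsq, Prod.smul_fst, Prod.smul_snd, smul_eq_mul]
  ring

theorem norm_le_of_nsq {z : ℝ × ℝ} (h : nsq z ≤ 9) : ‖z‖ ≤ 3 := by
  unfold nsq at h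
  rw [Prod.norm_def, max_le_iff, Real.norm_eq_abs, Real.norm_eq_abs]
  constructor
  · exact abs_le_of_sq_le_sq (by nlinarith [sq_nonneg z.2]) (by norm_num)
  · exact abs_le_of_sq_le_sq (by nlinarith [sq_nonneg z.1]) (by norm_num)

theorem continuous_nsq : Continuous nsq := by
  unfold nsq; fun_prop

/-- All umbrellas of one connected component are removed. -/
theorem kill_component (A : Atl M) (hM : A.ImMoveStmt) (hL : ImLocStmt) {F : M → V3}
    (hF : A.Umb F) (hfin : (A.Sing F).Finite) {S : Set M} (hS : IsClopen S)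
    (hSc : IsPreconnected S) {p₀ : M} (h0 : p₀ ∈ S) (hev : Even (A.Sing F ∩ S).ncard) :
    ∃ F'', A.Umb F'' ∧ A.Sing F'' = A.Sing F \ S := by
  classical
  obtain ⟨i, -, -, hi⟩ := A.exists_K p₀
  obtain ⟨W₀, hWo, hW0, hWO, hmod⟩ := A.exists_modify i hi
  have him : IsOpen (A.Psi i 0 '' (W₀ ∩ S)) :=
    A.Psi_isOpen i 0 (hWo.inter hS.isOpen) (Set.inter_subset_left.trans hWO)
  set z₀ := A.Psi i 0 p₀ with hz₀
  obtain ⟨ε, hε, hball⟩ := Metric.nhds_basis_closedBall.mem_iff.1
    (him.mem_nhds (Set.mem_image_of_mem _ (show p₀ ∈ W₀ ∩ S from ⟨hW0, h0⟩)))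
  set r := ε / 3 with hr
  have hr0 : 0 < r := by positivity
  set τ : ℝ × ℝ → ℝ × ℝ := fun w => z₀ + r • w with hτ
  set σ : ℝ × ℝ → ℝ × ℝ := fun w => -(r⁻¹ • z₀) + r⁻¹ • w with hσ
  have hτσ : ∀ w, τ (σ w) = w := fun w => by
    simp only [hτ, hσ, smul_add, smul_neg, smul_smul, mul_inv_cancel₀ hr0.ne', one_smul]
    abel
  have hστ : ∀ w, σ (τ w) = w := fun w => by
    simp only [hτ, hσ, smul_add, smul_smul, inv_mul_cancel₀ hr0.ne', one_smul]
    abel
  have hτs : ContDiff ℝ ∞ τ := contDiff_const.add (contDiff_id.const_smul r)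
  have hσs : ContDiff ℝ ∞ σ := contDiff_const.add (contDiff_id.const_smul r⁻¹)
  have hτj : ∀ w, jac τ w ≠ 0 := fun w => by
    rw [hτ, jac_homothety]; positivity
  have hσj : ∀ w, jac σ w ≠ 0 := fun w => by
    rw [hσ, jac_homothety]; positivity
  have hσi : Function.Injective σ := Function.LeftInverse.injective hτσ
  have hτim : ∀ w, nsq w ≤ 9 → τ w ∈ A.Psi i 0 '' (W₀ ∩ S) := fun w hw => hball (by
    rw [Metric.mem_closedBall, dist_eq_norm, ← hz₀]
    simp only [hτ, add_sub_cancel_left, norm_smul, Real.norm_eq_abs, abs_of_pos hr0]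
    have := norm_le_of_nsq hw
    calc r * ‖w‖ ≤ r * 3 := by gcongr
      _ = ε := by rw [hr]; ring)
  set W : Set M := (W₀ ∩ S) ∩ {p | nsq (σ (A.Psi i 0 p)) < 1} with hW
  have hWopen : IsOpen W := (hWo.inter hS.isOpen).inter (isOpen_lt
    (continuous_nsq.comp (hσs.continuous.comp (A.Psi_sm i 0).continuous)) continuous_const)
  have hWne : W.Nonempty := ⟨p₀, ⟨hW0, h0⟩, by
    show nsq (σ z₀) < 1
    simp [hσ, nsq]⟩
  obtain ⟨F', hF', hfin', hout', hin', hcard⟩ :=
    hM F S W hF hfin hS hSc hWopen hWne fun x hx => hx.1.2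
  obtain ⟨G, hG, hND, hsing, hglue⟩ := hmod F' hF'
  have hfin2 : (A.Sing F' ∩ S).Finite := hfin'.subset Set.inter_subset_left
  set T : Finset (ℝ × ℝ) := hfin2.toFinset.image fun p => σ (A.Psi i 0 p) with hT
  have hTmem : ∀ w, w ∈ T ↔ ∃ p ∈ A.Sing F' ∩ S, σ (A.Psi i 0 p) = w := fun w => by
    simp only [hT, Finset.mem_image, Set.Finite.mem_toFinset]
  have hTcard : T.card = (A.Sing F ∩ S).ncard := by
    rw [hT, Finset.card_image_of_injOn, ← hcard, Set.ncard_eq_toFinset_card _ hfin2]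
    intro p hp q hq e
    rw [Set.Finite.coe_toFinset] at hp hq
    exact A.Psi_injOn i 0 (hWO (hin' hp).1.1) (hWO (hin' hq).1.1) (hσi e)
  obtain ⟨H', hH', hHout, hHpos⟩ := hL (fun w => G (τ w)) T (hG.comp hτs) (hTcard ▸ hev)
    (fun w hw => by
      obtain ⟨p, hp, rfl⟩ := (hTmem w).1 hw
      exact (hin' hp).2)
    (fun w hw => by
      obtain ⟨q, hq, e⟩ := hτim w hw
      exact NDP.comp hG hτs (hτj w) (e ▸ hND q hq.1))
    (fun w hw => by
      obtain ⟨q, hq, e⟩ := hτim w hw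
      show gp (fun w => G (τ w)) w = 0 ↔ _
      rw [gp_comp hG hτs, mul_eq_zero, or_iff_right (pow_ne_zero 2 (hτj _)), ← e,
        ← hsing q hq.1, hTmem]
      constructor
      · intro h
        exact ⟨q, ⟨h, hq.2⟩, by rw [e, hστ]⟩
      · rintro ⟨p, hp, e'⟩
        have : A.Psi i 0 p = A.Psi i 0 q := by rw [e, ← e', hτσ]
        rw [← A.Psi_injOn i 0 (hWO (hin' hp).1.1) (hWO hq.1) this]
        exact hp.1)
  set C : Set (ℝ × ℝ) := {z | nsq (σ z) ≤ 4} with hC
  have hCim : C ⊆ A.Psi i 0 '' (W₀ ∩ S) := fun z hz => by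
    have := hτim (σ z) (le_trans hz (by norm_num))
    rwa [hτσ] at this
  have hpos : ∀ z ∈ C, 0 < gp (fun z => H' (σ z)) z := fun z hz => by
    rw [gp_comp hH' hσs]
    exact mul_pos (sq_pos_of_ne_zero (hσj z)) (hHpos _ (le_trans hz (by norm_num)))
  obtain ⟨F'', hF'', hin, hout⟩ := hglue (fun z => H' (σ z)) C (hH'.comp hσs)
    (isClosed_le (continuous_nsq.comp hσs.continuous) continuous_const)
    (hCim.trans (Set.image_mono Set.inter_subset_left))
    (fun z hz => by
      have hz' : 4 ≤ nsq (σ z) := (not_le.1 hz).le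
      show H' (σ z) = G z
      rw [hHout _ hz', hτσ])
    (fun z hz => NDJ.of_gram2 (hpos z hz) _ _ _)
  refine ⟨F'', hF'', ?_⟩
  rw [← hout']
  ext p
  by_cases hc : p ∈ W₀ ∧ A.Psi i 0 p ∈ C
  · obtain ⟨q, hq, e⟩ := hCim hc.2
    have hqp : q = p := A.Psi_injOn i 0 (hWO hq.1) (hWO hc.1) e
    subst hqp
    rw [hin _ hc.1 hc.2]
    exact iff_of_false (hpos _ hc.2).ne' fun h => h.2 hq.2
  · rw [hout p hc]
    refine ⟨fun h => ⟨h, fun hpS => hc ?_⟩, fun h => h.1⟩
    have hpW := hin' ⟨h, hpS⟩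
    refine ⟨hpW.1.1, ?_⟩
    have : nsq (σ (A.Psi i 0 p)) < 1 := hpW.2
    show nsq (σ (A.Psi i 0 p)) ≤ 4
    linarith

/-- Induction on `(Sing F).ncard` for maps with `Umb F`, finite `Sing F`, even on all clopen sets.
If `p₀ ∈ Sing F`, let `S = connectedComponent p₀` (clopen: `M` is locally connected,
`ChartedSpace.locallyConnectedSpace`), `p₀ ∈ O i`, choose `r > 0` with the closed disk of radius `3r` around
`Psi i 0 p₀` inside `Psi i 0 '' (O i ∩ S)`, `W` = preimage in `O i` of the open disk of radius `r`. Move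
(`hM`), descend (`exists_down` with the preimage of the closed disk), rescale `z ↦ z₀ + r z`, apply `hL`, and
put `F'' = F' + ρ • ((G' - G) ∘ Psi)`. Then `Sing F'' = Sing F \ S`, `Umb F''`, and for clopen `S'`,
`Sing F'' ∩ S' = Sing F ∩ (S' \ S)`. When `Sing F = ∅` use `D_chart` to get the claim in every chart. -/
theorem imm3_of (A : Atl M) (hG : A.ImGenStmt) (hM : A.ImMoveStmt) (hL : ImLocStmt) :
    A.Imm3Stmt := by
  obtain ⟨F, hF, hfin, hev⟩ := hG
  induction hn : (A.Sing F).ncard using Nat.strong_induction_on generalizing F with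
  | _ n ih =>
  rcases (A.Sing F).eq_empty_or_nonempty with h0 | ⟨p₀, hp₀⟩
  · refine ⟨F, hF.1, fun i p hp => lt_of_le_of_ne (gram2_nonneg _ _) fun h => ?_⟩
    have : p ∈ A.Sing F := (A.mem_sing_iff_mv hF.1 hp).2 h.symm
    rw [h0] at this
    exact this
  · have : LocallyConnectedSpace M := ChartedSpace.locallyConnectedSpace E2 M
    have hS : IsClopen (connectedComponent p₀) := isClopen_connectedComponent
    obtain ⟨F'', hF'', hS''⟩ := kill_component A hM hL hF hfin hS isPreconnected_connectedComponent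
      mem_connectedComponent (hev _ hS)
    refine ih (A.Sing F'').ncard ?_ F'' hF'' (hS'' ▸ hfin.subset Set.sdiff_subset) (fun S' hS' => ?_) rfl
    · rw [← hn, hS'']
      exact Set.ncard_lt_ncard ⟨Set.sdiff_subset, fun h => (h hp₀).2 mem_connectedComponent⟩ hfin
    · have := hev _ (hS'.diff hS)
      convert this using 2
      rw [hS'']
      ext x
      simp only [Set.mem_inter_iff, Set.mem_sdiff]
      tauto

end Crest.Agent.R216
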