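import Crest.Agent.R216.ImDefs

/-!
# R216: planar lemmas for moving umbrellas

Invariance of `NDJ` and `gram2` under a change of variables, the planar push, and a topological lemma.
-/

set_option autoImplicit false
set_option linter.unusedSectionVars false

open scoped Manifold ContDiff Topology
open Matrix

noncomputable section

namespace Crest.Agent.R216

/-! ### Algebra -/

theorem gram2_change (F₁ F₂ : V3) (a b c d : ℝ) :
    gram2 (a • F₁ + b • F₂) (c • F₁ + d • F₂) = (a * d - b * c) ^ 2 * gram2 F₁ F₂ := by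
  simp only [gram2, dotProduct, Fin.sum_univ_three, Pi.add_apply, Pi.smul_apply, smul_eq_mul]
  ring

theorem NDJ.change {F₁ F₂ F₁₁ F₁₂ F₂₂ : V3} (h : NDJ F₁ F₂ F₁₁ F₁₂ F₂₂) {a b c d : ℝ}
    (hdet : a * d - b * c ≠ 0) (s₁ s₂ t₁ t₂ u₁ u₂ : ℝ) {G₁ G₂ G₁₁ G₁₂ G₂₂ : V3}
    (h1 : G₁ = a • F₁ + b • F₂) (h2 : G₂ = c • F₁ + d • F₂)
    (h11 : G₁₁ = (a * a) • F₁₁ + (2 * a * b) • F₁₂ + (b * b) • F₂₂ + s₁ • F₁ + s₂ • F₂)
    (h12 : G₁₂ = (a * c) • F₁₁ + (a * d + b * c) • F₁₂ + (b * d) • F₂₂ + t₁ • F₁ + t₂ • F₂)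
    (h22 : G₂₂ = (c * c) • F₁₁ + (2 * c * d) • F₁₂ + (d * d) • F₂₂ + u₁ • F₁ + u₂ • F₂) :
    NDJ G₁ G₂ G₁₁ G₁₂ G₂₂ := by
  subst h1 h2 h11 h12 h22
  have key : ∀ x y : ℝ, a * x + b * y = 0 → c * x + d * y = 0 → x = 0 ∧ y = 0 := by
    intro x y e1 e2
    constructor
    · have : (a * d - b * c) * x = 0 := by linear_combination d * e1 - b * e2
      exact (mul_eq_zero.1 this).resolve_left hdet
    · have : (a * d - b * c) * y = 0 := by linear_combination a * e2 - c * e1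
      exact (mul_eq_zero.1 this).resolve_left hdet
  refine ⟨?_, ?_⟩
  · by_contra hc
    push Not at hc
    obtain ⟨e1, e2⟩ := hc
    have hz : ∀ k, F₁ k = 0 ∧ F₂ k = 0 := fun k =>
      key _ _ (by simpa using congrFun e1 k) (by simpa using congrFun e2 k)
    rcases h.1 with h' | h'
    · exact h' (funext fun k => (hz k).1)
    · exact h' (funext fun k => (hz k).2)
  · intro v₁ v₂ hv hker l l1 l2 l3 l4
    simp only [dotProduct_add, dotProduct_smul, smul_eq_mul] at l1 l2 l3 l4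
    obtain ⟨m1, m2⟩ := key _ _ l1 l2
    rw [m1, m2] at l3 l4
    have hw : v₁ * a + v₂ * c ≠ 0 ∨ v₁ * b + v₂ * d ≠ 0 := by
      by_contra hc
      push Not at hc
      have e1 : (a * d - b * c) * v₁ = 0 := by linear_combination d * hc.1 - c * hc.2
      have e2 : (a * d - b * c) * v₂ = 0 := by linear_combination a * hc.2 - b * hc.1
      rcases hv with hv | hv
      · exact hv ((mul_eq_zero.1 e1).resolve_left hdet)
      · exact hv ((mul_eq_zero.1 e2).resolve_left hdet)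
    have hk : (v₁ * a + v₂ * c) • F₁ + (v₁ * b + v₂ * d) • F₂ = 0 := by
      rw [← hker]; module
    obtain ⟨n1, n2⟩ := key
      ((v₁ * a + v₂ * c) * (l ⬝ᵥ F₁₁) + (v₁ * b + v₂ * d) * (l ⬝ᵥ F₁₂))
      ((v₁ * a + v₂ * c) * (l ⬝ᵥ F₁₂) + (v₁ * b + v₂ * d) * (l ⬝ᵥ F₂₂))
      (by linear_combination l3) (by linear_combination l4)
    refine h.2 _ _ hw hk l m1 m2 ?_ ?_
    · simpa only [dotProduct_add, dotProduct_smul, smul_eq_mul] using n1
    · simpa only [dotProduct_add, dotProduct_smul, smul_eq_mul] using n2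

theorem NDJ.of_gram2 {F₁ F₂ : V3} (h : 0 < gram2 F₁ F₂) (F₁₁ F₁₂ F₂₂ : V3) :
    NDJ F₁ F₂ F₁₁ F₁₂ F₂₂ := by
  rw [gram2_pos_iff] at h
  refine ⟨Or.inl fun h0 => ?_, fun v₁ v₂ hv hk => ?_⟩
  · have := (h 1 0 (by simp [h0])).1
    exact one_ne_zero this
  · obtain ⟨e1, e2⟩ := h _ _ hk
    rcases hv with hv | hv
    · exact (hv e1).elim
    · exact (hv e2).elim

/-! ### Planar calculus -/

section Planar

variable {E : Type} [NormedAddCommGroup E] [NormedSpace ℝ E]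

/-- Planar nondegeneracy. -/
def NDP (G : ℝ × ℝ → V3) (z : ℝ × ℝ) : Prop :=
  NDJ (dx G z) (dy G z) (dx (dx G) z) (dx (dy G) z) (dy (dy G) z)

/-- Planar Gram determinant. -/
def gp (G : ℝ × ℝ → V3) (z : ℝ × ℝ) : ℝ := gram2 (dx G z) (dy G z)

theorem mv_contDiff_dv {v : ℝ × ℝ → E} (hv : ContDiff ℝ ∞ v) (e : ℝ × ℝ) :
    ContDiff ℝ ∞ (fun z => fderiv ℝ v z e) :=
  (hv.fderiv_right (m := ∞) (by simp)).clm_apply contDiff_const

theorem mv_dx_sm {v : ℝ × ℝ → E} (hv : ContDiff ℝ ∞ v) : ContDiff ℝ ∞ (dx v) :=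
  mv_contDiff_dv hv _

theorem mv_dy_sm {v : ℝ × ℝ → E} (hv : ContDiff ℝ ∞ v) : ContDiff ℝ ∞ (dy v) :=
  mv_contDiff_dv hv _

theorem mv_fderiv_apply (v : ℝ × ℝ → E) (z w : ℝ × ℝ) :
    fderiv ℝ v z w = w.1 • dx v z + w.2 • dy v z := by
  have : w = w.1 • ((1 : ℝ), (0 : ℝ)) + w.2 • ((0 : ℝ), (1 : ℝ)) := by ext <;> simp
  conv_lhs => rw [this]
  rw [map_add, map_smul, map_smul]; rfl

theorem mv_dxy_comm {v : ℝ × ℝ → E} (hv : ContDiff ℝ ∞ v) (z : ℝ × ℝ) :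
    dy (dx v) z = dx (dy v) z := by
  have h2 : ContDiffAt ℝ 2 v z := (hv.of_le (by norm_cast)).contDiffAt
  have hs := h2.isSymmSndFDerivAt (by simp)
  have hd : DifferentiableAt ℝ (fderiv ℝ v) z :=
    ((hv.fderiv_right (m := ∞) (by simp)).differentiable (by simp)) z
  have e : ∀ a b : ℝ × ℝ, fderiv ℝ (fun y => fderiv ℝ v y a) z b = fderiv ℝ (fderiv ℝ v) z b a := by
    intro a b
    rw [fderiv_clm_apply hd (differentiableAt_const a)]
    simp
  show fderiv ℝ (fun y => fderiv ℝ v y (1, 0)) z (0, 1) =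
    fderiv ℝ (fun y => fderiv ℝ v y (0, 1)) z (1, 0)
  rw [e, e]
  exact hs _ _

/-- First order chain rule in a direction `e`. -/
theorem mv_dv_comp {G : ℝ × ℝ → E} {φ : ℝ × ℝ → ℝ × ℝ} (hG : ContDiff ℝ ∞ G)
    (hφ : ContDiff ℝ ∞ φ) (z e : ℝ × ℝ) :
    fderiv ℝ (fun w => G (φ w)) z e =
      (fderiv ℝ φ z e).1 • dx G (φ z) + (fderiv ℝ φ z e).2 • dy G (φ z) := by
  have h1 : DifferentiableAt ℝ G (φ z) := hG.differentiable (by simp) _
  have h2 : DifferentiableAt ℝ φ z := hφ.differentiable (by simp) _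
  rw [← mv_fderiv_apply]
  have := fderiv_comp z h1 h2
  exact congrArg (fun L : ℝ × ℝ →L[ℝ] E => L e) this

/-- Second order chain rule. -/
theorem mv_dv_dv_comp {G : ℝ × ℝ → E} {φ : ℝ × ℝ → ℝ × ℝ} (hG : ContDiff ℝ ∞ G)
    (hφ : ContDiff ℝ ∞ φ) (z e e' : ℝ × ℝ) :
    ∃ s t : ℝ, fderiv ℝ (fun w => fderiv ℝ (fun w => G (φ w)) w e) z e' =
      ((fderiv ℝ φ z e').1 * (fderiv ℝ φ z e).1) • dx (dx G) (φ z)
      + ((fderiv ℝ φ z e').1 * (fderiv ℝ φ z e).2 + (fderiv ℝ φ z e').2 * (fderiv ℝ φ z e).1)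
          • dx (dy G) (φ z)
      + ((fderiv ℝ φ z e').2 * (fderiv ℝ φ z e).2) • dy (dy G) (φ z)
      + s • dx G (φ z) + t • dy G (φ z) := by
  have hfun : (fun w => fderiv ℝ (fun w => G (φ w)) w e) = fun w =>
      (fderiv ℝ φ w e).1 • dx G (φ w) + (fderiv ℝ φ w e).2 • dy G (φ w) :=
    funext fun w => mv_dv_comp hG hφ w e
  have ha : DifferentiableAt ℝ (fun w => (fderiv ℝ φ w e).1) z :=
    (mv_contDiff_dv hφ e).fst.differentiable (by simp) _
  have hb : DifferentiableAt ℝ (fun w => (fderiv ℝ φ w e).2) z :=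
    (mv_contDiff_dv hφ e).snd.differentiable (by simp) _
  have hx : DifferentiableAt ℝ (fun w => dx G (φ w)) z :=
    ((mv_dx_sm hG).comp hφ).differentiable (by simp) _
  have hy : DifferentiableAt ℝ (fun w => dy G (φ w)) z :=
    ((mv_dy_sm hG).comp hφ).differentiable (by simp) _
  refine ⟨fderiv ℝ (fun w => (fderiv ℝ φ w e).1) z e', fderiv ℝ (fun w => (fderiv ℝ φ w e).2) z e', ?_⟩
  rw [hfun, fderiv_fun_add (ha.fun_smul hx) (hb.fun_smul hy), fderiv_fun_smul ha hx,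
    fderiv_fun_smul hb hy]
  simp only [_root_.add_apply, _root_.smul_apply,
    ContinuousLinearMap.smulRight_apply]
  rw [mv_dv_comp (mv_dx_sm hG) hφ, mv_dv_comp (mv_dy_sm hG) hφ, mv_dxy_comm hG]
  module

/-- Jacobian determinant. -/
def jac (φ : ℝ × ℝ → ℝ × ℝ) (z : ℝ × ℝ) : ℝ :=
  (dx φ z).1 * (dy φ z).2 - (dx φ z).2 * (dy φ z).1

theorem gp_comp {G : ℝ × ℝ → V3} {φ : ℝ × ℝ → ℝ × ℝ} (hG : ContDiff ℝ ∞ G)
    (hφ : ContDiff ℝ ∞ φ) (z : ℝ × ℝ) :
    gp (fun w => G (φ w)) z = jac φ z ^ 2 * gp G (φ z) := by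
  unfold gp jac
  rw [← gram2_change]
  congr 1
  · exact mv_dv_comp hG hφ z _
  · exact mv_dv_comp hG hφ z _

theorem NDP.comp {G : ℝ × ℝ → V3} {φ : ℝ × ℝ → ℝ × ℝ} (hG : ContDiff ℝ ∞ G)
    (hφ : ContDiff ℝ ∞ φ) {z : ℝ × ℝ} (hj : jac φ z ≠ 0) (h : NDP G (φ z)) :
    NDP (fun w => G (φ w)) z := by
  obtain ⟨s₁, s₂, h11⟩ := mv_dv_dv_comp hG hφ z (1, 0) (1, 0)
  obtain ⟨t₁, t₂, h12⟩ := mv_dv_dv_comp hG hφ z (0, 1) (1, 0)
  obtain ⟨u₁, u₂, h22⟩ := mv_dv_dv_comp hG hφ z (0, 1) (0, 1)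
  refine NDJ.change h (a := (dx φ z).1) (b := (dx φ z).2) (c := (dy φ z).1) (d := (dy φ z).2)
    hj s₁ s₂ t₁ t₂ u₁ u₂ (mv_dv_comp hG hφ z _) (mv_dv_comp hG hφ z _) ?_ ?_ ?_
  · refine h11.trans ?_
    simp only [dx]
    module
  · refine h12.trans ?_
    simp only [dx, dy]
  · refine h22.trans ?_
    simp only [dy]
    module

/-- Homotheties. -/
theorem jac_homothety (z₀ : ℝ × ℝ) (r : ℝ) (z : ℝ × ℝ) : jac (fun w => z₀ + r • w) z = r ^ 2 := by
  have h : HasFDerivAt (fun w : ℝ × ℝ => z₀ + r • w) (r • ContinuousLinearMap.id ℝ (ℝ × ℝ)) z :=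
    ((hasFDerivAt_id z).const_smul r).const_add z₀
  simp only [jac, dx, dy, h.fderiv]
  simp
  ring

/-- The planar push. -/
theorem exists_push (z₀ : ℝ × ℝ) {r : ℝ} (hr : 0 < r) :
    ∃ δ, 0 < δ ∧ δ ≤ r ∧ ∀ a ∈ Metric.ball z₀ δ, ∀ a' ∈ Metric.ball z₀ δ,
      ∃ φ : ℝ × ℝ → ℝ × ℝ, ContDiff ℝ ∞ φ ∧ Function.Injective φ ∧ (∀ z, jac φ z ≠ 0) ∧
        (∀ z, z ∉ Metric.closedBall z₀ r → φ z = z) ∧ φ a' = a := by
  let ρ : ContDiffBump z₀ := ⟨r / 2, r, by positivity, by linarith⟩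
  have hρ : ContDiff ℝ ∞ ρ := ρ.contDiff
  obtain ⟨L, hL⟩ : ∃ L, ∀ z, ‖fderiv ℝ ρ z‖ ≤ L :=
    (hρ.continuous_fderiv (by simp)).bounded_above_of_compact_support
      (ρ.hasCompactSupport.fderiv (𝕜 := ℝ))
  have hL0 : 0 ≤ L := (norm_nonneg _).trans (hL 0)
  have hd : Differentiable ℝ ρ := hρ.differentiable (by simp)
  have hlip : ∀ z w, ‖ρ z - ρ w‖ ≤ L * ‖z - w‖ := fun z w =>
    (convex_univ (𝕜 := ℝ)).norm_image_sub_le_of_norm_fderiv_le (fun x _ => hd x)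
      (fun x _ => hL x) (Set.mem_univ w) (Set.mem_univ z)
  refine ⟨min (r / 2) (1 / (4 * (L + 1))), by positivity, (min_le_left _ _).trans (by linarith),
    fun a ha a' ha' => ?_⟩
  have hv : L * ‖a - a'‖ ≤ 1 / 2 := by
    have h1 : ‖a - a'‖ ≤ 2 * (1 / (4 * (L + 1))) := by
      have := dist_triangle_right a a' z₀
      rw [Metric.mem_ball, lt_min_iff] at ha ha'
      rw [← dist_eq_norm]
      linarith [ha.2, ha'.2]
    calc L * ‖a - a'‖ ≤ (L + 1) * (2 * (1 / (4 * (L + 1)))) := by gcongr; linarith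
      _ = 1 / 2 := by field_simp; norm_num
  refine ⟨fun z => z + ρ z • (a - a'), contDiff_id.add (hρ.smul contDiff_const), ?_, ?_, ?_, ?_⟩
  · intro z w hzw
    have e : z - w = (ρ w - ρ z) • (a - a') := by
      have hzw' : z + ρ z • (a - a') = w + ρ w • (a - a') := hzw
      rw [sub_smul]
      linear_combination (exp := 1) hzw'
    have h1 : ‖z - w‖ ≤ L * ‖w - z‖ * ‖a - a'‖ := by
      conv_lhs => rw [e, norm_smul]
      gcongr
      exact hlip w z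
    rw [norm_sub_rev w z] at h1
    have h2 : ‖z - w‖ ≤ 0 := by nlinarith [norm_nonneg (z - w)]
    exact sub_eq_zero.1 (norm_le_zero_iff.1 h2)
  · intro z
    have h : HasFDerivAt (fun z : ℝ × ℝ => z + ρ z • (a - a'))
        (ContinuousLinearMap.id ℝ (ℝ × ℝ) + (fderiv ℝ ρ z).smulRight (a - a')) z :=
      (hasFDerivAt_id z).add ((hd z).hasFDerivAt.smul_const (a - a'))
    have e : jac (fun z : ℝ × ℝ => z + ρ z • (a - a')) z = 1 + fderiv ℝ ρ z (a - a') := by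
      rw [mv_fderiv_apply]
      simp only [jac, dx, dy, h.fderiv]
      simp
      ring
    rw [e]
    have h1 : |fderiv ℝ ρ z (a - a')| ≤ 1 / 2 := by
      refine le_trans ?_ hv
      rw [← Real.norm_eq_abs]
      exact ((fderiv ℝ ρ z).le_opNorm _).trans (by gcongr; exact hL z)
    have := (abs_le.1 h1).1
    linarith
  · intro z hz
    have : ρ z = 0 := ρ.zero_of_le_dist (by
      rw [Metric.mem_closedBall, not_le] at hz
      exact hz.le)
    simp [this]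
  · have : ρ a' = 1 := ρ.one_of_mem_closedBall (by
      rw [Metric.mem_ball, lt_min_iff] at ha'
      exact ha'.1.le)
    simp [this]

end Planar

/-! ### Topology -/

section Top

variable {M : Type*} [TopologicalSpace M]

theorem exists_punctured_nhd [ChartedSpace E2 M] (a₀ : M) {U : Set M} (hU : U ∈ 𝓝 a₀) :
    ∃ N : Set M, IsOpen N ∧ a₀ ∈ N ∧ N ⊆ U ∧ IsConnected (N \ {a₀}) := by
  set e := chartAt E2 a₀
  have h0 : a₀ ∈ e.source := mem_chart_source E2 a₀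
  have h1 : e.target ∩ e.symm ⁻¹' U ∈ 𝓝 (e a₀) := by
    refine Filter.inter_mem (e.open_target.mem_nhds (e.map_source h0)) ?_
    apply (e.continuousAt_symm (e.map_source h0)).preimage_mem_nhds
    rwa [e.left_inv h0]
  obtain ⟨r, hr, hb⟩ := Metric.mem_nhds_iff.1 h1
  set u : OpenPartialHomeomorph E2 E2 := OpenPartialHomeomorph.univBall (e a₀) r
  have hus : u.source = Set.univ := OpenPartialHomeomorph.univBall_source _ _
  have hut : u.target = Metric.ball (e a₀) r := OpenPartialHomeomorph.univBall_target _ hr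
  have hu0 : u 0 = e a₀ := OpenPartialHomeomorph.univBall_apply_zero _ _
  have hc : IsConnected ({0}ᶜ : Set E2) :=
    isConnected_compl_singleton_of_one_lt_rank (by
      rw [← Module.finrank_eq_rank]; simp) 0
  have hc2 : IsConnected (u '' {0}ᶜ) :=
    hc.image u (u.continuousOn.mono (by rw [hus]; exact Set.subset_univ _))
  have him : u '' {0}ᶜ = Metric.ball (e a₀) r \ {e a₀} := by
    rw [Set.compl_eq_univ_sdiff, ← hus, Set.InjOn.image_sdiff_subset u.injOn (by simp [hus]),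
      u.image_source_eq_target, hut, Set.image_singleton, hu0]
  rw [him] at hc2
  have hbt : Metric.ball (e a₀) r ⊆ e.target := fun z hz => (hb hz).1
  refine ⟨e.symm '' Metric.ball (e a₀) r, e.symm.isOpen_image_of_subset_source Metric.isOpen_ball hbt,
    ⟨e a₀, Metric.mem_ball_self hr, e.left_inv h0⟩, ?_, ?_⟩
  · rintro _ ⟨z, hz, rfl⟩
    exact (hb hz).2
  · have : e.symm '' Metric.ball (e a₀) r \ {a₀} = e.symm '' (Metric.ball (e a₀) r \ {e a₀}) := by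
      rw [Set.InjOn.image_sdiff_subset (e.symm.injOn.mono hbt)
        (by simpa using hr), Set.image_singleton, e.left_inv h0]
    rw [this]
    exact hc2.image _ (e.continuousOn_symm.mono fun z hz => hbt hz.1)

/-- The clopen argument. -/
theorem reach_of_local [T1Space M] [ChartedSpace E2 M] {Z R S W : Set M} (hZ : Z.Finite)
    (hloc : ∀ a₀ ∉ Z, ∃ N ∈ 𝓝 a₀, ∀ a ∈ N, ∀ a' ∈ N, a ∈ R → a' ∈ R)
    (hS : IsPreconnected S) {b : M} (hbS : b ∈ S) (hbR : b ∈ R) (hbZ : b ∉ Z)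
    (hW : IsOpen W) (hne : W.Nonempty) (hWS : W ⊆ S) : ∃ a ∈ W, a ∈ R := by
  have hbot : ∀ a : M, (𝓝[≠] a).NeBot := by
    intro a
    rw [nhdsWithin_neBot]
    intro U hU
    obtain ⟨N, -, -, hNU, ⟨x, hx⟩, -⟩ := exists_punctured_nhd a hU
    exact ⟨x, hNU hx.1, hx.2⟩
  set R' : Set M := {a | ∀ᶠ a' in 𝓝[≠] a, a' ∈ R}
  have hdich : ∀ a₀ : M, ∃ N, IsOpen N ∧ a₀ ∈ N ∧ (N ⊆ R' ∨ N ⊆ R'ᶜ) := by
    intro a₀
    have hU : (Z \ {a₀})ᶜ ∈ 𝓝 a₀ :=
      (hZ.subset Set.sdiff_subset).isClosed.isOpen_compl.mem_nhds (by simp)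
    obtain ⟨N, hNo, hN0, hNU, hNc⟩ := exists_punctured_nhd a₀ hU
    have hNZ : ∀ x ∈ N \ {a₀}, x ∉ Z := fun x hx hxZ => hNU hx.1 ⟨hxZ, hx.2⟩
    have hsub : N \ {a₀} ⊆ interior R ∪ interior Rᶜ := by
      intro x hx
      obtain ⟨N', hN', h'⟩ := hloc x (hNZ x hx)
      by_cases hxR : x ∈ R
      · left
        exact mem_interior_iff_mem_nhds.2 (Filter.mem_of_superset hN' fun y hy =>
          h' x (mem_of_mem_nhds hN') y hy hxR)
      · right
        exact mem_interior_iff_mem_nhds.2 (Filter.mem_of_superset hN' fun y hy hyR =>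
          hxR (h' y hy x (mem_of_mem_nhds hN') hyR))
    have hev : ∀ x ∈ N, N \ {a₀} ∈ 𝓝[≠] x := by
      intro x hx
      by_cases hx0 : x = a₀
      · subst hx0
        exact sdiff_mem_nhdsWithin_compl (hNo.mem_nhds hx) _
      · exact mem_nhdsWithin_of_mem_nhds
          ((hNo.sdiff isClosed_singleton).mem_nhds ⟨hx, hx0⟩)
    refine ⟨N, hNo, hN0, ?_⟩
    rcases hNc.isPreconnected.subset_or_subset isOpen_interior isOpen_interior
      (disjoint_compl_right.mono interior_subset interior_subset) hsub with h | h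
    · left
      intro x hx
      exact Filter.mem_of_superset (hev x hx) (h.trans interior_subset)
    · right
      intro x hx hxR
      have := hbot x
      have hxR' : ∀ᶠ a' in 𝓝[≠] x, a' ∈ R := hxR
      have hev' : ∀ᶠ a' in 𝓝[≠] x, a' ∈ N \ {a₀} := hev x hx
      obtain ⟨y, hy1, hy2⟩ := (hxR'.and hev').exists
      exact interior_subset (h hy2) hy1
  have hclopen : IsClopen R' := by
    constructor
    · rw [← isOpen_compl_iff, isOpen_iff_mem_nhds]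
      intro x hx
      obtain ⟨N, hNo, hxN, h | h⟩ := hdich x
      · exact (hx (h hxN)).elim
      · exact Filter.mem_of_superset (hNo.mem_nhds hxN) h
    · rw [isOpen_iff_mem_nhds]
      intro x hx
      obtain ⟨N, hNo, hxN, h | h⟩ := hdich x
      · exact Filter.mem_of_superset (hNo.mem_nhds hxN) h
      · exact (h hxN hx).elim
  have hbR' : b ∈ R' := by
    obtain ⟨N', hN', h'⟩ := hloc b hbZ
    exact mem_nhdsWithin_of_mem_nhds (Filter.mem_of_superset hN' fun y hy =>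
      h' b (mem_of_mem_nhds hN') y hy hbR)
  have hSR : S ⊆ R' := hS.subset_isClopen hclopen ⟨b, hbS, hbR'⟩
  obtain ⟨w, hw⟩ := hne
  have := hbot w
  have h1 : ∀ᶠ a' in 𝓝[≠] w, a' ∈ R := hSR (hWS hw)
  have h2 : ∀ᶠ a' in 𝓝[≠] w, a' ∈ W := mem_nhdsWithin_of_mem_nhds (hW.mem_nhds hw)
  obtain ⟨y, hy1, hy2⟩ := (h1.and h2).exists
  exact ⟨y, hy2, hy1⟩

end Top

end Crest.Agent.R216
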