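import Crest.Agent.R216.ImMoveA

/-!
# R216: chart independence of `NDJ`, local modifications, the local push
-/

set_option autoImplicit false
set_option linter.unusedSectionVars false

open scoped Manifold ContDiff Topology
open Matrix

noncomputable section

namespace Crest.Agent.R216

variable {M : Type*} [TopologicalSpace M] [T2Space M] [CompactSpace M] [ChartedSpace E2 M]
  [IsManifold (𝓡 2) ∞ M]

namespace Atl

variable (A : Atl M)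

/-- Nondegeneracy in chart `i`. -/
def NDC (i : Fin A.n) (F : M → V3) (p : M) : Prop :=
  NDJ (A.D (i, 0) F p) (A.D (i, 1) F p) (A.D (i, 0) (A.D (i, 0) F) p)
    (A.D (i, 0) (A.D (i, 1) F) p) (A.D (i, 1) (A.D (i, 1) F) p)

theorem chart_det_ne {i j : Fin A.n} {p : M} (hi : p ∈ A.O i) (hj : p ∈ A.O j) :
    A.D (j, 0) (A.x i 0) p * A.D (j, 1) (A.x i 1) p
      - A.D (j, 0) (A.x i 1) p * A.D (j, 1) (A.x i 0) p ≠ 0 := by
  have h : ∀ a c : Fin 2, A.D (j, a) (A.x i 0) p * A.D (i, 0) (A.x j c) p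
      + A.D (j, a) (A.x i 1) p * A.D (i, 1) (A.x j c) p = if a = c then 1 else 0 := by
    intro a c
    rw [← A.D_x j a c hj, A.D_chart (j, a) i (A.x_sm j c) hi]
    simp only [smul_eq_mul]
  have h00 := h 0 0
  have h01 := h 0 1
  have h10 := h 1 0
  have h11 := h 1 1
  simp only [if_true, zero_ne_one, one_ne_zero, if_false] at h00 h01 h10 h11
  intro h0
  have : (1 : ℝ) = 0 := by
    linear_combination (-(A.D (j, 1) (A.x i 0) p * A.D (i, 0) (A.x j 1) p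
      + A.D (j, 1) (A.x i 1) p * A.D (i, 1) (A.x j 1) p)) * h00 - h11
      + (A.D (j, 1) (A.x i 0) p * A.D (i, 0) (A.x j 0) p
      + A.D (j, 1) (A.x i 1) p * A.D (i, 1) (A.x j 0) p) * h01
      + (A.D (i, 0) (A.x j 0) p * A.D (i, 1) (A.x j 1) p
        - A.D (i, 0) (A.x j 1) p * A.D (i, 1) (A.x j 0) p) * h0
  exact one_ne_zero this

theorem NDC.chart {A : Atl M} {i j : Fin A.n} {F : M → V3} (hF : Sm F) {p : M} (hi : p ∈ A.O i)
    (hj : p ∈ A.O j) (h : A.NDC i F p) : A.NDC j F p := by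
  have hc := A.D_comm i 1 0 hF hi
  refine NDJ.change h (A.chart_det_ne hi hj)
    (A.D (j, 0) (A.D (j, 0) (A.x i 0)) p) (A.D (j, 0) (A.D (j, 0) (A.x i 1)) p)
    (A.D (j, 0) (A.D (j, 1) (A.x i 0)) p) (A.D (j, 0) (A.D (j, 1) (A.x i 1)) p)
    (A.D (j, 1) (A.D (j, 1) (A.x i 0)) p) (A.D (j, 1) (A.D (j, 1) (A.x i 1)) p)
    (A.D_chart _ i hF hi) (A.D_chart _ i hF hi) ?_ ?_ ?_
  · rw [A.DD_chart _ _ i hF hi]
    simp only [Fin.sum_univ_two, hc]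
    module
  · rw [A.DD_chart _ _ i hF hi]
    simp only [Fin.sum_univ_two, hc]
    module
  · rw [A.DD_chart _ _ i hF hi]
    simp only [Fin.sum_univ_two, hc]
    module

theorem mem_sing_iff_mv {i : Fin A.n} {F : M → V3} (hF : Sm F) {p : M} (hi : p ∈ A.O i) :
    p ∈ A.Sing F ↔ gram2 (A.D (i, 0) F p) (A.D (i, 1) F p) = 0 := by
  refine ⟨fun h => h _ _, fun h α β => ?_⟩
  rw [A.D_chart α i hF hi, A.D_chart β i hF hi, gram2_change, h, mul_zero]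

theorem NDC_congr {i : Fin A.n} {F F' : M → V3} {p : M} (h : F =ᶠ[𝓝 p] F') :
    A.NDC i F p ↔ A.NDC i F' p := by
  unfold NDC
  rw [A.D_congr _ h, A.D_congr (i, 1) h, A.D_congr _ (A.D_congr' (i, 0) h),
    A.D_congr (i, 0) (A.D_congr' (i, 1) h), A.D_congr (i, 1) (A.D_congr' (i, 1) h)]

theorem sing_congr {F F' : M → V3} {p : M} (h : F =ᶠ[𝓝 p] F') :
    p ∈ A.Sing F ↔ p ∈ A.Sing F' := by
  simp only [Sing, Set.mem_ofPred_eq]
  refine forall_congr' fun α => forall_congr' fun β => ?_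
  rw [A.D_congr α h, A.D_congr β h]

theorem D0_Psi (i : Fin A.n) {G : ℝ × ℝ → V3} (hG : ContDiff ℝ ∞ G) {p : M} (hp : p ∈ A.O i) :
    A.D (i, 0) (fun q => G (A.Psi i 0 q)) p = dx G (A.Psi i 0 p) := by
  have h1 : A.D (i, 0) (A.eta i 0) p = 1 := A.X_eta i 0 hp
  have h2 : A.D (i, 0) (A.x i 1) p = 0 := A.X_y i hp
  rw [A.D_Psi _ i 0 hG, h1, h2]
  simp

theorem D1_Psi (i : Fin A.n) {G : ℝ × ℝ → V3} (hG : ContDiff ℝ ∞ G) {p : M} (hp : p ∈ A.O i) :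
    A.D (i, 1) (fun q => G (A.Psi i 0 q)) p = dy G (A.Psi i 0 p) := by
  have h1 : A.D (i, 1) (A.eta i 0) p = 0 := by
    have := A.Y_eta i 0 0 hp
    simpa [Y] using this
  have h2 : A.D (i, 1) (A.x i 1) p = 1 := by
    rw [A.D_x i 1 1 hp]; simp
  rw [A.D_Psi _ i 0 hG, h1, h2]
  simp

theorem NDC_Psi (i : Fin A.n) {G : ℝ × ℝ → V3} (hG : ContDiff ℝ ∞ G) {p : M} (hp : p ∈ A.O i) :
    A.NDC i (fun q => G (A.Psi i 0 q)) p ↔ NDP G (A.Psi i 0 p) := by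
  have hO : ∀ᶠ q in 𝓝 p, q ∈ A.O i := (A.O_open i).mem_nhds hp
  have e0 : A.D (i, 0) (fun q => G (A.Psi i 0 q)) =ᶠ[𝓝 p] fun q => dx G (A.Psi i 0 q) :=
    hO.mono fun q hq => A.D0_Psi i hG hq
  have e1 : A.D (i, 1) (fun q => G (A.Psi i 0 q)) =ᶠ[𝓝 p] fun q => dy G (A.Psi i 0 q) :=
    hO.mono fun q hq => A.D1_Psi i hG hq
  unfold NDC NDP
  rw [A.D_congr (i, 0) e0, A.D_congr (i, 0) e1, A.D_congr (i, 1) e1, A.D0_Psi i hG hp,
    A.D1_Psi i hG hp, A.D0_Psi i (mv_dx_sm hG) hp, A.D0_Psi i (mv_dy_sm hG) hp,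
    A.D1_Psi i (mv_dy_sm hG) hp]

theorem sing_Psi (i : Fin A.n) {G : ℝ × ℝ → V3} (hG : ContDiff ℝ ∞ G) {p : M} (hp : p ∈ A.O i) :
    p ∈ A.Sing (fun q => G (A.Psi i 0 q)) ↔ gp G (A.Psi i 0 p) = 0 := by
  rw [A.mem_sing_iff_mv ((A.Psi_sm i 0).comp hG) hp, A.D0_Psi i hG hp, A.D1_Psi i hG hp]
  rfl

/-- Local modification through a chart. -/
theorem exists_modify (i : Fin A.n) {p₀ : M} (h : p₀ ∈ A.O i) :
    ∃ W : Set M, IsOpen W ∧ p₀ ∈ W ∧ W ⊆ A.O i ∧ ∀ F : M → V3, A.Umb F →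
      ∃ G : ℝ × ℝ → V3, ContDiff ℝ ∞ G ∧ (∀ p ∈ W, NDP G (A.Psi i 0 p)) ∧
        (∀ p ∈ W, p ∈ A.Sing F ↔ gp G (A.Psi i 0 p) = 0) ∧
        ∀ (G' : ℝ × ℝ → V3) (C : Set (ℝ × ℝ)), ContDiff ℝ ∞ G' → IsClosed C →
          C ⊆ A.Psi i 0 '' W → (∀ z ∉ C, G' z = G z) → (∀ z ∈ C, NDP G' z) →
          ∃ F' : M → V3, A.Umb F' ∧
            (∀ p ∈ W, A.Psi i 0 p ∈ C → (p ∈ A.Sing F' ↔ gp G' (A.Psi i 0 p) = 0)) ∧
            ∀ p, ¬ (p ∈ W ∧ A.Psi i 0 p ∈ C) → (p ∈ A.Sing F' ↔ p ∈ A.Sing F) := by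
  obtain ⟨W, ρ, hWo, hK, hWO, hρ, -, hρ1, hρs, hdown⟩ :=
    A.exists_down i 0 (K₀ := {p₀}) isClosed_singleton (by simpa using h)
  refine ⟨W, hWo, hK rfl, hWO, fun F hF => ?_⟩
  obtain ⟨G, hG, hGF, -⟩ := hdown V3 F hF.1
  have hFG : ∀ p ∈ W, F =ᶠ[𝓝 p] fun q => G (A.Psi i 0 q) := fun p hp =>
    Filter.mem_of_superset (hWo.mem_nhds hp) fun q hq => by
      show F q = G (A.Psi i 0 q)
      rw [hGF q (hWO hq), hρ1 q hq, one_smul]
  refine ⟨G, hG, fun p hp => ?_, fun p hp => ?_, fun G' C hG' hC hCW hGG hND => ?_⟩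
  · rw [← A.NDC_Psi i hG (hWO hp), ← A.NDC_congr (hFG p hp)]
    exact hF.2 i p (hWO hp)
  · rw [A.sing_congr (hFG p hp), A.sing_Psi i hG (hWO hp)]
  · set F' : M → V3 := F + fun q => ρ q • (G' (A.Psi i 0 q) - G (A.Psi i 0 q)) with hF'
    have hsm : Sm F' := hF.1.add (hρ.smul ((A.Psi_sm i 0).comp (hG'.sub hG)))
    have h1 : ∀ p ∈ W, F' =ᶠ[𝓝 p] fun q => G' (A.Psi i 0 q) := fun p hp =>
      Filter.mem_of_superset (hWo.mem_nhds hp) fun q hq => by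
        show F q + ρ q • (G' (A.Psi i 0 q) - G (A.Psi i 0 q)) = G' (A.Psi i 0 q)
        rw [hGF q (hWO hq), hρ1 q hq]
        simp
    have h2 : ∀ p, ¬ (p ∈ W ∧ A.Psi i 0 p ∈ C) → F' =ᶠ[𝓝 p] F := by
      intro p hp
      have hcl : IsClosed (tsupport ρ ∩ A.Psi i 0 ⁻¹' C) :=
        (isClosed_tsupport ρ).inter (hC.preimage (A.Psi_sm i 0).continuous)
      have hp' : p ∈ (tsupport ρ ∩ A.Psi i 0 ⁻¹' C)ᶜ := by
        rintro ⟨h3, h4⟩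
        obtain ⟨q, hq, e⟩ := hCW h4
        have : q = p := A.Psi_injOn i 0 (hWO hq) (hρs h3) e
        exact hp ⟨this ▸ hq, h4⟩
      refine Filter.mem_of_superset (hcl.isOpen_compl.mem_nhds hp') fun q hq => ?_
      show F q + ρ q • (G' (A.Psi i 0 q) - G (A.Psi i 0 q)) = F q
      by_cases h3 : q ∈ tsupport ρ
      · rw [hGG _ fun h4 => hq ⟨h3, h4⟩]
        simp
      · rw [image_eq_zero_of_notMem_tsupport h3]
        simp
    refine ⟨F', ⟨hsm, fun j p hp => ?_⟩, fun p hp _ => ?_, fun p hp => A.sing_congr (h2 p hp)⟩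
    · by_cases hc : p ∈ W ∧ A.Psi i 0 p ∈ C
      · refine NDC.chart hsm (hWO hc.1) hp ?_
        rw [A.NDC_congr (h1 p hc.1), A.NDC_Psi i hG' (hWO hc.1)]
        exact hND _ hc.2
      · exact (A.NDC_congr (h2 p hc)).2 (hF.2 j p hp)
    · rw [A.sing_congr (h1 p hp), A.sing_Psi i hG' (hWO hp)]

/-- The local push. -/
theorem local_push {Z : Set M} (hZ : IsClosed Z) {a₀ : M} (h0 : a₀ ∉ Z) :
    ∃ N ∈ 𝓝 a₀, ∀ a ∈ N, ∀ a' ∈ N, a' ∉ Z ∧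
      ((∃ F, A.Umb F ∧ A.Sing F = insert a Z) → ∃ F', A.Umb F' ∧ A.Sing F' = insert a' Z) := by
  obtain ⟨i, -, -, hi⟩ := A.exists_K a₀
  obtain ⟨W, hWo, hW0, hWO, hmod⟩ := A.exists_modify i hi
  have hW'o : IsOpen (W \ Z) := hWo.sdiff hZ
  have him : IsOpen (A.Psi i 0 '' (W \ Z)) :=
    A.Psi_isOpen i 0 hW'o (Set.sdiff_subset.trans hWO)
  obtain ⟨r, hr, hball⟩ := Metric.nhds_basis_closedBall.mem_iff.1
    (him.mem_nhds (Set.mem_image_of_mem _ (show a₀ ∈ W \ Z from ⟨hW0, h0⟩)))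
  obtain ⟨δ, hδ, hδr, hpush⟩ := exists_push (A.Psi i 0 a₀) hr
  refine ⟨(W \ Z) ∩ A.Psi i 0 ⁻¹' Metric.ball (A.Psi i 0 a₀) δ,
    Filter.inter_mem (hW'o.mem_nhds ⟨hW0, h0⟩)
      ((A.Psi_sm i 0).continuous.continuousAt.preimage_mem_nhds (Metric.ball_mem_nhds _ hδ)),
    fun a ha a' ha' => ⟨ha'.1.2, ?_⟩⟩
  rintro ⟨F, hF, hS⟩
  obtain ⟨φ, hφ, hinj, hjac, hid, hφa⟩ := hpush _ ha.2 _ ha'.2
  obtain ⟨G, hG, hND, hsing, hglue⟩ := hmod F hF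
  set C := Metric.closedBall (A.Psi i 0 a₀) r
  have hφC : ∀ z ∈ C, φ z ∈ C := by
    intro z hz
    by_contra hc
    exact hc ((hinj (hid _ hc)).symm ▸ hz)
  have hsub : Metric.ball (A.Psi i 0 a₀) δ ⊆ C :=
    Metric.ball_subset_closedBall.trans (Metric.closedBall_subset_closedBall hδr)
  obtain ⟨F', hF', hin, hout⟩ := hglue (fun z => G (φ z)) C (hG.comp hφ) Metric.isClosed_closedBall
    (hball.trans (Set.image_mono Set.sdiff_subset)) (fun z hz => by rw [hid z hz])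
    (fun z hz => by
      obtain ⟨q, hq, e⟩ := hball (hφC z hz)
      exact NDP.comp hG hφ (hjac z) (e ▸ hND q hq.1))
  refine ⟨F', hF', Set.ext fun p => ?_⟩
  by_cases hc : p ∈ W ∧ A.Psi i 0 p ∈ C
  · obtain ⟨q, hq, e⟩ := hball (hφC _ hc.2)
    obtain ⟨p', hp', e'⟩ := hball hc.2
    have hpp : p' = p := A.Psi_injOn i 0 (hWO hp'.1) (hWO hc.1) e'
    subst hpp
    rw [hin _ hc.1 hc.2, gp_comp hG hφ, mul_eq_zero, or_iff_right (pow_ne_zero 2 (hjac _)), ← e,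
      ← hsing q hq.1, hS, Set.mem_insert_iff, Set.mem_insert_iff, or_iff_left hq.2,
      or_iff_left hp'.2]
    constructor
    · intro hqa
      rw [hqa, ← hφa] at e
      exact (A.Psi_injOn i 0 (hWO ha'.1.1) (hWO hc.1) (hinj e)).symm
    · intro hpa
      rw [hpa, hφa] at e
      exact A.Psi_injOn i 0 (hWO hq.1) (hWO ha.1.1) e
  · rw [hout p hc, hS, Set.mem_insert_iff, Set.mem_insert_iff]
    have h1 : p ≠ a := fun e => hc (e ▸ ⟨ha.1.1, hsub ha.2⟩)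
    have h2 : p ≠ a' := fun e => hc (e ▸ ⟨ha'.1.1, hsub ha'.2⟩)
    simp [h1, h2]

end Atl

end Crest.Agent.R216
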