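import Crest.Agent.R216.ImGen
import Crest.Agent.R216.ImMove
import Crest.Agent.R216.ImLoc

/-!
# R216: every compact surface immerses in `ℝ³`
-/

set_option autoImplicit false
set_option linter.unusedSectionVars false

open scoped Manifold ContDiff Topology
open Matrix

noncomputable section

namespace Crest.Agent.R216

variable {M : Type*} [TopologicalSpace M] [T2Space M] [CompactSpace M] [ChartedSpace E2 M]
  [IsManifold (𝓡 2) ∞ M]

theorem imm3Stmt (A : Atl M) : A.Imm3Stmt :=
  imm3_of A (imGenStmt A) (imMoveStmt A) imLocStmt

end Crest.Agent.R216
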