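import Crest.Agent.R216.Api4

/-!
# R216: iteration of the step
-/

set_option autoImplicit false
set_option linter.unusedSectionVars false

open scoped Manifold ContDiff Topology
open Matrix

noncomputable section

namespace Crest.Agent.R216

theorem it_d3_le (a b c : V4) (i j k : Fin 4) : |d3 a b c i j k| ≤ 6 * (‖a‖ * ‖b‖ * ‖c‖) := by
  have t : ∀ i j k, |a i * b j * c k| ≤ ‖a‖ * ‖b‖ * ‖c‖ := fun i j k => by
    rw [abs_mul, abs_mul]
    have h1 : |a i| ≤ ‖a‖ := norm_le_pi_norm a i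
    have h2 : |b j| ≤ ‖b‖ := norm_le_pi_norm b j
    have h3 : |c k| ≤ ‖c‖ := norm_le_pi_norm c k
    gcongr
  have e : d3 a b c i j k = a i * b j * c k - a i * b k * c j - a j * b i * c k + a j * b k * c i +
      a k * b i * c j - a k * b j * c i := by unfold d3; ring
  rw [e, abs_le]
  have t1 := abs_le.1 (t i j k)
  have t2 := abs_le.1 (t i k j)
  have t3 := abs_le.1 (t j i k)
  have t4 := abs_le.1 (t j k i)
  have t5 := abs_le.1 (t k i j)
  have t6 := abs_le.1 (t k j i)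
  constructor <;> linarith [t1.1, t1.2, t2.1, t2.2, t3.1, t3.2, t4.1, t4.2, t5.1, t5.2, t6.1, t6.2]

theorem it_cross_le {a b c : V4} {x y z : ℝ} (ha : ‖a‖ ≤ x) (hb : ‖b‖ ≤ y) (hc : ‖c‖ ≤ z) :
    ‖cross3 a b c‖ ≤ 6 * (x * y * z) := by
  have h0 : ‖cross3 a b c‖ ≤ 6 * (‖a‖ * ‖b‖ * ‖c‖) := by
    refine (pi_norm_le_iff_of_nonneg (by positivity)).2 fun i => ?_
    fin_cases i <;> simp [cross3, it_d3_le]
  have hx := (norm_nonneg _).trans ha
  have hy := (norm_nonneg _).trans hb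
  refine h0.trans ?_
  gcongr

theorem it_cross_sub (a b c a' b' c' : V4) : cross3 a b c - cross3 a' b' c' =
    -(cross3 (a' - a) b' c' + cross3 a (b' - b) c' + cross3 a b (c' - c)) := by
  ext i
  fin_cases i <;> simp [cross3, d3] <;> ring

theorem it_dot_le (u v : V4) : u ⬝ᵥ v ≤ 4 * (‖u‖ * ‖v‖) := by
  have t : ∀ i, u i * v i ≤ ‖u‖ * ‖v‖ := fun i => by
    refine (le_abs_self _).trans ?_
    rw [abs_mul]
    have h1 : |u i| ≤ ‖u‖ := norm_le_pi_norm u i
    have h2 : |v i| ≤ ‖v‖ := norm_le_pi_norm v i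
    gcongr
  rw [dotProduct, Fin.sum_univ_four]
  linarith [t 0, t 1, t 2, t 3]

theorem it_ii {a b c a' b' c' : V4} {L ε : ℝ} (hε : ε ≤ L) (ha : ‖a‖ ≤ L) (hb : ‖b‖ ≤ L) (hc : ‖c‖ ≤ L)
    (ha' : ‖a' - a‖ ≤ ε) (hb' : ‖b' - b‖ ≤ ε) (hc' : ‖c' - c‖ ≤ ε) :
    cross3 a b c ⬝ᵥ cross3 a b c - 27648 * L ^ 5 * ε ≤ cross3 a' b' c' ⬝ᵥ cross3 a' b' c' := by
  have hL := (norm_nonneg _).trans ha
  have h0 := (norm_nonneg _).trans ha'
  have n : ∀ {x x' : V4}, ‖x‖ ≤ L → ‖x' - x‖ ≤ ε → ‖x'‖ ≤ 2 * L := fun {x x'} h1 h2 => by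
    have := norm_le_norm_add_norm_sub' x' x
    linarith
  have l : ∀ {x : V4}, ‖x‖ ≤ L → ‖x‖ ≤ 2 * L := fun h => by linarith
  have h1 : ‖cross3 a b c - cross3 a' b' c'‖ ≤ 72 * L ^ 2 * ε := by
    rw [it_cross_sub, norm_neg]
    have e1 := it_cross_le ha' (n hb hb') (n hc hc')
    have e2 := it_cross_le (l ha) hb' (n hc hc')
    have e3 := it_cross_le (l ha) (l hb) hc'
    refine norm_add₃_le.trans ?_
    linarith
  have h2 : ‖cross3 a b c + cross3 a' b' c'‖ ≤ 96 * L ^ 3 := by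
    have e1 := it_cross_le (l ha) (l hb) (l hc)
    have e2 := it_cross_le (n ha ha') (n hb hb') (n hc hc')
    refine (norm_add_le _ _).trans ?_
    linarith
  have h3 := it_dot_le (cross3 a b c - cross3 a' b' c') (cross3 a b c + cross3 a' b' c')
  have h4 : ‖cross3 a b c - cross3 a' b' c'‖ * ‖cross3 a b c + cross3 a' b' c'‖ ≤
      72 * L ^ 2 * ε * (96 * L ^ 3) := by gcongr
  rw [sub_dotProduct, dotProduct_add, dotProduct_add,
    dotProduct_comm (cross3 a' b' c') (cross3 a b c)] at h3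
  linarith

theorem it_seq {X : Type*} (St : ℕ → X → ℕ → Prop) (Rel : ℕ → X → ℕ → X → Prop)
    (h : ∀ n x C, St n x C → ∃ x', St (n + 1) x' C ∧ Rel n x C x') (x0 : X) (C0 : ℕ)
    (h0 : St 0 x0 C0) : ∃ (x : ℕ → X) (C : ℕ → ℕ), x 0 = x0 ∧ (∀ n, St n (x n) (C n)) ∧
      (∀ n, Rel n (x n) (C n) (x (n + 1))) ∧ Monotone C ∧
      ∀ n, C (n + 1) = C n → ¬ St (n + 1) (x (n + 1)) (C n + 1) := by
  classical
  choose! nx h1 h2 using h
  let s : ℕ → X × ℕ := fun n => Nat.rec (x0, C0) (fun n p => (nx n p.1 p.2,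
    if St (n + 1) (nx n p.1 p.2) (p.2 + 1) then p.2 + 1 else p.2)) n
  have s1 : ∀ n, (s (n + 1)).1 = nx n (s n).1 (s n).2 := fun n => rfl
  have s2 : ∀ n, (s (n + 1)).2 =
    if St (n + 1) (s (n + 1)).1 ((s n).2 + 1) then (s n).2 + 1 else (s n).2 := fun n => rfl
  have hs : ∀ n, St n (s n).1 (s n).2 := by
    intro n
    induction n with
    | zero => exact h0
    | succ n ih =>
      rw [s2]
      split_ifs with hc
      · exact hc
      · exact h1 n _ _ ih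
  refine ⟨fun n => (s n).1, fun n => (s n).2, rfl, hs, fun n => h2 n _ _ (hs n),
    monotone_nat_of_le_succ fun n => ?_, fun n e hc => ?_⟩
  · rw [s2]; split_ifs <;> omega
  · simp only [s2, if_pos hc] at e
    omega

theorem it_r1 {x : ℝ} (hx : 16 ≤ x) : 2 * x ≤ x ^ (5 / 4 : ℝ) := by
  have h0 : 0 < x := by linarith
  have h1 : (2 : ℝ) ≤ x ^ (1 / 4 : ℝ) := by
    have e : (2 : ℝ) = (16 : ℝ) ^ (1 / 4 : ℝ) := by
      rw [show (16 : ℝ) = 2 ^ (4 : ℝ) by norm_num, ← Real.rpow_mul (by norm_num)]; norm_num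
    rw [e]
    exact Real.rpow_le_rpow (by norm_num) hx (by norm_num)
  rw [show (5 / 4 : ℝ) = 1 / 4 + 1 by norm_num, Real.rpow_add h0, Real.rpow_one]
  gcongr

theorem it_r2 {x : ℝ} (hx : 16 ≤ x) (k C : ℕ) :
    x ^ ((5 / 4 : ℝ) * k - C / 2) ≤ (x ^ (5 / 4 : ℝ)) ^ k := by
  rw [← Real.rpow_natCast, ← Real.rpow_mul (by linarith)]
  exact Real.rpow_le_rpow_of_exponent_le (by linarith) (by linarith [Nat.cast_nonneg (α := ℝ) C])

theorem it_r3 {x : ℝ} (hx : 16 ≤ x) {k C : ℕ} (h : 3 * k + 4 ≤ C) :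
    x ^ (-(C : ℝ)) * x ^ (k + 1) + x ^ ((5 / 4 : ℝ) * k - C / 2) ≤ 2 / x ^ 2 := by
  have h0 : 0 < x := by linarith
  have h1 : (3 * k + 4 : ℝ) ≤ C := by exact_mod_cast h
  have h2 := Nat.cast_nonneg (α := ℝ) k
  have e : 1 / x ^ 2 = x ^ (-2 : ℝ) := by
    rw [Real.rpow_neg h0.le, one_div]; norm_cast
  have h3 : x ^ (-(C : ℝ)) * x ^ (k + 1) ≤ 1 / x ^ 2 := by
    rw [e, ← Real.rpow_natCast, ← Real.rpow_add h0]
    exact Real.rpow_le_rpow_of_exponent_le (by linarith) (by push_cast; linarith)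
  have h4 : x ^ ((5 / 4 : ℝ) * k - C / 2) ≤ 1 / x ^ 2 := by
    rw [e]
    exact Real.rpow_le_rpow_of_exponent_le (by linarith) (by linarith)
  calc _ ≤ 1 / x ^ 2 + 1 / x ^ 2 := add_le_add h3 h4
    _ = _ := by ring

theorem it_r4 {x y : ℝ} (hx : 16 ≤ x) (hy : 2 * x ≤ y) (k : ℕ) :
    x ^ (k + 1) ≤ y ^ (k + 1) / 2 ∧ y ^ k ≤ y ^ (k + 1) / 4 := by
  have h1 : (2 * x) ^ (k + 1) ≤ y ^ (k + 1) := pow_le_pow_left₀ (by linarith) hy _
  have h2 : (2 : ℝ) ≤ 2 ^ (k + 1) := le_self_pow₀ (by norm_num) (by omega)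
  have h3 : 0 < x ^ (k + 1) := pow_pos (by linarith) _
  have h4 : 0 < y ^ k := pow_pos (by linarith) _
  rw [mul_pow] at h1
  constructor
  · nlinarith
  · rw [pow_succ]; nlinarith

theorem it_r5 {x : ℝ} (hx : 16 ≤ x) (C : ℕ) : |Real.sqrt (1 - x ^ (-(C : ℝ)))| ≤ 1 ∧
    |Real.sqrt (1 - x ^ (-(C : ℝ))) - 1| ≤ x ^ (-(C : ℝ)) := by
  have h0 : 0 ≤ x ^ (-(C : ℝ)) := Real.rpow_nonneg (by linarith) _
  have h1 : x ^ (-(C : ℝ)) ≤ 1 :=
    Real.rpow_le_one_of_one_le_of_nonpos (by linarith) (by simp)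
  generalize x ^ (-(C : ℝ)) = t at h0 h1
  have h2 : Real.sqrt (1 - t) ≤ 1 := Real.sqrt_le_one.2 (by linarith)
  have h3 : 1 - t ≤ Real.sqrt (1 - t) := Real.le_sqrt_of_sq_le (by nlinarith)
  rw [abs_of_nonneg (Real.sqrt_nonneg _), abs_of_nonpos (by linarith)]
  exact ⟨h2, by linarith⟩

variable {M : Type*} [TopologicalSpace M] [T2Space M] [CompactSpace M] [ChartedSpace E2 M]
  [IsManifold (𝓡 2) ∞ M]

theorem it_adm (A : Atl M) {B L Λ Λ' ε : ℝ} {N N' : ℕ} {f f' : M → V4} {G : A.Ten}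
    (h : A.Adm B L Λ N f G) (hf' : Sm f') (hε : A.NB 3 (f' - f) ε) (h1 : ε ≤ 1)
    (h2 : 27648 * L ^ 7 * ε ≤ 1) (h3 : ∀ k ≤ N', A.NB k f' (Λ' ^ (k + 1)))
    (h4 : ∀ k ≤ N', ∀ α β, A.NB k (G α β) (Λ' ^ (k + 1))) : A.Adm B (L ^ 2) Λ' N' f' G := by
  have hL := h.two_le
  refine ⟨by nlinarith, hf', h.ten, h.pos, ?_, fun p => ?_, h3, h4⟩
  · have := Atl.NB.add h.sm (hf'.sub h.sm) h.low hε
    rw [add_sub_cancel] at this
    exact this.mono le_rfl (by nlinarith)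
  · obtain ⟨α, β, γ, δ, hp⟩ := h.ii p
    refine ⟨α, β, γ, δ, ?_⟩
    have d : ∀ w : List A.Idx, w.length ≤ 3 → ‖A.Dw w f' p - A.Dw w f p‖ ≤ ε := fun w hw => by
      have := hε w hw p
      rwa [A.Dw_sub w hf' h.sm] at this
    have := it_ii (by linarith : ε ≤ L) (h.low [α] (by simp) p) (h.low [β] (by simp) p)
      (h.low [γ, δ] (by simp) p) (d [α] (by simp)) (d [β] (by simp)) (d [γ, δ] (by simp))
    refine le_trans ?_ this
    refine le_trans ?_ (sub_le_sub_right hp _)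
    have hL0 : 0 < L := by linarith
    have e1 : 27648 * L ^ 5 * ε ≤ (L ^ 2)⁻¹ := by
      rw [← one_div, le_div_iff₀ (by positivity)]
      linarith
    have e2 : (L ^ 2)⁻¹ + (L ^ 2)⁻¹ ≤ L⁻¹ := by
      rw [← two_mul, ← div_eq_mul_inv, ← one_div, div_le_div_iff₀ (by positivity) hL0]
      nlinarith
    linarith

/-- Let `C₀ ≥ 20`, `N C ≥ max C 3` (enlarging `N` only strengthens `Adm`), `Kk C = max (N C) (N (C+1))`,
`n₀ C` from the step, `L' = L ^ 2`, `Λ n = Λ ^ ((5/4)^n)`. A state at time `n` is `(f n, C n)` with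
`Adm B L' (Λ n) (N (C n)) (f n) G`, `L' ^ n₀ (C n) ≤ Λ n`, error `≤ Λ n ^ (-(C n + 1))`, and
`NB 3 (f n - f) (4 Λ^{-2} - 4 (Λ n)^{-2})`-like control (increments: `(σ - 1) f n + U n`, of `C³` size
`≤ Λ n ^ (-C) L' + Λ n ^ (15/4 - C/2) ≤ 2 (Λ n)^{-2}`); this keeps `NB 3 (f n) L'` and
`IIm (f n) L'⁻¹` (`|NII|²` is a polynomial in the 2-jet, Lipschitz constant `≲ L^5`; take the final
`n₀` large). Put `f (n+1) = σ f n + U n`; at the same level `C` all conditions hold at time `n+1`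
(`Λ^{k+1} + Λ^{5k/4} ≤ Λ^{5(k+1)/4}`); let `C (n+1) = C n + 1` if all conditions also hold at level
`C n + 1`, and `C n` otherwise. `C n → ∞`: if it were eventually constant `= C`, then for
`k ≤ N (C+1)`, `‖f n‖_k ≤ c + ∑_{m<n} Λ m ^ (5k/4) ≤ Λ n ^ (k+1)` eventually, `G` has fixed norms,
and the error bound at level `C+1` is the conclusion of the step, so the level would be raised.
For fixed `k`, once `C n ≥ 3k+4` the increments have `C^k` size `≤ 2 / Λ n`: apply `hL`;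
`pull (f n) → G` pointwise. Return `C₀ + 1`, `N C₀`, and a large `n₀`. -/
theorem tStmt_of (A : Atl M) (hS : A.StepStmt) (hL : A.LimitStmt) : A.TStmt := by
  intro B hB
  obtain ⟨Cs, hS⟩ := hS B hB
  choose! Ns hS using hS
  obtain ⟨N, hN⟩ : ∃ N : ℕ → ℕ, N = fun C => max (Ns C) C := ⟨_, rfl⟩
  have hN1 : ∀ C, Ns C ≤ N C := fun C => by rw [hN]; exact le_max_left _ _
  have hN2 : ∀ C, C ≤ N C := fun C => by rw [hN]; exact le_max_right _ _
  choose! n0 hS using fun C hC => hS C hC (max (N C) (N (C + 1)))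
  obtain ⟨C0, hC0, hC1⟩ : ∃ C0, Cs ≤ C0 ∧ 20 ≤ C0 := ⟨max Cs 20, le_max_left _ _, le_max_right _ _⟩
  refine ⟨C0 + 1, N C0, max (2 * n0 C0) 12, fun L Λ f G hA hΛ herr => ?_⟩
  have hL2 := hA.two_le
  have hΛ1 : (L ^ 2) ^ n0 C0 ≤ Λ := by
    rw [← pow_mul]
    exact (pow_le_pow_right₀ (by linarith) (le_max_left _ _)).trans hΛ
  have hΛ2 : L ^ 12 ≤ Λ := (pow_le_pow_right₀ (by linarith) (le_max_right _ _)).trans hΛ
  have hΛ3 : 16 ≤ Λ := by
    have : (2 : ℝ) ^ 12 ≤ L ^ 12 := pow_le_pow_left₀ (by norm_num) hL2 _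
    linarith
  have hΛ0 : 0 < Λ := by linarith
  have hε1 : 4 / Λ ^ 2 ≤ Λ⁻¹ := by
    rw [← one_div, div_le_div_iff₀ (by positivity) hΛ0]; nlinarith
  have hε2 : 4 / Λ ^ 2 ≤ 1 := hε1.trans (inv_le_one_of_one_le₀ (by linarith))
  have hε3 : 27648 * L ^ 7 * (4 / Λ ^ 2) ≤ 1 := by
    rw [← mul_div_assoc, div_le_one (by positivity)]
    have h1 : (2 : ℝ) ^ 17 ≤ L ^ 17 := pow_le_pow_left₀ (by norm_num) hL2 _
    have h2 : (L ^ 12) ^ 2 ≤ Λ ^ 2 := pow_le_pow_left₀ (by positivity) hΛ2 _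
    have h3 : 0 < L ^ 7 := by positivity
    calc 27648 * L ^ 7 * 4 ≤ 2 ^ 17 * L ^ 7 := by nlinarith
      _ ≤ L ^ 17 * L ^ 7 := by gcongr
      _ = (L ^ 12) ^ 2 := by ring
      _ ≤ _ := h2
  obtain ⟨l, l0, ls⟩ : ∃ l : ℕ → ℝ, l 0 = Λ ∧ ∀ n, l (n + 1) = l n ^ (5 / 4 : ℝ) :=
    ⟨fun n => Nat.rec Λ (fun _ x => x ^ (5 / 4 : ℝ)) n, rfl, fun _ => rfl⟩
  have l16 : ∀ n, 16 ≤ l n := by
    intro n
    induction n with
    | zero => rwa [l0]
    | succ n ih => rw [ls]; linarith [it_r1 ih]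
  have l2 : ∀ n, 2 * l n ≤ l (n + 1) := fun n => by rw [ls]; exact it_r1 (l16 n)
  have lg : ∀ n, 2 ^ n ≤ l n := by
    intro n
    induction n with
    | zero => linarith [l16 0]
    | succ n ih => rw [pow_succ]; linarith [l2 n]
  have lt : Filter.Tendsto l Filter.atTop Filter.atTop :=
    Filter.tendsto_atTop_mono lg (tendsto_pow_atTop_atTop_of_one_lt one_lt_two)
  obtain ⟨g, C, g0, hSt, hRel, hmono, hup⟩ := it_seq
    (fun n (g : M → V4) C => C0 ≤ C ∧ Sm g ∧ (∀ k ≤ N C, A.NB k g (l n ^ (k + 1))) ∧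
      (∀ k ≤ N C, ∀ α β, A.NB k (G α β) (l n ^ (k + 1))) ∧ (L ^ 2) ^ n0 C ≤ l n ∧
      (∀ α β p, |G α β p - A.pull g α β p| ≤ l n ^ (-((C : ℝ) + 1))) ∧
      A.NB 3 (g - f) (4 / Λ ^ 2 - 4 / l n ^ 2))
    (fun n g C g' => (∀ k, 3 * k + 4 ≤ C → A.NB k (g' - g) (2 / l n ^ 2)) ∧
      (∀ k ≤ N (C + 1), ∀ Z, 0 ≤ Z → A.NB k g Z → A.NB k g' (Z + l (n + 1) ^ k)) ∧
      ∀ α β p, |G α β p - A.pull g' α β p| ≤ l (n + 1) ^ (-(((C + 1 : ℕ) : ℝ) + 1)))
    (by
      rintro n g C ⟨h1, h2, h3, h4, h5, h6, h7⟩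
      have hx := l16 n
      have hx0 : 0 < l n := by linarith
      have hy := l2 n
      have hA' : A.Adm B (L ^ 2) (l n) (Ns C) g G :=
        it_adm A hA h2 (h7.mono le_rfl (sub_le_self _ (by positivity))) hε2 hε3
          (fun k hk => h3 k (hk.trans (hN1 C))) (fun k hk => h4 k (hk.trans (hN1 C)))
      obtain ⟨U, hU, hU1, hU2⟩ := hS C (hC0.trans h1) _ _ _ _ hA' h5 h6
      obtain ⟨σ1, σ2⟩ := it_r5 hx C
      generalize Real.sqrt (1 - l n ^ (-(C : ℝ))) = σ at hU2 σ1 σ2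
      have r1 : ∀ k, 3 * k + 4 ≤ C → A.NB k (σ • g + U - g) (2 / l n ^ 2) := by
        intro k hk
        have hk' : k ≤ N C := le_trans (by omega) (hN2 C)
        have e : σ • g + U - g = (σ - 1) • g + U := by rw [sub_smul, one_smul]; abel
        rw [e]
        refine (Atl.NB.add (h2.const_smul _) hU ((h3 k hk').const_smul h2 (σ - 1))
          (hU1 k (hk'.trans (le_max_left _ _)))).mono le_rfl (le_trans ?_ (it_r3 hx hk))
        gcongr
      have r2 : ∀ k ≤ max (N C) (N (C + 1)), ∀ Z, 0 ≤ Z → A.NB k g Z →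
          A.NB k (σ • g + U) (Z + l (n + 1) ^ k) := by
        intro k hk Z hZ hg
        refine (Atl.NB.add (h2.const_smul _) hU (hg.const_smul h2 σ) (hU1 k hk)).mono le_rfl ?_
        rw [ls]
        exact add_le_add (mul_le_of_le_one_left hZ σ1) (it_r2 hx k C)
      have r3 : ∀ α β p, |G α β p - A.pull (σ • g + U) α β p| ≤
          l (n + 1) ^ (-(((C + 1 : ℕ) : ℝ) + 1)) := by
        intro α β p
        refine (hU2 α β p).trans_eq ?_
        rw [ls, ← Real.rpow_mul hx0.le]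
        congr 1
        push_cast; ring
      have sm' : Sm (σ • g + U) := (h2.const_smul _).add hU
      refine ⟨σ • g + U, ⟨h1, sm', fun k hk => ?_, fun k hk α β => ?_, by linarith, fun α β p => ?_, ?_⟩,
        r1, fun k hk => r2 k (hk.trans (le_max_right _ _)), r3⟩
      · refine (r2 k (hk.trans (le_max_left _ _)) _ (by positivity) (h3 k hk)).mono le_rfl ?_
        have := it_r4 hx hy k
        have h8 : 0 < l (n + 1) ^ (k + 1) := pow_pos (by linarith) _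
        linarith [this.1, this.2]
      · exact (h4 k hk α β).mono le_rfl (pow_le_pow_left₀ hx0.le (by linarith) _)
      · refine (r3 α β p).trans (Real.rpow_le_rpow_of_exponent_le (by linarith) ?_)
        push_cast; linarith
      · have := Atl.NB.add (sm'.sub h2) (h2.sub hA.sm) (r1 3 (by omega)) h7
        rw [sub_add_sub_cancel] at this
        refine this.mono le_rfl ?_
        have h8 : 4 / l (n + 1) ^ 2 ≤ 4 / (2 * l n) ^ 2 := by gcongr
        have h9 : 4 / (2 * l n) ^ 2 = 1 / l n ^ 2 := by field_simp; norm_num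
        have h10 : 0 < 1 / l n ^ 2 := by positivity
        have h11 : 4 / l n ^ 2 = 4 * (1 / l n ^ 2) := by ring
        have h12 : 2 / l n ^ 2 = 2 * (1 / l n ^ 2) := by ring
        linarith)
    f C0 ⟨le_rfl, hA.sm, l0 ▸ hA.highf, l0 ▸ hA.highG, l0 ▸ hΛ1, fun α β p => by
      rw [l0]; exact_mod_cast herr α β p, by
      rw [l0, sub_self, sub_self]
      intro w _ p
      have := A.Dw_sub w hA.sm hA.sm
      rw [sub_self, sub_self] at this
      rw [this]; simp⟩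
  -- the level tends to infinity
  have hinf : ∀ c, ∃ n, c ≤ C n := by
    intro c
    induction c with
    | zero => exact ⟨0, Nat.zero_le _⟩
    | succ c ih =>
      obtain ⟨n, hn⟩ := ih
      by_contra hne
      push Not at hne
      have hc : ∀ m, n ≤ m → C m = c := fun m hm =>
        le_antisymm (Nat.lt_succ_iff.1 (hne m)) (hn.trans (hmono hm))
      obtain ⟨Z, hZ0, hZ⟩ := A.exists_NB (N (c + 1)) (hSt n).2.1
      have hb : ∀ m, n ≤ m → ∀ k ≤ N (c + 1), A.NB k (g m) (Z + l m ^ (k + 1) / 2) := by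
        intro m hm
        induction m, hm using Nat.le_induction with
        | base =>
          intro k hk
          exact hZ.mono hk (le_add_of_nonneg_right (by have := l16 n; positivity))
        | succ m hm ih =>
          intro k hk
          refine ((hRel m).2.1 k (by rwa [hc m hm]) _ (by have := l16 m; positivity)
            (ih k hk)).mono le_rfl ?_
          have := it_r4 (l16 m) (l2 m) k
          linarith [this.1, this.2]
      have e1 : ∀ᶠ m in Filter.atTop, ∀ q : A.Idx × A.Idx, A.NB (N (c + 1)) (G q.1 q.2) (l m) := by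
        refine Filter.eventually_all.2 fun q => ?_
        obtain ⟨Y, -, hY⟩ := A.exists_NB (N (c + 1)) (hA.ten.sm q.1 q.2)
        exact (lt.eventually_ge_atTop Y).mono fun m hm => hY.mono le_rfl hm
      obtain ⟨m, ⟨⟨⟨m1, m2⟩, m3⟩, m4⟩⟩ := (((e1.and (lt.eventually_ge_atTop (2 * Z))).and
        (lt.eventually_ge_atTop ((L ^ 2) ^ n0 (c + 1)))).and (Filter.eventually_ge_atTop n)).exists
      have hx := l16 m
      have hy := l2 m
      have hp : ∀ k, l (m + 1) ≤ l (m + 1) ^ (k + 1) := fun k => le_self_pow₀ (by linarith) (by omega)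
      refine hup m (by rw [hc m m4, hc (m + 1) (by omega)]) ⟨(hSt m).1.trans (Nat.le_succ _),
        (hSt (m + 1)).2.1, fun k hk => ?_, fun k hk α β => ?_, ?_, (hRel m).2.2,
        (hSt (m + 1)).2.2.2.2.2.2⟩
      · rw [hc m m4] at hk
        refine (hb (m + 1) (by omega) k hk).mono le_rfl ?_
        linarith [hp k]
      · rw [hc m m4] at hk
        exact (m1 (α, β)).mono hk (by linarith [hp k])
      · rw [hc m m4]; linarith
  have hinv : ∀ n, (l n)⁻¹ ≤ (1 / 2 : ℝ) ^ n := fun n => by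
    rw [one_div, inv_pow]
    exact inv_anti₀ (by positivity) (lg n)
  obtain ⟨v, hv, hlim⟩ := hL g (fun n => (hSt n).2.1) fun k => by
    refine ⟨fun n => (1 / 2 : ℝ) ^ n, summable_geometric_two, ?_⟩
    obtain ⟨n, hn⟩ := hinf (3 * k + 4)
    filter_upwards [Filter.eventually_ge_atTop n] with m hm
    refine ((hRel m).1 k (hn.trans (hmono hm))).mono le_rfl (le_trans ?_ (hinv m))
    have := l16 m
    rw [← one_div, div_le_div_iff₀ (by positivity) (by linarith)]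
    nlinarith
  refine ⟨v, hv, fun α β p => ?_, fun w hw p => ?_⟩
  · have t1 : Filter.Tendsto (fun n => A.pull (g n) α β p) Filter.atTop (𝓝 (A.pull v α β p)) :=
      (continuous_fst.dotProduct continuous_snd).continuousAt.tendsto.comp
        ((hlim [α] p).prodMk_nhds (hlim [β] p))
    have t2 : Filter.Tendsto (fun n => A.pull (g n) α β p) Filter.atTop (𝓝 (G α β p)) := by
      rw [tendsto_iff_norm_sub_tendsto_zero]
      refine squeeze_zero (fun _ => norm_nonneg _) (fun n => ?_)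
        (tendsto_pow_atTop_nhds_zero_of_lt_one (r := (1 / 2 : ℝ)) (by norm_num) (by norm_num))
      rw [Real.norm_eq_abs, abs_sub_comm]
      refine ((hSt n).2.2.2.2.2.1 α β p).trans (le_trans ?_ (hinv n))
      rw [← Real.rpow_neg_one]
      exact Real.rpow_le_rpow_of_exponent_le (by linarith [l16 n])
        (by linarith [Nat.cast_nonneg (α := ℝ) (C n)])
    exact tendsto_nhds_unique t1 t2
  · rw [A.Dw_sub w hv hA.sm]
    refine le_of_tendsto' ((hlim w p).sub_const (A.Dw w f p)).norm fun n => ?_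
    have := (hSt n).2.2.2.2.2.2 w (by omega) p
    rw [A.Dw_sub w (hSt n).2.1 hA.sm] at this
    refine this.trans (le_trans (sub_le_self _ ?_) hε1)
    positivity

end Crest.Agent.R216
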