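import Crest.Agent.R216.Api4

/-!
# R216: asymptotic jet lemmas
-/

set_option autoImplicit false
set_option linter.unusedSectionVars false

open scoped Manifold ContDiff Topology
open Matrix

noncomputable section

namespace Crest.Agent.R216

/-- Continuous families of model jets `(T, b, lam w + A, M, c)` over a compact set. -/
structure JData (P ι : Type) [TopologicalSpace P] [Fintype ι] where
  Kc : Set P
  T : P → V4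
  b : P → V4
  w : P → V4
  A : P → V4
  M : P → V4
  c : P → V4
  g : ι → P → ℝ
  ξ : ι → P → ℝ
  ζ : ι → P → ℝ
  cpt : IsCompact Kc
  T_c : Continuous T
  b_c : Continuous b
  w_c : Continuous w
  A_c : Continuous A
  M_c : Continuous M
  c_c : Continuous c
  g_c : ∀ k, Continuous (g k)
  ξ_c : ∀ k, Continuous (ξ k)
  ζ_c : ∀ k, Continuous (ζ k)
  gram : ∀ p ∈ Kc, 0 < gram2 (T p) (b p)
  wT : ∀ p ∈ Kc, w p ⬝ᵥ T p = 0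
  wb : ∀ p ∈ Kc, w p ⬝ᵥ b p = 0
  ξ_ne : ∀ k, ∀ p ∈ Kc, 0 ≤ g k p → ξ k p ≠ 0

abbrev JDl := V4 × V4 × V4 × V4 × V4

theorem jl_tube {Y : Type} [TopologicalSpace Y] {K : Set Y} (hK : IsCompact K)
    {Φ : (ℝ × ℝ) × Y → ℝ} (hΦ : Continuous Φ) (h : ∀ y ∈ K, 0 < Φ ((0, 0), y)) :
    ∀ᶠ x in 𝓝 ((0, 0) : ℝ × ℝ), ∀ y ∈ K, 0 < Φ (x, y) :=
  hK.eventually_forall_of_forall_eventually (P := fun x y => 0 < Φ (x, y)) fun y hy =>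
    hΦ.continuousAt.eventually (lt_mem_nhds (h y hy))

theorem jl_extract {Q : ℝ × ℝ → Prop} (h : ∀ᶠ x in 𝓝 ((0, 0) : ℝ × ℝ), Q x) :
    ∃ m₀ lam₀ : ℝ, 0 < m₀ ∧ 1 ≤ lam₀ ∧ ∀ lam, lam₀ ≤ lam → Q (lam⁻¹, m₀) := by
  obtain ⟨e, he, h⟩ := Metric.eventually_nhds_iff.1 h
  refine ⟨e / 2, max 1 (2 / e), by positivity, le_max_left _ _, fun lam hl => h ?_⟩
  have h1 : 2 / e ≤ lam := (le_max_right _ _).trans hl
  have h0 : 0 < lam := lt_of_lt_of_le (by positivity) h1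
  have h2 : lam⁻¹ ≤ e / 2 := by
    rw [inv_le_comm₀ h0 (by positivity)]; simpa using h1
  rw [Prod.dist_eq, Real.dist_eq, Real.dist_eq, sub_zero, sub_zero, abs_of_pos (inv_pos.2 h0),
    abs_of_pos (by positivity)]
  exact max_lt (by linarith) (by linarith)

def jlA (x y dx dy v : V4) : ℝ := (v ⬝ᵥ dx) * (y ⬝ᵥ y) - (v ⬝ᵥ dy) * (x ⬝ᵥ y)
def jlB (x y dx dy v : V4) : ℝ := (v ⬝ᵥ dy) * (x ⬝ᵥ x) - (v ⬝ᵥ dx) * (x ⬝ᵥ y)
/-- `gram2 x y` times the projection of `v` onto `(x, y)^⊥`. -/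
def jlP (e : ℝ) (x y dx dy v : V4) : V4 :=
  gram2 x y • v - e • (jlA x y dx dy v • x + jlB x y dx dy v • y)

theorem jlP_orth {e : ℝ} {T b dx dy v : V4} (hT : v ⬝ᵥ T = 0) (hb : v ⬝ᵥ b = 0) :
    jlP e (T + e • dx) (b + e • dy) dx dy v ⬝ᵥ (T + e • dx) = 0 ∧
      jlP e (T + e • dx) (b + e • dy) dx dy v ⬝ᵥ (b + e • dy) = 0 := by
  have h1 : v ⬝ᵥ (T + e • dx) = e * (v ⬝ᵥ dx) := by simp [dotProduct_add, hT]
  have h2 : v ⬝ᵥ (b + e • dy) = e * (v ⬝ᵥ dy) := by simp [dotProduct_add, hb]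
  generalize T + e • dx = x at *
  generalize b + e • dy = y at *
  simp only [jlP, jlA, jlB, gram2, sub_dotProduct, add_dotProduct, smul_dotProduct, smul_eq_mul,
    h1, h2, dotProduct_comm y x]
  constructor <;> ring

theorem jlP_w {e lam : ℝ} (he : lam * e = 1) {T b dx dy v w : V4} (hw : v ⬝ᵥ w = 0)
    (wT : w ⬝ᵥ T = 0) (wb : w ⬝ᵥ b = 0) :
    jlP e (T + e • dx) (b + e • dy) dx dy v ⬝ᵥ (lam • w) =
      -(e * (jlA (T + e • dx) (b + e • dy) dx dy v * (w ⬝ᵥ dx) +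
        jlB (T + e • dx) (b + e • dy) dx dy v * (w ⬝ᵥ dy))) := by
  have h1 : (T + e • dx) ⬝ᵥ w = e * (w ⬝ᵥ dx) := by
    rw [dotProduct_comm]; simp [dotProduct_add, wT]
  have h2 : (b + e • dy) ⬝ᵥ w = e * (w ⬝ᵥ dy) := by
    rw [dotProduct_comm]; simp [dotProduct_add, wb]
  generalize T + e • dx = x at *
  generalize b + e • dy = y at *
  simp only [jlP, sub_dotProduct, add_dotProduct, smul_dotProduct, dotProduct_smul, smul_eq_mul,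
    h1, h2, hw]
  linear_combination -(e * (jlA x y dx dy v * (w ⬝ᵥ dx) + jlB x y dx dy v * (w ⬝ᵥ dy))) * he

theorem jl_margin {x y c l : V4} {m : ℝ} (hx : l ⬝ᵥ x = 0) (hy : l ⬝ᵥ y = 0)
    (h : m * (l ⬝ᵥ l) < gram2 x y * (l ⬝ᵥ c) ^ 2) : m ≤ cross3 x y c ⬝ᵥ cross3 x y c := by
  have h1 := gram2_mul_sq_le x y c l hx hy
  have h0 : 0 ≤ l ⬝ᵥ l := Finset.sum_nonneg fun i _ => mul_self_nonneg _
  exact (lt_of_mul_lt_mul_left (a := l ⬝ᵥ l) (by linarith) h0).le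

theorem jl_dotpos {w : V4} (h : w ≠ 0) : 0 < w ⬝ᵥ w :=
  lt_of_le_of_ne (Finset.sum_nonneg fun _ _ => mul_self_nonneg _)
    fun e => h (dotProduct_self_eq_zero.1 e.symm)

/-- `cross3 a b c ⬝ cross3 a b d` through scalar products. -/
def jlC (a b c d : V4) : ℝ :=
  (a ⬝ᵥ a) * ((b ⬝ᵥ b) * (c ⬝ᵥ d) - (b ⬝ᵥ d) * (c ⬝ᵥ b))
    - (a ⬝ᵥ b) * ((a ⬝ᵥ b) * (c ⬝ᵥ d) - (b ⬝ᵥ d) * (c ⬝ᵥ a))
    + (a ⬝ᵥ d) * ((a ⬝ᵥ b) * (c ⬝ᵥ b) - (b ⬝ᵥ b) * (c ⬝ᵥ a))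

def jlQ (x y v v' m : V4) : ℝ :=
  jlC x y v v' * jlC x y v v - (jlC x y m m * jlC x y v v - jlC x y m v ^ 2)

theorem jl_Pplus {x y v v' m : V4} {t : ℝ} (ht : t ≠ 0) (h : 0 < jlQ x y v v' m) :
    Pplus x y (t • v) (t • v') (t • m) := by
  have e : ∀ c d : V4, cross3 x y (t • c) ⬝ᵥ cross3 x y (t • d) = t ^ 2 * jlC x y c d := by
    intro c d
    rw [cross3_dot_cross3]
    simp only [jlC, smul_dotProduct, dotProduct_smul, smul_eq_mul]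
    ring
  unfold Pplus
  simp only [e]
  have h4 : 0 < t ^ 4 * jlQ x y v v' m := by positivity
  unfold jlQ at h4
  linarith

theorem jlQ_zero {T b w : V4} (wT : w ⬝ᵥ T = 0) (wb : w ⬝ᵥ b = 0) (s t : ℝ) :
    jlQ T b ((s * s) • w) ((t * t) • w) ((s * t) • w) =
      s ^ 6 * t ^ 2 * (gram2 T b * (w ⬝ᵥ w)) ^ 2 := by
  have h1 : T ⬝ᵥ w = 0 := by rw [dotProduct_comm]; exact wT
  have h2 : b ⬝ᵥ w = 0 := by rw [dotProduct_comm]; exact wb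
  simp only [jlQ, jlC, gram2, smul_dotProduct, dotProduct_smul, smul_eq_mul, wT, wb, h1, h2]
  ring

namespace JData

variable {P ι : Type} [TopologicalSpace P] [Fintype ι] (D : JData P ι)

def J (lam : ℝ) (p : P) : Jet := ⟨D.T p, D.b p, lam • D.w p + D.A p, D.M p, D.c p⟩

theorem dec {lam C₁ : ℝ} (hl : 0 < lam) {p : P} {J : Jet} (h : J.close (D.J lam p) (C₁ / lam)) :
    ∃ δ ∈ Metric.closedBall (0 : JDl) C₁, J = ⟨D.T p + lam⁻¹ • δ.1, D.b p + lam⁻¹ • δ.2.1,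
      lam • D.w p + (D.A p + lam⁻¹ • δ.2.2.1), D.M p + lam⁻¹ • δ.2.2.2.1,
      D.c p + lam⁻¹ • δ.2.2.2.2⟩ := by
  obtain ⟨h1, h2, h3, h4, h5⟩ := h
  have key : ∀ u : V4, ‖u‖ ≤ C₁ / lam → ‖lam • u‖ ≤ C₁ := fun u hu => by
    rw [norm_smul, Real.norm_eq_abs, abs_of_pos hl]
    rwa [le_div_iff₀ hl, mul_comm] at hu
  refine ⟨(lam • (J.x - (D.J lam p).x), lam • (J.y - (D.J lam p).y), lam • (J.xx - (D.J lam p).xx),
    lam • (J.xy - (D.J lam p).xy), lam • (J.yy - (D.J lam p).yy)), ?_, ?_⟩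
  · rw [mem_closedBall_zero_iff]
    simp only [Prod.norm_mk]
    exact max_le (key _ h1) (max_le (key _ h2) (max_le (key _ h3) (max_le (key _ h4) (key _ h5))))
  · cases J
    simp only [JData.J, smul_smul, inv_mul_cancel₀ hl.ne', one_smul, Jet.mk.injEq]
    refine ⟨?_, ?_, ?_, ?_, ?_⟩ <;> abel

/-- The perturbed jet with second derivatives multiplied by `e`. -/
def Js (e : ℝ) (y : P × JDl) : Jet :=
  ⟨D.T y.1 + e • y.2.1, D.b y.1 + e • y.2.2.1, D.w y.1 + e • (D.A y.1 + e • y.2.2.2.1),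
    e • (D.M y.1 + e • y.2.2.2.2.1), e • (D.c y.1 + e • y.2.2.2.2.2)⟩

theorem Js_B {lam : ℝ} (hl : 0 < lam) (p : P) (δ : JDl) (s t s' t' : ℝ) :
    (⟨D.T p + lam⁻¹ • δ.1, D.b p + lam⁻¹ • δ.2.1, lam • D.w p + (D.A p + lam⁻¹ • δ.2.2.1),
      D.M p + lam⁻¹ • δ.2.2.2.1, D.c p + lam⁻¹ • δ.2.2.2.2⟩ : Jet).B s t s' t' =
      lam • (D.Js lam⁻¹ (p, δ)).B s t s' t' := by
  ext i
  simp only [Jet.B, Js, Pi.add_apply, Pi.smul_apply, smul_eq_mul]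
  field_simp

/-- The projected vector. -/
def pr (v : P → V4) (e : ℝ) (y : P × JDl) : V4 :=
  jlP e (D.T y.1 + e • y.2.1) (D.b y.1 + e • y.2.2.1) y.2.1 y.2.2.1 (v y.1)

def qxx (v : P → V4) (e : ℝ) (y : P × JDl) : ℝ :=
  -(e * (jlA (D.T y.1 + e • y.2.1) (D.b y.1 + e • y.2.2.1) y.2.1 y.2.2.1 (v y.1) * (D.w y.1 ⬝ᵥ y.2.1) +
    jlB (D.T y.1 + e • y.2.1) (D.b y.1 + e • y.2.2.1) y.2.1 y.2.2.1 (v y.1) * (D.w y.1 ⬝ᵥ y.2.2.1)))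
    + D.pr v e y ⬝ᵥ (D.A y.1 + e • y.2.2.2.1)
def qxy (v : P → V4) (e : ℝ) (y : P × JDl) : ℝ := D.pr v e y ⬝ᵥ (D.M y.1 + e • y.2.2.2.2.1)
def qyy (v : P → V4) (e : ℝ) (y : P × JDl) : ℝ := D.pr v e y ⬝ᵥ (D.c y.1 + e • y.2.2.2.2.2)
def gr (e : ℝ) (y : P × JDl) : ℝ := gram2 (D.T y.1 + e • y.2.1) (D.b y.1 + e • y.2.2.1)

theorem pr_zero (v : P → V4) (y : P × JDl) : D.pr v 0 y = gram2 (D.T y.1) (D.b y.1) • v y.1 := by
  simp [pr, jlP]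

theorem pr_c {v : P → V4} (hv : Continuous v) :
    Continuous fun z : (ℝ × ℝ) × P × JDl => D.pr v z.1.1 z.2 := by
  have := D.T_c; have := D.b_c
  unfold pr jlP jlA jlB gram2
  fun_prop

theorem gr_c : Continuous fun z : (ℝ × ℝ) × P × JDl => D.gr z.1.1 z.2 := by
  have := D.T_c; have := D.b_c
  unfold gr gram2
  fun_prop

theorem q_c {v : P → V4} (hv : Continuous v) :
    (Continuous fun z : (ℝ × ℝ) × P × JDl => D.qxx v z.1.1 z.2) ∧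
    (Continuous fun z : (ℝ × ℝ) × P × JDl => D.qxy v z.1.1 z.2) ∧
    Continuous fun z : (ℝ × ℝ) × P × JDl => D.qyy v z.1.1 z.2 := by
  have := D.T_c; have := D.b_c; have := D.w_c; have := D.A_c; have := D.M_c; have := D.c_c
  have hp := D.pr_c hv
  refine ⟨Continuous.add ?_ (hp.dotProduct ?_), hp.dotProduct ?_, hp.dotProduct ?_⟩
  · unfold jlA jlB; fun_prop
  all_goals fun_prop

theorem B_c {s t s' t' : P → ℝ} (hs : Continuous s) (ht : Continuous t) (hs' : Continuous s')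
    (ht' : Continuous t') : Continuous fun z : (ℝ × ℝ) × P × JDl =>
      (D.Js z.1.1 z.2).B (s z.2.1) (t z.2.1) (s' z.2.1) (t' z.2.1) := by
  have := D.w_c; have := D.A_c; have := D.M_c; have := D.c_c
  simp only [Jet.B, Js]
  fun_prop

theorem B_zero (y : P × JDl) (s t s' t' : ℝ) : (D.Js 0 y).B s t s' t' = (s * s') • D.w y.1 := by
  simp [Jet.B, Js]

/-- For a jet `J` within `e = C₁/lam` of the model let `pr x = x - α J.x - β J.y` be the orthogonal projection onto `(J.x, J.y)^⊥`; if `x ⊥ T, b` then `‖pr x - x‖ ≤ C ‖x‖ e`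
(`gram2 ≥ g₀ > 0` and all data bounded on `Kc`). By compactness there are `η, γ₀ > 0` such that `‖w p‖ ≤ η` implies `l ⬝ (J 0 p).B ≥ γ₀` for the active `k` and
`max (|l ⬝ A|, |l ⬝ M|, |l ⬝ c|) ≥ γ₀`; shrink `η` so that `C C₁ η` is small compared with `γ₀`. If `‖w p‖ ≤ η` use `l' = pr (l p)`:
`l' ⬝ J.xx = lam (l' - l) ⬝ w + l ⬝ A + O(e)`, `|lam (l' - l) ⬝ w| ≤ C C₁ η`. If `‖w p‖ ≥ η` use `l' = pr (w p)`: `l' ⬝ J.B ≥ ξ² lam |w|² (1 - C e) - C |w| > 0` for large `lam` (`|ξ| ≥ ξ₀` on active points).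
The margin `J.II` follows from `gram2_mul_sq_le`. -/
theorem JL1 (l : P → V4) (l_c : Continuous l) (hT : ∀ p ∈ D.Kc, l p ⬝ᵥ D.T p = 0)
    (hb : ∀ p ∈ D.Kc, l p ⬝ᵥ D.b p = 0) (hw : ∀ p ∈ D.Kc, l p ⬝ᵥ D.w p = 0)
    (hG : ∀ p ∈ D.Kc, D.w p = 0 → ∀ k, 0 ≤ D.g k p →
      0 < l p ⬝ᵥ (D.J 0 p).B (D.ξ k p) (D.ζ k p) (D.ξ k p) (D.ζ k p))
    (hN : ∀ p ∈ D.Kc, D.w p = 0 → l p ⬝ᵥ D.A p ≠ 0 ∨ l p ⬝ᵥ D.M p ≠ 0 ∨ l p ⬝ᵥ D.c p ≠ 0)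
    (C₁ : ℝ) : ∃ m₀ lam₀ : ℝ, 0 < m₀ ∧ ∀ lam, lam₀ ≤ lam → ∀ p ∈ D.Kc, ∀ J : Jet,
      J.close (D.J lam p) (C₁ / lam) →
        (∃ l' : V4, l' ⬝ᵥ J.x = 0 ∧ l' ⬝ᵥ J.y = 0 ∧
          ∀ k, 0 ≤ D.g k p → 0 < l' ⬝ᵥ J.B (D.ξ k p) (D.ζ k p) (D.ξ k p) (D.ζ k p)) ∧
        J.II m₀ := by
  have hball : IsCompact (Metric.closedBall (0 : JDl) C₁) := isCompact_closedBall _ _
  -- the open set of good points
  set U : Set P := {p | (∀ k, D.g k p < 0 ∨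
      0 < l p ⬝ᵥ (D.J 0 p).B (D.ξ k p) (D.ζ k p) (D.ξ k p) (D.ζ k p)) ∧
      0 < (l p ⬝ᵥ D.A p) ^ 2 + (l p ⬝ᵥ D.M p) ^ 2 + (l p ⬝ᵥ D.c p) ^ 2} with hU
  have hUo : IsOpen U := by
    have := D.w_c; have := D.A_c; have := D.M_c; have := D.c_c
    refine IsOpen.inter (s := {p | ∀ k, D.g k p < 0 ∨
      0 < l p ⬝ᵥ (D.J 0 p).B (D.ξ k p) (D.ζ k p) (D.ξ k p) (D.ζ k p)}) ?_
      (isOpen_lt (f := fun _ => (0 : ℝ))
        (g := fun p => (l p ⬝ᵥ D.A p) ^ 2 + (l p ⬝ᵥ D.M p) ^ 2 + (l p ⬝ᵥ D.c p) ^ 2)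
        continuous_const (by fun_prop))
    rw [Set.ofPred_forall]
    refine isOpen_iInter_of_finite fun k => IsOpen.union (s₁ := {p | D.g k p < 0})
      (s₂ := {p | 0 < l p ⬝ᵥ (D.J 0 p).B (D.ξ k p) (D.ζ k p) (D.ξ k p) (D.ζ k p)})
      (isOpen_lt (D.g_c k) continuous_const) (isOpen_lt continuous_const ?_)
    have := D.ξ_c k; have := D.ζ_c k
    simp only [Jet.B, JData.J]
    fun_prop
  obtain ⟨η, hη, hηU⟩ := (D.cpt.diff hUo).exists_forall_le' (f := fun p => ‖D.w p‖) (a := 0)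
    D.w_c.norm.continuousOn fun p hp => norm_pos_iff.2 fun hw0 => hp.2 ⟨fun k =>
      (lt_or_ge (D.g k p) 0).imp_right (hG p hp.1 hw0 k), by
        rcases hN p hp.1 hw0 with h | h | h <;> positivity⟩
  have hK1 : IsCompact (D.Kc ∩ {p | ‖D.w p‖ ≤ η / 2}) :=
    D.cpt.inter_right (isClosed_le D.w_c.norm continuous_const)
  have hK2 : IsCompact (D.Kc ∩ {p | η / 2 ≤ ‖D.w p‖}) :=
    D.cpt.inter_right (isClosed_le continuous_const D.w_c.norm)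
  have hK1U : ∀ p ∈ D.Kc ∩ {p | ‖D.w p‖ ≤ η / 2}, p ∈ U := fun p hp => by
    by_contra h
    have h1 := hηU p ⟨hp.1, h⟩
    have h2 : ‖D.w p‖ ≤ η / 2 := hp.2
    linarith
  have hK2w : ∀ p ∈ D.Kc ∩ {p | η / 2 ≤ ‖D.w p‖}, 0 < D.w p ⬝ᵥ D.w p := fun p hp =>
    jl_dotpos (norm_pos_iff.1 (lt_of_lt_of_le (by positivity) hp.2))
  obtain ⟨cxx, cxy, cyy⟩ := D.q_c l_c
  have cg := D.gr_c
  have cl := D.pr_c l_c
  have cw := D.pr_c D.w_c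
  have t1 : ∀ k, ∀ᶠ x in 𝓝 ((0, 0) : ℝ × ℝ),
      ∀ y ∈ ((D.Kc ∩ {p | ‖D.w p‖ ≤ η / 2}) ∩ {p | 0 ≤ D.g k p}) ×ˢ Metric.closedBall (0 : JDl) C₁,
        0 < D.ξ k y.1 * D.ξ k y.1 * D.qxx l x.1 y +
          (D.ξ k y.1 * D.ζ k y.1 + D.ζ k y.1 * D.ξ k y.1) * D.qxy l x.1 y +
          D.ζ k y.1 * D.ζ k y.1 * D.qyy l x.1 y := fun k => by
    have := D.ξ_c k; have := D.ζ_c k
    refine jl_tube ((hK1.inter_right (isClosed_le continuous_const (D.g_c k))).prod hball)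
      (Φ := fun z => D.ξ k z.2.1 * D.ξ k z.2.1 * D.qxx l z.1.1 z.2 +
          (D.ξ k z.2.1 * D.ζ k z.2.1 + D.ζ k z.2.1 * D.ξ k z.2.1) * D.qxy l z.1.1 z.2 +
          D.ζ k z.2.1 * D.ζ k z.2.1 * D.qyy l z.1.1 z.2) (by fun_prop) fun y hy => ?_
    have h1 := ((hK1U y.1 hy.1.1).1 k).resolve_left (not_lt.2 hy.1.2)
    have h2 := mul_pos (D.gram y.1 hy.1.1.1) h1
    simp only [qxx, qxy, qyy, pr_zero, zero_smul, add_zero, zero_mul, neg_zero, zero_add,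
      smul_dotProduct, smul_eq_mul]
    simp only [Jet.B, JData.J, zero_smul, zero_add, dotProduct_add, dotProduct_smul,
      smul_eq_mul] at h2
    linarith
  have t2 : ∀ᶠ x in 𝓝 ((0, 0) : ℝ × ℝ),
      ∀ y ∈ (D.Kc ∩ {p | ‖D.w p‖ ≤ η / 2}) ×ˢ Metric.closedBall (0 : JDl) C₁,
        0 < D.gr x.1 y * (D.qxx l x.1 y ^ 2 + D.qxy l x.1 y ^ 2 + D.qyy l x.1 y ^ 2) -
          3 * x.2 * (D.pr l x.1 y ⬝ᵥ D.pr l x.1 y) := by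
    refine jl_tube (hK1.prod hball) (Φ := fun z => D.gr z.1.1 z.2 *
      (D.qxx l z.1.1 z.2 ^ 2 + D.qxy l z.1.1 z.2 ^ 2 + D.qyy l z.1.1 z.2 ^ 2) -
          3 * z.1.2 * (D.pr l z.1.1 z.2 ⬝ᵥ D.pr l z.1.1 z.2)) (by fun_prop) fun y hy => ?_
    have h1 := (hK1U y.1 hy.1).2
    have h2 := mul_pos (pow_pos (D.gram y.1 hy.1.1) 3) h1
    simp only [qxx, qxy, qyy, gr, pr_zero, zero_smul, add_zero, zero_mul, neg_zero, zero_add,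
      smul_dotProduct, smul_eq_mul, mul_zero, sub_zero]
    linarith
  have t3 : ∀ k, ∀ᶠ x in 𝓝 ((0, 0) : ℝ × ℝ),
      ∀ y ∈ ((D.Kc ∩ {p | η / 2 ≤ ‖D.w p‖}) ∩ {p | 0 ≤ D.g k p}) ×ˢ Metric.closedBall (0 : JDl) C₁,
        0 < D.pr D.w x.1 y ⬝ᵥ (D.Js x.1 y).B (D.ξ k y.1) (D.ζ k y.1) (D.ξ k y.1) (D.ζ k y.1) :=
    fun k => by
    refine jl_tube ((hK2.inter_right (isClosed_le continuous_const (D.g_c k))).prod hball)
      (Φ := fun z => D.pr D.w z.1.1 z.2 ⬝ᵥ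
        (D.Js z.1.1 z.2).B (D.ξ k z.2.1) (D.ζ k z.2.1) (D.ξ k z.2.1) (D.ζ k z.2.1))
      (cw.dotProduct (D.B_c (D.ξ_c k) (D.ζ_c k) (D.ξ_c k) (D.ζ_c k))) fun y hy => ?_
    have h1 := hK2w y.1 hy.1.1
    have h2 := D.gram y.1 hy.1.1.1
    have h3 := mul_self_pos.2 (D.ξ_ne k y.1 hy.1.1.1 hy.1.2)
    simp only [pr_zero, B_zero, smul_dotProduct, dotProduct_smul, smul_eq_mul]
    positivity
  have t4 : ∀ᶠ x in 𝓝 ((0, 0) : ℝ × ℝ),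
      ∀ y ∈ (D.Kc ∩ {p | η / 2 ≤ ‖D.w p‖}) ×ˢ Metric.closedBall (0 : JDl) C₁,
        0 < D.gr x.1 y * (D.pr D.w x.1 y ⬝ᵥ (D.Js x.1 y).B 1 0 1 0) ^ 2 -
          x.2 * (D.pr D.w x.1 y ⬝ᵥ D.pr D.w x.1 y) := by
    have cB := cw.dotProduct (D.B_c (s := fun _ => 1) (t := fun _ => 0) (s' := fun _ => 1)
      (t' := fun _ => 0) continuous_const continuous_const continuous_const continuous_const)
    refine jl_tube (hK2.prod hball) (Φ := fun z => D.gr z.1.1 z.2 *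
      (D.pr D.w z.1.1 z.2 ⬝ᵥ (D.Js z.1.1 z.2).B 1 0 1 0) ^ 2 -
          z.1.2 * (D.pr D.w z.1.1 z.2 ⬝ᵥ D.pr D.w z.1.1 z.2))
      ((cg.mul (cB.pow 2)).sub (by fun_prop)) fun y hy => ?_
    have h1 := hK2w y.1 hy.1
    have h2 := D.gram y.1 hy.1.1
    simp only [gr, pr_zero, B_zero, smul_dotProduct, dotProduct_smul, smul_eq_mul, zero_smul,
      add_zero, zero_mul, sub_zero]
    positivity
  obtain ⟨m₀, lam₀, hm, hl1, H⟩ := jl_extract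
    ((Filter.eventually_all.2 t1).and (t2.and ((Filter.eventually_all.2 t3).and t4)))
  refine ⟨m₀, lam₀, hm, fun lam hlam p hp J hJ => ?_⟩
  have hl0 : 0 < lam := by linarith
  obtain ⟨δ, hδ, rfl⟩ := D.dec hl0 hJ
  obtain ⟨H1, H2, H3, H4⟩ := H lam hlam
  have hg0 : 0 ≤ D.gr lam⁻¹ (p, δ) := gram2_nonneg _ _
  rcases le_total ‖D.w p‖ (η / 2) with hc | hc
  · obtain ⟨o1, o2⟩ := jlP_orth (e := lam⁻¹) (dx := δ.1) (dy := δ.2.1) (hT p hp) (hb p hp)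
    have exx : D.pr l lam⁻¹ (p, δ) ⬝ᵥ (lam • D.w p + (D.A p + lam⁻¹ • δ.2.2.1)) =
        D.qxx l lam⁻¹ (p, δ) := by
      rw [dotProduct_add]
      exact congrArg (· + _) (jlP_w (mul_inv_cancel₀ hl0.ne') (hw p hp) (D.wT p hp) (D.wb p hp))
    refine ⟨⟨D.pr l lam⁻¹ (p, δ), o1, o2, fun k hk => ?_⟩, ?_⟩
    · have := H1 k (p, δ) ⟨⟨⟨hp, hc⟩, hk⟩, hδ⟩
      rw [Jet.B, dotProduct_add, dotProduct_add, dotProduct_smul, dotProduct_smul, dotProduct_smul,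
        exx]
      exact this
    · have h := H2 (p, δ) ⟨⟨hp, hc⟩, hδ⟩
      by_contra hn
      simp only [Jet.II, not_or] at hn
      obtain ⟨n1, n2, n3⟩ := hn
      have m1 := not_lt.1 fun hh => n1 (jl_margin o1 o2 hh)
      have m2 := not_lt.1 fun hh => n2 (jl_margin o1 o2 hh)
      have m3 := not_lt.1 fun hh => n3 (jl_margin o1 o2 hh)
      change D.gr lam⁻¹ (p, δ) * (D.pr l lam⁻¹ (p, δ) ⬝ᵥ _) ^ 2 ≤
        m₀ * (D.pr l lam⁻¹ (p, δ) ⬝ᵥ D.pr l lam⁻¹ (p, δ)) at m1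
      rw [exx] at m1
      change D.gr lam⁻¹ (p, δ) * D.qxy l lam⁻¹ (p, δ) ^ 2 ≤
        m₀ * (D.pr l lam⁻¹ (p, δ) ⬝ᵥ D.pr l lam⁻¹ (p, δ)) at m2
      change D.gr lam⁻¹ (p, δ) * D.qyy l lam⁻¹ (p, δ) ^ 2 ≤
        m₀ * (D.pr l lam⁻¹ (p, δ) ⬝ᵥ D.pr l lam⁻¹ (p, δ)) at m3
      simp only at h
      linarith
  · obtain ⟨o1, o2⟩ := jlP_orth (e := lam⁻¹) (dx := δ.1) (dy := δ.2.1) (D.wT p hp) (D.wb p hp)
    refine ⟨⟨D.pr D.w lam⁻¹ (p, δ), o1, o2, fun k hk => ?_⟩, Or.inl (jl_margin o1 o2 ?_)⟩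
    · have := H3 k (p, δ) ⟨⟨⟨hp, hc⟩, hk⟩, hδ⟩
      rw [D.Js_B hl0, dotProduct_smul]
      exact mul_pos hl0 this
    · have h := H4 (p, δ) ⟨⟨hp, hc⟩, hδ⟩
      have e := D.Js_B hl0 p δ 1 0 1 0
      have e' : lam • D.w p + (D.A p + lam⁻¹ • δ.2.2.1) = lam • (D.Js lam⁻¹ (p, δ)).B 1 0 1 0 := by
        rw [← e]; simp [Jet.B]
      change m₀ * (D.pr D.w lam⁻¹ (p, δ) ⬝ᵥ D.pr D.w lam⁻¹ (p, δ)) < D.gr lam⁻¹ (p, δ) *
        (D.pr D.w lam⁻¹ (p, δ) ⬝ᵥ (lam • D.w p + (D.A p + lam⁻¹ • δ.2.2.1))) ^ 2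
      rw [e', dotProduct_smul, smul_eq_mul, mul_pow]
      simp only at h
      have h1 : (1 : ℝ) ≤ lam ^ 2 := one_le_pow₀ (hl1.trans hlam)
      have h2 := mul_nonneg hg0
        (sq_nonneg (D.pr D.w lam⁻¹ (p, δ) ⬝ᵥ (D.Js lam⁻¹ (p, δ)).B 1 0 1 0))
      nlinarith

/-- `Pplus` is invariant under scaling `v, v', m` by `lam⁻¹`. The scaled data converge to
`v = ξ'² w`, `v' = ξ² w`, `m = ξ' ξ w`, where the left side is `0` and the right side is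
`ξ'⁶ ξ² (gram2 T b |w|²)² > 0` (`cross3_dot_cross3`). The difference is a continuous function of
`(p, perturbation)`, positive on the compact set `{p ∈ Kc | c₁ ≤ ‖w p‖, k', k active} × {0}`
(tube lemma, `generalized_tube_lemma` or `IsCompact.exists_thickening…`). -/
theorem JL3 (c₁ : ℝ) (hc : 0 < c₁) (C₁ : ℝ) : ∃ lam₀ : ℝ, ∀ lam, lam₀ ≤ lam → ∀ p ∈ D.Kc,
    c₁ ≤ ‖D.w p‖ → ∀ J : Jet, J.close (D.J lam p) (C₁ / lam) → ∀ k' k, 0 ≤ D.g k' p → 0 ≤ D.g k p →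
      Pplus J.x J.y (J.B (D.ξ k' p) (D.ζ k' p) (D.ξ k' p) (D.ζ k' p))
        (J.B (D.ξ k p) (D.ζ k p) (D.ξ k p) (D.ζ k p))
        (J.B (D.ξ k' p) (D.ζ k' p) (D.ξ k p) (D.ζ k p)) := by
  have hball : IsCompact (Metric.closedBall (0 : JDl) C₁) := isCompact_closedBall _ _
  have t : ∀ k' k, ∀ᶠ x in 𝓝 ((0, 0) : ℝ × ℝ),
      ∀ y ∈ (((D.Kc ∩ {p | c₁ ≤ ‖D.w p‖}) ∩ {p | 0 ≤ D.g k' p}) ∩ {p | 0 ≤ D.g k p}) ×ˢ
        Metric.closedBall (0 : JDl) C₁,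
        0 < jlQ (D.Js x.1 y).x (D.Js x.1 y).y
          ((D.Js x.1 y).B (D.ξ k' y.1) (D.ζ k' y.1) (D.ξ k' y.1) (D.ζ k' y.1))
          ((D.Js x.1 y).B (D.ξ k y.1) (D.ζ k y.1) (D.ξ k y.1) (D.ζ k y.1))
          ((D.Js x.1 y).B (D.ξ k' y.1) (D.ζ k' y.1) (D.ξ k y.1) (D.ζ k y.1)) := fun k' k => by
    have c1 := D.B_c (D.ξ_c k') (D.ζ_c k') (D.ξ_c k') (D.ζ_c k')
    have c2 := D.B_c (D.ξ_c k) (D.ζ_c k) (D.ξ_c k) (D.ζ_c k)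
    have c3 := D.B_c (D.ξ_c k') (D.ζ_c k') (D.ξ_c k) (D.ζ_c k)
    have cx : Continuous fun z : (ℝ × ℝ) × P × JDl => (D.Js z.1.1 z.2).x := by
      have := D.T_c; simp only [Js]; fun_prop
    have cy : Continuous fun z : (ℝ × ℝ) × P × JDl => (D.Js z.1.1 z.2).y := by
      have := D.b_c; simp only [Js]; fun_prop
    have cQ : Continuous fun u : JDl => jlQ u.1 u.2.1 u.2.2.1 u.2.2.2.1 u.2.2.2.2 := by
      unfold jlQ jlC; fun_prop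
    refine jl_tube ((((D.cpt.inter_right (isClosed_le continuous_const D.w_c.norm)).inter_right
      (isClosed_le continuous_const (D.g_c k'))).inter_right
      (isClosed_le continuous_const (D.g_c k))).prod hball)
      (cQ.comp (cx.prodMk (cy.prodMk (c1.prodMk (c2.prodMk c3))))) fun y hy => ?_
    have h1 : 0 < D.w y.1 ⬝ᵥ D.w y.1 :=
      jl_dotpos (norm_pos_iff.1 (lt_of_lt_of_le hc hy.1.1.1.2))
    have h2 := D.gram y.1 hy.1.1.1.1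
    have h3 := D.ξ_ne k' y.1 hy.1.1.1.1 hy.1.1.2
    have h4 := D.ξ_ne k y.1 hy.1.1.1.1 hy.1.2
    simp only [Function.comp_apply, B_zero]
    simp only [Js, zero_smul, add_zero]
    rw [jlQ_zero (D.wT _ hy.1.1.1.1) (D.wb _ hy.1.1.1.1)]
    positivity
  obtain ⟨m₀, lam₀, -, hl1, H⟩ := jl_extract
    (Filter.eventually_all.2 fun k' => Filter.eventually_all.2 (t k'))
  refine ⟨lam₀, fun lam hlam p hp hw J hJ k' k hk' hk => ?_⟩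
  have hl0 : 0 < lam := by linarith
  obtain ⟨δ, hδ, rfl⟩ := D.dec hl0 hJ
  rw [D.Js_B hl0, D.Js_B hl0, D.Js_B hl0]
  exact jl_Pplus hl0.ne' (H lam hlam k' k (p, δ) ⟨⟨⟨⟨hp, hw⟩, hk'⟩, hk⟩, hδ⟩)

end JData

end Crest.Agent.R216
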