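import Crest.Agent.R216.KerB

/-!
# R216: phase normalisation and the kernel element
-/

set_option autoImplicit false
set_option linter.unusedSectionVars false

open scoped Manifold ContDiff Topology
open Matrix

noncomputable section

namespace Crest.Agent.R216

open Real Per

section

variable {R : Type} [CommRing R] [Algebra ℝ R] (D : Derivation ℝ R R)

theorem ker_vD_comb (a b : R) (V W : Fin 4 → R) :
    vD D (a • V + b • W) = a • vD D V + D a • V + (b • vD D W + D b • W) := by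
  funext i
  simp only [vD, Pi.add_apply, Pi.smul_apply, smul_eq_mul, map_add, Derivation.leibniz]
  ring

theorem ker_D_dot (V W : Fin 4 → R) : D (V ⬝ᵥ W) = vD D V ⬝ᵥ W + V ⬝ᵥ vD D W := by
  simp only [dotProduct, Fin.sum_univ_four, vD, map_add, Derivation.leibniz, smul_eq_mul]
  ring

end

theorem ker_exists_prim {m : R2 → ℝ} (hm : ContDiff ℝ ∞ m) :
    ∃ ψ : R2 → ℝ, ContDiff ℝ ∞ ψ ∧ ∀ z, dy ψ z = m z := by
  have h1 : ContDiff ℝ ∞ fun z : R2 => z.2 * ∫ s in (0 : ℝ)..1, m (z.1, z.2 * s) :=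
    contDiff_snd.mul (p2_pint (f := fun q : R2 × ℝ => m (q.1.1, q.1.2 * q.2))
      (hm.comp (by fun_prop)) 0 1)
  have h2 : (fun z : R2 => z.2 * ∫ s in (0 : ℝ)..1, m (z.1, z.2 * s)) =
      fun z : R2 => ∫ s in (0 : ℝ)..z.2, m (z.1, s) := by
    funext z
    have := intervalIntegral.smul_integral_comp_mul_left (a := 0) (b := 1)
      (fun s => m (z.1, s)) z.2
    simpa using this
  rw [h2] at h1
  refine ⟨_, h1, fun z => ?_⟩
  have h3 : HasDerivAt (fun t : ℝ => ((z.1, t) : R2)) (0, 1) z.2 :=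
    (hasDerivAt_const z.2 z.1).prodMk (hasDerivAt_id z.2)
  have h4 := ((h1.differentiable (by simp)) (z.1, z.2)).hasFDerivAt.comp_hasDerivAt z.2 h3
  have hc : Continuous fun s : ℝ => m (z.1, s) := hm.continuous.comp (Continuous.prodMk_right _)
  have h5 : HasDerivAt (fun t : ℝ => ∫ s in (0 : ℝ)..t, m (z.1, s)) (m (z.1, z.2)) z.2 :=
    (hc.integral_hasStrictDerivAt 0 z.2).hasDerivAt
  exact h4.unique h5

namespace LocData

variable {ι : Type} [Fintype ι] {L : LocData ι}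

theorem Frame.Th_comb (F : L.Frame) (a b : Per R2) :
    vD Th (a • F.E1P + b • F.E2P) = Th a • F.E1P + Th b • F.E2P := by
  rw [ker_vD_comb, Frame.E1P, Frame.E2P, Th_vcst, Th_vcst]; simp

set_option maxHeartbeats 1600000 in
theorem Frame.exists_ker (F : L.Frame) (τ : Shape) : Nonempty (F.Ker τ) := by
  obtain ⟨C, hC⟩ := F.exists_C τ
  set Q := F.loop τ C with hQ
  set Q3 := F.Q3 τ with hQ3
  set sb := Per.sub (Frame.jC C) (Frame.jC_sm C) with hsb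
  obtain ⟨hu1, hu2, -, hV1, hV2⟩ := Q3.comp_sub (Frame.jC C) (Frame.jC_sm C)
  rw [hQ3, F.Q3_comp τ C, ← hQ, ← hQ3, ← hsb] at hu1 hu2 hV1 hV2
  have hTh : ∀ G, Th (sb G) = sb (Th G) := Th_sub _ _
  have hmean : ∀ G, mean (sb G) = sb (mean G) := mean_sub _ _
  set m0 := mean (vD Th (F.Vh Q) ⬝ᵥ vD (pd ((0, 1), 0)) (F.Vh Q)) with hm0
  obtain ⟨ψ, hψ, hdψ⟩ := ker_exists_prim (m := fun z => -m0.1 (z, 0))
    ((sm m0).comp (contDiff_id.prodMk contDiff_const)).neg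
  set cψ : Per R2 := cst (dy ψ) (dy_sm hψ) with hcψ
  have hcψ0 : Th cψ = 0 := Th_cst _ _
  have hYp : ∀ V : Fin 4 → Per R2,
      vD (Yp ψ hψ) V = vD (pd ((0, 1), 0)) V + cψ • vD Th V := fun V => rfl
  refine ⟨⟨C, ψ, hψ, sb (Q3.K1 Frame.vs), sb (Q3.K2 Frame.vs), ?_, ?_, ?_, ?_, ?_, ?_⟩⟩
  · intro z hz θ
    rw [← hQ, hYp, dotProduct_add, dotProduct_smul, smul_eq_mul, map_add, mean_mul hcψ0, ← hm0]
    have h1 : (mean (vD Th (F.Vh Q) ⬝ᵥ vD Th (F.Vh Q))).1 (z, θ) =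
        (mean (Th Q.V1 ^ 2 + Th Q.V2 ^ 2)).1 (z, θ) := by
      refine mean_congr (fun t => ?_) θ
      rw [Frame.Vh, F.Th_comb, dot_val]
      change ((Th Q.V1).1 (z, t) • F.E1 z + (Th Q.V2).1 (z, t) • F.E2 z) ⬝ᵥ
        ((Th Q.V1).1 (z, t) • F.E1 z + (Th Q.V2).1 (z, t) • F.E2 z) =
        (Th Q.V1).1 (z, t) ^ 2 + (Th Q.V2).1 (z, t) ^ 2
      simp only [add_dotProduct, dotProduct_add, smul_dotProduct, dotProduct_smul, smul_eq_mul,
        F.E11 z hz, F.E22 z hz, F.E12 z hz, dotProduct_comm (F.E2 z) (F.E1 z)]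
      ring
    rw [Q.mean_ThV_sq] at h1
    change m0.1 (z, θ) + dy ψ z * (mean (vD Th (F.Vh Q) ⬝ᵥ vD Th (F.Vh Q))).1 (z, θ) = 0
    rw [h1, hdψ]
    change m0.1 (z, 0) + -m0.1 (z, 0) * 1 = 0
    ring
  · rw [hmean, Q3.mean_K1, map_zero]
  · rw [hmean, Q3.mean_K2, map_zero]
  · rw [← hQ, hu1, hu2, hTh, hTh, ← map_mul, ← map_mul, ← map_add, Q3.K_ker, map_zero]
  · rw [← hQ, hV1, hV2, hTh, hTh, ← map_mul, ← map_mul, ← map_add, hmean, Q3.K_orth, map_zero]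
  · intro z hz θ
    have hzΩ := F.sub z hz
    rw [← hQ]
    set k1 := Th (sb (Q3.K1 Frame.vs)) with hk1
    set k2 := Th (sb (Q3.K2 Frame.vs)) with hk2
    have hE1 : vD (Yp ψ hψ) F.E1P = vcst (dy F.E1) (dy_sm F.E1_sm) := Yp_vcst _ _ _ _
    have hE2 : vD (Yp ψ hψ) F.E2P = vcst (dy F.E2) (dy_sm F.E2_sm) := Yp_vcst _ _ _ _
    have d11 : F.E1 z ⬝ᵥ dy F.E1 z = 0 := by
      have h := Yp_congr ψ hψ (F := F.E1P ⬝ᵥ F.E1P) (G := 1) F.Ω_open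
        (fun z hz θ => by rw [dot_val]; exact F.E11 z hz) z hzΩ θ
      rw [ker_D_dot, hE1, Derivation.map_one_eq_zero] at h
      change (_ ⬝ᵥ F.E1P).1 (z, θ) + (F.E1P ⬝ᵥ _).1 (z, θ) = 0 at h
      rw [dot_val, dot_val] at h
      change dy F.E1 z ⬝ᵥ F.E1 z + F.E1 z ⬝ᵥ dy F.E1 z = 0 at h
      rw [dotProduct_comm] at h; linarith
    have d22 : F.E2 z ⬝ᵥ dy F.E2 z = 0 := by
      have h := Yp_congr ψ hψ (F := F.E2P ⬝ᵥ F.E2P) (G := 1) F.Ω_open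
        (fun z hz θ => by rw [dot_val]; exact F.E22 z hz) z hzΩ θ
      rw [ker_D_dot, hE2, Derivation.map_one_eq_zero] at h
      change (_ ⬝ᵥ F.E2P).1 (z, θ) + (F.E2P ⬝ᵥ _).1 (z, θ) = 0 at h
      rw [dot_val, dot_val] at h
      change dy F.E2 z ⬝ᵥ F.E2 z + F.E2 z ⬝ᵥ dy F.E2 z = 0 at h
      rw [dotProduct_comm] at h; linarith
    have d12 : F.E2 z ⬝ᵥ dy F.E1 z = -(F.E1 z ⬝ᵥ dy F.E2 z) := by
      have h := Yp_congr ψ hψ (F := F.E1P ⬝ᵥ F.E2P) (G := 0) F.Ω_open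
        (fun z hz θ => by rw [dot_val]; exact F.E12 z hz) z hzΩ θ
      rw [ker_D_dot, hE1, hE2, map_zero] at h
      change (_ ⬝ᵥ F.E2P).1 (z, θ) + (F.E1P ⬝ᵥ _).1 (z, θ) = 0 at h
      rw [dot_val, dot_val] at h
      change dy F.E1 z ⬝ᵥ F.E2 z + F.E1 z ⬝ᵥ dy F.E2 z = 0 at h
      rw [dotProduct_comm] at h; linarith
    have h1 : (mean (vD Th (sb (Q3.K1 Frame.vs) • F.E1P + sb (Q3.K2 Frame.vs) • F.E2P) ⬝ᵥ
        vD (Yp ψ hψ) (F.Vh Q))).1 (z, θ) =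
        (mean (k1 * Yp ψ hψ Q.V1 + k2 * Yp ψ hψ Q.V2
          + sb F.e3 * (k1 * Q.V2 - k2 * Q.V1))).1 (z, θ) := by
      refine mean_congr (fun t => ?_) θ
      rw [Frame.Vh, F.Th_comb, ker_vD_comb, hE1, hE2, dot_val, ← hk1, ← hk2]
      change (k1.1 (z, t) • F.E1 z + k2.1 (z, t) • F.E2 z) ⬝ᵥ
        (Q.V1.1 (z, t) • dy F.E1 z + (Yp ψ hψ Q.V1).1 (z, t) • F.E1 z
          + (Q.V2.1 (z, t) • dy F.E2 z + (Yp ψ hψ Q.V2).1 (z, t) • F.E2 z)) =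
        k1.1 (z, t) * (Yp ψ hψ Q.V1).1 (z, t) + k2.1 (z, t) * (Yp ψ hψ Q.V2).1 (z, t)
          + (F.E1 z ⬝ᵥ dy F.E2 z) * (k1.1 (z, t) * Q.V2.1 (z, t) - k2.1 (z, t) * Q.V1.1 (z, t))
      simp only [add_dotProduct, dotProduct_add, smul_dotProduct, dotProduct_smul, smul_eq_mul,
        F.E11 z hzΩ, F.E22 z hzΩ, F.E12 z hzΩ, dotProduct_comm (F.E2 z) (F.E1 z), d11, d22, d12]
      ring
    have hY : ∀ G, Yp ψ hψ (sb G) =
        sb (pd (Frame.vy, 0) G + C • pd (Frame.vs, 0) G) + cψ * sb (Th G) := fun G => by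
      rw [Yp_apply, hsb, Frame.pd_jC, Th_sub]
    have he3 : Th F.e3 = 0 := Th_cst _ _
    have h2 : mean (k1 * Yp ψ hψ Q.V1 + k2 * Yp ψ hψ Q.V2 + sb F.e3 * (k1 * Q.V2 - k2 * Q.V1))
        = sb (C • F.Om1 τ + F.Om0 τ) := by
      have e : k1 * Yp ψ hψ Q.V1 + k2 * Yp ψ hψ Q.V2 + sb F.e3 * (k1 * Q.V2 - k2 * Q.V1) =
          sb (C • (Th (Q3.K1 Frame.vs) * Q3.W1 Frame.vs + Th (Q3.K2 Frame.vs) * Q3.W2 Frame.vs)
            + ((Th (Q3.K1 Frame.vs) * pd (Frame.vy, 0) Q3.V1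
              + Th (Q3.K2 Frame.vs) * pd (Frame.vy, 0) Q3.V2)
            + F.e3 * (Th (Q3.K1 Frame.vs) * Q3.V2 - Th (Q3.K2 Frame.vs) * Q3.V1)))
          + cψ * sb (Th (Q3.K1 Frame.vs) * Th Q3.V1 + Th (Q3.K2 Frame.vs) * Th Q3.V2) := by
        rw [hk1, hk2, hV1, hV2, hY, hY, hTh, hTh]
        simp only [map_add, map_mul, map_sub, LoopPar.W1, LoopPar.W2, Algebra.smul_def,
          AlgHom.commutes]
        ring
      rw [e, map_add, mean_mul hcψ0, hmean, hmean, Q3.mean_ThK_ThV, map_zero, mul_zero, add_zero]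
      refine congrArg sb ?_
      rw [map_add, map_smul, map_add mean (_ + _) (F.e3 * _), mean_mul he3]
      rfl
    rw [h1, h2]
    exact (hC z hz (C * z.2) θ).ne'

end LocData

end Crest.Agent.R216
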