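import Crest.Agent.R216.Loop2

/-!
# R216: the kernel element for a family of loops
-/

set_option autoImplicit false
set_option linter.unusedSectionVars false

open scoped Manifold ContDiff Topology
open Matrix

noncomputable section

namespace Crest.Agent.R216

open Real Per

theorem ker_D2 {R : Type} [CommRing R] [Algebra ℝ R] (D : Derivation ℝ R R) : D (2 : R) = 0 := by
  have h := D.map_natCast 2
  simpa using h

namespace LoopPar

variable {P : Type} [NormedAddCommGroup P] [NormedSpace ℝ P] [FiniteDimensional ℝ P]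
  (Q : LoopPar P) (v : P)

theorem ker_Th_inv {F : Per P} (h : ∀ q, F.1 q ≠ 0) (hF : Th F = 0) : Th (inv F h) = 0 := by
  have h1 := congrArg (Th (P := P)) (Per.inv_mul F h)
  rw [Derivation.leibniz, hF, Derivation.map_one_eq_zero, smul_zero, zero_add, smul_eq_mul] at h1
  have h2 := Per.inv_mul F h
  linear_combination (inv F h) * h1 - (Th (inv F h)) * h2

theorem ker_mean_parts (F G : Per P) : mean (Th F * G) = -mean (F * Th G) := by
  have h := mean_Th (F * G)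
  rw [Derivation.leibniz, smul_eq_mul, smul_eq_mul, map_add] at h
  rw [mul_comm (Th F) G]
  linear_combination h

theorem Th_aP : Th Q.aP = 0 := Th_cst _ _
theorem Th_pP : Th Q.pP = 0 := Th_cst _ _
theorem Th_rP : Th Q.rP = 0 := Th_cst _ _
theorem Th_vP : Th Q.vP = 0 := Th_cst _ _
theorem Th_mP : Th Q.mP = 0 := Th_cst _ _

def W1 : Per P := pd (v, 0) Q.V1
def W2 : Per P := pd (v, 0) Q.V2
def kg : Per P := -Q.u2 * Q.W1 v + Q.u1 * Q.W2 v
def in2 : Per P := inv (mean (Q.nh ^ 2)) fun q => (Q.mean_nh_sq_pos q).ne'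
def kk : Per P := mean (Q.kg v * Q.nh) * Q.in2
def kt : Per P := Q.kg v - Q.kk v * Q.nh
def K1' : Per P := prim (-(Q.kt v * Q.u2))
def K2' : Per P := prim (Q.kt v * Q.u1)
def kw : Per P := mean (Th Q.V1 * Q.K1' v + Th Q.V2 * Q.K2' v)
def K1 : Per P := Q.K1' v - Q.kw v * Th Q.V1
def K2 : Per P := Q.K2' v - Q.kw v * Th Q.V2

theorem Th_in2 : Th Q.in2 = 0 := ker_Th_inv _ (Th_mean _)
theorem in2_mul : Q.in2 * mean (Q.nh ^ 2) = 1 := Per.inv_mul _ _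
theorem Th_kk : Th (Q.kk v) = 0 := by
  rw [kk, Derivation.leibniz, Q.Th_in2, Th_mean, smul_zero, smul_zero, add_zero]
theorem Th_kw : Th (Q.kw v) = 0 := Th_mean _

theorem par_kg : Par (-1) (Q.kg v) := by
  have h1 : Par (-1) (-Q.u2 * Q.W1 v) := by
    simpa [W1] using Q.par_u2.neg.mul (Q.par_V1.pd (v, 0))
  have h2 : Par (-1) (Q.u1 * Q.W2 v) := by
    simpa [W2] using Q.par_u1.mul (Q.par_V2.pd (v, 0))
  exact h1.add h2

theorem par_kt : Par (-1) (Q.kt v) := by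
  have h1 : Par (-1) (Q.kk v * Q.nh) := by
    simpa using (par_of_Th (Q.Th_kk v)).mul Q.par_nh
  exact (Q.par_kg v).sub h1

theorem mean_kt_nh : mean (Q.kt v * Q.nh) = 0 := by
  have e : Q.kt v * Q.nh = Q.kg v * Q.nh - Q.kk v * Q.nh ^ 2 := by unfold kt; ring
  rw [e, map_sub, mean_mul (Q.Th_kk v), kk]
  linear_combination (-mean (Q.kg v * Q.nh)) * Q.in2_mul

theorem Th_K1' : Th (Q.K1' v) = -(Q.kt v * Q.u2) := by
  have e : Q.kt v * Q.u2 = Q.aP * (Q.kt v * Q.nh) := by unfold u2; ring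
  rw [K1', Th_prim, map_neg, e, mean_mul Q.Th_aP, mean_kt_nh]; ring

theorem Th_K2' : Th (Q.K2' v) = Q.kt v * Q.u1 := by
  have h : Par (-1) (Q.kt v * Q.u1) := by simpa using (Q.par_kt v).mul Q.par_u1
  rw [K2', Th_prim, h.mean_zero, sub_zero]

theorem Th_K1 : Th (Q.K1 v) = -(Q.kt v * Q.u2) - Q.kw v * Th (Th Q.V1) := by
  rw [K1, map_sub, Th_K1', Derivation.leibniz, Th_kw, smul_zero, add_zero, smul_eq_mul]

theorem Th_K2 : Th (Q.K2 v) = Q.kt v * Q.u1 - Q.kw v * Th (Th Q.V2) := by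
  rw [K2, map_sub, Th_K2', Derivation.leibniz, Th_kw, smul_zero, add_zero, smul_eq_mul]

theorem mean_K1 : mean (Q.K1 v) = 0 := by
  rw [K1, map_sub, mean_mul (Q.Th_kw v), mean_Th, K1', mean_prim]; ring

theorem mean_K2 : mean (Q.K2 v) = 0 := by
  rw [K2, map_sub, mean_mul (Q.Th_kw v), mean_Th, K2', mean_prim]; ring

theorem K_ker : Q.u1 * Th (Q.K1 v) + Q.u2 * Th (Q.K2 v) = 0 := by
  rw [Th_K1, Th_K2, Q.ThTh_V.1, Q.ThTh_V.2]; ring

theorem K_orth : mean (Th Q.V1 * Q.K1 v + Th Q.V2 * Q.K2 v) = 0 := by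
  have e : Th Q.V1 * Q.K1 v + Th Q.V2 * Q.K2 v = (Th Q.V1 * Q.K1' v + Th Q.V2 * Q.K2' v)
      - Q.kw v * (Th Q.V1 ^ 2 + Th Q.V2 ^ 2) := by unfold K1 K2; ring
  rw [e, map_sub, mean_mul (Q.Th_kw v), Q.mean_ThV_sq]
  unfold kw; ring

theorem ker_two_cancel {F : Per P} (h : 2 * F = 0) : F = 0 := by
  refine Per.ext' fun z θ => ?_
  have := congrArg (fun G : Per P => G.1 (z, θ)) h
  have h2 : (2 * F).1 (z, θ) = 2 * F.1 (z, θ) := rfl
  simp only [h2] at this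
  have h3 : (0 : Per P).1 (z, θ) = 0 := rfl
  rw [h3] at this ⊢
  linarith

theorem mean_D_ThV (u : P × ℝ) :
    mean (Th Q.V1 * pd u (Th Q.V1) + Th Q.V2 * pd u (Th Q.V2)) = 0 := by
  have h := mean_pd u (Th Q.V1 ^ 2 + Th Q.V2 ^ 2)
  rw [Q.mean_ThV_sq, Derivation.map_one_eq_zero] at h
  apply ker_two_cancel
  have e : pd u (Th Q.V1 ^ 2 + Th Q.V2 ^ 2) =
      2 * (Th Q.V1 * pd u (Th Q.V1) + Th Q.V2 * pd u (Th Q.V2)) := by
    simp only [map_add, Derivation.leibniz_pow, smul_eq_mul, nsmul_eq_mul]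
    push_cast; ring
  have h2 : Th (2 : Per P) = 0 := ker_D2 _
  rw [e, mean_mul h2] at h
  exact h

theorem mean_ThK_ThV : mean (Th (Q.K1 v) * Th Q.V1 + Th (Q.K2 v) * Th Q.V2) = 0 := by
  have e : Th (Q.K1 v) * Th Q.V1 + Th (Q.K2 v) * Th Q.V2 = Q.pP * (Q.kt v * Q.nh)
      - Q.kw v * (Th Q.V1 * pd (0, 1) (Th Q.V1) + Th Q.V2 * pd (0, 1) (Th Q.V2)) := by
    rw [Th_K1, Th_K2]
    linear_combination Q.kt v * Q.n_ThV
  rw [e, map_sub, mean_mul Q.Th_pP, mean_mul (Q.Th_kw v), mean_kt_nh, mean_D_ThV]; ring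

theorem mean_ThK_W : mean (Th (Q.K1 v) * Q.W1 v + Th (Q.K2 v) * Q.W2 v) = mean (Q.kt v ^ 2) := by
  have e : Th (Q.K1 v) * Q.W1 v + Th (Q.K2 v) * Q.W2 v = Q.kt v ^ 2 + Q.kk v * (Q.kt v * Q.nh)
      - Q.kw v * (Th (Th Q.V1) * Q.W1 v + Th (Th Q.V2) * Q.W2 v) := by
    rw [Th_K1, Th_K2]
    have : Q.kg v = Q.kt v + Q.kk v * Q.nh := by unfold kt; ring
    have h2 : Q.kg v = -Q.u2 * Q.W1 v + Q.u1 * Q.W2 v := rfl
    linear_combination Q.kt v * this - Q.kt v * h2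
  have h0 : mean (Th (Th Q.V1) * Q.W1 v + Th (Th Q.V2) * Q.W2 v) = 0 := by
    rw [map_add, ker_mean_parts (Th Q.V1), ker_mean_parts (Th Q.V2), ← neg_add, ← map_add, W1, W2,
      pd_comm (0, 1) (v, 0), pd_comm (0, 1) (v, 0), mean_D_ThV, neg_zero]
  rw [e, map_sub, map_add, mean_mul (Q.Th_kk v), mean_mul (Q.Th_kw v), mean_kt_nh, h0]; ring

/-- The direction `v` only moves the parameter `σ`. -/
structure SigDir : Prop where
  a : pd (v, 0) Q.aP = 0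
  r : pd (v, 0) Q.rP = 0
  vh : pd (v, 0) Q.vP = 0
  m : pd (v, 0) Q.mP = 0
  S : ∀ z θ, (pd (v, 0) Q.S).1 (z, θ) = -(1 / 20) * cos θ ^ 2 * sin (7 * θ + Q.σ z)

theorem D_nh (D : Derivation ℝ (Per P) (Per P)) (ha : D Q.aP = 0) (hv : D Q.vP = 0) :
    D Q.nh = 2 * Q.vP * D Q.S * Q.isq * Q.u1 := by
  have h1 := congrArg D Q.sq_sq
  have hs : D Q.sig = Q.aP * Q.vP * D Q.S := by
    unfold sig
    simp only [Derivation.leibniz, ha, hv, smul_eq_mul]; ring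
  simp only [map_sub, Derivation.leibniz_pow, smul_eq_mul, nsmul_eq_mul,
    Derivation.map_one_eq_zero, hs] at h1
  push_cast at h1
  have h2 : D Q.sq = -(Q.sig * (Q.aP * Q.vP * D Q.S)) * Q.isq := by
    apply sub_eq_zero.1
    apply ker_two_cancel
    linear_combination Q.isq * h1 - 2 * D Q.sq * Q.isq_mul
  have h3 : Q.sig = Q.aP * Q.vP * Q.S := rfl
  unfold nh u1
  simp only [Derivation.leibniz, hv, ker_D2, smul_eq_mul, h2]
  linear_combination (-2 * Q.vP * D Q.S * Q.sq) * Q.isq_mul + 2 * Q.vP * D Q.S * Q.isq * Q.sq_sq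
    + 2 * Q.vP * D Q.S * Q.isq * Q.sig * h3

variable {Q v}

theorem SigDir.Th_W (h : Q.SigDir v) :
    Th (Q.W1 v) = -(2 * Q.rP * Q.vP * pd (v, 0) Q.S * Q.isq) * Q.u2 ∧
      Th (Q.W2 v) = 2 * Q.rP * Q.vP * pd (v, 0) Q.S * Q.isq * Q.u1 := by
  constructor
  · rw [W1, pd_comm (0, 1) (v, 0), Q.Th_V1]
    simp only [Derivation.leibniz, Derivation.leibniz_pow, map_sub, h.a, h.r, h.vh, h.m, ker_D2,
      smul_eq_mul, nsmul_eq_mul]
    push_cast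
    unfold u2 nh
    linear_combination (4 * Q.aP * Q.rP * Q.vP ^ 2 * Q.S * pd (v, 0) Q.S) * Q.isq_mul
  · rw [W2, pd_comm (0, 1) (v, 0), Q.Th_V2, Derivation.leibniz, h.r, Q.D_nh _ h.a h.vh]
    simp only [smul_eq_mul]; ring

theorem SigDir.kt_ne (h : Q.SigDir v) (z : P) : ∃ θ, (Q.kt v).1 (z, θ) ≠ 0 := by
  by_contra hc
  push Not at hc
  -- ring identities
  set e' : Per P := 2 * Q.rP * Q.vP * pd (v, 0) Q.S * Q.isq with he'
  set φ : Per P := 2 * Q.aP * Q.vP * Th Q.S * Q.isq with hφ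
  set hh : Per P := Q.u1 * Q.W1 v + Q.u2 * Q.W2 v with hhh
  have hs : Th Q.sig = Q.aP * Q.vP * Th Q.S := by
    unfold sig
    simp only [Derivation.leibniz, Q.Th_aP, Q.Th_vP, smul_eq_mul]; ring
  have hu1 : Th Q.u1 = -φ * Q.u2 := by rw [(Q.D_u Th).1, hs, hφ]; ring
  have hu2 : Th Q.u2 = φ * Q.u1 := by rw [(Q.D_u Th).2, hs, hφ]; ring
  have hg : Th (Q.kg v) = e' - φ * hh := by
    unfold kg
    simp only [map_add, Derivation.leibniz, map_neg, smul_eq_mul, hu1, hu2, h.Th_W.1, h.Th_W.2]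
    rw [hhh, he']
    linear_combination (2 * Q.rP * Q.vP * pd (v, 0) Q.S * Q.isq) * Q.u_sq
  have hh' : Th hh = φ * Q.kg v := by
    rw [hhh]
    unfold kg
    simp only [map_add, Derivation.leibniz, smul_eq_mul, hu1, hu2, h.Th_W.1, h.Th_W.2]
    ring
  have hn : Th Q.nh = 2 * Q.vP * Th Q.S * Q.isq * Q.u1 := Q.D_nh _ Q.Th_aP Q.Th_vP
  have ht : Th (Q.kt v) = e' - φ * hh - Q.kk v * (2 * Q.vP * Th Q.S * Q.isq * Q.u1) := by
    rw [kt, map_sub, hg, Derivation.leibniz, Q.Th_kk, hn]; simp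
  set G : Per P := Q.aP * hh + Q.kk v * Q.u1 with hG
  have hG' : Th G = Q.aP * φ * Q.kt v := by
    rw [hG]
    simp only [map_add, Derivation.leibniz, smul_eq_mul, hh', hu1, Q.Th_aP, Q.Th_kk]
    unfold kt u2; ring
  have key : Th (Q.kt v) = 2 * Q.vP * Q.isq * (Q.rP * pd (v, 0) Q.S - Th Q.S * G) := by
    rw [ht, hG, he', hφ]; ring
  -- pointwise
  have h0 : ∀ θ, (Th (Q.kt v)).1 (z, θ) = 0 := fun θ => by
    rw [Th_val]; simp [hc]
  have hGc : ∀ θ, G.1 (z, θ) = G.1 (z, 0) := fun θ => by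
    refine is_const_of_deriv_eq_zero (f := fun t => G.1 (z, t))
      (fun t => (hasDerivAt_Th G z t).differentiableAt) (fun t => ?_) θ 0
    rw [← Th_val, hG']
    change (Q.aP * φ).1 (z, t) * (Q.kt v).1 (z, t) = 0
    rw [hc, mul_zero]
  obtain ⟨θ, hθ⟩ := Sf_indep (Q.τ_mem z) (Q.σ z) (G.1 (z, 0) / Q.r z)
  apply hθ
  have h1 := h0 θ
  rw [key] at h1
  change 2 * Q.vh z * (Q.sq.1 (z, θ))⁻¹ *
    (Q.r z * (pd (v, 0) Q.S).1 (z, θ) - (Th Q.S).1 (z, θ) * G.1 (z, θ)) = 0 at h1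
  rw [h.S, Q.Th_S, hGc] at h1
  have h2 : 2 * Q.vh z * (Q.sq.1 (z, θ))⁻¹ ≠ 0 :=
    mul_ne_zero (mul_ne_zero two_ne_zero (Q.vh_pos z).ne') (inv_ne_zero (Q.sq_ne _))
  have h3 := (mul_eq_zero.1 h1).resolve_left h2
  have h4 := (Q.r_pos z).ne'
  field_simp
  linarith

theorem SigDir.Om_pos (h : Q.SigDir v) (q : P × ℝ) :
    0 < (mean (Th (Q.K1 v) * Q.W1 v + Th (Q.K2 v) * Q.W2 v)).1 q := by
  rw [mean_ThK_W]
  obtain ⟨θ, hθ⟩ := h.kt_ne q.1
  exact mean_pos (F := Q.kt v ^ 2) (z := q.1) (fun t => sq_nonneg ((Q.kt v).1 (q.1, t)))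
    ⟨θ, pow_ne_zero 2 hθ⟩ q.2

end LoopPar

end Crest.Agent.R216
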