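import Crest.Agent.R216.KerA
import Crest.Agent.R216.Flat

/-!
# R216: the family of loops over `(z, σ)`
-/

set_option autoImplicit false
set_option linter.unusedSectionVars false

open scoped Manifold ContDiff Topology
open Matrix

noncomputable section

namespace Crest.Agent.R216

open Real Per

abbrev P3 := R2 × ℝ

def shift3 (q : P3) : P3 := (q.1, q.2 + 2 * π)
theorem shift3_sm : ContDiff ℝ ∞ shift3 := by unfold shift3; fun_prop

/-- Invariance under `σ ↦ σ + 2π`. -/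
def SInv (G : Per P3) : Prop := sub shift3 shift3_sm G = G

namespace SInv

theorem val {G : Per P3} (h : SInv G) (z : R2) (σ θ : ℝ) :
    G.1 ((z, σ + 2 * π), θ) = G.1 ((z, σ), θ) :=
  congrArg (fun H : Per P3 => H.1 ((z, σ), θ)) h

theorem of_val {G : Per P3} (h : ∀ z σ θ, G.1 ((z, σ + 2 * π), θ) = G.1 ((z, σ), θ)) : SInv G :=
  Per.ext' fun q θ => h q.1 q.2 θ

theorem mul {G H : Per P3} (h : SInv G) (h' : SInv H) : SInv (G * H) := by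
  unfold SInv at *; rw [map_mul, h, h']
theorem add {G H : Per P3} (h : SInv G) (h' : SInv H) : SInv (G + H) := by
  unfold SInv at *; rw [map_add, h, h']
theorem sub' {G H : Per P3} (h : SInv G) (h' : SInv H) : SInv (G - H) := by
  unfold SInv at *; rw [map_sub, h, h']
theorem neg {G : Per P3} (h : SInv G) : SInv (-G) := by
  unfold SInv at *; rw [map_neg, h]
theorem pow {G : Per P3} (h : SInv G) (n : ℕ) : SInv (G ^ n) := by
  unfold SInv at *; rw [map_pow, h]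
theorem one : SInv 1 := map_one _
theorem two : SInv 2 := map_ofNat _ 2
theorem mean' {G : Per P3} (h : SInv G) : SInv (mean G) := by
  unfold SInv at *; rw [← mean_sub, h]
theorem prim' {G : Per P3} (h : SInv G) : SInv (prim G) := by
  unfold SInv at *; rw [← prim_sub, h]
theorem th {G : Per P3} (h : SInv G) : SInv (Th G) := by
  unfold SInv at *; rw [← Th_sub, h]
theorem pd' {G : Per P3} (h : SInv G) (v : P3) : SInv (pd (v, 0) G) := by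
  refine Per.ext' fun q θ => ?_
  have h1 := pd_sub shift3 shift3_sm v 0 G (q, θ)
  have h2 : fderiv ℝ shift3 q v = v := by
    have : HasFDerivAt shift3 (ContinuousLinearMap.id ℝ P3) q := by
      have h3 := (hasFDerivAt_id (𝕜 := ℝ) q).add_const ((0, 2 * π) : P3)
      refine h3.congr_of_eventuallyEq (Filter.Eventually.of_forall fun x => ?_)
      simp [shift3, Prod.ext_iff]
    rw [this.fderiv]; rfl
  rw [show sub shift3 shift3_sm G = G from h] at h1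
  simp only [h2] at h1
  exact h1.symm
theorem inv' {G : Per P3} (h : SInv G) (hG : ∀ q, G.1 q ≠ 0) : SInv (inv G hG) :=
  of_val fun z σ θ => congrArg (·⁻¹) (h.val z σ θ)

theorem bound {G : Per P3} (h : SInv G) {K : Set R2} (hK : IsCompact K) :
    ∃ C, 0 ≤ C ∧ ∀ z ∈ K, ∀ σ θ, |G.1 ((z, σ), θ)| ≤ C := by
  obtain ⟨C, hC, hb⟩ := exists_bound (hK.prod (isCompact_Icc (a := (0 : ℝ)) (b := 2 * π))) G
  refine ⟨C, hC, fun z hz σ θ => ?_⟩
  have hp : Function.Periodic (fun s => G.1 ((z, s), θ)) (2 * π) := fun s => h.val z s θ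
  obtain ⟨s, hs, e⟩ := hp.exists_mem_Ico₀ two_pi_pos σ
  rw [e]
  exact hb (z, s) ⟨hz, hs.1, hs.2.le⟩ θ

end SInv

namespace LocData

variable {ι : Type} [Fintype ι] {L : LocData ι}

namespace Frame

variable (F : L.Frame) (τ : Shape)

def Q3 : LoopPar P3 :=
  ⟨L.a ∘ Prod.fst, F.p0 ∘ Prod.fst, τ.τ ∘ Prod.fst, Prod.snd, L.a_sm.comp contDiff_fst,
    F.p0_sm.comp contDiff_fst, τ.sm.comp contDiff_fst, contDiff_snd, fun q => F.p0_pos q.1,
    fun q => τ.mem q.1⟩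

def jC (C : ℝ) (z : R2) : P3 := (z, C * z.2)
theorem jC_sm (C : ℝ) : ContDiff ℝ ∞ (jC C) := by unfold jC; fun_prop

theorem Q3_comp (C : ℝ) : (F.Q3 τ).comp (jC C) (jC_sm C) = F.loop τ C := rfl

abbrev vs : P3 := ((0, 0), 1)
abbrev vy : P3 := ((0, 1), 0)

theorem pd_vs_cst (u : P3 → ℝ) (hu : ContDiff ℝ ∞ u) (h : ∀ z σ, u (z, σ) = u (z, 0)) :
    pd (vs, 0) (cst u hu) = 0 := by
  refine Per.ext' fun q θ => ?_
  rw [pd_cst]
  have h1 : HasDerivAt (fun t : ℝ => u (q.1, t)) (fderiv ℝ u (q.1, q.2) vs) q.2 := by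
    have h2 : HasDerivAt (fun t : ℝ => ((q.1, t) : P3)) vs q.2 :=
      (hasDerivAt_const q.2 q.1).prodMk (hasDerivAt_id q.2)
    exact ((hu.differentiable (by simp)) (q.1, q.2)).hasFDerivAt.comp_hasDerivAt q.2 h2
  have h3 : (fun t : ℝ => u (q.1, t)) = fun _ => u (q.1, 0) := funext fun t => h q.1 t
  rw [h3] at h1
  exact h1.unique (hasDerivAt_const _ _)

theorem sigDir : (F.Q3 τ).SigDir vs where
  a := pd_vs_cst _ _ fun _ _ => rfl
  r := pd_vs_cst _ _ fun _ _ => rfl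
  vh := pd_vs_cst _ _ fun _ _ => rfl
  m := pd_vs_cst _ _ fun _ _ => rfl
  S := by
    intro q θ
    rw [pd_val]
    have h2 : HasDerivAt (fun t : ℝ => (((q.1, t), θ) : P3 × ℝ)) (vs, 0) q.2 :=
      ((hasDerivAt_const q.2 q.1).prodMk (hasDerivAt_id q.2)).prodMk (hasDerivAt_const q.2 θ)
    have h1 := (((sm (F.Q3 τ).S).differentiable (by simp)) ((q.1, q.2), θ)).hasFDerivAt.comp_hasDerivAt
      q.2 h2
    have h3 : HasDerivAt (fun t : ℝ => Sf (τ.τ q.1) t θ)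
        (-(1 / 20) * cos θ ^ 2 * sin (7 * θ + q.2)) q.2 := by
      unfold Sf
      have h4 := ((((hasDerivAt_id q.2).const_add (7 * θ)).cos).const_mul
        (1 / 20 * cos θ ^ 2)).const_add (sin θ * (1 + τ.τ q.1 * cos θ ^ 2))
      refine h4.congr_deriv ?_
      simp only [id]; ring
    exact h1.unique h3

theorem inv_aP : SInv (F.Q3 τ).aP := SInv.of_val fun _ _ _ => rfl
theorem inv_rP : SInv (F.Q3 τ).rP := SInv.of_val fun _ _ _ => rfl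
theorem inv_vP : SInv (F.Q3 τ).vP := SInv.of_val fun _ _ _ => rfl
theorem inv_mP : SInv (F.Q3 τ).mP := SInv.of_val fun _ _ _ => rfl
theorem inv_S : SInv (F.Q3 τ).S := SInv.of_val fun _ _ _ => Sf_sigma _ _ _
theorem inv_sig : SInv (F.Q3 τ).sig := ((F.inv_aP τ).mul (F.inv_vP τ)).mul (F.inv_S τ)
theorem inv_sq : SInv (F.Q3 τ).sq := SInv.of_val fun z σ θ =>
  congrArg (fun t => √(1 - t ^ 2)) ((F.inv_sig τ).val z σ θ)
theorem inv_u1 : SInv (F.Q3 τ).u1 := SInv.one.sub' (SInv.two.mul ((F.inv_sig τ).pow 2))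
theorem inv_nh : SInv (F.Q3 τ).nh :=
  ((SInv.two.mul (F.inv_vP τ)).mul (F.inv_S τ)).mul (F.inv_sq τ)
theorem inv_u2 : SInv (F.Q3 τ).u2 := (F.inv_aP τ).mul (F.inv_nh τ)
theorem inv_V1 : SInv (F.Q3 τ).V1 :=
  ((((SInv.two.mul (F.inv_aP τ)).mul (F.inv_rP τ)).mul ((F.inv_vP τ).pow 2)).mul
    ((F.inv_mP τ).sub' ((F.inv_S τ).pow 2))).prim'
theorem inv_V2 : SInv (F.Q3 τ).V2 := ((F.inv_rP τ).mul (F.inv_nh τ)).prim'
theorem inv_kg : SInv ((F.Q3 τ).kg vs) :=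
  ((F.inv_u2 τ).neg.mul ((F.inv_V1 τ).pd' vs)).add ((F.inv_u1 τ).mul ((F.inv_V2 τ).pd' vs))
theorem inv_kt : SInv ((F.Q3 τ).kt vs) :=
  (F.inv_kg τ).sub' ((((F.inv_kg τ).mul (F.inv_nh τ)).mean'.mul
    (((F.inv_nh τ).pow 2).mean'.inv' _)).mul (F.inv_nh τ))
theorem inv_K1' : SInv ((F.Q3 τ).K1' vs) := ((F.inv_kt τ).mul (F.inv_u2 τ)).neg.prim'
theorem inv_K2' : SInv ((F.Q3 τ).K2' vs) := ((F.inv_kt τ).mul (F.inv_u1 τ)).prim'
theorem inv_kw : SInv ((F.Q3 τ).kw vs) :=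
  (((F.inv_V1 τ).th.mul (F.inv_K1' τ)).add ((F.inv_V2 τ).th.mul (F.inv_K2' τ))).mean'
theorem inv_K1 : SInv ((F.Q3 τ).K1 vs) := (F.inv_K1' τ).sub' ((F.inv_kw τ).mul (F.inv_V1 τ).th)
theorem inv_K2 : SInv ((F.Q3 τ).K2 vs) := (F.inv_K2' τ).sub' ((F.inv_kw τ).mul (F.inv_V2 τ).th)

theorem e12_sm : ContDiff ℝ ∞ fun z => F.E1 z ⬝ᵥ dy F.E2 z :=
  ContDiff.sum fun i _ => (contDiff_pi.1 F.E1_sm i).mul (contDiff_pi.1 (dy_sm F.E2_sm) i)

def e3 : Per P3 := cst (fun q => F.E1 q.1 ⬝ᵥ dy F.E2 q.1) (F.e12_sm.comp contDiff_fst)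

def Om1 : Per P3 := mean (Th ((F.Q3 τ).K1 vs) * (F.Q3 τ).W1 vs + Th ((F.Q3 τ).K2 vs) * (F.Q3 τ).W2 vs)
def Om0 : Per P3 := mean (Th ((F.Q3 τ).K1 vs) * pd (vy, 0) (F.Q3 τ).V1
      + Th ((F.Q3 τ).K2 vs) * pd (vy, 0) (F.Q3 τ).V2)
    + F.e3 * mean (Th ((F.Q3 τ).K1 vs) * (F.Q3 τ).V2 - Th ((F.Q3 τ).K2 vs) * (F.Q3 τ).V1)

theorem exists_C : ∃ C : ℝ, ∀ z, 0 ≤ L.s z → ∀ σ θ,
    0 < C * (F.Om1 τ).1 ((z, σ), θ) + (F.Om0 τ).1 ((z, σ), θ) := by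
  have hpos : ∀ q, 0 < (F.Om1 τ).1 q := (F.sigDir τ).Om_pos
  have i1 : SInv (F.Om1 τ) := (((F.inv_K1 τ).th.mul ((F.inv_V1 τ).pd' vs)).add
    ((F.inv_K2 τ).th.mul ((F.inv_V2 τ).pd' vs))).mean'
  have i0 : SInv (F.Om0 τ) := (((F.inv_K1 τ).th.mul ((F.inv_V1 τ).pd' vy)).add
    ((F.inv_K2 τ).th.mul ((F.inv_V2 τ).pd' vy))).mean'.add
      ((SInv.of_val (G := F.e3) fun _ _ _ => rfl).mul (((F.inv_K1 τ).th.mul (F.inv_V2 τ)).sub'
        ((F.inv_K2 τ).th.mul (F.inv_V1 τ))).mean')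
  obtain ⟨C₁, -, h₁⟩ := (i1.inv' fun q => (hpos q).ne').bound L.cpt
  obtain ⟨C₀, hC₀, h₀⟩ := i0.bound L.cpt
  refine ⟨C₁ * (C₀ + 1), fun z hz σ θ => ?_⟩
  have a1 : |((F.Om1 τ).1 ((z, σ), θ))⁻¹| ≤ C₁ := h₁ z hz σ θ
  have a0 := abs_le.1 (h₀ z hz σ θ)
  have p := hpos ((z, σ), θ)
  rw [abs_of_pos (inv_pos.2 p), inv_le_iff_one_le_mul₀ p] at a1
  nlinarith [mul_le_mul_of_nonneg_left a1 (by linarith : 0 ≤ C₀ + 1)]

theorem pd_jC (C : ℝ) (G : Per P3) :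
    pd ((0, 1), 0) (Per.sub (jC C) (jC_sm C) G) =
      Per.sub (jC C) (jC_sm C) (pd (vy, 0) G + C • pd (vs, 0) G) := by
  refine Per.ext' fun z θ => ?_
  rw [pd_sub]
  have h : HasFDerivAt (jC C)
      ((ContinuousLinearMap.id ℝ R2).prod (C • ContinuousLinearMap.snd ℝ ℝ ℝ)) z :=
    (hasFDerivAt_id z).prodMk ((hasFDerivAt_snd (p := z)).const_mul C)
  have h2 : ((fderiv ℝ (jC C) z (0, 1), (0 : ℝ)) : P3 × ℝ) = (vy, 0) + C • (vs, 0) := by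
    rw [h.fderiv]; simp
  simp only [h2, pd_add, pd_smul]
  rfl

end Frame

end LocData

end Crest.Agent.R216
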