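import Crest.Agent.R216.Api3
import Crest.Agent.R216.Api4

/-!
# R216: smooth limits
-/

set_option autoImplicit false
set_option linter.unusedSectionVars false

open scoped Manifold ContDiff Topology
open Matrix

noncomputable section

namespace Crest.Agent.R216

variable {M : Type*} [TopologicalSpace M] [T2Space M] [CompactSpace M] [ChartedSpace E2 M]
  [IsManifold (𝓡 2) ∞ M]

open Filter in
theorem lim_unif {X : Type*} {g : ℕ → X → V4} {a : ℕ → ℝ} (ha : Summable a)
    (h : ∀ᶠ n in atTop, ∀ x, ‖g (n + 1) x - g n x‖ ≤ a n) :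
    ∃ v : X → V4, TendstoUniformly g v atTop := by
  have h1 := tendstoUniformlyOn_tsum_nat_eventually (f := fun n x => g (n + 1) x - g n x)
    (s := Set.univ) ha (h.mono fun n hn x _ => hn x)
  rw [tendstoUniformlyOn_univ] at h1
  refine ⟨fun x => (∑' n, (g (n + 1) x - g n x)) + g 0 x, Metric.tendstoUniformly_iff.2
    fun ε hε => (Metric.tendstoUniformly_iff.1 h1 ε hε).mono fun n hn x => ?_⟩
  have := hn x
  rw [Finset.sum_range_sub (fun n => g n x), dist_eq_norm] at this
  rw [dist_eq_norm]
  convert this using 2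
  abel

/-- `y ↦ dx^a ⊗ y` -/
def limL (a : Fin 2) : V4 →L[ℝ] E2 →L[ℝ] V4 :=
  ContinuousLinearMap.smulRightL ℝ E2 V4 (EuclideanSpace.proj a)

theorem limL_apply (a : Fin 2) (y : V4) (z : E2) : limL a y z = z a • y := rfl

theorem lim_ext (T : E2 →L[ℝ] V4) :
    T = limL 0 (T (EuclideanSpace.single 0 1)) + limL 1 (T (EuclideanSpace.single 1 1)) := by
  refine ContinuousLinearMap.ext fun z => ?_
  have : z = z 0 • EuclideanSpace.single 0 (1 : ℝ) + z 1 • EuclideanSpace.single 1 (1 : ℝ) := by
    ext j
    fin_cases j <;> simp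
  rw [_root_.add_apply, limL_apply, limL_apply, ← map_smul, ← map_smul, ← map_add,
    ← this]

/-- the image of `O i` in the chart -/
def limU (A : Atl M) (i : Fin A.n) : Set E2 :=
  (chartAt E2 (A.c i)).target ∩ (chartAt E2 (A.c i)).symm ⁻¹' A.O i

theorem limU_open (A : Atl M) (i : Fin A.n) : IsOpen (limU A i) :=
  (chartAt E2 (A.c i)).isOpen_inter_preimage_symm (A.O_open i)

theorem limU_mem (A : Atl M) (i : Fin A.n) {p : M} (hp : p ∈ A.O i) :
    chartAt E2 (A.c i) p ∈ limU A i := by
  have h := A.O_sub_source i hp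
  refine ⟨(chartAt E2 (A.c i)).map_source h, ?_⟩
  rw [Set.mem_preimage, (chartAt E2 (A.c i)).left_inv h]
  exact hp

theorem lim_der (A : Atl M) (i : Fin A.n) {g : M → V4} (hg : Sm g) {z : E2} (hz : z ∈ limU A i) :
    HasFDerivAt (g ∘ (chartAt E2 (A.c i)).symm)
      (limL 0 (A.D (i, 0) g ((chartAt E2 (A.c i)).symm z)) +
        limL 1 (A.D (i, 1) g ((chartAt E2 (A.c i)).symm z))) z := by
  have h1 : ContMDiffOn (𝓡 2) 𝓘(ℝ, V4) ∞ (g ∘ (chartAt E2 (A.c i)).symm)
      (chartAt E2 (A.c i)).target := ContMDiff.comp_contMDiffOn hg contMDiffOn_chart_symm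
  have h2 := ((h1.contDiffOn.contDiffAt
    ((chartAt E2 (A.c i)).open_target.mem_nhds hz.1)).differentiableAt (by simp)).hasFDerivAt
  rw [lim_ext (fderiv ℝ _ z)] at h2
  simpa only [Atl.D, A.χ_one i _ hz.2, one_smul, (chartAt E2 (A.c i)).right_inv hz.1] using h2

/-- Each increment is smooth, so (with `exists_NB`) the eventual bound can be made to hold for all
`n`; every `Dw w (u n)` converges uniformly to some continuous `v w`. Smoothness near `p ∈ O i`:
descend (`exists_down i 0 {p}`), the `pdw`-derivatives of the descended increments are summably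
bounded; use `contDiff_tsum` (bounds on `iteratedFDeriv` from bounds on `pdw`) or
`hasFDerivAt_of_tendstoUniformlyOn` and induction (`contDiff_succ_iff_fderiv`); then
`D α (v w) = v (α :: w)` by `D_Psi`. -/
theorem limitStmt (A : Atl M) : A.LimitStmt := by
  intro u hu hs
  have h0 : ∀ w : List A.Idx, ∃ v : M → V4,
      TendstoUniformly (fun n => A.Dw w (u n)) v Filter.atTop := fun w => by
    obtain ⟨a, ha, h⟩ := hs w.length
    refine lim_unif ha (h.mono fun n hn p => ?_)
    have := hn w le_rfl p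
    rwa [A.Dw_sub w (hu _) (hu _)] at this
  choose v hv using h0
  have h1 : ∀ i w, ∀ z ∈ limU A i, HasFDerivAt (v w ∘ (chartAt E2 (A.c i)).symm)
      (limL 0 (v ((i, 0) :: w) ((chartAt E2 (A.c i)).symm z)) +
        limL 1 (v ((i, 1) :: w) ((chartAt E2 (A.c i)).symm z))) z := fun i w z hz => by
    refine hasFDerivAt_of_tendstoUniformlyOn (l := Filter.atTop) (limU_open A i)
      (g' := fun z => limL 0 (v ((i, 0) :: w) ((chartAt E2 (A.c i)).symm z)) +
        limL 1 (v ((i, 1) :: w) ((chartAt E2 (A.c i)).symm z))) ?_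
      (fun n z hz => lim_der A i (A.Dw_sm w (hu n)) hz)
      (fun z _ => (hv w).tendsto_at _) hz
    exact (((limL 0).uniformContinuous.comp_tendstoUniformly ((hv ((i, 0) :: w)).comp _)).add
      ((limL 1).uniformContinuous.comp_tendstoUniformly
        ((hv ((i, 1) :: w)).comp _))).tendstoUniformlyOn
  have h2 : ∀ i (k : ℕ) w, ContDiffOn ℝ k (v w ∘ (chartAt E2 (A.c i)).symm) (limU A i) := by
    intro i k
    induction k with
    | zero =>
      intro w
      rw [Nat.cast_zero, contDiffOn_zero]
      exact fun z hz => (h1 i w z hz).continuousAt.continuousWithinAt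
    | succ k ih =>
      intro w
      rw [Nat.cast_succ, contDiffOn_succ_iff_fderiv_of_isOpen (limU_open A i)]
      refine ⟨fun z hz => (h1 i w z hz).differentiableAt.differentiableWithinAt, by simp, ?_⟩
      exact (((limL 0).contDiff.comp_contDiffOn (ih ((i, 0) :: w))).add
        ((limL 1).contDiff.comp_contDiffOn (ih ((i, 1) :: w)))).congr
        fun z hz => (h1 i w z hz).fderiv
  have h3 : ∀ w, Sm (v w) := fun w p => by
    obtain ⟨i, -, -, hp⟩ := A.exists_K p
    have hs := (chartAt E2 (A.c i)).open_source.mem_nhds (A.O_sub_source i hp)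
    have a1 := ((contDiffOn_infty.2 fun k => h2 i k w).contDiffAt
      ((limU_open A i).mem_nhds (limU_mem A i hp))).contMDiffAt
    have a2 : ContMDiffAt (𝓡 2) (𝓡 2) ∞ (chartAt E2 (A.c i)) p :=
      contMDiffOn_chart.contMDiffAt hs
    refine (a1.comp p a2).congr_of_eventuallyEq ?_
    filter_upwards [hs] with q hq
    simp only [Function.comp_apply, (chartAt E2 (A.c i)).left_inv hq]
  have h4 : ∀ i a w, ∀ p ∈ A.O i, A.D (i, a) (v w) p = v ((i, a) :: w) p := fun i a w p hp => by
    rw [Atl.D, A.χ_one i p hp, one_smul, (h1 i w _ (limU_mem A i hp)).fderiv,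
      (chartAt E2 (A.c i)).left_inv (A.O_sub_source i hp), _root_.add_apply,
      limL_apply, limL_apply]
    fin_cases a <;> simp
  have h5 : ∀ w, A.Dw w (v []) = v w := fun w => by
    induction w with
    | nil => rfl
    | cons α w ih =>
      funext p
      obtain ⟨i, -, -, hp⟩ := A.exists_K p
      rw [Atl.Dw, ih, A.D_chart α i (h3 w) hp, h4 i 0 w p hp, h4 i 1 w p hp]
      refine tendsto_nhds_unique ?_ ((hv (α :: w)).tendsto_at p)
      refine ((((hv ((i, 0) :: w)).tendsto_at p).const_smul _).add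
        (((hv ((i, 1) :: w)).tendsto_at p).const_smul _)).congr fun n => ?_
      exact (A.D_chart α i (A.Dw_sm w (hu n)) hp).symm
  exact ⟨v [], h3 [], fun w p => by rw [h5]; exact (hv w).tendsto_at p⟩

end Crest.Agent.R216
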