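import Crest.Agent.R216.Pos
import Crest.Agent.R216.Eval
import Crest.Agent.R216.JL

/-!
# R216: the local corrugation theorem
-/

set_option autoImplicit false
set_option linter.unusedSectionVars false

open scoped Manifold ContDiff Topology
open Matrix

noncomputable section

namespace Crest.Agent.R216

open Real Per

theorem loc_vev_c (V : Fin 4 → Per R2) : Continuous (vev V) :=
  continuous_pi fun i => (sm (V i)).continuous

theorem loc_close_trans {J J' J'' : Jet} {e e' : ℝ} (h : J.close J' e) (h' : J'.close J'' e') :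
    J.close J'' (e + e') := by
  have key : ∀ {u v w : V4}, ‖u - v‖ ≤ e → ‖v - w‖ ≤ e' → ‖u - w‖ ≤ e + e' := fun h1 h2 =>
    (norm_sub_le_norm_sub_add_norm_sub _ _ _).trans (add_le_add h1 h2)
  exact ⟨key h.1 h'.1, key h.2.1 h'.2.1, key h.2.2.1 h'.2.2.1, key h.2.2.2.1 h'.2.2.2.1,
    key h.2.2.2.2 h'.2.2.2.2⟩

namespace LocData

variable {ι : Type} [Fintype ι] {L : LocData ι}

theorem Ser.loc_gauss (S : L.Ser) (q : R2 × ℝ) :
    vev (L.TT S.ψ S.ψ_sm S.U) q ⬝ᵥ vev (L.TT S.ψ S.ψ_sm S.U) q =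
        dx L.f q.1 ⬝ᵥ dx L.f q.1 + L.a q.1 ^ 2 ∧
      vev (L.TT S.ψ S.ψ_sm S.U) q ⬝ᵥ dy L.f q.1 = dx L.f q.1 ⬝ᵥ dy L.f q.1 ∧
      vev (L.ww S.ψ S.ψ_sm S.U) q ⬝ᵥ vev (L.TT S.ψ S.ψ_sm S.U) q = 0 ∧
      vev (L.ww S.ψ S.ψ_sm S.U) q ⬝ᵥ dy L.f q.1 = 0 := by
  have hc : vD (Yp S.ψ S.ψ_sm) L.fxP = vD (Xp S.ψ S.ψ_sm) L.fyP := by
    rw [fxP, fyP, Yp_vcst, Xp_vcst]
    funext i
    ext z θ
    change dy (dx L.f) z i = dx (dy L.f) z i
    rw [dx_dy_comm L.f_sm]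
  obtain ⟨h1, h2, h3, h4, -⟩ := gauss (Xp_Yp S.ψ S.ψ_sm) (Xp_Th S.ψ S.ψ_sm) (Yp_Th S.ψ S.ψ_sm)
    (Th_vcst _ _) (Th_vcst _ _) (Th_cst _ _) hc S.eqs
  have e1 := congrArg (ev q) h1
  have e2 := congrArg (ev q) h2
  have e3 := congrArg (ev q) h3
  have e4 := congrArg (ev q) h4
  rw [map_add, map_pow] at e1
  rw [map_zero] at e3 e4
  simp only [ev_apply, dot_val] at e1 e2 e3 e4
  exact ⟨e1, e2, e3, e4⟩

/-- The model jets over the disk. -/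
def Ser.locJ (S : L.Ser) : JData (R2 × ℝ) ι where
  Kc := {z | 0 ≤ L.s z} ×ˢ Set.Icc 0 (2 * π)
  T := vev (L.TT S.ψ S.ψ_sm S.U)
  b := fun q => dy L.f q.1
  w := vev (L.ww S.ψ S.ψ_sm S.U)
  A := vev (L.AAp S.ψ S.ψ_sm S.U)
  M := vev (L.MM S.ψ S.ψ_sm S.U)
  c := fun q => dy (dy L.f) q.1
  g := fun k q => L.sk k q.1
  ξ := fun k q => L.ξ k q.1
  ζ := fun k q => L.ζ k q.1
  cpt := L.cpt.prod isCompact_Icc
  T_c := loc_vev_c _
  b_c := (dy_sm L.f_sm).continuous.comp continuous_fst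
  w_c := loc_vev_c _
  A_c := loc_vev_c _
  M_c := loc_vev_c _
  c_c := (dy_sm (dy_sm L.f_sm)).continuous.comp continuous_fst
  g_c := fun k => (L.sk_sm k).continuous.comp continuous_fst
  ξ_c := fun k => (L.ξ_sm k).continuous.comp continuous_fst
  ζ_c := fun k => (L.ζ_sm k).continuous.comp continuous_fst
  gram := fun p hp => by
    obtain ⟨h1, h2, -, -⟩ := S.loc_gauss p
    have h3 := L.imm p.1 hp.1
    have h4 : 0 ≤ dy L.f p.1 ⬝ᵥ dy L.f p.1 := Finset.sum_nonneg fun i _ => mul_self_nonneg _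
    have h5 := mul_nonneg (sq_nonneg (L.a p.1)) h4
    unfold gram2 at h3 ⊢
    rw [h1, h2]
    linarith
  wT := fun p _ => (S.loc_gauss p).2.2.1
  wb := fun p _ => (S.loc_gauss p).2.2.2
  ξ_ne := fun k p hp hk => (L.trans k p.1 hp.1 hk).2

theorem Ser.locJ_J (S : L.Ser) (lam : ℝ) (p : R2 × ℝ) :
    S.locJ.J lam p = L.mjet S.ψ S.ψ_sm S.U lam p := rfl

theorem Ser.loc_phase (S : L.Ser) (lam : ℝ) (z : R2) {θ θ' : ℝ}
    (h : ∀ (F : Per R2) (z : R2), F.1 (z, θ') = F.1 (z, θ)) :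
    L.mjet S.ψ S.ψ_sm S.U lam (z, θ) = S.locJ.J lam (z, θ') := by
  have e : ∀ V : Fin 4 → Per R2, vev V (z, θ) = vev V (z, θ') := fun V =>
    funext fun i => (h (V i) z).symm
  rw [Ser.locJ_J, mjet, mjet, e, e, e, e]

theorem Ser.loc_lower (S : L.Ser) (Qs : Finset R2) (hQ : ∀ q ∈ Qs, 0 < L.s q) {c : ℝ}
    (hc : 0 < c) : ∃ c₁ : ℝ, 0 < c₁ ∧ ∀ q ∈ Qs, ∀ θ ∈ Set.Icc 0 (2 * π), c ≤ |cos θ| →
      c₁ ≤ ‖S.locJ.w (q, θ)‖ := by
  have hK : IsCompact (((Qs : Set R2) ×ˢ Set.Icc (0 : ℝ) (2 * π)) ∩ {p | c ≤ |cos p.2|}) :=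
    (Qs.finite_toSet.isCompact.prod isCompact_Icc).inter_right
      (isClosed_le continuous_const (by fun_prop))
  obtain ⟨c₁, h0, h1⟩ := hK.exists_forall_le' (f := fun p => ‖S.locJ.w p‖) (a := 0)
    S.locJ.w_c.norm.continuousOn fun p hp => norm_pos_iff.2 fun hw => by
      have h2 := S.NT p.1 p.2 (hQ p.1 hp.1.1) hw
      have h3 : c ≤ |cos p.2| := hp.2
      rw [h2, abs_zero] at h3
      linarith
  exact ⟨c₁, h0, fun q hq θ hθ h => h1 (q, θ) ⟨⟨hq, hθ⟩, h⟩⟩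

end LocData

/-- `S` from `exists_ser`, `Ser.eval` with `N' = max N 1`. `JData` on `P = R2 × ℝ`, `Kc = disk × [0, 2π]`
(`gauss` gives `T ⬝ T`, `T ⬝ b`, `w ⬝ T = 0 = w ⬝ b`; `gram2 T b = gram2 fx fy + a² |fy|²`), constant `C₁ + Cs 0` (triangle inequality; if `C₁ < 0` no jet is close), `Per.exists_phase`
to reduce the phase. `c` from `exists_phase_margin Qs`; `c₁` = a positive lower bound of `‖w (q, θ)‖` on the compact set `{q ∈ Qs, θ ∈ [0, 2π], c ≤ |cos θ|}` (`NT`);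
for each `lam` choose `θ₀` for `φ q = lam q.1 + ψ q`. -/
theorem locStmt : LocStmt := by
  intro ι _ L Qs hQ N C₁
  obtain ⟨S⟩ := L.exists_ser
  obtain ⟨Cs, Cs0, hE⟩ := S.eval (max N 1) (le_max_right _ _)
  obtain ⟨c, hc, hφ⟩ := LocData.exists_phase_margin Qs
  obtain ⟨c₁, hc₁, hw⟩ := S.loc_lower Qs hQ hc
  obtain ⟨m₀, l₁, hm, H1⟩ := S.locJ.JL1 (vev S.l) (loc_vev_c _)
    (fun p hp => S.l_T p.1 p.2 hp.1) (fun p hp => S.l_b p.1 p.2 hp.1)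
    (fun p hp => S.l_w p.1 p.2 hp.1) (fun p hp h k hk => S.G p.1 p.2 hp.1 h k hk)
    (fun p hp h => S.N p.1 p.2 hp.1 h) (C₁ + Cs 0)
  obtain ⟨l₃, H3⟩ := S.locJ.JL3 c₁ hc₁ (C₁ + Cs 0)
  refine ⟨Cs, m₀, max 1 (max l₁ l₃), hm, fun lam hlam => ?_⟩
  have hl : 1 ≤ lam := (le_max_left _ _).trans hlam
  have hl1 : l₁ ≤ lam := ((le_max_left _ _).trans (le_max_right _ _)).trans hlam
  have hl3 : l₃ ≤ lam := ((le_max_right _ _).trans (le_max_right _ _)).trans hlam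
  obtain ⟨θ₀, hθ₀⟩ := hφ fun q => lam * q.1 + S.ψ q
  obtain ⟨e1, e2, e3, e4, e5, e6, e7⟩ := hE lam θ₀ hl
  have hN : Cs 0 / lam ^ max N 1 ≤ Cs 0 / lam ^ N :=
    div_le_div_of_nonneg_left (Cs0 0) (by positivity) (pow_le_pow_right₀ hl (le_max_left _ _))
  refine ⟨_, _, e1, e2, e3, e4, e5, fun z hz => ?_, fun z hz J hJ => ?_⟩
  · obtain ⟨a1, a2, a3⟩ := e6 z hz
    exact ⟨a1.trans hN, a2.trans hN, a3.trans hN⟩
  · obtain ⟨θ', hθ', hcos, -, hF⟩ := exists_phase (P := R2) (lam * z.1 + S.ψ z + θ₀)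
    have hcl := loc_close_trans hJ (e7 z hz)
    rw [← add_div, S.loc_phase lam z hF] at hcl
    have hp : (z, θ') ∈ S.locJ.Kc := ⟨hz, hθ'⟩
    obtain ⟨b1, b2⟩ := H1 lam hl1 (z, θ') hp J hcl
    refine ⟨b1, b2, fun hq k' k hk' hk => ?_⟩
    exact H3 lam hl3 (z, θ') hp (hw z hq θ' hθ' (by rw [hcos]; exact hθ₀ z hq)) J hcl k' k hk' hk

end Crest.Agent.R216
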