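import Crest.Agent.R216.LoopDefs
import Crest.Agent.R216.Gauss

/-!
# R216: definitions for the local theorem
-/

set_option autoImplicit false
set_option linter.unusedSectionVars false

open scoped Manifold ContDiff Topology
open Matrix

noncomputable section

namespace Crest.Agent.R216

open Real Per

abbrev R2 := ℝ × ℝ

theorem dx_sm {E : Type} [NormedAddCommGroup E] [NormedSpace ℝ E] {v : R2 → E}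
    (hv : ContDiff ℝ ∞ v) : ContDiff ℝ ∞ (dx v) :=
  (hv.fderiv_right (m := ∞) (by simp)).clm_apply contDiff_const

theorem dy_sm {E : Type} [NormedAddCommGroup E] [NormedSpace ℝ E] {v : R2 → E}
    (hv : ContDiff ℝ ∞ v) : ContDiff ℝ ∞ (dy v) :=
  (hv.fderiv_right (m := ∞) (by simp)).clm_apply contDiff_const

/-- `∂x`, `∂y` acting on functions of `(x, y, θ)` with `θ = λ x + ψ (x, y) + θ₀`, without the term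
`λ ∂θ`. -/
def Xp (ψ : R2 → ℝ) (hψ : ContDiff ℝ ∞ ψ) : Derivation ℝ (Per R2) (Per R2) :=
  pd ((1, 0), 0) + cst (dx ψ) (dx_sm hψ) • Th
def Yp (ψ : R2 → ℝ) (hψ : ContDiff ℝ ∞ ψ) : Derivation ℝ (Per R2) (Per R2) :=
  pd ((0, 1), 0) + cst (dy ψ) (dy_sm hψ) • Th

/-- `cos 2θ`. -/
def c2 : Per R2 :=
  ⟨fun q => cos (2 * q.2), by fun_prop, fun _ θ => by
    show cos (2 * (θ + 2 * π)) = cos (2 * θ)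
    rw [show 2 * (θ + 2 * π) = 2 * θ + 2 * π + 2 * π by ring, cos_add_two_pi, cos_add_two_pi]⟩

namespace LocData

variable {ι : Type} [Fintype ι] (L : LocData ι)

theorem a_sm : ContDiff ℝ ∞ L.a := (expNegInvGlue.contDiff.comp L.s_sm).mul L.c0_sm
theorem bk_sm (k : ι) : ContDiff ℝ ∞ (L.bk k) :=
  (expNegInvGlue.contDiff.comp (L.sk_sm k)).mul (L.ck_sm k)
theorem H11_sm : ContDiff ℝ ∞ L.H11 := ContDiff.sum fun k _ =>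
  ((L.bk_sm k).pow 2).mul ((dx_sm (L.ek_sm k)).mul (dx_sm (L.ek_sm k)))
theorem H12_sm : ContDiff ℝ ∞ L.H12 := ContDiff.sum fun k _ =>
  ((L.bk_sm k).pow 2).mul ((dx_sm (L.ek_sm k)).mul (dy_sm (L.ek_sm k)))
theorem H22_sm : ContDiff ℝ ∞ L.H22 := ContDiff.sum fun k _ =>
  ((L.bk_sm k).pow 2).mul ((dy_sm (L.ek_sm k)).mul (dy_sm (L.ek_sm k)))

def fxP : Fin 4 → Per R2 := vcst (dx L.f) (dx_sm L.f_sm)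
def fyP : Fin 4 → Per R2 := vcst (dy L.f) (dy_sm L.f_sm)
def aP : Per R2 := cst L.a L.a_sm
def H11P : Per R2 := cst L.H11 L.H11_sm
def H12P : Per R2 := cst L.H12 L.H12_sm
def H22P : Per R2 := cst L.H22 L.H22_sm

/-- `F ∈ 𝒲_m`: `F = ψ(s)^m s^{-n} G`. -/
def Flat (m : ℕ) (F : Per R2) : Prop :=
  ∃ (n : ℕ) (G : Per R2), ∀ q, F.1 q = expNegInvGlue (L.s q.1) ^ m * (L.s q.1)⁻¹ ^ n * G.1 q

/-- The metric `f^* e + a² dx²` and the intrinsic part of the Gauss equation. -/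
def g11 (z : R2) : ℝ := dx L.f z ⬝ᵥ dx L.f z + L.a z ^ 2
def g12 (z : R2) : ℝ := dx L.f z ⬝ᵥ dy L.f z
def g22 (z : R2) : ℝ := dy L.f z ⬝ᵥ dy L.f z
def Kt (z : R2) : ℝ :=
  dx (dy L.g12) z - dy (dy L.g11) z / 2 - dx (dx L.g22) z / 2
    - tang (L.g11 z) (L.g12 z) (L.g22 z) (dx L.g11 z / 2) (dx L.g12 z - dy L.g11 z / 2)
        (dy L.g12 z - dx L.g22 z / 2) (dy L.g22 z / 2)
    + tang (L.g11 z) (L.g12 z) (L.g22 z) (dy L.g11 z / 2) (dx L.g22 z / 2)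
        (dy L.g11 z / 2) (dx L.g22 z / 2)

/-- Orthonormal frame adapted to `f` near the disk, with the tilt. -/
structure Frame where
  Ω : Set R2
  E1 : R2 → V4
  E2 : R2 → V4
  ν : R2 → V4
  p0 : R2 → ℝ
  β1 : R2 → ℝ
  β' : R2 → ℝ
  γ : R2 → ℝ
  c' : R2 → ℝ
  cb : R2 → ℝ
  E1_sm : ContDiff ℝ ∞ E1
  E2_sm : ContDiff ℝ ∞ E2
  ν_sm : ContDiff ℝ ∞ ν
  p0_sm : ContDiff ℝ ∞ p0
  β1_sm : ContDiff ℝ ∞ β1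
  β'_sm : ContDiff ℝ ∞ β'
  γ_sm : ContDiff ℝ ∞ γ
  c'_sm : ContDiff ℝ ∞ c'
  cb_sm : ContDiff ℝ ∞ cb
  Ω_open : IsOpen Ω
  sub : ∀ z, 0 ≤ L.s z → z ∈ Ω
  p0_pos : ∀ z, 0 < p0 z
  c'_pos : ∀ z, 0 < c' z
  E11 : ∀ z ∈ Ω, E1 z ⬝ᵥ E1 z = 1
  E22 : ∀ z ∈ Ω, E2 z ⬝ᵥ E2 z = 1
  νν : ∀ z ∈ Ω, ν z ⬝ᵥ ν z = 1
  E12 : ∀ z ∈ Ω, E1 z ⬝ᵥ E2 z = 0
  E1ν : ∀ z ∈ Ω, E1 z ⬝ᵥ ν z = 0
  E2ν : ∀ z ∈ Ω, E2 z ⬝ᵥ ν z = 0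
  E1b : ∀ z ∈ Ω, E1 z ⬝ᵥ dy L.f z = 0
  E2b : ∀ z ∈ Ω, E2 z ⬝ᵥ dy L.f z = 0
  νb : ∀ z ∈ Ω, ν z ⬝ᵥ dy L.f z = 0
  fx_eq : ∀ z ∈ Ω, dx L.f z = p0 z • E1 z + β1 z • ν z + β' z • dy L.f z
  c_eq : ∀ z ∈ Ω, dy (dy L.f) z = cb z • dy L.f z + (γ z * L.H22 z) • E2 z + c' z • ν z
  tilt : ∀ z, L.s z = 0 → ∀ k, 0 ≤ L.sk k z →
    0 < (p0 z • ν z - β1 z • E1 z) ⬝ᵥ (jet L.f z).B (L.ξ k z) (L.ζ k z) (L.ξ k z) (L.ζ k z)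

/-- Shape parameter. -/
structure Shape where
  τ : R2 → ℝ
  sm : ContDiff ℝ ∞ τ
  mem : ∀ z, τ z ∈ Set.Icc (0 : ℝ) (1 / 10)

variable {L}

namespace Frame

variable (F : L.Frame)

def E1P : Fin 4 → Per R2 := vcst F.E1 F.E1_sm
def E2P : Fin 4 → Per R2 := vcst F.E2 F.E2_sm
def νP : Fin 4 → Per R2 := vcst F.ν F.ν_sm
def β1P : Per R2 := cst F.β1 F.β1_sm
def γP : Per R2 := cst F.γ F.γ_sm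

/-- Loop parameters with `σ = Cσ y`. -/
def loop (τ : Shape) (Cσ : ℝ) : LoopPar R2 :=
  ⟨L.a, F.p0, τ.τ, fun z => Cσ * z.2, L.a_sm, F.p0_sm, τ.sm, by fun_prop, F.p0_pos, τ.mem⟩

def Vh (Q : LoopPar R2) : Fin 4 → Per R2 := Q.V1 • F.E1P + Q.V2 • F.E2P
def lP (Q : LoopPar R2) : Fin 4 → Per R2 :=
  Q.rP • F.νP - F.β1P • (Q.u1 • F.E1P + Q.u2 • F.E2P)
def nP (Q : LoopPar R2) : Fin 4 → Per R2 := -Q.u2 • F.E1P + Q.u1 • F.E2P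

/-- Frequency `Cσ`, phase `ψ` and kernel element for a given shape. -/
structure Ker (τ : Shape) where
  Cσ : ℝ
  ψ : R2 → ℝ
  ψ_sm : ContDiff ℝ ∞ ψ
  K1 : Per R2
  K2 : Per R2
  phase : ∀ z ∈ F.Ω, ∀ θ, (mean (vD Th (F.Vh (F.loop τ Cσ)) ⬝ᵥ
    vD (Yp ψ ψ_sm) (F.Vh (F.loop τ Cσ)))).1 (z, θ) = 0
  mean_K1 : mean K1 = 0
  mean_K2 : mean K2 = 0
  K_ker : (F.loop τ Cσ).u1 * Th K1 + (F.loop τ Cσ).u2 * Th K2 = 0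
  K_orth : mean (Th (F.loop τ Cσ).V1 * K1 + Th (F.loop τ Cσ).V2 * K2) = 0
  nondeg : ∀ z, 0 ≤ L.s z → ∀ θ, (mean (vD Th (K1 • F.E1P + K2 • F.E2P) ⬝ᵥ
    vD (Yp ψ ψ_sm) (F.Vh (F.loop τ Cσ)))).1 (z, θ) ≠ 0

/-- A formal solution with the extra term `-C a cos 2θ`. -/
structure Series {τ : Shape} (K : F.Ker τ) (C : ℝ) where
  U : ℕ → Fin 4 → Per R2
  k : ℕ → Per R2
  U0 : U 0 = L.aP • F.Vh (F.loop τ K.Cσ)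
  U_flat : ∀ n i, L.Flat 1 (U n i)
  k_flat : ∀ n, L.Flat 1 (k n)
  eqs : Eqs (Xp K.ψ K.ψ_sm) (Yp K.ψ K.ψ_sm) Th L.fxP L.fyP L.aP L.H11P L.H12P L.H22P U k
  k0 : k 0 = -2 * F.γP * (F.E2P ⬝ᵥ U 0)
  k1 : k 1 = -2 * F.γP * (F.E2P ⬝ᵥ U 1) - C • (L.aP * c2)

end Frame

variable (L)

/-- Order-zero parts of the jet. -/
def TT (ψ : R2 → ℝ) (hψ : ContDiff ℝ ∞ ψ) (U : ℕ → Fin 4 → Per R2) : Fin 4 → Per R2 :=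
  PP (Xp ψ hψ) Th L.fxP U 0
def ww (ψ : R2 → ℝ) (hψ : ContDiff ℝ ∞ ψ) (U : ℕ → Fin 4 → Per R2) : Fin 4 → Per R2 :=
  vD Th (L.TT ψ hψ U)
def AAp (ψ : R2 → ℝ) (hψ : ContDiff ℝ ∞ ψ) (U : ℕ → Fin 4 → Per R2) : Fin 4 → Per R2 :=
  AA (Xp ψ hψ) Th L.fxP U
def MM (ψ : R2 → ℝ) (hψ : ContDiff ℝ ∞ ψ) (U : ℕ → Fin 4 → Per R2) : Fin 4 → Per R2 :=
  vD (Yp ψ hψ) (L.TT ψ hψ U)

/-- The model jet at frequency `lam`. -/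
def mjet (ψ : R2 → ℝ) (hψ : ContDiff ℝ ∞ ψ) (U : ℕ → Fin 4 → Per R2) (lam : ℝ) (q : R2 × ℝ) : Jet :=
  ⟨vev (L.TT ψ hψ U) q, dy L.f q.1, lam • vev (L.ww ψ hψ U) q + vev (L.AAp ψ hψ U) q,
    vev (L.MM ψ hψ U) q, dy (dy L.f) q.1⟩

/-- The output of the formal part. -/
structure Ser where
  ψ : R2 → ℝ
  ψ_sm : ContDiff ℝ ∞ ψ
  U : ℕ → Fin 4 → Per R2
  k : ℕ → Per R2
  l : Fin 4 → Per R2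
  van : ∀ n z θ, L.s z ≤ 0 → vev (U n) (z, θ) = 0 ∧ (k n).1 (z, θ) = 0
  eqs : Eqs (Xp ψ ψ_sm) (Yp ψ ψ_sm) Th L.fxP L.fyP L.aP L.H11P L.H12P L.H22P U k
  l_ne : ∀ z θ, 0 ≤ L.s z → vev l (z, θ) ≠ 0
  l_T : ∀ z θ, 0 ≤ L.s z → vev l (z, θ) ⬝ᵥ vev (L.TT ψ ψ_sm U) (z, θ) = 0
  l_b : ∀ z θ, 0 ≤ L.s z → vev l (z, θ) ⬝ᵥ dy L.f z = 0
  l_w : ∀ z θ, 0 ≤ L.s z → vev l (z, θ) ⬝ᵥ vev (L.ww ψ ψ_sm U) (z, θ) = 0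
  G : ∀ z θ, 0 ≤ L.s z → vev (L.ww ψ ψ_sm U) (z, θ) = 0 → ∀ k, 0 ≤ L.sk k z →
    0 < vev l (z, θ) ⬝ᵥ (L.mjet ψ ψ_sm U 0 (z, θ)).B (L.ξ k z) (L.ζ k z) (L.ξ k z) (L.ζ k z)
  N : ∀ z θ, 0 ≤ L.s z → vev (L.ww ψ ψ_sm U) (z, θ) = 0 →
    vev l (z, θ) ⬝ᵥ vev (L.AAp ψ ψ_sm U) (z, θ) ≠ 0 ∨
    vev l (z, θ) ⬝ᵥ vev (L.MM ψ ψ_sm U) (z, θ) ≠ 0 ∨ vev l (z, θ) ⬝ᵥ dy (dy L.f) z ≠ 0
  NT : ∀ z θ, 0 < L.s z → vev (L.ww ψ ψ_sm U) (z, θ) = 0 → cos θ = 0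

end LocData

end Crest.Agent.R216
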