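import Crest.Agent.R216.Defs

/-!
# R216: the profile function of the corrugation loop
-/

set_option autoImplicit false
set_option linter.unusedSectionVars false

open scoped Manifold ContDiff Topology
open Matrix

noncomputable section

namespace Crest.Agent.R216

open Real

/-- Profile `S = sin θ (1 + t cos² θ) + (1/20) cos² θ cos (7θ + σ)`. -/
def Sf (t σ θ : ℝ) : ℝ := sin θ * (1 + t * cos θ ^ 2) + 1 / 20 * cos θ ^ 2 * cos (7 * θ + σ)

/-- `∂_θ S = cos θ * Sg`. -/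
def Sg (t σ θ : ℝ) : ℝ :=
  1 + t * cos θ ^ 2 - 2 * t * sin θ ^ 2 - 1 / 10 * sin θ * cos (7 * θ + σ)
    - 7 / 20 * cos θ * sin (7 * θ + σ)

/-- Mean of `S²`. -/
def mS (t : ℝ) : ℝ := 1 / 2 + t / 4 + t ^ 2 / 16 + 3 / 6400

theorem mS_gt {t : ℝ} (ht : t ∈ Set.Icc (0 : ℝ) (1 / 10)) : 1 / 2 < mS t := by
  unfold mS; nlinarith [ht.1, sq_nonneg t]

theorem Sf_contDiff : ContDiff ℝ ∞ fun q : ℝ × ℝ × ℝ => Sf q.1 q.2.1 q.2.2 := by
  unfold Sf; fun_prop

theorem Sf_add_pi (t σ θ : ℝ) : Sf t σ (θ + π) = -Sf t σ θ := by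
  have h : 7 * (θ + π) + σ = 7 * θ + σ + π + (3 : ℕ) * (2 * π) := by push_cast; ring
  rw [Sf, Sf, h, cos_add_nat_mul_two_pi, cos_add_pi, cos_add_pi, sin_add_pi]
  ring

theorem Sf_add_two_pi (t σ θ : ℝ) : Sf t σ (θ + 2 * π) = Sf t σ θ := by
  rw [two_mul, ← add_assoc, Sf_add_pi, Sf_add_pi, neg_neg]

theorem Sf_sigma (t σ θ : ℝ) : Sf t (σ + 2 * π) θ = Sf t σ θ := by
  rw [Sf, Sf, ← add_assoc, cos_add_two_pi]

theorem Sf_hasDerivAt (t σ θ : ℝ) : HasDerivAt (Sf t σ) (cos θ * Sg t σ θ) θ := by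
  have h1 : HasDerivAt (fun θ : ℝ => cos (7 * θ + σ)) (-sin (7 * θ + σ) * 7) θ := by
    simpa using (((hasDerivAt_id θ).const_mul 7).add_const σ).cos
  have h2 := (hasDerivAt_cos θ).pow 2
  have h3 := ((hasDerivAt_sin θ).mul ((h2.const_mul t).const_add 1)).add
    ((h2.const_mul (1 / 20)).mul h1)
  refine HasDerivAt.congr_deriv (f' := _) h3 ?_
  simp only [Sg, Pi.pow_apply]
  norm_num
  ring

theorem Sg_pos {t : ℝ} (ht : t ∈ Set.Icc (0 : ℝ) (1 / 10)) (σ θ : ℝ) : 1 / 4 ≤ Sg t σ θ := by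
  have h1 : sin θ * cos (7 * θ + σ) ≤ 1 := by
    nlinarith [sin_sq_le_one θ, cos_sq_le_one (7 * θ + σ), sq_nonneg (sin θ - cos (7 * θ + σ))]
  have h2 : cos θ * sin (7 * θ + σ) ≤ 1 := by
    nlinarith [cos_sq_le_one θ, sin_sq_le_one (7 * θ + σ), sq_nonneg (cos θ - sin (7 * θ + σ))]
  have h3 : t * sin θ ^ 2 ≤ 1 / 10 * 1 :=
    mul_le_mul ht.2 (sin_sq_le_one θ) (sq_nonneg _) (by norm_num)
  have h4 : 0 ≤ t * cos θ ^ 2 := mul_nonneg ht.1 (sq_nonneg _)
  unfold Sg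
  linarith

/-- `1 - |sin θ| ≥ cos² θ / 2` and `t + 1/20 ≤ 1/2`. -/
theorem Sf_sq_le {t : ℝ} (ht : t ∈ Set.Icc (0 : ℝ) (1 / 10)) (σ θ : ℝ) : Sf t σ θ ^ 2 ≤ 1 := by
  have h1 : t * sin θ ≤ 1 / 10 ∧ -(1 / 10) ≤ t * sin θ := by
    constructor <;> nlinarith [ht.1, ht.2, sin_le_one θ, neg_one_le_sin θ]
  have h2 := cos_le_one (7 * θ + σ)
  have h3 := neg_one_le_cos (7 * θ + σ)
  have h4 : Sf t σ θ = sin θ + cos θ ^ 2 * (t * sin θ + 1 / 20 * cos (7 * θ + σ)) := by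
    unfold Sf; ring
  have h5 := sin_sq_add_cos_sq θ
  have h6 : cos θ ^ 2 * (t * sin θ + 1 / 20 * cos (7 * θ + σ)) ≤ cos θ ^ 2 * (1 / 2) :=
    mul_le_mul_of_nonneg_left (by linarith [h1.1]) (sq_nonneg _)
  have h7 : cos θ ^ 2 * (-(1 / 2)) ≤ cos θ ^ 2 * (t * sin θ + 1 / 20 * cos (7 * θ + σ)) :=
    mul_le_mul_of_nonneg_left (by linarith [h1.2]) (sq_nonneg _)
  rw [sq_le_one_iff_abs_le_one, abs_le, h4]
  constructor <;> nlinarith [sq_nonneg (sin θ - 1), sq_nonneg (sin θ + 1)]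

theorem Sf_turn (t σ : ℝ) {θ : ℝ} (h : cos θ = 0) : Sf t σ θ = sin θ := by
  simp [Sf, h]

/-- At a turning point the differential of `S` in all three variables vanishes
(`S = sin θ + cos² θ * (…)`). -/
theorem Sf_fderiv_turn (t σ : ℝ) {θ : ℝ} (h : cos θ = 0) :
    fderiv ℝ (fun q : ℝ × ℝ × ℝ => Sf q.1 q.2.1 q.2.2) (t, σ, θ) = 0 := by
  have hc : DifferentiableAt ℝ (fun q : ℝ × ℝ × ℝ => cos q.2.2) (t, σ, θ) := by fun_prop
  have hg : DifferentiableAt ℝ (fun q : ℝ × ℝ × ℝ =>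
      cos q.2.2 * (q.1 * sin q.2.2 + 1 / 20 * cos (7 * q.2.2 + q.2.1))) (t, σ, θ) := by fun_prop
  have h1 := (show DifferentiableAt ℝ (fun q : ℝ × ℝ × ℝ => q.2.2) (t, σ, θ) by
    fun_prop).hasFDerivAt
  have h2 := h1.sin.add (hc.hasFDerivAt.mul hg.hasFDerivAt)
  simp only [h, zero_smul, zero_mul, add_zero] at h2
  rw [← h2.fderiv]
  congr 1
  funext q
  simp only [Sf, Pi.add_apply, Pi.mul_apply]
  ring

theorem loop1_cos (k : ℤ) (hk : k ≠ 0) (c : ℝ) :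
    ∫ θ in (0 : ℝ)..(2 * π), cos (k * θ + c) = 0 := by
  rw [intervalIntegral.integral_comp_mul_add cos (Int.cast_ne_zero.2 hk) c, integral_cos, mul_zero,
    zero_add, add_comm, sin_add_int_mul_two_pi, sub_self, smul_zero]

theorem loop1_orth (m n : ℕ) (hm : 0 < m) (c d : ℝ) :
    ∫ θ in (0 : ℝ)..(2 * π), cos (m * θ + c) * cos (n * θ + d) =
      if m = n then π * cos (c - d) else 0 := by
  have h : ∀ θ : ℝ, cos (m * θ + c) * cos (n * θ + d) =
      1 / 2 * cos (((m + n : ℤ) : ℝ) * θ + (c + d)) + 1 / 2 * cos (((m - n : ℤ) : ℝ) * θ + (c - d)) :=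
    fun θ => by
      push_cast
      rw [show ((m : ℝ) + n) * θ + (c + d) = (m * θ + c) + (n * θ + d) by ring,
        show ((m : ℝ) - n) * θ + (c - d) = (m * θ + c) - (n * θ + d) by ring, cos_add (m * θ + c),
        cos_sub (m * θ + c)]
      ring
  simp only [h]
  rw [intervalIntegral.integral_add (Continuous.intervalIntegrable (by fun_prop) _ _)
    (Continuous.intervalIntegrable (by fun_prop) _ _), intervalIntegral.integral_const_mul,
    intervalIntegral.integral_const_mul, loop1_cos _ (by omega)]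
  split_ifs with hmn
  · subst hmn
    simp
    ring
  · rw [loop1_cos _ (by omega)]
    simp

/-- Expand in harmonics: `sin θ (1 + t cos² θ) = (1 + t/4) sin θ + (t/4) sin 3θ`,
`cos² θ cos (7θ+σ) = cos (7θ+σ)/2 + cos (9θ+σ)/4 + cos (5θ+σ)/4`; use orthogonality
(product-to-sum formulas and `∫ cos (nθ + c) = 0` over a period for `n ≠ 0`), or exhibit the primitive. -/
theorem Sf_sq_integral (t σ : ℝ) : ∫ θ in (0 : ℝ)..(2 * π), Sf t σ θ ^ 2 = 2 * π * mS t := by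
  set a : Fin 5 → ℝ := ![1 + t / 4, t / 4, 1 / 80, 1 / 40, 1 / 80] with ha
  set n : Fin 5 → ℕ := ![1, 3, 5, 7, 9] with hn
  set c : Fin 5 → ℝ := ![-(π / 2), -(π / 2), σ, σ, σ] with hc
  have h1 : ∀ θ, Sf t σ θ = ∑ i, a i * cos (n i * θ + c i) := fun θ => by
    have e1 : (5 : ℝ) * θ + σ = 7 * θ + σ - 2 * θ := by ring
    have e2 : (9 : ℝ) * θ + σ = 7 * θ + σ + 2 * θ := by ring
    simp only [ha, hn, hc, Fin.sum_univ_five, cons_val, Nat.cast_ofNat, Nat.cast_one, one_mul,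
      ← sub_eq_add_neg, cos_sub_pi_div_two]
    rw [e1, e2, cos_sub, cos_add (7 * θ + σ), sin_three_mul, cos_two_mul, Sf]
    linear_combination (t * sin θ) * sin_sq_add_cos_sq θ
  have h2 : ∀ θ, Sf t σ θ ^ 2 =
      ∑ i, ∑ j, a i * a j * (cos (n i * θ + c i) * cos (n j * θ + c j)) := fun θ => by
    rw [h1, pow_two, Finset.sum_mul_sum]
    exact Finset.sum_congr rfl fun i _ => Finset.sum_congr rfl fun j _ => by ring
  have h3 : ∀ i, 0 < n i := fun i => by fin_cases i <;> simp [hn]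
  simp only [h2]
  rw [intervalIntegral.integral_finsetSum fun i _ => Continuous.intervalIntegrable (by fun_prop) _ _]
  rw [Finset.sum_congr rfl fun i _ => intervalIntegral.integral_finsetSum
    fun j _ => Continuous.intervalIntegrable (by fun_prop) _ _]
  simp only [intervalIntegral.integral_const_mul, loop1_orth _ _ (h3 _)]
  simp [ha, hn, hc, Fin.sum_univ_five, mS]
  ring

/-- `∂_σ S = -(1/20) cos² θ sin (7θ+σ)` is not a multiple of `∂_θ S`: divide by `cos θ`, let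
`θ → π/2` (or use continuity) to get `ρ = 0`; then pick `θ` with `cos θ ≠ 0`, `sin (7θ+σ) ≠ 0`. -/
theorem Sf_indep {t : ℝ} (ht : t ∈ Set.Icc (0 : ℝ) (1 / 10)) (σ ρ : ℝ) :
    ∃ θ, -(1 / 20) * cos θ ^ 2 * sin (7 * θ + σ) ≠ ρ * (cos θ * Sg t σ θ) := by
  by_contra hc
  push Not at hc
  have h0 : ρ = 0 := by
    by_contra h0
    have h1 : 0 < min 1 |ρ| := lt_min one_pos (abs_pos.2 h0)
    have h2 : cos (arccos (min 1 |ρ|)) = min 1 |ρ| := cos_arccos (by linarith) (min_le_left _ _)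
    have h3 := hc (arccos (min 1 |ρ|))
    have h4 := Sg_pos ht σ (arccos (min 1 |ρ|))
    have h5 := abs_sin_le_one (7 * arccos (min 1 |ρ|) + σ)
    have h6 : min 1 |ρ| ≤ |ρ| := min_le_right _ _
    rw [h2] at h3
    generalize Sg t σ (arccos (min 1 |ρ|)) = g at h3 h4
    generalize sin (7 * arccos (min 1 |ρ|) + σ) = s at h3 h5
    generalize min 1 |ρ| = ε at h1 h3 h6
    have h7 : -(1 / 20) * ε * s = ρ * g := mul_left_cancel₀ h1.ne' (by linear_combination h3)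
    have h8 := congrArg abs h7
    rw [abs_mul, abs_mul, abs_mul, abs_of_pos h1, abs_of_pos (show 0 < g by linarith), abs_neg,
      abs_of_pos (show (0 : ℝ) < 1 / 20 by norm_num)] at h8
    nlinarith [abs_nonneg s]
  have h1 := hc 0
  have h2 := hc (π / 14)
  have h3 : 0 < cos (π / 14) := cos_pos_of_mem_Ioo ⟨by linarith [pi_pos], by linarith [pi_pos]⟩
  rw [h0, zero_mul, show 7 * (π / 14) + σ = σ + π / 2 by ring, sin_add_pi_div_two] at h2
  have h4 : cos σ = 0 := (mul_eq_zero.1 h2).resolve_left (by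
    have := pow_pos h3 2
    linarith)
  have h5 : sin σ = 0 := by simpa [h0] using h1
  have h6 := sin_sq_add_cos_sq σ
  rw [h4, h5] at h6
  norm_num at h6

end Crest.Agent.R216
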