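import Crest.Agent.R216.LoopDefs

/-!
# R216: identities for the corrugation loop
-/

set_option autoImplicit false
set_option linter.unusedSectionVars false

open scoped Manifold ContDiff Topology
open Matrix

noncomputable section

namespace Crest.Agent.R216

open Real Per

namespace LoopPar

variable {P : Type} [NormedAddCommGroup P] [NormedSpace ℝ P] [FiniteDimensional ℝ P]
  (Q : LoopPar P)

theorem lp_two (D : Derivation ℝ (Per P) (Per P)) : D 2 = 0 := by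
  simpa using D.map_natCast 2
theorem lp_four (D : Derivation ℝ (Per P) (Per P)) : D 4 = 0 := by
  simpa using D.map_natCast 4
theorem lp_a : Th Q.aP = 0 := Th_cst _ _
theorem lp_p : Th Q.pP = 0 := Th_cst _ _
theorem lp_r : Th Q.rP = 0 := Th_cst _ _
theorem lp_v : Th Q.vP = 0 := Th_cst _ _
theorem lp_m : Th Q.mP = 0 := Th_cst _ _
theorem lp_mean_cst {k : Per P} (hk : Th k = 0) : mean k = k := by
  have := mean_mul hk 1
  rwa [mul_one, mean_one, mul_one] at this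

theorem r_sq : Q.rP ^ 2 = Q.pP ^ 2 + Q.aP ^ 2 := by
  ext z θ
  have := Q.p0_pos z
  exact Real.sq_sqrt (show 0 ≤ Q.p0 z ^ 2 + Q.a z ^ 2 by positivity)
theorem vh_sq : 2 * Q.rP * (Q.rP + Q.pP) * Q.mP * Q.vP ^ 2 = 1 := by
  ext z θ
  have hd := Q.den_pos z
  have hv : Q.vh z ^ 2 = (2 * Q.r z * (Q.r z + Q.p0 z) * mS (Q.τ z))⁻¹ := by
    unfold vh vhf; rw [inv_pow]; exact congrArg _ (Real.sq_sqrt hd.le)
  show 2 * Q.r z * (Q.r z + Q.p0 z) * mS (Q.τ z) * Q.vh z ^ 2 = 1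
  rw [hv, mul_inv_cancel₀ hd.ne']
theorem sq_sq : Q.sq ^ 2 = 1 - Q.sig ^ 2 := by
  ext z θ
  exact Real.sq_sqrt (Q.sig_lt (z, θ)).le
theorem isq_mul : Q.isq * Q.sq = 1 := inv_mul _ _
theorem u2_eq : Q.u2 = 2 * Q.sig * Q.sq := by
  simp only [u2, nh, sig]
  ring
theorem u_sq : Q.u1 ^ 2 + Q.u2 ^ 2 = 1 := by
  rw [u2_eq, u1]
  linear_combination (4 * Q.sig ^ 2) * Q.sq_sq
/-- `Sf_sq_integral`. -/
theorem mean_S_sq : mean (Q.S ^ 2) = Q.mP := by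
  ext z θ
  show (2 * π)⁻¹ * ∫ t in (0 : ℝ)..(2 * π), Sf (Q.τ z) (Q.σ z) t ^ 2 = mS (Q.τ z)
  rw [Sf_sq_integral, inv_mul_cancel_left₀ (by positivity)]
theorem par_S : Par (-1) Q.S := fun _ _ =>
  (Sf_add_pi _ _ _).trans (neg_one_mul _).symm

theorem lp_par_sig : Par (-1) Q.sig := fun z θ => by
  show Q.a z * Q.vh z * Q.S.1 (z, θ + π) = -1 * (Q.a z * Q.vh z * Q.S.1 (z, θ))
  rw [Q.par_S z θ]
  ring

theorem lp_par_sq : Par 1 Q.sq := fun z θ => by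
  show √(1 - Q.sig.1 (z, θ + π) ^ 2) = 1 * √(1 - Q.sig.1 (z, θ) ^ 2)
  rw [Q.lp_par_sig z θ, neg_one_mul, neg_sq, one_mul]
theorem par_u1 : Par 1 Q.u1 := fun z θ => by
  show 1 - 2 * Q.sig.1 (z, θ + π) ^ 2 = 1 * (1 - 2 * Q.sig.1 (z, θ) ^ 2)
  rw [Q.lp_par_sig z θ]
  ring
theorem par_nh : Par (-1) Q.nh := fun z θ => by
  show 2 * Q.vh z * Q.S.1 (z, θ + π) * Q.sq.1 (z, θ + π) =
    -1 * (2 * Q.vh z * Q.S.1 (z, θ) * Q.sq.1 (z, θ))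
  rw [Q.par_S z θ, Q.lp_par_sq z θ]
  ring
theorem par_u2 : Par (-1) Q.u2 := fun z θ => by
  show Q.a z * Q.nh.1 (z, θ + π) = -1 * (Q.a z * Q.nh.1 (z, θ))
  rw [Q.par_nh z θ]
  ring
theorem par_V1 : Par 1 Q.V1 := by
  refine Par.prim (Or.inl rfl) fun z θ => ?_
  show 2 * Q.a z * Q.r z * Q.vh z ^ 2 * (mS (Q.τ z) - Q.S.1 (z, θ + π) ^ 2) =
    1 * (2 * Q.a z * Q.r z * Q.vh z ^ 2 * (mS (Q.τ z) - Q.S.1 (z, θ) ^ 2))
  rw [Q.par_S z θ]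
  ring
theorem par_V2 : Par (-1) Q.V2 := by
  refine Par.prim (Or.inr rfl) fun z θ => ?_
  show Q.r z * Q.nh.1 (z, θ + π) = -1 * (Q.r z * Q.nh.1 (z, θ))
  rw [Q.par_nh z θ]
  ring
/-- `r - p₀ = 2 a² r vh² m` (multiply by `r + p₀ > 0`, pointwise). -/
theorem r_sub : Q.rP - Q.pP = 2 * Q.aP ^ 2 * Q.rP * Q.vP ^ 2 * Q.mP := by
  linear_combination (-(Q.rP - Q.pP)) * Q.vh_sq + (2 * Q.rP * Q.mP * Q.vP ^ 2) * Q.r_sq
theorem mean_u1 : Q.rP * mean Q.u1 = Q.pP := by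
  have hk : Th (2 * Q.aP ^ 2 * Q.vP ^ 2) = 0 := by
    simp [Derivation.leibniz, lp_two, lp_a, lp_v]
  have e : Q.u1 = 1 - 2 * Q.aP ^ 2 * Q.vP ^ 2 * Q.S ^ 2 := by
    simp only [u1, sig]
    ring
  rw [e, map_sub, mean_one, mean_mul hk, mean_S_sq]
  linear_combination Q.r_sub
theorem mean_nh : mean Q.nh = 0 := Q.par_nh.mean_zero
theorem mean_nh_u1 : mean (Q.nh * Q.u1) = 0 := by
  have := Q.par_nh.mul Q.par_u1
  rw [mul_one] at this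
  exact this.mean_zero
theorem mean_nh_sq_pos (q : P × ℝ) : 0 < (mean (Q.nh ^ 2)).1 q := by
  obtain ⟨z, θ⟩ := q
  refine mean_pos (fun t => show 0 ≤ Q.nh.1 (z, t) ^ 2 from sq_nonneg _) ⟨π / 2, ?_⟩ θ
  show (2 * Q.vh z * Sf (Q.τ z) (Q.σ z) (π / 2) * Q.sq.1 (z, π / 2)) ^ 2 ≠ 0
  rw [Sf_turn _ _ cos_pi_div_two, sin_pi_div_two]
  have h1 := (Q.vh_pos z).ne'
  have h2 := Q.sq_ne (z, π / 2)
  positivity
theorem Th_V1 : Th Q.V1 = 2 * Q.aP * Q.rP * Q.vP ^ 2 * (Q.mP - Q.S ^ 2) := by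
  have hk : Th (2 * Q.aP * Q.rP * Q.vP ^ 2) = 0 := by
    simp [Derivation.leibniz, lp_two, lp_a, lp_v, lp_r]
  rw [V1, Th_prim, mean_mul hk, map_sub, lp_mean_cst Q.lp_m, mean_S_sq]
  ring
theorem a_Th_V1 : Q.aP * Th Q.V1 = Q.rP * Q.u1 - Q.pP := by
  rw [Th_V1, u1, sig]
  linear_combination -Q.r_sub
theorem Th_V2 : Th Q.V2 = Q.rP * Q.nh := by
  rw [V2, Th_prim, mean_mul Q.lp_r, mean_nh, mul_zero, sub_zero]
theorem mean_V1 : mean Q.V1 = 0 := mean_prim _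
theorem mean_V2 : mean Q.V2 = 0 := mean_prim _
/-- `(ΘV1)² + (ΘV2)² = 4 r² vh² (a² vh² m² + (1 - 2 a² vh² m) S²)`, whose mean is
`4 r² vh² m (1 - a² vh² m) = 1` (`2 r a² vh² m = r - p₀`, `2 r (r + p₀) m vh² = 1`). -/
theorem mean_ThV_sq : mean (Th Q.V1 ^ 2 + Th Q.V2 ^ 2) = 1 := by
  have e : Th Q.V1 ^ 2 + Th Q.V2 ^ 2 = 4 * Q.rP ^ 2 * Q.vP ^ 4 * Q.aP ^ 2 * Q.mP ^ 2 +
      4 * Q.rP ^ 2 * Q.vP ^ 2 * (1 - 2 * Q.aP ^ 2 * Q.vP ^ 2 * Q.mP) * Q.S ^ 2 := by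
    have h := Q.sq_sq
    rw [sig] at h
    rw [Th_V1, Th_V2, nh]
    linear_combination (4 * Q.rP ^ 2 * Q.vP ^ 2 * Q.S ^ 2) * h
  have k1 : Th (4 * Q.rP ^ 2 * Q.vP ^ 4 * Q.aP ^ 2 * Q.mP ^ 2) = 0 := by
    simp [Derivation.leibniz, lp_four, lp_a, lp_v, lp_r, lp_m]
  have k2 : Th (4 * Q.rP ^ 2 * Q.vP ^ 2 * (1 - 2 * Q.aP ^ 2 * Q.vP ^ 2 * Q.mP)) = 0 := by
    simp [Derivation.leibniz, lp_four, lp_two, lp_a, lp_v, lp_r, lp_m]
  rw [e, map_add, lp_mean_cst k1, mean_mul k2, mean_S_sq]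
  linear_combination Q.vh_sq + (2 * Q.rP * Q.vP ^ 2 * Q.mP) * Q.r_sub
theorem n_ThV : -Q.u2 * Th Q.V1 + Q.u1 * Th Q.V2 = Q.pP * Q.nh := by
  rw [Th_V2, u2]
  linear_combination (-Q.nh) * Q.a_Th_V1
theorem lp_D_sq (D : Derivation ℝ (Per P) (Per P)) : 2 * D Q.sq = -2 * Q.sig * D Q.sig * Q.isq := by
  have h := congrArg D Q.sq_sq
  simp only [pow_two, map_sub, Derivation.leibniz, Derivation.map_one_eq_zero, smul_eq_mul] at h
  linear_combination Q.isq * h - (2 * D Q.sq) * Q.isq_mul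

/-- Derivative of the unit vector `u`, for any derivation of `Per P` (differentiate
`sq² = 1 - sig²` and multiply by `isq`). -/
theorem D_u (D : Derivation ℝ (Per P) (Per P)) :
    D Q.u1 = -(2 * D Q.sig * Q.isq) * Q.u2 ∧ D Q.u2 = 2 * D Q.sig * Q.isq * Q.u1 := by
  rw [u2_eq, u1]
  simp only [pow_two, map_sub, Derivation.leibniz, Derivation.map_one_eq_zero, smul_eq_mul, lp_two]
  constructor
  · linear_combination (4 * Q.sig * D Q.sig) * Q.isq_mul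
  · linear_combination Q.sig * Q.lp_D_sq D + (2 * D Q.sig * Q.isq) * Q.sq_sq
      - (2 * D Q.sig * Q.sq) * Q.isq_mul
theorem ThTh_V : Th (Th Q.V1) = -(2 * Q.rP * Q.vP * Th Q.S * Q.isq) * Q.u2 ∧
    Th (Th Q.V2) = 2 * Q.rP * Q.vP * Th Q.S * Q.isq * Q.u1 := by
  have h1 := Q.lp_D_sq Th
  have h2 := Q.sq_sq
  rw [Th_V1, Th_V2, u2, nh, u1]
  rw [sig] at h1 h2 ⊢
  simp only [pow_two, map_sub, Derivation.leibniz, smul_eq_mul, lp_two, lp_a, lp_v, lp_r,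
    lp_m] at h1 ⊢
  constructor
  · linear_combination (4 * Q.aP * Q.rP * Q.vP ^ 2 * Q.S * Th Q.S) * Q.isq_mul
  · linear_combination (Q.rP * Q.vP * Q.S) * h1 + (2 * Q.rP * Q.vP * Th Q.S * Q.isq) * h2
      - (2 * Q.rP * Q.vP * Th Q.S * Q.sq) * Q.isq_mul
theorem Th_S (z : P) (θ : ℝ) : (Th Q.S).1 (z, θ) = cos θ * Sg (Q.τ z) (Q.σ z) θ := by
  rw [Th_val]
  exact (Sf_hasDerivAt (Q.τ z) (Q.σ z) θ).deriv
/-- `Sf_fderiv_turn` and the chain rule. -/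
theorem pd_S_turn (v : P × ℝ) (z : P) {θ : ℝ} (h : cos θ = 0) : (pd v Q.S).1 (z, θ) = 0 := by
  have hk : Differentiable ℝ fun q : P × ℝ => (Q.τ q.1, Q.σ q.1, q.2) :=
    ((Q.τ_sm.comp contDiff_fst).prodMk ((Q.σ_sm.comp contDiff_fst).prodMk
      contDiff_snd)).differentiable (by simp)
  have h1 := fderiv_comp (z, θ) (g := fun q : ℝ × ℝ × ℝ => Sf q.1 q.2.1 q.2.2)
    (Sf_contDiff.differentiable (by simp) _) (hk (z, θ))
  rw [Sf_fderiv_turn _ _ h, ContinuousLinearMap.zero_comp] at h1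
  rw [pd_val]
  exact congrArg (fun L : P × ℝ →L[ℝ] ℝ => L v) h1

/-- Substitution of parameters. -/
def comp {P' : Type} [NormedAddCommGroup P'] [NormedSpace ℝ P'] (j : P' → P)
    (hj : ContDiff ℝ ∞ j) : LoopPar P' :=
  ⟨Q.a ∘ j, Q.p0 ∘ j, Q.τ ∘ j, Q.σ ∘ j, Q.a_sm.comp hj, Q.p0_sm.comp hj, Q.τ_sm.comp hj,
    Q.σ_sm.comp hj, fun z => Q.p0_pos (j z), fun z => Q.τ_mem (j z)⟩

theorem comp_sub {P' : Type} [NormedAddCommGroup P'] [NormedSpace ℝ P'] [FiniteDimensional ℝ P']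
    (j : P' → P) (hj : ContDiff ℝ ∞ j) :
    (Q.comp j hj).u1 = sub j hj Q.u1 ∧ (Q.comp j hj).u2 = sub j hj Q.u2 ∧
    (Q.comp j hj).nh = sub j hj Q.nh ∧ (Q.comp j hj).V1 = sub j hj Q.V1 ∧
    (Q.comp j hj).V2 = sub j hj Q.V2 := by
  have ha : (Q.comp j hj).aP = sub j hj Q.aP := rfl
  have hr : (Q.comp j hj).rP = sub j hj Q.rP := rfl
  have hv : (Q.comp j hj).vP = sub j hj Q.vP := rfl
  have hm : (Q.comp j hj).mP = sub j hj Q.mP := rfl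
  have hS : (Q.comp j hj).S = sub j hj Q.S := rfl
  have hs : (Q.comp j hj).sig = sub j hj Q.sig := by
    simp only [sig, map_mul, ha, hv, hS]
  have hq : (Q.comp j hj).sq = sub j hj Q.sq := by
    ext z θ
    show √(1 - (Q.comp j hj).sig.1 (z, θ) ^ 2) = √(1 - Q.sig.1 (j z, θ) ^ 2)
    rw [hs, sub_val]
  have hn : (Q.comp j hj).nh = sub j hj Q.nh := by
    simp only [nh, map_mul, hv, hS, hq, map_ofNat]
  refine ⟨?_, ?_, hn, ?_, ?_⟩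
  · simp only [u1, map_mul, map_sub, map_pow, map_one, hs, map_ofNat]
  · simp only [u2, map_mul, ha, hn]
  · rw [V1, V1, ← prim_sub]
    simp only [map_mul, map_sub, map_pow, ha, hr, hv, hm, hS, map_ofNat]
  · rw [V2, V2, ← prim_sub]
    simp only [map_mul, hr, hn]

end LoopPar

end Crest.Agent.R216
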