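import Crest.Agent.R216.Per
import Crest.Agent.R192.PInt

/-!
# R216: mean and primitive in `θ`
-/

set_option autoImplicit false
set_option linter.unusedSectionVars false

open scoped Manifold ContDiff Topology
open Matrix

noncomputable section

namespace Crest.Agent.R216

open Real

namespace Per

variable {P : Type} [NormedAddCommGroup P] [NormedSpace ℝ P]
variable {P' : Type} [NormedAddCommGroup P'] [NormedSpace ℝ P']
variable [FiniteDimensional ℝ P] [FiniteDimensional ℝ P']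

theorem p2_cont (F : Per P) (z : P) : Continuous fun t : ℝ => F.1 (z, t) :=
  (sm F).continuous.comp (Continuous.prodMk_right z)

theorem p2_ii (F : Per P) (z : P) (a b : ℝ) :
    IntervalIntegrable (fun t : ℝ => F.1 (z, t)) MeasureTheory.volume a b :=
  (p2_cont F z).intervalIntegrable a b

theorem p2_pint {E : Type} [NormedAddCommGroup E] [NormedSpace ℝ E] [FiniteDimensional ℝ E]
    {f : E × ℝ → ℝ} (hf : ContDiff ℝ ∞ f) (a b : ℝ) :
    ContDiff ℝ ∞ fun p => ∫ t in a..b, f (p, t) :=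
  contDiff_infty.2 fun n => R192.contDiff_pint n (contDiff_infty.1 hf n) a b

theorem p2_periodic (F : Per P) (z : P) : Function.Periodic (fun t : ℝ => F.1 (z, t)) (2 * π) :=
  fun t => per F z t

theorem p2_int_shift (F : Per P) (z : P) (c : ℝ) :
    ∫ t in c..c + 2 * π, F.1 (z, t) = ∫ t in (0 : ℝ)..(2 * π), F.1 (z, t) := by
  rw [(p2_periodic F z).intervalIntegral_add_eq c 0, zero_add]

theorem p2_mean_sm (F : Per P) :
    ContDiff ℝ ∞ fun z : P => (2 * π)⁻¹ * ∫ t in (0 : ℝ)..(2 * π), F.1 (z, t) :=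
  contDiff_const.mul (p2_pint (sm F) _ _)

/-- `Crest.Agent.R192.contDiff_pint`. -/
theorem mean_mem (F : Per P) :
    (fun q : P × ℝ => (2 * π)⁻¹ * ∫ t in (0 : ℝ)..(2 * π), F.1 (q.1, t)) ∈ Per P := by
  exact ⟨(p2_mean_sm F).comp contDiff_fst, fun _ _ => rfl⟩

/-- Mean over a period. -/
def mean : Per P →ₗ[ℝ] Per P where
  toFun F := ⟨fun q => (2 * π)⁻¹ * ∫ t in (0 : ℝ)..(2 * π), F.1 (q.1, t), mean_mem F⟩
  map_add' := by
    intro F G
    refine ext' fun z θ => ?_
    change (2 * π)⁻¹ * ∫ t in (0 : ℝ)..(2 * π), (F.1 (z, t) + G.1 (z, t)) =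
      (2 * π)⁻¹ * (∫ t in (0 : ℝ)..(2 * π), F.1 (z, t)) +
        (2 * π)⁻¹ * ∫ t in (0 : ℝ)..(2 * π), G.1 (z, t)
    rw [intervalIntegral.integral_add (p2_ii F z _ _) (p2_ii G z _ _), mul_add]
  map_smul' := by
    intro c F
    refine ext' fun z θ => ?_
    change (2 * π)⁻¹ * ∫ t in (0 : ℝ)..(2 * π), c * F.1 (z, t) =
      c * ((2 * π)⁻¹ * ∫ t in (0 : ℝ)..(2 * π), F.1 (z, t))
    rw [intervalIntegral.integral_const_mul, mul_left_comm]

theorem mean_val (F : Per P) (q : P × ℝ) :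
    (mean F).1 q = (2 * π)⁻¹ * ∫ t in (0 : ℝ)..(2 * π), F.1 (q.1, t) := rfl

/-- `∫ t in 0..θ, g (z,t) = θ * ∫ s in 0..1, g (z, θ s)` gives smoothness; periodicity since
`F - mean F` has zero integral over a period. -/
theorem prim0_mem (F : Per P) :
    (fun q : P × ℝ => ∫ t in (0 : ℝ)..q.2, (F - mean F).1 (q.1, t)) ∈ Per P := by
  refine ⟨?_, fun z θ => ?_⟩
  · have h : (fun q : P × ℝ => ∫ t in (0 : ℝ)..q.2, (F - mean F).1 (q.1, t)) =
        fun q : P × ℝ => q.2 * ∫ s in (0 : ℝ)..1, (F - mean F).1 (q.1, q.2 * s) := by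
      funext q
      have := intervalIntegral.smul_integral_comp_mul_left (a := 0) (b := 1)
        (fun t => (F - mean F).1 (q.1, t)) q.2
      rw [mul_zero, mul_one] at this
      exact this.symm
    rw [h]
    exact contDiff_snd.mul (p2_pint (f := fun x : (P × ℝ) × ℝ => (F - mean F).1 (x.1.1, x.1.2 * x.2))
      ((sm _).comp (by fun_prop)) 0 1)
  · change ∫ t in (0 : ℝ)..(θ + 2 * π), (F - mean F).1 (z, t) =
      ∫ t in (0 : ℝ)..θ, (F - mean F).1 (z, t)
    rw [← intervalIntegral.integral_add_adjacent_intervals (p2_ii _ z 0 θ) (p2_ii _ z _ _),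
      p2_int_shift, add_eq_left]
    change ∫ t in (0 : ℝ)..(2 * π), (F.1 (z, t) -
      (2 * π)⁻¹ * ∫ t in (0 : ℝ)..(2 * π), F.1 (z, t)) = 0
    rw [intervalIntegral.integral_sub (p2_ii F z _ _) intervalIntegrable_const,
      intervalIntegral.integral_const, sub_zero, smul_eq_mul, ← mul_assoc,
      mul_inv_cancel₀ two_pi_pos.ne', one_mul, sub_self]

def prim0 : Per P →ₗ[ℝ] Per P where
  toFun F := ⟨fun q => ∫ t in (0 : ℝ)..q.2, (F - mean F).1 (q.1, t), prim0_mem F⟩
  map_add' := by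
    intro F G
    refine ext' fun z θ => ?_
    change ∫ t in (0 : ℝ)..θ, (F + G - mean (F + G)).1 (z, t) =
      (∫ t in (0 : ℝ)..θ, (F - mean F).1 (z, t)) + ∫ t in (0 : ℝ)..θ, (G - mean G).1 (z, t)
    rw [← intervalIntegral.integral_add (p2_ii _ z _ _) (p2_ii _ z _ _), map_add, add_sub_add_comm]
    rfl
  map_smul' := by
    intro c F
    refine ext' fun z θ => ?_
    change ∫ t in (0 : ℝ)..θ, (c • F - mean (c • F)).1 (z, t) =
      c * ∫ t in (0 : ℝ)..θ, (F - mean F).1 (z, t)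
    rw [← intervalIntegral.integral_const_mul, map_smul, ← smul_sub]
    rfl

/-- The primitive of `F - mean F` with zero mean. -/
def prim : Per P →ₗ[ℝ] Per P := prim0 - mean ∘ₗ prim0

theorem prim_val (F : Per P) (q : P × ℝ) :
    (prim F).1 q = (∫ t in (0 : ℝ)..q.2, (F - mean F).1 (q.1, t)) - (mean (prim0 F)).1 q := rfl

theorem Th_mean (F : Per P) : Th (mean F) = 0 := by
  exact (Th_eq_zero_iff _).2 fun _ _ => rfl
theorem mean_mul {k : Per P} (hk : Th k = 0) (F : Per P) : mean (k * F) = k * mean F := by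
  have h := (Th_eq_zero_iff k).1 hk
  refine ext' fun z θ => ?_
  change (2 * π)⁻¹ * ∫ t in (0 : ℝ)..(2 * π), k.1 (z, t) * F.1 (z, t) =
    k.1 (z, θ) * ((2 * π)⁻¹ * ∫ t in (0 : ℝ)..(2 * π), F.1 (z, t))
  simp only [h z]
  rw [intervalIntegral.integral_const_mul, mul_left_comm]
theorem prim_mul {k : Per P} (hk : Th k = 0) (F : Per P) : prim (k * F) = k * prim F := by
  have h := (Th_eq_zero_iff k).1 hk
  have h0 : prim0 (k * F) = k * prim0 F := by
    refine ext' fun z θ => ?_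
    change ∫ t in (0 : ℝ)..θ, (k * F - mean (k * F)).1 (z, t) =
      k.1 (z, θ) * ∫ t in (0 : ℝ)..θ, (F - mean F).1 (z, t)
    rw [mean_mul hk, ← mul_sub, ← intervalIntegral.integral_const_mul]
    refine intervalIntegral.integral_congr fun t _ => ?_
    change k.1 (z, t) * _ = _
    rw [h z t, h z θ]
  change prim0 (k * F) - mean (prim0 (k * F)) = k * (prim0 F - mean (prim0 F))
  rw [h0, mean_mul hk, mul_sub]
theorem mean_one : mean (1 : Per P) = 1 := by
  refine ext' fun z θ => ?_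
  change (2 * π)⁻¹ * ∫ _t in (0 : ℝ)..(2 * π), (1 : ℝ) = 1
  rw [intervalIntegral.integral_const, sub_zero, smul_eq_mul, mul_one, inv_mul_cancel₀ two_pi_pos.ne']
theorem p2_mean_of_Th {k : Per P} (hk : Th k = 0) : mean k = k := by
  rw [← mul_one k, mean_mul hk, mean_one]
theorem p2_uniq {G : Per P} (h : Th G = 0) (h' : mean G = 0) : G = 0 := by
  rw [← p2_mean_of_Th h, h']
theorem mean_Th (F : Per P) : mean (Th F) = 0 := by
  refine ext' fun z θ => ?_
  change (2 * π)⁻¹ * ∫ t in (0 : ℝ)..(2 * π), (Th F).1 (z, t) = 0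
  rw [intervalIntegral.integral_eq_sub_of_hasDerivAt (fun t _ => hasDerivAt_Th F z t)
    (p2_ii _ z _ _)]
  have := per F z 0
  rw [zero_add] at this
  rw [this, sub_self, mul_zero]
theorem Th_prim (F : Per P) : Th (prim F) = F - mean F := by
  change Th (prim0 F - mean (prim0 F)) = _
  rw [map_sub, Th_mean, sub_zero]
  refine ext' fun z θ => ?_
  rw [Th_val]
  exact (p2_cont (F - mean F) z).deriv_integral _ 0 θ
theorem mean_prim (F : Per P) : mean (prim F) = 0 := by
  change mean (prim0 F - mean (prim0 F)) = 0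
  rw [map_sub, p2_mean_of_Th (Th_mean _), sub_self]
/-- `Crest.Agent.R192.fderiv_pint`; split `(v, t) = (v, 0) + t • (0, 1)`. -/
theorem mean_pd (v : P × ℝ) (F : Per P) : mean (pd v F) = pd v (mean F) := by
  obtain ⟨v, t⟩ := v
  have h : (v, t) = (v, (0 : ℝ)) + t • ((0 : P), (1 : ℝ)) := by simp
  rw [h, pd_add, pd_add, pd_smul, pd_smul, map_add, map_smul, mean_Th, Th_mean]
  congr 1
  refine ext' fun z θ => ?_
  have h1 := pd_cst v 0 _ (p2_mean_sm F) (z, θ)
  refine Eq.trans ?_ h1.symm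
  have h2 : ContDiff ℝ 1 F.1 := (sm F).of_le (by exact_mod_cast le_top)
  rw [fderiv_const_mul (R192.hasFDerivAt_pint h2 _ _ _).differentiableAt, ContinuousLinearMap.smul_apply,
    R192.fderiv_pint h2]
  rfl
/-- Both sides have the same `θ`-derivative and zero mean. -/
theorem prim_pd (v : P) (F : Per P) : prim (pd (v, 0) F) = pd (v, 0) (prim F) := by
  refine sub_eq_zero.1 (p2_uniq ?_ ?_)
  · rw [map_sub, Th_prim, pd_comm, Th_prim, mean_pd, map_sub, sub_self]
  · rw [map_sub, mean_prim, mean_pd, mean_prim, map_zero, sub_self]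
theorem mean_sub (j : P' → P) (hj : ContDiff ℝ ∞ j) (F : Per P) :
    mean (sub j hj F) = sub j hj (mean F) := by
  rfl
theorem prim_sub (j : P' → P) (hj : ContDiff ℝ ∞ j) (F : Per P) :
    prim (sub j hj F) = sub j hj (prim F) := by
  rfl
/-- `mean`, `prim` at `z` only depend on the values on `{z} × ℝ`. -/
theorem mean_congr {F G : Per P} {z : P} (h : ∀ θ, F.1 (z, θ) = G.1 (z, θ)) (θ : ℝ) :
    (mean F).1 (z, θ) = (mean G).1 (z, θ) := by
  simp only [mean_val, h]
theorem prim_congr {F G : Per P} {z : P} (h : ∀ θ, F.1 (z, θ) = G.1 (z, θ)) (θ : ℝ) :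
    (prim F).1 (z, θ) = (prim G).1 (z, θ) := by
  have h1 : ∀ t, (F - mean F).1 (z, t) = (G - mean G).1 (z, t) := fun t => by
    change F.1 (z, t) - (mean F).1 (z, t) = G.1 (z, t) - (mean G).1 (z, t)
    rw [h t, mean_congr h]
  have h2 : ∀ t, (prim0 F).1 (z, t) = (prim0 G).1 (z, t) := fun t =>
    intervalIntegral.integral_congr fun s _ => h1 s
  change (prim0 F).1 (z, θ) - (mean (prim0 F)).1 (z, θ) =
    (prim0 G).1 (z, θ) - (mean (prim0 G)).1 (z, θ)
  rw [h2, mean_congr h2]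
theorem mean_nonneg {F : Per P} {z : P} (h : ∀ θ, 0 ≤ F.1 (z, θ)) (θ : ℝ) :
    0 ≤ (mean F).1 (z, θ) := by
  exact mul_nonneg (inv_nonneg.2 two_pi_pos.le)
    (intervalIntegral.integral_nonneg two_pi_pos.le fun t _ => h t)
theorem mean_pos {F : Per P} {z : P} (h : ∀ θ, 0 ≤ F.1 (z, θ)) (h' : ∃ θ, F.1 (z, θ) ≠ 0)
    (θ : ℝ) : 0 < (mean F).1 (z, θ) := by
  obtain ⟨t, ht⟩ := h'
  obtain ⟨t', ht', -, -, h1⟩ := exists_phase (P := P) t
  refine mul_pos (inv_pos.2 two_pi_pos) (intervalIntegral.integral_pos two_pi_pos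
    (p2_cont F z).continuousOn (fun s _ => h s) ⟨t', ht', ?_⟩)
  rw [h1 F z]
  exact lt_of_le_of_ne (h t) ht.symm

/-- Parity under `θ ↦ θ + π` (`e = 1`: even, `e = -1`: odd). -/
def Par (e : ℝ) (F : Per P) : Prop := ∀ z θ, F.1 (z, θ + π) = e * F.1 (z, θ)

/-- translation in `θ` -/
def p2shift (c : ℝ) (F : Per P) : Per P :=
  ⟨fun q => F.1 (q.1, q.2 + c), (sm F).comp (by fun_prop), fun z θ => by
    change F.1 (z, θ + 2 * π + c) = F.1 (z, θ + c)
    rw [add_right_comm, per]⟩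

theorem p2_par_iff {e : ℝ} {F : Per P} : Par e F ↔ p2shift π F = e • F :=
  ⟨fun h => ext' h, fun h z θ => congrArg (fun G : Per P => G.1 (z, θ)) h⟩

theorem p2_pd_shift (v : P × ℝ) (c : ℝ) (F : Per P) :
    Per.pd v (p2shift c F) = p2shift c (Per.pd v F) := by
  refine ext' fun z θ => ?_
  have h : (p2shift c F).1 = fun q => F.1 (q + (0, c)) := by
    funext q
    change F.1 (q.1, q.2 + c) = F.1 (q.1 + 0, q.2 + c)
    rw [add_zero]
  rw [pd_val, h, fderiv_comp_add_right]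
  change fderiv ℝ F.1 (z + 0, θ + c) v = fderiv ℝ F.1 (z, θ + c) v
  rw [add_zero]

theorem p2_mean_shift (c : ℝ) (F : Per P) : mean (p2shift c F) = mean F := by
  refine ext' fun z θ => ?_
  change (2 * π)⁻¹ * ∫ t in (0 : ℝ)..(2 * π), F.1 (z, t + c) =
    (2 * π)⁻¹ * ∫ t in (0 : ℝ)..(2 * π), F.1 (z, t)
  rw [intervalIntegral.integral_comp_add_right (fun t => F.1 (z, t)), zero_add, add_comm,
    p2_int_shift]

theorem Par.mul {e e' : ℝ} {F G : Per P} (h : Par e F) (h' : Par e' G) : Par (e * e') (F * G) := by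
  intro z θ
  change F.1 _ * G.1 _ = e * e' * (F.1 _ * G.1 _)
  rw [h z θ, h' z θ]
  ring
theorem Par.add {e : ℝ} {F G : Per P} (h : Par e F) (h' : Par e G) : Par e (F + G) := by
  intro z θ
  change F.1 _ + G.1 _ = e * (F.1 _ + G.1 _)
  rw [h z θ, h' z θ]
  ring
theorem Par.sub {e : ℝ} {F G : Per P} (h : Par e F) (h' : Par e G) : Par e (F - G) := by
  intro z θ
  change F.1 _ - G.1 _ = e * (F.1 _ - G.1 _)
  rw [h z θ, h' z θ]
  ring
theorem Par.neg {e : ℝ} {F : Per P} (h : Par e F) : Par e (-F) := by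
  intro z θ
  change -F.1 _ = e * -F.1 _
  rw [h z θ]
  ring
theorem par_of_Th {F : Per P} (h : Th F = 0) : Par 1 F := by
  intro z θ
  rw [(Th_eq_zero_iff F).1 h z (θ + π), (Th_eq_zero_iff F).1 h z θ, one_mul]
theorem Par.pd {e : ℝ} {F : Per P} (h : Par e F) (v : P × ℝ) : Par e (pd v F) := by
  rw [p2_par_iff] at h ⊢
  rw [← p2_pd_shift, h, Derivation.map_smul]
theorem Par.mean_zero {F : Per P} (h : Par (-1) F) : mean F = 0 := by
  have h1 := p2_mean_shift π F
  rw [p2_par_iff.1 h, map_smul] at h1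
  refine ext' fun z θ => ?_
  have h2 : -1 * (mean F).1 (z, θ) = (mean F).1 (z, θ) := congrArg (fun G : Per P => G.1 (z, θ)) h1
  change (mean F).1 (z, θ) = 0
  linarith
/-- `G(z, θ + π) - e G(z, θ)` (`G = prim F`) has zero `θ`-derivative and zero mean. -/
theorem Par.prim {e : ℝ} (he : e = 1 ∨ e = -1) {F : Per P} (h : Par e F) : Par e (prim F) := by
  rw [p2_par_iff]
  refine sub_eq_zero.1 (p2_uniq ?_ ?_)
  · rw [map_sub, Derivation.map_smul, p2_pd_shift, Th_prim, sub_eq_zero, ← p2_par_iff]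
    refine h.sub ?_
    rcases he with rfl | rfl
    · exact par_of_Th (Th_mean F)
    · rw [h.mean_zero]
      intro z θ
      change (0 : ℝ) = -1 * 0
      simp
  · rw [map_sub, map_smul, p2_mean_shift, mean_prim, smul_zero, sub_self]

end Per

end Crest.Agent.R216
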