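import Crest.Agent.R216.Loop1
import Crest.Agent.R216.Per2
import Crest.Agent.R216.FDefs

/-!
# R216: the corrugation loop
-/

set_option autoImplicit false
set_option linter.unusedSectionVars false

open scoped Manifold ContDiff Topology
open Matrix

noncomputable section

namespace Crest.Agent.R216

open Real Per

/-- Parameters of the loop. -/
structure LoopPar (P : Type) [NormedAddCommGroup P] [NormedSpace ℝ P] where
  a : P → ℝ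
  p0 : P → ℝ
  τ : P → ℝ
  σ : P → ℝ
  a_sm : ContDiff ℝ ∞ a
  p0_sm : ContDiff ℝ ∞ p0
  τ_sm : ContDiff ℝ ∞ τ
  σ_sm : ContDiff ℝ ∞ σ
  p0_pos : ∀ z, 0 < p0 z
  τ_mem : ∀ z, τ z ∈ Set.Icc (0 : ℝ) (1 / 10)

/-- `r = √(p₀² + a²)`. -/
def rf (a p : ℝ) : ℝ := √(p ^ 2 + a ^ 2)
/-- `ς / a`. -/
def vhf (a p t : ℝ) : ℝ := (√(2 * rf a p * (rf a p + p) * mS t))⁻¹

namespace LoopPar

variable {P : Type} [NormedAddCommGroup P] [NormedSpace ℝ P] (Q : LoopPar P)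

def r (z : P) : ℝ := rf (Q.a z) (Q.p0 z)
def vh (z : P) : ℝ := vhf (Q.a z) (Q.p0 z) (Q.τ z)

theorem r_pos (z : P) : 0 < Q.r z :=
  Real.sqrt_pos.2 (by have := Q.p0_pos z; positivity)

theorem den_pos (z : P) : 0 < 2 * Q.r z * (Q.r z + Q.p0 z) * mS (Q.τ z) := by
  have := Q.r_pos z; have := Q.p0_pos z; have := mS_gt (Q.τ_mem z); positivity

theorem vh_pos (z : P) : 0 < Q.vh z := inv_pos.2 (Real.sqrt_pos.2 (Q.den_pos z))

theorem r_sm : ContDiff ℝ ∞ Q.r :=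
  ContDiff.sqrt ((Q.p0_sm.pow 2).add (Q.a_sm.pow 2)) fun z => by
    have := Q.p0_pos z; positivity

theorem m_sm : ContDiff ℝ ∞ fun z => mS (Q.τ z) := by
  have := Q.τ_sm; unfold mS; fun_prop

theorem vh_sm : ContDiff ℝ ∞ Q.vh :=
  (ContDiff.sqrt (((contDiff_const.mul Q.r_sm).mul (Q.r_sm.add Q.p0_sm)).mul Q.m_sm)
    fun z => (Q.den_pos z).ne').inv fun z => (Real.sqrt_pos.2 (Q.den_pos z)).ne'

def aP : Per P := cst Q.a Q.a_sm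
def pP : Per P := cst Q.p0 Q.p0_sm
def rP : Per P := cst Q.r Q.r_sm
def vP : Per P := cst Q.vh Q.vh_sm
def mP : Per P := cst _ Q.m_sm

theorem S_sm : ContDiff ℝ ∞ fun q : P × ℝ => Sf (Q.τ q.1) (Q.σ q.1) q.2 := by
  have h1 : ContDiff ℝ ∞ fun q : P × ℝ => Q.τ q.1 := Q.τ_sm.comp contDiff_fst
  have h2 : ContDiff ℝ ∞ fun q : P × ℝ => Q.σ q.1 := Q.σ_sm.comp contDiff_fst
  unfold Sf
  fun_prop

def S : Per P :=
  ⟨fun q => Sf (Q.τ q.1) (Q.σ q.1) q.2, Q.S_sm, fun _ _ => Sf_add_two_pi _ _ _⟩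

def sig : Per P := Q.aP * Q.vP * Q.S

/-- `a² vh² = (r - p₀)/(2 r m) < 1/(2 m) < 1`. -/
theorem amp_lt (z : P) : (Q.a z * Q.vh z) ^ 2 < 1 := by
  have hr := Q.r_pos z; have hp := Q.p0_pos z; have hm := mS_gt (Q.τ_mem z)
  have hd := Q.den_pos z
  have hr2 : Q.r z ^ 2 = Q.p0 z ^ 2 + Q.a z ^ 2 := Real.sq_sqrt (by positivity)
  have hv : Q.vh z ^ 2 = (2 * Q.r z * (Q.r z + Q.p0 z) * mS (Q.τ z))⁻¹ := by
    unfold vh vhf; rw [inv_pow]; exact congrArg _ (Real.sq_sqrt hd.le)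
  rw [mul_pow, hv, ← div_eq_mul_inv, div_lt_one hd]
  have h1 : Q.r z * (Q.r z + Q.p0 z) * 1 < Q.r z * (Q.r z + Q.p0 z) * (2 * mS (Q.τ z)) :=
    mul_lt_mul_of_pos_left (by linarith) (by positivity)
  nlinarith [mul_pos hr hp, sq_nonneg (Q.p0 z)]

theorem sig_lt (q : P × ℝ) : 0 < 1 - Q.sig.1 q ^ 2 := by
  have h1 := Q.amp_lt q.1
  have h2 := Sf_sq_le (Q.τ_mem q.1) (Q.σ q.1) q.2
  have h3 : Q.sig.1 q ^ 2 = (Q.a q.1 * Q.vh q.1) ^ 2 * Sf (Q.τ q.1) (Q.σ q.1) q.2 ^ 2 := by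
    rw [← mul_pow]; rfl
  nlinarith [sq_nonneg (Q.a q.1 * Q.vh q.1)]

/-- `√(1 - sig²)`. -/
def sq : Per P :=
  ⟨fun q => √(1 - Q.sig.1 q ^ 2),
    ContDiff.sqrt (contDiff_const.sub ((sm Q.sig).pow 2)) fun q => (Q.sig_lt q).ne',
    fun z θ => by simp only [per Q.sig z θ]⟩

theorem sq_ne (q : P × ℝ) : Q.sq.1 q ≠ 0 := (Real.sqrt_pos.2 (Q.sig_lt q)).ne'

def isq : Per P := inv Q.sq Q.sq_ne
def u1 : Per P := 1 - 2 * Q.sig ^ 2
def nh : Per P := 2 * Q.vP * Q.S * Q.sq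
def u2 : Per P := Q.aP * Q.nh

variable [FiniteDimensional ℝ P]

def V1 : Per P := prim (2 * Q.aP * Q.rP * Q.vP ^ 2 * (Q.mP - Q.S ^ 2))
def V2 : Per P := prim (Q.rP * Q.nh)

end LoopPar

end Crest.Agent.R216
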