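import Crest.Agent.R216.Api4

/-!
# R216: initial map, one exact stage
-/

set_option autoImplicit false
set_option linter.unusedSectionVars false

open scoped Manifold ContDiff Topology
open Matrix

noncomputable section

namespace Crest.Agent.R216

variable {M : Type*} [TopologicalSpace M] [T2Space M] [CompactSpace M] [ChartedSpace E2 M]
  [IsManifold (𝓡 2) ∞ M]

theorem stage_ten_bd (A : Atl M) {G : A.Ten} (hG : A.IsTen G) (k : ℕ) :
    ∃ K, 0 ≤ K ∧ ∀ α β, A.NB k (G α β) K := by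
  choose K hK0 hK using fun q : A.Idx × A.Idx => A.exists_NB k (hG.sm q.1 q.2)
  refine ⟨∑ q, K q, Finset.sum_nonneg fun q _ => hK0 q, fun α β => (hK (α, β)).mono le_rfl ?_⟩
  exact Finset.single_le_sum (f := K) (fun q _ => hK0 q) (Finset.mem_univ _)

theorem stage_eta_sm (A : Atl M) (i : Fin A.n) (t : ℝ) : Sm (A.eta i t) :=
  (A.x_sm i 0).add ((sm_const t).mul (A.x_sm i 1))

theorem stage_dot_pos {n : Type} [Fintype n] {v : n → ℝ} (hv : v ≠ 0) : 0 < v ⬝ᵥ v :=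
  lt_of_le_of_ne (Finset.sum_nonneg fun _ _ => mul_self_nonneg _)
    fun h => hv (dotProduct_self_eq_zero.1 h.symm)

/-- the lift to the paraboloid -/
def stageLift (F : M → Fin 3 → ℝ) (p : M) : V4 := ![F p 0, F p 1, F p 2, (1 / 2) * (F p ⬝ᵥ F p)]

/-- its normal -/
def stageNor (F : M → Fin 3 → ℝ) (p : M) : V4 := ![-F p 0, -F p 1, -F p 2, 1]

theorem stageLift_sm {F : M → Fin 3 → ℝ} (hF : Sm F) : Sm (stageLift F) := by
  refine sm_pi fun k => ?_
  fin_cases k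
  · exact hF.apply 0
  · exact hF.apply 1
  · exact hF.apply 2
  · exact (sm_const (1 / 2 : ℝ)).mul (hF.dot hF)

theorem stageNor_sm {F : M → Fin 3 → ℝ} (hF : Sm F) : Sm (stageNor F) := by
  refine sm_pi fun k => ?_
  fin_cases k
  · exact (hF.apply 0).neg
  · exact (hF.apply 1).neg
  · exact (hF.apply 2).neg
  · exact sm_const (1 : ℝ)

theorem stage_D_lift (A : Atl M) {F : M → Fin 3 → ℝ} (hF : Sm F) (γ : A.Idx) (p : M) :
    A.D γ (stageLift F) p = ![A.D γ F p 0, A.D γ F p 1, A.D γ F p 2, F p ⬝ᵥ A.D γ F p] := by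
  funext k
  rw [← A.D_apply γ (stageLift_sm hF)]
  fin_cases k
  · exact A.D_apply γ hF 0 p
  · exact A.D_apply γ hF 1 p
  · exact A.D_apply γ hF 2 p
  · change A.D γ (fun q => (1 / 2 : ℝ) * (F q ⬝ᵥ F q)) p = F p ⬝ᵥ A.D γ F p
    rw [A.D_mul γ (sm_const _) (hF.dot hF), A.D_const, A.D_dot γ hF hF,
      dotProduct_comm (A.D γ F p)]
    ring

theorem stage_D_nor (A : Atl M) {F : M → Fin 3 → ℝ} (hF : Sm F) (γ : A.Idx) (p : M) :
    A.D γ (stageNor F) p = ![-A.D γ F p 0, -A.D γ F p 1, -A.D γ F p 2, 0] := by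
  have h : ∀ k, A.D γ (fun q => -F q k) p = -A.D γ F p k := fun k => by
    rw [← A.D_apply γ hF k p]
    exact congrFun (A.D_neg γ (hF.apply k)) p
  funext k
  rw [← A.D_apply γ (stageNor_sm hF)]
  fin_cases k
  · exact h 0
  · exact h 1
  · exact h 2
  · exact A.D_const γ (1 : ℝ) p

theorem stage_nor_D (A : Atl M) {F : M → Fin 3 → ℝ} (hF : Sm F) (γ : A.Idx) (p : M) :
    stageNor F p ⬝ᵥ A.D γ (stageLift F) p = 0 := by
  rw [stage_D_lift A hF]
  simp [stageNor, dotProduct, Fin.sum_univ_four, Fin.sum_univ_three]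
  ring

theorem stage_nor_DD (A : Atl M) {F : M → Fin 3 → ℝ} (hF : Sm F) (γ δ : A.Idx) (p : M) :
    stageNor F p ⬝ᵥ A.D γ (A.D δ (stageLift F)) p = A.D γ F p ⬝ᵥ A.D δ F p := by
  have h1 := A.D_dot γ (stageNor_sm hF) (A.D_sm δ (stageLift_sm hF)) p
  have h2 : (fun q => stageNor F q ⬝ᵥ A.D δ (stageLift F) q) = fun _ => (0 : ℝ) :=
    funext fun q => stage_nor_D A hF δ q
  rw [h2, A.D_const, stage_D_nor A hF, stage_D_lift A hF] at h1
  have h3 : ![-A.D γ F p 0, -A.D γ F p 1, -A.D γ F p 2, 0] ⬝ᵥ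
      ![A.D δ F p 0, A.D δ F p 1, A.D δ F p 2, F p ⬝ᵥ A.D δ F p] = -(A.D γ F p ⬝ᵥ A.D δ F p) := by
    simp [dotProduct, Fin.sum_univ_four, Fin.sum_univ_three]
    ring
  rw [h3] at h1
  linarith

theorem stage_D_Y (A : Atl M) (γ : A.Idx) (i : Fin A.n) (t : ℝ) {u : M → V4} (hu : Sm u) (p : M) :
    A.D γ (A.Y i t u) p = A.D γ (A.D (i, 1) u) p - t • A.D γ (A.D (i, 0) u) p := by
  have h : A.Y i t u = A.D (i, 1) u - t • A.D (i, 0) u := rfl
  rw [h, A.D_sub γ (A.D_sm _ hu) ((A.D_sm _ hu).const_smul t), A.D_const_smul γ (A.D_sm _ hu)]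
  rfl

theorem stage_amp_sm {A : Atl M} (C : A.Cover) {c : Fin C.m → M → ℝ} (hc : ∀ k, Sm (c k))
    (k : Fin C.m) : Sm (fun p => C.amp c k p ^ 2) := by
  have h : Sm (C.amp c k) := ((C.s_sm k).comp expNegInvGlue.contDiff).mul (hc k)
  simpa only [sq] using h.mul h

theorem stage_rest_ten {A : Atl M} (C : A.Cover) {c : Fin C.m → M → ℝ} (hc : ∀ k, Sm (c k))
    (j : ℕ) : A.IsTen (C.rest c j) := by
  have h : C.rest c j = fun α β p => ∑ k ∈ Finset.univ.filter fun k : Fin C.m => j ≤ (k : ℕ),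
      C.amp c k p ^ 2 * A.dsq (C.eta k) α β p := by
    funext α β p
    rw [Atl.Cover.rest, Finset.sum_filter]
  rw [h]
  exact Atl.IsTen.sum _ (G := fun k α β p => C.amp c k p ^ 2 * A.dsq (C.eta k) α β p)
    fun k _ => (A.isTen_dsq (stage_eta_sm A _ _)).mul (stage_amp_sm C hc k)

theorem stage_rest_succ {A : Atl M} (C : A.Cover) (c : Fin C.m → M → ℝ) (j : Fin C.m)
    (α β : A.Idx) (p : M) : C.rest c j α β p =
      C.amp c j p ^ 2 * A.dsq (C.eta j) α β p + C.rest c (j + 1) α β p := by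
  have h : C.amp c j p ^ 2 * A.dsq (C.eta j) α β p =
      ∑ k : Fin C.m, if k = j then C.amp c k p ^ 2 * A.dsq (C.eta k) α β p else 0 := by simp
  rw [h, Atl.Cover.rest, Atl.Cover.rest, ← Finset.sum_add_distrib]
  refine Finset.sum_congr rfl fun k _ => ?_
  by_cases h1 : k = j
  · subst h1
    simp
  · have h2 : (k : ℕ) ≠ j := fun h => h1 (Fin.ext h)
    rw [if_neg h1, zero_add]
    exact if_congr (by omega) rfl rfl

theorem stage_rest_scale {A : Atl M} (C : A.Cover) (c : Fin C.m → M → ℝ) (j : ℕ) {a : M → ℝ}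
    (α β : A.Idx) {p : M} (ha : 0 ≤ a p) :
    C.rest (fun k q => c k q * √(a q)) j α β p = a p * C.rest c j α β p := by
  rw [Atl.Cover.rest, Atl.Cover.rest, Finset.mul_sum]
  refine Finset.sum_congr rfl fun k _ => ?_
  split_ifs
  · simp only [Atl.Cover.amp, mul_pow, Real.sq_sqrt ha]
    ring
  · simp

theorem stage_gram_pos (A : Atl M) {f : M → V4} (hf : Sm f) {p : M}
    (h : ∃ α β γ δ, A.NII f α β γ δ p ≠ 0) {i : Fin A.n} (hp : p ∈ A.O i) :
    0 < gram2 (A.D (i, 0) f p) (A.D (i, 1) f p) := by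
  obtain ⟨α, β, γ, δ, h⟩ := h
  refine gram2_pos_of_cross3 (c := A.D γ (A.D δ f) p) fun h0 => h ?_
  rw [Atl.NII, A.D_chart α i hf hp, A.D_chart β i hf hp, cross3_frame, h0, smul_zero]

theorem stage_posDef (A : Atl M) {f : M → V4} (hf : Sm f)
    (h : ∀ p, ∃ α β γ δ, A.NII f α β γ δ p ≠ 0) (a u : M → ℝ) :
    A.PosDef fun α β p => A.pull f α β p + a p ^ 2 * A.dsq u α β p := by
  intro i p hp v hv
  have h1 := (gram2_pos_iff _ _).1 (stage_gram_pos A hf (h p) hp) (v 0) (v 1)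
  have h2 : v 0 • A.D (i, 0) f p + v 1 • A.D (i, 1) f p ≠ 0 := fun h0 => hv (by
    funext k
    fin_cases k
    · exact (h1 h0).1
    · exact (h1 h0).2)
  have h3 := stage_dot_pos h2
  have h4 : 0 ≤ a p ^ 2 * (v 0 * A.D (i, 0) u p + v 1 * A.D (i, 1) u p) ^ 2 := by positivity
  simp only [add_dotProduct, dotProduct_add, smul_dotProduct, dotProduct_smul, smul_eq_mul] at h3
  simp only [Fin.sum_univ_two, Atl.pull, Atl.dsq]
  nlinarith

/-- `f₀ = ρ (F, |F|²/2)` (`![ρ F 0, ρ F 1, ρ F 2, ρ (F ⬝ F)/2]`) with `ρ > 0` so small that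
`h = G - pull f₀ = G - ρ² pull f₁` is positive definite (`exists_posB`, `exists_NB`,
`PosB.perturb`, `PosB.posDef`). Take the cover of `h`. The vector `l = (-F, 1)` is orthogonal to
all `D γ f₀`, and `l ⬝ Y (Y f₀) = ρ |Y F|² > 0` on `O (ch k)` (`gram2_pos_iff`); similarly
`l ⬝ D (i,0) (D (i,0) f₀) > 0` gives `NII ≠ 0` by `gram2_mul_sq_le`. There is no special point at
stage `0`: `h` is positive definite, so at every point some amplitude is nonzero, i.e. some
`s l > 0` (`expNegInvGlue.zero_of_nonpos`). -/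
theorem exists_inv_zero (A : Atl M) (hI : A.Imm3Stmt) (hC : A.CoverStmt) {G : A.Ten}
    (hG : A.IsTen G) (hp : A.PosDef G) :
    ∃ (C : A.Cover) (f : M → V4) (c : Fin C.m → M → ℝ), C.Inv G 0 f c := by
  obtain ⟨F, hF, hFi⟩ := hI
  have hf₁ := stageLift_sm hF
  obtain ⟨B, hB, hGB⟩ := A.exists_posB hG hp
  obtain ⟨K, hK0, hK⟩ := stage_ten_bd A (A.isTen_pull hf₁) 0
  set ρ : ℝ := 1 / (4 * B * (K + 1)) with hρ
  have hρ0 : 0 < ρ := by positivity
  have hρ1 : ρ * (K + 1) = 1 / (4 * B) := by rw [hρ]; field_simp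
  have hρ2 : ρ ≤ 1 := by
    rw [hρ, div_le_one (by positivity)]
    nlinarith
  have hf₀ : Sm (ρ • stageLift F) := hf₁.const_smul ρ
  have hD : ∀ γ, A.D γ (ρ • stageLift F) = ρ • A.D γ (stageLift F) := fun γ =>
    A.D_const_smul γ hf₁ ρ
  have hDD : ∀ γ δ p, stageNor F p ⬝ᵥ A.D γ (A.D δ (ρ • stageLift F)) p =
      ρ * (A.D γ F p ⬝ᵥ A.D δ F p) := fun γ δ p => by
    rw [hD, A.D_const_smul γ (A.D_sm δ hf₁), Pi.smul_apply, dotProduct_smul, stage_nor_DD A hF,
      smul_eq_mul]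
  have hD0 : ∀ γ p, stageNor F p ⬝ᵥ A.D γ (ρ • stageLift F) p = 0 := fun γ p => by
    rw [hD, Pi.smul_apply, dotProduct_smul, stage_nor_D A hF, smul_zero]
  have hh := hG.sub (A.isTen_pull hf₀)
  have hhp : A.PosDef fun α β p => G α β p - A.pull (ρ • stageLift F) α β p := by
    refine Atl.PosB.posDef hh (B := 2 * B) (by positivity) (hGB.perturb hB fun α β p => ?_)
    have h1 : A.pull (ρ • stageLift F) α β p = ρ * (ρ * A.pull (stageLift F) α β p) := by
      simp only [Atl.pull, hD, Pi.smul_apply, dotProduct_smul, smul_dotProduct, smul_eq_mul]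
    have h2 : |A.pull (stageLift F) α β p| ≤ K := (hK α β).norm_le p
    rw [sub_sub_cancel_left, abs_neg, h1, abs_mul, abs_mul, abs_of_pos hρ0, ← hρ1]
    refine mul_le_mul_of_nonneg_left ?_ hρ0.le
    nlinarith [abs_nonneg (A.pull (stageLift F) α β p)]
  obtain ⟨C, c, hc, hc0, hrest⟩ := hC _ hh hhp
  refine ⟨C, ρ • stageLift F, c, hf₀, hc, hc0, fun α β p => by rw [← hrest]; ring, ?_, ?_, ?_⟩
  · intro p
    obtain ⟨i, -, -, hi⟩ := A.exists_K p
    have hind := (gram2_pos_iff _ _).1 (hFi i p hi)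
    refine ⟨(i, 0), (i, 1), (i, 0), (i, 0), fun h0 => ?_⟩
    have h1 := gram2_mul_sq_le _ _ (A.D (i, 0) (A.D (i, 0) (ρ • stageLift F)) p) _
      (hD0 (i, 0) p) (hD0 (i, 1) p)
    rw [Atl.NII] at h0
    rw [h0, hDD, zero_dotProduct, mul_zero] at h1
    have h2 : 0 < gram2 (A.D (i, 0) (ρ • stageLift F) p) (A.D (i, 1) (ρ • stageLift F) p) := by
      refine (gram2_pos_iff _ _).2 fun s t hst => hind s t ?_
      rw [hD, hD, Pi.smul_apply, Pi.smul_apply, stage_D_lift A hF, stage_D_lift A hF] at hst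
      have e0 := congrFun hst 0
      have e1 := congrFun hst 1
      have e2 := congrFun hst 2
      simp only [Pi.add_apply, Pi.smul_apply, smul_eq_mul, Pi.zero_apply, cons_val_zero,
        cons_val_one, cons_val] at e0 e1 e2
      funext k
      fin_cases k
      · exact mul_left_cancel₀ hρ0.ne' (by simpa [mul_add, mul_left_comm] using e0)
      · exact mul_left_cancel₀ hρ0.ne' (by simpa [mul_add, mul_left_comm] using e1)
      · exact mul_left_cancel₀ hρ0.ne' (by simpa [mul_add, mul_left_comm] using e2)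
    have h3 : A.D (i, 0) F p ≠ 0 := fun h => by simpa using (hind 1 0 (by simp [h])).1
    have h4 := stage_dot_pos h3
    have h5 : 0 < gram2 (A.D (i, 0) (ρ • stageLift F) p) (A.D (i, 1) (ρ • stageLift F) p) *
      (ρ * (A.D (i, 0) F p ⬝ᵥ A.D (i, 0) F p)) ^ 2 := by positivity
    linarith
  · intro p
    refine ⟨stageNor F p, fun γ => hD0 γ p, fun k _ hk => ?_⟩
    have hind := (gram2_pos_iff _ _).1 (hFi _ p (C.sub k p hk))
    have h3 : (-C.t k) • A.D (C.ch k, 0) F p + (1 : ℝ) • A.D (C.ch k, 1) F p ≠ 0 := fun h => by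
      simpa using (hind _ _ h).2
    have h4 := mul_pos hρ0 (stage_dot_pos h3)
    have h5 : C.Y k (C.Y k (ρ • stageLift F)) p =
        A.D (C.ch k, 1) (A.Y (C.ch k) (C.t k) (ρ • stageLift F)) p -
          C.t k • A.D (C.ch k, 0) (A.Y (C.ch k) (C.t k) (ρ • stageLift F)) p := rfl
    rw [h5, stage_D_Y A _ _ _ hf₀, stage_D_Y A _ _ _ hf₀]
    simp only [add_dotProduct, dotProduct_add, smul_dotProduct, dotProduct_smul,
      smul_eq_mul] at h4
    simp only [dotProduct_sub, dotProduct_smul, smul_eq_mul, hDD]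
    linarith
  · rintro j' k q ⟨-, -, -, -, hq⟩
    exfalso
    obtain ⟨i, -, -, hi⟩ := A.exists_K q
    have h1 := hhp i q hi ![1, 0] (by simp)
    have h2 : ∀ α β, G α β q - A.pull (ρ • stageLift F) α β q = 0 := fun α β => by
      rw [hrest, Atl.Cover.rest]
      refine Finset.sum_eq_zero fun l _ => ?_
      simp [Atl.Cover.amp, expNegInvGlue.zero_of_nonpos (hq l (Nat.zero_le _))]
    simp [h2] at h1

/-- `G₀ = pull f + amp j ² dη_j²` is a positive definite tensor (`pull f` is: `Good.ii`,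
`gram2_pos_of_cross3`, `cross3_frame`, `D_chart`, `posDef_of_exists`); take `B` with `PosB G₀ B`, and
`C_T, N_T, n₀` from `hT (2B)`. Apply `hA` with `N = Mx * C_T + 1`, where `Λ = lam ^ Mx`,
`L = lam ^ 4`, `Mx = 4 n₀ + 1`. For large `lam`: `G' = G₀ + κ * rest (j+1)` has `PosB G' (2B)`,
`Adm (2B) L Λ N_T f₁ G'` (`NB.smul`; all norms are `≤ const * lam^k ≤ Λ^(k+1)`), so there is `f'`
with `pull f' = G'`, `NB 2 (f' - f₁) Λ⁻¹`, hence `Good (j+1) f'`. New coefficients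
`c' k = c k * √(1 - κ)` (smooth since `|κ| ≤ 1/2`); `rest c j = amp j ² dη_j² + rest c (j+1)` and
`rest c' (j+1) = (1 - κ) rest c (j+1)`. -/
theorem inv_succ {A : Atl M} (C : A.Cover) (hT : A.TStmt) (hA : C.ApproxStmt) {G : A.Ten}
    (j : Fin C.m) {f : M → V4} {c : Fin C.m → M → ℝ} (h : C.Inv G j f c) :
    ∃ (f' : M → V4) (c' : Fin C.m → M → ℝ), C.Inv G (j + 1) f' c' := by
  have hG₀ := (A.isTen_pull h.sm).add ((A.isTen_dsq (stage_eta_sm A (C.ch j) (C.t j))).mul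
    (stage_amp_sm C h.c_sm j))
  have hR := stage_rest_ten C h.c_sm (j + 1)
  obtain ⟨B, hB, hGB⟩ := A.exists_posB hG₀ (stage_posDef A h.sm h.good.ii (C.amp c j) _)
  obtain ⟨CT, NT, n₀, hT⟩ := hT (2 * B) (by linarith)
  obtain ⟨Cs, m₀, lam₀, hm₀, hA⟩ := hA G j f c h ((4 * n₀ + 1) * CT + 1)
  obtain ⟨K₀, hK₀, hK₀'⟩ := stage_ten_bd A hG₀ NT
  obtain ⟨K₁, hK₁, hK₁'⟩ := stage_ten_bd A hR NT
  have hev : ∀ᶠ lam : ℝ in Filter.atTop, lam₀ ≤ lam ∧ 2 ≤ lam ∧ 4 * B * (|Cs 0| * K₁) ≤ lam ∧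
      Cs 3 ≤ lam ∧ m₀⁻¹ ≤ lam ∧ 2 * |Cs 0| ≤ lam ∧
      ∀ k ∈ Finset.range (NT + 1), Cs k ≤ lam ∧ K₀ + 2 ^ k * |Cs k| * K₁ ≤ lam :=
    (Filter.eventually_ge_atTop _).and <| (Filter.eventually_ge_atTop _).and <|
      (Filter.eventually_ge_atTop _).and <| (Filter.eventually_ge_atTop _).and <|
      (Filter.eventually_ge_atTop _).and <| (Filter.eventually_ge_atTop _).and <|
      (Filter.eventually_all_finset _).2 fun k _ =>
        (Filter.eventually_ge_atTop _).and (Filter.eventually_ge_atTop _)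
  obtain ⟨lam, l0, l1, l2, l3, l4, l5, l6⟩ := hev.exists
  obtain ⟨f₁, κ, hf₁, hκ, hNB, hκ0, herr, hII, hgood⟩ := hA lam l0
  have hl0 : 0 < lam := by linarith
  have hl1 : 1 ≤ lam := by linarith
  have hκ1 : ∀ p, |κ p| ≤ |Cs 0| / lam := fun p =>
    (hκ0 p).trans (div_le_div_of_nonneg_right (le_abs_self _) hl0.le)
  have hΛ : lam ≤ lam ^ (4 * n₀ + 1) := le_self_pow₀ hl1 (by omega)
  have hpow : ∀ k, lam ^ (k + 1) ≤ (lam ^ (4 * n₀ + 1)) ^ (k + 1) := fun k =>
    pow_le_pow_left₀ hl0.le hΛ _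
  have hG' := hG₀.add (hR.mul hκ)
  have hAdm : A.Adm (2 * B) (lam ^ 4) (lam ^ (4 * n₀ + 1)) NT f₁ (fun α β p =>
      A.pull f α β p + C.amp c j p ^ 2 * A.dsq (A.eta (C.ch j) (C.t j)) α β p +
        κ p * C.rest c (j + 1) α β p) := by
    refine ⟨l1.trans (le_self_pow₀ hl1 (by omega)), hf₁, hG', hGB.perturb hB fun α β p => ?_,
      (hNB 3).1.mono le_rfl ?_, fun p => ?_, fun k hk => (hNB k).1.mono le_rfl ?_,
      fun k hk α β => ?_⟩
    · have h2 : |C.rest c (j + 1) α β p| ≤ K₁ := (hK₁' α β).norm_le p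
      rw [add_sub_cancel_left, abs_mul]
      refine (mul_le_mul (hκ1 p) h2 (abs_nonneg _) (by positivity)).trans ?_
      rw [div_mul_eq_mul_div, div_le_div_iff₀ hl0 (by positivity)]
      linarith
    · calc Cs 3 * lam ^ 3 ≤ lam * lam ^ 3 := mul_le_mul_of_nonneg_right l3 (by positivity)
        _ = lam ^ 4 := by ring
    · obtain ⟨α, β, γ, δ, h1⟩ := hII p
      refine ⟨α, β, γ, δ, le_trans ?_ h1⟩
      exact inv_le_of_inv_le₀ hm₀ (l4.trans (le_self_pow₀ hl1 (by omega)))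
    · refine le_trans ?_ (hpow k)
      rw [pow_succ']
      exact mul_le_mul_of_nonneg_right (l6 k (Finset.mem_range.2 (by omega))).1 (by positivity)
    · have h1 := Atl.NB.add (hG₀.sm α β) (hκ.smul (hR.sm α β)) ((hK₀' α β).mono hk le_rfl)
        (Atl.NB.smul hκ (hR.sm α β) (hNB k).2 ((hK₁' α β).mono hk le_rfl))
      refine Atl.NB.mono h1 le_rfl (le_trans ?_ (hpow k))
      have h2 := (l6 k (Finset.mem_range.2 (by omega))).2
      have h3 : 1 ≤ lam ^ k := one_le_pow₀ hl1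
      have h4 : Cs k * lam ^ k ≤ |Cs k| * lam ^ k :=
        mul_le_mul_of_nonneg_right (le_abs_self _) (by positivity)
      calc K₀ + 2 ^ k * (Cs k * lam ^ k) * K₁ ≤ K₀ * lam ^ k + 2 ^ k * (|Cs k| * lam ^ k) * K₁ := by
            gcongr
            exact le_mul_of_one_le_right hK₀ h3
        _ = (K₀ + 2 ^ k * |Cs k| * K₁) * lam ^ k := by ring
        _ ≤ lam * lam ^ k := mul_le_mul_of_nonneg_right h2 (by positivity)
        _ = lam ^ (k + 1) := by ring
  obtain ⟨f', hf', hpull, hclose⟩ := hT _ _ f₁ _ hAdm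
    (by rw [← pow_mul]; exact pow_le_pow_right₀ hl1 (by omega)) (fun α β p => by
      rw [abs_sub_comm]
      refine (herr α β p).trans ?_
      rw [Real.rpow_neg (by positivity), Real.rpow_natCast, ← pow_mul, pow_succ,
        div_le_iff₀ (by positivity), ← mul_assoc, inv_mul_cancel₀ (by positivity), one_mul]
      linarith [le_abs_self (Cs 0), abs_nonneg (Cs 0)])
  have hκ2 : ∀ p, 0 < 1 - κ p := fun p => by
    have h1 : |Cs 0| / lam ≤ 1 / 2 := by
      rw [div_le_div_iff₀ hl0 (by norm_num)]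
      linarith
    linarith [hκ1 p, le_abs_self (κ p)]
  have hsq : Sm fun p => √(1 - κ p) := fun p =>
    (Real.contDiffAt_sqrt (hκ2 p).ne').comp_contMDiffAt (f := fun p => 1 - κ p)
      (((sm_const (1 : ℝ)).sub hκ) p)
  refine ⟨f', fun k q => c k q * √(1 - κ q), hf', fun k => (h.c_sm k).mul hsq,
    fun k p => mul_pos (h.c_pos k p) (Real.sqrt_pos.2 (hκ2 p)), fun α β p => ?_,
    hgood f' hf' (hclose.mono le_rfl (inv_anti₀ hl0 hΛ))⟩
  rw [hpull, stage_rest_scale C c (j + 1) (a := fun q => 1 - κ q) α β (hκ2 p).le, ← h.exact α β p,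
    stage_rest_succ C c j]
  simp only [Atl.Cover.eta]
  ring

end Crest.Agent.R216
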