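import Crest.Agent.R216.Defs

/-!
# R216: smoothing operators on `ℝ × ℝ`
-/

set_option autoImplicit false
set_option linter.unusedSectionVars false

open scoped Manifold ContDiff Topology Convolution
open MeasureTheory ContinuousLinearMap

noncomputable section

namespace Crest.Agent.R216

/-- Smooth with compact support. -/
def SmC (v : ℝ × ℝ → ℝ) : Prop := ContDiff ℝ ∞ v ∧ HasCompactSupport v

/-- Bound for all partial derivatives of order `≤ k`. -/
def SmPB (k : ℕ) (v : ℝ × ℝ → ℝ) (C : ℝ) : Prop :=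
  ∀ w : List Bool, w.length ≤ k → ∀ z, |pdw w v z| ≤ C

theorem smo_fd {v : ℝ × ℝ → ℝ} (h : ContDiff ℝ ∞ v) (e : ℝ × ℝ) :
    ContDiff ℝ ∞ fun z => fderiv ℝ v z e :=
  (h.fderiv_right (m := ∞) le_rfl).clm_apply contDiff_const

theorem smo_pdw {v : ℝ × ℝ → ℝ} (h : ContDiff ℝ ∞ v) (w : List Bool) : ContDiff ℝ ∞ (pdw w v) := by
  induction w with
  | nil => exact h
  | cons b w ih =>
    cases b
    · exact smo_fd ih _
    · exact smo_fd ih _

theorem SmC.fd {v : ℝ × ℝ → ℝ} (h : SmC v) (e : ℝ × ℝ) : SmC fun z => fderiv ℝ v z e :=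
  ⟨smo_fd h.1 e, h.2.fderiv_apply ℝ e⟩

theorem SmC.pdw {v : ℝ × ℝ → ℝ} (h : SmC v) (w : List Bool) : SmC (pdw w v) := by
  induction w with
  | nil => exact h
  | cons b w ih =>
    cases b
    · exact ih.fd _
    · exact ih.fd _

theorem smo_pdw_append (w w' : List Bool) (v : ℝ × ℝ → ℝ) : pdw (w ++ w') v = pdw w (pdw w' v) := by
  induction w with
  | nil => rfl
  | cons b w ih => cases b <;> simp only [List.cons_append, pdw, ih]

theorem smo_pdw_sub {u v : ℝ × ℝ → ℝ} (hu : ContDiff ℝ ∞ u) (hv : ContDiff ℝ ∞ v) (w : List Bool) :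
    pdw w (fun z => u z - v z) = fun z => pdw w u z - pdw w v z := by
  induction w with
  | nil => rfl
  | cons b w ih =>
    have h1 := (smo_pdw hu w).differentiable (by simp)
    have h2 := (smo_pdw hv w).differentiable (by simp)
    cases b
    · funext z
      simp only [pdw, ih, dx, fderiv_fun_sub (h1 z) (h2 z), _root_.sub_apply]
    · funext z
      simp only [pdw, ih, dy, fderiv_fun_sub (h1 z) (h2 z), _root_.sub_apply]

theorem smo_pdw_zero {v : ℝ × ℝ → ℝ} {z : ℝ × ℝ} (h : v =ᶠ[𝓝 z] fun _ => 0) (w : List Bool) :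
    pdw w v =ᶠ[𝓝 z] fun _ => 0 := by
  induction w with
  | nil => exact h
  | cons b w ih =>
    have := ih.fderiv (𝕜 := ℝ)
    cases b
    · filter_upwards [this] with y hy
      simp only [pdw, dx, hy]
      simp
    · filter_upwards [this] with y hy
      simp only [pdw, dy, hy]
      simp

theorem SmPB.dx {k : ℕ} {v : ℝ × ℝ → ℝ} {C : ℝ} (h : SmPB (k + 1) v C) : SmPB k (dx v) C :=
  fun w hw z => by
    have := h (w ++ [false]) (by simpa using hw) z
    rwa [smo_pdw_append] at this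

theorem SmPB.dy {k : ℕ} {v : ℝ × ℝ → ℝ} {C : ℝ} (h : SmPB (k + 1) v C) : SmPB k (dy v) C :=
  fun w hw z => by
    have := h (w ++ [true]) (by simpa using hw) z
    rwa [smo_pdw_append] at this

/-- The smoothing operator with kernel `ψ` at scale `l`. -/
def smT (ψ : ℝ × ℝ → ℝ) (l : ℝ) (v : ℝ × ℝ → ℝ) (z : ℝ × ℝ) : ℝ := ∫ w, ψ w * v (z - l • w)

theorem smo_conv_comm (a b : ℝ × ℝ → ℝ) : a ⋆[mul ℝ ℝ, volume] b = b ⋆[mul ℝ ℝ, volume] a := by
  funext z
  rw [convolution_mul, convolution_mul_swap]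
  simp only [mul_comm]

theorem smo_conv_fd {a b : ℝ × ℝ → ℝ} (ha : SmC a) (hb : SmC b) (z e : ℝ × ℝ) :
    fderiv ℝ (a ⋆[mul ℝ ℝ, volume] b) z e = (a ⋆[mul ℝ ℝ, volume] fun y => fderiv ℝ b y e) z := by
  have h1 : ContDiff ℝ 1 b := hb.1.of_le (by simp)
  rw [(hb.2.hasFDerivAt_convolution_right (mul ℝ ℝ) ha.1.continuous.locallyIntegrable h1 z).fderiv,
    convolution_precompR_apply _ ha.1.continuous.locallyIntegrable (hb.2.fderiv ℝ)
      (h1.continuous_fderiv one_ne_zero)]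

theorem SmC.scale {v : ℝ × ℝ → ℝ} (h : SmC v) {l : ℝ} (hl : l ≠ 0) : SmC fun y => v (l • y) :=
  ⟨h.1.comp (contDiff_id.const_smul l), h.2.comp_smul hl⟩

theorem smT_eq (ψ v : ℝ × ℝ → ℝ) {l : ℝ} (hl : l ≠ 0) :
    smT ψ l v = fun z => (ψ ⋆[mul ℝ ℝ, volume] fun y => v (l • y)) (l⁻¹ • z) := by
  funext z
  rw [convolution_mul]
  simp only [smT, smul_sub, smul_inv_smul₀ hl]

theorem smo_conv_sm {a b : ℝ × ℝ → ℝ} (ha : SmC a) (hb : SmC b) :
    ContDiff ℝ ∞ (a ⋆[mul ℝ ℝ, volume] b) :=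
  hb.2.contDiff_convolution_right (mul ℝ ℝ) ha.1.continuous.locallyIntegrable hb.1

theorem smT_sm {ψ v : ℝ × ℝ → ℝ} (hψ : SmC ψ) (hv : SmC v) {l : ℝ} (hl : l ≠ 0) :
    ContDiff ℝ ∞ (smT ψ l v) := by
  rw [smT_eq ψ v hl]
  exact (smo_conv_sm hψ (hv.scale hl)).comp (contDiff_id.const_smul l⁻¹)

theorem smo_fd_scale {v : ℝ × ℝ → ℝ} (h : ContDiff ℝ ∞ v) (c : ℝ) (z e : ℝ × ℝ) :
    fderiv ℝ (fun y => v (c • y)) z e = c * fderiv ℝ v (c • z) e := by
  have h1 : HasFDerivAt (fun y : ℝ × ℝ => c • y) (c • ContinuousLinearMap.id ℝ (ℝ × ℝ)) z :=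
    (hasFDerivAt_id z).const_smul c
  have h2 := (h.differentiable (by simp) (c • z)).hasFDerivAt.comp z h1
  have e1 : (fun y => v (c • y)) = v ∘ fun y : ℝ × ℝ => c • y := rfl
  rw [e1, h2.fderiv]
  simp

theorem smT_fd_right {ψ v : ℝ × ℝ → ℝ} (hψ : SmC ψ) (hv : SmC v) {l : ℝ} (hl : l ≠ 0)
    (z e : ℝ × ℝ) : fderiv ℝ (smT ψ l v) z e = smT ψ l (fun y => fderiv ℝ v y e) z := by
  rw [smT_eq ψ v hl, smo_fd_scale (smo_conv_sm hψ (hv.scale hl)), smo_conv_fd hψ (hv.scale hl),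
    convolution_mul, smT, ← integral_const_mul]
  refine integral_congr_ae (ae_of_all _ fun w => ?_)
  simp only [smo_fd_scale hv.1, smul_sub, smul_inv_smul₀ hl]
  field_simp

theorem smT_fd_left {ψ v : ℝ × ℝ → ℝ} (hψ : SmC ψ) (hv : SmC v) {l : ℝ} (hl : l ≠ 0)
    (z e : ℝ × ℝ) : fderiv ℝ (smT ψ l v) z e = l⁻¹ * smT (fun y => fderiv ℝ ψ y e) l v z := by
  rw [smT_eq ψ v hl, smo_fd_scale (smo_conv_sm hψ (hv.scale hl)), smo_conv_comm,
    smo_conv_fd (hv.scale hl) hψ, smo_conv_comm, smT_eq _ v hl]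

theorem smT_pdw_right {ψ v : ℝ × ℝ → ℝ} (hψ : SmC ψ) (hv : SmC v) {l : ℝ} (hl : l ≠ 0)
    (w : List Bool) : pdw w (smT ψ l v) = smT ψ l (pdw w v) := by
  induction w with
  | nil => rfl
  | cons b w ih =>
    cases b
    · funext z
      simp only [pdw, ih]
      exact smT_fd_right hψ (hv.pdw w) hl z _
    · funext z
      simp only [pdw, ih]
      exact smT_fd_right hψ (hv.pdw w) hl z _

theorem smT_pdw_left {ψ v : ℝ × ℝ → ℝ} (hψ : SmC ψ) (hv : SmC v) {l : ℝ} (hl : l ≠ 0)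
    (w : List Bool) : pdw w (smT ψ l v) = fun z => l⁻¹ ^ w.length * smT (pdw w ψ) l v z := by
  induction w with
  | nil => funext z; simp [pdw]
  | cons b w ih =>
    have hd := (smT_sm (hψ.pdw w) hv hl).differentiable (by simp)
    have key : ∀ z e, fderiv ℝ (fun z => l⁻¹ ^ w.length * smT (pdw w ψ) l v z) z e =
        l⁻¹ ^ (w.length + 1) * smT (fun y => fderiv ℝ (pdw w ψ) y e) l v z := by
      intro z e
      rw [((hd z).hasFDerivAt.const_mul _).fderiv, _root_.smul_apply, smul_eq_mul,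
        smT_fd_left (hψ.pdw w) hv hl]
      ring
    cases b
    · funext z
      simp only [pdw, ih]
      exact key z _
    · funext z
      simp only [pdw, ih]
      exact key z _

theorem smT_le {ψ v : ℝ × ℝ → ℝ} (hψ : SmC ψ) {Z : ℝ} (h : ∀ z, |v z| ≤ Z) (l : ℝ) (z : ℝ × ℝ) :
    |smT ψ l v z| ≤ (∫ w, |ψ w|) * Z := by
  have i : Integrable fun w => |ψ w| * Z :=
    (hψ.1.continuous.integrable_of_hasCompactSupport hψ.2).abs.mul_const Z
  rw [← integral_mul_const, ← Real.norm_eq_abs]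
  refine norm_integral_le_of_norm_le i (ae_of_all _ fun w => ?_)
  rw [Real.norm_eq_abs, abs_mul]
  exact mul_le_mul_of_nonneg_left (h _) (abs_nonneg _)

theorem smo_words (F : List Bool → ℝ) (r : ℕ) : ∃ C, 0 ≤ C ∧ ∀ w : List Bool, w.length ≤ r → F w ≤ C := by
  obtain ⟨C, hC⟩ := ((List.finite_length_le Bool r).image F).bddAbove
  exact ⟨max C 0, le_max_right _ _, fun w hw => (hC ⟨w, hw, rfl⟩).trans (le_max_left _ _)⟩

/-- Gain of derivatives. -/
theorem smT_gain {ψ : ℝ × ℝ → ℝ} (hψ : SmC ψ) (r : ℕ) : ∃ C, 0 ≤ C ∧ ∀ (k : ℕ) (l Z : ℝ)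
    (v : ℝ × ℝ → ℝ), 0 < l → l ≤ 1 → SmC v → SmPB k v Z → SmPB (k + r) (smT ψ l v) (C * Z / l ^ r) := by
  obtain ⟨C, hC0, hC⟩ := smo_words (fun w => ∫ y, |pdw w ψ y|) r
  refine ⟨C, hC0, fun k l Z v hl hl1 hv h w hw z => ?_⟩
  have hZ : 0 ≤ Z := (abs_nonneg _).trans (h [] (Nat.zero_le _) 0)
  have h1 : (w.take r).length ≤ r := List.length_take_le _ _
  have h2 : (w.drop r).length ≤ k := by rw [List.length_drop]; omega
  rw [← List.take_append_drop r w, smo_pdw_append, smT_pdw_right hψ hv hl.ne',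
    smT_pdw_left hψ (hv.pdw _) hl.ne', abs_mul, abs_of_nonneg (by positivity)]
  have h3 := (smT_le (hψ.pdw (w.take r)) (h _ h2) l z).trans
    (mul_le_mul_of_nonneg_right (hC _ h1) hZ)
  have h4 : l⁻¹ ^ (w.take r).length ≤ l⁻¹ ^ r := pow_le_pow_right₀ (one_le_inv_iff₀.2 ⟨hl, hl1⟩) h1
  calc _ ≤ l⁻¹ ^ r * (C * Z) := mul_le_mul h4 h3 (abs_nonneg _) (by positivity)
    _ = _ := by rw [inv_pow]; field_simp

theorem smo_lip {v : ℝ × ℝ → ℝ} (hv : ContDiff ℝ ∞ v) {Z : ℝ} (h1 : ∀ z, |dx v z| ≤ Z)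
    (h2 : ∀ z, |dy v z| ≤ Z) (x y : ℝ × ℝ) : |v x - v y| ≤ 2 * Z * ‖x - y‖ := by
  have hZ : 0 ≤ Z := (abs_nonneg _).trans (h1 0)
  refine (convex_univ (𝕜 := ℝ) (E := ℝ × ℝ)).norm_image_sub_le_of_norm_fderiv_le (𝕜 := ℝ)
    (fun z _ => hv.differentiable (by simp) z) (fun z _ => ?_) trivial trivial
  refine opNorm_le_bound _ (by positivity) fun e => ?_
  have e1 : e = e.1 • ((1, 0) : ℝ × ℝ) + e.2 • ((0, 1) : ℝ × ℝ) := by simp
  have e2 : fderiv ℝ v z e = e.1 * dx v z + e.2 * dy v z := by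
    conv_lhs => rw [e1]
    rw [map_add, map_smul, map_smul]
    rfl
  have a1 : |e.1| ≤ ‖e‖ := norm_fst_le e
  have a2 : |e.2| ≤ ‖e‖ := norm_snd_le e
  rw [e2, Real.norm_eq_abs]
  refine (abs_add_le _ _).trans ?_
  rw [abs_mul, abs_mul]
  nlinarith [mul_le_mul a1 (h1 z) (abs_nonneg _) (norm_nonneg _),
    mul_le_mul a2 (h2 z) (abs_nonneg _) (norm_nonneg _)]

/-- A kernel for which the smoothing operators approximate to first order. -/
theorem exists_smT : ∃ ψ : ℝ × ℝ → ℝ, SmC ψ ∧ ∀ (k : ℕ) (l Z : ℝ) (v : ℝ × ℝ → ℝ), 0 < l → SmC v →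
    SmPB (k + 1) v Z → SmPB k (fun z => smT ψ l v z - v z) (4 * Z * l) := by
  let b : ContDiffBump (0 : ℝ × ℝ) := ⟨1, 2, one_pos, one_lt_two⟩
  have hψ : SmC (b.normed volume) := ⟨b.contDiff_normed, b.hasCompactSupport_normed⟩
  refine ⟨b.normed volume, hψ, fun k l Z v hl hv h w hw z => ?_⟩
  have hZ : 0 ≤ Z := (abs_nonneg _).trans (h [] (Nat.zero_le _) 0)
  rw [smo_pdw_sub (smT_sm hψ hv hl.ne') hv.1, smT_pdw_right hψ hv hl.ne', smT_eq _ _ hl.ne']
  have hu := hv.pdw w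
  have key := dist_convolution_le (μ := (volume : Measure (ℝ × ℝ))) (f := b.normed volume)
    (g := fun y => pdw w v (l • y)) (x₀ := l⁻¹ • z) (R := 2) (ε := 4 * Z * l) (z₀ := pdw w v z)
    (by positivity) b.support_normed_eq.subset b.nonneg_normed b.integral_normed
    (hu.scale hl.ne').1.continuous.aestronglyMeasurable fun x hx => by
      have h1 := smo_lip hu.1 (h (false :: w) (by simpa using hw)) (h (true :: w) (by simpa using hw))
        (l • x) z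
      have h2 : ‖l • x - z‖ ≤ l * 2 := by
        have : l • x - z = l • (x - l⁻¹ • z) := by rw [smul_sub, smul_inv_smul₀ hl.ne']
        rw [this, norm_smul, Real.norm_eq_abs, abs_of_pos hl]
        exact mul_le_mul_of_nonneg_left (mem_ball_iff_norm.1 hx).le hl.le
      rw [Real.dist_eq]
      nlinarith [mul_le_mul_of_nonneg_left h2 hZ]
  exact key

end Crest.Agent.R216
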