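import Crest.Agent.R216.Api3
import Crest.Agent.R216.Api4
import Crest.Agent.R216.SmoothAux

/-!
# R216: smoothing operators
-/

set_option autoImplicit false
set_option linter.unusedSectionVars false

open scoped Manifold ContDiff Topology
open Matrix

noncomputable section

namespace Crest.Agent.R216

variable {M : Type*} [TopologicalSpace M] [T2Space M] [CompactSpace M] [ChartedSpace E2 M]
  [IsManifold (𝓡 2) ∞ M]

theorem smo_NB_zero (A : Atl M) (k : ℕ) : A.NB k (fun _ => (0 : ℝ)) 0 := by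
  intro w _ p
  have : A.Dw w (fun _ : M => (0 : ℝ)) = fun _ => 0 := by
    induction w with
    | nil => rfl
    | cons α w ih =>
      funext q
      simp only [Atl.Dw]
      have : A.Dw w (fun _ : M => (0 : ℝ)) = fun _ => 0 := by
        clear ih
        induction w with
        | nil => rfl
        | cons β w ih =>
          funext q
          simp only [Atl.Dw]
          rw [ih (by simp at *; omega), A.D_const]
      rw [this, A.D_const]
  rw [this]
  simp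

theorem smo_NB_sum (A : Atl M) {ι : Type} (s : Finset ι) {k : ℕ} {u : ι → M → ℝ} {C : ι → ℝ}
    (hu : ∀ i, Sm (u i)) (h : ∀ i, A.NB k (u i) (C i)) :
    A.NB k (fun p => ∑ i ∈ s, u i p) (∑ i ∈ s, C i) := by
  classical
  induction s using Finset.induction_on with
  | empty => simpa using smo_NB_zero A k
  | insert a s ha ih =>
    simp only [Finset.sum_insert ha]
    exact Atl.NB.add (hu a) (Sm.sum s fun i _ => hu i) (h a) ih

/-- Lifting from the chart. -/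
theorem smo_up (A : Atl M) (i : Fin A.n) (k : ℕ) : ∃ C, 0 ≤ C ∧ ∀ (v : ℝ × ℝ → ℝ) (Z : ℝ),
    ContDiff ℝ ∞ v → SmPB k v Z → A.NB k (fun p => v (A.Psi i 0 p)) (C * Z) := by
  induction k with
  | zero =>
    refine ⟨1, zero_le_one, fun v Z hv h w hw p => ?_⟩
    obtain rfl : w = [] := List.length_eq_zero_iff.1 (Nat.le_zero.1 hw)
    rw [one_mul]
    exact h [] le_rfl _
  | succ k ih =>
    obtain ⟨C, hC0, hC⟩ := ih
    obtain ⟨a, ha0, ha⟩ := A.exists_NB (k + 1) (A.eta_sm i 0)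
    obtain ⟨b, hb0, hb⟩ := A.exists_NB (k + 1) (A.x_sm i 1)
    refine ⟨1 + 2 ^ k * a * C + 2 ^ k * b * C, by positivity, fun v Z hv h => ?_⟩
    have hZ : 0 ≤ Z := (abs_nonneg _).trans (h [] (Nat.zero_le _) 0)
    have p1 : 0 ≤ 2 ^ k * a * C * Z := by positivity
    have p2 : 0 ≤ 2 ^ k * b * C * Z := by positivity
    refine A.NB_succ_iff.2 ⟨fun p => (h [] (Nat.zero_le _) _).trans (by linarith), fun α => ?_⟩
    have s1 : Sm fun p => dx v (A.Psi i 0 p) := (A.Psi_sm i 0).comp (smo_fd hv _)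
    have s2 : Sm fun p => dy v (A.Psi i 0 p) := (A.Psi_sm i 0).comp (smo_fd hv _)
    have e : A.D α (fun p => v (A.Psi i 0 p)) =
        (fun p => A.D α (A.eta i 0) p • dx v (A.Psi i 0 p)) +
          fun p => A.D α (A.x i 1) p • dy v (A.Psi i 0 p) := funext fun p => A.D_Psi α i 0 hv p
    rw [e]
    have t1 := Atl.NB.smul (A.D_sm α (A.eta_sm i 0)) s1 (ha.D α) (hC _ Z (smo_fd hv _) h.dx)
    have t2 := Atl.NB.smul (A.D_sm α (A.x_sm i 1)) s2 (hb.D α) (hC _ Z (smo_fd hv _) h.dy)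
    exact (Atl.NB.add ((A.D_sm α (A.eta_sm i 0)).smul s1) ((A.D_sm α (A.x_sm i 1)).smul s2)
      t1 t2).mono le_rfl (by linarith)

theorem smo_up' (A : Atl M) (i : Fin A.n) (k : ℕ) : ∃ C, 0 ≤ C ∧ ∀ (v : ℝ × ℝ → ℝ) (Z : ℝ),
    ContDiff ℝ ∞ v → SmPB k v Z → A.NB k (fun p => A.ψ i p ^ 2 * v (A.Psi i 0 p)) (C * Z) := by
  obtain ⟨C, hC0, hC⟩ := smo_up A i k
  have s : Sm fun p => A.ψ i p ^ 2 := (A.ψ_sm i).comp (Φ := fun x : ℝ => x ^ 2) (by fun_prop)
  obtain ⟨a, ha0, ha⟩ := A.exists_NB k s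
  refine ⟨2 ^ k * a * C, by positivity, fun v Z hv h => ?_⟩
  exact (Atl.NB.smul s ((A.Psi_sm i 0).comp hv) ha (hC v Z hv h)).mono le_rfl (le_of_eq (by ring))

/-- Partial derivatives of the descended function. -/
theorem smo_pdw_Psi (A : Atl M) (i : Fin A.n) {v : ℝ × ℝ → ℝ} {u : M → ℝ} (hv : ContDiff ℝ ∞ v)
    (h : ∀ p ∈ A.O i, v (A.Psi i 0 p) = u p) (w : List Bool) : ∀ p ∈ A.O i,
    pdw w v (A.Psi i 0 p) = A.Dw (w.map fun b => (i, if b then 1 else 0)) u p := by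
  induction w with
  | nil => exact h
  | cons b w ih =>
    intro p hp
    have e : (fun q => pdw w v (A.Psi i 0 q)) =ᶠ[𝓝 p]
        A.Dw (w.map fun b => (i, if b then 1 else 0)) u := by
      filter_upwards [(A.O_open i).mem_nhds hp] with q hq using ih q hq
    cases b
    · have h1 : A.D (i, 0) (A.eta i 0) p = 1 := A.X_eta i 0 hp
      have h2 : A.D (i, 0) (A.x i 1) p = 0 := A.X_y i hp
      have := A.D_Psi (i, 0) i 0 (smo_pdw hv w) p
      rw [h1, h2, A.D_congr _ e] at this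
      simp only [List.map_cons, Atl.Dw, pdw]
      simpa using this.symm
    · have h1 : A.D (i, 1) (A.eta i 0) p = 0 := by simpa [Atl.Y] using A.Y_eta i 0 0 hp
      have h2 : A.D (i, 1) (A.x i 1) p = 1 := by simpa using A.D_x i 1 1 hp
      have := A.D_Psi (i, 1) i 0 (smo_pdw hv w) p
      rw [h1, h2, A.D_congr _ e] at this
      simp only [List.map_cons, Atl.Dw, pdw]
      simpa using this.symm

/-- Descent to the chart. -/
theorem smo_down (A : Atl M) (i : Fin A.n) : ∃ dn : (M → ℝ) → ℝ × ℝ → ℝ,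
    (∀ u, Sm u → SmC (dn u)) ∧ (∀ u, Sm u → ∀ p, A.ψ i p ≠ 0 → dn u (A.Psi i 0 p) = u p) ∧
    ∀ k : ℕ, ∃ C, 0 ≤ C ∧ ∀ u (Z : ℝ), 0 ≤ Z → Sm u → A.NB k u Z → SmPB k (dn u) (C * Z) := by
  obtain ⟨W, ρ, -, hKW, hWO, hρ, -, hρ1, hρs, hd⟩ :=
    A.exists_down i 0 (K₀ := A.K i) (isClosed_tsupport _) (A.K_sub_O i)
  have hd' : ∀ u : M → ℝ, ∃ v : ℝ × ℝ → ℝ, Sm u → ContDiff ℝ ∞ v ∧
      (∀ p ∈ A.O i, v (A.Psi i 0 p) = ρ p • u p) ∧ ∀ z, z ∉ A.Psi i 0 '' tsupport ρ → v z = 0 := by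
    intro u
    by_cases hu : Sm u
    · obtain ⟨v, hv⟩ := hd ℝ u hu
      exact ⟨v, fun _ => hv⟩
    · exact ⟨0, fun h => absurd h hu⟩
  choose dn hdn using hd'
  have hcp : IsCompact (A.Psi i 0 '' tsupport ρ) :=
    (isClosed_tsupport ρ).isCompact.image (A.Psi_sm i 0).continuous
  refine ⟨dn, fun u hu => ⟨(hdn u hu).1, HasCompactSupport.intro hcp (hdn u hu).2.2⟩,
    fun u hu p hp => ?_, fun k => ?_⟩
  · have hK : p ∈ A.K i := subset_tsupport _ hp
    rw [(hdn u hu).2.1 p (A.K_sub_O i hK), hρ1 p (hKW hK), one_smul]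
  · obtain ⟨a, ha0, ha⟩ := A.exists_NB k hρ
    refine ⟨2 ^ k * a, by positivity, fun u Z hZ hu h w hw z => ?_⟩
    by_cases hz : z ∈ A.Psi i 0 '' tsupport ρ
    · obtain ⟨p, hp, rfl⟩ := hz
      rw [smo_pdw_Psi A i (hdn u hu).1 (hdn u hu).2.1 w p (hρs hp)]
      exact Atl.NB.smul hρ hu ha h _ (by simpa using hw) p
    · have e : dn u =ᶠ[𝓝 z] fun _ => 0 := by
        filter_upwards [hcp.isClosed.isOpen_compl.mem_nhds hz] with y hy using (hdn u hu).2.2 y hy
      rw [(smo_pdw_zero e w).eq_of_nhds, abs_zero]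
      positivity

/-- First order smoothing operators. -/
theorem smo_one (A : Atl M) : ∃ S : ℝ → (M → ℝ) → (M → ℝ),
    (∀ l u, 0 < l → l ≤ 1 → Sm u → Sm (S l u)) ∧
    (∀ k r : ℕ, ∃ C : ℝ, ∀ l u (Z : ℝ), 0 < l → l ≤ 1 → Sm u → A.NB k u Z →
      A.NB (k + r) (S l u) (C * Z / l ^ r)) ∧
    (∀ k : ℕ, ∃ C : ℝ, ∀ l u (Z : ℝ), 0 < l → l ≤ 1 → Sm u → A.NB (k + 1) u Z →
      A.NB k (S l u - u) (C * Z * l)) := by
  obtain ⟨φ, hφ, hφ1⟩ := exists_smT
  choose dn h1 h2 h3 using smo_down A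
  have s : ∀ i, Sm fun p => A.ψ i p ^ 2 := fun i =>
    (A.ψ_sm i).comp (Φ := fun x : ℝ => x ^ 2) (by fun_prop)
  have s' : ∀ i (v : ℝ × ℝ → ℝ), ContDiff ℝ ∞ v → Sm fun p => A.ψ i p ^ 2 * v (A.Psi i 0 p) :=
    fun i v hv => (s i).mul ((A.Psi_sm i 0).comp hv)
  refine ⟨fun l u p => ∑ i, A.ψ i p ^ 2 * smT φ l (dn i u) (A.Psi i 0 p),
    fun l u hl _ hu => Sm.sum _ fun i _ => s' i _ (smT_sm hφ (h1 i u hu) hl.ne'),
    fun k r => ?_, fun k => ?_⟩
  · obtain ⟨C, -, hC⟩ := smT_gain hφ r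
    choose a ha0 ha using fun i => smo_up' A i (k + r)
    choose b hb0 hb using fun i => h3 i k
    refine ⟨∑ i, a i * (C * b i), fun l u Z hl hl1 hu h w hw p => ?_⟩
    have hZ : 0 ≤ Z := (norm_nonneg _).trans (h.norm_le p)
    refine (smo_NB_sum A Finset.univ (fun i => s' i _ (smT_sm hφ (h1 i u hu) hl.ne'))
      (fun i => ha i _ _ (smT_sm hφ (h1 i u hu) hl.ne')
        (hC k l _ _ hl hl1 (h1 i u hu) (hb i u Z hZ hu h))) w hw p).trans (le_of_eq ?_)
    rw [Finset.sum_mul, Finset.sum_div]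
    exact Finset.sum_congr rfl fun i _ => by ring
  · choose a ha0 ha using fun i => smo_up' A i k
    choose b hb0 hb using fun i => h3 i (k + 1)
    refine ⟨∑ i, a i * (4 * b i), fun l u Z hl hl1 hu h w hw p => ?_⟩
    have hZ : 0 ≤ Z := (norm_nonneg _).trans (h.norm_le p)
    have e : ((fun p => ∑ i, A.ψ i p ^ 2 * smT φ l (dn i u) (A.Psi i 0 p)) - u) = fun p =>
        ∑ i, A.ψ i p ^ 2 * (smT φ l (dn i u) (A.Psi i 0 p) - dn i u (A.Psi i 0 p)) := by
      funext q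
      have : u q = ∑ i, A.ψ i q ^ 2 * dn i u (A.Psi i 0 q) := by
        conv_lhs => rw [← one_mul (u q), ← A.ψ_sq q, Finset.sum_mul]
        refine Finset.sum_congr rfl fun i _ => ?_
        by_cases hq : A.ψ i q = 0
        · simp [hq]
        · rw [h2 i u hu q hq]
      simp only [Pi.sub_apply, mul_sub, Finset.sum_sub_distrib]
      rw [← this]
    have sm : ∀ i, ContDiff ℝ ∞ fun z => smT φ l (dn i u) z - dn i u z := fun i =>
      (smT_sm hφ (h1 i u hu) hl.ne').sub (h1 i u hu).1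
    rw [e]
    refine (smo_NB_sum A Finset.univ (fun i => s' i _ (sm i))
      (fun i => ha i _ _ (sm i) (hφ1 k l _ _ hl (h1 i u hu) (hb i u Z hZ hu h))) w hw p).trans
      (le_of_eq ?_)
    rw [Finset.sum_mul, Finset.sum_mul]
    exact Finset.sum_congr rfl fun i _ => by ring

/-- Plan. (1) On `ℝ × ℝ`: `T l v z = ∫ w, φ w * v (z - l • w)` (or two one-dimensional
convolutions) with a smooth compactly supported `φ`, `∫ φ = 1`; for smooth compactly supported `v`: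
`pdw` commutes with `T l`, `|pdw w (T l v)| ≤ C l^{-|w|} sup |v|` (write `T l v = φ_l ⋆ v`),
`|T l v - v| ≤ C l sup (|dx v| + |dy v|)`, `T l` linear.
(2) On `M`: with `exists_down i 0 (K i)` (cut-off `ρ i`, descent `u ↦ v`, which is unique hence
linear), `S₁ l u = ∑ i, ψ i ^ 2 * (T l (down i u)) ∘ Psi i 0`; `pdw`-norms of `down i u` are bounded
by `NB`-norms of `u` (`D_Psi` with `X_eta` etc. on `O i`), `NB`-norms of `a * (v ∘ Psi)` by
`pdw`-norms of `v` (induction with `D_Psi`, generalizing the smooth coefficient `a`). This gives the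
statement for `N = 1` together with linearity (and boundedness, `r = 0`).
(3) `S = 1 - (1 - S₁)^N'` with `N' = max N 1`, i.e. `S^{(N+1)} u = S^{(N)} u + S₁ (u - S^{(N)} u)`:
`S^{(N+1)} u - u = (1 - S₁)(S^{(N)} u - u)`, induction. -/
theorem smoothStmt (A : Atl M) : A.SmoothStmt := by
  obtain ⟨S, s1, s2, s3⟩ := smo_one A
  intro N
  induction N with
  | zero =>
    refine ⟨S, s1, s2, fun k => ?_⟩
    obtain ⟨C, hC⟩ := s2 k 0
    refine ⟨C + 1, fun l u Z hl hl1 hu h => ?_⟩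
    exact (Atl.NB.sub (s1 l u hl hl1 hu) hu (hC l u Z hl hl1 hu h) h).mono le_rfl
      (le_of_eq (by ring))
  | succ N ih =>
    obtain ⟨T, t1, t2, t3⟩ := ih
    refine ⟨fun l u => T l u + S l (u - T l u), fun l u hl hl1 hu =>
      (t1 l u hl hl1 hu).add (s1 l _ hl hl1 (hu.sub (t1 l u hl hl1 hu))), fun k r => ?_, fun k => ?_⟩
    · obtain ⟨a, ha⟩ := t2 k r
      obtain ⟨b, hb⟩ := t2 k 0
      obtain ⟨c, hc⟩ := s2 k r
      refine ⟨a + c * (1 + b), fun l u Z hl hl1 hu h => ?_⟩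
      have hT := t1 l u hl hl1 hu
      exact (Atl.NB.add hT (s1 l _ hl hl1 (hu.sub hT)) (ha l u Z hl hl1 hu h)
        (hc l _ _ hl hl1 (hu.sub hT) (Atl.NB.sub hu hT h (hb l u Z hl hl1 hu h)))).mono le_rfl
        (le_of_eq (by ring))
    · obtain ⟨a, ha⟩ := t3 (k + 1)
      obtain ⟨c, hc⟩ := s3 k
      refine ⟨c * a, fun l u Z hl hl1 hu h => ?_⟩
      have hT := t1 l u hl hl1 hu
      have h1 := (ha l u Z hl hl1 hu (h.mono (by omega) le_rfl)).const_smul (hT.sub hu) (-1)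
      have e1 : (-1 : ℝ) • (T l u - u) = u - T l u := by rw [neg_one_smul, neg_sub]
      have e2 : T l u + S l (u - T l u) - u = S l (u - T l u) - (u - T l u) := by abel
      rw [e1] at h1
      beta_reduce
      rw [e2]
      exact (hc l _ _ hl hl1 (hu.sub hT) h1).mono le_rfl (le_of_eq (by norm_num; ring))

end Crest.Agent.R216
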