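import Crest.Agent.R216.StTen
import Crest.Agent.R216.Smooth
import Crest.Agent.R216.Iter

/-!
# R216 / Step: mollification
-/

set_option autoImplicit false
set_option linter.unusedSectionVars false

open scoped Manifold ContDiff Topology
open Matrix

noncomputable section

namespace Crest.Agent.R216

variable {M : Type*} [TopologicalSpace M] [T2Space M] [CompactSpace M] [ChartedSpace E2 M]
  [IsManifold (𝓡 2) ∞ M]
variable {E : Type} [NormedAddCommGroup E] [NormedSpace ℝ E]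
variable {P : Type*}

namespace Atl

variable (A : Atl M)

/-- Componentwise `smoothStmt A N` (`NB.apply`, `NB_pi`, `sm_pi`); `c r` a common nonnegative bound. -/
theorem moll_map (N : ℕ) : ∃ c : ℕ → ℝ, (∀ r, 0 ≤ c r) ∧ ∀ (f : M → V4) (l L Z : ℝ), Sm f → 0 < l →
    l ≤ 1 → 0 ≤ L → 0 ≤ Z → A.NB 2 f L → A.NB (2 + N) f Z →
    ∃ g : M → V4, Sm g ∧ (∀ r : ℕ, A.NB (2 + r) g (c r * L / l ^ r)) ∧
      A.NB 2 (g - f) (c 0 * Z * l ^ N) := by
  obtain ⟨S, s1, s2, s3⟩ := smoothStmt A N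
  choose C₁ hC₁ using s2 2
  obtain ⟨C₂, hC₂⟩ := s3 2
  refine ⟨fun r => |C₁ r| + |C₂|, fun r => by positivity, fun f l L Z hf l0 l1 L0 Z0 hL hZ => ?_⟩
  have hg : Sm fun p j => S l (fun p => f p j) p := sm_pi fun j => s1 l _ l0 l1 (hf.apply j)
  refine ⟨_, hg, fun r => A.NB_pi hg (by positivity) fun j =>
    (hC₁ r l _ L l0 l1 (hf.apply j) (hL.apply hf j)).mono le_rfl ?_,
    A.NB_pi (hg.sub hf) (by positivity) fun j =>
    (hC₂ l _ Z l0 l1 (hf.apply j) (hZ.apply hf j)).mono le_rfl ?_⟩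
  · have := le_abs_self (C₁ r)
    have := abs_nonneg C₂
    gcongr
    linarith
  · have := le_abs_self C₂
    have := abs_nonneg (C₁ 0)
    gcongr
    linarith

theorem mo_NB_sum {ι : Type*} (s : Finset ι) {k : ℕ} {u : ι → M → ℝ} {C : ℝ} (hu : ∀ i, Sm (u i))
    (h : ∀ i, A.NB k (u i) C) : A.NB k (fun p => ∑ i ∈ s, u i p) (s.card * C) := by
  classical
  induction s using Finset.induction_on with
  | empty =>
    intro w _ p
    have : (fun p => ∑ i ∈ (∅ : Finset ι), u i p) = (0 : ℝ) • fun _ : M => (0 : ℝ) := by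
      funext p; simp
    rw [this, A.Dw_const_smul w (sm_const _)]
    simp
  | insert a s ha ih =>
    have : (fun p => ∑ i ∈ insert a s, u i p) = u a + fun p => ∑ i ∈ s, u i p := by
      funext p; rw [Finset.sum_insert ha]; rfl
    rw [this, Finset.card_insert_of_notMem ha]
    exact (NB.add (hu a) (Sm.sum s fun i _ => hu i) (h a) ih).mono le_rfl (le_of_eq (by push_cast; ring))

/-- the coefficient tensors -/
def moK (q : Fin A.n × Fin 2 × Fin 2) : A.Ten := fun α β p =>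
  (A.ψ q.1 p * A.ψ q.1 p * (1 / 2)) * (A.D α (A.x q.1 q.2.1) p * A.D β (A.x q.1 q.2.2) p +
    A.D α (A.x q.1 q.2.2) p * A.D β (A.x q.1 q.2.1) p)

theorem moK_ten (q : Fin A.n × Fin 2 × Fin 2) : A.IsTen (A.moK q) := by
  have hu := A.x_sm q.1 q.2.1
  have hv := A.x_sm q.1 q.2.2
  refine IsTen.mul (G := fun α β p => A.D α (A.x q.1 q.2.1) p * A.D β (A.x q.1 q.2.2) p +
    A.D α (A.x q.1 q.2.2) p * A.D β (A.x q.1 q.2.1) p) ⟨fun α β =>
      ((A.D_sm α hu).mul (A.D_sm β hv)).add ((A.D_sm α hv).mul (A.D_sm β hu)),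
      fun α β p => by ring, fun i p hp α β => ?_⟩ (((A.ψ_sm _).mul (A.ψ_sm _)).mul (sm_const _))
  rw [A.D_chart α i hu hp, A.D_chart β i hu hp, A.D_chart α i hv hp, A.D_chart β i hv hp]
  simp only [Fin.sum_univ_two, smul_eq_mul]
  ring

theorem moK_sum {T : A.Ten} (hT : A.IsTen T) (α β : A.Idx) (p : M) :
    ∑ q : Fin A.n × Fin 2 × Fin 2, T (q.1, q.2.1) (q.1, q.2.2) p * A.moK q α β p = T α β p := by
  rw [Fintype.sum_prod_type, ← one_mul (T α β p), ← A.ψ_sq p, Finset.sum_mul]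
  refine Finset.sum_congr rfl fun i _ => ?_
  by_cases h0 : A.ψ i p = 0
  · simp [h0, moK]
  rw [hT.comp i p (A.K_sub_O i (subset_tsupport _ h0)) α β]
  simp only [Fintype.sum_prod_type, Fin.sum_univ_two, moK]
  rw [hT.symm (i, 1) (i, 0)]
  ring

/-- `H α β = ∑ i, ψ i ^ 2 * ∑ a b, D α xᵃ * D β xᵇ * S l (H₀ (i,a) (i,b))`. It is a tensor
(symmetry: `H₀ (i,a) (i,b) = H₀ (i,b) (i,a)` as functions; `comp`: `D_chart` for `x i a`);
`H - H₀ = ∑ i, ψ i ^ 2 * ∑ a b, D α xᵃ * D β xᵇ * (S l H₀ab - H₀ab)` by `IsTen.comp`, `ψ_sq`.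
Norms: `NB.smul` with the fixed smooth coefficients (`exists_NB`, finitely many). -/
theorem moll_ten (N : ℕ) : ∃ c : ℕ → ℝ, (∀ r, 0 ≤ c r) ∧ ∀ (H₀ : A.Ten) (l Z₀ Z : ℝ), A.IsTen H₀ →
    0 < l → l ≤ 1 → 0 ≤ Z₀ → 0 ≤ Z → (∀ α β p, |H₀ α β p| ≤ Z₀) → (∀ α β, A.NB N (H₀ α β) Z) →
    ∃ H : A.Ten, A.IsTen H ∧ (∀ (r : ℕ) α β, A.NB r (H α β) (c r * Z₀ / l ^ r)) ∧
      ∀ α β p, |H α β p - H₀ α β p| ≤ c 0 * Z * l ^ N := by
  obtain ⟨S, s1, s2, s3⟩ := smoothStmt A N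
  choose C₁ hC₁ using s2 0
  obtain ⟨C₂, hC₂⟩ := s3 0
  choose K₀ K₀0 hK₀ using fun (r : ℕ) (q : (Fin A.n × Fin 2 × Fin 2) × A.Idx × A.Idx) =>
    A.exists_NB r ((A.moK_ten q.1).sm q.2.1 q.2.2)
  have hK : ∀ r q α β, A.NB r (A.moK q α β) (∑ q, K₀ r q) := fun r q α β =>
    (hK₀ r (q, α, β)).mono le_rfl
      (Finset.single_le_sum (f := K₀ r) (fun q _ => K₀0 r q) (Finset.mem_univ _))
  have K0 : ∀ r, 0 ≤ ∑ q, K₀ r q := fun r => Finset.sum_nonneg fun q _ => K₀0 r q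
  generalize hKK : (fun r => ∑ q, K₀ r q) = K
  replace hK : ∀ r q α β, A.NB r (A.moK q α β) (K r) := hKK ▸ hK
  replace K0 : ∀ r, 0 ≤ K r := hKK ▸ K0
  set n : ℝ := (((Finset.univ : Finset (Fin A.n × Fin 2 × Fin 2)).card : ℕ) : ℝ) with hn
  have n0 : 0 ≤ n := Nat.cast_nonneg _
  refine ⟨fun r => n * (2 ^ r * (|C₁ r| + |C₂|) * K r), fun r => by have := K0 r; positivity,
    fun H₀ l Z₀ Z hH l0 l1 Z₀0 Z0 h0 hZ => ?_⟩
  have hS := fun α β => s1 l _ l0 l1 (hH.sm α β)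
  refine ⟨fun α β p => ∑ q : Fin A.n × Fin 2 × Fin 2,
    S l (H₀ (q.1, q.2.1) (q.1, q.2.2)) p * A.moK q α β p,
    IsTen.sum _ fun q _ => (A.moK_ten q).mul (hS _ _), fun r α β => ?_, fun α β p => ?_⟩
  · refine (A.mo_NB_sum Finset.univ (fun q => (hS _ _).mul ((A.moK_ten q).sm α β)) fun q =>
      NB.smul (hS _ _) ((A.moK_ten q).sm α β) ((hC₁ r l _ Z₀ l0 l1 (hH.sm _ _) fun w hw p => ?_).mono
        (Nat.le_add_left _ _) le_rfl) (hK r q α β)).mono le_rfl ?_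
    · obtain rfl := List.length_eq_zero_iff.1 (Nat.le_zero.1 hw)
      exact h0 _ _ p
    · have := K0 r
      have h1 : C₁ r ≤ |C₁ r| + |C₂| := (le_abs_self _).trans (le_add_of_nonneg_right (abs_nonneg _))
      calc n * (2 ^ r * (C₁ r * Z₀ / l ^ r) * K r)
          ≤ n * (2 ^ r * ((|C₁ r| + |C₂|) * Z₀ / l ^ r) * K r) := by gcongr
        _ = _ := by ring
  · rw [← A.moK_sum hH α β p, ← Finset.sum_sub_distrib]
    refine (Finset.abs_sum_le_sum_abs _ _).trans ((Finset.sum_le_card_nsmul _ _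
      ((|C₁ 0| + |C₂|) * Z * l ^ N * K 0) fun q _ => ?_).trans (le_of_eq ?_))
    · rw [← sub_mul, abs_mul]
      have h1 := (hC₂ l _ Z l0 l1 (hH.sm (q.1, q.2.1) (q.1, q.2.2))
        ((hZ _ _).mono (Nat.zero_add N).le le_rfl)).norm_le p
      have h2 : C₂ ≤ |C₁ 0| + |C₂| := (le_abs_self _).trans (le_add_of_nonneg_left (abs_nonneg _))
      refine mul_le_mul (h1.trans (by gcongr)) ((hK 0 q α β).norm_le p) (abs_nonneg _) (by positivity)
    · rw [nsmul_eq_mul]; ring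

/-- `it_ii`. -/
theorem IIm.perturb {A : Atl M} {f g : M → V4} {L ε m : ℝ} (hf : Sm f) (hg : Sm g)
    (h : A.IIm f m) (hL : A.NB 2 f L) (hε : A.NB 2 (g - f) ε) (hεL : ε ≤ L) :
    A.IIm g (m - 27648 * L ^ 5 * ε) := by
  intro p
  obtain ⟨α, β, γ, δ, hp⟩ := h p
  have d : ∀ w : List A.Idx, w.length ≤ 2 → ‖A.Dw w g p - A.Dw w f p‖ ≤ ε := fun w hw => by
    have := hε w hw p
    rwa [A.Dw_sub w hg hf] at this
  exact ⟨α, β, γ, δ, (sub_le_sub_right hp _).trans (it_ii hεL (hL [α] (by simp) p)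
    (hL [β] (by simp) p) (hL [γ, δ] (by simp) p) (d [α] (by simp)) (d [β] (by simp))
    (d [γ, δ] (by simp)))⟩

/-- `NII (σ • f) = σ³ • NII f`. -/
theorem IIm.smul {A : Atl M} {f : M → V4} {m : ℝ} (hf : Sm f) (h : A.IIm f m) (σ : ℝ) :
    A.IIm (σ • f) (σ ^ 6 * m) := by
  intro p
  obtain ⟨α, β, γ, δ, hp⟩ := h p
  refine ⟨α, β, γ, δ, ?_⟩
  have e : A.NII (σ • f) α β γ δ p = σ ^ 3 • A.NII f α β γ δ p := by
    rw [NII, NII, A.D_const_smul α hf, A.D_const_smul β hf, A.D_const_smul δ hf,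
      A.D_const_smul γ (A.D_sm δ hf)]
    ext k
    fin_cases k <;> simp [cross3, d3] <;> ring
  rw [e, smul_dotProduct, dotProduct_smul, smul_eq_mul, smul_eq_mul, ← mul_assoc, ← pow_add]
  exact mul_le_mul_of_nonneg_left hp (by positivity)

/-- `NB_dot_graded`, `NB.D`. -/
theorem NB_pull {f : M → V4} (hf : Sm f) {k : ℕ} {Λ : ℝ} (hΛ : 1 ≤ Λ)
    (h : ∀ j ≤ k + 1, A.NB j f (Λ ^ (j + 1))) (α β : A.Idx) :
    A.NB k (A.pull f α β) (4 * 2 ^ k * Λ ^ (k + 4)) := by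
  have d : ∀ γ, ∀ j ≤ k, A.NB j (A.D γ f) (Λ ^ 2 * Λ ^ j) := fun γ j hj =>
    ((h (j + 1) (Nat.succ_le_succ hj)).D γ).mono le_rfl (le_of_eq (by ring))
  exact (A.NB_dot_graded (A.D_sm α hf) (A.D_sm β hf) hΛ (d α) (d β)).mono le_rfl (le_of_eq (by ring))

theorem pull_smul {f : M → V4} (hf : Sm f) (σ : ℝ) (α β : A.Idx) (p : M) :
    A.pull (σ • f) α β p = σ ^ 2 * A.pull f α β p := by
  rw [pull, pull, A.D_const_smul α hf, A.D_const_smul β hf, Pi.smul_apply, Pi.smul_apply,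
    smul_dotProduct, dotProduct_smul, smul_eq_mul, smul_eq_mul]
  ring

theorem mo_abs_dot {u v : V4} {a b : ℝ} (hu : ‖u‖ ≤ a) (hv : ‖v‖ ≤ b) : |u ⬝ᵥ v| ≤ 4 * (a * b) := by
  have h1 := it_dot_le u v
  have h2 := it_dot_le (-u) v
  rw [neg_dotProduct, norm_neg] at h2
  have h3 : ‖u‖ * ‖v‖ ≤ a * b := mul_le_mul hu hv (norm_nonneg _) ((norm_nonneg _).trans hu)
  exact abs_le.2 ⟨by linarith, by linarith⟩

theorem abs_sp_le {u v : M → V4} {a b : ℝ} (hu : A.NB 1 u a) (hv : A.NB 1 v b) (α β : A.Idx)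
    (p : M) : |A.sp (A.dd u) (A.dd v) α β p| ≤ 8 * a * b := by
  refine (abs_add_le _ _).trans ((add_le_add (mo_abs_dot (hu [α] le_rfl p) (hv [β] le_rfl p))
    (mo_abs_dot (hu [β] le_rfl p) (hv [α] le_rfl p))).trans (le_of_eq (by ring)))

theorem abs_pull_le {u : M → V4} {a : ℝ} (hu : A.NB 1 u a) (α β : A.Idx) (p : M) :
    |A.pull u α β p| ≤ 4 * a ^ 2 := by
  rw [sq]
  exact mo_abs_dot (hu [α] le_rfl p) (hu [β] le_rfl p)

end Atl

end Crest.Agent.R216
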