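import Crest.Agent.R216.StCore
import Crest.Agent.R216.StMoll

/-!
# R216: one step of the perturbation theorem

From `coreStmt` (files `St*.lean`) by mollification. `J` from `coreStmt A (2B)`, `C₀ = 30`,
`N' = 8 (2C + 12)`, `N = N' + 2`, `μ = Λ^(9/8) = l⁻¹`, `κ = Λ^(1/(8(J+1)))`, `δ = Λ^(-C) = ε²`,
`σ = √(1-δ)`, `F` = mollified `σ f`, `H₀ = δ⁻¹ (G - σ² pull f)`, `H` = mollified `H₀`, `U = ε U₁ + ε² U₂`.
-/

set_option autoImplicit false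
set_option linter.unusedSectionVars false

open scoped Manifold ContDiff Topology
open Matrix

noncomputable section

namespace Crest.Agent.R216

variable {M : Type*} [TopologicalSpace M] [T2Space M] [CompactSpace M] [ChartedSpace E2 M]
  [IsManifold (𝓡 2) ∞ M]

theorem stp_key {K y : ℝ} (hy : 1 ≤ y) (hK : 6 * K ≤ y) {a b d : ℕ} (h : a + d + 1 ≤ b) :
    K * y ^ a / y ^ b ≤ (y ^ d)⁻¹ / 6 := by
  have h0 : 0 < y := by linarith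
  have h1 : y ^ (a + d + 1) ≤ y ^ b := pow_le_pow_right₀ hy h
  rw [div_le_div_iff₀ (by positivity) (by norm_num), inv_mul_eq_div, le_div_iff₀ (by positivity)]
  calc K * y ^ a * 6 * y ^ d = (6 * K) * (y ^ a * y ^ d) := by ring
    _ ≤ y * (y ^ a * y ^ d) := mul_le_mul_of_nonneg_right hK (by positivity)
    _ = y ^ (a + d + 1) := by ring
    _ ≤ y ^ b := h1

theorem stp_absorb (K : ℝ) (m : ℕ) :
    ∃ n : ℕ, 1 ≤ n ∧ ∀ L y : ℝ, 2 ≤ L → L ^ n ≤ y → K * L ^ m ≤ y := by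
  obtain ⟨n, hn⟩ := pow_unbounded_of_one_lt K (by norm_num : (1 : ℝ) < 2)
  refine ⟨n + m + 1, by omega, fun L y hL hy => le_trans ?_ hy⟩
  have h1 : (2 : ℝ) ^ n ≤ L ^ n := pow_le_pow_left₀ (by norm_num) hL n
  have h2 : (0 : ℝ) ≤ L ^ m := by positivity
  calc K * L ^ m ≤ L ^ n * L ^ m := mul_le_mul_of_nonneg_right (hn.le.trans h1) h2
    _ = L ^ (n + m) := by ring
    _ ≤ L ^ (n + m + 1) := pow_le_pow_right₀ (by linarith) (by omega)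

theorem stp_sp_smul (A : Atl M) {u v : M → V4} (hu : Sm u) (hv : Sm v) (a b : ℝ) (α β : A.Idx)
    (p : M) : A.sp (A.dd (a • u)) (A.dd (b • v)) α β p = a * b * A.sp (A.dd u) (A.dd v) α β p := by
  simp only [Atl.sp, Atl.dd, A.D_const_smul _ hu, A.D_const_smul _ hv, Pi.smul_apply,
    smul_dotProduct, dotProduct_smul, smul_eq_mul]
  ring

theorem stp_sp_left (A : Atl M) {u v w : M → V4} (hu : Sm u) (hv : Sm v) (α β : A.Idx)
    (p : M) : A.sp (A.dd u) (A.dd w) α β p =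
      A.sp (A.dd v) (A.dd w) α β p - A.sp (A.dd (v - u)) (A.dd w) α β p := by
  simp only [Atl.sp, Atl.dd, A.D_sub _ hv hu, Pi.sub_apply, sub_dotProduct]
  ring

theorem stp_consts {a K B L y : ℝ} {m : ℕ} (ha : 0 ≤ a) (hK : 0 ≤ K) (hB : 1 ≤ B) (hL : 2 ≤ L)
    (h : (48 + 48 * a + 16 * 27648 * a + 8 * B * (1 + K) + 6 * K) * L ^ (2 * m + 6) ≤ y) :
    48 * (L ^ m * L ^ m) ≤ y ∧ 48 * a ≤ y ∧ 16 * 27648 * a * L ^ 6 ≤ y ∧ 8 * B * (1 + K) ≤ y ∧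
      6 * K ≤ y ∧ 6 * L ^ m ≤ y ∧ 2 ≤ y := by
  have hL1 : (1 : ℝ) ≤ L := by linarith
  have hP1 : (1 : ℝ) ≤ L ^ (2 * m + 6) := one_le_pow₀ hL1
  have hP2 : L ^ m * L ^ m ≤ L ^ (2 * m + 6) := by
    rw [← pow_add]; exact pow_le_pow_right₀ hL1 (by omega)
  have hP3 : L ^ 6 ≤ L ^ (2 * m + 6) := pow_le_pow_right₀ hL1 (by omega)
  have hP4 : L ^ m ≤ L ^ (2 * m + 6) := pow_le_pow_right₀ hL1 (by omega)
  have hBK : 0 ≤ 8 * B * (1 + K) := by positivity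
  generalize L ^ (2 * m + 6) = X at *
  generalize 8 * B * (1 + K) = W at *
  have h1 : a ≤ a * X := le_mul_of_one_le_right ha hP1
  have h2 : W ≤ W * X := le_mul_of_one_le_right hBK hP1
  have h3 : K ≤ K * X := le_mul_of_one_le_right hK hP1
  have h4 : a * L ^ 6 ≤ a * X := mul_le_mul_of_nonneg_left hP3 ha
  have e : (48 + 48 * a + 16 * 27648 * a + W + 6 * K) * X =
      48 * X + 48 * (a * X) + 16 * 27648 * (a * X) + W * X + 6 * (K * X) := by ring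
  rw [e] at h
  refine ⟨by linarith, by linarith, ?_, by linarith, by linarith, by linarith, by linarith⟩
  rw [mul_assoc]; linarith

theorem stp_II {a L y σ : ℝ} (hL : 2 ≤ L) (hy : 0 < y) (hσ : 1 / 2 ≤ σ ^ 2)
    (h : 16 * 27648 * a * L ^ 6 ≤ y) : (L ^ 5)⁻¹ ≤ σ ^ 6 * L⁻¹ - 27648 * L ^ 5 * (a / y) := by
  have hs : (1 / 8 : ℝ) ≤ σ ^ 6 := by
    calc (1 / 8 : ℝ) = (1 / 2) ^ 3 := by norm_num
      _ ≤ (σ ^ 2) ^ 3 := pow_le_pow_left₀ (by norm_num) hσ 3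
      _ = σ ^ 6 := by ring
  have hL0 : 0 < L := by linarith
  have t1 : 27648 * L ^ 5 * (a / y) ≤ L⁻¹ / 16 := by
    rw [← mul_div_assoc, div_le_div_iff₀ hy (by norm_num), inv_mul_eq_div, le_div_iff₀ hL0]
    exact le_trans (le_of_eq (by ring)) h
  have t2 : (L ^ 5)⁻¹ ≤ L⁻¹ / 16 := by
    rw [le_div_iff₀ (by norm_num), inv_mul_eq_div, div_le_iff₀ (by positivity), inv_mul_eq_div,
      le_div_iff₀ hL0]
    have : (2 : ℝ) ^ 4 ≤ L ^ 4 := pow_le_pow_left₀ (by norm_num) hL 4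
    nlinarith
  have t3 : L⁻¹ / 8 ≤ σ ^ 6 * L⁻¹ := by
    have : 0 < L⁻¹ := by positivity
    nlinarith
  linarith

theorem stp_pow {y : ℝ} (hy : 0 < y) (K : ℝ) {a n b : ℕ} (h : 9 * n = a + b) :
    K * y ^ a * (y ^ 9)⁻¹ ^ n = K / y ^ b := by
  rw [inv_pow, ← pow_mul, h, pow_add]; field_simp

theorem stp_map (A : Atl M) (C n : ℕ) (hn : n = 18 * C + 72) : ∃ c : ℕ → ℝ, (∀ r, 0 ≤ c r) ∧
    ∀ (B L y σ : ℝ) (f : M → V4) (G : A.Ten), A.Adm B L (y ^ 8) (n + 2) f G → 2 ≤ y →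
      48 * c 0 ≤ y → 16 * 27648 * c 0 * L ^ 6 ≤ y → |σ| ≤ 1 → 1 / 2 ≤ σ ^ 2 →
      ∃ F : M → V4, Sm F ∧ (∀ r : ℕ, A.NB (2 + r) F (c r * L ^ 5 * (y ^ 9) ^ r)) ∧
        A.NB 2 (F - σ • f) (c 0 / y ^ (18 * C + 48)) ∧ A.IIm F (L ^ 5)⁻¹ := by
  obtain ⟨c, hc, hmap⟩ := A.moll_map n
  refine ⟨c, hc, fun B L y σ f G hA hy2 hb2 hb3 hσa hσ => ?_⟩
  have hL := hA.two_le
  have hL1 : (1 : ℝ) ≤ L := by linarith
  have hy1 : 1 ≤ y := by linarith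
  have hy0 : 0 < y := by linarith
  have hl0 : 0 < (y ^ 9)⁻¹ := by positivity
  have hl1 : (y ^ 9)⁻¹ ≤ 1 := inv_le_one_of_one_le₀ (one_le_pow₀ hy1)
  have hf := hA.sm
  have hf' : Sm (σ • f) := hf.const_smul σ
  have hf'2 : A.NB 2 (σ • f) L :=
    ((hA.low.mono (by norm_num) le_rfl).const_smul hf σ).mono le_rfl
      (mul_le_of_le_one_left (by linarith) hσa)
  have hf'N : A.NB (2 + n) (σ • f) (y ^ (8 * (2 + n + 1))) :=
    ((hA.highf _ (by omega)).const_smul hf σ).mono le_rfl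
      (by rw [pow_mul]; exact mul_le_of_le_one_left (by positivity) hσa)
  obtain ⟨F, hF, hFb, hFf⟩ := hmap (σ • f) (y ^ 9)⁻¹ L _ hf' hl0 hl1 (by linarith) (by positivity)
    hf'2 hf'N
  rw [stp_pow hy0 _ (b := 18 * C + 48) (by omega)] at hFf
  have hη₁ : c 0 / y ^ (18 * C + 48) ≤ c 0 / y :=
    div_le_div_of_nonneg_left (hc 0) hy0 (le_self_pow₀ hy1 (by omega))
  have hL5 : L ≤ L ^ 5 := le_self_pow₀ hL1 (by norm_num)
  refine ⟨F, hF, fun r => (hFb r).mono le_rfl ?_, hFf, fun p => ?_⟩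
  · rw [inv_pow, div_inv_eq_mul]
    have := hc r
    gcongr
  · have h0 : c 0 / y ≤ L := by
      rw [div_le_iff₀ hy0]
      have := hc 0
      have : y ≤ L * y := le_mul_of_one_le_left hy0.le hL1
      linarith
    obtain ⟨α, β, γ, δ, h⟩ :=
      (Atl.IIm.smul hf hA.ii σ).perturb hf' hF hf'2 (hFf.mono le_rfl hη₁) h0 p
    exact ⟨α, β, γ, δ, le_trans (stp_II hL hy0 hσ hb3) h⟩

theorem stp_ten (A : Atl M) (C n : ℕ) (hn : n = 18 * C + 72) : ∃ (c : ℕ → ℝ) (K : ℝ),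
    (∀ r, 0 ≤ c r) ∧ 0 ≤ K ∧
    ∀ (B L y σ : ℝ) (f : M → V4) (G : A.Ten), 1 ≤ B → A.Adm B L (y ^ 8) (n + 2) f G → 2 ≤ y →
      8 * B * (1 + K) ≤ y → σ ^ 2 = 1 - (y ^ (8 * C))⁻¹ →
      (∀ α β p, |G α β p - A.pull f α β p| ≤ (y ^ (8 * (C + 1)))⁻¹) →
      ∃ H : A.Ten, A.IsTen H ∧ (∀ (r : ℕ) α β, A.NB r (H α β) (c r * L ^ 5 * (y ^ 9) ^ r)) ∧
        A.PosB H (2 * B) ∧ ∀ α β p, |(y ^ (8 * C))⁻¹ * H α β p -
          (G α β p - σ ^ 2 * A.pull f α β p)| ≤ K / y ^ (10 * C + 40) := by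
  obtain ⟨c, hc, hten⟩ := A.moll_ten n
  obtain ⟨T, hT⟩ : ∃ T : ℝ, T = 2 ^ n := ⟨_, rfl⟩
  have hT1 : 1 ≤ T := hT ▸ one_le_pow₀ (by norm_num)
  have hK0 : 0 ≤ c 0 * (5 * T) := by have := hc 0; positivity
  refine ⟨c, c 0 * (5 * T), hc, hK0, fun B L y σ f G hB hA hy2 hb4 hσ herr => ?_⟩
  have hL := hA.two_le
  have hy1 : 1 ≤ y := by linarith
  have hy0 : 0 < y := by linarith
  have hl0 : 0 < (y ^ 9)⁻¹ := by positivity
  have hl1 : (y ^ 9)⁻¹ ≤ 1 := inv_le_one_of_one_le₀ (one_le_pow₀ hy1)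
  have hf := hA.sm
  have hδ0 : 0 < (y ^ (8 * C))⁻¹ := by positivity
  have hδ1 : (y ^ (8 * C))⁻¹ ≤ 1 := inv_le_one_of_one_le₀ (one_le_pow₀ hy1)
  have hσ1 : σ ^ 2 ≤ 1 := by linarith
  obtain ⟨H₀, hH₀⟩ : ∃ H₀ : A.Ten,
      H₀ = fun α β p => y ^ (8 * C) * (G α β p - σ ^ 2 * A.pull f α β p) := ⟨_, rfl⟩
  have hH₀t : A.IsTen H₀ :=
    hH₀ ▸ (hA.ten.sub ((A.isTen_pull hf).mul (sm_const (σ ^ 2)))).mul (sm_const (y ^ (8 * C)))
  have hH₀G : ∀ α β p, |H₀ α β p - G α β p| ≤ y⁻¹ := fun α β p => by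
    have e : H₀ α β p - G α β p = (y ^ (8 * C) * σ ^ 2) * (G α β p - A.pull f α β p) := by
      simp only [hH₀, hσ]; field_simp; ring
    rw [e, abs_mul, abs_of_nonneg (by positivity)]
    calc y ^ (8 * C) * σ ^ 2 * |G α β p - A.pull f α β p|
        ≤ y ^ (8 * C) * 1 * (y ^ (8 * (C + 1)))⁻¹ := by
          gcongr
          exact herr α β p
      _ = (y ^ 8)⁻¹ := by
          rw [mul_add, pow_add]; field_simp
      _ ≤ y⁻¹ := inv_anti₀ hy0 (le_self_pow₀ hy1 (by norm_num))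
  have hyi : y⁻¹ ≤ 1 := inv_le_one_of_one_le₀ hy1
  have h4 : 4 * L ^ 2 + 2 ≤ L ^ 5 := by
    have h3 : (2 : ℝ) ^ 3 ≤ L ^ 3 := pow_le_pow_left₀ (by norm_num) hL 3
    have h2 : (2 : ℝ) ^ 2 ≤ L ^ 2 := pow_le_pow_left₀ (by norm_num) hL 2
    have : L ^ 2 * 2 ^ 3 ≤ L ^ 2 * L ^ 3 := mul_le_mul_of_nonneg_left h3 (by positivity)
    have e : L ^ 2 * L ^ 3 = L ^ 5 := by ring
    linarith
  have hH₀0 : ∀ α β p, |H₀ α β p| ≤ L ^ 5 := fun α β p => by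
    have h1 := abs_le.1 (hH₀G α β p)
    have h2 := abs_le.1 ((herr α β p).trans (inv_le_one_of_one_le₀ (one_le_pow₀ hy1)))
    have h3 := abs_le.1 (A.abs_pull_le (hA.low.mono (by norm_num : 1 ≤ 3) le_rfl) α β p)
    rw [abs_le]
    constructor <;> linarith [h1.1, h1.2, h2.1, h2.2, h3.1, h3.2]
  have hy8 : (1 : ℝ) ≤ y ^ 8 := one_le_pow₀ hy1
  have hH₀N : ∀ α β, A.NB n (H₀ α β) (5 * T * y ^ (8 * C + 8 * (n + 4))) := fun α β => by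
    have h1 := hA.highG n (by omega) α β
    have h2 := A.NB_pull hf hy8 (k := n) (fun j hj => hA.highf j (by omega)) α β
    have hp := (A.isTen_pull hf).sm α β
    have h3 := (h1.sub (hA.ten.sm α β) (hp.const_smul (σ ^ 2)) (h2.const_smul hp (σ ^ 2))).const_smul
      ((hA.ten.sm α β).sub (hp.const_smul (σ ^ 2))) (y ^ (8 * C))
    rw [hH₀]
    refine Atl.NB.mono h3 le_rfl ?_
    rw [abs_of_nonneg (by positivity), abs_of_nonneg (by positivity), ← hT, pow_add y, pow_mul y 8 (n + 4)]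
    have t1 : (y ^ 8) ^ (n + 1) ≤ (y ^ 8) ^ (n + 4) := pow_le_pow_right₀ hy8 (by omega)
    have t4 : (0 : ℝ) ≤ (y ^ 8) ^ (n + 4) := by positivity
    have t5 : σ ^ 2 * (4 * T * (y ^ 8) ^ (n + 4)) ≤ 4 * T * (y ^ 8) ^ (n + 4) :=
      mul_le_of_le_one_left (by positivity) hσ1
    have t6 : (y ^ 8) ^ (n + 4) ≤ T * (y ^ 8) ^ (n + 4) := le_mul_of_one_le_left t4 hT1
    calc y ^ (8 * C) * ((y ^ 8) ^ (n + 1) + σ ^ 2 * (4 * T * (y ^ 8) ^ (n + 4)))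
        ≤ y ^ (8 * C) * (5 * (T * (y ^ 8) ^ (n + 4))) :=
          mul_le_mul_of_nonneg_left (by linarith) (by positivity)
      _ = _ := by ring
  obtain ⟨H, hH, hHb, hHH⟩ := hten H₀ (y ^ 9)⁻¹ (L ^ 5) _ hH₀t hl0 hl1 (by positivity)
    (by positivity) hH₀0 hH₀N
  rw [← mul_assoc, stp_pow hy0 _ (b := 10 * C + 40) (by omega)] at hHH
  refine ⟨H, hH, fun r α β => (hHb r α β).mono le_rfl (le_of_eq ?_), ?_, fun α β p => ?_⟩
  · rw [inv_pow, div_inv_eq_mul]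
  · refine hA.pos.perturb hB fun α β p => ?_
    have h1 := hHH α β p
    have h2 := hH₀G α β p
    have h3 : c 0 * (5 * T) / y ^ (10 * C + 40) ≤ c 0 * (5 * T) / y :=
      div_le_div_of_nonneg_left hK0 hy0 (le_self_pow₀ hy1 (by omega))
    have h4 : c 0 * (5 * T) / y + y⁻¹ ≤ 1 / (4 * B) := by
      rw [inv_eq_one_div, ← add_div, div_le_div_iff₀ hy0 (by positivity)]
      have : 0 ≤ B * (1 + c 0 * (5 * T)) := by positivity
      linarith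
    calc |H α β p - G α β p| = |(H α β p - H₀ α β p) + (H₀ α β p - G α β p)| := by
          congr 1; ring
      _ ≤ _ := abs_add_le _ _
      _ ≤ _ := by linarith
  · have e : (y ^ (8 * C))⁻¹ * H α β p - (G α β p - σ ^ 2 * A.pull f α β p) =
        (y ^ (8 * C))⁻¹ * (H α β p - H₀ α β p) := by
      rw [hH₀]; field_simp
    rw [e, abs_mul, abs_of_pos hδ0]
    exact (mul_le_of_le_one_left (abs_nonneg _) hδ1).trans (hHH α β p)

theorem stp_fin (A : Atl M) {C Kk : ℕ} (hC : 30 ≤ C) {X K a y σ : ℝ} {f F U₁ U₂ : M → V4}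
    {G H : A.Ten} (hy2 : 2 ≤ y) (hX : 0 ≤ X) (hb1 : 48 * (X * X) ≤ y) (hb2 : 48 * a ≤ y)
    (hb5 : 6 * K ≤ y) (hb6 : 6 * X ≤ y) (hf : Sm f) (hF : Sm F) (hU₁ : Sm U₁) (hU₂ : Sm U₂)
    (hFf : A.NB 2 (F - σ • f) (a / y ^ (18 * C + 48)))
    (hHH : ∀ α β p, |(y ^ (8 * C))⁻¹ * H α β p - (G α β p - σ ^ 2 * A.pull f α β p)| ≤
      K / y ^ (10 * C + 40))
    (hU₁b : ∀ k ≤ max Kk 1, A.NB k U₁ (X * (y ^ 9)⁻¹ * y ^ (10 * k)))
    (hU₂b : ∀ k ≤ max Kk 1, A.NB k U₂ (X * y ^ (10 * k)))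
    (hE₁ : ∀ α β p, |A.sp (A.dd F) (A.dd U₁) α β p| ≤ X * (y ^ (10 * C + 21))⁻¹)
    (hE₂ : ∀ α β p, |A.pull U₁ α β p + A.sp (A.dd F) (A.dd U₂) α β p - H α β p| ≤
      X * (y ^ (10 * C + 21))⁻¹) :
    ∃ U : M → V4, Sm U ∧ (∀ k ≤ Kk, A.NB k U (y ^ (10 * k) / y ^ (4 * C))) ∧
      ∀ α β p, |G α β p - A.pull (σ • f + U) α β p| ≤ (y ^ (10 * (C + 2)))⁻¹ := by
  have hy1 : 1 ≤ y := by linarith
  have hy0 : 0 < y := by linarith
  have hf' : Sm (σ • f) := hf.const_smul σ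
  obtain ⟨ε, hε⟩ : ∃ ε : ℝ, ε = (y ^ (4 * C))⁻¹ := ⟨_, rfl⟩
  have hε0 : 0 < ε := by rw [hε]; positivity
  have hεn : ∀ n : ℕ, ε ^ n = (y ^ (4 * n * C))⁻¹ := fun n => by
    rw [hε, inv_pow, ← pow_mul, mul_right_comm]
  have hεy : ε ≤ y⁻¹ := hε ▸ inv_anti₀ hy0 (le_self_pow₀ hy1 (by omega))
  have hV₁ : Sm (ε • U₁) := hU₁.const_smul ε
  have hV₂ : Sm ((ε ^ 2) • U₂) := hU₂.const_smul _
  have hXy : X * y⁻¹ ≤ 1 / 2 := by rw [← div_eq_mul_inv, div_le_iff₀ hy0]; linarith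
  have hUk : ∀ k ≤ max Kk 1, A.NB k (ε • U₁ + (ε ^ 2) • U₂) (y ^ (10 * k) / y ^ (4 * C)) :=
    fun k hk => by
    refine Atl.NB.mono (((hU₁b k hk).const_smul hU₁ ε).add hV₁ hV₂
      ((hU₂b k hk).const_smul hU₂ (ε ^ 2))) le_rfl ?_
    rw [abs_of_pos hε0, abs_of_nonneg (by positivity), div_eq_mul_inv, ← hε]
    have t1 : X * (y ^ 9)⁻¹ ≤ 1 / 2 :=
      (mul_le_mul_of_nonneg_left (inv_anti₀ hy0 (le_self_pow₀ hy1 (by norm_num))) hX).trans hXy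
    have t2 : X * ε ≤ 1 / 2 := (mul_le_mul_of_nonneg_left hεy hX).trans hXy
    have t3 : 0 ≤ ε * y ^ (10 * k) := by positivity
    calc ε * (X * (y ^ 9)⁻¹ * y ^ (10 * k)) + ε ^ 2 * (X * y ^ (10 * k))
        = (X * (y ^ 9)⁻¹ + X * ε) * (ε * y ^ (10 * k)) := by ring
      _ ≤ 1 * (ε * y ^ (10 * k)) := mul_le_mul_of_nonneg_right (by linarith) t3
      _ = _ := by ring
  refine ⟨ε • U₁ + (ε ^ 2) • U₂, hV₁.add hV₂, fun k hk => hUk k (hk.trans (le_max_left _ _)),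
    fun α β p => ?_⟩
  have hid : G α β p - A.pull (σ • f + (ε • U₁ + (ε ^ 2) • U₂)) α β p =
      -(ε ^ 2 * H α β p - (G α β p - σ ^ 2 * A.pull f α β p))
      - ε * A.sp (A.dd F) (A.dd U₁) α β p
      - ε ^ 2 * (A.pull U₁ α β p + A.sp (A.dd F) (A.dd U₂) α β p - H α β p)
      - ε ^ 3 * A.sp (A.dd U₁) (A.dd U₂) α β p - ε ^ 4 * A.pull U₂ α β p
      + A.sp (A.dd (F - σ • f)) (A.dd (ε • U₁ + (ε ^ 2) • U₂)) α β p := by
    rw [A.pull_add hf' (hV₁.add hV₂), A.pull_add hV₁ hV₂, stp_sp_left A hf' hF,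
      A.sp_dd_add (A.dd F) hV₁ hV₂, A.pull_smul hf, A.pull_smul hU₁, A.pull_smul hU₂,
      stp_sp_smul A hU₁ hU₂]
    have a1 := stp_sp_smul A hF hU₁ 1 ε α β p
    have a2 := stp_sp_smul A hF hU₂ 1 (ε ^ 2) α β p
    rw [one_smul] at a1 a2
    rw [a1, a2]
    ring
  have hε1 : ε ≤ 1 := hεy.trans (inv_le_one_of_one_le₀ hy1)
  have hε21 : ε ^ 2 ≤ 1 := pow_le_one₀ hε0.le hε1
  have b1 : |ε ^ 2 * H α β p - (G α β p - σ ^ 2 * A.pull f α β p)| ≤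
      (y ^ (10 * (C + 2)))⁻¹ / 6 := by
    rw [hεn]
    refine (hHH α β p).trans ?_
    have := stp_key hy1 hb5 (a := 0) (b := 10 * C + 40) (d := 10 * (C + 2)) (by omega)
    rwa [pow_zero, mul_one] at this
  have k2 : X * (y ^ (10 * C + 21))⁻¹ ≤ (y ^ (10 * (C + 2)))⁻¹ / 6 := by
    have := stp_key hy1 hb6 (a := 0) (b := 10 * C + 21) (d := 10 * (C + 2)) (by omega)
    rwa [pow_zero, mul_one, div_eq_mul_inv] at this
  have b2 : |ε * A.sp (A.dd F) (A.dd U₁) α β p| ≤ (y ^ (10 * (C + 2)))⁻¹ / 6 := by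
    rw [abs_mul, abs_of_pos hε0]
    exact (mul_le_of_le_one_left (abs_nonneg _) hε1).trans ((hE₁ α β p).trans k2)
  have b3 : |ε ^ 2 * (A.pull U₁ α β p + A.sp (A.dd F) (A.dd U₂) α β p - H α β p)| ≤
      (y ^ (10 * (C + 2)))⁻¹ / 6 := by
    rw [abs_mul, abs_of_nonneg (by positivity)]
    exact (mul_le_of_le_one_left (abs_nonneg _) hε21).trans ((hE₂ α β p).trans k2)
  have n1 := hU₁b 1 (le_max_right _ _)
  have n2 := hU₂b 1 (le_max_right _ _)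
  rw [mul_one] at n1 n2
  have b4 : |ε ^ 3 * A.sp (A.dd U₁) (A.dd U₂) α β p| ≤ (y ^ (10 * (C + 2)))⁻¹ / 6 := by
    rw [abs_mul, abs_of_nonneg (by positivity)]
    refine (mul_le_mul_of_nonneg_left (A.abs_sp_le n1 n2 α β p) (by positivity)).trans ?_
    have := stp_key hy1 (K := 8 * (X * X)) (by linarith) (a := 11) (b := 4 * 3 * C)
      (d := 10 * (C + 2)) (by omega)
    refine le_trans (le_of_eq ?_) this
    rw [hεn]; generalize y ^ (4 * 3 * C) = w; field_simp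
  have b5 : |ε ^ 4 * A.pull U₂ α β p| ≤ (y ^ (10 * (C + 2)))⁻¹ / 6 := by
    rw [abs_mul, abs_of_nonneg (by positivity)]
    refine (mul_le_mul_of_nonneg_left (A.abs_pull_le n2 α β p) (by positivity)).trans ?_
    have hXX : 0 ≤ X * X := by positivity
    have := stp_key hy1 (K := 4 * (X * X)) (by linarith) (a := 20) (b := 4 * 4 * C)
      (d := 10 * (C + 2)) (by omega)
    refine le_trans (le_of_eq ?_) this
    rw [hεn]; generalize y ^ (4 * 4 * C) = w; ring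
  have b6 : |A.sp (A.dd (F - σ • f)) (A.dd (ε • U₁ + (ε ^ 2) • U₂)) α β p| ≤
      (y ^ (10 * (C + 2)))⁻¹ / 6 := by
    refine (A.abs_sp_le (hFf.mono (by norm_num) le_rfl) (hUk 1 (le_max_right _ _)) α β p).trans ?_
    have := stp_key hy1 (K := 8 * a) (by linarith) (a := 10) (b := 18 * C + 48 + 4 * C)
      (d := 10 * (C + 2)) (by omega)
    refine le_trans (le_of_eq ?_) this
    rw [pow_add y (18 * C + 48), mul_one]
    generalize y ^ (18 * C + 48) = w; generalize y ^ (4 * C) = w'; ring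
  rw [hid]
  rw [abs_le] at b1 b2 b3 b4 b5 b6 ⊢
  constructor <;> linarith [b1.1, b1.2, b2.1, b2.2, b3.1, b3.2, b4.1, b4.2, b5.1, b5.2, b6.1, b6.2]

/-- The step in terms of `y = Λ^(1/8)` and `κ = y^(1/(J+1))`. -/
theorem stp_nat (A : Atl M) (B : ℝ) (hB : 1 ≤ B) : ∃ J : ℕ, ∀ C : ℕ, 30 ≤ C → ∀ Kk : ℕ, ∃ n₁ : ℕ,
    1 ≤ n₁ ∧ ∀ (L y κ σ : ℝ) (f : M → V4) (G : A.Ten), A.Adm B L (y ^ 8) (18 * C + 72 + 2) f G →
      L ^ n₁ ≤ y → 1 ≤ κ → κ ^ (J + 1) = y → 0 ≤ σ → σ ^ 2 = 1 - (y ^ (8 * C))⁻¹ →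
      (∀ α β p, |G α β p - A.pull f α β p| ≤ (y ^ (8 * (C + 1)))⁻¹) →
      ∃ U : M → V4, Sm U ∧ (∀ k ≤ Kk, A.NB k U (y ^ (10 * k) / y ^ (4 * C))) ∧
        ∀ α β p, |G α β p - A.pull (σ • f + U) α β p| ≤ (y ^ (10 * (C + 2)))⁻¹ := by
  obtain ⟨J, hJ⟩ := coreStmt A (2 * B) (by linarith)
  refine ⟨J, fun C hC Kk => ?_⟩
  obtain ⟨c₁, hc₁, hmap⟩ := stp_map A C _ rfl
  obtain ⟨c₂, K, hc₂, hK, hten⟩ := stp_ten A C _ rfl
  obtain ⟨m, hm⟩ := hJ (fun r => c₁ r + c₂ r) 5 ((J + 1) * (10 * C + 21)) (max Kk 1)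
  obtain ⟨n₁, hn₁, habs⟩ := stp_absorb (48 + 48 * c₁ 0 + 16 * 27648 * c₁ 0 + 8 * B * (1 + K) + 6 * K)
    (2 * m + 6)
  refine ⟨n₁, hn₁, fun L y κ σ f G hA hLy hκ hκy hσ0 hσ herr => ?_⟩
  have hL := hA.two_le
  obtain ⟨hb1, hb2, hb3, hb4, hb5, hb6, hy2⟩ := stp_consts (hc₁ 0) hK hB hL (habs L y hL hLy)
  have hy1 : 1 ≤ y := by linarith
  have hy0 : 0 < y := by linarith
  have hL0 : 0 < L := by linarith
  have hδ1 : (y ^ (8 * C))⁻¹ ≤ 1 / 2 := by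
    rw [inv_le_comm₀ (by positivity) (by norm_num)]
    calc (1 / 2 : ℝ)⁻¹ = 2 := by norm_num
      _ ≤ y := hy2
      _ ≤ y ^ (8 * C) := le_self_pow₀ hy1 (by omega)
  have hδ0 : 0 < (y ^ (8 * C))⁻¹ := by positivity
  have hσa : |σ| ≤ 1 := (sq_le_one_iff_abs_le_one σ).1 (by linarith)
  obtain ⟨F, hF, hFb, hFf, hII⟩ := hmap B L y σ f G hA hy2 hb2 hb3 hσa (by linarith)
  obtain ⟨H, hH, hHb, hpos, hHH⟩ := hten B L y σ f G hB hA hy2 hb4 hσ herr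
  obtain ⟨U₁, U₂, hU₁, hU₂, hUb, hE₁, hE₂⟩ := hm L (y ^ 9) κ F H hL (one_le_pow₀ hy1) hκ hF
    (fun r => (hFb r).mono le_rfl (by
      have := hc₂ r
      gcongr
      linarith)) hII hH
    (fun r α β => (hHb r α β).mono le_rfl (by
      have := hc₁ r
      gcongr
      linarith)) hpos
  have hκ0 : 0 < κ := by linarith
  have hlam : y ^ 9 * κ ^ J ≤ y ^ 10 := by
    have : κ ^ J ≤ y := by rw [← hκy]; exact pow_le_pow_right₀ hκ (by omega)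
    calc y ^ 9 * κ ^ J ≤ y ^ 9 * y := by gcongr
      _ = y ^ 10 := by ring
  have e3 : κ⁻¹ ^ ((J + 1) * (10 * C + 21)) = (y ^ (10 * C + 21))⁻¹ := by
    rw [inv_pow, pow_mul, hκy]
  rw [e3] at hE₁ hE₂
  exact stp_fin A hC hy2 (by positivity) hb1 hb2 hb5 hb6 hA.sm hF hU₁ hU₂ hFf hHH
    (fun k hk => (hUb k hk).1.mono le_rfl (by rw [pow_mul]; gcongr))
    (fun k hk => (hUb k hk).2.mono le_rfl (by rw [pow_mul]; gcongr)) hE₁ hE₂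

theorem stepStmt (A : Atl M) : A.StepStmt := by
  intro B hB
  obtain ⟨J, hJ⟩ := stp_nat A B hB
  refine ⟨30, fun C hC => ⟨18 * C + 72 + 2, fun Kk => ?_⟩⟩
  obtain ⟨n₁, hn₁, h⟩ := hJ C hC Kk
  refine ⟨8 * n₁, fun L Λ f G hA hLΛ herr => ?_⟩
  have hL := hA.two_le
  have hΛ1 : 1 ≤ Λ := (one_le_pow₀ (by linarith)).trans hLΛ
  have hΛ0 : 0 < Λ := by linarith
  set y : ℝ := Λ ^ (1 / 8 : ℝ) with hy
  have hy1 : 1 ≤ y := Real.one_le_rpow hΛ1 (by norm_num)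
  have hyn : ∀ n : ℕ, y ^ n = Λ ^ ((n : ℝ) / 8) := fun n => by
    rw [hy, ← Real.rpow_natCast, ← Real.rpow_mul hΛ0.le]; congr 1; ring
  have hy8 : y ^ 8 = Λ := by rw [hyn]; norm_num
  have hLy : L ^ n₁ ≤ y := by
    refine le_of_pow_le_pow_left₀ (n := 8) (by norm_num) (by linarith) ?_
    rw [hy8, ← pow_mul, mul_comm]; exact hLΛ
  have hδ : Λ ^ (-(C : ℝ)) = (y ^ (8 * C))⁻¹ := by
    rw [hyn, Real.rpow_neg hΛ0.le]; congr 2; push_cast; ring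
  have hδ1 : Λ ^ (-(C : ℝ)) ≤ 1 :=
    Real.rpow_le_one_of_one_le_of_nonpos hΛ1 (by simp)
  obtain ⟨U, hU, hUb, hE⟩ := h L y (y ^ (1 / ((J : ℝ) + 1))) (Real.sqrt (1 - Λ ^ (-(C : ℝ)))) f G
    (by rw [hy8]; exact hA) hLy (Real.one_le_rpow hy1 (by positivity))
    (by
      rw [← Real.rpow_natCast, ← Real.rpow_mul (by linarith)]
      have : 1 / ((J : ℝ) + 1) * ((J + 1 : ℕ) : ℝ) = 1 := by push_cast; field_simp
      rw [this, Real.rpow_one])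
    (Real.sqrt_nonneg _) (by rw [Real.sq_sqrt (by linarith), hδ])
    (fun α β p => (herr α β p).trans (le_of_eq (by
      rw [hyn, Real.rpow_neg hΛ0.le]; congr 2; push_cast; ring)))
  refine ⟨U, hU, fun k hk => (hUb k hk).mono le_rfl (le_of_eq ?_), fun α β p =>
    (hE α β p).trans (le_of_eq ?_)⟩
  · rw [hyn, hyn, ← Real.rpow_sub hΛ0]; congr 1; push_cast; ring
  · rw [hyn, Real.rpow_neg hΛ0.le]; congr 2; push_cast; ring

end Crest.Agent.R216
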