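import Crest.Agent.R216.AtlEx
import Crest.Agent.R216.Limit
import Crest.Agent.R216.Step
import Crest.Agent.R216.Iter
import Crest.Agent.R216.Cover
import Crest.Agent.R216.Imm3
import Crest.Agent.R216.Approx
import Crest.Agent.R216.Stage
import Crest.Agent.R216.Loc

/-!
# R216: assembly
-/

set_option autoImplicit false
set_option linter.unusedSectionVars false

open scoped Manifold ContDiff Topology
open Matrix

noncomputable section

namespace Crest.Agent.R216

variable {M : Type*} [TopologicalSpace M] [T2Space M] [CompactSpace M] [ChartedSpace E2 M]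
  [IsManifold (𝓡 2) ∞ M]

theorem exists_isometric (A : Atl M) {G : A.Ten} (hG : A.IsTen G) (hp : A.PosDef G) :
    ∃ f : M → V4, Sm f ∧ ∀ α β p, A.pull f α β p = G α β p := by
  obtain ⟨C, f, c, h0⟩ := exists_inv_zero A (imm3Stmt A) (coverStmt A) hG hp
  have hT := tStmt_of A (stepStmt A) (limitStmt A)
  have hA := approx_of_loc C locStmt
  have key : ∀ j : ℕ, j ≤ C.m → ∃ (f : M → V4) (c : Fin C.m → M → ℝ), C.Inv G j f c := by
    intro j
    induction j with
    | zero => exact fun _ => ⟨f, c, h0⟩
    | succ j ih =>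
      intro hj
      obtain ⟨f, c, h⟩ := ih (by omega)
      exact inv_succ C hT hA ⟨j, by omega⟩ h
  obtain ⟨f, c, h⟩ := key C.m le_rfl
  refine ⟨f, h.sm, fun α β p => ?_⟩
  rw [← h.exact α β p]
  have : C.rest c C.m α β p = 0 :=
    Finset.sum_eq_zero fun k _ => if_neg (by have := k.2; omega)
  rw [this, add_zero]

end Crest.Agent.R216
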