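import Crest.Agent.R216.Api4

/-!
# R216: the ring of smooth functions periodic in `θ`
-/

set_option autoImplicit false
set_option linter.unusedSectionVars false

open scoped Manifold ContDiff Topology
open Matrix

noncomputable section

namespace Crest.Agent.R216

open Real

section

variable (P : Type) [NormedAddCommGroup P] [NormedSpace ℝ P]

/-- Smooth functions of `(z, θ)`, `2π`-periodic in `θ`. -/
def Per : Subalgebra ℝ (P × ℝ → ℝ) where
  carrier := {F | ContDiff ℝ ∞ F ∧ ∀ z θ, F (z, θ + 2 * π) = F (z, θ)}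
  mul_mem' := fun ha hb => ⟨ha.1.mul hb.1, fun z θ => by simp [ha.2 z θ, hb.2 z θ]⟩
  add_mem' := fun ha hb => ⟨ha.1.add hb.1, fun z θ => by simp [ha.2 z θ, hb.2 z θ]⟩
  algebraMap_mem' := fun _ => ⟨contDiff_const, fun _ _ => rfl⟩

end

namespace Per

variable {P : Type} [NormedAddCommGroup P] [NormedSpace ℝ P]
variable {P' : Type} [NormedAddCommGroup P'] [NormedSpace ℝ P']

theorem sm (F : Per P) : ContDiff ℝ ∞ F.1 := F.2.1
theorem per (F : Per P) (z : P) (θ : ℝ) : F.1 (z, θ + 2 * π) = F.1 (z, θ) := F.2.2 z θ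

@[ext] theorem ext' {F G : Per P} (h : ∀ z θ, F.1 (z, θ) = G.1 (z, θ)) : F = G :=
  Subtype.ext (funext fun q => h q.1 q.2)

/-- Evaluation at a point, as an algebra map (use `map_add`, `map_mul`, `map_sum`). -/
def ev (q : P × ℝ) : Per P →ₐ[ℝ] ℝ := (Pi.evalAlgHom ℝ (fun _ : P × ℝ => ℝ) q).comp (Per P).val

@[simp] theorem ev_apply (q : P × ℝ) (F : Per P) : ev q F = F.1 q := rfl

/-- Value of a vector of elements of `Per P`. -/
def vev (V : Fin 4 → Per P) (q : P × ℝ) : V4 := fun i => (V i).1 q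

theorem dot_val (V W : Fin 4 → Per P) (q : P × ℝ) : (V ⬝ᵥ W).1 q = vev V q ⬝ᵥ vev W q := by
  simp [dotProduct, vev, Fin.sum_univ_four]

/-- `θ`-independent elements. -/
def cst (u : P → ℝ) (hu : ContDiff ℝ ∞ u) : Per P :=
  ⟨fun q => u q.1, hu.comp contDiff_fst, fun _ _ => rfl⟩

def vcst (u : P → V4) (hu : ContDiff ℝ ∞ u) : Fin 4 → Per P :=
  fun i => cst (fun z => u z i) (contDiff_pi.1 hu i)

@[simp] theorem cst_val (u : P → ℝ) (hu : ContDiff ℝ ∞ u) (q : P × ℝ) : (cst u hu).1 q = u q.1 :=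
  rfl

@[simp] theorem vev_vcst (u : P → V4) (hu : ContDiff ℝ ∞ u) (q : P × ℝ) :
    vev (vcst u hu) q = u q.1 := rfl

/-- Smoothness of `fderiv`, and `F ∘ (· + (0, 2π)) = F`. -/
theorem pd_mem (v : P × ℝ) (F : Per P) : (fun q => fderiv ℝ F.1 q v) ∈ Per P := by
  refine ⟨((sm F).fderiv_right (m := ∞) (by simp)).clm_apply contDiff_const, fun z θ => ?_⟩
  have h : (fun q : P × ℝ => F.1 (q + (0, 2 * π))) = F.1 := funext fun q => by
    have := per F q.1 q.2
    rwa [show q + (0, 2 * π) = (q.1, q.2 + 2 * π) from Prod.ext (add_zero _) rfl]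
  have h2 := fderiv_comp_add_right (𝕜 := ℝ) (f := F.1) (x := (z, θ)) (0, 2 * π)
  rw [h, Prod.mk_add_mk, add_zero] at h2
  beta_reduce
  rw [h2]

theorem per_diff (F : Per P) : Differentiable ℝ F.1 := (sm F).differentiable (by simp)

/-- Directional derivative. -/
def pd (v : P × ℝ) : Derivation ℝ (Per P) (Per P) :=
  Derivation.mk'
    { toFun := fun F => ⟨fun q => fderiv ℝ F.1 q v, pd_mem v F⟩
      map_add' := fun F G => Subtype.ext (funext fun q => by
        change fderiv ℝ (F.1 + G.1) q v = fderiv ℝ F.1 q v + fderiv ℝ G.1 q v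
        rw [fderiv_add (per_diff F q) (per_diff G q)]; rfl)
      map_smul' := fun c F => Subtype.ext (funext fun q => by
        change fderiv ℝ (c • F.1) q v = c • fderiv ℝ F.1 q v
        rw [fderiv_const_smul (per_diff F q)]; rfl) }
    (fun F G => Subtype.ext (funext fun q => by
      change fderiv ℝ (F.1 * G.1) q v = F.1 q * fderiv ℝ G.1 q v + G.1 q * fderiv ℝ F.1 q v
      rw [fderiv_mul (per_diff F q) (per_diff G q)]; rfl))

theorem pd_val (v : P × ℝ) (F : Per P) (q : P × ℝ) : (pd v F).1 q = fderiv ℝ F.1 q v := rfl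

/-- `∂/∂θ`. -/
abbrev Th : Derivation ℝ (Per P) (Per P) := pd (0, 1)

theorem pd_comm (v v' : P × ℝ) (F : Per P) : pd v (pd v' F) = pd v' (pd v F) := by
  refine Subtype.ext (funext fun q => ?_)
  have hd : DifferentiableAt ℝ (fderiv ℝ F.1) q :=
    ((sm F).fderiv_right (m := ∞) (by simp)).differentiable (by simp) q
  have e : ∀ u u' : P × ℝ, fderiv ℝ (fun q => fderiv ℝ F.1 q u') q u = fderiv ℝ (fderiv ℝ F.1) q u u' := by
    intro u u'
    rw [fderiv_clm_apply hd (differentiableAt_const _)]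
    simp
  change fderiv ℝ (fun q => fderiv ℝ F.1 q v') q v = fderiv ℝ (fun q => fderiv ℝ F.1 q v) q v'
  rw [e, e]
  exact ((sm F).contDiffAt.isSymmSndFDerivAt (by simp; exact WithTop.coe_le_coe.2 le_top)).eq v v'

theorem per_hasDerivAt (F : Per P) (z : P) (θ : ℝ) :
    HasDerivAt (fun t => F.1 (z, t)) ((Th F).1 (z, θ)) θ :=
  (per_diff F (z, θ)).hasFDerivAt.comp_hasDerivAt θ ((hasDerivAt_const θ z).prodMk (hasDerivAt_id θ))

theorem Th_val (F : Per P) (z : P) (θ : ℝ) : (Th F).1 (z, θ) = deriv (fun t => F.1 (z, t)) θ := by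
  exact (per_hasDerivAt F z θ).deriv.symm

theorem hasDerivAt_Th (F : Per P) (z : P) (θ : ℝ) :
    HasDerivAt (fun t => F.1 (z, t)) ((Th F).1 (z, θ)) θ := by
  exact per_hasDerivAt F z θ

theorem pd_cst (v : P) (t : ℝ) (u : P → ℝ) (hu : ContDiff ℝ ∞ u) (q : P × ℝ) :
    (pd (v, t) (cst u hu)).1 q = fderiv ℝ u q.1 v := by
  have h := ((hu.differentiable (by simp) q.1).hasFDerivAt.comp q hasFDerivAt_fst).fderiv
  exact congrArg (fun L : P × ℝ →L[ℝ] ℝ => L (v, t)) h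

theorem Th_cst (u : P → ℝ) (hu : ContDiff ℝ ∞ u) : Th (cst u hu) = 0 := by
  refine Subtype.ext (funext fun q => ?_)
  rw [pd_cst, map_zero]; rfl

theorem Th_eq_zero_iff (F : Per P) : Th F = 0 ↔ ∀ z θ, F.1 (z, θ) = F.1 (z, 0) := by
  constructor
  · intro h z θ
    refine is_const_of_deriv_eq_zero (f := fun t => F.1 (z, t))
      (fun t => (per_hasDerivAt F z t).differentiableAt) (fun t => ?_) θ 0
    rw [← Th_val, h]; rfl
  · intro h
    ext z θ
    rw [Th_val, funext (h z), deriv_const]; rfl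

/-- Locality: elements that agree on `Ω × ℝ` (`Ω` open) have the same derivatives there. -/
theorem pd_congr (v : P × ℝ) {F G : Per P} {Ω : Set P} (hΩ : IsOpen Ω)
    (h : ∀ z ∈ Ω, ∀ θ, F.1 (z, θ) = G.1 (z, θ)) :
    ∀ z ∈ Ω, ∀ θ, (pd v F).1 (z, θ) = (pd v G).1 (z, θ) := by
  intro z hz θ
  have : F.1 =ᶠ[𝓝 (z, θ)] G.1 := by
    filter_upwards [(hΩ.preimage continuous_fst).mem_nhds (show (z, θ) ∈ Prod.fst ⁻¹' Ω from hz)]
      with q hq using h q.1 hq q.2
  rw [pd_val, pd_val, this.fderiv_eq]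

/-- Composition with a function that is smooth on an open set containing the range. -/
theorem comp_mem (F : Per P) {Φ : ℝ → ℝ} {s : Set ℝ} (hs : IsOpen s) (hΦ : ContDiffOn ℝ ∞ Φ s)
    (h : ∀ q, F.1 q ∈ s) : (fun q => Φ (F.1 q)) ∈ Per P := by
  have _ := hs
  exact ⟨hΦ.comp_contDiff (sm F) h, fun z θ => congrArg Φ (per F z θ)⟩

theorem per_phase (θ : ℝ) : ∃ θ' ∈ Set.Icc 0 (2 * π), cos θ' = cos θ ∧ sin θ' = sin θ ∧
    ∀ (F : Per P) (z : P), F.1 (z, θ') = F.1 (z, θ) := by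
  have h := toIcoMod_mem_Ico' two_pi_pos θ
  refine ⟨toIcoMod two_pi_pos 0 θ, ⟨h.1, h.2.le⟩, cos_periodic.sub_zsmul_eq _,
    sin_periodic.sub_zsmul_eq _, fun F z => ?_⟩
  exact Function.Periodic.sub_zsmul_eq (f := fun t => F.1 (z, t)) (per F z) _

/-- Inverse of a nowhere vanishing element. -/
def inv (F : Per P) (h : ∀ q, F.1 q ≠ 0) : Per P :=
  ⟨fun q => (F.1 q)⁻¹, (sm F).inv h, fun z θ => by simp [per F z θ]⟩

theorem inv_mul (F : Per P) (h : ∀ q, F.1 q ≠ 0) : inv F h * F = 1 :=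
  Subtype.ext (funext fun q => inv_mul_cancel₀ (h q))

/-- An element that does not vanish on `K × ℝ` (`K` compact) has an inverse near `K × ℝ`: `|F| ≥ m > 0`
there (periodicity), compose with a smooth `Φ` equal to `t⁻¹` for `|t| ≥ m/2`. If `F` does not depend
on `θ`, neither does the inverse. -/
theorem exists_inv_on {K : Set P} (hK : IsCompact K) (F : Per P) (h : ∀ z ∈ K, ∀ θ, F.1 (z, θ) ≠ 0) :
    ∃ G : Per P, (∀ z ∈ K, ∀ θ, G.1 (z, θ) * F.1 (z, θ) = 1) ∧ (Th F = 0 → Th G = 0) := by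
  obtain ⟨m, hm, hF⟩ := (hK.prod (isCompact_Icc (a := (0 : ℝ)) (b := 2 * π))).exists_forall_le'
    (f := fun q => F.1 q ^ 2) (a := 0) ((sm F).continuous.pow 2).continuousOn
    fun q hq => sq_pos_of_ne_zero (h q.1 hq.1 q.2)
  have hΦ : ContDiff ℝ ∞ fun t : ℝ => t / (t ^ 2 + expNegInvGlue (m - t ^ 2)) := by
    refine contDiff_id.div ((contDiff_id.pow 2).add (expNegInvGlue.contDiff.comp
      (contDiff_const.sub (contDiff_id.pow 2)))) fun t => ne_of_gt ?_
    rcases eq_or_ne t 0 with rfl | ht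
    · simpa using expNegInvGlue.pos_of_pos hm
    · exact add_pos_of_pos_of_nonneg (sq_pos_of_ne_zero ht) (expNegInvGlue.nonneg _)
  refine ⟨⟨_, comp_mem F isOpen_univ hΦ.contDiffOn fun _ => trivial⟩, fun z hz θ => ?_, fun h0 => ?_⟩
  · obtain ⟨θ', h1, -, -, h2⟩ := per_phase (P := P) θ
    have h3 := hF (z, θ') ⟨hz, h1⟩
    rw [h2] at h3
    have h4 := h z hz θ
    change F.1 (z, θ) / (F.1 (z, θ) ^ 2 + expNegInvGlue (m - F.1 (z, θ) ^ 2)) * F.1 (z, θ) = 1
    rw [expNegInvGlue.zero_of_nonpos (sub_nonpos.2 h3), add_zero]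
    field_simp
  · rw [Th_eq_zero_iff] at h0 ⊢
    intro z θ
    change (fun t : ℝ => t / (t ^ 2 + expNegInvGlue (m - t ^ 2))) (F.1 (z, θ)) = _
    rw [h0 z θ]

/-- Bounded on `K × ℝ`. -/
theorem exists_bound {K : Set P} (hK : IsCompact K) (F : Per P) :
    ∃ C, 0 ≤ C ∧ ∀ z ∈ K, ∀ θ, |F.1 (z, θ)| ≤ C := by
  obtain ⟨C, hC⟩ := (hK.prod (isCompact_Icc (a := (0 : ℝ)) (b := 2 * π))).exists_bound_of_continuousOn
    (sm F).continuous.continuousOn
  refine ⟨max C 0, le_max_right _ _, fun z hz θ => ?_⟩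
  obtain ⟨θ', h1, -, -, h2⟩ := per_phase (P := P) θ
  rw [← h2]
  exact (hC (z, θ') ⟨hz, h1⟩).trans (le_max_left _ _)

/-- Reduction of the phase to `[0, 2π]`, simultaneously for all elements. -/
theorem exists_phase (θ : ℝ) : ∃ θ' ∈ Set.Icc 0 (2 * π), cos θ' = cos θ ∧ sin θ' = sin θ ∧
    ∀ (F : Per P) (z : P), F.1 (z, θ') = F.1 (z, θ) := by
  exact per_phase θ

/-- Substitution of the parameters. -/
def sub (j : P' → P) (hj : ContDiff ℝ ∞ j) : Per P →ₐ[ℝ] Per P' where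
  toFun F := ⟨fun q => F.1 (j q.1, q.2),
    (sm F).comp ((hj.comp contDiff_fst).prodMk contDiff_snd), fun z θ => per F (j z) θ⟩
  map_one' := rfl
  map_mul' _ _ := rfl
  map_zero' := rfl
  map_add' _ _ := rfl
  commutes' _ := rfl

@[simp] theorem sub_val (j : P' → P) (hj : ContDiff ℝ ∞ j) (F : Per P) (q : P' × ℝ) :
    (sub j hj F).1 q = F.1 (j q.1, q.2) := rfl

/-- Chain rule for the substitution. -/
theorem pd_sub (j : P' → P) (hj : ContDiff ℝ ∞ j) (v : P') (t : ℝ) (F : Per P) (q : P' × ℝ) :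
    (pd (v, t) (sub j hj F)).1 q = (pd (fderiv ℝ j q.1 v, t) F).1 (j q.1, q.2) := by
  have h := ((per_diff F (j q.1, q.2)).hasFDerivAt.comp q
    (((hj.differentiable (by simp) q.1).hasFDerivAt.comp q hasFDerivAt_fst).prodMk
      hasFDerivAt_snd)).fderiv
  exact congrArg (fun L : P' × ℝ →L[ℝ] ℝ => L (v, t)) h

theorem Th_sub (j : P' → P) (hj : ContDiff ℝ ∞ j) (F : Per P) :
    Th (sub j hj F) = sub j hj (Th F) := by
  refine Subtype.ext (funext fun q => ?_)
  rw [pd_sub, map_zero]; rfl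

theorem pd_add (v v' : P × ℝ) (F : Per P) : pd (v + v') F = pd v F + pd v' F := by
  exact Subtype.ext (funext fun q => map_add (fderiv ℝ F.1 q) v v')

theorem pd_smul (c : ℝ) (v : P × ℝ) (F : Per P) : pd (c • v) F = c • pd v F := by
  exact Subtype.ext (funext fun q => map_smul (fderiv ℝ F.1 q) c v)

end Per

end Crest.Agent.R216
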