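import Crest.Agent.R216.Flat
import Crest.Agent.R216.Formal
import Crest.Agent.R216.Loop2

/-!
# R216: the formal series for the concrete data

PLAN. `I = {G : Per R2 | ∀ z θ, 0 < s z → G (z,θ) = 0}` is an ideal stable under `Xp, Yp, Th` (`pd_congr`, the set `{0 < s}` is open), `mean`, `prim` (`mean_congr`, `prim_congr`).
`R = Per R2 ⧸ I`, `π = Ideal.Quotient.mkₐ ℝ I`; derivations by `Derivation.liftOfSurjective`, linear maps by `Submodule.mapQ`/`liftQ` (restrict scalars to `ℝ`), `W m = (flatIdeal m).map π`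
(`Ideal.mem_map_iff_of_surjective`). Build `DAlg R` (`Flat.*`, `Per2`) and `FData` (images of the frame, of `F.loop τ Cσ`, of `K`; identities that hold on `F.Ω` or on the disk hold in `R`;
`ib, iΩ` from `exists_inv_on` on the compact disk (`|b|² > 0` by `imm`), `ic, ir, ip, in2` from `Per.inv`; `Loop2`; `u1 - 1 = -2 sig²` is flat). Take `e = π (-(C • (aP * c2)))`, `mean c2 = 0` (`c2 = Th (sin 2θ / 2)` or parity-free integration).
Lift `U n i`, `k n` to flat elements (for `n = 0` use `aP • Vh` itself). An identity `x = y` in `Per R2` follows from `π x = π y` and `x = y` on `{s ≤ 0}`; there all `U n`, `k n`, `aP` and their derivatives vanish (`Flat.van`), so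
`PP 0 = fx`, `QQ 0 = b`, `PP (n+1) = QQ (n+1) = 0` pointwise. `π` commutes with `PP`, `QQ`, `conv`, `rhs`.
-/

set_option autoImplicit false
set_option linter.unusedSectionVars false

open scoped Manifold ContDiff Topology
open Matrix

noncomputable section

namespace Crest.Agent.R216

open Real Per

section Gen

variable {A R : Type} [CommRing A] [Algebra ℝ A] [CommRing R] [Algebra ℝ R] (pr : A →ₐ[ℝ] R)

theorem ps_lin (hs : Function.Surjective pr) (T : A →ₗ[ℝ] A) (h : ∀ x, pr x = 0 → pr (T x) = 0) :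
    ∃ T' : R →ₗ[ℝ] R, ∀ x, T' (pr x) = pr (T x) := by
  have key : ∀ x y, pr x = pr y → pr (T x) = pr (T y) := fun x y e => by
    have := h (x - y) (by rw [map_sub, e, sub_self])
    rwa [map_sub, map_sub, sub_eq_zero] at this
  have hσ := Function.surjInv_eq hs
  refine ⟨⟨⟨fun r => pr (T (Function.surjInv hs r)), fun r s => ?_⟩, fun c r => ?_⟩,
    fun x => key _ _ (hσ _)⟩
  · rw [← map_add, ← map_add]
    exact key _ _ (by rw [map_add, hσ, hσ, hσ])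
  · simp only [RingHom.id_apply]
    rw [← map_smul, ← map_smul]
    exact key _ _ (by rw [map_smul, hσ, hσ])

theorem ps_der (hs : Function.Surjective pr) (D : Derivation ℝ A A)
    (h : ∀ x, pr x = 0 → pr (D x) = 0) : ∃ D' : Derivation ℝ R R, ∀ x, D' (pr x) = pr (D x) := by
  obtain ⟨T, hT⟩ := ps_lin pr hs D.toLinearMap h
  refine ⟨Derivation.mk' T fun a b => ?_, hT⟩
  obtain ⟨x, rfl⟩ := hs a
  obtain ⟨y, rfl⟩ := hs b
  rw [← map_mul, hT, hT, hT]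
  simp [Derivation.leibniz]

/-- Image of a vector. -/
def psv (V : Fin 4 → A) : Fin 4 → R := fun i => pr (V i)

theorem psv_add (V W : Fin 4 → A) : psv pr V + psv pr W = psv pr (V + W) :=
  funext fun _ => (map_add pr _ _).symm

theorem psv_smul (c : A) (V : Fin 4 → A) : pr c • psv pr V = psv pr (c • V) :=
  funext fun _ => (map_mul pr _ _).symm

theorem psv_zero : psv pr 0 = 0 := funext fun _ => map_zero pr

theorem psv_dot (V W : Fin 4 → A) : psv pr V ⬝ᵥ psv pr W = pr (V ⬝ᵥ W) := by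
  simp only [dotProduct, psv, map_sum, map_mul]

theorem psv_vD {D : Derivation ℝ A A} {D' : Derivation ℝ R R} (h : ∀ x, D' (pr x) = pr (D x))
    (V : Fin 4 → A) : vD D' (psv pr V) = psv pr (vD D V) := funext fun _ => h _

theorem psv_PP {X Θ : Derivation ℝ A A} {X' Θ' : Derivation ℝ R R} (hX : ∀ x, X' (pr x) = pr (X x))
    (hΘ : ∀ x, Θ' (pr x) = pr (Θ x)) (fx : Fin 4 → A) (U : ℕ → Fin 4 → A) :
    PP X' Θ' (psv pr fx) (fun n => psv pr (U n)) = fun n => psv pr (PP X Θ fx U n) := by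
  funext n
  cases n <;> simp only [PP, psv_vD pr hX, psv_vD pr hΘ, psv_add]

theorem psv_QQ {Y : Derivation ℝ A A} {Y' : Derivation ℝ R R} (hY : ∀ x, Y' (pr x) = pr (Y x))
    (b : Fin 4 → A) (U : ℕ → Fin 4 → A) :
    QQ Y' (psv pr b) (fun n => psv pr (U n)) = fun n => psv pr (QQ Y b U n) := by
  funext n
  cases n <;> simp only [QQ, psv_vD pr hY]

theorem psv_conv (P Q : ℕ → Fin 4 → A) (n : ℕ) :
    conv (fun n => psv pr (P n)) (fun n => psv pr (Q n)) n = pr (conv P Q n) := by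
  simp only [conv, psv_dot, map_sum]

theorem psv_rhs (g H : A) (k : ℕ → A) (n : ℕ) :
    rhs (pr g) (fun n => pr (k n)) (pr H) n = pr (rhs g k H n) := by
  cases n <;> simp only [rhs, map_mul]

theorem ps_dot_left (J : Ideal A) {V : Fin 4 → A} (h : ∀ i, V i ∈ J) (W : Fin 4 → A) :
    V ⬝ᵥ W ∈ J := sum_mem fun i _ => J.mul_mem_right _ (h i)

theorem ps_dot_right (J : Ideal A) (V : Fin 4 → A) {W : Fin 4 → A} (h : ∀ i, W i ∈ J) :
    V ⬝ᵥ W ∈ J := sum_mem fun i _ => J.mul_mem_left _ (h i)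

theorem ps_conv_mem (J : Ideal A) {P Q : ℕ → Fin 4 → A} {g : A} (H : A) {k : ℕ → A}
    (hP : ∀ n i, P (n + 1) i ∈ J) (hQ : ∀ n i, Q (n + 1) i ∈ J) (h0 : P 0 ⬝ᵥ Q 0 - g ∈ J)
    (hk : ∀ n, k n ∈ J) (n : ℕ) : conv P Q n - rhs g k H n ∈ J := by
  cases n with
  | zero => simpa only [conv, rhs, zero_add, Finset.sum_range_one, Nat.sub_self] using h0
  | succ n =>
    refine sub_mem (sum_mem fun i _ => ?_) (J.mul_mem_right _ (hk n))
    cases i with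
    | zero => exact ps_dot_right J _ (hQ n)
    | succ i => exact ps_dot_left J (hP i) _

theorem ps_inv {D : Derivation ℝ A A} {u v : A} (h : v * u = 1) (hu : D u = 0) : D v = 0 := by
  have h1 := congrArg D h
  rw [formal_mul, hu, mul_zero, zero_add, Derivation.map_one_eq_zero] at h1
  linear_combination v * h1 - D v * h

theorem ps_quot (I : Ideal A) : ∃ (R : Type) (_ : CommRing R) (_ : Algebra ℝ R) (pr : A →ₐ[ℝ] R),
    Function.Surjective pr ∧ ∀ x, pr x = 0 ↔ x ∈ I :=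
  ⟨A ⧸ I, inferInstance, inferInstance, Ideal.Quotient.mkₐ ℝ I, Ideal.Quotient.mkₐ_surjective ℝ I,
    fun _ => Ideal.Quotient.eq_zero_iff_mem⟩

end Gen

theorem ps_mean_c2 : mean c2 = 0 := by
  ext z θ
  show (2 * π)⁻¹ * ∫ t in (0 : ℝ)..(2 * π), cos (2 * t) = 0
  rw [intervalIntegral.integral_comp_mul_left (fun t => cos t) two_ne_zero, integral_cos, mul_zero,
    sin_zero, show 2 * (2 * π) = 2 * π + 2 * π by ring, sin_add_two_pi, sin_two_pi]
  simp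

namespace LocData

variable {ι : Type} [Fintype ι] {L : LocData ι}

section Quot

variable {R : Type} [CommRing R] [Algebra ℝ R] (L) (pr : Per R2 →ₐ[ℝ] R)

/-- `pr` is the quotient by the functions vanishing over the open disk. -/
structure PsQ : Prop where
  surj : Function.Surjective pr
  ker : ∀ x, pr x = 0 ↔ ∀ z, 0 < L.s z → ∀ θ, x.1 (z, θ) = 0

/-- `D` is the image of the structure on `Per R2`. -/
structure PsD (ψ : R2 → ℝ) (hψ : ContDiff ℝ ∞ ψ) (D : DAlg R) : Prop where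
  X : ∀ x, D.X (pr x) = pr (Xp ψ hψ x)
  Y : ∀ x, D.Y (pr x) = pr (Yp ψ hψ x)
  Θ : ∀ x, D.Θ (pr x) = pr (Th x)
  mean : ∀ x, D.mean (pr x) = pr (mean x)
  W1 : ∀ r, r ∈ D.W1 ↔ ∃ x, L.Flat 1 x ∧ pr x = r
  a : D.a = pr L.aP

variable {L pr}

theorem PsQ.eq (h : L.PsQ pr) {x y : Per R2} (e : ∀ z, 0 < L.s z → ∀ θ, x.1 (z, θ) = y.1 (z, θ)) :
    pr x = pr y := by
  rw [← sub_eq_zero, ← map_sub, h.ker]
  exact fun z hz θ => sub_eq_zero.2 (e z hz θ)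

theorem PsQ.inj (h : L.PsQ pr) {x y : Per R2} (e : pr x = pr y) (hf : L.Flat 1 (x - y)) : x = y := by
  rw [← sub_eq_zero, ← map_sub, h.ker] at e
  rw [← sub_eq_zero]
  ext z θ
  rcases lt_or_ge 0 (L.s z) with hz | hz
  · exact e z hz θ
  · exact hf.van le_rfl hz θ

theorem PsQ.dalg (h : L.PsQ pr) (ψ : R2 → ℝ) (hψ : ContDiff ℝ ∞ ψ) :
    ∃ D : DAlg R, L.PsD pr ψ hψ D := by
  have hO : IsOpen {z | 0 < L.s z} := isOpen_lt continuous_const L.s_sm.continuous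
  have hs := h.surj
  obtain ⟨X, hX⟩ := ps_der pr hs (Xp ψ hψ) fun x hx => (h.eq fun z hz θ =>
    Xp_congr ψ hψ (G := 0) hO ((h.ker x).1 hx) z hz θ).trans (by rw [map_zero, map_zero])
  obtain ⟨Y, hY⟩ := ps_der pr hs (Yp ψ hψ) fun x hx => (h.eq fun z hz θ =>
    Yp_congr ψ hψ (G := 0) hO ((h.ker x).1 hx) z hz θ).trans (by rw [map_zero, map_zero])
  obtain ⟨Θ, hΘ⟩ := ps_der pr hs Th fun x hx => (h.eq fun z hz θ =>
    pd_congr (0, 1) (G := 0) hO ((h.ker x).1 hx) z hz θ).trans (by rw [map_zero, map_zero])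
  obtain ⟨m, hm⟩ := ps_lin pr hs mean fun x hx => (h.eq fun z hz θ =>
    mean_congr (G := 0) ((h.ker x).1 hx z hz) θ).trans (by rw [map_zero, map_zero])
  obtain ⟨p, hp⟩ := ps_lin pr hs prim fun x hx => (h.eq fun z hz θ =>
    prim_congr (G := 0) ((h.ker x).1 hx z hz) θ).trans (by rw [map_zero, map_zero])
  have h1 : ∀ r, r ∈ (L.flatIdeal 1 le_rfl).map pr ↔ ∃ x, L.Flat 1 x ∧ pr x = r := fun r =>
    Ideal.mem_map_iff_of_surjective pr hs
  have h2 : ∀ r, r ∈ (L.flatIdeal 2 one_le_two).map pr ↔ ∃ x, L.Flat 2 x ∧ pr x = r := fun r =>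
    Ideal.mem_map_iff_of_surjective pr hs
  have st1 : ∀ (T : R → R) (T' : Per R2 → Per R2), (∀ x, T (pr x) = pr (T' x)) →
      (∀ x, L.Flat 1 x → L.Flat 1 (T' x)) →
      ∀ u ∈ (L.flatIdeal 1 le_rfl).map pr, T u ∈ (L.flatIdeal 1 le_rfl).map pr := by
    intro T T' e hf u hu
    obtain ⟨x, hx, rfl⟩ := (h1 u).1 hu
    exact (h1 _).2 ⟨_, hf x hx, (e x).symm⟩
  have st2 : ∀ (T : R → R) (T' : Per R2 → Per R2), (∀ x, T (pr x) = pr (T' x)) →
      (∀ x, L.Flat 2 x → L.Flat 2 (T' x)) →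
      ∀ u ∈ (L.flatIdeal 2 one_le_two).map pr, T u ∈ (L.flatIdeal 2 one_le_two).map pr := by
    intro T T' e hf u hu
    obtain ⟨x, hx, rfl⟩ := (h2 u).1 hu
    exact (h2 _).2 ⟨_, hf x hx, (e x).symm⟩
  refine ⟨{
    X := X, Y := Y, Θ := Θ, mean := m, prim := p
    W1 := (L.flatIdeal 1 le_rfl).map pr, W2 := (L.flatIdeal 2 one_le_two).map pr, a := pr L.aP
    XΘ := fun u => ?_, YΘ := fun u => ?_, Θ_mean := fun u => ?_, mean_mul := fun k u hk => ?_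
    mean_one := ?_, mean_Θ := fun u => ?_, Θ_prim := fun u => ?_, mean_prim := fun u => ?_
    mean_X := fun u => ?_, mean_Y := fun u => ?_
    le := Ideal.map_mono fun x hx => Flat.mono hx
    mul_mem := fun u hu v hv => ?_
    X1 := st1 _ _ hX fun x hx => hx.Xp le_rfl ψ hψ
    Y1 := st1 _ _ hY fun x hx => hx.Yp le_rfl ψ hψ
    Θ1 := st1 _ _ hΘ fun x hx => hx.pd le_rfl _
    mean1 := st1 _ _ hm fun x hx => hx.mean le_rfl
    prim1 := st1 _ _ hp fun x hx => hx.prim le_rfl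
    X2 := st2 _ _ hX fun x hx => hx.Xp one_le_two ψ hψ
    Y2 := st2 _ _ hY fun x hx => hx.Yp one_le_two ψ hψ
    mean2 := st2 _ _ hm fun x hx => hx.mean one_le_two
    a_mem := (h1 _).2 ⟨_, flat_aP, rfl⟩
    Θ_a := by rw [hΘ, aP, Th_cst, map_zero]
    div := fun w hw => ?_ }, hX, hY, hΘ, hm, h1, rfl⟩
  · obtain ⟨x, rfl⟩ := hs u
    rw [hΘ, hX, hX, hΘ, Xp_Th]
  · obtain ⟨x, rfl⟩ := hs u
    rw [hΘ, hY, hY, hΘ, Yp_Th]
  · obtain ⟨x, rfl⟩ := hs u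
    rw [hm, hΘ, Th_mean, map_zero]
  · obtain ⟨x, rfl⟩ := hs u
    obtain ⟨y, rfl⟩ := hs k
    rw [hΘ, h.ker] at hk
    rw [← map_mul, hm, hm, ← map_mul]
    refine h.eq fun z hz θ => ?_
    have hc : ∀ t, y.1 (z, t) = y.1 (z, θ) := fun t =>
      is_const_of_deriv_eq_zero (fun t => (hasDerivAt_Th y z t).differentiableAt)
        (fun t => (hasDerivAt_Th y z t).deriv.trans (hk z hz t)) t θ
    show (2 * π)⁻¹ * ∫ t in (0 : ℝ)..(2 * π), y.1 (z, t) * x.1 (z, t) =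
      y.1 (z, θ) * ((2 * π)⁻¹ * ∫ t in (0 : ℝ)..(2 * π), x.1 (z, t))
    simp only [hc, intervalIntegral.integral_const_mul]
    ring
  · rw [← map_one pr, hm, mean_one]
  · obtain ⟨x, rfl⟩ := hs u
    rw [hΘ, hm, mean_Th, map_zero]
  · obtain ⟨x, rfl⟩ := hs u
    rw [hp, hΘ, hm, Th_prim, map_sub]
  · obtain ⟨x, rfl⟩ := hs u
    rw [hp, hm, mean_prim, map_zero]
  · obtain ⟨x, rfl⟩ := hs u
    rw [hX, hm, hm, hX, mean_Xp]
  · obtain ⟨x, rfl⟩ := hs u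
    rw [hY, hm, hm, hY, mean_Yp]
  · obtain ⟨x, hx, rfl⟩ := (h1 u).1 hu
    obtain ⟨y, hy, rfl⟩ := (h1 v).1 hv
    exact (h2 _).2 ⟨_, hx.mul hy, map_mul _ _ _⟩
  · obtain ⟨x, hx, rfl⟩ := (h2 w).1 hw
    obtain ⟨G, g1, g2, g3⟩ := hx.div
    exact ⟨pr G, (h1 _).2 ⟨G, g1, rfl⟩, by rw [hΘ, g2, map_zero], by rw [hm, g3, map_mul]⟩

theorem PsQ.fdata (h : L.PsQ pr) (F : L.Frame) {τ : Shape} (K : F.Ker τ) {D : DAlg R}
    (hD : L.PsD pr K.ψ K.ψ_sm D) :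
    ∃ Fd : FData D, Fd.fx = psv pr L.fxP ∧ Fd.b = psv pr L.fyP ∧ Fd.E1 = psv pr F.E1P ∧
      Fd.E2 = psv pr F.E2P ∧ Fd.H11 = pr L.H11P ∧ Fd.H12 = pr L.H12P ∧ Fd.H22 = pr L.H22P ∧
      Fd.γ = pr F.γP ∧ Fd.V1 = pr (F.loop τ K.Cσ).V1 ∧ Fd.V2 = pr (F.loop τ K.Cσ).V2 := by
  obtain ⟨Q, hQ⟩ : ∃ Q, Q = F.loop τ K.Cσ := ⟨_, rfl⟩
  have hph := K.phase
  have hker := K.K_ker
  have horth := K.K_orth
  have hnd := K.nondeg
  rw [← hQ] at hph hker horth hnd ⊢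
  have ha : Q.aP = L.aP := by rw [hQ]; rfl
  have hp : Q.pP = cst F.p0 F.p0_sm := by rw [hQ]; rfl
  have hDa : D.a = pr Q.aP := by rw [ha, hD.a]
  have hv : ∀ u hu, vD D.Θ (psv pr (vcst u hu)) = 0 := fun u hu => by
    rw [psv_vD pr hD.Θ, Th_vcst, psv_zero]
  have hc : ∀ {x}, Th x = 0 → D.Θ (pr x) = 0 := fun hx => by rw [hD.Θ, hx, map_zero]
  have hΩ : ∀ z, 0 < L.s z → z ∈ F.Ω := fun z hz => F.sub z hz.le
  have hdot : ∀ (u v : R2 → V4) (hu : ContDiff ℝ ∞ u) (hv : ContDiff ℝ ∞ v) (c : Per R2),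
      (∀ z ∈ F.Ω, ∀ θ, u z ⬝ᵥ v z = c.1 (z, θ)) →
      psv pr (vcst u hu) ⬝ᵥ psv pr (vcst v hv) = pr c := fun u v hu hv c e => by
    rw [psv_dot]
    refine h.eq fun z hz θ => ?_
    rw [dot_val, vev_vcst, vev_vcst]
    exact e z (hΩ z hz) θ
  obtain ⟨ib, ib1, ib2⟩ := exists_inv_on L.cpt (L.fyP ⬝ᵥ L.fyP) fun z hz θ h0 => by
    have h1 := L.imm z hz
    rw [dot_val, fyP, vev_vcst] at h0
    rw [gram2, h0] at h1
    nlinarith [sq_nonneg (dx L.f z ⬝ᵥ dy L.f z)]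
  obtain ⟨iΩ, iΩ1, iΩ2⟩ := exists_inv_on L.cpt _ hnd
  have nc : ∀ q, (cst F.c' F.c'_sm).1 q ≠ 0 := fun q => (F.c'_pos q.1).ne'
  have nr : ∀ q, Q.rP.1 q ≠ 0 := fun q => (Q.r_pos q.1).ne'
  have np : ∀ q, Q.pP.1 q ≠ 0 := fun q => (Q.p0_pos q.1).ne'
  have nn : ∀ q, (mean (Q.nh ^ 2)).1 q ≠ 0 := fun q => (Q.mean_nh_sq_pos q).ne'
  have hV : pr Q.V1 • psv pr F.E1P + pr Q.V2 • psv pr F.E2P = psv pr (F.Vh Q) := by
    rw [psv_smul, psv_smul, psv_add, Frame.Vh]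
  refine ⟨{
    fx := psv pr L.fxP, b := psv pr L.fyP, E1 := psv pr F.E1P, E2 := psv pr F.E2P
    ν := psv pr F.νP, H11 := pr L.H11P, H12 := pr L.H12P, H22 := pr L.H22P, p0 := pr Q.pP
    β1 := pr F.β1P, β' := pr (cst F.β' F.β'_sm), γ := pr F.γP, c' := pr (cst F.c' F.c'_sm)
    cb := pr (cst F.cb F.cb_sm), r := pr Q.rP, ib := pr ib, ic := pr (inv _ nc)
    ir := pr (inv _ nr), ip := pr (inv _ np), u1 := pr Q.u1, u2 := pr Q.u2, nh := pr Q.nh
    in2 := pr (inv _ nn), V1 := pr Q.V1, V2 := pr Q.V2, K1 := pr K.K1, K2 := pr K.K2, iΩ := pr iΩ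
    Θ_fx := hv _ _, Θ_b := hv _ _, Θ_E1 := hv _ _, Θ_E2 := hv _ _, Θ_ν := hv _ _
    Θ_H11 := hc (Th_cst _ _), Θ_H12 := hc (Th_cst _ _), Θ_H22 := hc (Th_cst _ _)
    Θ_p0 := hc Q.lp_p, Θ_β1 := hc (Th_cst _ _), Θ_β' := hc (Th_cst _ _), Θ_γ := hc (Th_cst _ _)
    Θ_c' := hc (Th_cst _ _), Θ_cb := hc (Th_cst _ _), Θ_r := hc Q.lp_r
    Θ_ib := hc (ib2 (by rw [formal_vD_dot, fyP, Th_vcst, zero_dotProduct, dotProduct_zero, add_zero]))
    Θ_ic := hc (ps_inv (inv_mul _ nc) (Th_cst _ _))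
    Θ_ir := hc (ps_inv (inv_mul _ nr) Q.lp_r)
    Θ_ip := hc (ps_inv (inv_mul _ np) Q.lp_p)
    Θ_in2 := hc (ps_inv (inv_mul _ nn) (Th_mean _))
    Θ_iΩ := hc (iΩ2 (Th_mean _))
    E11 := (hdot _ _ _ _ 1 fun z hz _ => F.E11 z hz).trans (map_one _)
    E22 := (hdot _ _ _ _ 1 fun z hz _ => F.E22 z hz).trans (map_one _)
    νν := (hdot _ _ _ _ 1 fun z hz _ => F.νν z hz).trans (map_one _)
    E12 := (hdot _ _ _ _ 0 fun z hz _ => F.E12 z hz).trans (map_zero _)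
    E1ν := (hdot _ _ _ _ 0 fun z hz _ => F.E1ν z hz).trans (map_zero _)
    E2ν := (hdot _ _ _ _ 0 fun z hz _ => F.E2ν z hz).trans (map_zero _)
    E1b := (hdot _ _ _ _ 0 fun z hz _ => F.E1b z hz).trans (map_zero _)
    E2b := (hdot _ _ _ _ 0 fun z hz _ => F.E2b z hz).trans (map_zero _)
    νb := (hdot _ _ _ _ 0 fun z hz _ => F.νb z hz).trans (map_zero _)
    ib_mul := ?_
    ic_mul := by rw [← map_mul, inv_mul, map_one]
    ir_mul := by rw [← map_mul, inv_mul, map_one]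
    ip_mul := by rw [← map_mul, inv_mul, map_one]
    fx_eq := ?_, c_eq := ?_
    r_sq := by rw [hDa, ← map_pow, Q.r_sq, map_add, map_pow, map_pow]
    u_sq := by rw [← map_pow, ← map_pow, ← map_add, Q.u_sq, map_one]
    u1_mem := ?_
    u2_eq := by rw [hDa, LoopPar.u2, map_mul]
    mean_u1 := by rw [hD.mean, ← map_mul, Q.mean_u1]
    mean_nh := by rw [hD.mean, Q.mean_nh, map_zero]
    mean_nh_u1 := by rw [← map_mul, hD.mean, Q.mean_nh_u1, map_zero]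
    in2_mul := by rw [← map_pow, hD.mean, ← map_mul, inv_mul, map_one]
    Θ_V1 := by rw [hDa, hD.Θ, ← map_mul, Q.a_Th_V1, map_sub, map_mul]
    Θ_V2 := by rw [hD.Θ, Q.Th_V2, map_mul]
    mean_V1 := by rw [hD.mean, Q.mean_V1, map_zero]
    mean_V2 := by rw [hD.mean, Q.mean_V2, map_zero]
    phase := ?_
    mean_K1 := by rw [hD.mean, K.mean_K1, map_zero]
    mean_K2 := by rw [hD.mean, K.mean_K2, map_zero]
    K_ker := by rw [hD.Θ, hD.Θ, ← map_mul, ← map_mul, ← map_add, hker, map_zero]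
    K_orth := by rw [hD.Θ, hD.Θ, ← map_mul, ← map_mul, ← map_add, hD.mean, horth, map_zero]
    iΩ_mul := ?_ }, rfl, rfl, rfl, rfl, rfl, rfl, rfl, rfl, rfl, rfl⟩
  · rw [psv_dot, ← map_mul, ← map_one pr]
    exact h.eq fun z hz θ => ib1 z hz.le θ
  · rw [psv_smul, psv_smul, psv_smul, psv_add, psv_add, hp]
    funext i
    exact h.eq fun z hz θ => congrFun (F.fx_eq z (hΩ z hz)) i
  · rw [psv_vD pr hD.Y, ← map_mul, psv_smul, psv_smul, psv_smul, psv_add, psv_add]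
    conv_lhs => rw [fyP, Yp_vcst]
    funext i
    exact h.eq fun z hz θ => congrFun (F.c_eq z (hΩ z hz)) i
  · refine (hD.W1 _).2 ⟨(-2 * Q.vP * Q.S * Q.sig) * L.aP, flat_aP.mul_left _, ?_⟩
    rw [← map_one pr, ← map_sub, ← ha]
    congr 1
    rw [LoopPar.u1, LoopPar.sig]
    ring
  · rw [hV, psv_vD pr hD.Θ, psv_vD pr hD.Y, psv_dot, hD.mean, h.ker]
    exact fun z hz θ => hph z (hΩ z hz) θ
  · rw [hV, psv_smul, psv_smul, psv_add, psv_vD pr hD.Θ, psv_vD pr hD.Y, psv_dot, hD.mean,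
      ← map_mul, ← map_one pr]
    exact h.eq fun z hz θ => iΩ1 z hz.le θ

theorem PsQ.series (h : L.PsQ pr) (F : L.Frame) {τ : Shape} (K : F.Ker τ) (C : ℝ) :
    Nonempty (F.Series K C) := by
  obtain ⟨D, hD⟩ := h.dalg K.ψ K.ψ_sm
  obtain ⟨Fd, e1, e2, e3, e4, e5, e6, e7, e8, e9, e10⟩ := h.fdata F K hD
  let J := L.flatIdeal 1 le_rfl
  have ha : L.aP ∈ J := flat_aP
  have he : -(C • (L.aP * c2)) ∈ J := neg_mem (J.smul_of_tower_mem C (J.mul_mem_right _ ha))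
  obtain ⟨U', k', u0, u1, k1, eq, k2, k3⟩ := exists_series D Fd (pr (-(C • (L.aP * c2))))
    ((hD.W1 _).2 ⟨_, he, rfl⟩) (by
      rw [hD.mean, map_neg, map_smul, mean_mul (by rw [aP, Th_cst]), ps_mean_c2, mul_zero,
        smul_zero, neg_zero, map_zero]
      exact zero_mem _)
  rw [e1, e2, e5, e6, e7, hD.a] at eq
  rw [e3, e4, e9, e10, hD.a, psv_smul, psv_smul, psv_add, psv_smul] at u0
  rw [e4, e8] at k2 k3
  choose U₁ hU₁ hU₂ using fun n i => (hD.W1 _).1 (u1 n i)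
  choose k₁ hk₁ hk₂ using fun n => (hD.W1 _).1 (k1 n)
  obtain ⟨U, hU0, hU, hU'⟩ : ∃ U : ℕ → Fin 4 → Per R2, U 0 = L.aP • F.Vh (F.loop τ K.Cσ) ∧
      (∀ n i, U n i ∈ J) ∧ U' = fun n => psv pr (U n) := by
    refine ⟨fun n => Nat.casesOn n (L.aP • F.Vh (F.loop τ K.Cσ)) fun n => U₁ (n + 1), rfl,
      fun n i => ?_, funext fun n => ?_⟩
    · cases n with
      | zero => exact J.mul_mem_right _ ha
      | succ n => exact hU₁ _ i
    · cases n with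
      | zero => exact u0
      | succ n => exact funext fun i => (hU₂ _ i).symm
  subst hU'
  obtain ⟨k, hk0, hk1, hk, hk'⟩ : ∃ k : ℕ → Per R2, k 0 = -2 * F.γP * (F.E2P ⬝ᵥ U 0) ∧
      k 1 = -2 * F.γP * (F.E2P ⬝ᵥ U 1) - C • (L.aP * c2) ∧ (∀ n, k n ∈ J) ∧
      k' = fun n => pr (k n) := by
    refine ⟨fun n => Nat.casesOn n (-2 * F.γP * (F.E2P ⬝ᵥ U 0)) fun n =>
      Nat.casesOn n (-2 * F.γP * (F.E2P ⬝ᵥ U 1) - C • (L.aP * c2)) fun n => k₁ (n + 2), rfl, rfl,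
      fun n => ?_, funext fun n => ?_⟩
    · rcases n with _ | _ | n
      · exact J.mul_mem_left _ (ps_dot_right J _ (hU 0))
      · exact sub_mem (J.mul_mem_left _ (ps_dot_right J _ (hU 1))) (neg_mem_iff.1 he)
      · exact hk₁ _
    · rcases n with _ | _ | n
      · refine k2.trans ?_
        simp only [psv_dot, Nat.rec_zero, map_mul, map_neg, map_ofNat]
      · refine k3.trans ?_
        show _ = pr (-2 * F.γP * (F.E2P ⬝ᵥ U 1) - C • (L.aP * c2))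
        simp only [psv_dot, map_mul, map_neg, map_ofNat, sub_eq_add_neg, map_add]
      · exact (hk₂ _).symm
  subst hk'
  have q1 := eq.e1
  have q2 := eq.e2
  have q3 := eq.e3
  simp only [psv_PP pr hD.X hD.Θ, psv_QQ pr hD.Y, psv_conv, psv_dot, ← map_pow, ← map_add,
    psv_rhs] at q1 q2 q3
  have hΘ : ∀ n i, vD Th (U n) i ∈ J := fun n i => Flat.pd le_rfl (hU n i) _
  have hP : ∀ n i, PP (Xp K.ψ K.ψ_sm) Th L.fxP U (n + 1) i ∈ J := fun n i =>
    add_mem (hΘ _ i) (Flat.Xp le_rfl (hU n i) _ _)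
  have hQ : ∀ n i, QQ (Yp K.ψ K.ψ_sm) L.fyP U (n + 1) i ∈ J := fun n i =>
    Flat.Yp le_rfl (hU n i) _ _
  refine ⟨⟨U, k, hU0, hU, hk, ⟨fun n => h.inj (q1 n) (ps_conv_mem J _ hP hP ?_ hk n),
    fun n => h.inj (q2 n) (ps_conv_mem J _ hP hQ ?_ hk n),
    fun n => h.inj (q3 n) (ps_conv_mem J _ hQ hQ ?_ hk n)⟩, hk0, hk1⟩⟩
  · have := sub_mem (add_mem (ps_dot_right J L.fxP (hΘ 0))
      (ps_dot_left J (hΘ 0) (L.fxP + vD Th (U 0)))) (J.mul_mem_left L.aP ha)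
    convert this using 1
    simp only [PP, add_dotProduct, dotProduct_add]
    ring
  · have := ps_dot_left J (hΘ 0) L.fyP
    convert this using 1
    simp only [PP, QQ, add_dotProduct]
    ring
  · simp only [QQ, sub_self]
    exact zero_mem _

end Quot

theorem Frame.exists_series (F : L.Frame) {τ : Shape} (K : F.Ker τ) (C : ℝ) :
    Nonempty (F.Series K C) := by
  let I : Ideal (Per R2) :=
    { carrier := {x | ∀ z, 0 < L.s z → ∀ θ, x.1 (z, θ) = 0}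
      zero_mem' := fun _ _ _ => rfl
      add_mem' := fun {x y} hx hy z hz θ => by
        show x.1 (z, θ) + y.1 (z, θ) = 0
        rw [hx z hz θ, hy z hz θ, add_zero]
      smul_mem' := fun c x hx z hz θ => by
        show c.1 (z, θ) * x.1 (z, θ) = 0
        rw [hx z hz θ, mul_zero] }
  obtain ⟨R, _, _, pr, h1, h2⟩ := ps_quot I
  exact PsQ.series (pr := pr) ⟨h1, h2⟩ F K C

end LocData

end Crest.Agent.R216
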