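import Crest.Agent.R216.LocDefs

/-!
# R216: shape functions with a large slope along the boundary curves
-/

set_option autoImplicit false
set_option linter.unusedSectionVars false

open scoped Manifold ContDiff Topology
open Matrix

noncomputable section

namespace Crest.Agent.R216

open Real Per

namespace LocData

variable {ι : Type} [Fintype ι] {L : LocData ι}

private theorem tau_abs_arctan (x : ℝ) : |arctan x| ≤ 2 := by
  have h1 := Real.arctan_lt_pi_div_two x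
  have h2 := Real.neg_pi_div_two_lt_arctan x
  have h3 := Real.pi_le_four
  rw [abs_le]; constructor <;> linarith

private theorem tau_mul_arctan {ε x : ℝ} (hε : 0 ≤ ε) (h : ε ≤ |x|) :
    ε * arctan ε ≤ arctan x * x := by
  have h0 : 0 ≤ arctan ε := Real.arctan_nonneg.2 hε
  have h1 : arctan ε ≤ arctan |x| := Real.arctan_strictMono.monotone h
  have h2 : arctan x * x = |x| * arctan |x| := by
    rcases abs_cases x with ⟨h, _⟩ | ⟨h, _⟩ <;> rw [h]
    · ring
    · rw [Real.arctan_neg]; ring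
  rw [h2]
  exact mul_le_mul h h1 h0 (abs_nonneg _)

private theorem tau_one {K : Set R2} (hK : IsCompact K) {s : R2 → ℝ} (hs : ContDiff ℝ ∞ s)
    (hc : ∀ z ∈ K, dy (dy s) z < 0) {δ : ℝ} (hδ : 0 < δ) :
    ∃ B : ℝ, 0 ≤ B ∧ ∀ C : ℝ, ∃ τ : R2 → ℝ, ContDiff ℝ ∞ τ ∧ (∀ z, |τ z| ≤ δ) ∧
      (∀ z ∈ K, -B ≤ dy τ z) ∧ ∀ z ∈ K, s z = 0 → C ≤ dy τ z := by
  have hp : ContDiff ℝ ∞ (dy s) := dy_sm hs
  have hq : ContDiff ℝ ∞ (dy (dy s)) := dy_sm hp
  obtain ⟨c, hc0, hc1⟩ := hK.exists_forall_le' (f := fun z => -dy (dy s) z)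
    hq.continuous.neg.continuousOn (a := 0) (fun z hz => by linarith [hc z hz])
  obtain ⟨M, hM⟩ := hK.exists_bound_of_continuousOn hq.continuous.continuousOn
  set e := δ / 6 with he
  have he0 : 0 < e := by positivity
  refine ⟨e * (2 * |M|), by positivity, fun C => ?_⟩
  set ε := e * c / (2 * (|C| + 1)) with hε
  have hε0 : 0 < ε := by positivity
  have hA0 : 0 < arctan ε := Real.arctan_pos.2 hε0
  set η := e * (ε * arctan ε) / (|C| + 1) with hη
  have hη0 : 0 < η := by positivity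
  have hd : ∀ z, dy (fun z => e * (arctan (dy s z) * arctan (η⁻¹ * s z) - arctan (ε⁻¹ * dy s z))) z =
      e * (dy (dy s) z / (1 + dy s z ^ 2) * arctan (η⁻¹ * s z) +
        arctan (dy s z) * dy s z * η⁻¹ / (1 + (η⁻¹ * s z) ^ 2) +
        -dy (dy s) z * ε⁻¹ / (1 + (ε⁻¹ * dy s z) ^ 2)) := by
    intro z
    have h1 := (hs.differentiable (by simp) z).hasFDerivAt
    have h2 := (hp.differentiable (by simp) z).hasFDerivAt
    have h3 := ((h2.arctan.fun_mul (h1.const_mul η⁻¹).arctan).fun_sub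
      (h2.const_mul ε⁻¹).arctan).const_mul e
    rw [dy, h3.fderiv]
    simp only [_root_.smul_apply, _root_.sub_apply, _root_.add_apply, smul_eq_mul]
    change e * (arctan (dy s z) * (1 / (1 + (η⁻¹ * s z) ^ 2) * (η⁻¹ * dy s z)) +
      arctan (η⁻¹ * s z) * (1 / (1 + dy s z ^ 2) * dy (dy s) z) -
      1 / (1 + (ε⁻¹ * dy s z) ^ 2) * (ε⁻¹ * dy (dy s) z)) = _
    ring
  have t2 : ∀ z, 0 ≤ arctan (dy s z) * dy s z * η⁻¹ / (1 + (η⁻¹ * s z) ^ 2) := fun z => by
    have := tau_mul_arctan (ε := 0) (x := dy s z) le_rfl (abs_nonneg _)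
    rw [zero_mul] at this
    positivity
  have t3 : ∀ z ∈ K, 0 ≤ -dy (dy s) z * ε⁻¹ / (1 + (ε⁻¹ * dy s z) ^ 2) := fun z hz => by
    have := hc0.le.trans (hc1 z hz)
    positivity
  refine ⟨fun z => e * (arctan (dy s z) * arctan (η⁻¹ * s z) - arctan (ε⁻¹ * dy s z)),
    contDiff_const.mul ((hp.arctan.mul (contDiff_const.mul hs).arctan).sub
      (contDiff_const.mul hp).arctan), fun z => ?_, fun z hz => ?_, fun z hz h0 => ?_⟩
  · rw [abs_mul, abs_of_pos he0]
    have h1 := tau_abs_arctan (dy s z)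
    have h2 := tau_abs_arctan (η⁻¹ * s z)
    have h3 := tau_abs_arctan (ε⁻¹ * dy s z)
    have h4 : |arctan (dy s z) * arctan (η⁻¹ * s z)| ≤ 2 * 2 := by
      rw [abs_mul]; exact mul_le_mul h1 h2 (abs_nonneg _) (by norm_num)
    have h5 := abs_sub (arctan (dy s z) * arctan (η⁻¹ * s z)) (arctan (ε⁻¹ * dy s z))
    calc _ ≤ e * 6 := mul_le_mul_of_nonneg_left (by linarith) he0.le
      _ = δ := by rw [he]; ring
  · rw [hd]
    have h1 : |dy (dy s) z / (1 + dy s z ^ 2) * arctan (η⁻¹ * s z)| ≤ |M| * 2 := by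
      rw [abs_mul]
      refine mul_le_mul ?_ (tau_abs_arctan _) (abs_nonneg _) (abs_nonneg _)
      rw [abs_div, abs_of_pos (by positivity : (0 : ℝ) < 1 + dy s z ^ 2)]
      have h2 : |dy (dy s) z| ≤ |M| := (hM z hz).trans (le_abs_self M)
      exact (div_le_self (abs_nonneg _) (by nlinarith [sq_nonneg (dy s z)])).trans h2
    have h2 := (abs_le.1 h1).1
    have h3 := t2 z
    have h4 := t3 z hz
    rw [← mul_neg]
    exact mul_le_mul_of_nonneg_left (by linarith) he0.le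
  · rw [hd]
    have h3 := t2 z
    have h4 := t3 z hz
    have hC : C ≤ |C| + 1 := by linarith [le_abs_self C]
    refine hC.trans ?_
    rw [h0, mul_zero, Real.arctan_zero, mul_zero, zero_add] at *
    by_cases hpe : ε ≤ |dy s z|
    · have h5 := tau_mul_arctan hε0.le hpe
      have h6 : |C| + 1 = e * (ε * arctan ε * η⁻¹) := by rw [hη]; field_simp
      rw [h6]
      refine mul_le_mul_of_nonneg_left ?_ he0.le
      have h7 : ε * arctan ε * η⁻¹ ≤ arctan (dy s z) * dy s z * η⁻¹ :=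
        mul_le_mul_of_nonneg_right h5 (by positivity)
      norm_num at h4 ⊢
      linarith
    · have h5 : (ε⁻¹ * dy s z) ^ 2 ≤ 1 := by
        rw [← sq_abs, abs_mul, abs_of_pos (inv_pos.2 hε0)]
        have : ε⁻¹ * |dy s z| ≤ 1 := by
          rw [inv_mul_le_iff₀ hε0]; linarith [not_le.1 hpe]
        exact pow_le_one₀ (by positivity) this
      have h6 : |C| + 1 = e * (c * ε⁻¹ / 2) := by rw [hε]; field_simp
      rw [h6]
      refine mul_le_mul_of_nonneg_left ?_ he0.le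
      have h7 : c * ε⁻¹ / 2 ≤ -dy (dy s) z * ε⁻¹ / (1 + (ε⁻¹ * dy s z) ^ 2) :=
        div_le_div₀ (mul_nonneg (hc0.le.trans (hc1 z hz)) (by positivity))
          (mul_le_mul_of_nonneg_right (hc1 z hz) (by positivity)) (by positivity) (by linarith)
      linarith

/-- Only the `k` with an active point in the disk `K` matter; for them `dy (dy (sk k)) ≤ -c < 0` and `|dy (dy (sk k))| ≤ M` on `K`.
With `A = arctan` (`|A| < 2`, `A' = 1/(1+t²)`, `t A t ≥ 0`), `s = sk k`, `p = dy s`: `τ₁ = η' A(p) A(s/η)`, `τ₂ = -η' A(p/η'')`.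
`dy τ₁ = η' A'(p) (dy p) A(s/η) + (η'/η) A(p) p A'(s/η) ≥ -2 η' M` on `K`, `= (η'/η) p A(p)` where `s = 0`; `dy τ₂ = (η'/η'') (-dy p) A'(p/η'') ≥ 0` on `K`, `≥ c η'/(2η'')` if `|p| ≤ η''`.
`τ = 1/20 + ∑ k, (τ₁ + τ₂)` with `η' = 1/(120 (card ι + 1))`; choose `η''`, then `η`, small. -/
theorem exists_shape (L : LocData ι) (C : ℝ) :
    ∃ τ : Shape, ∀ k z, 0 ≤ L.s z → L.sk k z = 0 → C ≤ dy τ.τ z := by
  classical
  set δ : ℝ := 1 / (20 * (Fintype.card ι + 1)) with hδ
  have hδ0 : 0 < δ := by positivity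
  have key : ∀ k : ι, ∃ B : ℝ, 0 ≤ B ∧ ∀ C : ℝ, ∃ τ : R2 → ℝ, ContDiff ℝ ∞ τ ∧ (∀ z, |τ z| ≤ δ) ∧
      (∀ z, 0 ≤ L.s z → -B ≤ dy τ z) ∧ ∀ z, 0 ≤ L.s z → L.sk k z = 0 → C ≤ dy τ z := by
    intro k
    by_cases h : ∃ q, 0 ≤ L.s q ∧ 0 ≤ L.sk k q
    · obtain ⟨q, h1, h2⟩ := h
      exact tau_one L.cpt (L.sk_sm k) (fun z hz => L.conc k q z h1 h2 hz) hδ0
    · refine ⟨0, le_rfl, fun C => ⟨fun _ => 0, contDiff_const, fun z => by simpa using hδ0.le,
        fun z _ => by simp [dy], fun z h1 h2 => absurd ⟨z, h1, h2.ge⟩ h⟩⟩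
  choose B hB0 hB using key
  choose τ h1 h2 h3 h4 using fun k => hB k (C + ∑ l, B l)
  have hsum : ∀ z, |∑ k, τ k z| ≤ 1 / 20 := fun z => by
    refine (Finset.abs_sum_le_sum_abs _ _).trans ((Finset.sum_le_sum fun k _ => h2 k z).trans ?_)
    rw [Finset.sum_const, Finset.card_univ, nsmul_eq_mul, hδ, mul_one_div, div_le_div_iff₀
      (by positivity) (by positivity)]
    linarith
  refine ⟨⟨fun z => 1 / 20 + ∑ k, τ k z, contDiff_const.add (ContDiff.sum fun k _ => h1 k),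
    fun z => ?_⟩, fun k z hz hk => ?_⟩
  · have := abs_le.1 (hsum z)
    constructor <;> linarith [this.1, this.2]
  · have hd : dy (fun z => 1 / 20 + ∑ k, τ k z) z = ∑ k, dy (τ k) z := by
      have := (HasFDerivAt.fun_sum (u := Finset.univ)
        fun k _ => ((h1 k).differentiable (by simp) z).hasFDerivAt).const_add (1 / 20 : ℝ)
      rw [dy, this.fderiv]
      simp [dy]
    show C ≤ dy (fun z => 1 / 20 + ∑ k, τ k z) z
    rw [hd, ← Finset.add_sum_erase _ _ (Finset.mem_univ k)]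
    have e1 : ∑ l ∈ Finset.univ.erase k, -B l ≤ ∑ l ∈ Finset.univ.erase k, dy (τ l) z :=
      Finset.sum_le_sum fun l _ => h3 l z hz
    have e2 : ∑ l ∈ Finset.univ.erase k, B l ≤ ∑ l, B l :=
      Finset.sum_le_sum_of_subset_of_nonneg (Finset.erase_subset _ _) fun l _ _ => hB0 l
    rw [Finset.sum_neg_distrib] at e1
    linarith [h4 k z hz hk]

private theorem tau_cpt {X : Type} [TopologicalSpace X] {Z : Set X} (hZ : IsCompact Z) {Φ : X → ℝ}
    (hΦ : ContinuousOn Φ Z) : IsCompact (Z ∩ Φ ⁻¹' Set.Iic 0) := by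
  obtain ⟨u, hu, e⟩ := continuousOn_iff_isClosed.1 hΦ _ (isClosed_Iic (a := (0 : ℝ)))
  rw [Set.inter_comm, e]
  exact hZ.inter_left hu

/-- The set `{Φ ≤ 0}` is compact in `Z`, there `w κ² > 0` has a positive minimum and `Φ, B₀, κ` are bounded. -/
theorem exists_slope {X : Type} [TopologicalSpace X] {Z : Set X} (hZ : IsCompact Z)
    {Φ w B0 κ : X → ℝ} (hΦ : ContinuousOn Φ Z) (hw : ContinuousOn w Z) (hB : ContinuousOn B0 Z)
    (hκ : ContinuousOn κ Z) (hw0 : ∀ x ∈ Z, 0 < w x) (h : ∀ x ∈ Z, Φ x ≤ 0 → κ x ≠ 0) :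
    ∃ C : ℝ, ∀ x ∈ Z, ∀ p : ℝ, C ≤ p → 0 < Φ x + w x * (B0 x + κ x * p) ^ 2 := by
  have hS : IsCompact (Z ∩ Φ ⁻¹' Set.Iic 0) := tau_cpt hZ hΦ
  obtain ⟨a, ha0, ha⟩ := hS.exists_forall_le' (f := fun x => |κ x|)
    (hκ.mono Set.inter_subset_left).abs (a := 0) (fun x hx => abs_pos.2 (h x hx.1 hx.2))
  obtain ⟨b, hb0, hb⟩ := hZ.exists_forall_le' hw hw0
  obtain ⟨M1, hM1⟩ := hZ.exists_bound_of_continuousOn hΦ
  obtain ⟨M2, hM2⟩ := hZ.exists_bound_of_continuousOn hB
  refine ⟨(|M2| + (|M1| / b + 1)) / a, fun x hx p hp => ?_⟩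
  have hwx := hw0 x hx
  by_cases h0 : 0 < Φ x
  · positivity
  have h1 : a ≤ |κ x| := ha x ⟨hx, not_lt.1 h0⟩
  have h2 : |Φ x| ≤ |M1| := (hM1 x hx).trans (le_abs_self _)
  have h3 : |B0 x| ≤ |M2| := (hM2 x hx).trans (le_abs_self _)
  have hp0 : 0 ≤ p := le_trans (by positivity) hp
  rw [div_le_iff₀ ha0] at hp
  have h4 : |M1| / b + 1 ≤ |B0 x + κ x * p| := by
    have e1 : |κ x * p| ≤ |B0 x + κ x * p| + |B0 x| := by
      have := abs_sub (B0 x + κ x * p) (B0 x)
      rwa [add_sub_cancel_left] at this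
    rw [abs_mul, abs_of_nonneg hp0] at e1
    nlinarith
  have h5 : |M1| / b + 1 ≤ (B0 x + κ x * p) ^ 2 := by
    rw [← sq_abs]
    have : 0 ≤ |M1| / b := by positivity
    nlinarith
  have h6 : b * (|M1| / b + 1) ≤ w x * (B0 x + κ x * p) ^ 2 :=
    mul_le_mul (hb x hx) h5 (by positivity) hwx.le
  have h7 : b * (|M1| / b + 1) = |M1| + b := by field_simp
  linarith [(abs_le.1 h2).1]

/-- Same idea: `G + C h > 0` for large `C` when `h ≥ 0` and `G > 0` on `{h = 0}`. -/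
theorem exists_big {X : Type} [TopologicalSpace X] {Z : Set X} (hZ : IsCompact Z) {G h : X → ℝ}
    (hG : ContinuousOn G Z) (hh : ContinuousOn h Z) (h0 : ∀ x ∈ Z, 0 ≤ h x)
    (h1 : ∀ x ∈ Z, h x = 0 → 0 < G x) : ∃ C₀ : ℝ, ∀ C, C₀ ≤ C → ∀ x ∈ Z, 0 < G x + C * h x := by
  have hS : IsCompact (Z ∩ G ⁻¹' Set.Iic 0) := tau_cpt hZ hG
  obtain ⟨a, ha0, ha⟩ := hS.exists_forall_le' (hh.mono Set.inter_subset_left) (a := 0)
    (fun x hx => lt_of_le_of_ne (h0 x hx.1) fun e => absurd (h1 x hx.1 e.symm) (not_lt.2 hx.2))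
  obtain ⟨M, hM⟩ := hZ.exists_bound_of_continuousOn hG
  refine ⟨(|M| + 1) / a, fun C hC x hx => ?_⟩
  have hC0 : 0 ≤ C := le_trans (by positivity) hC
  by_cases hG0 : 0 < G x
  · have := h0 x hx
    positivity
  have h2 : a ≤ h x := ha x ⟨hx, not_lt.1 hG0⟩
  have h3 : |G x| ≤ |M| := (hM x hx).trans (le_abs_self _)
  rw [div_le_iff₀ ha0] at hC
  nlinarith [(abs_le.1 h3).1]

/-- For finitely many phases there is a common shift avoiding the turning points, with a margin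
that only depends on the number of phases (pigeonhole on `θ₀ = j π/(n+1)`, `j = 0..n`; or
compactness). -/
theorem exists_phase_margin {α : Type} (Q : Finset α) : ∃ c : ℝ, 0 < c ∧ ∀ φ : α → ℝ,
    ∃ θ₀ : ℝ, ∀ q ∈ Q, c ≤ |cos (φ q + θ₀)| := by
  classical
  set n := Q.card with hn
  have hfin : IsCompact (↑(Finset.Icc 1 n) : Set ℕ) := (Finset.finite_toSet _).isCompact
  obtain ⟨c, hc0, hc⟩ := hfin.exists_forall_le' (f := fun d : ℕ => sin (d * (π / (n + 1))))
    continuous_of_discreteTopology.continuousOn (a := 0) (fun d hd => by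
      rw [Finset.coe_Icc, Set.mem_Icc] at hd
      have h1 : (1 : ℝ) ≤ d := by exact_mod_cast hd.1
      have h2 : (d : ℝ) ≤ n := by exact_mod_cast hd.2
      refine sin_pos_of_pos_of_lt_pi (by positivity) ?_
      rw [← mul_div_assoc, div_lt_iff₀ (by positivity)]
      nlinarith [pi_pos])
  refine ⟨c / 2, by positivity, fun φ => ?_⟩
  by_contra hcon
  push Not at hcon
  choose f hf1 hf2 using fun j : ℕ => hcon (j * (π / (n + 1)))
  have key : ∀ i j : ℕ, i < j → j ≤ n → f i ≠ f j := by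
    intro i j hij hj e
    have h1 := hf2 i
    have h2 := hf2 j
    rw [← e] at h2
    have h3 := hc (j - i) (by rw [Finset.coe_Icc, Set.mem_Icc]; omega)
    have e1 : ((j - i : ℕ) : ℝ) * (π / (n + 1)) =
        (φ (f i) + j * (π / (n + 1))) - (φ (f i) + i * (π / (n + 1))) := by
      rw [Nat.cast_sub hij.le]; ring
    rw [e1, sin_sub] at h3
    generalize φ (f i) + j * (π / (n + 1)) = x at h2 h3
    generalize φ (f i) + i * (π / (n + 1)) = y at h1 h3
    have a1 : sin x * cos y ≤ |cos y| := (le_abs_self _).trans (by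
      rw [abs_mul]; exact mul_le_of_le_one_left (abs_nonneg _) (abs_sin_le_one x))
    have a2 : -(cos x * sin y) ≤ |cos x| := (neg_le_abs _).trans (by
      rw [abs_mul]; exact mul_le_of_le_one_right (abs_nonneg _) (abs_sin_le_one y))
    linarith
  obtain ⟨i, hi, j, hj, hne, he⟩ := Finset.exists_ne_map_eq_of_card_lt_of_maps_to
    (s := Finset.range (n + 1)) (t := Q) (by simp [hn]) (f := f) (fun j _ => hf1 j)
  rw [Finset.mem_range] at hi hj
  rcases lt_or_gt_of_ne hne with h | h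
  · exact key i j h (by omega) he
  · exact key j i h (by omega) he.symm

private theorem tau_dot {u v : R2 → V4} (hu : ContDiff ℝ ∞ u) (hv : ContDiff ℝ ∞ v) :
    ContDiff ℝ ∞ fun z => u z ⬝ᵥ v z :=
  ContDiff.sum fun i _ => (contDiff_pi.1 hu i).mul (contDiff_pi.1 hv i)

theorem Kt_continuousOn (L : LocData ι) : ContinuousOn L.Kt {z | 0 ≤ L.s z} := by
  have h11 : ContDiff ℝ ∞ L.g11 := (tau_dot (dx_sm L.f_sm) (dx_sm L.f_sm)).add (L.a_sm.pow 2)
  have h12 : ContDiff ℝ ∞ L.g12 := tau_dot (dx_sm L.f_sm) (dy_sm L.f_sm)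
  have h22 : ContDiff ℝ ∞ L.g22 := tau_dot (dy_sm L.f_sm) (dy_sm L.f_sm)
  have hne : ∀ z ∈ {z | 0 ≤ L.s z}, L.g11 z * L.g22 z - L.g12 z ^ 2 ≠ 0 := fun z hz => by
    have h1 := L.imm z hz
    have h2 : 0 ≤ L.g22 z := by
      unfold g22 dotProduct
      exact Finset.sum_nonneg fun i _ => mul_self_nonneg _
    have h3 : L.g11 z * L.g22 z - L.g12 z ^ 2 =
        gram2 (dx L.f z) (dy L.f z) + L.a z ^ 2 * L.g22 z := by
      simp only [g11, g12, g22, gram2]; ring
    rw [h3]; positivity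
  have c11 := h11.continuous
  have c12 := h12.continuous
  have c22 := h22.continuous
  have x11 := (dx_sm h11).continuous
  have x12 := (dx_sm h12).continuous
  have x22 := (dx_sm h22).continuous
  have y11 := (dy_sm h11).continuous
  have y12 := (dy_sm h12).continuous
  have y22 := (dy_sm h22).continuous
  have a1 := (dx_sm (dy_sm h12)).continuous
  have a2 := (dy_sm (dy_sm h11)).continuous
  have a3 := (dx_sm (dx_sm h22)).continuous
  unfold Kt tang
  refine ContinuousOn.add (ContinuousOn.sub (Continuous.continuousOn (by fun_prop))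
    (ContinuousOn.div (Continuous.continuousOn (by fun_prop)) (Continuous.continuousOn (by fun_prop))
      hne))
    (ContinuousOn.div (Continuous.continuousOn (by fun_prop)) (Continuous.continuousOn (by fun_prop))
      hne)

end LocData

end Crest.Agent.R216
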