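import Crest.Agent.R216.PosA
import Crest.Agent.R216.PerSer
import Crest.Agent.R216.Ker
import Crest.Agent.R216.Frame
import Crest.Agent.R216.Tau

/-!
# R216: positivity at the turning points

PLAN. `F` from `exists_frame`; `Σ, B₀, κ` from `exists_turn`; `r z = rf (a z) (p0 z)`, `R² = r² + β1²`.
For each `k`, `Z k = {z | 0 ≤ s z, sk k z = 0, ∀ l, sk l z ≤ 0} × Icc 0 (1/10) × {1, -1}` (compact), `Φ k (z,t,e) = (ξ Σ + ζ r c')² + ξ² R² Kt`, `w = ξ² R² > 0`.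
ALGEBRA: if `s₁₁ s₂₂ = s₁₂² + R² (B² + Kt)` then `(ξ² s₁₁ + 2 ξ ζ s₁₂ + ζ² s₂₂) s₂₂ = (ξ s₁₂ + ζ s₂₂)² + ξ² R² Kt + ξ² R² B²`.
CLAIM 1: `Φ k > 0` at the points of `Z k` with `a z = 0` (i.e. `s z = 0`): take the constant shape `τ ≡ t`, any `Ker` and `Series` for it, `θ = e π/2`; `mjet_zero`, `flat_identity`, `exists_turn`,
`ln_orth`, `ln_zero`, and `Pplus.frame` applied to `L.P` with `n = E2`, `l = p0 ν - β1 E1` (`n ⬝ m = ξ B`). So `exists_slope` gives `C k`; take `τ` from `exists_shape` with `C = max`, `K` from `exists_ker`, `S₀` the series with `C = 0`.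
CLAIM 2: `G₀ k (z,θ) = l ⬝ (mjet S₀ 0).B ξ ζ ξ ζ > 0` if `z` is in the disk, `k` active, `cos θ = 0` and `a H22 = 0`: if `s z = 0` by `tilt` (`mjet_zero`, `ln_zero`); if `H22 z = 0` by `flat_identity`, the choice of `τ` and `s₂₂ = r c' > 0`.
`exists_big` on `{(z,θ) | 0 ≤ s z, 0 ≤ sk k z, θ ∈ [0,2π], cos θ = 0}` with `h = ξ² 2 a H22 R²/(r c')` gives `C`; `S` the series with this `C`; `Series.diff` and `exists_phase` give `G` at all turning points; when `w = 0` either `cos θ = 0` or `a z = 0` (`ww_eq`, `n ≠ 0`),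
and in the latter case use `tilt` again. `N`: if `H22 z = 0` then `l ⬝ c = r c' ≠ 0`, else some `k` is active and `G > 0`.
-/

set_option autoImplicit false
set_option linter.unusedSectionVars false

open scoped Manifold ContDiff Topology
open Matrix

noncomputable section

namespace Crest.Agent.R216

open Real Per

namespace LocData

variable {ι : Type} [Fintype ι] {L : LocData ι}

theorem pos_B (J : Jet) (l : V4) (ξ ζ : ℝ) :
    l ⬝ᵥ J.B ξ ζ ξ ζ = ξ ^ 2 * (l ⬝ᵥ J.xx) + 2 * ξ * ζ * (l ⬝ᵥ J.xy) + ζ ^ 2 * (l ⬝ᵥ J.yy) := by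
  simp only [Jet.B, dotProduct_add, dotProduct_smul, smul_eq_mul]
  ring

theorem pos_mjet (ψ : R2 → ℝ) (hψ : ContDiff ℝ ∞ ψ) (U : ℕ → Fin 4 → Per R2) (q : R2 × ℝ) (l : V4)
    (ξ ζ : ℝ) : l ⬝ᵥ (L.mjet ψ hψ U 0 q).B ξ ζ ξ ζ = ξ ^ 2 * (l ⬝ᵥ vev (L.AAp ψ hψ U) q) +
      2 * ξ * ζ * (l ⬝ᵥ vev (L.MM ψ hψ U) q) + ζ ^ 2 * (l ⬝ᵥ dy (dy L.f) q.1) := by
  rw [pos_B]
  simp only [mjet, zero_smul, zero_add]

theorem pos_a_pos {z : R2} (hz : 0 < L.s z) : 0 < L.a z :=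
  mul_pos (expNegInvGlue.pos_of_pos hz) (L.c0_pos z hz.le)

theorem pos_a_nonneg {z : R2} (hz : 0 ≤ L.s z) : 0 ≤ L.a z :=
  mul_nonneg (expNegInvGlue.nonneg _) (L.c0_pos z hz).le

theorem pos_a_zero {z : R2} (hz : 0 ≤ L.s z) (h : L.a z = 0) : L.s z = 0 :=
  (hz.eq_or_lt.resolve_right fun h' => (pos_a_pos h').ne' h).symm

theorem pos_vev_cont (V : Fin 4 → Per R2) : Continuous (vev V) :=
  continuous_pi fun i => (sm (V i)).continuous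

namespace Frame

/-- the radius of the loop -/
def rr (F : L.Frame) (z : R2) : ℝ := rf (L.a z) (F.p0 z)

variable {F : L.Frame} {τ : Shape} {K : F.Ker τ} {C : ℝ}

theorem Series.pos_w (S : F.Series K C) {z : R2} (hz : 0 ≤ L.s z) (θ : ℝ) :
    vev (L.ww K.ψ K.ψ_sm S.U) (z, θ) = 0 ↔ L.a z = 0 ∨ cos θ = 0 := by
  obtain ⟨e, he, h⟩ := F.ww_eq τ K.Cσ K.ψ K.ψ_sm S.U0 z θ
  have hn := (F.ln_orth τ K.Cσ K.ψ K.ψ_sm S.U0 (F.sub z hz) θ).2.1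
  have hn0 : vev (F.nP (F.loop τ K.Cσ)) (z, θ) ≠ 0 := fun h0 => by
    rw [h0, dotProduct_zero] at hn
    exact zero_ne_one hn
  rw [h, smul_eq_zero, or_iff_left hn0, mul_eq_zero, or_iff_left he.ne', mul_eq_zero]

/-- the key identity at flat turning points -/
theorem Series.pos_key (S : F.Series K C) {z : R2} (hz : 0 ≤ L.s z) (hfl : ∀ l, L.sk l z ≤ 0)
    {θ : ℝ} (hθ : cos θ = 0) (ξ ζ : ℝ) :
    vev (F.lP (F.loop τ K.Cσ)) (z, θ) ⬝ᵥ (L.mjet K.ψ K.ψ_sm S.U 0 (z, θ)).B ξ ζ ξ ζ *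
        (F.rr z * F.c' z) =
      (ξ * (vev (F.lP (F.loop τ K.Cσ)) (z, θ) ⬝ᵥ vev (L.MM K.ψ K.ψ_sm S.U) (z, θ)) +
          ζ * (F.rr z * F.c' z)) ^ 2 +
        ξ ^ 2 * (F.rr z ^ 2 + F.β1 z ^ 2) * L.Kt z +
      ξ ^ 2 * (F.rr z ^ 2 + F.β1 z ^ 2) *
        (vev (F.nP (F.loop τ K.Cσ)) (z, θ) ⬝ᵥ vev (L.MM K.ψ K.ψ_sm S.U) (z, θ)) ^ 2 := by
  have h1 := S.flat_identity hz hfl ((S.pos_w hz θ).2 (Or.inr hθ))
  obtain ⟨h2, -, -, -, -, -, -, -, h3⟩ := F.ln_orth τ K.Cσ K.ψ K.ψ_sm S.U0 (F.sub z hz) θ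
  have h4 := (h3 (H_flat hfl).2.2.1).2
  change _ = F.rr z ^ 2 + _ at h2
  change _ = F.rr z * _ at h4
  simp only at h1
  rw [h2, h4] at h1
  rw [pos_mjet, h4]
  linear_combination ξ ^ 2 * h1

theorem Series.pos_tilt (S : F.Series K C) {z : R2} (hz : L.s z = 0) (θ : ℝ) {k : ι}
    (hk : 0 ≤ L.sk k z) : 0 < vev (F.lP (F.loop τ K.Cσ)) (z, θ) ⬝ᵥ
      (L.mjet K.ψ K.ψ_sm S.U 0 (z, θ)).B (L.ξ k z) (L.ζ k z) (L.ξ k z) (L.ζ k z) := by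
  rw [(S.mjet_zero hz.le θ).2, (F.ln_zero τ K.Cσ hz.le θ).1]
  exact F.tilt z hz k hk

theorem Series.pos_claim (S : F.Series K C) {z : R2} (hz : L.s z = 0) {k : ι} (hk : L.sk k z = 0)
    (hfl : ∀ l, L.sk l z ≤ 0) {θ : ℝ} (hθ : cos θ = 0) :
    0 < (L.ξ k z * (vev (F.lP (F.loop τ K.Cσ)) (z, θ) ⬝ᵥ vev (L.MM K.ψ K.ψ_sm S.U) (z, θ)) +
          L.ζ k z * (F.rr z * F.c' z)) ^ 2 +
        L.ξ k z ^ 2 * (F.rr z ^ 2 + F.β1 z ^ 2) * L.Kt z := by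
  have h1 := S.pos_key hz.ge hfl hθ (L.ξ k z) (L.ζ k z)
  obtain ⟨h2, o1, o2, o3, o4, o5, o6, -, h3⟩ :=
    F.ln_orth τ K.Cσ K.ψ K.ψ_sm S.U0 (F.sub z hz.ge) θ
  obtain ⟨o7, h4⟩ := h3 (H_flat hfl).2.2.1
  change _ = F.rr z ^ 2 + _ at h2
  change _ = F.rr z * _ at h4
  have hr : 0 < F.rr z := (F.loop τ K.Cσ).r_pos z
  have hJ := (S.mjet_zero hz.le θ).2
  have hT : vev (L.TT K.ψ K.ψ_sm S.U) (z, θ) = dx L.f z := congrArg Jet.x hJ
  have hM : vev (L.MM K.ψ K.ψ_sm S.U) (z, θ) = (jet L.f z).xy := congrArg Jet.xy hJ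
  rw [hT] at o3 o5
  have h5 := (L.P k z hz hk hfl).frame (L.imm z hz.ge) o1 (fun h0 => by
    rw [h0, dotProduct_zero] at h2
    exact absurd h2 (by positivity : (0 : ℝ) < _).ne) o5 o6 o3 o4 o2 o7
    (h4 ▸ mul_pos hr (F.c'_pos z))
  have h6 : vev (F.nP (F.loop τ K.Cσ)) (z, θ) ⬝ᵥ (jet L.f z).B 0 1 (L.ξ k z) (L.ζ k z) =
      L.ξ k z * (vev (F.nP (F.loop τ K.Cσ)) (z, θ) ⬝ᵥ (jet L.f z).xy) := by
    simp only [Jet.B, dotProduct_add, dotProduct_smul, smul_eq_mul]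
    rw [show (jet L.f z).yy = dy (dy L.f) z from rfl, o7]
    ring
  rw [h2, h4, h6, ← hM] at h5
  rw [hJ] at h1
  linarith

end Frame

theorem exists_ser (L : LocData ι) : Nonempty L.Ser := by
  obtain ⟨F⟩ := exists_frame L
  obtain ⟨Sg, B0, κ, cS, cB, cκ, hκ, hturn⟩ := F.exists_turn
  let τc : ∀ t ∈ Set.Icc (0 : ℝ) (1 / 10), Shape := fun t ht =>
    ⟨fun _ => t, contDiff_const, fun _ => ht⟩
  have rc : Continuous F.rr :=
    (F.loop (τc 0 ⟨le_rfl, by norm_num⟩) 0).r_sm.continuous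
  have rp : ∀ z, 0 < F.rr z := (F.loop (τc 0 ⟨le_rfl, by norm_num⟩) 0).r_pos
  have cξ := fun k => (L.ξ_sm k).continuous
  have cζ := fun k => (L.ζ_sm k).continuous
  have cβ := F.β1_sm.continuous
  have cc := F.c'_sm.continuous
  have ck : ∀ k, IsClosed {z | 0 ≤ L.sk k z} := fun k =>
    isClosed_le continuous_const (L.sk_sm k).continuous
  have h1 : ∀ k, ∃ C : ℝ, ∀ z t e, 0 ≤ L.s z → 0 ≤ L.sk k z → (∀ l, L.sk l z ≤ 0) →
      t ∈ Set.Icc (0 : ℝ) (1 / 10) → (e = 1 ∨ e = -1) → ∀ p, C ≤ p →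
      0 < (L.ξ k z * Sg (z, t, e) + L.ζ k z * (F.rr z * F.c' z)) ^ 2 +
        L.ξ k z ^ 2 * (F.rr z ^ 2 + F.β1 z ^ 2) * L.Kt z +
        L.ξ k z ^ 2 * (F.rr z ^ 2 + F.β1 z ^ 2) *
          (B0 (z, t, e) + κ (z, t, e) * p) ^ 2 := by
    intro k
    have hZ : IsCompact ((({z | 0 ≤ L.s z} ∩ {z | 0 ≤ L.sk k z}) ∩ ⋂ l, {z | L.sk l z ≤ 0}) ×ˢ
        Set.Icc (0 : ℝ) (1 / 10) ×ˢ ({1, -1} : Set ℝ)) :=
      ((L.cpt.inter_right (ck k)).inter_right (isClosed_iInter fun l =>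
        isClosed_le (L.sk_sm l).continuous continuous_const)).prod
        (isCompact_Icc.prod (Set.toFinite _).isCompact)
    have sub : (({z | 0 ≤ L.s z} ∩ {z | 0 ≤ L.sk k z}) ∩ ⋂ l, {z | L.sk l z ≤ 0}) ×ˢ
        Set.Icc (0 : ℝ) (1 / 10) ×ˢ ({1, -1} : Set ℝ) ⊆
        Set.univ ×ˢ Set.Icc 0 (1 / 10) ×ˢ Set.Icc (-1) 1 := by
      rintro ⟨z, t, e⟩ ⟨-, h2, rfl | rfl⟩ <;> exact ⟨trivial, h2, by norm_num⟩
    have := cξ k
    have := cζ k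
    refine (exists_slope hZ
      (Φ := fun x => (L.ξ k x.1 * Sg x + L.ζ k x.1 * (F.rr x.1 * F.c' x.1)) ^ 2 +
        L.ξ k x.1 ^ 2 * (F.rr x.1 ^ 2 + F.β1 x.1 ^ 2) * L.Kt x.1)
      (w := fun x => L.ξ k x.1 ^ 2 * (F.rr x.1 ^ 2 + F.β1 x.1 ^ 2))
      (((((cξ k).comp continuous_fst).continuousOn.mul (cS.mono sub)).add
        (Continuous.continuousOn (by fun_prop))).pow 2 |>.add
        ((Continuous.continuousOn (by fun_prop)).mul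
          (L.Kt_continuousOn.comp continuousOn_fst fun x hx => hx.1.1.1)))
      (Continuous.continuousOn (by fun_prop)) (cB.mono sub) (cκ.mono sub)
      (fun x hx => mul_pos (sq_pos_of_ne_zero (L.trans k x.1 hx.1.1.1 hx.1.1.2).2)
        (by have := rp x.1; positivity)) ?_).imp fun C hC z t e a1 a2 a3 a4 a5 =>
      hC (z, t, e) ⟨⟨⟨a1, a2⟩, Set.mem_iInter.2 a3⟩, a4, a5⟩
    rintro ⟨z, t, e⟩ ⟨⟨⟨a1, a2⟩, a3⟩, a4, a5⟩ hΦ
    refine hκ z t e a4 a5 fun ha => absurd hΦ (not_le.2 ?_)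
    replace a3 : ∀ l, L.sk l z ≤ 0 := fun l => Set.mem_iInter.1 a3 l
    obtain ⟨K⟩ := F.exists_ker (τc t a4)
    obtain ⟨S⟩ := F.exists_series K 0
    have hθ : cos (e * (π / 2)) = 0 ∧ sin (e * (π / 2)) = e := by
      rcases a5 with rfl | rfl <;> simp
    have h2 := S.pos_claim (pos_a_zero a1 ha) ((a3 k).antisymm a2) a3 hθ.1
    rw [(hturn _ _ _ _ _ S.U0 z (F.sub z a1) _ hθ.1).1, hθ.2] at h2
    exact h2
  choose C₁ hC₁ using h1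
  obtain ⟨C₂, hC₂⟩ := (Set.finite_range C₁).bddAbove
  obtain ⟨τ, hτ⟩ := exists_shape L C₂
  obtain ⟨K⟩ := F.exists_ker τ
  obtain ⟨S₀⟩ := F.exists_series K 0
  have h2 : ∀ k, ∃ C₀ : ℝ, ∀ C, C₀ ≤ C → ∀ z θ, 0 ≤ L.s z → 0 ≤ L.sk k z → cos θ = 0 →
      0 < vev (F.lP (F.loop τ K.Cσ)) (z, θ) ⬝ᵥ
        (L.mjet K.ψ K.ψ_sm S₀.U 0 (z, θ)).B (L.ξ k z) (L.ζ k z) (L.ξ k z) (L.ζ k z) +
        C * (L.ξ k z ^ 2 * (2 * L.a z * L.H22 z * (F.rr z ^ 2 + F.β1 z ^ 2) /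
          (F.rr z * F.c' z))) := by
    intro k
    have hZ : IsCompact (({z | 0 ≤ L.s z} ∩ {z | 0 ≤ L.sk k z}) ×ˢ
        (Set.Icc 0 (2 * π) ∩ {θ | cos θ = 0})) :=
      (L.cpt.inter_right (ck k)).prod
        (isCompact_Icc.inter_right (isClosed_eq continuous_cos continuous_const))
    have := cξ k
    have := cζ k
    have := L.a_sm.continuous
    have := L.H22_sm.continuous
    have := (dy_sm (dy_sm L.f_sm)).continuous
    have := pos_vev_cont (F.lP (F.loop τ K.Cσ))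
    have := pos_vev_cont (L.AAp K.ψ K.ψ_sm S₀.U)
    have := pos_vev_cont (L.MM K.ψ K.ψ_sm S₀.U)
    have hrc : ∀ z, 0 < F.rr z * F.c' z := fun z => mul_pos (rp z) (F.c'_pos z)
    refine (exists_big hZ
      (G := fun q => vev (F.lP (F.loop τ K.Cσ)) q ⬝ᵥ
        (L.mjet K.ψ K.ψ_sm S₀.U 0 q).B (L.ξ k q.1) (L.ζ k q.1) (L.ξ k q.1) (L.ζ k q.1))
      (h := fun q => L.ξ k q.1 ^ 2 * (2 * L.a q.1 * L.H22 q.1 *
        (F.rr q.1 ^ 2 + F.β1 q.1 ^ 2) / (F.rr q.1 * F.c' q.1)))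
      (Continuous.continuousOn (by simp only [pos_mjet]; fun_prop))
      (Continuous.continuousOn (by
        have := fun q : R2 × ℝ => (hrc q.1).ne'
        fun_prop (disch := assumption)))
      (fun q hq => by
        have := pos_a_nonneg hq.1.1
        have := H22_nonneg (L := L) q.1
        have := hrc q.1
        positivity) ?_).imp fun C₀ hC₀ C hC z θ a1 a2 a3 => ?_
    swap
    · obtain ⟨θ', b1, b2, -, b3⟩ := exists_phase (P := R2) θ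
      have b4 : ∀ V, vev V (z, θ') = vev V (z, θ) := fun V => funext fun i => b3 (V i) z
      have := hC₀ C hC (z, θ') ⟨⟨a1, a2⟩, b1, b2.trans a3⟩
      simp only [pos_mjet, b4] at this ⊢
      exact this
    rintro ⟨z, θ⟩ ⟨⟨a1, a2⟩, -, a3⟩ h0
    have hξ := (L.trans k z a1 a2).2
    have hR : F.rr z ^ 2 + F.β1 z ^ 2 ≠ 0 := by have := rp z; positivity
    simp only [mul_eq_zero, div_eq_zero_iff, pow_eq_zero_iff two_ne_zero, hξ, hR, (rp z).ne',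
      (F.c'_pos z).ne', two_ne_zero, false_or, or_false] at h0
    rcases h0 with h0 | h0
    · exact S₀.pos_tilt (pos_a_zero a1 h0) θ a2
    have hfl := (H22_eq_zero_iff a1).1 h0
    have h3 := S₀.pos_key a1 hfl a3 (L.ξ k z) (L.ζ k z)
    obtain ⟨t1, t2⟩ := hturn _ _ _ _ _ S₀.U0 z (F.sub z a1) θ a3
    rw [t1, t2] at h3
    have h4 := hC₁ k z (τ.τ z) (sin θ) a1 a2 hfl (τ.mem z) (by
      have := sin_sq_add_cos_sq θ
      rw [show cos θ = 0 from a3] at this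
      exact sq_eq_one_iff.1 (by simpa using this)) _
      ((hC₂ (Set.mem_range_self k)).trans (hτ k z a1 ((hfl k).antisymm a2)))
    rw [← h3] at h4
    exact (mul_pos_iff_of_pos_right (hrc z)).1 h4
  choose C₃ hC₃ using h2
  obtain ⟨C, hC⟩ := (Set.finite_range C₃).bddAbove
  obtain ⟨S⟩ := F.exists_series K C
  have hM : L.MM K.ψ K.ψ_sm S.U = L.MM K.ψ K.ψ_sm S₀.U := by
    simp only [MM, TT, PP, S.U0, S₀.U0]
  have o := fun z (hz : 0 ≤ L.s z) θ => F.ln_orth τ K.Cσ K.ψ K.ψ_sm S.U0 (F.sub z hz) θ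
  have hG : ∀ z θ, 0 ≤ L.s z → vev (L.ww K.ψ K.ψ_sm S.U) (z, θ) = 0 → ∀ k, 0 ≤ L.sk k z →
      0 < vev (F.lP (F.loop τ K.Cσ)) (z, θ) ⬝ᵥ
        (L.mjet K.ψ K.ψ_sm S.U 0 (z, θ)).B (L.ξ k z) (L.ζ k z) (L.ξ k z) (L.ζ k z) := by
    intro z θ hz hw k hk
    rcases (S.pos_w hz θ).1 hw with h | h
    · exact S.pos_tilt (pos_a_zero hz h) θ hk
    have h3 := hC₃ k C (hC (Set.mem_range_self k)) z θ hz hk h
    have h4 := S₀.diff S hz h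
    change _ = _ + C * (_ * (F.rr z ^ 2 + _) / (F.rr z * _)) at h4
    rw [pos_mjet] at h3 ⊢
    rw [h4, hM]
    linarith
  refine ⟨⟨K.ψ, K.ψ_sm, S.U, S.k, F.lP (F.loop τ K.Cσ), fun n z θ hz =>
    ⟨funext fun i => (S.U_flat n i).van le_rfl hz θ, (S.k_flat n).van le_rfl hz θ⟩, S.eqs,
    fun z θ hz h0 => ?_, fun z θ hz => (o z hz θ).2.2.2.1, fun z θ hz => (o z hz θ).2.2.2.2.1,
    fun z θ hz => ?_, hG, fun z θ hz hw => ?_, fun z θ hz hw =>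
      ((S.pos_w hz.le θ).1 hw).resolve_left (pos_a_pos hz).ne'⟩⟩
  · have h1 := (o z hz θ).1
    have := (F.loop τ K.Cσ).r_pos z
    rw [h0, dotProduct_zero] at h1
    exact absurd h1 (by positivity : (0 : ℝ) < _).ne
  · obtain ⟨e, -, h⟩ := F.ww_eq τ K.Cσ K.ψ K.ψ_sm S.U0 z θ
    rw [h, dotProduct_smul, dotProduct_comm, (o z hz θ).2.2.1, smul_zero]
  · by_contra hc
    push Not at hc
    by_cases hH : L.H22 z = 0
    · have h1 := ((o z hz θ).2.2.2.2.2.2.2.2 hH).2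
      rw [hc.2.2] at h1
      exact absurd h1 (mul_pos ((F.loop τ K.Cσ).r_pos z) (F.c'_pos z)).ne
    · rw [H22_eq_zero_iff hz] at hH
      push Not at hH
      obtain ⟨k, hk⟩ := hH
      have h1 := hG z θ hz hw k hk.le
      rw [pos_mjet, hc.1, hc.2.1, hc.2.2] at h1
      simp at h1

end LocData

end Crest.Agent.R216
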