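import Crest.Agent.R216.LocDefs

/-!
# R216: the tilt function; elementary facts on `H`
-/

set_option autoImplicit false
set_option linter.unusedSectionVars false

open scoped Manifold ContDiff Topology
open Matrix

noncomputable section

namespace Crest.Agent.R216

open Real Per

theorem tilt_nn (x : V4) : 0 ≤ x ⬝ᵥ x := Finset.sum_nonneg fun _ _ => mul_self_nonneg _

theorem tilt_pos {x : V4} (hx : x ≠ 0) : 0 < x ⬝ᵥ x :=
  lt_of_le_of_ne (tilt_nn x) fun h => hx (dotProduct_self_eq_zero.1 h.symm)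

theorem tilt_swap (a b n x : V4) : -cross3 a b n ⬝ᵥ x = n ⬝ᵥ cross3 a b x := by
  simp [cross3, d3, dotProduct, Fin.sum_univ_four]
  ring

theorem tilt_ne {a b c l : V4} (hg : 0 < gram2 a b) (ha : l ⬝ᵥ a = 0) (hb : l ⬝ᵥ b = 0)
    (hc : 0 < l ⬝ᵥ c) : cross3 a b c ≠ 0 := by
  intro h
  have := gram2_mul_sq_le a b c l ha hb
  rw [h, zero_dotProduct, mul_zero] at this
  exact absurd this (not_le.2 (by positivity))

theorem tilt_pt {a b c l : V4} (hg : 0 < gram2 a b) (ha : l ⬝ᵥ a = 0) (hb : l ⬝ᵥ b = 0)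
    (hc : 0 < l ⬝ᵥ c) : ∃ δ : ℝ, ∀ Q : V4, 0 < l ⬝ᵥ Q →
      0 < -cross3 a b (cross3 a b c) ⬝ᵥ Q - δ * (cross3 a b c ⬝ᵥ Q) := by
  have hN := tilt_pos (tilt_ne hg ha hb hc)
  have hvc := tilt_swap a b (cross3 a b c) c
  have hva : -cross3 a b (cross3 a b c) ⬝ᵥ a = 0 := by rw [neg_dotProduct, cross3_dot_fst, neg_zero]
  have hvb : -cross3 a b (cross3 a b c) ⬝ᵥ b = 0 := by rw [neg_dotProduct, cross3_dot_snd, neg_zero]
  have hvN : cross3 a b c ⬝ᵥ -cross3 a b (cross3 a b c) = 0 := by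
    rw [dotProduct_comm, neg_dotProduct, cross3_dot_trd, neg_zero]
  have hNa := cross3_dot_fst a b c
  have hNb := cross3_dot_snd a b c
  have hNc := cross3_dot_trd a b c
  generalize -cross3 a b (cross3 a b c) = v at *
  generalize cross3 a b c = N at *
  have hv : v ≠ 0 := fun h => by
    rw [h, zero_dotProduct] at hvc
    exact hN.ne hvc
  have hvv := tilt_pos hv
  have hs : (√(N ⬝ᵥ N))⁻¹ * (√(N ⬝ᵥ N))⁻¹ = (N ⬝ᵥ N)⁻¹ := by
    rw [← mul_inv, Real.mul_self_sqrt hN.le]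
  have key : ∀ Q : V4, l ⬝ᵥ Q =
      (N ⬝ᵥ N)⁻¹ * (N ⬝ᵥ l) * (N ⬝ᵥ Q) + (v ⬝ᵥ l) * (v ⬝ᵥ Q) / (v ⬝ᵥ v) := by
    intro Q
    have := dot_split a b ((√(N ⬝ᵥ N))⁻¹ • N) v l Q hg
      (by rw [smul_dotProduct, dotProduct_smul, smul_smul, hs, smul_eq_mul, inv_mul_cancel₀ hN.ne'])
      hv (by rw [smul_dotProduct, hNa, smul_zero]) (by rw [smul_dotProduct, hNb, smul_zero]) hva hvb
      (by rw [smul_dotProduct, hvN, smul_zero])
    rw [this, dotProduct_comm a l, dotProduct_comm b l, ha, hb, ← hs]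
    simp only [tang, smul_dotProduct, smul_eq_mul]
    ring
  have h1 := key c
  rw [hNc, hvc, mul_zero, zero_add] at h1
  have hvl : 0 < v ⬝ᵥ l := by
    rw [h1, mul_div_assoc] at hc
    exact (mul_pos_iff_of_pos_right (div_pos hN hvv)).1 hc
  refine ⟨-((N ⬝ᵥ N)⁻¹ * (N ⬝ᵥ l) * ((v ⬝ᵥ v) / (v ⬝ᵥ l))), fun Q hQ => ?_⟩
  have h2 := mul_pos hQ (div_pos hvv hvl)
  rw [key Q] at h2
  refine h2.trans_eq ?_
  field_simp
  ring

theorem tilt_P {a b c q m : V4} (h : Pplus a b c q m) :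
    0 < -cross3 a b (cross3 a b c) ⬝ᵥ q := by
  rw [tilt_swap]
  have h1 := (gram2_nonneg (cross3 a b m) (cross3 a b c)).trans_lt h
  by_contra hc
  exact absurd h1 (not_lt.2 (mul_nonpos_of_nonpos_of_nonneg (not_lt.1 hc) (tilt_nn _)))

theorem tilt_cont {a b c : R2 → V4} (ha : Continuous a) (hb : Continuous b) (hc : Continuous c) :
    Continuous fun z => cross3 (a z) (b z) (c z) := by
  refine continuous_pi fun i => ?_
  fin_cases i <;> simp [cross3, d3] <;> fun_prop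

theorem tilt_abs {ι : Type} [Fintype ι] {s H : R2 → ℝ} {sk p n : ι → R2 → ℝ} (hs : Continuous s)
    (hH : Continuous H) (hsk : ∀ k, Continuous (sk k)) (hp : ∀ k, Continuous (p k))
    (hn : ∀ k, Continuous (n k)) (hK : IsCompact {z | s z = 0}) (H0 : ∀ z, 0 ≤ H z)
    (h1 : ∀ z, s z = 0 → ∃ δ : ℝ, ∀ k, 0 ≤ sk k z → 0 < p k z - δ * n k z)
    (h2 : ∀ z, s z = 0 → H z = 0 → ∀ k, 0 ≤ sk k z → 0 < p k z) :
    ∃ (δ : R2 → ℝ) (μ : ℝ), ContDiff ℝ ∞ δ ∧ 0 < μ ∧ (∀ z, H z ≤ μ → δ z = 0) ∧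
      ∀ z, s z = 0 → ∀ k, 0 ≤ sk k z → 0 < p k z - δ z * n k z := by
  have hB : IsCompact ({z | s z = 0} ∩ ⋃ k, {z | 0 ≤ sk k z} ∩ {z | p k z ≤ 0}) :=
    hK.inter_right (isClosed_iUnion_of_finite fun k => (isClosed_le continuous_const (hsk k)).inter
      (isClosed_le (hp k) continuous_const))
  obtain ⟨μ, hμ, hB'⟩ := hB.exists_forall_le' (f := H) (a := 0) hH.continuousOn (by
    rintro z ⟨hz, hz'⟩
    obtain ⟨k, hk1, hk2⟩ := Set.mem_iUnion.1 hz'
    exact lt_of_le_of_ne (H0 z) fun h => absurd (h2 z hz h.symm k hk1) (not_lt.2 hk2))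
  obtain ⟨g, hg⟩ := exists_contMDiffMap_forall_mem_convex_of_local_const (n := (⊤ : ℕ∞)) 𝓘(ℝ, R2)
    (t := fun z => {δ : ℝ | (H z ≤ μ / 2 → δ = 0) ∧
      (s z = 0 → ∀ k, 0 ≤ sk k z → 0 < p k z - δ * n k z)}) (fun z => by
      intro x hx y hy a b ha hb hab
      refine ⟨fun h => by simp [hx.1 h, hy.1 h], fun h k hk => ?_⟩
      have := convex_Ioi (0 : ℝ) (hx.2 h k hk) (hy.2 h k hk) ha hb hab
      simp only [Set.mem_Ioi, smul_eq_mul] at this ⊢
      refine this.trans_eq ?_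
      linear_combination (p k z) * hab) (fun x => by
      rcases lt_or_ge (H x) μ with hx | hx
      · refine ⟨0, ?_⟩
        filter_upwards [(isOpen_lt hH continuous_const).mem_nhds hx] with y hy
        refine ⟨fun _ => rfl, fun h k hk => ?_⟩
        rw [zero_mul, sub_zero]
        by_contra hc
        exact absurd (hB' y ⟨h, Set.mem_iUnion.2 ⟨k, hk, not_lt.1 hc⟩⟩) (not_le.2 hy)
      · have e1 : ∀ᶠ y in 𝓝 x, μ / 2 < H y :=
          (isOpen_lt continuous_const hH).mem_nhds (show μ / 2 < H x by linarith)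
        by_cases hsx : s x = 0
        · obtain ⟨δ, hδ⟩ := h1 x hsx
          have e2 : ∀ᶠ y in 𝓝 x, ∀ k, 0 ≤ sk k y → 0 < p k y - δ * n k y := by
            refine Filter.eventually_all.2 fun k => ?_
            rcases le_or_gt 0 (sk k x) with hk | hk
            · filter_upwards [(isOpen_lt continuous_const
                ((hp k).sub (continuous_const.mul (hn k)))).mem_nhds (hδ k hk)] with y hy _
              exact hy
            · filter_upwards [(isOpen_lt (hsk k) continuous_const).mem_nhds hk] with y hy hy'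
              exact absurd hy' (not_le.2 hy)
          refine ⟨δ, ?_⟩
          filter_upwards [e1, e2] with y hy hy'
          exact ⟨fun h => absurd h (not_le.2 hy), fun _ => hy'⟩
        · refine ⟨0, ?_⟩
          filter_upwards [(isOpen_ne_fun hs continuous_const).mem_nhds hsx] with y hy
          exact ⟨fun _ => rfl, fun h => absurd h hy⟩)
  exact ⟨g, μ / 2, g.contMDiff.contDiff, by positivity, fun z => (hg z).1, fun z => (hg z).2⟩

theorem tilt_flat {ι : Type} [Fintype ι] {b g : ι → R2 → ℝ} (hb : ∀ k, ContDiff ℝ ∞ (b k))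
    (hg : ∀ k, ContDiff ℝ ∞ (g k)) {z : R2} (h : ∀ k, b k z = 0) :
    fderiv ℝ (fun z => ∑ k, b k z ^ 2 * g k z) z = 0 := by
  have : ∀ k ∈ Finset.univ, HasFDerivAt (fun z => b k z ^ 2 * g k z) (0 : R2 →L[ℝ] ℝ) z := by
    intro k _
    have h1 := ((hb k).differentiable (by simp) z).hasFDerivAt
    have h2 := ((hg k).differentiable (by simp) z).hasFDerivAt
    have h3 := (h1.fun_mul h1).fun_mul h2
    simp only [h k, mul_zero, zero_smul, add_zero, smul_zero] at h3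
    simpa only [pow_two] using h3
  simpa using (HasFDerivAt.fun_sum this).fderiv

namespace LocData

variable {ι : Type} [Fintype ι] {L : LocData ι}

theorem H22_nonneg (z : R2) : 0 ≤ L.H22 z :=   Finset.sum_nonneg fun _ _ => mul_nonneg (sq_nonneg _) (mul_self_nonneg _)

theorem tilt_bk {z : R2} {l : ι} (h : L.sk l z ≤ 0) : L.bk l z = 0 := by
  rw [bk, expNegInvGlue.zero_of_nonpos h, zero_mul]

/-- On the disk, `H22 = 0` iff no later disk is open at `z` (`trans`, `ck_pos`). -/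
theorem H22_eq_zero_iff {z : R2} (hz : 0 ≤ L.s z) : L.H22 z = 0 ↔ ∀ l, L.sk l z ≤ 0 := by
  constructor
  · intro h l
    by_contra hc
    have hl := not_le.1 hc
    have h1 := (Finset.sum_eq_zero_iff_of_nonneg fun _ _ =>
      mul_nonneg (sq_nonneg _) (mul_self_nonneg _)).1 h l (Finset.mem_univ l)
    have h2 := (L.trans l z hz hl.le).1
    have h3 : 0 < L.bk l z := mul_pos (expNegInvGlue.pos_of_pos hl) (L.ck_pos l z hz)
    exact absurd h1 (by positivity)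
  · intro h
    exact Finset.sum_eq_zero fun l _ => by rw [tilt_bk (h l)]; ring

/-- `bk l z = 0`, and `d (bk² g) = 2 bk (d bk) g + bk² dg`. -/
theorem H_flat {z : R2} (h : ∀ l, L.sk l z ≤ 0) :
    L.H11 z = 0 ∧ L.H12 z = 0 ∧ L.H22 z = 0 ∧ fderiv ℝ L.H11 z = 0 ∧ fderiv ℝ L.H12 z = 0 ∧
      fderiv ℝ L.H22 z = 0 := by
  have hb := fun l => tilt_bk (h l)
  refine ⟨?_, ?_, ?_, ?_, ?_, ?_⟩
  · exact Finset.sum_eq_zero fun l _ => by rw [hb l]; ring
  · exact Finset.sum_eq_zero fun l _ => by rw [hb l]; ring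
  · exact Finset.sum_eq_zero fun l _ => by rw [hb l]; ring
  · exact tilt_flat L.bk_sm (fun k => (dx_sm (L.ek_sm k)).mul (dx_sm (L.ek_sm k))) hb
  · exact tilt_flat L.bk_sm (fun k => (dx_sm (L.ek_sm k)).mul (dy_sm (L.ek_sm k))) hb
  · exact tilt_flat L.bk_sm (fun k => (dy_sm (L.ek_sm k)).mul (dy_sm (L.ek_sm k))) hb

/-- `cross3 fx fy fyy ≠ 0` on the disk (`H`, `imm`, `gram2_mul_sq_le`). -/
theorem N0_ne {z : R2} (hz : 0 ≤ L.s z) : cross3 (dx L.f z) (dy L.f z) (dy (dy L.f) z) ≠ 0 := by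
  obtain ⟨l, h1, h2, h3, -⟩ := L.H z hz
  exact tilt_ne (L.imm z hz) h1 h2 h3

/-- Smooth extension with values in a convex set
(`exists_contMDiffMap_forall_mem_convex_of_local` with `t x = {u x}` on `C`, `s` off `C`). -/
theorem exists_extend {E : Type} [NormedAddCommGroup E] [NormedSpace ℝ E] {Ω C : Set R2}
    (hΩ : IsOpen Ω) (hC : IsClosed C) (hCΩ : C ⊆ Ω) {u : R2 → E} (hu : ContDiffOn ℝ ∞ u Ω)
    {s : Set E} (hs : Convex ℝ s) (hne : s.Nonempty) (hus : ∀ z ∈ Ω, u z ∈ s) :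
    ∃ v : R2 → E, ContDiff ℝ ∞ v ∧ (∀ z ∈ C, v z = u z) ∧ ∀ z, v z ∈ s := by
  obtain ⟨c, hc⟩ := hne
  obtain ⟨g, hg⟩ := exists_contMDiffMap_forall_mem_convex_of_local (n := (⊤ : ℕ∞)) 𝓘(ℝ, R2)
    (t := fun z => s ∩ {y | z ∈ C → y = u z}) (fun z => hs.inter (by
      intro x hx y hy a b _ _ hab hz
      rw [hx hz, hy hz, ← add_smul, hab, one_smul])) (fun x => by
      by_cases hx : x ∈ C
      · exact ⟨Ω, hΩ.mem_nhds (hCΩ hx), u, hu.contMDiffOn, fun y hy => ⟨hus y hy, fun _ => rfl⟩⟩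
      · exact ⟨Cᶜ, hC.isOpen_compl.mem_nhds hx, fun _ => c, contMDiffOn_const,
          fun y hy => ⟨hc, fun h => absurd h hy⟩⟩)
  exact ⟨g, g.contMDiff.contDiff, fun z hz => (hg z).2 hz, fun z => (hg z).1⟩

/-- `N₀ = cross3 fx fy fyy`, `v = - cross3 fx fy N₀` (so `v ⬝ fyy = |N₀|²`, `v ⊥ N₀`; `N₀, v` span the normal plane:
use `dot_split` with `n = N₀/|N₀|`, `l = v`). The condition `0 < (v - δ N₀) ⬝ Q_k` is convex in `δ`.
At `z ∈ Γ = {s = 0}` the witness `l = α v + β N₀` of `L.H` has `α > 0` (`l ⬝ fyy > 0`), so `δ = -β/α` works at `z`, and near `z`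
(only the indices active at `z` are active near `z`; continuity). At `z ∈ Γ` with `H22 z = 0` the value `δ = 0` works: an active `k` has `sk k z = 0`, and `L.P`
with Cauchy–Schwarz gives `0 < N₀ ⬝ cross3 fx fy Q_k = v ⬝ Q_k` (`cross3_dot`, swap of two rows). By compactness of `Γ` there is `μ > 0` such that `δ = 0`
works on `Γ ∩ {H22 < 2μ}` (the set of `z ∈ Γ` where it fails for some active `k` is compact and has `H22 > 0`). Apply
`exists_contMDiffMap_forall_mem_convex_of_local_const` to `t z = {δ | (H22 z ≤ μ → δ = 0) ∧ (s z = 0 → ∀ k active, 0 < …)}`. -/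
theorem exists_tilt (L : LocData ι) : ∃ (δ : R2 → ℝ) (μ : ℝ), ContDiff ℝ ∞ δ ∧ 0 < μ ∧
    (∀ z, L.H22 z ≤ μ → δ z = 0) ∧ ∀ z, L.s z = 0 → ∀ k, 0 ≤ L.sk k z →
      0 < (-cross3 (dx L.f z) (dy L.f z) (cross3 (dx L.f z) (dy L.f z) (dy (dy L.f) z))
          - δ z • cross3 (dx L.f z) (dy L.f z) (dy (dy L.f) z)) ⬝ᵥ
        (jet L.f z).B (L.ξ k z) (L.ζ k z) (L.ξ k z) (L.ζ k z) := by
  have cx := (dx_sm L.f_sm).continuous
  have cy := (dy_sm L.f_sm).continuous
  have cxx := (dx_sm (dx_sm L.f_sm)).continuous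
  have cxy := (dx_sm (dy_sm L.f_sm)).continuous
  have cyy := (dy_sm (dy_sm L.f_sm)).continuous
  have cN := tilt_cont cx cy cyy
  have cQ : ∀ k, Continuous fun z => (jet L.f z).B (L.ξ k z) (L.ζ k z) (L.ξ k z) (L.ζ k z) := by
    intro k
    have := (L.ξ_sm k).continuous
    have := (L.ζ_sm k).continuous
    simp only [Jet.B, jet]
    fun_prop
  obtain ⟨δ, μ, h1, h2, h3, h4⟩ := tilt_abs L.s_sm.continuous L.H22_sm.continuous
    (fun k => (L.sk_sm k).continuous)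
    (fun k => (tilt_cont cx cy cN).neg.dotProduct (cQ k)) (fun k => cN.dotProduct (cQ k))
    (L.cpt.of_isClosed_subset (isClosed_eq L.s_sm.continuous continuous_const)
      fun z hz => le_of_eq (Eq.symm hz)) (fun z => H22_nonneg z)
    (fun z hz => by
      obtain ⟨l, l1, l2, l3, l4⟩ := L.H z hz.ge
      obtain ⟨δ, hδ⟩ := tilt_pt (L.imm z hz.ge) l1 l2 l3
      exact ⟨δ, fun k hk => hδ _ (l4 k hk)⟩)
    (fun z hz h0 k hk => by
      have h5 := (H22_eq_zero_iff hz.ge).1 h0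
      exact tilt_P (L.P k z hz (le_antisymm (h5 k) hk) h5))
  refine ⟨δ, μ, h1, h2, h3, fun z hz k hk => ?_⟩
  rw [sub_dotProduct, smul_dotProduct]
  exact h4 z hz k hk

end LocData

end Crest.Agent.R216
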