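import Crest.Agent.R216.Turn
import Crest.Agent.R216.Tilt

/-!
# R216: identities at turning points
-/

set_option autoImplicit false
set_option linter.unusedSectionVars false

open scoped Manifold ContDiff Topology
open Matrix

noncomputable section

namespace Crest.Agent.R216

open Real Per

section Abs

variable {R : Type} [CommRing R] [Algebra ℝ R] {X Y Θ : Derivation ℝ R R} {fx b : Fin 4 → R}
  {a H11 H12 H22 : R} {U : ℕ → Fin 4 → R} {k : ℕ → R}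

theorem pa_abs (φ : R →ₐ[ℝ] ℝ) (e : (Fin 4 → R) → V4) (he : ∀ V W, φ (V ⬝ᵥ W) = e V ⬝ᵥ e W)
    (hXY : ∀ u, X (Y u) = Y (X u)) (hXΘ : ∀ u, X (Θ u) = Θ (X u))
    (hYΘ : ∀ u, Y (Θ u) = Θ (Y u)) (hfx : vD Θ fx = 0) (hb : vD Θ b = 0) (ha : Θ a = 0)
    (hc : vD Y fx = vD X b) (h : Eqs X Y Θ fx b a H11 H12 H22 U k) (t11 : Θ H11 = 0)
    (t12 : Θ H12 = 0) (t22 : Θ H22 = 0) (z11 : φ H11 = 0) (z12 : φ H12 = 0) (z22 : φ H22 = 0)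
    (zy : φ (Y H12) = 0) (zx : φ (X H22) = 0) (hw : e (vD Θ (PP X Θ fx U 0)) = 0)
    {g11 g12 g22 : R} (h11 : fx ⬝ᵥ fx + a ^ 2 = g11) (h12 : fx ⬝ᵥ b = g12) (h22 : b ⬝ᵥ b = g22)
    {T A M c b' : V4} (hT : e (PP X Θ fx U 0) = T) (hA : e (AA X Θ fx U) = A)
    (hM : e (vD Y (PP X Θ fx U 0)) = M) (hcc : e (vD Y b) = c) (hbb : e b = b') :
    T ⬝ᵥ T = φ g11 ∧ T ⬝ᵥ b' = φ g12 ∧ T ⬝ᵥ A = φ (X g11) / 2 ∧ T ⬝ᵥ M = φ (Y g11) / 2 ∧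
    b' ⬝ᵥ A = φ (X g12) - φ (Y g11) / 2 ∧ b' ⬝ᵥ M = φ (X g22) / 2 ∧
    T ⬝ᵥ c = φ (Y g12) - φ (X g22) / 2 ∧ b' ⬝ᵥ c = φ (Y g22) / 2 ∧
    2 * (A ⬝ᵥ c - M ⬝ᵥ M) = 2 * φ (X (Y g12)) - φ (Y (Y g11)) - φ (X (X g22)) := by
  obtain ⟨e1, e2, -, -, e5, e6, e7, e8, e9, e10, e11⟩ := gauss hXY hXΘ hYΘ hfx hb ha hc h
  rw [h11] at e1 e5 e6 e11
  rw [h12] at e2 e7 e9 e11
  rw [h22] at e8 e10 e11
  have t12' : Θ (Y H12) = 0 := by rw [← hYΘ, t12, map_zero]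
  simp only [Derivation.leibniz, t11, t12, t22, t12', smul_eq_mul, map_add, mul_zero, zero_add,
    add_zero] at e5 e7 e8 e11
  have f1 := congrArg φ e1
  have f2 := congrArg φ e2
  have f5 := congrArg φ e5
  have f6 := congrArg φ e6
  have f7 := congrArg φ e7
  have f8 := congrArg φ e8
  have f9 := congrArg φ e9
  have f10 := congrArg φ e10
  have f11 := congrArg φ e11
  simp only [map_add, map_sub, map_mul, map_ofNat, he, hw, hT, hA, hM, hcc, hbb, z11, z12, z22, zy,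
    zx, zero_mul, mul_zero, add_zero, sub_zero, zero_dotProduct] at f1 f2 f5 f6 f7 f8 f9 f10 f11
  refine ⟨f1, f2, ?_, ?_, ?_, ?_, ?_, ?_, ?_⟩ <;> linarith

theorem pa_abs2 (φ : R →ₐ[ℝ] ℝ) (e : (Fin 4 → R) → V4) (he : ∀ V W, φ (V ⬝ᵥ W) = e V ⬝ᵥ e W)
    {U' : ℕ → Fin 4 → R} {k' : ℕ → R} (hXΘ : ∀ u, X (Θ u) = Θ (X u))
    (hYΘ : ∀ u, Y (Θ u) = Θ (Y u)) (hb : vD Θ b = 0) (hH : Θ H22 = 0) (ha : Θ a = 0)
    (h : Eqs X Y Θ fx b a H11 H12 H22 U k) (h' : Eqs X Y Θ fx b a H11 H12 H22 U' k')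
    (h0 : U' 0 = U 0) (hk : k' 0 = k 0) {γ c2 : R} {E2 : Fin 4 → R} {C : ℝ} (hγ : Θ γ = 0)
    (hE : vD Θ E2 = 0) (k1 : k 1 = -2 * γ * (E2 ⬝ᵥ U 1) - (0 : ℝ) • (a * c2))
    (k1' : k' 1 = -2 * γ * (E2 ⬝ᵥ U' 1) - C • (a * c2)) (hw : e (vD Θ (PP X Θ fx U 0)) = 0) :
    ∃ Δ : Fin 4 → R, AA X Θ fx U' = AA X Θ fx U + Δ ∧ e (PP X Θ fx U 0) ⬝ᵥ e Δ = 0 ∧
      e b ⬝ᵥ e Δ = 0 ∧ -2 * (e (vD Y b) ⬝ᵥ e Δ) =
        (-2 * φ γ * (e E2 ⬝ᵥ e Δ) - C * (φ a * φ (Θ (Θ c2)))) * φ H22 := by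
  obtain ⟨e1, e2, e3, e4⟩ := gauss_diff hXΘ hYΘ hb hH h h' h0 hk
  have hk : k' 1 - k 1 = -2 * γ * (E2 ⬝ᵥ (U' 1 - U 1)) - C • (a * c2) := by
    rw [k1, k1', dotProduct_sub, zero_smul]; ring
  have h2 : Θ (2 : R) = 0 := by
    have : (2 : R) = 1 + 1 := by norm_num
    rw [this, map_add, Derivation.map_one_eq_zero, add_zero]
  have hkk : Θ (Θ (k' 1 - k 1)) =
      -2 * γ * (E2 ⬝ᵥ vD Θ (vD Θ (U' 1 - U 1))) - C • (a * Θ (Θ c2)) := by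
    rw [hk]
    simp only [map_sub, Derivation.map_smul, Derivation.leibniz, gs_dot, hγ, hE, ha, map_neg, h2,
      smul_eq_mul, mul_zero, add_zero, zero_dotProduct, zero_add, neg_zero]
  rw [hkk] at e4
  have f2 := congrArg φ e2
  have f3 := congrArg φ e3
  have f4 := congrArg φ e4
  simp only [map_add, map_sub, map_mul, map_ofNat, map_neg, map_smul, map_zero, he, hw,
    zero_dotProduct, add_zero, smul_eq_mul] at f2 f3 f4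
  exact ⟨_, e1, f2, f3, f4⟩

end Abs

namespace LocData

variable {ι : Type} [Fintype ι] {L : LocData ι}

theorem pa_g11_sm (L : LocData ι) : ContDiff ℝ ∞ L.g11 :=
  (ContDiff.sum fun i _ => (contDiff_pi.1 (dx_sm L.f_sm) i).mul (contDiff_pi.1 (dx_sm L.f_sm) i)).add
    (L.a_sm.pow 2)
theorem pa_g12_sm (L : LocData ι) : ContDiff ℝ ∞ L.g12 :=
  ContDiff.sum (s := Finset.univ) fun i _ =>
    (contDiff_pi.1 (dx_sm L.f_sm) i).mul (contDiff_pi.1 (dy_sm L.f_sm) i)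
theorem pa_g22_sm (L : LocData ι) : ContDiff ℝ ∞ L.g22 :=
  ContDiff.sum (s := Finset.univ) fun i _ =>
    (contDiff_pi.1 (dy_sm L.f_sm) i).mul (contDiff_pi.1 (dy_sm L.f_sm) i)

theorem pa_g11 (L : LocData ι) : L.fxP ⬝ᵥ L.fxP + L.aP ^ 2 = cst L.g11 L.pa_g11_sm :=
  ext' fun z θ => congrArg (· + L.a z ^ 2) (dot_val L.fxP L.fxP (z, θ))
theorem pa_g12 (L : LocData ι) : L.fxP ⬝ᵥ L.fyP = cst L.g12 L.pa_g12_sm :=
  ext' fun z θ => dot_val L.fxP L.fyP (z, θ)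
theorem pa_g22 (L : LocData ι) : L.fyP ⬝ᵥ L.fyP = cst L.g22 L.pa_g22_sm :=
  ext' fun z θ => dot_val L.fyP L.fyP (z, θ)

theorem pa_vev_add (V W : Fin 4 → Per R2) (q : R2 × ℝ) : vev (V + W) q = vev V q + vev W q := rfl

theorem pa_vev_zero {V : Fin 4 → Per R2} (h : ∀ i, L.Flat 1 (V i)) {z : R2} (hz : L.s z ≤ 0)
    (θ : ℝ) : vev V (z, θ) = 0 := funext fun i => (h i).van le_rfl hz θ

theorem pa_hc (L : LocData ι) (ψ : R2 → ℝ) (hψ : ContDiff ℝ ∞ ψ) :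
    vD (Yp ψ hψ) L.fxP = vD (Xp ψ hψ) L.fyP := by
  rw [fxP, fyP, Yp_vcst, Xp_vcst]
  funext i
  exact ext' fun z θ => congrFun (congrFun (dx_dy_comm L.f_sm).symm z) i

theorem pa_c2 (z : R2) {θ : ℝ} (hθ : cos θ = 0) : (Th (Th c2)).1 (z, θ) = 4 := by
  have h1 : ∀ t, (Th c2).1 (z, t) = -sin (2 * t) * 2 := fun t => by
    rw [Th_val]
    have : HasDerivAt (fun t : ℝ => cos (2 * t)) (-sin (2 * t) * 2) t := by
      simpa using ((hasDerivAt_id t).const_mul 2).cos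
    exact this.deriv
  rw [Th_val]
  simp only [h1]
  have : HasDerivAt (fun t : ℝ => -sin (2 * t) * 2) (-(cos (2 * θ) * 2) * 2) θ := by
    have h2 : HasDerivAt (fun t : ℝ => sin (2 * t)) (cos (2 * θ) * 2) θ := by
      simpa using ((hasDerivAt_id θ).const_mul 2).sin
    exact h2.neg.mul_const 2
  rw [this.deriv, cos_two_mul, hθ]
  norm_num

namespace Frame

variable (F : L.Frame) {τ : Shape} (K : F.Ker τ)

/-- At `s z ≤ 0` all `U n` and their derivatives vanish (`Flat.van`, `Flat.pd`, `Flat.Xp`, …). -/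
theorem Series.mjet_zero {F : L.Frame} {K : F.Ker τ} {C : ℝ} (S : F.Series K C) {z : R2}
    (hz : L.s z ≤ 0) (θ : ℝ) :
    vev (L.ww K.ψ K.ψ_sm S.U) (z, θ) = 0 ∧ L.mjet K.ψ K.ψ_sm S.U 0 (z, θ) = jet L.f z := by
  have hU := S.U_flat
  have fT : ∀ {V : Fin 4 → Per R2}, (∀ i, L.Flat 1 (V i)) → ∀ i, L.Flat 1 (vD Th V i) :=
    fun h i => (h i).pd le_rfl _
  have fX : ∀ {V : Fin 4 → Per R2}, (∀ i, L.Flat 1 (V i)) →
      ∀ i, L.Flat 1 (vD (Xp K.ψ K.ψ_sm) V i) := fun h i => (h i).Xp le_rfl _ _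
  have fY : ∀ {V : Fin 4 → Per R2}, (∀ i, L.Flat 1 (V i)) →
      ∀ i, L.Flat 1 (vD (Yp K.ψ K.ψ_sm) V i) := fun h i => (h i).Yp le_rfl _ _
  have hx : vD Th L.fxP = 0 := Th_vcst _ _
  refine ⟨?_, ?_⟩
  · simp only [ww, TT, PP, gs_add, hx, zero_add]
    exact pa_vev_zero (fT (fT (hU 0))) hz θ
  · simp only [mjet, jet, zero_smul, zero_add, Jet.mk.injEq, true_and, and_true]
    refine ⟨?_, ?_, ?_⟩
    · simp only [TT, PP, pa_vev_add, pa_vev_zero (fT (hU 0)) hz θ, add_zero]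
      rfl
    · simp only [AAp, AA, PP, gs_add, pa_vev_add, pa_vev_zero (fX (fT (hU 0))) hz θ,
        pa_vev_zero (fT (fT (hU (0 + 1)))) hz θ, pa_vev_zero (fT (fX (hU 0))) hz θ, add_zero]
      rw [fxP, Xp_vcst]
      rfl
    · simp only [MM, TT, PP, gs_add, pa_vev_add, pa_vev_zero (fY (fT (hU 0))) hz θ, add_zero]
      rw [pa_hc, fyP, Xp_vcst]
      rfl

/-- Evaluate `gauss` (with `Xp, Yp, Th`; `Xp_cst` etc.) at `(z, θ)`; the terms with `k n * H` vanish by `H_flat`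
(Leibniz; `Th H = 0`), `w = 0`; then `dot_split` for `A ⬝ c` and `M ⬝ M`, `ln_orth`.
`gram2 T b = g11 g22 - g12² ≥ gram2 fx fy > 0`. -/
theorem Series.flat_identity {F : L.Frame} {K : F.Ker τ} {C : ℝ} (S : F.Series K C) {z : R2}
    (hz : 0 ≤ L.s z) (hfl : ∀ l, L.sk l z ≤ 0) {θ : ℝ}
    (hw : vev (L.ww K.ψ K.ψ_sm S.U) (z, θ) = 0) :
    let l := vev (F.lP (F.loop τ K.Cσ)) (z, θ)
    let n := vev (F.nP (F.loop τ K.Cσ)) (z, θ)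
    let A := vev (L.AAp K.ψ K.ψ_sm S.U) (z, θ)
    let M := vev (L.MM K.ψ K.ψ_sm S.U) (z, θ)
    (l ⬝ᵥ A) * (l ⬝ᵥ dy (dy L.f) z) =
      (l ⬝ᵥ M) ^ 2 + (l ⬝ᵥ l) * ((n ⬝ᵥ M) ^ 2 + L.Kt z) := by
  intro l n A M
  have hx : vD Th L.fxP = 0 := Th_vcst _ _
  have hy : vD Th L.fyP = 0 := Th_vcst _ _
  have ha : Th L.aP = 0 := Th_cst _ _
  obtain ⟨h11, h12, h22, d11, d12, d22⟩ := H_flat hfl
  obtain ⟨o1, o2, o3, o4, o5, o6, o7, -, o9⟩ := F.ln_orth τ K.Cσ K.ψ K.ψ_sm S.U0 (F.sub z hz) θ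
  obtain ⟨o9, -⟩ := o9 h22
  have hc : vev (vD (Yp K.ψ K.ψ_sm) L.fyP) (z, θ) = dy (dy L.f) z := by rw [fyP, Yp_vcst]; rfl
  have hb : vev L.fyP (z, θ) = dy L.f z := rfl
  have dy12 : ev (z, θ) (Yp K.ψ K.ψ_sm L.H12P) = 0 := by
    rw [H12P, Yp_cst, ev_apply, cst_val]; simp [dy, d12]
  have dx22 : ev (z, θ) (Xp K.ψ K.ψ_sm L.H22P) = 0 := by
    rw [H22P, Xp_cst, ev_apply, cst_val]; simp [dx, d22]
  obtain ⟨T, hT⟩ : ∃ T, vev (L.TT K.ψ K.ψ_sm S.U) (z, θ) = T := ⟨_, rfl⟩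
  rw [hT] at o4 o6
  obtain ⟨g1, g2, g5, g6, g7, g8, g9, g10, g11⟩ := pa_abs (ev (z, θ)) (fun V => vev V (z, θ))
    (fun V W => dot_val V W (z, θ)) (Xp_Yp K.ψ K.ψ_sm) (Xp_Th K.ψ K.ψ_sm) (Yp_Th K.ψ K.ψ_sm) hx hy ha
    (L.pa_hc K.ψ K.ψ_sm) S.eqs (Th_cst _ _) (Th_cst _ _) (Th_cst _ _) h11 h12 h22 dy12 dx22 hw
    L.pa_g11 L.pa_g12 L.pa_g22 (A := A) (M := M) hT rfl rfl hc hb
  simp only [Xp_cst, Yp_cst, ev_apply, cst_val] at g1 g2 g5 g6 g7 g8 g9 g10 g11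
  have g3 : dy L.f z ⬝ᵥ dy L.f z = L.g22 z := rfl
  change l ⬝ᵥ l = _ at o1
  change n ⬝ᵥ n = 1 at o2
  change n ⬝ᵥ l = 0 at o3
  change l ⬝ᵥ T = 0 at o4
  change l ⬝ᵥ _ = 0 at o5
  change n ⬝ᵥ T = 0 at o6
  change n ⬝ᵥ _ = 0 at o7 o9
  clear_value l n A M
  have hg : 0 < gram2 T (dy L.f z) := by
    have h1 := L.imm z hz
    have h2 : 0 ≤ dy L.f z ⬝ᵥ dy L.f z := Finset.sum_nonneg fun i _ => mul_self_nonneg _
    have h3 := mul_nonneg (sq_nonneg (L.a z)) h2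
    unfold gram2 at h1 ⊢
    rw [g1, g2]
    unfold LocData.g11 LocData.g12
    linarith
  have hll : 0 < l ⬝ᵥ l := by
    have := (F.loop τ K.Cσ).r_pos z
    rw [o1]; positivity
  have hl : l ≠ 0 := fun h => by rw [h] at hll; simp at hll
  have s1 := dot_split T (dy L.f z) n l A (dy (dy L.f) z) hg o2 hl o6 o7 o4 o5 o3
  have s2 := dot_split T (dy L.f z) n l M M hg o2 hl o6 o7 o4 o5 o3
  rw [g1, g2, g3, g5, g7, g9, g10, o9] at s1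
  rw [g1, g2, g3, g6, g8] at s2
  have key : (l ⬝ᵥ A) * (l ⬝ᵥ dy (dy L.f) z) / (l ⬝ᵥ l) =
      (l ⬝ᵥ M) * (l ⬝ᵥ M) / (l ⬝ᵥ l) + ((n ⬝ᵥ M) ^ 2 + L.Kt z) := by
    unfold Kt
    linarith
  field_simp at key
  linarith

/-- `gauss_diff` for `S'` (constant `C`) and `S` (constant `0`): `k' 1 - k 1 = -2 γ E2 ⬝ d - C a cos 2θ`,
`Θ Θ cos 2θ = -4 cos 2θ = 4` at a turning point; with `c_eq`: `-2 c' ν ⬝ Δ = -4 C a H22`; then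
`r l = (r² + β1²) ν - β1 T + β1 β' b` (`ln_orth`), `w = 0` (`ww_eq`). -/
theorem Series.diff {F : L.Frame} {K : F.Ker τ} {C : ℝ} (S : F.Series K 0) (S' : F.Series K C)
    {z : R2} (hz : 0 ≤ L.s z) {θ : ℝ} (hθ : cos θ = 0) :
    let l := vev (F.lP (F.loop τ K.Cσ)) (z, θ)
    let r := (F.loop τ K.Cσ).r z
    l ⬝ᵥ vev (L.AAp K.ψ K.ψ_sm S'.U) (z, θ) = l ⬝ᵥ vev (L.AAp K.ψ K.ψ_sm S.U) (z, θ)
      + C * (2 * L.a z * L.H22 z * (r ^ 2 + F.β1 z ^ 2) / (r * F.c' z)) := by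
  intro l r
  have h0 : S'.U 0 = S.U 0 := S'.U0.trans S.U0.symm
  have hy : vD Th L.fyP = 0 := Th_vcst _ _
  have hH : Th L.H22P = 0 := Th_cst _ _
  have hγ : Th F.γP = 0 := Th_cst _ _
  have hE : vD Th F.E2P = 0 := Th_vcst _ _
  have ha : Th L.aP = 0 := Th_cst _ _
  obtain ⟨-, -, -, -, -, -, -, o8, -⟩ := F.ln_orth τ K.Cσ K.ψ K.ψ_sm S.U0 (F.sub z hz) θ
  obtain ⟨e, -, hw⟩ := F.ww_eq τ K.Cσ K.ψ K.ψ_sm S.U0 z θ
  rw [hθ, mul_zero, zero_mul, zero_smul] at hw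
  obtain ⟨Δ', e1, g2, g3, g4⟩ := pa_abs2 (ev (z, θ)) (fun V => vev V (z, θ))
    (fun V W => dot_val V W (z, θ)) (Xp_Th K.ψ K.ψ_sm) (Yp_Th K.ψ K.ψ_sm) hy hH ha S.eqs S'.eqs h0
    (by rw [S'.k0, S.k0, h0]) hγ hE S.k1 S'.k1 hw
  have hc : vev (vD (Yp K.ψ K.ψ_sm) L.fyP) (z, θ) = dy (dy L.f) z := by rw [fyP, Yp_vcst]; rfl
  rw [AAp, e1, pa_vev_add, dotProduct_add]
  simp only [hc, ev_apply, pa_c2 z hθ] at g4
  generalize vev Δ' (z, θ) = Δ at *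
  change vev (L.TT K.ψ K.ψ_sm S.U) (z, θ) ⬝ᵥ Δ = 0 at g2
  change dy L.f z ⬝ᵥ Δ = 0 at g3
  change _ = (-2 * F.γ z * (F.E2 z ⬝ᵥ Δ) - C * (L.a z * 4)) * L.H22 z at g4
  change r • l = (r ^ 2 + F.β1 z ^ 2) • F.ν z - _ + _ at o8
  rw [F.c_eq z (F.sub z hz)] at g4
  simp only [add_dotProduct, smul_dotProduct, g3, smul_eq_mul] at g4
  have g5 := congrArg (· ⬝ᵥ Δ) o8
  simp only [add_dotProduct, sub_dotProduct, smul_dotProduct, g2, g3, smul_eq_mul] at g5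
  have hr : 0 < r := (F.loop τ K.Cσ).r_pos z
  have hc' := F.c'_pos z
  congr 1
  have g6 : r * (l ⬝ᵥ Δ) = (r ^ 2 + F.β1 z ^ 2) * (F.ν z ⬝ᵥ Δ) := by linarith
  have g7 : F.c' z * (F.ν z ⬝ᵥ Δ) = 2 * C * L.a z * L.H22 z := by linarith
  field_simp
  linear_combination F.c' z * g6 + (r ^ 2 + F.β1 z ^ 2) * g7

end Frame

end LocData

end Crest.Agent.R216
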