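import Crest.Agent.R216.StTm

/-!
# R216 / Step: composition with functions of one variable
-/

set_option autoImplicit false
set_option linter.unusedSectionVars false

open scoped Manifold ContDiff Topology
open Matrix

noncomputable section

namespace Crest.Agent.R216

variable {M : Type*} [TopologicalSpace M] [T2Space M] [CompactSpace M] [ChartedSpace E2 M]
  [IsManifold (𝓡 2) ∞ M]
variable {E : Type} [NormedAddCommGroup E] [NormedSpace ℝ E]
variable {P : Type*}

theorem bd_cos : BD Real.cos := ⟨Real.contDiff_cos, fun k => ⟨1, Real.abs_iteratedDeriv_cos_le_one k⟩⟩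

theorem bd_sin : BD Real.sin := ⟨Real.contDiff_sin, fun k => ⟨1, Real.abs_iteratedDeriv_sin_le_one k⟩⟩

theorem BD.deriv {Φ : ℝ → ℝ} (h : BD Φ) : BD (deriv Φ) := by
  refine ⟨(contDiff_infty_iff_deriv.1 h.1).2, fun k => ?_⟩
  rw [← iteratedDeriv_succ']
  exact h.2 (k + 1)

/-- A smooth function that agrees with a `BD`-like function outside a compact interval: if
`Φ = 0` on `(-∞, a]`, and every iterated derivative is bounded on `[b, ∞)`, then `BD Φ`
(continuity of `iteratedDeriv k Φ` on the compact interval `[a - 1, b]`; on `(-∞, a)` the iterated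
derivatives vanish by `Filter.EventuallyEq.iteratedDeriv_eq`). -/
theorem bd_of_tail {Φ : ℝ → ℝ} (h : ContDiff ℝ ∞ Φ) (a b : ℝ) (h0 : ∀ s ≤ a, Φ s = 0)
    (h1 : ∀ k : ℕ, ∃ C : ℝ, ∀ s, b ≤ s → |iteratedDeriv k Φ s| ≤ C) : BD Φ := by
  refine ⟨h, fun k => ?_⟩
  obtain ⟨C, hC⟩ := h1 k
  obtain ⟨C', hC'⟩ := (isCompact_Icc (a := a) (b := b)).exists_bound_of_continuousOn
    (h.continuous_iteratedDeriv k (by exact_mod_cast le_top)).continuousOn
  refine ⟨max 0 (max C C'), fun s => ?_⟩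
  rcases lt_or_ge s a with hs | hs
  · have e : Φ =ᶠ[𝓝 s] fun _ => 0 := by
      filter_upwards [Iio_mem_nhds hs] with y hy using h0 y (le_of_lt hy)
    rw [e.iteratedDeriv_eq k, iteratedDeriv_fun_const_zero, abs_zero]
    exact le_max_left _ _
  · rcases le_total b s with hb | hb
    · exact (hC s hb).trans ((le_max_left _ _).trans (le_max_right _ _))
    · exact (hC' s ⟨hs, hb⟩).trans ((le_max_right _ _).trans (le_max_right _ _))

/-- Cut-off: `0` on `s ≤ 1`, `1` on `2 ≤ s`. -/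
def gam (s : ℝ) : ℝ := Real.smoothTransition (s - 1)

theorem bd_gam : BD gam := by
  refine bd_of_tail (Real.smoothTransition.contDiff.comp (contDiff_id.sub contDiff_const)) 1 3
    (fun s hs => Real.smoothTransition.zero_of_nonpos (by linarith)) fun k => ⟨1, fun s hs => ?_⟩
  have e : gam =ᶠ[𝓝 s] fun _ => 1 := by
    filter_upwards [Ioi_mem_nhds (show (2 : ℝ) < s by linarith)] with y hy
    exact Real.smoothTransition.one_of_one_le (by linarith [Set.mem_Ioi.1 hy])
  rw [e.iteratedDeriv_eq k, iteratedDeriv_const]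
  split_ifs <;> simp

theorem gam_one {s : ℝ} (h : 2 ≤ s) : gam s = 1 := Real.smoothTransition.one_of_one_le (by linarith)

theorem gam_nonneg (s : ℝ) : 0 ≤ gam s := Real.smoothTransition.nonneg _

theorem one_lt_of_gam_ne {s : ℝ} (h : gam s ≠ 0) : 1 < s := by
  by_contra hs
  exact h (Real.smoothTransition.zero_of_nonpos (by linarith))

/-- `Φ s = smoothTransition (2 s - 1) * s ^ (-1/2 : ℝ)`: smooth (it vanishes for `s ≤ 1/2`, and `rpow`
is smooth on `s > 0`); on `s > 1` it is `s ^ (-1/2)`, whose `k`-th derivative is `c_k s ^ (-1/2 - k)`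
(`Real.iter_deriv_rpow_const` or induction), bounded on `[2, ∞)`. -/
theorem exists_isq : ∃ Φ : ℝ → ℝ, BD Φ ∧ ∀ s, 1 ≤ s → Φ s ^ 2 * s = 1 := by
  have one : ∀ s : ℝ, 1 ≤ s → Real.smoothTransition (2 * s - 1) = 1 := fun s hs =>
    Real.smoothTransition.one_of_one_le (by linarith)
  have zero : ∀ s : ℝ, s ≤ 1 / 2 → Real.smoothTransition (2 * s - 1) = 0 := fun s hs =>
    Real.smoothTransition.zero_of_nonpos (by linarith)
  refine ⟨fun s => Real.smoothTransition (2 * s - 1) * s ^ (-1 / 2 : ℝ),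
    bd_of_tail ?_ (1 / 2) 2 (fun s hs => by simp only [zero s hs, zero_mul]) fun k =>
      ⟨|(descPochhammer ℝ k).eval (-1 / 2)|, fun s hs => ?_⟩, fun s hs => ?_⟩
  · refine contDiff_iff_contDiffAt.2 fun s => ?_
    rcases lt_or_ge s (1 / 2) with hs | hs
    · refine (contDiffAt_const (c := (0 : ℝ))).congr_of_eventuallyEq ?_
      filter_upwards [Iio_mem_nhds hs] with y hy
      simp only [zero y (le_of_lt hy), zero_mul]
    · exact (Real.smoothTransition.contDiff.comp
        ((contDiff_const.mul contDiff_id).sub contDiff_const)).contDiffAt.mul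
        (Real.contDiffAt_rpow_const_of_ne (by linarith))
  · have e : (fun s : ℝ => Real.smoothTransition (2 * s - 1) * s ^ (-1 / 2 : ℝ)) =ᶠ[𝓝 s]
        fun s => s ^ (-1 / 2 : ℝ) := by
      filter_upwards [Ioi_mem_nhds (show (1 : ℝ) < s by linarith)] with y hy
      rw [one y (le_of_lt hy), one_mul]
    rw [e.iteratedDeriv_eq k, iteratedDeriv_eq_iterate, Real.iter_deriv_rpow_const, abs_mul]
    refine mul_le_of_le_one_right (abs_nonneg _) ?_
    rw [abs_of_nonneg (Real.rpow_nonneg (by linarith) _)]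
    refine Real.rpow_le_one_of_one_le_of_nonpos (by linarith) ?_
    have : (0 : ℝ) ≤ k := Nat.cast_nonneg k
    linarith
  · have h0 : 0 < s := by linarith
    simp only [one s hs, one_mul]
    rw [← Real.rpow_natCast, ← Real.rpow_mul h0.le, ← Real.rpow_add_one h0.ne']
    norm_num

namespace Atl

variable {A : Atl M} {L μ : P → ℝ}

theorem bd_abs (hL : ∀ q, 2 ≤ L q) (c : ℝ) : ∃ n : ℕ, ∀ q, c ≤ L q ^ n := by
  obtain ⟨n, hn⟩ := pow_unbounded_of_one_lt c (one_lt_two (α := ℝ))
  exact ⟨n, fun q => hn.le.trans (pow_le_pow_left₀ zero_le_two (hL q) n)⟩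

/-- Induction on `k` generalizing `Φ` for the statement
`∃ m, ∀ q, NB k (Φ ∘ u q) (L^m μ^k)` together with all `j ≤ k`:
`D α (Φ ∘ u) = D α u * (deriv Φ ∘ u)` (`D_comp_real`), `NB_succ_iff`, `NB_smul_graded`; finitely
many `α`. -/
theorem tm_comp (hL : ∀ q, 2 ≤ L q) (hμ : ∀ q, 1 ≤ μ q) {Φ : ℝ → ℝ} (hΦ : BD Φ) {u : P → M → ℝ}
    (hu : ∀ q, Sm (u q)) (hD : ∀ α, A.Tm L μ μ (fun q => A.D α (u q))) :
    A.Tm L μ 1 (fun q p => Φ (u q p)) := by
  refine ⟨hL, hμ, fun _ => zero_le_one, fun q => (hu q).comp hΦ.1, fun k => ?_⟩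
  induction k using Nat.strong_induction_on generalizing Φ with
  | _ k ih =>
    obtain ⟨C, hC⟩ := hΦ.2 0
    obtain ⟨n, hn⟩ := bd_abs hL C
    have h0 : ∀ q p, ‖Φ (u q p)‖ ≤ L q ^ n := fun q p => (hC (u q p)).trans (hn q)
    rcases k with _ | k
    · refine ⟨n, fun q w hw p => ?_⟩
      rw [List.length_eq_zero_iff.1 (Nat.le_zero.1 hw)]
      simpa [Dw] using h0 q p
    · obtain ⟨m, hm⟩ := tm_unif (A := A) (Z := 1) hL hμ (fun _ => zero_le_one)
        (Finset.univ : Finset (Fin (k + 1))) (fun j => j.1) (w := fun _ q p => deriv Φ (u q p))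
        fun j => ih j.1 j.2 hΦ.deriv
      have h1 : ∀ α, ∃ m : ℕ, ∀ q, A.NB k (A.D α fun p => Φ (u q p)) (L q ^ m * μ q * μ q ^ k) := by
        intro α
        obtain ⟨m', hm'⟩ := (hD α).bd_le k
        obtain ⟨n', hn'⟩ := bd_abs hL (2 ^ k)
        refine ⟨n' + m' + m, fun q => ?_⟩
        have e : (A.D α fun p => Φ (u q p)) = fun p => A.D α (u q) p • deriv Φ (u q p) :=
          funext fun p => A.D_comp_real α (hu q) (hΦ.1.differentiable (by simp) _)
        rw [e]
        refine (A.NB_smul_graded (A.D_sm α (hu q)) ((hu q).comp hΦ.deriv.1) (hμ q)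
          (fun j hj => hm' j hj q)
          (fun j hj => hm ⟨j, Nat.lt_succ_of_le hj⟩ (Finset.mem_univ _) q)).mono le_rfl ?_
        have h2 := hL q
        have h3 := hμ q
        have h4 := hn' q
        calc 2 ^ k * (L q ^ m' * μ q) * (L q ^ m * (1 : P → ℝ) q) * μ q ^ k
            = 2 ^ k * (L q ^ m' * μ q * L q ^ m * μ q ^ k) := by simp only [Pi.one_apply]; ring
          _ ≤ L q ^ n' * (L q ^ m' * μ q * L q ^ m * μ q ^ k) :=
            mul_le_mul_of_nonneg_right h4 (by positivity)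
          _ = _ := by ring
      obtain ⟨r, hr⟩ := tm_unif (A := A) (Z := μ) hL hμ (fun q => zero_le_one.trans (hμ q))
        Finset.univ (fun _ => k) (w := fun α q => A.D α fun p => Φ (u q p)) h1
      refine ⟨n + r, fun q => A.NB_succ_iff.2 ⟨fun p => (h0 q p).trans ?_, fun α =>
        (hr α (Finset.mem_univ _) q).mono le_rfl ?_⟩⟩
      · have h2 := hL q
        have h3 : 1 ≤ μ q ^ (k + 1) := one_le_pow₀ (hμ q)
        have h4 : L q ^ n ≤ L q ^ (n + r) := pow_le_pow_right₀ (by linarith) (Nat.le_add_right _ _)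
        simp only [Pi.one_apply, mul_one]
        exact h4.trans (le_mul_of_one_le_right (by positivity) h3)
      · have := tm_exp_le (hL q) (zero_le_one.trans (hμ q)) (hμ q) (Nat.le_add_left r n) k
        refine this.trans (le_of_eq ?_)
        simp only [Pi.one_apply]
        ring

theorem Tm.comp {Φ : ℝ → ℝ} {u : P → M → ℝ} (hu : A.Tm L μ 1 u) (hΦ : BD Φ) :
    A.Tm L μ 1 (fun q p => Φ (u q p)) :=
  tm_comp hu.hL hu.hμ hΦ hu.sm fun α => by simpa using hu.D α

/-- Oscillating factors: `D α (lam η) = lam • D α η` (`tm_const`, `Tm.cmul`, `Tm.absorb`). -/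
theorem tm_osc (hL : ∀ q, 2 ≤ L q) (hμ : ∀ q, 1 ≤ μ q) {Φ : ℝ → ℝ} (hΦ : BD Φ) {η : M → ℝ}
    (hη : Sm η) {lam : P → ℝ} (hl : ∀ q, |lam q| ≤ L q * μ q) :
    A.Tm L μ 1 (fun q p => Φ (lam q * η p)) := by
  refine tm_comp hL hμ hΦ (u := fun q p => lam q * η p) (fun q => hη.const_smul (lam q)) fun α => ?_
  have h1 := (tm_const (A := A) hL hμ (A.D_sm α hη)).cmul (Z' := fun q => L q * μ q) lam hl
  refine (h1.absorb 1 (fun q => zero_le_one.trans (hμ q)) fun q => le_of_eq ?_).congr fun q p => ?_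
  · simp
  · exact congrFun (A.D_const_smul α hη (lam q)) p

end Atl

end Crest.Agent.R216
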