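import Crest.Agent.R216.StFrame
import Crest.Agent.R216.Dirs

/-!
# R216 / Step: the adapted decomposition
-/

set_option autoImplicit false
set_option linter.unusedSectionVars false

open scoped Manifold ContDiff Topology
open Matrix

noncomputable section

namespace Crest.Agent.R216

variable {M : Type*} [TopologicalSpace M] [T2Space M] [CompactSpace M] [ChartedSpace E2 M]
  [IsManifold (𝓡 2) ∞ M]
variable {E : Type} [NormedAddCommGroup E] [NormedSpace ℝ E]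
variable {P : Type*}

universe v

namespace Atl

variable (A : Atl M)

theorem dec_nn (v : V4) : 0 ≤ v ⬝ᵥ v := Finset.sum_nonneg fun _ _ => mul_self_nonneg _

theorem dec_bound : ∃ K : ℝ, 1 ≤ K ∧ ∀ α i a p, |A.D α (A.x i a) p| ≤ K := by
  choose C C0 hC using fun q : Fin A.n × Fin 2 => A.exists_NB 1 (A.x_sm q.1 q.2)
  refine ⟨1 + ∑ q, C q, le_add_of_nonneg_right (Finset.sum_nonneg fun q _ => C0 q),
    fun α i a p => (hC (i, a) [α] le_rfl p).trans ?_⟩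
  have := Finset.single_le_sum (f := C) (fun q _ => C0 q) (Finset.mem_univ (i, a))
  linarith

theorem dec_NII (α β γ δ : A.Idx) (i : Fin A.n) {F : M → V4} (hF : Sm F) {p : M} (hp : p ∈ A.O i) :
    A.NII F α β γ δ p =
      (A.D α (A.x i 0) p * A.D β (A.x i 1) p - A.D α (A.x i 1) p * A.D β (A.x i 0) p) •
        ((A.D γ (A.x i 1) p * A.D δ (A.x i 1) p) • A.NII F (i, 0) (i, 1) (i, 1) (i, 1) p +
          (A.D γ (A.x i 0) p * A.D δ (A.x i 1) p + A.D γ (A.x i 1) p * A.D δ (A.x i 0) p) •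
            A.NII F (i, 0) (i, 1) (i, 0) (i, 1) p +
          (A.D γ (A.x i 0) p * A.D δ (A.x i 0) p) • A.NII F (i, 0) (i, 1) (i, 0) (i, 0) p) := by
  rw [NII, A.D_chart α i hF hp, A.D_chart β i hF hp, cross3_frame, A.DD_chart γ δ i hF hp]
  simp only [Fin.sum_univ_two, NII]
  rw [A.D_comm i 1 0 hF hp]
  congr 1
  generalize A.D (i, 0) F p = a
  generalize A.D (i, 1) F p = b
  generalize A.D (i, 0) (A.D (i, 0) F) p = c
  generalize A.D (i, 0) (A.D (i, 1) F) p = d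
  generalize A.D (i, 1) (A.D (i, 1) F) p = e
  ext k
  fin_cases k <;> simp [cross3, d3] <;> ring

theorem dec_fin {K m x y z w a₁ a₂ b₁ b₂ b₃ b₄ : ℝ} (hK : 1 ≤ K) (hw : 0 ≤ w) (hx : 0 ≤ x)
    (hy : 0 ≤ y) (hz : 0 ≤ z) (h1 : |a₁| ≤ K ^ 2) (h2 : |a₂| ≤ K ^ 2) (h3 : |b₁| ≤ K ^ 2)
    (h4 : |b₂| ≤ K ^ 2) (h5 : |b₃| ≤ K ^ 2) (h6 : |b₄| ≤ K ^ 2)
    (h : m ≤ (a₁ - a₂) * ((a₁ - a₂) * w))
    (h' : w ≤ (b₁ ^ 2 + (b₂ + b₃) ^ 2 + b₄ ^ 2) * (x + y + z)) :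
    1 / (72 * K ^ 8) * m ≤ x ∨ 1 / (72 * K ^ 8) * m ≤ y ∨ 1 / (72 * K ^ 8) * m ≤ z := by
  have e : K ^ 8 = (K ^ 2) ^ 2 * (K ^ 2) ^ 2 := by ring
  have hT : 0 < K ^ 2 := by positivity
  rw [e]
  generalize K ^ 2 = T at *
  have s1 : (a₁ - a₂) ^ 2 ≤ (2 * T) ^ 2 :=
    sq_le_sq' (by linarith [abs_le.1 h1, abs_le.1 h2]) (by linarith [abs_le.1 h1, abs_le.1 h2])
  have s2 : (b₂ + b₃) ^ 2 ≤ (2 * T) ^ 2 :=
    sq_le_sq' (by linarith [abs_le.1 h4, abs_le.1 h5]) (by linarith [abs_le.1 h4, abs_le.1 h5])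
  have s3 : b₁ ^ 2 ≤ T ^ 2 := sq_le_sq' (abs_le.1 h3).1 (abs_le.1 h3).2
  have s4 : b₄ ^ 2 ≤ T ^ 2 := sq_le_sq' (abs_le.1 h6).1 (abs_le.1 h6).2
  have s5 : w ≤ 6 * T ^ 2 * (x + y + z) :=
    h'.trans (mul_le_mul_of_nonneg_right (by linarith) (by positivity))
  have s6 : m ≤ 24 * (T ^ 2 * T ^ 2) * (x + y + z) := by
    calc m ≤ (a₁ - a₂) ^ 2 * w := by rw [sq, mul_assoc]; exact h
      _ ≤ (2 * T) ^ 2 * (6 * T ^ 2 * (x + y + z)) := mul_le_mul s1 s5 hw (by positivity)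
      _ = _ := by ring
  have hS : 0 < T ^ 2 * T ^ 2 := by positivity
  generalize T ^ 2 * T ^ 2 = S at s6 hS
  have s7 : 1 / (72 * S) * m ≤ (x + y + z) / 3 := by
    rw [one_div, inv_mul_le_iff₀ (by positivity)]
    linarith
  by_contra hc
  push Not at hc
  linarith [hc.1, hc.2.1, hc.2.2]

/-- On `O i`: `NII f α β γ δ = det • ∑ a b, (D γ xᵃ * D δ xᵇ) • cross3 F₀ F₁ F_ab` (`D_chart`, `DD_chart`,
`cross3_frame`, `cross3_lin`, `D_comm`), all coefficients are bounded by one constant (`exists_NB`). -/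
theorem exists_chart_II : ∃ c : ℝ, 0 < c ∧ ∀ (F : M → V4) (m : ℝ), Sm F → 0 ≤ m → A.IIm F m →
    ∀ i, ∀ p ∈ A.O i,
      c * m ≤ A.NII F (i, 0) (i, 1) (i, 1) (i, 1) p ⬝ᵥ A.NII F (i, 0) (i, 1) (i, 1) (i, 1) p ∨
      c * m ≤ A.NII F (i, 0) (i, 1) (i, 0) (i, 1) p ⬝ᵥ A.NII F (i, 0) (i, 1) (i, 0) (i, 1) p ∨
      c * m ≤ A.NII F (i, 0) (i, 1) (i, 0) (i, 0) p ⬝ᵥ A.NII F (i, 0) (i, 1) (i, 0) (i, 0) p := by
  obtain ⟨K, hK1, hK⟩ := A.dec_bound
  refine ⟨1 / (72 * K ^ 8), by positivity, fun F m hF hm hII i p hp => ?_⟩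
  obtain ⟨α, β, γ, δ, h⟩ := hII p
  rw [A.dec_NII α β γ δ i hF hp, smul_dotProduct, dotProduct_smul, smul_eq_mul, smul_eq_mul] at h
  have h2 := dirs_cs (A.D γ (A.x i 1) p * A.D δ (A.x i 1) p)
    (A.D γ (A.x i 0) p * A.D δ (A.x i 1) p + A.D γ (A.x i 1) p * A.D δ (A.x i 0) p)
    (A.D γ (A.x i 0) p * A.D δ (A.x i 0) p) (A.NII F (i, 0) (i, 1) (i, 1) (i, 1) p)
    (A.NII F (i, 0) (i, 1) (i, 0) (i, 1) p) (A.NII F (i, 0) (i, 1) (i, 0) (i, 0) p)
  have k : ∀ α β a b, |A.D α (A.x i a) p * A.D β (A.x i b) p| ≤ K ^ 2 := fun α β a b => by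
    rw [abs_mul, sq]
    exact mul_le_mul (hK _ _ _ _) (hK _ _ _ _) (abs_nonneg _) (by positivity)
  exact dec_fin hK1 (dec_nn _) (dec_nn _) (dec_nn _) (dec_nn _)
    (k α β 0 1) (k α β 1 0) (k γ δ 1 1) (k γ δ 0 1) (k γ δ 1 0) (k γ δ 0 0)
    h h2

/-- `YY_eq`, `cross3_frame` (shear has determinant one), `cross3_lin`. -/
theorem nrm_eq (i : Fin A.n) (t : ℝ) {F : M → V4} (hF : Sm F) {p : M} (hp : p ∈ A.O i) :
    A.nrm i t F p = A.NII F (i, 0) (i, 1) (i, 1) (i, 1) p -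
      (2 * t) • A.NII F (i, 0) (i, 1) (i, 0) (i, 1) p +
      t ^ 2 • A.NII F (i, 0) (i, 1) (i, 0) (i, 0) p := by
  rw [nrm, A.YY_eq i t hF hp]
  simp only [NII, X, Y]
  generalize A.D (i, 0) F p = a
  generalize A.D (i, 1) F p = b
  generalize A.D (i, 0) (A.D (i, 0) F) p = c
  generalize A.D (i, 0) (A.D (i, 1) F) p = d
  generalize A.D (i, 1) (A.D (i, 1) F) p = e
  ext k
  fin_cases k <;> simp [cross3, d3] <;> ring

/-- Among three triples with nine distinct slopes one has only good slopes: otherwise each triple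
contains a bad slope, contradicting `exists_quad_const` (`S` = all slopes). Choose `e'` with
`2 / (c c') ≤ 2 ^ (e' - e) ≤ L ^ (e' - e)`. -/
theorem exists_good_triple {J₀ : ℕ} (τ : Fin J₀ → Fin 3 → ℝ) (e : ℕ) : ∃ e' : ℕ,
    ∀ (F : M → V4) (L : ℝ), Sm F → 2 ≤ L → A.IIm F (L ^ e)⁻¹ → ∀ i, ∀ p ∈ A.O i,
      ∀ σ : Fin 3 → Fin J₀, Function.Injective (fun q : Fin 3 × Fin 3 => τ (σ q.1) q.2) →
        ∃ a, ∀ k, 2 ≤ L ^ e' * (A.nrm i (τ (σ a) k) F p ⬝ᵥ A.nrm i (τ (σ a) k) F p) := by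
  classical
  obtain ⟨c, hc, hcII⟩ := A.exists_chart_II
  obtain ⟨c', hc', hq⟩ := exists_quad_const (Finset.univ.image fun q : Fin J₀ × Fin 3 => τ q.1 q.2)
  obtain ⟨n, hn⟩ := pow_unbounded_of_one_lt (2 / (c' * c)) (one_lt_two (α := ℝ))
  refine ⟨n + e, fun F L hF hL hII i p hp σ hσ => ?_⟩
  have hL0 : 0 < L := by linarith
  by_contra hcon
  push Not at hcon
  choose k hk using hcon
  have ne : ∀ a b : Fin 3, a ≠ b → τ (σ a) (k a) ≠ τ (σ b) (k b) := fun a b hab h =>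
    hab (congrArg Prod.fst (hσ (a₁ := (a, k a)) (a₂ := (b, k b)) h))
  have mem : ∀ a, τ (σ a) (k a) ∈ Finset.univ.image fun q : Fin J₀ × Fin 3 => τ q.1 q.2 :=
    fun a => Finset.mem_image.2 ⟨(σ a, k a), Finset.mem_univ _, rfl⟩
  obtain ⟨t, ht, h⟩ := hq _ (mem 0) _ (mem 1) _ (mem 2) (ne 0 1 (by decide)) (ne 0 2 (by decide))
    (ne 1 2 (by decide)) _ _ _ _ (hcII F _ hF (by positivity) hII i p hp)
  rw [← A.nrm_eq i t hF hp] at h
  have h2 : L ^ (n + e) * (A.nrm i t F p ⬝ᵥ A.nrm i t F p) < 2 := by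
    rcases ht with rfl | rfl | rfl
    exacts [hk 0, hk 1, hk 2]
  have h3 : 2 < L ^ n * (c' * c) := by
    rw [div_lt_iff₀ (by positivity)] at hn
    exact hn.trans_le (mul_le_mul_of_nonneg_right (pow_le_pow_left₀ zero_le_two hL n) (by positivity))
  have h4 : L ^ n * (c' * c) = L ^ (n + e) * (c' * (c * (L ^ e)⁻¹)) := by
    rw [pow_add]; field_simp
  have h5 := mul_le_mul_of_nonneg_left h (show 0 ≤ L ^ (n + e) by positivity)
  linarith

/-- the coefficient matrix of `coef` -/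
def decC (t : Fin 3 → ℝ) (k : Fin 3) : Fin 2 → Fin 2 → ℝ :=
  ![![((t k - t (k + 1)) * (t k - t (k + 2)))⁻¹ * (t (k + 1) * t (k + 2)),
      -(((t k - t (k + 1)) * (t k - t (k + 2)))⁻¹ * (t (k + 1) + t (k + 2)))],
    ![0, ((t k - t (k + 1)) * (t k - t (k + 2)))⁻¹]]

theorem cf_decC (i : Fin A.n) (t : Fin 3 → ℝ) (k : Fin 3) (T : A.Ten) (p : M) :
    cf i (decC t k) T p = coef t k (T (i, 0) (i, 0) p) (T (i, 0) (i, 1) p) (T (i, 1) (i, 1) p) := by
  simp only [cf, decC, coef, Fin.sum_univ_two, smul_eq_mul, Matrix.cons_val_zero, Matrix.cons_val_one]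
  ring

theorem dec_D_eta (α : A.Idx) (i : Fin A.n) (t : ℝ) (p : M) :
    A.D α (A.eta i t) p = A.D α (A.x i 0) p + t * A.D α (A.x i 1) p := by
  have : A.eta i t = A.x i 0 + t • A.x i 1 := rfl
  rw [this, A.D_add α (A.x_sm _ _) ((A.x_sm _ _).const_smul t), A.D_const_smul α (A.x_sm _ _)]
  rfl

theorem dec_three {t : Fin 3 → ℝ} (ht : Function.Injective t) {T : A.Ten} (hT : A.IsTen T)
    (i : Fin A.n) {p : M} (hp : p ∈ A.O i) (α β : A.Idx) :
    ∑ k, cf i (decC t k) T p * (A.D α (A.eta i (t k)) p * A.D β (A.eta i (t k)) p) = T α β p := by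
  obtain ⟨h1, h2, h3⟩ := coef_sum ht (T (i, 0) (i, 0) p) (T (i, 0) (i, 1) p) (T (i, 1) (i, 1) p)
  rw [hT.comp i p hp α β]
  simp only [cf_decC, dec_D_eta, Fin.sum_univ_two, Fin.sum_univ_three, smul_eq_mul] at h1 h2 h3 ⊢
  rw [hT.symm (i, 1) (i, 0)]
  linear_combination (A.D α (A.x i 0) p * A.D β (A.x i 0) p) * h1 +
    (A.D α (A.x i 0) p * A.D β (A.x i 1) p + A.D α (A.x i 1) p * A.D β (A.x i 0) p) * h2 +
    (A.D α (A.x i 1) p * A.D β (A.x i 1) p) * h3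

/-- `τ, m` from `exists_triples B _ 3`, `J = card (Fin A.n × Fin J₀ × Fin 3)`, `e'` from
`exists_good_triple`, `Φ` from `exists_isq`. For `j ≃ (i, l, k)`: slope `τ l k`,
`c j` = the coefficients of `coef (τ l) k T₀₀ T₀₁ T₁₁` (`c 1 0 = 0`), `x (i,l,k) = (2/m) * cf H`,
`g (i,l,k) = L^e' * |nrm i (τ l k) F|²`, `w (i,l) = ∏ k, gam (g) * gam (x)`,
`Ω j = ψ i * w (i,l) * Φ (∑ l', w (i,l')²)`, `R j = K i ∩ {1 ≤ g j}` (`exists_frame`), `s j = √m * x * Φ x`,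
`r j = Φ x / √m` (where `Ω ≠ 0`, `1 < x`; `s² = m x = 2 cf H`). On `K i` some `w (i,l) = 1`, so
`∑ l, w² ≥ 1` and `∑ l, (w Φ)² = 1`. `dec`: where `ψ i p ≠ 0`, `∑ k, coef_k T * dη_k ⊗ dη_k = T`
(`D α (eta i t) = D α x⁰ + t D α x¹`, `coef_sum`, `IsTen.comp`, `IsTen.symm`), then `ψ_sq`. -/
theorem exists_dec (B : ℝ) (hB : 1 ≤ B) : ∃ J : ℕ, ∀ (P : Type v) (b : A.Base P) (H : P → A.Ten)
    (e : ℕ), A.TmT b.L b.μ 1 H → (∀ q, A.PosB (H q) B) → (∀ q, A.IsTen (H q)) →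
    (∀ q, A.IIm (b.F q) (b.L q ^ e)⁻¹) → Nonempty (Dec b H J) := by
  obtain ⟨J₀, τ, m, hm, hτ, htri⟩ := exists_triples B (by linarith) 3
  refine ⟨Fintype.card (Fin A.n × Fin J₀ × Fin 3), fun P b H e hH hpos hten hII => ?_⟩
  obtain ⟨e', he'⟩ := A.exists_good_triple τ e
  obtain ⟨Φ, hΦ, hΦ1⟩ := exists_isq
  have one : ∀ q : P, (0 : ℝ) ≤ (1 : P → ℝ) q := fun _ => zero_le_one
  have mul1 : ∀ {u v : P → M → ℝ}, A.Tm b.L b.μ 1 u → A.Tm b.L b.μ 1 v →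
      A.Tm b.L b.μ 1 fun q p => u q p * v q p := fun hu hv => by
    have := hu.mul hv
    rwa [one_mul] at this
  set x : Fin A.n → Fin J₀ → Fin 3 → P → M → ℝ :=
    fun i l k q p => (2 / m) • cf i (decC (τ l) k) (H q) p with hx
  have x_tm : ∀ i l k, A.Tm b.L b.μ 1 (x i l k) := fun i l k =>
    (hH.cf b.hL b.hμ one i _).const_smul _
  set g : Fin A.n → Fin J₀ → Fin 3 → P → M → ℝ := fun i l k q p =>
    b.L q ^ e' • (A.nrm i (τ l k) (b.F q) p ⬝ᵥ A.nrm i (τ l k) (b.F q) p) with hg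
  have g_tm : ∀ i l k, A.Tm b.L b.μ 1 (g i l k) := fun i l k => by
    have := (b.tm_nrm i (τ l k)).dot (b.tm_nrm i (τ l k))
    rw [one_mul] at this
    exact this.lmul (fun q => b.L q ^ e') e' fun q =>
      (abs_of_nonneg (pow_nonneg (zero_le_two.trans (b.hL q)) _)).le
  set u : Fin A.n → Fin J₀ → Fin 3 → P → M → ℝ :=
    fun i l k q p => gam (g i l k q p) * gam (x i l k q p) with hu
  have u_tm : ∀ i l k, A.Tm b.L b.μ 1 (u i l k) := fun i l k =>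
    mul1 ((g_tm i l k).comp bd_gam) ((x_tm i l k).comp bd_gam)
  set w : Fin A.n → Fin J₀ → P → M → ℝ :=
    fun i l q p => u i l 0 q p * u i l 1 q p * u i l 2 q p with hw
  have w_tm : ∀ i l, A.Tm b.L b.μ 1 (w i l) := fun i l =>
    mul1 (mul1 (u_tm i l 0) (u_tm i l 1)) (u_tm i l 2)
  have w_ne : ∀ i l k q p, w i l q p ≠ 0 → u i l k q p ≠ 0 := by
    intro i l k q p h h0
    apply h
    fin_cases k
    · exact mul_eq_zero_of_left (mul_eq_zero_of_left h0 _) _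
    · exact mul_eq_zero_of_left (mul_eq_zero_of_right _ h0) _
    · exact mul_eq_zero_of_right _ h0
  set S : Fin A.n → P → M → ℝ := fun i q p => ∑ l, w i l q p * w i l q p with hS
  have S_tm : ∀ i, A.Tm b.L b.μ 1 (S i) := fun i =>
    tm_sum b.hL b.hμ one _ fun l _ => mul1 (w_tm i l) (w_tm i l)
  have S_ge : ∀ i q, ∀ p ∈ A.K i, 1 ≤ S i q p := by
    intro i q p hp
    obtain ⟨h1, h2⟩ := hpos q i p hp
    obtain ⟨σ, hσ, hc⟩ := htri _ _ _ (h1 0 0) (h1 0 1) (h1 1 1) fun v₁ v₂ => by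
      have := h2 ![v₁, v₂]
      simp only [dotProduct, Fin.sum_univ_two, Matrix.cons_val_zero, Matrix.cons_val_one] at this
      rw [(hten q).symm (i, 1) (i, 0)] at this
      linarith
    obtain ⟨a, ha⟩ := he' _ _ (b.F_sm q) (b.hL q) (hII q) i p (A.K_sub_O i hp) σ hσ
    have hu1 : ∀ k, u i (σ a) k q p = 1 := fun k => by
      have e1 : gam (g i (σ a) k q p) = 1 := gam_one (ha k)
      have e2 : gam (x i (σ a) k q p) = 1 := gam_one (by
        change 2 ≤ 2 / m * cf i (decC (τ (σ a)) k) (H q) p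
        rw [cf_decC, div_mul_eq_mul_div, le_div_iff₀ hm]
        linarith [hc a k])
      change gam _ * gam _ = 1
      rw [e1, e2, one_mul]
    have hw1 : w i (σ a) q p = 1 := by
      change _ * _ * _ = (1 : ℝ)
      rw [hu1, hu1, hu1, one_mul, one_mul]
    have := Finset.single_le_sum (f := fun l => w i l q p * w i l q p)
      (fun l _ => mul_self_nonneg _) (Finset.mem_univ (σ a))
    rwa [hw1, one_mul] at this
  choose fr fr1 fr2 fr3 using fun j : Fin A.n × Fin J₀ × Fin 3 =>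
    exists_frame b j.1 (τ j.2.1 j.2.2) e' (fun q => A.K j.1 ∩ {p | 1 ≤ g j.1 j.2.1 j.2.2 q p})
      (fun q => (isClosed_tsupport _).inter
        (isClosed_le continuous_const ((g_tm _ _ _).sm q).continuous))
      (fun q p hp => A.K_sub_O _ hp.1) fun q p hp => hp.2
  have x_gt : ∀ i l k q p, A.ψ i p * w i l q p * Φ (S i q p) ≠ 0 → 1 ≤ x i l k q p :=
    fun i l k q p h => (one_lt_of_gam_ne (right_ne_zero_of_mul (w_ne i l k q p
      (right_ne_zero_of_mul (left_ne_zero_of_mul h))))).le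
  have hsq : √m ≠ 0 := (Real.sqrt_pos.2 hm).ne'
  let E := (Fintype.equivFin (Fin A.n × Fin J₀ × Fin 3)).symm
  refine ⟨{ fr := fun j => fr (E j)
            c := fun j => decC (τ (E j).2.1) (E j).2.2
            Ω := fun j q p => A.ψ (E j).1 p * w (E j).1 (E j).2.1 q p * Φ (S (E j).1 q p)
            s := fun j q p => √m • (x (E j).1 (E j).2.1 (E j).2.2 q p *
              Φ (x (E j).1 (E j).2.1 (E j).2.2 q p))
            r := fun j q p => (√m)⁻¹ • Φ (x (E j).1 (E j).2.1 (E j).2.2 q p)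
            Ω_tm := fun j => mul1 (mul1 (tm_const b.hL b.hμ (A.ψ_sm _)) (w_tm _ _))
              ((S_tm _).comp hΦ)
            s_tm := fun j => (mul1 (x_tm _ _ _) ((x_tm _ _ _).comp hΦ)).const_smul _
            r_tm := fun j => ((x_tm _ _ _).comp hΦ).const_smul _
            Ω_van := fun j q p hp => ?_
            sr := fun j q p h => ?_
            ss := fun j q p h => ?_
            dec := fun q T hT α β p => ?_ }⟩
  · by_contra h
    apply hp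
    rw [fr3]
    exact ⟨subset_tsupport _ (left_ne_zero_of_mul (left_ne_zero_of_mul h)),
      (one_lt_of_gam_ne (left_ne_zero_of_mul (w_ne _ _ _ q p
        (right_ne_zero_of_mul (left_ne_zero_of_mul h))))).le⟩
  · have := hΦ1 _ (x_gt _ _ (E j).2.2 q p h)
    simp only [smul_eq_mul]
    field_simp
    linarith
  · have := hΦ1 _ (x_gt _ _ (E j).2.2 q p h)
    have e2 : 2 * cf (E j).1 (decC (τ (E j).2.1) (E j).2.2) (H q) p =
        m * x (E j).1 (E j).2.1 (E j).2.2 q p := by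
      simp only [hx, smul_eq_mul]
      field_simp
    rw [fr1, e2, smul_eq_mul, mul_pow, Real.sq_sqrt hm.le]
    linear_combination (m * x (E j).1 (E j).2.1 (E j).2.2 q p) * this
  · simp only [Frame.η, fr1, fr2]
    rw [E.sum_comp fun j => (A.ψ j.1 p * w j.1 j.2.1 q p * Φ (S j.1 q p)) ^ 2 *
      cf j.1 (decC (τ j.2.1) j.2.2) T p *
        (A.D α (A.eta j.1 (τ j.2.1 j.2.2)) p * A.D β (A.eta j.1 (τ j.2.1 j.2.2)) p),
      Fintype.sum_prod_type, ← one_mul (T α β p), ← A.ψ_sq p, Finset.sum_mul]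
    refine Finset.sum_congr rfl fun i _ => ?_
    by_cases h0 : A.ψ i p = 0
    · simp [h0]
    have hK : p ∈ A.K i := subset_tsupport _ h0
    have h1 := hΦ1 _ (S_ge i q p hK)
    rw [Fintype.sum_prod_type]
    simp only [mul_assoc _ (cf _ _ _ _), ← Finset.mul_sum]
    simp only [A.dec_three (hτ _) hT i (A.K_sub_O i hK)]
    rw [← Finset.sum_mul, ← mul_one (A.ψ i p ^ 2), ← h1]
    congr 1
    simp only [hS, Finset.mul_sum]
    exact Finset.sum_congr rfl fun l _ => by ring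

end Atl

end Crest.Agent.R216
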