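import Crest.Agent.R216.StSolve
import Crest.Agent.R216.StBD

/-!
# R216 / Step: cancelling the oscillating quadratic terms
-/

set_option autoImplicit false
set_option linter.unusedSectionVars false

open scoped Manifold ContDiff Topology
open Matrix

noncomputable section

namespace Crest.Agent.R216

variable {M : Type*} [TopologicalSpace M] [T2Space M] [CompactSpace M] [ChartedSpace E2 M]
  [IsManifold (𝓡 2) ∞ M]
variable {E : Type} [NormedAddCommGroup E] [NormedSpace ℝ E]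
variable {P : Type*}

namespace Atl

variable {A : Atl M} {b : A.Base P}

theorem osc_cs {L lam Z c : P → ℝ} {η : M → ℝ} (hη : Sm η) (hc : ∀ q, |c q| ≤ L q * lam q)
    {u v : P → M → E} (hu : A.Tm L lam Z u) (hv : A.Tm L lam Z v) :
    A.Tm L lam Z (fun q p => Real.cos (c q * η p) • u q p + Real.sin (c q * η p) • v q p) := by
  have := ((tm_osc hu.hL hu.hμ bd_cos hη hc).smul hu).add ((tm_osc hu.hL hu.hμ bd_sin hη hc).smul hv)
  rwa [one_mul] at this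

theorem osc_sp (fr : Frame b) {μ : P → ℝ} {w w' : P → A.One} (h : ∀ q, A.IsOne (w q))
    (h' : ∀ q, A.IsOne (w' q)) (t : ∀ α, A.Tm b.L μ 1 (fun q => w q α))
    (t' : ∀ α, A.Tm b.L μ 1 (fun q => w' q α)) (v : ∀ α, Van fr.R (fun q => w' q α)) :
    fr.TenOn μ 1 (fun q => A.sp (w q) (w' q)) := by
  refine ⟨fun q => A.isTen_sp (h q) (h' q), fun α β => ?_, fun α β q p hp => ?_⟩
  · have := tmT_sp t t' α β
    rwa [one_mul] at this
  · have h1 : ∀ γ, w' q γ p = 0 := fun γ => v γ q p hp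
    simp only [sp, h1, dotProduct_zero, add_zero]

theorem osc_cmul {fr : Frame b} {μ Z : P → ℝ} {T : P → A.Ten} (h : fr.TenOn μ Z T) (c : ℝ) :
    fr.TenOn μ Z (fun q α β p => c * T q α β p) :=
  ⟨fun q => (h.ten q).mul (sm_const c), fun α β => (h.tm α β).const_smul c, fun α β q p hp => by
    simp only [h.slv_off hp, mul_zero]⟩

/-- One more wave. `U` is the sum of the previous waves, of frequency `μ'`, `μ ≤ μ' ≤ θ λ`. With
`w = wave λ η V₁ V₂`: `pull (U + w) = pull U + sp dU dw + pull w` (`pull_add`), `sp_wave`, `pull_wave`.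
Apply `Frame.solve` at scale `μ'`, frequency `λ`, to `-sp dU zc, -sp dU zs`, and at scale `μ'`, frequency
`2 λ`, to minus the two coefficients of `pull_wave` (all are `TenOn μ' 1`: `isTen_sp`, `tmT_sp`; `zc`, `zs`
vanish off `R` by `Van.D`, and are tame of size `1`). `W = wave λ η W₁ W₂ + wave (2λ) η W₃ W₄`; `tm_osc`
(`|2 λ| ≤ L λ`). -/
theorem osc_step (fr : Frame b) {lam θ μ' : P → ℝ} (hμ : b.μ ≤ μ') (hl : μ' ≤ lam)
    (hθ : μ' * lam⁻¹ ≤ θ) (hθ1 : θ ≤ 1) (N : ℕ) {a : P → M → ℝ} (ha : A.Tm b.L b.μ 1 a)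
    {V₁ V₂ U : P → M → V4} (hV : fr.Bend lam θ 1 N a V₁ V₂) (hU : ∀ q, Sm (U q))
    (hdU : ∀ α, A.Tm b.L μ' 1 (fun q => A.D α (U q))) :
    A.Tm b.L lam b.μ⁻¹ (fun q => wave (lam q) fr.η (V₁ q) (V₂ q)) ∧
    (∀ α, A.Tm b.L lam 1 (fun q => A.D α (wave (lam q) fr.η (V₁ q) (V₂ q)))) ∧
    A.TmT b.L lam (θ ^ N) (fun q => A.sp (A.dd (b.F q)) (A.dd (wave (lam q) fr.η (V₁ q) (V₂ q)))) ∧
    ∃ W : P → M → V4, A.Tm b.L lam 1 W ∧ A.TmT b.L lam (θ ^ N) (fun q α β p =>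
      A.pull (U q + wave (lam q) fr.η (V₁ q) (V₂ q)) α β p - A.pull (U q) α β p +
        A.sp (A.dd (b.F q)) (A.dd (W q)) α β p - A.mean (lam q) fr.η (V₁ q) (V₂ q) α β p) := by
  have hη : Sm fr.η := A.eta_sm fr.i fr.t
  have hbl : b.μ ≤ lam := hμ.trans hl
  have hμ1 : ∀ q, 1 ≤ μ' q := fun q => (b.hμ q).trans (hμ q)
  have hl1 : ∀ q, 1 ≤ lam q := fun q => (hμ1 q).trans (hl q)
  have hc1 : ∀ q, |lam q| ≤ b.L q * lam q := fun q => by
    have := hl1 q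
    have := b.hL q
    rw [abs_of_nonneg (by linarith)]
    nlinarith
  have hc2 : ∀ q, |2 * lam q| ≤ b.L q * lam q := fun q => by
    have := hl1 q
    have := b.hL q
    rw [abs_of_nonneg (by linarith)]
    nlinarith
  have k1 : (1 : P → ℝ) * θ ≤ 1 := by rwa [one_mul]
  have s₁ := hV.v1.tm.sm
  have s₂ := hV.v2.tm.sm
  have tc : ∀ α, A.Tm b.L b.μ 1 (fun q => A.zc (lam q) fr.η (V₁ q) (V₂ q) α) := fun α =>
    (hV.zc_tm α).mono le_rfl k1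
  have ts : ∀ α, A.Tm b.L b.μ 1 (fun q => A.zs (lam q) fr.η (V₁ q) (V₂ q) α) := fun α => by
    have h1 := ((tm_const (A := A) b.hL b.hμ (A.D_sm α hη)).mul ha).smul fr.ν_tm
    rw [one_mul, one_mul] at h1
    exact (((hV.zs_tm α).mono le_rfl k1).sub h1).congr fun q p => (add_sub_cancel_right _ _).symm
  have vc : ∀ α, Van fr.R (fun q => A.zc (lam q) fr.η (V₁ q) (V₂ q) α) := fun α q p hp => by
    have h1 : A.D α (V₁ q) p = 0 := Van.D fr.R_closed hV.v1.van α q p hp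
    simp only [zc, h1, hV.v2.van q p hp, smul_zero, add_zero]
  have vs : ∀ α, Van fr.R (fun q => A.zs (lam q) fr.η (V₁ q) (V₂ q) α) := fun α q p hp => by
    have h1 : A.D α (V₂ q) p = 0 := Van.D fr.R_closed hV.v2.van α q p hp
    simp only [zs, h1, hV.v1.van q p hp, smul_zero, sub_zero]
  have oc : ∀ q, A.IsOne (A.zc (lam q) fr.η (V₁ q) (V₂ q)) := fun q =>
    A.isOne_zc _ hη (s₁ q) (s₂ q)
  have os : ∀ q, A.IsOne (A.zs (lam q) fr.η (V₁ q) (V₂ q)) := fun q =>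
    A.isOne_zs _ hη (s₁ q) (s₂ q)
  have tc' := fun α => (tc α).mono hμ le_rfl
  have ts' := fun α => (ts α).mono hμ le_rfl
  refine ⟨?_, fun α => ?_, fun α β => ?_, ?_⟩
  · have := osc_cs hη hc1 (hV.v1.tm.mono hbl le_rfl) (hV.v2.tm.mono hbl le_rfl)
    rwa [one_mul] at this
  · exact (osc_cs hη hc1 ((tc α).mono hbl le_rfl) ((ts α).mono hbl le_rfl)).congr fun q p =>
      A.D_wave _ hη (s₁ q) (s₂ q) α p
  · have := osc_cs hη hc1 ((hV.lc α β).mono hbl le_rfl) ((hV.ls α β).mono hbl le_rfl)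
    rw [one_mul] at this
    exact this.congr fun q p => A.sp_wave _ hη (s₁ q) (s₂ q) _ α β p
  · have oU : ∀ q, A.IsOne (A.dd (U q)) := fun q => A.isOne_dd (hU q)
    have T₁ := (osc_sp fr oU oc hdU tc' vc).slv_neg
    have T₂ := (osc_sp fr oU os hdU ts' vs).slv_neg
    have T₃ := osc_cmul ((osc_sp fr oc oc tc' tc' vc).slv_sub (osc_sp fr os os ts' ts' vs)) (-4⁻¹)
    have T₄ := osc_cmul (osc_sp fr oc os tc' ts' vs) (-2⁻¹)
    obtain ⟨W₁, W₂, w₁, w₂, e₁, e₂⟩ := fr.solve hμ hl hθ hθ1 N T₁ T₂ fun _ => zero_le_one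
    have hl2 : μ' ≤ fun q => 2 * lam q := fun q => by
      have h1 := hl q
      have h2 := hl1 q
      simp only
      linarith
    have hθ2 : μ' * (fun q => 2 * lam q)⁻¹ ≤ θ := fun q => by
      refine le_trans ?_ (hθ q)
      have h2 := hl1 q
      exact mul_le_mul_of_nonneg_left (inv_anti₀ (by linarith) (by simp only; linarith))
        (zero_le_one.trans (hμ1 q))
    obtain ⟨W₃, W₄, w₃, w₄, e₃, e₄⟩ := fr.solve hμ hl2 hθ2 hθ1 N T₃ T₄ fun _ => zero_le_one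
    rw [one_mul] at e₁ e₂ e₃ e₄
    refine ⟨fun q => wave (lam q) fr.η (W₁ q) (W₂ q) + wave (2 * lam q) fr.η (W₃ q) (W₄ q),
      (osc_cs hη hc1 (w₁.tm.mono hl le_rfl) (w₂.tm.mono hl le_rfl)).add
        (osc_cs hη hc2 (w₃.tm.mono hl le_rfl) (w₄.tm.mono hl le_rfl)), fun α β => ?_⟩
    refine ((osc_cs hη hc1 ((e₁.tm α β).mono hl le_rfl) ((e₂.tm α β).mono hl le_rfl)).add
      (osc_cs hη hc2 ((e₃.tm α β).mono hl le_rfl) ((e₄.tm α β).mono hl le_rfl))).congr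
      fun q p => ?_
    beta_reduce
    rw [A.pull_add (hU q) (wave_sm _ hη (s₁ q) (s₂ q)),
      A.sp_dd_add _ (wave_sm _ hη (w₁.tm.sm q) (w₂.tm.sm q)) (wave_sm _ hη (w₃.tm.sm q) (w₄.tm.sm q)),
      A.sp_wave _ hη (s₁ q) (s₂ q), A.pull_wave _ hη (s₁ q) (s₂ q),
      A.sp_wave _ hη (w₁.tm.sm q) (w₂.tm.sm q), A.sp_wave _ hη (w₃.tm.sm q) (w₄.tm.sm q)]
    simp only [smul_eq_mul]
    ring

theorem osc_aux {κ : P → ℝ} (hκ : ∀ q, 1 ≤ κ q) (N J : ℕ) (fr : Fin J → Frame b)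
    {a : Fin J → P → M → ℝ} (ha : ∀ j, A.Tm b.L b.μ 1 (a j)) {V₁ V₂ : Fin J → P → M → V4}
    (hV : ∀ j, (fr j).Bend (b.μ * κ ^ ((j : ℕ) + 1)) κ⁻¹ 1 N (a j) (V₁ j) (V₂ j)) :
    ∃ U₁ U₂ : P → M → V4, A.Tm b.L (b.μ * κ ^ J) b.μ⁻¹ U₁ ∧ A.Tm b.L (b.μ * κ ^ J) 1 U₂ ∧
      (∀ α, A.Tm b.L (b.μ * κ ^ J) 1 (fun q => A.D α (U₁ q))) ∧
      A.TmT b.L (b.μ * κ ^ J) (κ⁻¹ ^ N) (fun q => A.sp (A.dd (b.F q)) (A.dd (U₁ q))) ∧
      A.TmT b.L (b.μ * κ ^ J) (κ⁻¹ ^ N) (fun q α β p =>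
        A.pull (U₁ q) α β p + A.sp (A.dd (b.F q)) (A.dd (U₂ q)) α β p -
          ∑ j : Fin J, A.mean ((b.μ * κ ^ ((j : ℕ) + 1)) q) (fr j).η (V₁ j q) (V₂ j q) α β p) := by
  have hμ0 : ∀ q, 0 < b.μ q := fun q => zero_lt_one.trans_le (b.hμ q)
  have hκ0 : ∀ q, 0 < κ q := fun q => zero_lt_one.trans_le (hκ q)
  induction J with
  | zero =>
    have h1 : ∀ q, 1 ≤ (b.μ * κ ^ 0) q := fun q => by simpa using b.hμ q
    have h2 : ∀ q, 0 ≤ (κ⁻¹ ^ N) q := fun q => pow_nonneg (inv_nonneg.2 (hκ0 q).le) N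
    refine ⟨fun _ => 0, fun _ => 0, tm_zero b.hL h1 fun q => inv_nonneg.2 (hμ0 q).le,
      tm_zero b.hL h1 fun _ => zero_le_one,
      fun α => (tm_zero b.hL h1 fun _ => zero_le_one).congr fun q p => A.slv_D_zero α p,
      fun α β => (tm_zero b.hL h1 h2).congr fun q p => A.slv_sp_dd_zero _ α β p,
      fun α β => (tm_zero b.hL h1 h2).congr fun q p => ?_⟩
    simp only [pull, A.slv_D_zero, A.slv_sp_dd_zero, dotProduct_zero, Finset.univ_eq_empty,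
      Finset.sum_empty, add_zero, sub_zero]
  | succ J ih =>
    obtain ⟨U₁, U₂, u₁, u₂, d₁, l₁, l₂⟩ := ih (fun j => fr j.castSucc) (fun j => ha j.castSucc)
      (fun j => hV j.castSucc)
    have h1 : b.μ ≤ b.μ * κ ^ J := fun q => le_mul_of_one_le_right (hμ0 q).le (one_le_pow₀ (hκ q))
    have h2 : b.μ * κ ^ J ≤ b.μ * κ ^ (J + 1) := fun q =>
      mul_le_mul_of_nonneg_left (pow_le_pow_right₀ (hκ q) (Nat.le_succ J)) (hμ0 q).le
    have h3 : b.μ * κ ^ J * (b.μ * κ ^ (J + 1))⁻¹ ≤ κ⁻¹ := fun q => by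
      have := (hμ0 q).ne'
      have := (hκ0 q).ne'
      simp only [Pi.mul_apply, Pi.inv_apply, Pi.pow_apply]
      apply le_of_eq
      field_simp
      ring
    have h4 : κ⁻¹ ≤ 1 := fun q => inv_le_one_of_one_le₀ (hκ q)
    obtain ⟨w₁, w₂, w₃, W, w₄, w₅⟩ := osc_step (fr (Fin.last J)) h1 h2 h3 h4 N (ha (Fin.last J))
      (hV (Fin.last J)) u₁.sm d₁
    refine ⟨fun q => U₁ q + wave ((b.μ * κ ^ (J + 1)) q) (fr (Fin.last J)).η (V₁ (Fin.last J) q)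
      (V₂ (Fin.last J) q), fun q => U₂ q + W q, (u₁.mono h2 le_rfl).add w₁,
      (u₂.mono h2 le_rfl).add w₄, fun α => ?_, fun α β => ?_, fun α β => ?_⟩
    · exact (((d₁ α).mono h2 le_rfl).add (w₂ α)).congr fun q p =>
        congrFun (A.D_add α (u₁.sm q) (w₁.sm q)) p
    · exact (((l₁ α β).mono h2 le_rfl).add (w₃ α β)).congr fun q p =>
        A.sp_dd_add _ (u₁.sm q) (w₁.sm q) α β p
    · refine (((l₂ α β).mono h2 le_rfl).add (w₅ α β)).congr fun q p => ?_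
      simp only [Fin.sum_univ_castSucc, Fin.val_castSucc, Fin.val_last]
      rw [A.sp_dd_add _ (u₂.sm q) (w₄.sm q)]
      ring

/-- Induction on `n ≤ J` for the statement with `∑ j with j < n` (or induction on `J` with
`Fin.sum_univ_castSucc`), scale `μ κ^n`, carrying also `∀ α, Tm (μ κ^n) 1 (D α U₁)`; `osc_step`
with `μ' = μ κ^n`, `λ = μ κ^(n+1)`, `θ = κ⁻¹`. -/
theorem osc_all {κ : P → ℝ} (hκ : ∀ q, 1 ≤ κ q) (N J : ℕ) (fr : Fin J → Frame b)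
    {a : Fin J → P → M → ℝ} (ha : ∀ j, A.Tm b.L b.μ 1 (a j)) {V₁ V₂ : Fin J → P → M → V4}
    (hV : ∀ j, (fr j).Bend (b.μ * κ ^ ((j : ℕ) + 1)) κ⁻¹ 1 N (a j) (V₁ j) (V₂ j)) :
    ∃ U₁ U₂ : P → M → V4, A.Tm b.L (b.μ * κ ^ J) b.μ⁻¹ U₁ ∧ A.Tm b.L (b.μ * κ ^ J) 1 U₂ ∧
      A.TmT b.L (b.μ * κ ^ J) (κ⁻¹ ^ N) (fun q => A.sp (A.dd (b.F q)) (A.dd (U₁ q))) ∧
      A.TmT b.L (b.μ * κ ^ J) (κ⁻¹ ^ N) (fun q α β p =>
        A.pull (U₁ q) α β p + A.sp (A.dd (b.F q)) (A.dd (U₂ q)) α β p -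
          ∑ j : Fin J, A.mean ((b.μ * κ ^ ((j : ℕ) + 1)) q) (fr j).η (V₁ j q) (V₂ j q) α β p) := by
  obtain ⟨U₁, U₂, h1, h2, -, h3, h4⟩ := osc_aux hκ N J fr ha hV
  exact ⟨U₁, U₂, h1, h2, h3, h4⟩

end Atl

end Crest.Agent.R216
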