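import Crest.Agent.R216.StKal
import Crest.Agent.R216.StOsc
import Crest.Agent.R216.StDec

/-!
# R216 / Step: the formal core
-/

set_option autoImplicit false
set_option linter.unusedSectionVars false

open scoped Manifold ContDiff Topology
open Matrix

noncomputable section

namespace Crest.Agent.R216

variable {M : Type*} [TopologicalSpace M] [T2Space M] [CompactSpace M] [ChartedSpace E2 M]
  [IsManifold (𝓡 2) ∞ M]
variable {E : Type} [NormedAddCommGroup E] [NormedSpace ℝ E]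
variable {P : Type*}

/-- all admissible data -/
structure CoreP (A : Atl M) (B : ℝ) (c : ℕ → ℝ) (e : ℕ) where
  L : ℝ
  μ : ℝ
  κ : ℝ
  F : M → V4
  H : A.Ten
  hL : 2 ≤ L
  hμ : 1 ≤ μ
  hκ : 1 ≤ κ
  hF : Sm F
  bF : ∀ r : ℕ, A.NB (2 + r) F (c r * L ^ e * μ ^ r)
  ii : A.IIm F (L ^ e)⁻¹
  hH : A.IsTen H
  bH : ∀ (r : ℕ) α β, A.NB r (H α β) (c r * L ^ e * μ ^ r)
  pos : A.PosB H B

/-- the base family -/
def coreBase (A : Atl M) (B : ℝ) (c : ℕ → ℝ) (e : ℕ) : A.Base (CoreP A B c e) where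
  L q := q.L
  μ q := q.μ
  F q := q.F
  hL q := q.hL
  hμ q := q.hμ
  F_sm q := q.hF
  F1 α := Atl.tm_of_bound (fun q => q.hL) (fun q => q.hμ) (fun q => A.D_sm α q.hF) c e
    fun r q => ((q.bF r).mono (by omega) le_rfl).D α
  F2 α β := Atl.tm_of_bound (fun q => q.hL) (fun q => q.hμ) (fun q => A.D_sm α (A.D_sm β q.hF)) c e
    fun r q => (((q.bF r).mono (k' := r + 1 + 1) (by omega) le_rfl).D β).D α

/-- `J` from `exists_dec`; `P` = subtype of all `(L, μ, κ, F, H)` with the hypotheses; `Base` by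
`tm_of_bound` and `NB.D`, `NB.mono`; `kallen` with `θ = κ⁻¹`, `λ j = μ κ^(j+1)`, `n = N`; `osc_all`;
`Tm.bd_le`, `TmT.bound`; take the maximum of the exponents. -/
theorem coreStmt (A : Atl M) : A.CoreStmt := by
  intro B hB
  obtain ⟨J, hJ⟩ := A.exists_dec B hB
  refine ⟨J, fun c e N Kk => ?_⟩
  set b := coreBase A B c e with hb
  have hHt : A.TmT b.L b.μ 1 fun q : CoreP A B c e => q.H := fun α β =>
    Atl.tm_of_bound b.hL b.hμ (fun q => q.hH.sm α β) c e fun r q => q.bH r α β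
  obtain ⟨d⟩ := hJ (CoreP A B c e) b (fun q => q.H) e hHt (fun q => q.pos) (fun q => q.hH)
    fun q => q.ii
  set κ : CoreP A B c e → ℝ := fun q => q.κ with hκ
  have hκ1 : ∀ q, 1 ≤ κ q := fun q => q.hκ
  have hle : ∀ n : ℕ, b.μ ≤ b.μ * κ ^ n := fun n q =>
    le_mul_of_one_le_right (by linarith [b.hμ q]) (one_le_pow₀ (hκ1 q))
  have hθ0 : ∀ q, 0 ≤ κ⁻¹ q := fun q => inv_nonneg.2 (by linarith [hκ1 q])
  have hθ1 : κ⁻¹ ≤ 1 := fun q => inv_le_one_of_one_le₀ (hκ1 q)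
  obtain ⟨V₁, V₂, hV, hE⟩ := Atl.kallen (b := b) (fun q => q.hH) d hθ0 hθ1
    (lam := fun j => b.μ * κ ^ ((j : ℕ) + 1)) (fun j => hle _) (fun j q => by
      have h1 : 0 < b.μ q := by linarith [b.hμ q]
      have h2 : 0 < κ q := by linarith [hκ1 q]
      change b.μ q * (b.μ q * κ q ^ ((j : ℕ) + 1))⁻¹ ≤ (κ q)⁻¹
      rw [mul_inv, ← mul_assoc, mul_inv_cancel₀ h1.ne', one_mul]
      exact inv_anti₀ h2 (le_self_pow₀ (hκ1 q) (by omega))) N N
  obtain ⟨U₁, U₂, h1, h2, h3, h4⟩ := Atl.osc_all hκ1 N J d.fr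
    (fun j => by simpa only [one_mul] using (d.Ω_tm j).mul (d.s_tm j)) hV
  have h5 : A.TmT b.L (b.μ * κ ^ J) (κ⁻¹ ^ N) fun q α β p =>
      A.pull (U₁ q) α β p + A.sp (A.dd (b.F q)) (A.dd (U₂ q)) α β p - q.H α β p := fun α β =>
    ((h4 α β).sub ((hE α β).mono (hle J) fun q =>
      pow_le_pow_of_le_one (hθ0 q) (hθ1 q) (Nat.le_succ N))).congr fun q p => by ring
  obtain ⟨m₁, hm₁⟩ := h1.bd_le Kk
  obtain ⟨m₂, hm₂⟩ := h2.bd_le Kk
  obtain ⟨m₃, hm₃⟩ := h3.bound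
  obtain ⟨m₄, hm₄⟩ := h5.bound
  refine ⟨m₁ + m₂ + m₃ + m₄, fun L μ κ₀ F H hL hμ hκ₀ hF bF ii hH bH pos => ?_⟩
  set q : CoreP A B c e := ⟨L, μ, κ₀, F, H, hL, hμ, hκ₀, hF, bF, ii, hH, bH, pos⟩ with hq
  have hp : ∀ m ≤ m₁ + m₂ + m₃ + m₄, L ^ m ≤ L ^ (m₁ + m₂ + m₃ + m₄) := fun m hm =>
    pow_le_pow_right₀ (by linarith) hm
  have p1 : 0 < μ := by linarith
  have p2 : 0 < κ₀ := by linarith
  refine ⟨U₁ q, U₂ q, h1.sm q, h2.sm q, fun k hk => ⟨(hm₁ k hk q).mono le_rfl ?_,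
    (hm₂ k hk q).mono le_rfl ?_⟩, fun α β p => (hm₃ q α β p).trans ?_,
    fun α β p => (hm₄ q α β p).trans ?_⟩
  · change L ^ m₁ * μ⁻¹ * (μ * κ₀ ^ J) ^ k ≤ _
    exact mul_le_mul_of_nonneg_right (mul_le_mul_of_nonneg_right (hp _ (by omega)) (by positivity))
      (by positivity)
  · change L ^ m₂ * 1 * (μ * κ₀ ^ J) ^ k ≤ _
    rw [mul_one]
    exact mul_le_mul_of_nonneg_right (hp _ (by omega)) (by positivity)
  · change L ^ m₃ * κ₀⁻¹ ^ N ≤ _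
    exact mul_le_mul_of_nonneg_right (hp _ (by omega)) (by positivity)
  · change L ^ m₄ * κ₀⁻¹ ^ N ≤ _
    exact mul_le_mul_of_nonneg_right (hp _ (by omega)) (by positivity)

end Crest.Agent.R216
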