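import Crest.Agent.R216.Api3
import Crest.Agent.R216.Api4

/-!
# R216 / Step: definitions

Everything is real-valued. `P` is an arbitrary type of parameters; a *family* is a function
`P → M → E`. `A.Tm L μ Z u` says that `‖u q‖_{C^k} ≤ L q ^ m * Z q * μ q ^ k` with `m` depending only
on `k`. Weights `Z : P → ℝ` are multiplied, inverted and compared in the ordered ring `P → ℝ`.
-/

set_option autoImplicit false
set_option linter.unusedSectionVars false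

open scoped Manifold ContDiff Topology
open Matrix

noncomputable section

namespace Crest.Agent.R216

variable {M : Type*} [TopologicalSpace M] [ChartedSpace E2 M]
variable {E : Type} [NormedAddCommGroup E] [NormedSpace ℝ E]
variable {P : Type*}

/-- Smooth functions of one variable all of whose derivatives are bounded. -/
def BD (Φ : ℝ → ℝ) : Prop :=
  ContDiff ℝ ∞ Φ ∧ ∀ k : ℕ, ∃ C : ℝ, ∀ s, |iteratedDeriv k Φ s| ≤ C

/-- The family `u` vanishes off `R`. -/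
def Van {E : Type} [Zero E] (R : P → Set M) (u : P → M → E) : Prop :=
  ∀ q p, p ∉ R q → u q p = 0

namespace Atl

variable (A : Atl M)

/-- Tame families of size `Z` and frequency `μ`. -/
structure Tm (L μ Z : P → ℝ) (u : P → M → E) : Prop where
  hL : ∀ q, 2 ≤ L q
  hμ : ∀ q, 1 ≤ μ q
  hZ : ∀ q, 0 ≤ Z q
  sm : ∀ q, Sm (u q)
  bd : ∀ k : ℕ, ∃ m : ℕ, ∀ q, A.NB k (u q) (L q ^ m * Z q * μ q ^ k)

/-- Tame families of tensors (entrywise). -/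
def TmT (L μ Z : P → ℝ) (T : P → A.Ten) : Prop := ∀ α β, A.Tm L μ Z (fun q => T q α β)

/-- Vector-valued one-forms, recorded by their values on all derivations. -/
abbrev One := A.Idx → M → V4

structure IsOne (w : A.One) : Prop where
  sm : ∀ α, Sm (w α)
  comp : ∀ i, ∀ p ∈ A.O i, ∀ α,
    w α p = A.D α (A.x i 0) p • w (i, 0) p + A.D α (A.x i 1) p • w (i, 1) p

/-- `du`. -/
def dd (u : M → V4) : A.One := fun α => A.D α u

/-- Symmetric product `2 w ⊙ w'`. -/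
def sp (w w' : A.One) : A.Ten := fun α β p => w α p ⬝ᵥ w' β p + w β p ⬝ᵥ w' α p

/-- `cos (λ η) V₁ + sin (λ η) V₂`. -/
def wave (lam : ℝ) (η : M → ℝ) (V₁ V₂ : M → V4) (p : M) : V4 :=
  Real.cos (lam * η p) • V₁ p + Real.sin (lam * η p) • V₂ p

/-- The `cos`-amplitude of `d (wave λ η V₁ V₂)`. -/
def zc (lam : ℝ) (η : M → ℝ) (V₁ V₂ : M → V4) : A.One :=
  fun α p => A.D α V₁ p + (lam * A.D α η p) • V₂ p

/-- The `sin`-amplitude of `d (wave λ η V₁ V₂)`. -/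
def zs (lam : ℝ) (η : M → ℝ) (V₁ V₂ : M → V4) : A.One :=
  fun α p => A.D α V₂ p - (lam * A.D α η p) • V₁ p

/-- The non-oscillating part of `pull (wave λ η V₁ V₂)`. -/
def mean (lam : ℝ) (η : M → ℝ) (V₁ V₂ : M → V4) : A.Ten := fun α β p =>
  (A.zc lam η V₁ V₂ α p ⬝ᵥ A.zc lam η V₁ V₂ β p + A.zs lam η V₁ V₂ α p ⬝ᵥ A.zs lam η V₁ V₂ β p) / 2

/-- Components of a tensor in the sheared frame `X, Y` of chart `i`. -/
def cXX (i : Fin A.n) (T : A.Ten) (p : M) : ℝ := T (i, 0) (i, 0) p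
def cXY (i : Fin A.n) (t : ℝ) (T : A.Ten) (p : M) : ℝ := T (i, 0) (i, 1) p - t * T (i, 0) (i, 0) p
def cYY (i : Fin A.n) (t : ℝ) (T : A.Ten) (p : M) : ℝ :=
  T (i, 1) (i, 1) p - 2 * t * T (i, 0) (i, 1) p + t ^ 2 * T (i, 0) (i, 0) p

/-- The normal `F_X ∧ F_Y ∧ F_YY`. -/
def nrm (i : Fin A.n) (t : ℝ) (F : M → V4) (p : M) : V4 :=
  cross3 (A.X i F p) (A.Y i t F p) (A.Y i t (A.Y i t F) p)

/-- A family of maps whose first and second derivatives are tame of size `1`. -/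
structure Base (P : Type*) where
  L : P → ℝ
  μ : P → ℝ
  F : P → M → V4
  hL : ∀ q, 2 ≤ L q
  hμ : ∀ q, 1 ≤ μ q
  F_sm : ∀ q, Sm (F q)
  F1 : ∀ α, A.Tm L μ 1 (fun q => A.D α (F q))
  F2 : ∀ α β, A.Tm L μ 1 (fun q => A.D α (A.D β (F q)))

variable {A}

/-- A chart, a slope, a closed region and an adapted frame on it. -/
structure Frame (b : A.Base P) where
  i : Fin A.n
  t : ℝ
  R : P → Set M
  R_closed : ∀ q, IsClosed (R q)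
  R_sub : ∀ q, R q ⊆ A.O i
  e1 : P → M → V4
  e2 : P → M → V4
  e3 : P → M → V4
  ν : P → M → V4
  e1_tm : A.Tm b.L b.μ 1 e1
  e2_tm : A.Tm b.L b.μ 1 e2
  e3_tm : A.Tm b.L b.μ 1 e3
  ν_tm : A.Tm b.L b.μ 1 ν
  e1_dual : ∀ q, ∀ p ∈ R q, A.X i (b.F q) p ⬝ᵥ e1 q p = 1 ∧ A.Y i t (b.F q) p ⬝ᵥ e1 q p = 0
  e2_dual : ∀ q, ∀ p ∈ R q, A.X i (b.F q) p ⬝ᵥ e2 q p = 0 ∧ A.Y i t (b.F q) p ⬝ᵥ e2 q p = 1
  e3_dual : ∀ q, ∀ p ∈ R q, A.X i (b.F q) p ⬝ᵥ e3 q p = 0 ∧ A.Y i t (b.F q) p ⬝ᵥ e3 q p = 0 ∧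
    A.Y i t (A.Y i t (b.F q)) p ⬝ᵥ e3 q p = 1
  ν_dual : ∀ q, ∀ p ∈ R q, A.X i (b.F q) p ⬝ᵥ ν q p = 0 ∧ A.Y i t (b.F q) p ⬝ᵥ ν q p = 0 ∧
    A.Y i t (A.Y i t (b.F q)) p ⬝ᵥ ν q p = 0 ∧ ν q p ⬝ᵥ ν q p = 1

namespace Frame

variable {b : A.Base P} (fr : Frame b)

/-- The phase function. -/
def η : M → ℝ := A.eta fr.i fr.t

/-- Tame tensor families supported in the region of the frame. -/
structure TenOn (μ Z : P → ℝ) (T : P → A.Ten) : Prop where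
  ten : ∀ q, A.IsTen (T q)
  tm : A.TmT b.L μ Z T
  van : ∀ α β, Van fr.R (fun q => T q α β)

/-- Tame vector fields supported in the region of the frame. -/
structure VecOn (μ Z : P → ℝ) (W : P → M → V4) : Prop where
  tm : A.Tm b.L μ Z W
  van : Van fr.R W

/-- `(V₁, V₂)` are the amplitudes of an approximate infinitesimal bending with leading term
`a ν cos (λ η) / λ`; `Z` is the size of `a`, `θ` the gain `≥ μ / λ`. -/
structure Bend (lam θ Z : P → ℝ) (N : ℕ) (a : P → M → ℝ) (V₁ V₂ : P → M → V4) : Prop where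
  v1 : fr.VecOn b.μ (Z * b.μ⁻¹) V₁
  v2 : fr.VecOn b.μ (Z * b.μ⁻¹) V₂
  zc_tm : ∀ α, A.Tm b.L b.μ (Z * θ) (fun q => A.zc (lam q) fr.η (V₁ q) (V₂ q) α)
  zs_tm : ∀ α, A.Tm b.L b.μ (Z * θ) (fun q p =>
    A.zs (lam q) fr.η (V₁ q) (V₂ q) α p + (A.D α fr.η p * a q p) • fr.ν q p)
  lc : A.TmT b.L b.μ (Z * θ ^ N) (fun q => A.sp (A.dd (b.F q)) (A.zc (lam q) fr.η (V₁ q) (V₂ q)))
  ls : A.TmT b.L b.μ (Z * θ ^ N) (fun q => A.sp (A.dd (b.F q)) (A.zs (lam q) fr.η (V₁ q) (V₂ q)))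

end Frame

/-- `∑ c a b * T (i,a) (i,b)`. -/
def cf (i : Fin A.n) (c : Fin 2 → Fin 2 → ℝ) (T : A.Ten) (p : M) : ℝ :=
  ∑ a, ∑ b, c a b * T (i, a) (i, b) p

/-- Decomposition of tensors into `J` primitive ones, adapted to `F` and to `H`. -/
structure Dec (b : A.Base P) (H : P → A.Ten) (J : ℕ) where
  fr : Fin J → Frame b
  c : Fin J → Fin 2 → Fin 2 → ℝ
  Ω : Fin J → P → M → ℝ
  s : Fin J → P → M → ℝ
  r : Fin J → P → M → ℝ
  Ω_tm : ∀ j, A.Tm b.L b.μ 1 (Ω j)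
  s_tm : ∀ j, A.Tm b.L b.μ 1 (s j)
  r_tm : ∀ j, A.Tm b.L b.μ 1 (r j)
  Ω_van : ∀ j, Van (fr j).R (Ω j)
  sr : ∀ j q p, Ω j q p ≠ 0 → s j q p * r j q p = 1
  ss : ∀ j q p, Ω j q p ≠ 0 → s j q p ^ 2 = 2 * cf (fr j).i (c j) (H q) p
  dec : ∀ q (T : A.Ten), A.IsTen T → ∀ α β p,
    ∑ j, Ω j q p ^ 2 * cf (fr j).i (c j) T p * (A.D α (fr j).η p * A.D β (fr j).η p) = T α β p

variable (A)

/-- The formal core of the step, with explicit quantifiers. -/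
def CoreStmt : Prop :=
  ∀ B : ℝ, 1 ≤ B → ∃ J : ℕ, ∀ (c : ℕ → ℝ) (e N Kk : ℕ), ∃ m : ℕ,
    ∀ (L μ κ : ℝ) (F : M → V4) (H : A.Ten), 2 ≤ L → 1 ≤ μ → 1 ≤ κ → Sm F →
      (∀ r : ℕ, A.NB (2 + r) F (c r * L ^ e * μ ^ r)) → A.IIm F (L ^ e)⁻¹ → A.IsTen H →
      (∀ (r : ℕ) α β, A.NB r (H α β) (c r * L ^ e * μ ^ r)) → A.PosB H B →
      ∃ U₁ U₂ : M → V4, Sm U₁ ∧ Sm U₂ ∧
        (∀ k ≤ Kk, A.NB k U₁ (L ^ m * μ⁻¹ * (μ * κ ^ J) ^ k) ∧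
          A.NB k U₂ (L ^ m * (μ * κ ^ J) ^ k)) ∧
        (∀ α β p, |A.sp (A.dd F) (A.dd U₁) α β p| ≤ L ^ m * κ⁻¹ ^ N) ∧
        ∀ α β p, |A.pull U₁ α β p + A.sp (A.dd F) (A.dd U₂) α β p - H α β p| ≤ L ^ m * κ⁻¹ ^ N

end Atl

end Crest.Agent.R216
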