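import Crest.Agent.R216.StTm

/-!
# R216 / Step: one-forms, tensors, waves
-/

set_option autoImplicit false
set_option linter.unusedSectionVars false

open scoped Manifold ContDiff Topology
open Matrix

noncomputable section

namespace Crest.Agent.R216

variable {M : Type*} [TopologicalSpace M] [T2Space M] [CompactSpace M] [ChartedSpace E2 M]
  [IsManifold (𝓡 2) ∞ M]
variable {E : Type} [NormedAddCommGroup E] [NormedSpace ℝ E]
variable {P : Type*}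

namespace Atl

variable (A : Atl M)

theorem isOne_dd {u : M → V4} (hu : Sm u) : A.IsOne (A.dd u) :=   ⟨fun α => A.D_sm α hu, fun i _ hp α => A.D_chart α i hu hp⟩

theorem isOne_zc (lam : ℝ) {η : M → ℝ} {V₁ V₂ : M → V4} (hη : Sm η) (h₁ : Sm V₁) (h₂ : Sm V₂) :
    A.IsOne (A.zc lam η V₁ V₂) := by
  refine ⟨fun α => (A.D_sm α h₁).add (((sm_const lam).mul (A.D_sm α hη)).smul h₂),
    fun i p hp α => ?_⟩
  simp only [zc]
  rw [A.D_chart α i h₁ hp, A.D_chart α i hη hp]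
  simp only [smul_eq_mul]
  module

theorem isOne_zs (lam : ℝ) {η : M → ℝ} {V₁ V₂ : M → V4} (hη : Sm η) (h₁ : Sm V₁) (h₂ : Sm V₂) :
    A.IsOne (A.zs lam η V₁ V₂) := by
  refine ⟨fun α => (A.D_sm α h₂).sub (((sm_const lam).mul (A.D_sm α hη)).smul h₁),
    fun i p hp α => ?_⟩
  simp only [zs]
  rw [A.D_chart α i h₂ hp, A.D_chart α i hη hp]
  simp only [smul_eq_mul]
  module

theorem isTen_sp {w w' : A.One} (h : A.IsOne w) (h' : A.IsOne w') : A.IsTen (A.sp w w') := by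
  refine ⟨fun α β => ((h.sm α).dot (h'.sm β)).add ((h.sm β).dot (h'.sm α)),
    fun α β p => add_comm _ _, fun i p hp α β => ?_⟩
  simp only [sp, Fin.sum_univ_two]
  rw [h.comp i p hp α, h.comp i p hp β, h'.comp i p hp α, h'.comp i p hp β]
  simp only [add_dotProduct, dotProduct_add, smul_dotProduct, dotProduct_smul, smul_eq_mul]
  ring

theorem mean_eq (lam : ℝ) (η : M → ℝ) (V₁ V₂ : M → V4) (α β : A.Idx) (p : M) :
    A.mean lam η V₁ V₂ α β p = (A.sp (A.zc lam η V₁ V₂) (A.zc lam η V₁ V₂) α β p +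
      A.sp (A.zs lam η V₁ V₂) (A.zs lam η V₁ V₂) α β p) / 4 := by
  simp only [mean, sp]
  rw [dotProduct_comm (A.zc lam η V₁ V₂ β p), dotProduct_comm (A.zs lam η V₁ V₂ β p)]
  ring

theorem isTen_mean (lam : ℝ) {η : M → ℝ} {V₁ V₂ : M → V4} (hη : Sm η) (h₁ : Sm V₁)
    (h₂ : Sm V₂) : A.IsTen (A.mean lam η V₁ V₂) := by
  have h1 := A.isOne_zc lam hη h₁ h₂
  have h2 := A.isOne_zs lam hη h₁ h₂
  have h := ((A.isTen_sp h1 h1).add (A.isTen_sp h2 h2)).mul (sm_const (4⁻¹ : ℝ))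
  convert h using 1
  funext α β p
  rw [A.mean_eq]
  ring

theorem wave_sm (lam : ℝ) {η : M → ℝ} {V₁ V₂ : M → V4} (hη : Sm η) (h₁ : Sm V₁) (h₂ : Sm V₂) :
    Sm (wave lam η V₁ V₂) :=   ((((sm_const lam).mul hη).comp Real.contDiff_cos).smul h₁).add
    ((((sm_const lam).mul hη).comp Real.contDiff_sin).smul h₂)

theorem D_wave (lam : ℝ) {η : M → ℝ} {V₁ V₂ : M → V4} (hη : Sm η) (h₁ : Sm V₁) (h₂ : Sm V₂)
    (α : A.Idx) (p : M) : A.D α (wave lam η V₁ V₂) p =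
      Real.cos (lam * η p) • A.zc lam η V₁ V₂ α p + Real.sin (lam * η p) • A.zs lam η V₁ V₂ α p := by
  have h0 : Sm fun p => lam * η p := (sm_const lam).mul hη
  have hc : Sm fun p => Real.cos (lam * η p) := h0.comp Real.contDiff_cos
  have hs : Sm fun p => Real.sin (lam * η p) := h0.comp Real.contDiff_sin
  have e0 : A.D α (fun p => lam * η p) p = lam * A.D α η p :=
    congrFun (A.D_const_smul α hη lam) p
  have e : A.D α (wave lam η V₁ V₂) p = A.D α (fun p => Real.cos (lam * η p) • V₁ p) p +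
      A.D α (fun p => Real.sin (lam * η p) • V₂ p) p :=
    congrFun (A.D_add α (hc.smul h₁) (hs.smul h₂)) p
  rw [e, A.D_smul α hc h₁, A.D_smul α hs h₂, A.D_comp_real α h0 Real.differentiableAt_cos,
    A.D_comp_real α h0 Real.differentiableAt_sin, e0]
  simp only [zc, zs, Real.deriv_cos', Real.deriv_sin, smul_eq_mul]
  module

theorem sp_wave (lam : ℝ) {η : M → ℝ} {V₁ V₂ : M → V4} (hη : Sm η) (h₁ : Sm V₁) (h₂ : Sm V₂)
    (w : A.One) (α β : A.Idx) (p : M) : A.sp w (A.dd (wave lam η V₁ V₂)) α β p =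
      Real.cos (lam * η p) * A.sp w (A.zc lam η V₁ V₂) α β p +
        Real.sin (lam * η p) * A.sp w (A.zs lam η V₁ V₂) α β p := by
  simp only [sp, dd, A.D_wave lam hη h₁ h₂, dotProduct_add, dotProduct_smul, smul_eq_mul]
  ring

/-- `cos² = (1 + cos 2θ)/2`, `sin² = (1 - cos 2θ)/2`, `sin cos = sin 2θ / 2`. -/
theorem pull_wave (lam : ℝ) {η : M → ℝ} {V₁ V₂ : M → V4} (hη : Sm η) (h₁ : Sm V₁) (h₂ : Sm V₂)
    (α β : A.Idx) (p : M) : A.pull (wave lam η V₁ V₂) α β p = A.mean lam η V₁ V₂ α β p +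
      Real.cos (2 * lam * η p) * ((A.sp (A.zc lam η V₁ V₂) (A.zc lam η V₁ V₂) α β p -
        A.sp (A.zs lam η V₁ V₂) (A.zs lam η V₁ V₂) α β p) / 4) +
      Real.sin (2 * lam * η p) * (A.sp (A.zc lam η V₁ V₂) (A.zs lam η V₁ V₂) α β p / 2) := by
  simp only [pull, mean, sp, A.D_wave lam hη h₁ h₂, dotProduct_add, dotProduct_smul,
    add_dotProduct, smul_dotProduct, smul_eq_mul]
  rw [mul_assoc 2 lam, Real.cos_two_mul, Real.sin_two_mul,
    dotProduct_comm (A.zc lam η V₁ V₂ β p) (A.zc lam η V₁ V₂ α p),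
    dotProduct_comm (A.zs lam η V₁ V₂ β p) (A.zs lam η V₁ V₂ α p),
    dotProduct_comm (A.zc lam η V₁ V₂ β p) (A.zs lam η V₁ V₂ α p)]
  linear_combination (A.zs lam η V₁ V₂ α p ⬝ᵥ A.zs lam η V₁ V₂ β p) *
    Real.sin_sq_add_cos_sq (lam * η p)

theorem pull_add {u v : M → V4} (hu : Sm u) (hv : Sm v) (α β : A.Idx) (p : M) :
    A.pull (u + v) α β p = A.pull u α β p + A.sp (A.dd u) (A.dd v) α β p + A.pull v α β p := by
  simp only [pull, sp, dd, A.D_add _ hu hv, Pi.add_apply, add_dotProduct, dotProduct_add]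
  rw [dotProduct_comm (A.D β u p)]
  ring

theorem sp_dd_add (w : A.One) {u v : M → V4} (hu : Sm u) (hv : Sm v) (α β : A.Idx) (p : M) :
    A.sp w (A.dd (u + v)) α β p = A.sp w (A.dd u) α β p + A.sp w (A.dd v) α β p := by
  simp only [sp, dd, A.D_add _ hu hv, Pi.add_apply, dotProduct_add]
  ring

theorem zc_add (lam : ℝ) (η : M → ℝ) {V₁ V₂ W₁ W₂ : M → V4} (h₁ : Sm V₁) (h₁' : Sm W₁)
    (α : A.Idx) (p : M) :
    A.zc lam η (V₁ + W₁) (V₂ + W₂) α p = A.zc lam η V₁ V₂ α p + A.zc lam η W₁ W₂ α p := by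
  simp only [zc, A.D_add _ h₁ h₁', Pi.add_apply, smul_add]
  abel

theorem zs_add (lam : ℝ) (η : M → ℝ) {V₁ V₂ W₁ W₂ : M → V4} (h₂ : Sm V₂) (h₂' : Sm W₂)
    (α : A.Idx) (p : M) :
    A.zs lam η (V₁ + W₁) (V₂ + W₂) α p = A.zs lam η V₁ V₂ α p + A.zs lam η W₁ W₂ α p := by
  simp only [zs, A.D_add _ h₂ h₂', Pi.add_apply, smul_add]
  abel

/-- A normal field: differentiate `D α F ⬝ W = 0` (`D_dot`, `D_const`). -/
theorem sp_dd_normal {F W : M → V4} (hF : Sm F) (hW : Sm W) (h : ∀ α p, A.D α F p ⬝ᵥ W p = 0)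
    (α β : A.Idx) (p : M) : A.sp (A.dd F) (A.dd W) α β p =
      -(A.D β (A.D α F) p ⬝ᵥ W p + A.D α (A.D β F) p ⬝ᵥ W p) := by
  have key : ∀ α β, A.D α F p ⬝ᵥ A.D β W p + A.D β (A.D α F) p ⬝ᵥ W p = 0 := by
    intro α β
    rw [← A.D_dot β (A.D_sm α hF) hW p, funext (h α), A.D_const]
  simp only [sp, dd]
  linear_combination key α β + key β α

/-- `IsTen.comp`, `η = x⁰ + t x¹`. -/
theorem IsTen.shear {A : Atl M} {T : A.Ten} (hT : A.IsTen T) (i : Fin A.n) (t : ℝ) {p : M}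
    (hp : p ∈ A.O i) (α β : A.Idx) :
    T α β p = A.D α (A.eta i t) p * A.D β (A.eta i t) p * A.cXX i T p +
      (A.D α (A.eta i t) p * A.D β (A.x i 1) p + A.D α (A.x i 1) p * A.D β (A.eta i t) p) *
        A.cXY i t T p + A.D α (A.x i 1) p * A.D β (A.x i 1) p * A.cYY i t T p := by
  have e : ∀ γ, A.D γ (A.eta i t) p = A.D γ (A.x i 0) p + t * A.D γ (A.x i 1) p := by
    intro γ
    have h1 := congrFun (A.D_add γ (A.x_sm i 0) ((A.x_sm i 1).const_smul t)) p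
    rw [A.D_const_smul γ (A.x_sm i 1)] at h1
    exact h1
  rw [hT.comp i p hp α β, e α, e β]
  simp only [Fin.sum_univ_two, cXX, cXY, cYY, hT.symm (i, 1) (i, 0) p]
  ring

theorem ten_DY (α : A.Idx) (i : Fin A.n) (t : ℝ) {F : M → E} (hF : Sm F) (p : M) :
    A.D α (A.Y i t F) p = A.D α (A.D (i, 1) F) p - t • A.D α (A.D (i, 0) F) p := by
  have h1 := congrFun (A.D_sub α (A.D_sm (i, 1) hF) ((A.D_sm (i, 0) hF).const_smul t)) p
  rw [A.D_const_smul α (A.D_sm (i, 0) hF)] at h1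
  exact h1

/-- `Y Y F` in the chart (`D_sub`, `D_const_smul`, `D_comm`). -/
theorem YY_eq (i : Fin A.n) (t : ℝ) {F : M → E} (hF : Sm F) {p : M} (hp : p ∈ A.O i) :
    A.Y i t (A.Y i t F) p = A.D (i, 1) (A.D (i, 1) F) p - (2 * t) • A.D (i, 0) (A.D (i, 1) F) p +
      t ^ 2 • A.D (i, 0) (A.D (i, 0) F) p := by
  rw [Y, A.ten_DY _ i t hF, A.ten_DY _ i t hF, A.D_comm i 1 0 hF hp]
  module

variable {A} {L μ Z Z' : P → ℝ}

theorem tmT_sp {w w' : P → A.One} (h : ∀ α, A.Tm L μ Z (fun q => w q α))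
    (h' : ∀ α, A.Tm L μ Z' (fun q => w' q α)) :
    A.TmT L μ (Z * Z') (fun q => A.sp (w q) (w' q)) := fun α β =>
  ((h α).dot (h' β)).add ((h β).dot (h' α))

theorem TmT.cf {T : P → A.Ten} (hL : ∀ q, 2 ≤ L q) (hμ : ∀ q, 1 ≤ μ q) (hZ : ∀ q, 0 ≤ Z q)
    (h : A.TmT L μ Z T) (i : Fin A.n) (c : Fin 2 → Fin 2 → ℝ) :
    A.Tm L μ Z (fun q => cf i c (T q)) :=   tm_sum hL hμ hZ Finset.univ (w := fun a q p => ∑ b, c a b * T q (i, a) (i, b) p) fun a _ =>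
    tm_sum hL hμ hZ Finset.univ (w := fun b q p => c a b * T q (i, a) (i, b) p) fun b _ =>
      (h (i, a) (i, b)).const_smul (c a b)

namespace Base

variable (b : A.Base P)

theorem tm_X (i : Fin A.n) : A.Tm b.L b.μ 1 (fun q => A.X i (b.F q)) := b.F1 (i, 0)

theorem tm_Y (i : Fin A.n) (t : ℝ) : A.Tm b.L b.μ 1 (fun q => A.Y i t (b.F q)) :=   (b.F1 (i, 1)).sub ((b.F1 (i, 0)).const_smul t)

/-- `Y Y F = D₁D₁F - t D₁D₀F - t D₀D₁F + t² D₀D₀F` everywhere (`D_sub`, `D_const_smul`). -/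
theorem tm_YY (i : Fin A.n) (t : ℝ) : A.Tm b.L b.μ 1 (fun q => A.Y i t (A.Y i t (b.F q))) := by
  refine (((b.F2 (i, 1) (i, 1)).sub ((b.F2 (i, 1) (i, 0)).const_smul t)).sub
    (((b.F2 (i, 0) (i, 1)).sub ((b.F2 (i, 0) (i, 0)).const_smul t)).const_smul t)).congr
    fun q p => ?_
  rw [Y, A.ten_DY _ i t (b.F_sm q), A.ten_DY _ i t (b.F_sm q)]

theorem tm_nrm (i : Fin A.n) (t : ℝ) : A.Tm b.L b.μ 1 (fun q => A.nrm i t (b.F q)) := by
  have h := (b.tm_X i).cross3 (b.tm_Y i t) (b.tm_YY i t)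
  rw [one_mul, one_mul] at h
  exact h

end Base

end Atl

end Crest.Agent.R216
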