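import Crest.Agent.R216.StBD
import Crest.Agent.R216.StTen

/-!
# R216 / Step: the adapted frame
-/

set_option autoImplicit false
set_option linter.unusedSectionVars false

open scoped Manifold ContDiff Topology
open Matrix

noncomputable section

namespace Crest.Agent.R216

variable {M : Type*} [TopologicalSpace M] [T2Space M] [CompactSpace M] [ChartedSpace E2 M]
  [IsManifold (𝓡 2) ∞ M]
variable {E : Type} [NormedAddCommGroup E] [NormedSpace ℝ E]
variable {P : Type*}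

namespace Atl

variable {A : Atl M}

theorem fr_id (a b c : V4) :
    a ⬝ᵥ cross3 b c (cross3 a b c) = -(cross3 a b c ⬝ᵥ cross3 a b c) ∧
    b ⬝ᵥ cross3 a c (cross3 a b c) = cross3 a b c ⬝ᵥ cross3 a b c ∧
    c ⬝ᵥ cross3 a b (cross3 a b c) = -(cross3 a b c ⬝ᵥ cross3 a b c) := by
  have h : ∀ n : V4, a ⬝ᵥ cross3 b c n = -(cross3 a b c ⬝ᵥ n) ∧ b ⬝ᵥ cross3 a c n = cross3 a b c ⬝ᵥ n ∧
      c ⬝ᵥ cross3 a b n = -(cross3 a b c ⬝ᵥ n) := fun n => by
    refine ⟨?_, ?_, ?_⟩ <;> simp [dotProduct, Fin.sum_univ_four, cross3, d3] <;> ring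
  exact h _

/-- With `a = X F`, `b = Y F`, `c = Y Y F`, `n = cross3 a b c`, `d = n ⬝ n`, `Φ` from `exists_isq`,
`ρ = Φ (L^e * d)` (`Tm.lmul`, `Tm.comp`), so `ρ² L^e d = 1` on `R`:
`e1 = (L^e ρ²) • ∓cross3 b c n`, `e2 = (L^e ρ²) • ±cross3 a c n`, `e3 = (L^e ρ²) • ∓cross3 a b n`
(signs from `cross3_dot`: `cross3 a b c ⬝ n = det ![a,b,c,n] = d`; the identities
`a ⬝ cross3 b c n = ± d` etc. are polynomial identities in the 12 coordinates, or follow from
`det` row swaps), `ν = (√(L^e) ρ) • n` (`√(L^e) ≤ L^e`). -/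
theorem exists_frame (b : A.Base P) (i : Fin A.n) (t : ℝ) (e : ℕ) (R : P → Set M)
    (hR : ∀ q, IsClosed (R q)) (hsub : ∀ q, R q ⊆ A.O i)
    (hn : ∀ q, ∀ p ∈ R q, 1 ≤ b.L q ^ e * (A.nrm i t (b.F q) p ⬝ᵥ A.nrm i t (b.F q) p)) :
    ∃ fr : Frame b, fr.i = i ∧ fr.t = t ∧ fr.R = R := by
  obtain ⟨Φ, hΦ, hΦ1⟩ := exists_isq
  have L0 : ∀ q, 0 ≤ b.L q ^ e := fun q => pow_nonneg (zero_le_two.trans (b.hL q)) _
  have L1 : ∀ q, 1 ≤ b.L q ^ e := fun q => one_le_pow₀ (one_le_two.trans (b.hL q))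
  have hn' := b.tm_nrm i t
  have hd := hn'.dot hn'
  rw [one_mul] at hd
  have hρ := (hd.lmul (fun q => b.L q ^ e) e fun q => (abs_of_nonneg (L0 q)).le).comp hΦ
  set ρ : P → M → ℝ := fun q p => Φ (b.L q ^ e • (A.nrm i t (b.F q) p ⬝ᵥ A.nrm i t (b.F q) p))
    with hρd
  have hσ := (hρ.mul hρ).lmul (fun q => b.L q ^ e) e fun q => (abs_of_nonneg (L0 q)).le
  have key : ∀ q, ∀ p ∈ R q, b.L q ^ e • (ρ q p * ρ q p) *
      (A.nrm i t (b.F q) p ⬝ᵥ A.nrm i t (b.F q) p) = 1 := fun q p hp => by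
    have := hΦ1 _ (hn q p hp)
    simp only [hρd, smul_eq_mul]
    linear_combination this
  have t1 := hσ.smul ((b.tm_Y i t).cross3 (b.tm_YY i t) hn').neg
  have t2 := hσ.smul ((b.tm_X i).cross3 (b.tm_YY i t) hn')
  have t3 := hσ.smul ((b.tm_X i).cross3 (b.tm_Y i t) hn').neg
  have t4 := (hρ.smul hn').lmul (fun q => √(b.L q ^ e)) e fun q => by
    rw [abs_of_nonneg (Real.sqrt_nonneg _), Real.sqrt_le_iff]
    exact ⟨L0 q, le_self_pow₀ (L1 q) two_ne_zero⟩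
  simp only [one_mul] at t1 t2 t3 t4
  refine ⟨⟨i, t, R, hR, hsub, _, _, _, _, t1, t2, t3, t4, fun q p hp => ⟨?_, ?_⟩, fun q p hp => ⟨?_, ?_⟩,
    fun q p hp => ⟨?_, ?_, ?_⟩, fun q p hp => ⟨?_, ?_, ?_, ?_⟩⟩, rfl, rfl, rfl⟩
  · rw [dotProduct_smul, dotProduct_neg, nrm, (fr_id _ _ _).1, neg_neg]
    exact key q p hp
  · rw [dotProduct_smul, dotProduct_neg, dotProduct_comm, cross3_dot_fst, neg_zero, smul_zero]
  · rw [dotProduct_smul, dotProduct_comm, cross3_dot_fst, smul_zero]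
  · rw [dotProduct_smul, nrm, (fr_id _ _ _).2.1]
    exact key q p hp
  · rw [dotProduct_smul, dotProduct_neg, dotProduct_comm, cross3_dot_fst, neg_zero, smul_zero]
  · rw [dotProduct_smul, dotProduct_neg, dotProduct_comm, cross3_dot_snd, neg_zero, smul_zero]
  · rw [dotProduct_smul, dotProduct_neg, nrm, (fr_id _ _ _).2.2, neg_neg]
    exact key q p hp
  · rw [dotProduct_smul, dotProduct_smul, dotProduct_comm, nrm, cross3_dot_fst, smul_zero, smul_zero]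
  · rw [dotProduct_smul, dotProduct_smul, dotProduct_comm, nrm, cross3_dot_snd, smul_zero, smul_zero]
  · rw [dotProduct_smul, dotProduct_smul, dotProduct_comm, nrm, cross3_dot_trd, smul_zero, smul_zero]
  · have := key q p hp
    have h2 := Real.mul_self_sqrt (L0 q)
    simp only [dotProduct_smul, smul_dotProduct, smul_eq_mul] at this ⊢
    linear_combination this + (ρ q p * ρ q p * (A.nrm i t (b.F q) p ⬝ᵥ A.nrm i t (b.F q) p)) * h2

end Atl

end Crest.Agent.R216
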