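import Crest.Agent.R216.StSolve

/-!
# R216 / Step: the Källén iteration with frozen denominators
-/

set_option autoImplicit false
set_option linter.unusedSectionVars false

open scoped Manifold ContDiff Topology
open Matrix

noncomputable section

namespace Crest.Agent.R216

variable {M : Type*} [TopologicalSpace M] [T2Space M] [CompactSpace M] [ChartedSpace E2 M]
  [IsManifold (𝓡 2) ∞ M]
variable {E : Type} [NormedAddCommGroup E] [NormedSpace ℝ E]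
variable {P : Type*}

namespace Atl

variable {A : Atl M} {b : A.Base P}

theorem Frame.kal_η_sm (fr : Frame b) : Sm fr.η := A.eta_sm _ _

theorem kal_le {L μ Z Z' : P → ℝ} {u : P → M → E} (h : A.Tm L μ Z u) (hZ : ∀ q, Z q ≤ Z' q) :
    A.Tm L μ Z' u := h.mono le_rfl hZ

theorem Frame.kal_n (fr : Frame b) {Z : P → ℝ} {a : P → M → ℝ} (ha : A.Tm b.L b.μ Z a) (α : A.Idx) :
    A.Tm b.L b.μ Z fun q p => (A.D α fr.η p * a q p) • fr.ν q p := by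
  have := ((tm_const b.hL b.hμ (A.D_sm α fr.kal_η_sm)).mul ha).smul fr.ν_tm
  rwa [one_mul, mul_one] at this

theorem Frame.kal_nn (fr : Frame b) {a : P → M → ℝ} (hv : Van fr.R a) (q : P) (p : M) :
    a q p * (fr.ν q p ⬝ᵥ fr.ν q p) = a q p := by
  by_cases h : p ∈ fr.R q
  · rw [(fr.ν_dual q p h).2.2.2, mul_one]
  · rw [hv q p h, zero_mul]

theorem Frame.Bend.kal_zs {fr : Frame b} {lam θ Z : P → ℝ} {N : ℕ} {a : P → M → ℝ}
    {V₁ V₂ : P → M → V4} (h : fr.Bend lam θ Z N a V₁ V₂) (ha : A.Tm b.L b.μ Z a) (hθ1 : θ ≤ 1)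
    (α : A.Idx) : A.Tm b.L b.μ Z fun q => A.zs (lam q) fr.η (V₁ q) (V₂ q) α :=
  ((kal_le (h.zs_tm α) fun q => mul_le_of_le_one_right (ha.hZ q) (hθ1 q)).sub
    (fr.kal_n ha α)).congr fun _ _ => (add_sub_cancel_right _ _).symm

/-- Adding a correction of size `Z ≤ θ` keeps the leading term (`zc_add`, `zs_add`; the `sin`-amplitude of the
correction is `O(Z θ) - dη a' ν = O(Z)`). -/
theorem Frame.Bend.add {fr : Frame b} {lam θ Z : P → ℝ} {N : ℕ} {a a' : P → M → ℝ}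
    {V₁ V₂ W₁ W₂ : P → M → V4} (h : fr.Bend lam θ 1 N a V₁ V₂) (h' : fr.Bend lam θ Z N a' W₁ W₂)
    (ha' : A.Tm b.L b.μ Z a') (hZ : Z ≤ θ) (hθ1 : θ ≤ 1) :
    fr.Bend lam θ 1 N a (fun q => V₁ q + W₁ q) (fun q => V₂ q + W₂ q) := by
  have Z1 : ∀ q, Z q ≤ 1 := fun q => (hZ q).trans (hθ1 q)
  have θ0 : ∀ q, 0 ≤ θ q := fun q => (ha'.hZ q).trans (hZ q)
  have k : ∀ {Y : P → ℝ}, (∀ q, 0 ≤ Y q) → ∀ q, (Z * Y) q ≤ (1 * Y) q := fun hY q =>
    mul_le_mul_of_nonneg_right (Z1 q) (hY q)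
  have μ0 : ∀ q, 0 ≤ b.μ⁻¹ q := fun q => inv_nonneg.2 (zero_le_one.trans (b.hμ q))
  have θN : ∀ q, 0 ≤ (θ ^ N) q := fun q => pow_nonneg (θ0 q) N
  have e1 := fun q => A.zc_add (lam q) fr.η (V₂ := V₂ q) (W₂ := W₂ q) (h.v1.tm.sm q) (h'.v1.tm.sm q)
  have e2 := fun q => A.zs_add (lam q) fr.η (V₁ := V₁ q) (W₁ := W₁ q) (h.v2.tm.sm q) (h'.v2.tm.sm q)
  refine ⟨⟨h.v1.tm.add (kal_le h'.v1.tm (k μ0)), fun q p hp => ?_⟩,
    ⟨h.v2.tm.add (kal_le h'.v2.tm (k μ0)), fun q p hp => ?_⟩,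
    fun α => ((h.zc_tm α).add (kal_le (h'.zc_tm α) (k θ0))).congr fun q p => e1 q α p,
    fun α => ((h.zs_tm α).add (kal_le (h'.kal_zs ha' hθ1 α) fun q => ?_)).congr fun q p => ?_,
    fun α β => ((h.lc α β).add (kal_le (h'.lc α β) (k θN))).congr fun q p => ?_,
    fun α β => ((h.ls α β).add (kal_le (h'.ls α β) (k θN))).congr fun q p => ?_⟩
  · rw [Pi.add_apply, h.v1.van q p hp, h'.v1.van q p hp, add_zero]
  · rw [Pi.add_apply, h.v2.van q p hp, h'.v2.van q p hp, add_zero]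
  · rw [one_mul]; exact hZ q
  · rw [e2]; abel
  · simp only [sp, e1, dotProduct_add]; ring
  · simp only [sp, e2, dotProduct_add]; ring

/-- `mean = ½ (zc·zc + zs·zs)`, `zc = O(θ)`, `zs = -dη a ν + O(θ)`, `a² ν·ν = a²` (`a = 0` off `R`). -/
theorem Frame.Bend.mean_lead {fr : Frame b} {lam θ : P → ℝ} {N : ℕ} {a : P → M → ℝ}
    {V₁ V₂ : P → M → V4} (h : fr.Bend lam θ 1 N a V₁ V₂) (ha : A.Tm b.L b.μ 1 a)
    (hv : Van fr.R a) (hθ1 : θ ≤ 1) :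
    A.TmT b.L b.μ θ (fun q α β p => A.mean (lam q) fr.η (V₁ q) (V₂ q) α β p -
      a q p ^ 2 / 2 * (A.D α fr.η p * A.D β fr.η p)) := by
  intro α β
  have θ0 : ∀ q, 0 ≤ θ q := fun q => by simpa using (h.zc_tm α).hZ q
  have t1 : A.Tm b.L b.μ θ _ := kal_le ((h.zc_tm α).dot (h.zc_tm β)) fun q => by
    simpa using mul_le_of_le_one_right (θ0 q) (hθ1 q)
  have t2 : A.Tm b.L b.μ θ _ := kal_le ((h.kal_zs ha hθ1 α).dot (h.zs_tm β)) fun q => by simp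
  have t3 : A.Tm b.L b.μ θ _ := kal_le ((h.zs_tm α).dot (fr.kal_n ha β)) fun q => by simp
  refine (((t1.add t2).sub t3).const_smul (1 / 2)).congr fun q p => ?_
  have := fr.kal_nn hv q p
  simp only [mean, dotProduct_add, add_dotProduct, dotProduct_smul, smul_dotProduct, smul_eq_mul]
  linear_combination (A.D α fr.η p * A.D β fr.η p * a q p / 2) * this

/-- `mean (V + W) - mean V = ½ (zc·zc' + zc'·zc + zs·zs' + zs'·zs) + mean W`, with
`zs = -dη a ν + O(θ)`, `zs' = -dη a' ν + O(Z θ)`, `zc = O(θ)`, `zc' = O(Z θ)`, `mean W = O(Z²)`. -/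
theorem Frame.Bend.mean_add {fr : Frame b} {lam θ Z : P → ℝ} {N : ℕ} {a a' : P → M → ℝ}
    {V₁ V₂ W₁ W₂ : P → M → V4} (h : fr.Bend lam θ 1 N a V₁ V₂) (h' : fr.Bend lam θ Z N a' W₁ W₂)
    (ha : A.Tm b.L b.μ 1 a) (ha' : A.Tm b.L b.μ Z a') (hv : Van fr.R a) (hZ : Z ≤ θ)
    (hθ1 : θ ≤ 1) :
    A.TmT b.L b.μ (Z * θ) (fun q α β p =>
      A.mean (lam q) fr.η (V₁ q + W₁ q) (V₂ q + W₂ q) α β p -
        A.mean (lam q) fr.η (V₁ q) (V₂ q) α β p -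
        a q p * a' q p * (A.D α fr.η p * A.D β fr.η p)) := by
  intro α β
  have Z0 := ha'.hZ
  have θ0 : ∀ q, 0 ≤ θ q := fun q => (Z0 q).trans (hZ q)
  have e1 := fun q => A.zc_add (lam q) fr.η (V₂ := V₂ q) (W₂ := W₂ q) (h.v1.tm.sm q) (h'.v1.tm.sm q)
  have e2 := fun q => A.zs_add (lam q) fr.η (V₁ := V₁ q) (W₁ := W₁ q) (h.v2.tm.sm q) (h'.v2.tm.sm q)
  have c1 : ∀ γ, A.Tm b.L b.μ 1 _ := fun γ => kal_le (h.zc_tm γ) fun q => by simpa using hθ1 q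
  have c2 : ∀ γ, A.Tm b.L b.μ 1 _ := fun γ => kal_le (h'.zc_tm γ) fun q =>
    mul_le_one₀ ((hZ q).trans (hθ1 q)) (θ0 q) (hθ1 q)
  have t1 : ∀ γ δ, A.Tm b.L b.μ (Z * θ) _ := fun γ δ =>
    kal_le ((c1 γ).dot (h'.zc_tm δ)) fun q => by simp
  have t2 : A.Tm b.L b.μ (Z * θ) _ := kal_le ((c2 α).dot (h'.zc_tm β)) fun q => by simp
  have t3 : ∀ γ δ, A.Tm b.L b.μ (Z * θ) _ := fun γ δ =>
    kal_le ((h.kal_zs ha hθ1 γ).dot (h'.zs_tm δ)) fun q => by simp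
  have t4 : ∀ γ δ, A.Tm b.L b.μ (Z * θ) _ := fun γ δ =>
    kal_le ((h.zs_tm γ).dot (fr.kal_n ha' δ)) fun q => by simp [mul_comm]
  have t5 : A.Tm b.L b.μ (Z * θ) _ :=
    kal_le ((h'.kal_zs ha' hθ1 α).dot (h'.kal_zs ha' hθ1 β)) fun q =>
      mul_le_mul_of_nonneg_left (hZ q) (Z0 q)
  refine (((((t1 α β).add (t1 β α)).add t2).add ((((t3 α β).sub (t4 α β)).add
    ((t3 β α).sub (t4 β α))).add t5)).const_smul (1 / 2)).congr fun q p => ?_
  have := fr.kal_nn hv q p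
  simp only [mean, e1, e2, dotProduct_add, add_dotProduct, dotProduct_smul, smul_dotProduct,
    smul_eq_mul]
  rw [dotProduct_comm (A.zc (lam q) fr.η (V₁ q) (V₂ q) β p) (A.zc (lam q) fr.η (W₁ q) (W₂ q) α p),
    dotProduct_comm (A.zs (lam q) fr.η (V₁ q) (V₂ q) β p) (A.zs (lam q) fr.η (W₁ q) (W₂ q) α p)]
  linear_combination (A.D α fr.η p * A.D β fr.η p * a' q p) * this

/-- Induction on `n`. Start: `bend` with `a j = Ω j * s j`; `∑ a² / 2 dη² = ∑ Ω² cf H dη² = H`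
(`ss`, `dec`). Step: `E = H - ∑ mean` is a tensor (`isTen_mean`) of size `θ^(n+1)`;
`a' j = Ω j * (cf E * r j)`, `∑ a a' dη² = ∑ Ω² cf E dη² = E` (`sr`, `dec`); `bend`, `Bend.add`,
`Bend.mean_add`. -/
theorem kallen {H : P → A.Ten} (hH : ∀ q, A.IsTen (H q)) {J : ℕ} (d : Dec b H J) {θ : P → ℝ}
    (hθ0 : ∀ q, 0 ≤ θ q) (hθ1 : θ ≤ 1) {lam : Fin J → P → ℝ} (hl : ∀ j, b.μ ≤ lam j)
    (hθ : ∀ j, b.μ * (lam j)⁻¹ ≤ θ) (N n : ℕ) :
    ∃ V₁ V₂ : Fin J → P → M → V4,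
      (∀ j, (d.fr j).Bend (lam j) θ 1 N (fun q p => d.Ω j q p * d.s j q p) (V₁ j) (V₂ j)) ∧
      A.TmT b.L b.μ (θ ^ (n + 1)) (fun q α β p =>
        H q α β p - ∑ j, A.mean (lam j q) (d.fr j).η (V₁ j q) (V₂ j q) α β p) := by
  have ha : ∀ j, A.Tm b.L b.μ 1 fun q p => d.Ω j q p * d.s j q p := fun j => by
    have := (d.Ω_tm j).mul (d.s_tm j)
    rwa [one_mul] at this
  have hv : ∀ j (u : P → M → ℝ), Van (d.fr j).R fun q p => d.Ω j q p * u q p :=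
    fun j u q p hp => by
      beta_reduce
      rw [d.Ω_van j q p hp, zero_mul]
  induction n with
  | zero =>
    choose V₁ V₂ hV using fun j => (d.fr j).bend (hl j) (hθ j) hθ1 N (ha j) (hv j _)
    refine ⟨V₁, V₂, hV, fun α β => ?_⟩
    rw [zero_add, pow_one]
    refine (tm_sum b.hL b.hμ hθ0 Finset.univ fun j _ =>
      (hV j).mean_lead (ha j) (hv j _) hθ1 α β).neg.congr fun q p => ?_
    beta_reduce
    rw [Finset.sum_sub_distrib, neg_sub, ← d.dec q (H q) (hH q) α β p]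
    congr 1
    refine Finset.sum_congr rfl fun j _ => ?_
    by_cases h0 : d.Ω j q p = 0
    · simp [h0]
    · rw [mul_pow, d.ss j q p h0]; ring
  | succ n ih =>
    obtain ⟨V₁, V₂, hV, hE⟩ := ih
    set T : P → A.Ten := fun q α β p =>
      H q α β p - ∑ j, A.mean (lam j q) (d.fr j).η (V₁ j q) (V₂ j q) α β p with hT
    have hTt : ∀ q, A.IsTen (T q) := fun q => (hH q).sub (IsTen.sum Finset.univ fun j _ =>
      A.isTen_mean _ (d.fr j).kal_η_sm ((hV j).v1.tm.sm q) ((hV j).v2.tm.sm q))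
    have Z0 : ∀ q, 0 ≤ (θ ^ (n + 1)) q := fun q => pow_nonneg (hθ0 q) _
    have ha' : ∀ j, A.Tm b.L b.μ (θ ^ (n + 1)) fun q p =>
        d.Ω j q p * (cf (d.fr j).i (d.c j) (T q) p * d.r j q p) := fun j => by
      have := (d.Ω_tm j).mul ((hE.cf b.hL b.hμ Z0 (d.fr j).i (d.c j)).mul (d.r_tm j))
      rwa [one_mul, mul_one] at this
    have hZ : θ ^ (n + 1) ≤ θ := fun q => pow_le_of_le_one (hθ0 q) (hθ1 q) n.succ_ne_zero
    choose W₁ W₂ hW using fun j => (d.fr j).bend (hl j) (hθ j) hθ1 N (ha' j) (hv j _)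
    refine ⟨fun j q => V₁ j q + W₁ j q, fun j q => V₂ j q + W₂ j q,
      fun j => (hV j).add (hW j) (ha' j) hZ hθ1, fun α β => ?_⟩
    rw [pow_succ]
    refine (tm_sum b.hL b.hμ (fun q => mul_nonneg (Z0 q) (hθ0 q)) Finset.univ fun j _ =>
      (hV j).mean_add (hW j) (ha j) (ha' j) (hv j _) hZ hθ1 α β).neg.congr fun q p => ?_
    have e : ∑ j, d.Ω j q p * d.s j q p * (d.Ω j q p * (cf (d.fr j).i (d.c j) (T q) p * d.r j q p)) *
        (A.D α (d.fr j).η p * A.D β (d.fr j).η p) = T q α β p := by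
      rw [← d.dec q (T q) (hTt q) α β p]
      refine Finset.sum_congr rfl fun j _ => ?_
      by_cases h0 : d.Ω j q p = 0
      · simp [h0]
      · linear_combination (d.Ω j q p ^ 2 * cf (d.fr j).i (d.c j) (T q) p *
          (A.D α (d.fr j).η p * A.D β (d.fr j).η p)) * d.sr j q p h0
    rw [Finset.sum_sub_distrib, Finset.sum_sub_distrib, e]
    simp only [hT]
    ring

end Atl

end Crest.Agent.R216
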