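import Crest.Agent.R216.StTen

/-!
# R216 / Step: the WKB solver and free bendings
-/

set_option autoImplicit false
set_option linter.unusedSectionVars false

open scoped Manifold ContDiff Topology
open Matrix

noncomputable section

namespace Crest.Agent.R216

variable {M : Type*} [TopologicalSpace M] [T2Space M] [CompactSpace M] [ChartedSpace E2 M]
  [IsManifold (𝓡 2) ∞ M]
variable {E : Type} [NormedAddCommGroup E] [NormedSpace ℝ E]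
variable {P : Type*}

namespace Atl

variable (A : Atl M)

theorem slv_sp_zc (w : A.One) (lam : ℝ) (η : M → ℝ) (V₁ V₂ : M → V4) (α β : A.Idx) (p : M) :
    A.sp w (A.zc lam η V₁ V₂) α β p = A.sp w (A.dd V₁) α β p +
      lam * (A.D α η p * (w β p ⬝ᵥ V₂ p) + A.D β η p * (w α p ⬝ᵥ V₂ p)) := by
  simp only [sp, zc, dd, dotProduct_add, dotProduct_smul, smul_eq_mul]
  ring

theorem slv_sp_zs (w : A.One) (lam : ℝ) (η : M → ℝ) (V₁ V₂ : M → V4) (α β : A.Idx) (p : M) :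
    A.sp w (A.zs lam η V₁ V₂) α β p = A.sp w (A.dd V₂) α β p -
      lam * (A.D α η p * (w β p ⬝ᵥ V₁ p) + A.D β η p * (w α p ⬝ᵥ V₁ p)) := by
  simp only [sp, zs, dd, dotProduct_sub, dotProduct_smul, smul_eq_mul]
  ring

theorem slv_sp_zc_add (w : A.One) (lam : ℝ) (η : M → ℝ) {V₁ W₁ : M → V4} (V₂ W₂ : M → V4)
    (h₁ : Sm V₁) (h₁' : Sm W₁) (α β : A.Idx) (p : M) :
    A.sp w (A.zc lam η (V₁ + W₁) (V₂ + W₂)) α β p =
      A.sp w (A.zc lam η V₁ V₂) α β p + A.sp w (A.zc lam η W₁ W₂) α β p := by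
  simp only [sp, A.zc_add lam η h₁ h₁', dotProduct_add]
  ring

theorem slv_sp_zs_add (w : A.One) (lam : ℝ) (η : M → ℝ) (V₁ W₁ : M → V4) {V₂ W₂ : M → V4}
    (h₂ : Sm V₂) (h₂' : Sm W₂) (α β : A.Idx) (p : M) :
    A.sp w (A.zs lam η (V₁ + W₁) (V₂ + W₂)) α β p =
      A.sp w (A.zs lam η V₁ V₂) α β p + A.sp w (A.zs lam η W₁ W₂) α β p := by
  simp only [sp, A.zs_add lam η h₂ h₂', dotProduct_add]
  ring

theorem slv_D_zero (α : A.Idx) (p : M) : A.D α (0 : M → V4) p = 0 := A.D_const α 0 p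

theorem slv_sp_dd_zero (w : A.One) (α β : A.Idx) (p : M) : A.sp w (A.dd 0) α β p = 0 := by
  simp only [sp, dd, A.slv_D_zero, dotProduct_zero, add_zero]

variable {A} {L μ Z lam : P → ℝ}

theorem slv_tm_lam {η : M → ℝ} (hη : Sm η) (hl : μ ≤ lam) {V : P → M → V4} (h : A.Tm L μ Z V)
    (α : A.Idx) : A.Tm L μ (Z * lam) (fun q p => (lam q * A.D α η p) • V q p) := by
  have h0 : ∀ q, 0 ≤ lam q := fun q => (zero_le_one.trans (h.hμ q)).trans (hl q)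
  have h1 := (tm_const (A := A) h.hL h.hμ (A.D_sm α hη)).smul h
  have h2 := h1.cmul (Z' := lam) lam fun q => (abs_of_nonneg (h0 q)).le
  refine (h2.congr fun q p => (mul_smul _ _ _)).congr_wt fun q => ?_
  simp only [Pi.mul_apply, Pi.one_apply]
  ring

theorem slv_tm_D (hl : μ ≤ lam) {V : P → M → V4} (h : A.Tm L μ Z V) (α : A.Idx) :
    A.Tm L μ (Z * lam) (fun q => A.D α (V q)) :=
  (h.D α).mono le_rfl fun q => mul_le_mul_of_nonneg_left (hl q) (h.hZ q)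

theorem slv_tm_zc {η : M → ℝ} (hη : Sm η) (hl : μ ≤ lam) {V₁ V₂ : P → M → V4}
    (h₁ : A.Tm L μ Z V₁) (h₂ : A.Tm L μ Z V₂) (α : A.Idx) :
    A.Tm L μ (Z * lam) (fun q => A.zc (lam q) η (V₁ q) (V₂ q) α) :=
  (slv_tm_D hl h₁ α).add (slv_tm_lam hη hl h₂ α)

theorem slv_tm_zs {η : M → ℝ} (hη : Sm η) (hl : μ ≤ lam) {V₁ V₂ : P → M → V4}
    (h₁ : A.Tm L μ Z V₁) (h₂ : A.Tm L μ Z V₂) (α : A.Idx) :
    A.Tm L μ (Z * lam) (fun q => A.zs (lam q) η (V₁ q) (V₂ q) α) :=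
  (slv_tm_D hl h₂ α).sub (slv_tm_lam hη hl h₁ α)

end Atl

namespace Atl.Frame

variable {A : Atl M} {b : A.Base P} (fr : Frame b) {μ Z : P → ℝ}

section Aux

variable {fr} {Z' : P → ℝ}

theorem TenOn.slv_hZ {T : P → A.Ten} (h : fr.TenOn μ Z T) (q : P) : 0 ≤ Z q :=
  (h.tm (fr.i, 0) (fr.i, 0)).hZ q

theorem TenOn.slv_mono {T : P → A.Ten} (h : fr.TenOn μ Z T) (hZ : Z ≤ Z') : fr.TenOn μ Z' T :=
  ⟨h.ten, fun α β => (h.tm α β).mono le_rfl hZ, h.van⟩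

theorem TenOn.slv_congr {T T' : P → A.Ten} (h : fr.TenOn μ Z T)
    (e : ∀ q α β p, T' q α β p = T q α β p) : fr.TenOn μ Z T' := by
  obtain rfl : T' = T := by
    funext q α β p
    exact e q α β p
  exact h

theorem TenOn.slv_sub {T T' : P → A.Ten} (h : fr.TenOn μ Z T) (h' : fr.TenOn μ Z T') :
    fr.TenOn μ Z (fun q α β p => T q α β p - T' q α β p) :=
  ⟨fun q => (h.ten q).sub (h'.ten q), fun α β => (h.tm α β).sub (h'.tm α β), fun α β q p hp => by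
    have h1 : T q α β p = 0 := h.van α β q p hp
    have h2 : T' q α β p = 0 := h'.van α β q p hp
    simp only [h1, h2, sub_self]⟩

theorem TenOn.slv_zero {T : P → A.Ten} (h : fr.TenOn μ Z T) :
    fr.TenOn μ Z (fun _ _ _ _ => 0) := (h.slv_sub h).slv_congr fun _ _ _ _ => (sub_self _).symm

theorem TenOn.slv_neg {T : P → A.Ten} (h : fr.TenOn μ Z T) :
    fr.TenOn μ Z (fun q α β p => -T q α β p) :=
  (h.slv_zero.slv_sub h).slv_congr fun _ _ _ _ => (zero_sub _).symm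

theorem TenOn.slv_cXY {T : P → A.Ten} (h : fr.TenOn μ Z T) :
    A.Tm b.L μ Z (fun q => A.cXY fr.i fr.t (T q)) :=
  (h.tm (fr.i, 0) (fr.i, 1)).sub ((h.tm (fr.i, 0) (fr.i, 0)).const_smul fr.t)

theorem TenOn.slv_cYY {T : P → A.Ten} (h : fr.TenOn μ Z T) :
    A.Tm b.L μ Z (fun q => A.cYY fr.i fr.t (T q)) :=
  ((h.tm (fr.i, 1) (fr.i, 1)).sub ((h.tm (fr.i, 0) (fr.i, 1)).const_smul (2 * fr.t))).add
    ((h.tm (fr.i, 0) (fr.i, 0)).const_smul (fr.t ^ 2))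

theorem TenOn.slv_off {T : P → A.Ten} (h : fr.TenOn μ Z T) {q : P} {p : M} (hp : p ∉ fr.R q)
    (α β : A.Idx) : T q α β p = 0 := h.van α β q p hp

theorem VecOn.slv_mono {W : P → M → V4} (h : fr.VecOn μ Z W) (hZ : Z ≤ Z') : fr.VecOn μ Z' W :=
  ⟨h.tm.mono le_rfl hZ, h.van⟩

theorem VecOn.slv_add {W W' : P → M → V4} (h : fr.VecOn μ Z W) (h' : fr.VecOn μ Z W') :
    fr.VecOn μ Z (fun q => W q + W' q) :=
  ⟨h.tm.add h'.tm, fun q p hp => by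
    simp only [Pi.add_apply, h.van q p hp, h'.van q p hp, add_zero]⟩

theorem VecOn.slv_cmul {W : P → M → V4} (h : fr.VecOn μ Z W) (c : P → ℝ) (hc : ∀ q, |c q| ≤ Z' q) :
    fr.VecOn μ (Z * Z') (fun q p => c q • W q p) :=
  ⟨(h.tm.cmul c hc).congr_wt fun q => mul_comm _ _, fun q p hp => by
    simp only [h.van q p hp, smul_zero]⟩

theorem VecOn.slv_sp (hμ : b.μ ≤ μ) {W : P → M → V4} (h : fr.VecOn μ Z W) :
    fr.TenOn μ (Z * μ) (fun q => A.sp (A.dd (b.F q)) (A.dd (W q))) := by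
  refine ⟨fun q => A.isTen_sp (A.isOne_dd (b.F_sm q)) (A.isOne_dd (h.tm.sm q)), fun α β => ?_,
    fun α β q p hp => ?_⟩
  · have := tmT_sp (w := fun q => A.dd (b.F q)) (w' := fun q => A.dd (W q))
      (fun α => (b.F1 α).mono hμ le_rfl) (fun α => h.tm.D α) α β
    rwa [one_mul] at this
  · have h1 : ∀ γ, A.D γ (W q) p = 0 := fun γ => Van.D fr.R_closed h.van γ q p hp
    simp only [sp, dd, h1, dotProduct_zero, add_zero]

end Aux

/-- A multiple `a • e` of a field with `X F ⬝ e = Y F ⬝ e = 0` on `R`, `a` vanishing off `R`, is normal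
everywhere (`D_shear` on `R ⊆ O i`). Its linearised tensor is given by `sp_dd_normal`, so it is tame of
size `Z` (not `Z μ`), and its `YY` component is `-2 (Y Y F ⬝ e) a` (`YY_eq`, `D_comm` on `R`;
both sides vanish off `R`). -/
theorem normal_field (hμ : b.μ ≤ μ) {a : P → M → ℝ} {e : P → M → V4} (ha : A.Tm b.L μ Z a)
    (hv : Van fr.R a) (he : A.Tm b.L b.μ 1 e)
    (h0 : ∀ q, ∀ p ∈ fr.R q, A.X fr.i (b.F q) p ⬝ᵥ e q p = 0 ∧ A.Y fr.i fr.t (b.F q) p ⬝ᵥ e q p = 0) :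
    fr.VecOn μ Z (fun q p => a q p • e q p) ∧
    (∀ q α p, A.D α (b.F q) p ⬝ᵥ (a q p • e q p) = 0) ∧
    fr.TenOn μ Z (fun q => A.sp (A.dd (b.F q)) (A.dd fun p => a q p • e q p)) ∧
    ∀ q p, A.cYY fr.i fr.t (A.sp (A.dd (b.F q)) (A.dd fun p => a q p • e q p)) p =
      -2 * (A.Y fr.i fr.t (A.Y fr.i fr.t (b.F q)) p ⬝ᵥ e q p) * a q p := by
  have hW : fr.VecOn μ Z (fun q p => a q p • e q p) := by
    refine ⟨?_, fun q p hp => by simp only [hv q p hp, zero_smul]⟩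
    have := ha.smul (he.mono hμ le_rfl)
    rwa [mul_one] at this
  have hn : ∀ q α p, A.D α (b.F q) p ⬝ᵥ (a q p • e q p) = 0 := by
    intro q α p
    by_cases hp : p ∈ fr.R q
    · rw [A.D_shear α fr.i fr.t (b.F_sm q) (fr.R_sub q hp)]
      simp only [add_dotProduct, smul_dotProduct, dotProduct_smul, (h0 q p hp).1, (h0 q p hp).2,
        smul_zero, add_zero]
    · simp only [hv q p hp, zero_smul, dotProduct_zero]
  have hf := fun q => A.sp_dd_normal (b.F_sm q) (hW.tm.sm q) (hn q)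
  refine ⟨hW, hn, ⟨(hW.slv_sp hμ).ten, fun α β => ?_, (hW.slv_sp hμ).van⟩, fun q p => ?_⟩
  · have h1 := ((((b.F2 β α).mono hμ le_rfl).dot hW.tm).add
      (((b.F2 α β).mono hμ le_rfl).dot hW.tm)).neg
    rw [one_mul] at h1
    exact h1.congr fun q p => hf q α β p
  · simp only [cYY, hf q]
    by_cases hp : p ∈ fr.R q
    · have hO := fr.R_sub q hp
      rw [A.YY_eq fr.i fr.t (b.F_sm q) hO, A.D_comm fr.i 1 0 (b.F_sm q) hO]
      simp only [add_dotProduct, sub_dotProduct, smul_dotProduct, dotProduct_smul, smul_eq_mul]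
      ring
    · simp only [hv q p hp, zero_smul, dotProduct_zero]
      ring

/-- Tangential part: `W = (cXX T / 2) • e1 + cXY T • e2`; on `R` expand with `IsTen.shear` and
`D_shear` (`D β F ⬝ W = D β η * cXX T / 2 + D β y * cXY T`). -/
theorem solve_tan (hμ : b.μ ≤ μ) {T : P → A.Ten} (hT : fr.TenOn μ Z T)
    (hYY : ∀ q p, A.cYY fr.i fr.t (T q) p = 0) :
    ∃ W : P → M → V4, fr.VecOn μ Z W ∧ ∀ q α β p,
      A.D α fr.η p * (A.D β (b.F q) p ⬝ᵥ W q p) + A.D β fr.η p * (A.D α (b.F q) p ⬝ᵥ W q p) =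
        T q α β p := by
  refine ⟨fun q p => ((2⁻¹ : ℝ) • T q (fr.i, 0) (fr.i, 0) p) • fr.e1 q p +
    A.cXY fr.i fr.t (T q) p • fr.e2 q p, ⟨?_, fun q p hp => ?_⟩, fun q α β p => ?_⟩
  · have := (((hT.tm (fr.i, 0) (fr.i, 0)).const_smul (2⁻¹ : ℝ)).smul (fr.e1_tm.mono hμ le_rfl)).add
      (hT.slv_cXY.smul (fr.e2_tm.mono hμ le_rfl))
    rwa [mul_one] at this
  · simp only [cXY, hT.slv_off hp, smul_zero, zero_smul, mul_zero, sub_self, add_zero]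
  · by_cases hp : p ∈ fr.R q
    · have hO := fr.R_sub q hp
      rw [(hT.ten q).shear fr.i fr.t hO α β, hYY q p, A.D_shear α fr.i fr.t (b.F_sm q) hO,
        A.D_shear β fr.i fr.t (b.F_sm q) hO]
      simp only [add_dotProduct, smul_dotProduct, dotProduct_add, dotProduct_smul, smul_eq_mul,
        (fr.e1_dual q p hp).1, (fr.e1_dual q p hp).2, (fr.e2_dual q p hp).1, (fr.e2_dual q p hp).2,
        η, cXX]
      ring
    · simp only [cXY, hT.slv_off hp, smul_zero, zero_smul, mul_zero, sub_self, add_zero,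
        dotProduct_zero]

/-- One step for data without `YY` components: `W₂ = λ⁻¹ • solve_tan T₁`, `W₁ = -λ⁻¹ • solve_tan T₂`;
the errors are `sp dF dW₁`, `sp dF dW₂`, of size `Z λ⁻¹ μ` (`isTen_sp`, `tmT_sp`, `Van.D`). -/
theorem solve_one (hμ : b.μ ≤ μ) {lam : P → ℝ} (hl : μ ≤ lam) {T₁ T₂ : P → A.Ten}
    (h₁ : fr.TenOn μ Z T₁) (h₂ : fr.TenOn μ Z T₂) (y₁ : ∀ q p, A.cYY fr.i fr.t (T₁ q) p = 0)
    (y₂ : ∀ q p, A.cYY fr.i fr.t (T₂ q) p = 0) :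
    ∃ W₁ W₂ : P → M → V4, fr.VecOn μ (Z * lam⁻¹) W₁ ∧ fr.VecOn μ (Z * lam⁻¹) W₂ ∧
      fr.TenOn μ (Z * (μ * lam⁻¹)) (fun q α β p =>
        A.sp (A.dd (b.F q)) (A.zc (lam q) fr.η (W₁ q) (W₂ q)) α β p - T₁ q α β p) ∧
      fr.TenOn μ (Z * (μ * lam⁻¹)) (fun q α β p =>
        A.sp (A.dd (b.F q)) (A.zs (lam q) fr.η (W₁ q) (W₂ q)) α β p - T₂ q α β p) := by
  obtain ⟨S₁, s₁, e₁⟩ := fr.solve_tan hμ h₁ y₁
  obtain ⟨S₂, s₂, e₂⟩ := fr.solve_tan hμ h₂ y₂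
  have hl0 : ∀ q, 0 < lam q := fun q => (zero_lt_one.trans_le (s₁.tm.hμ q)).trans_le (hl q)
  have w₂ := s₁.slv_cmul (Z' := lam⁻¹) (fun q => (lam q)⁻¹)
    fun q => (abs_of_pos (inv_pos.2 (hl0 q))).le
  have w₁ := s₂.slv_cmul (Z' := lam⁻¹) (fun q => -(lam q)⁻¹)
    fun q => by rw [abs_neg]; exact (abs_of_pos (inv_pos.2 (hl0 q))).le
  have hw : Z * lam⁻¹ * μ ≤ Z * (μ * lam⁻¹) := le_of_eq (by ring)
  refine ⟨_, _, w₁, w₂, ((w₁.slv_sp hμ).slv_mono hw).slv_congr fun q α β p => ?_,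
    ((w₂.slv_sp hμ).slv_mono hw).slv_congr fun q α β p => ?_⟩
  · rw [A.slv_sp_zc, ← e₁ q α β p]
    simp only [dd, dotProduct_smul, smul_eq_mul]
    have := (hl0 q).ne'
    field_simp
    ring
  · rw [A.slv_sp_zs, ← e₂ q α β p]
    simp only [dd, dotProduct_smul, smul_eq_mul]
    have := (hl0 q).ne'
    field_simp
    ring

theorem slv_yy (hμ : b.μ ≤ μ) {T : P → A.Ten} (h : fr.TenOn μ Z T) :
    ∃ W : P → M → V4, fr.VecOn μ Z W ∧ (∀ q α p, A.D α (b.F q) p ⬝ᵥ W q p = 0) ∧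
      fr.TenOn μ Z (fun q α β p => T q α β p - A.sp (A.dd (b.F q)) (A.dd (W q)) α β p) ∧
      ∀ q p, A.cYY fr.i fr.t
        (fun α β p => T q α β p - A.sp (A.dd (b.F q)) (A.dd (W q)) α β p) p = 0 := by
  have hv : Van fr.R (fun q p => (-2⁻¹ : ℝ) • A.cYY fr.i fr.t (T q) p) := fun q p hp => by
    simp only [cYY, h.slv_off hp, mul_zero, sub_self, add_zero, smul_zero]
  obtain ⟨h1, h2, h3, h4⟩ := fr.normal_field hμ (h.slv_cYY.const_smul (-2⁻¹ : ℝ)) hv fr.e3_tm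
    fun q p hp => ⟨(fr.e3_dual q p hp).1, (fr.e3_dual q p hp).2.1⟩
  refine ⟨_, h1, h2, h.slv_sub h3, fun q p => ?_⟩
  have h5 := h4 q p
  by_cases hp : p ∈ fr.R q
  · rw [(fr.e3_dual q p hp).2.2] at h5
    simp only [cYY, smul_eq_mul] at h5 ⊢
    linarith
  · have h6 := (h.slv_sub h3).slv_off hp
    rw [cYY, h6, h6, h6]
    ring

/-- Induction on `N` (generalizing `Z T₁ T₂`). `N = 0`: `W = 0`. Step: `W⁰ₖ = (-cYY Tₖ / 2) • e3`
(`normal_field`; since `W⁰ₖ` is normal, `sp dF (zc λ η W⁰₁ W⁰₂) = sp dF dW⁰₁`, and likewise for `zs`),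
`solve_one` for `Tₖ - sp dF dW⁰ₖ`, and the induction hypothesis for minus the errors, with
`Z * θ`; add up (`zc_add`, `zs_add`). -/
theorem solve (hμ : b.μ ≤ μ) {lam θ : P → ℝ} (hl : μ ≤ lam) (hθ : μ * lam⁻¹ ≤ θ) (hθ1 : θ ≤ 1)
    (N : ℕ) {T₁ T₂ : P → A.Ten} (h₁ : fr.TenOn μ Z T₁) (h₂ : fr.TenOn μ Z T₂)
    (hZ : ∀ q, 0 ≤ Z q) :
    ∃ W₁ W₂ : P → M → V4, fr.VecOn μ Z W₁ ∧ fr.VecOn μ Z W₂ ∧
      fr.TenOn μ (Z * θ ^ N) (fun q α β p =>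
        A.sp (A.dd (b.F q)) (A.zc (lam q) fr.η (W₁ q) (W₂ q)) α β p - T₁ q α β p) ∧
      fr.TenOn μ (Z * θ ^ N) (fun q α β p =>
        A.sp (A.dd (b.F q)) (A.zs (lam q) fr.η (W₁ q) (W₂ q)) α β p - T₂ q α β p) := by
  have hμ1 : ∀ q, 1 ≤ μ q := fun q => (b.hμ q).trans (hμ q)
  have hl1 : ∀ q, 1 ≤ lam q := fun q => (hμ1 q).trans (hl q)
  have hθ0 : ∀ q, 0 ≤ θ q := fun q =>
    (mul_nonneg (zero_le_one.trans (hμ1 q)) (inv_nonneg.2 (zero_le_one.trans (hl1 q)))).trans (hθ q)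
  induction N generalizing Z T₁ T₂ with
  | zero =>
    have h0 : fr.VecOn μ Z (fun _ => 0) := ⟨tm_zero b.hL hμ1 hZ, fun _ _ _ => rfl⟩
    rw [pow_zero, mul_one]
    refine ⟨_, _, h0, h0, h₁.slv_neg.slv_congr fun q α β p => ?_,
      h₂.slv_neg.slv_congr fun q α β p => ?_⟩
    · simp only [A.slv_sp_zc, A.slv_sp_dd_zero, Pi.zero_apply, dotProduct_zero, mul_zero, add_zero,
        zero_sub]
    · simp only [A.slv_sp_zs, A.slv_sp_dd_zero, Pi.zero_apply, dotProduct_zero, mul_zero, add_zero,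
        zero_sub, sub_self]
  | succ N ih =>
    obtain ⟨U₁, u₁, n₁, t₁, y₁⟩ := fr.slv_yy hμ h₁
    obtain ⟨U₂, u₂, n₂, t₂, y₂⟩ := fr.slv_yy hμ h₂
    obtain ⟨W₁, W₂, w₁, w₂, e₁, e₂⟩ := fr.solve_one hμ hl t₁ t₂ y₁ y₂
    have k1 : Z * (μ * lam⁻¹) ≤ Z * θ := fun q => mul_le_mul_of_nonneg_left (hθ q) (hZ q)
    have k2 : Z * θ ≤ Z := fun q => mul_le_of_le_one_right (hZ q) (hθ1 q)
    have k3 : Z * lam⁻¹ ≤ Z := fun q => mul_le_of_le_one_right (hZ q) (inv_le_one_of_one_le₀ (hl1 q))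
    have k4 : Z * θ * θ ^ N ≤ Z * θ ^ (N + 1) := le_of_eq (by ring)
    obtain ⟨V₁, V₂, v₁, v₂, f₁, f₂⟩ := ih (e₁.slv_mono k1).slv_neg (e₂.slv_mono k1).slv_neg
      fun q => mul_nonneg (hZ q) (hθ0 q)
    refine ⟨_, _, (u₁.slv_add (w₁.slv_mono k3)).slv_add (v₁.slv_mono k2),
      (u₂.slv_add (w₂.slv_mono k3)).slv_add (v₂.slv_mono k2),
      (f₁.slv_mono k4).slv_congr fun q α β p => ?_, (f₂.slv_mono k4).slv_congr fun q α β p => ?_⟩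
    · rw [A.slv_sp_zc_add _ _ _ _ _ ((u₁.tm.sm q).add (w₁.tm.sm q)) (v₁.tm.sm q),
        A.slv_sp_zc_add _ _ _ _ _ (u₁.tm.sm q) (w₁.tm.sm q), A.slv_sp_zc _ _ _ (U₁ q)]
      simp only [dd, n₂]
      ring
    · rw [A.slv_sp_zs_add _ _ _ _ _ ((u₂.tm.sm q).add (w₂.tm.sm q)) (v₂.tm.sm q),
        A.slv_sp_zs_add _ _ _ _ _ (u₂.tm.sm q) (w₂.tm.sm q), A.slv_sp_zs _ _ _ (U₁ q)]
      simp only [dd, n₁]
      ring

/-- `V⁰ = (a / λ) • ν` (`normal_field` with size `Z λ⁻¹`; `cYY = 0`), `solve_one` for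
`(-sp dF dV⁰, 0)` gives `W` of size `Z λ⁻²` and errors of size `Z λ⁻¹ μ λ⁻¹`, `solve` for minus these errors
gives `W'` of that size. `V₁ = V⁰ + W₁ + W'₁`, `V₂ = W₂ + W'₂`. -/
theorem bend {lam θ : P → ℝ} (hl : b.μ ≤ lam) (hθ : b.μ * lam⁻¹ ≤ θ) (hθ1 : θ ≤ 1) (N : ℕ)
    {a : P → M → ℝ} (ha : A.Tm b.L b.μ Z a) (hv : Van fr.R a) :
    ∃ V₁ V₂ : P → M → V4, fr.Bend lam θ Z N a V₁ V₂ := by
  have hZ := ha.hZ
  have hμ0 : ∀ q, 0 < b.μ q := fun q => zero_lt_one.trans_le (b.hμ q)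
  have hl1 : ∀ q, 1 ≤ lam q := fun q => (b.hμ q).trans (hl q)
  have hl0 : ∀ q, 0 < lam q := fun q => zero_lt_one.trans_le (hl1 q)
  have hi0 : ∀ q, 0 ≤ (lam q)⁻¹ := fun q => inv_nonneg.2 (hl0 q).le
  have hi1 : ∀ q, (lam q)⁻¹ ≤ 1 := fun q => inv_le_one_of_one_le₀ (hl1 q)
  have hm0 : ∀ q, 0 ≤ b.μ q * (lam q)⁻¹ := fun q => mul_nonneg (hμ0 q).le (hi0 q)
  have hm1 : ∀ q, b.μ q * (lam q)⁻¹ ≤ 1 := fun q => (hθ q).trans (hθ1 q)
  have hθ0 : ∀ q, 0 ≤ θ q := fun q => (hm0 q).trans (hθ q)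
  have hη : Sm fr.η := A.eta_sm fr.i fr.t
  have ha' : A.Tm b.L b.μ (Z * lam⁻¹) (fun q p => (lam q)⁻¹ • a q p) :=
    (ha.cmul (Z' := lam⁻¹) (fun q => (lam q)⁻¹) fun q => (abs_of_nonneg (hi0 q)).le).congr_wt
      fun q => mul_comm _ _
  have hv' : Van fr.R (fun q p => (lam q)⁻¹ • a q p) := fun q p hp => by
    simp only [hv q p hp, smul_zero]
  obtain ⟨u, n, t, y⟩ := fr.normal_field le_rfl ha' hv' fr.ν_tm
    fun q p hp => ⟨(fr.ν_dual q p hp).1, (fr.ν_dual q p hp).2.1⟩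
  obtain ⟨U, hU⟩ : ∃ U : P → M → V4, U = fun q p => ((lam q)⁻¹ • a q p) • fr.ν q p := ⟨_, rfl⟩
  replace u : fr.VecOn b.μ (Z * lam⁻¹) U := hU ▸ u
  replace n : ∀ q α p, A.D α (b.F q) p ⬝ᵥ U q p = 0 := hU ▸ n
  replace t : fr.TenOn b.μ (Z * lam⁻¹) fun q => A.sp (A.dd (b.F q)) (A.dd (U q)) := hU ▸ t
  replace y : ∀ q p, A.cYY fr.i fr.t (A.sp (A.dd (b.F q)) (A.dd (U q))) p =
      -2 * (A.Y fr.i fr.t (A.Y fr.i fr.t (b.F q)) p ⬝ᵥ fr.ν q p) * (lam q)⁻¹ • a q p := hU ▸ y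
  have y' : ∀ q p, A.cYY fr.i fr.t
      (fun α β p => -A.sp (A.dd (b.F q)) (A.dd (U q)) α β p) p = 0 := by
    intro q p
    have h5 := y q p
    by_cases hp : p ∈ fr.R q
    · rw [(fr.ν_dual q p hp).2.2.1] at h5
      simp only [cYY] at h5 ⊢
      linarith
    · simp only [cYY, t.slv_off hp, mul_zero, neg_zero, sub_self, add_zero]
  obtain ⟨W₁, W₂, w₁, w₂, e₁, e₂⟩ := fr.solve_one le_rfl hl t.slv_neg t.slv_zero y'
    fun q p => by simp only [cYY, mul_zero, sub_self, add_zero]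
  obtain ⟨V₁, V₂, v₁, v₂, f₁, f₂⟩ := fr.solve le_rfl hl hθ hθ1 N e₁.slv_neg e₂.slv_neg
    e₁.slv_hZ
  have hZl : ∀ q, 0 ≤ Z q * (lam q)⁻¹ := fun q => mul_nonneg (hZ q) (hi0 q)
  have k0 : Z * lam⁻¹ ≤ Z * b.μ⁻¹ := fun q =>
    mul_le_mul_of_nonneg_left (inv_anti₀ (hμ0 q) (hl q)) (hZ q)
  have k1 : Z * lam⁻¹ * lam⁻¹ ≤ Z * b.μ⁻¹ := fun q =>
    (mul_le_of_le_one_right (hZl q) (hi1 q)).trans (k0 q)
  have k2 : Z * lam⁻¹ * (b.μ * lam⁻¹) ≤ Z * b.μ⁻¹ := fun q =>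
    (mul_le_of_le_one_right (hZl q) (hm1 q)).trans (k0 q)
  have k3 : Z * lam⁻¹ * b.μ ≤ Z * θ := fun q => by
    have := mul_le_mul_of_nonneg_left (hθ q) (hZ q)
    simp only [Pi.mul_apply, Pi.inv_apply] at this ⊢
    linarith
  have k4 : Z * lam⁻¹ * lam⁻¹ * lam ≤ Z * θ := fun q => by
    have h1 := k3 q
    have h2 := mul_le_mul_of_nonneg_left (b.hμ q) (hZl q)
    simp only [Pi.mul_apply, Pi.inv_apply] at h1 ⊢
    rw [inv_mul_cancel_right₀ (hl0 q).ne']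
    linarith
  have k5 : Z * lam⁻¹ * (b.μ * lam⁻¹) * lam ≤ Z * θ := fun q => by
    have h1 := k3 q
    simp only [Pi.mul_apply, Pi.inv_apply] at h1 ⊢
    rw [mul_assoc, inv_mul_cancel_right₀ (hl0 q).ne']
    exact h1
  have k6 : Z * lam⁻¹ * (b.μ * lam⁻¹) * θ ^ N ≤ Z * θ ^ N := fun q =>
    mul_le_mul_of_nonneg_right ((mul_le_of_le_one_right (hZl q) (hm1 q)).trans
      (mul_le_of_le_one_right (hZ q) (hi1 q))) (pow_nonneg (hθ0 q) N)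
  have s0 : Sm (0 : M → V4) := sm_const 0
  have z0 : fr.VecOn b.μ (Z * b.μ⁻¹) (fun _ => 0) :=
    ⟨tm_zero b.hL b.hμ (u.slv_mono k0).tm.hZ, fun _ _ _ => rfl⟩
  refine ⟨_, _, ((u.slv_mono k0).slv_add (w₁.slv_mono k1)).slv_add (v₁.slv_mono k2),
    (z0.slv_add (w₂.slv_mono k1)).slv_add (v₂.slv_mono k2), fun α => ?_, fun α => ?_,
    ((f₁.slv_mono k6).slv_congr fun q α β p => ?_).tm,
    ((f₂.slv_mono k6).slv_congr fun q α β p => ?_).tm⟩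
  · refine ((((u.tm.D α).mono le_rfl k3).add ((slv_tm_zc hη hl w₁.tm w₂.tm α).mono le_rfl k4)).add
      ((slv_tm_zc hη hl v₁.tm v₂.tm α).mono le_rfl k5)).congr fun q p => ?_
    rw [A.zc_add _ _ ((u.tm.sm q).add (w₁.tm.sm q)) (v₁.tm.sm q),
      A.zc_add _ _ (u.tm.sm q) (w₁.tm.sm q)]
    simp only [zc, Pi.zero_apply, smul_zero, add_zero]
  · refine (((slv_tm_zs hη hl w₁.tm w₂.tm α).mono le_rfl k4).add
      ((slv_tm_zs hη hl v₁.tm v₂.tm α).mono le_rfl k5)).congr fun q p => ?_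
    rw [A.zs_add _ _ (s0.add (w₂.tm.sm q)) (v₂.tm.sm q), A.zs_add _ _ s0 (w₂.tm.sm q)]
    have : A.zs (lam q) fr.η (U q) 0 α p = -((A.D α fr.η p * a q p) • fr.ν q p) := by
      simp only [zs, A.slv_D_zero, hU, smul_smul, smul_eq_mul, zero_sub]
      congr 2
      have := (hl0 q).ne'
      field_simp
    rw [this]
    abel
  · rw [A.slv_sp_zc_add _ _ _ _ _ ((u.tm.sm q).add (w₁.tm.sm q)) (v₁.tm.sm q),
      A.slv_sp_zc_add _ _ _ _ _ (u.tm.sm q) (w₁.tm.sm q), A.slv_sp_zc _ _ _ (U q)]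
    simp only [Pi.zero_apply, dotProduct_zero]
    ring
  · rw [A.slv_sp_zs_add _ _ _ _ _ (s0.add (w₂.tm.sm q)) (v₂.tm.sm q),
      A.slv_sp_zs_add _ _ _ _ _ s0 (w₂.tm.sm q), A.slv_sp_zs _ _ _ (U q), A.slv_sp_dd_zero]
    simp only [dd, n]
    ring

end Atl.Frame

end Crest.Agent.R216
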