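import Crest.Agent.R216.StDefs

/-!
# R216 / Step: calculus of tame families
-/

set_option autoImplicit false
set_option linter.unusedSectionVars false

open scoped Manifold ContDiff Topology
open Matrix

noncomputable section

namespace Crest.Agent.R216

variable {M : Type*} [TopologicalSpace M] [T2Space M] [CompactSpace M] [ChartedSpace E2 M]
  [IsManifold (𝓡 2) ∞ M]
variable {E : Type} [NormedAddCommGroup E] [NormedSpace ℝ E]
variable {P : Type*}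

/-! All proofs: unfold `Tm`, choose the exponents, use the `NB` lemmas of `Api4`; constants `c` are
absorbed by `c ≤ 2 ^ m ≤ L ^ m`. -/

theorem Van.D {A : Atl M} {R : P → Set M} (hR : ∀ q, IsClosed (R q)) {u : P → M → E} (h : Van R u)
    (α : A.Idx) : Van R (fun q => A.D α (u q)) := by
  intro q p hp
  have e : u q =ᶠ[𝓝 p] fun _ => 0 := by
    filter_upwards [(hR q).isOpen_compl.mem_nhds hp] with y hy using h q y hy
  exact (A.D_congr α e).trans (A.D_const α 0 p)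

namespace Atl

variable {A : Atl M} {L μ μ' Z Z' Z'' : P → ℝ} {u v : P → M → E}

theorem tm_of (hL : ∀ q, 2 ≤ L q) (hμ : ∀ q, 1 ≤ μ q) (hZ : ∀ q, 0 ≤ Z q) (hu : ∀ q, Sm (u q))
    (h : ∀ k : ℕ, ∃ (c : ℝ) (m : ℕ), ∀ q, A.NB k (u q) (c * (L q ^ m * Z q * μ q ^ k))) :
    A.Tm L μ Z u := by
  refine ⟨hL, hμ, hZ, hu, fun k => ?_⟩
  obtain ⟨c, m, h⟩ := h k
  obtain ⟨n, hn⟩ := pow_unbounded_of_one_lt c (one_lt_two (α := ℝ))
  refine ⟨n + m, fun q => (h q).mono le_rfl ?_⟩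
  have h1 := hL q
  have h2 := hμ q
  have h3 := hZ q
  have h4 : c ≤ L q ^ n := hn.le.trans (pow_le_pow_left₀ zero_le_two h1 n)
  calc c * (L q ^ m * Z q * μ q ^ k) ≤ L q ^ n * (L q ^ m * Z q * μ q ^ k) :=
        mul_le_mul_of_nonneg_right h4 (by positivity)
    _ = _ := by ring

theorem tm_exp_le {l z x : ℝ} (hl : 2 ≤ l) (hz : 0 ≤ z) (hx : 1 ≤ x) {m n : ℕ} (h : m ≤ n) (k : ℕ) :
    l ^ m * z * x ^ k ≤ l ^ n * z * x ^ k := by
  have : l ^ m ≤ l ^ n := pow_le_pow_right₀ (by linarith) h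
  gcongr

theorem tm_unif (hL : ∀ q, 2 ≤ L q) (hμ : ∀ q, 1 ≤ μ q) (hZ : ∀ q, 0 ≤ Z q) {ι : Type*}
    (s : Finset ι) (k : ι → ℕ) {w : ι → P → M → E}
    (h : ∀ i, ∃ m : ℕ, ∀ q, A.NB (k i) (w i q) (L q ^ m * Z q * μ q ^ k i)) :
    ∃ m : ℕ, ∀ i ∈ s, ∀ q, A.NB (k i) (w i q) (L q ^ m * Z q * μ q ^ k i) := by
  choose m hm using h
  exact ⟨∑ i ∈ s, m i, fun i hi q => (hm i q).mono le_rfl
    (tm_exp_le (hL q) (hZ q) (hμ q) (Finset.single_le_sum (fun _ _ => Nat.zero_le _) hi) _)⟩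

theorem Tm.bd_le' (h : A.Tm L μ Z u) (K : ℕ) :
    ∃ m : ℕ, ∀ k ≤ K, ∀ q, A.NB k (u q) (L q ^ m * Z q * μ q ^ k) := by
  obtain ⟨m, hm⟩ := tm_unif h.hL h.hμ h.hZ (Finset.range (K + 1)) id (w := fun _ => u) h.bd
  exact ⟨m, fun k hk => hm k (Finset.mem_range.2 (Nat.lt_succ_of_le hk))⟩

theorem Tm.mono (h : A.Tm L μ Z u) (hμ : μ ≤ μ') (hZ : Z ≤ Z') : A.Tm L μ' Z' u := by
  refine ⟨h.hL, fun q => (h.hμ q).trans (hμ q), fun q => (h.hZ q).trans (hZ q), h.sm, fun k => ?_⟩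
  obtain ⟨m, hm⟩ := h.bd k
  refine ⟨m, fun q => (hm q).mono le_rfl ?_⟩
  have h1 := h.hL q
  have h2 := h.hμ q
  have h3 := h.hZ q
  have h4 := hμ q
  have h5 := hZ q
  have h6 : 0 ≤ Z' q := h3.trans h5
  gcongr

theorem Tm.absorb (h : A.Tm L μ Z u) (m : ℕ) (h0 : ∀ q, 0 ≤ Z' q)
    (hZ : ∀ q, Z q ≤ L q ^ m * Z' q) : A.Tm L μ Z' u := by
  refine ⟨h.hL, h.hμ, h0, h.sm, fun k => ?_⟩
  obtain ⟨n, hn⟩ := h.bd k
  refine ⟨n + m, fun q => (hn q).mono le_rfl ?_⟩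
  have h1 := h.hL q
  have h2 := h.hμ q
  have h5 := hZ q
  calc L q ^ n * Z q * μ q ^ k ≤ L q ^ n * (L q ^ m * Z' q) * μ q ^ k := by gcongr
    _ = _ := by ring

theorem Tm.congr (h : A.Tm L μ Z u) (e : ∀ q p, v q p = u q p) : A.Tm L μ Z v := by
  obtain rfl : v = u := funext fun q => funext (e q)
  exact h

theorem Tm.congr_wt (h : A.Tm L μ Z u) (e : ∀ q, Z' q = Z q) : A.Tm L μ Z' u := by
  obtain rfl : Z' = Z := funext e
  exact h

/-- A fixed smooth function (`exists_NB`). -/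
theorem tm_const (hL : ∀ q, 2 ≤ L q) (hμ : ∀ q, 1 ≤ μ q) {f : M → E} (hf : Sm f) :
    A.Tm L μ 1 (fun _ => f) := by
  refine tm_of hL hμ (fun _ => zero_le_one) (fun _ => hf) fun k => ?_
  obtain ⟨C, h0, hC⟩ := A.exists_NB k hf
  refine ⟨C, 0, fun q => hC.mono le_rfl (le_mul_of_one_le_right h0 ?_)⟩
  simpa using one_le_pow₀ (hμ q)

theorem tm_zero (hL : ∀ q, 2 ≤ L q) (hμ : ∀ q, 1 ≤ μ q) (hZ : ∀ q, 0 ≤ Z q) :
    A.Tm L μ Z (fun _ _ => (0 : E)) := by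
  refine ⟨hL, hμ, hZ, fun _ => sm_const 0, fun k => ⟨0, fun q w _ p => ?_⟩⟩
  have e : ∀ w : List A.Idx, A.Dw w (fun _ : M => (0 : E)) = fun _ => 0 := by
    intro w
    induction w with
    | nil => rfl
    | cons α w ih =>
      funext p
      rw [Dw, ih, A.D_const]
  have h2 := hμ q
  have h3 := hZ q
  rw [e w, norm_zero]
  positivity

theorem Tm.add (hu : A.Tm L μ Z u) (hv : A.Tm L μ Z v) :
    A.Tm L μ Z (fun q p => u q p + v q p) := by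
  refine tm_of hu.hL hu.hμ hu.hZ (fun q => (hu.sm q).add (hv.sm q)) fun k => ?_
  obtain ⟨m, hm⟩ := hu.bd k
  obtain ⟨n, hn⟩ := hv.bd k
  refine ⟨2, m + n, fun q => (NB.add (hu.sm q) (hv.sm q) (hm q) (hn q)).mono le_rfl ?_⟩
  have h1 := tm_exp_le (hu.hL q) (hu.hZ q) (hu.hμ q) (Nat.le_add_right m n) k
  have h2 := tm_exp_le (hu.hL q) (hu.hZ q) (hu.hμ q) (Nat.le_add_left n m) k
  linarith

theorem Tm.sub (hu : A.Tm L μ Z u) (hv : A.Tm L μ Z v) :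
    A.Tm L μ Z (fun q p => u q p - v q p) := by
  refine tm_of hu.hL hu.hμ hu.hZ (fun q => (hu.sm q).sub (hv.sm q)) fun k => ?_
  obtain ⟨m, hm⟩ := hu.bd k
  obtain ⟨n, hn⟩ := hv.bd k
  refine ⟨2, m + n, fun q => (NB.sub (hu.sm q) (hv.sm q) (hm q) (hn q)).mono le_rfl ?_⟩
  have h1 := tm_exp_le (hu.hL q) (hu.hZ q) (hu.hμ q) (Nat.le_add_right m n) k
  have h2 := tm_exp_le (hu.hL q) (hu.hZ q) (hu.hμ q) (Nat.le_add_left n m) k
  linarith

theorem Tm.neg (hu : A.Tm L μ Z u) : A.Tm L μ Z (fun q p => -u q p) :=   ((tm_zero hu.hL hu.hμ hu.hZ).sub hu).congr fun _ _ => (zero_sub _).symm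

theorem tm_sum (hL : ∀ q, 2 ≤ L q) (hμ : ∀ q, 1 ≤ μ q) (hZ : ∀ q, 0 ≤ Z q) {ι : Type*}
    (s : Finset ι) {w : ι → P → M → E} (h : ∀ i ∈ s, A.Tm L μ Z (w i)) :
    A.Tm L μ Z (fun q p => ∑ i ∈ s, w i q p) := by
  classical
  induction s using Finset.induction_on with
  | empty => exact (tm_zero hL hμ hZ).congr fun _ _ => Finset.sum_empty
  | insert a s ha ih =>
    exact ((h a (Finset.mem_insert_self _ _)).add
      (ih fun i hi => h i (Finset.mem_insert_of_mem hi))).congr fun _ _ => Finset.sum_insert ha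

/-- Multiplication by a family of constants. -/
theorem Tm.cmul (hu : A.Tm L μ Z u) (c : P → ℝ) (hc : ∀ q, |c q| ≤ Z' q) :
    A.Tm L μ (Z' * Z) (fun q p => c q • u q p) := by
  refine ⟨hu.hL, hu.hμ, fun q => mul_nonneg ((abs_nonneg _).trans (hc q)) (hu.hZ q),
    fun q => (hu.sm q).const_smul (c q), fun k => ?_⟩
  obtain ⟨m, hm⟩ := hu.bd k
  refine ⟨m, fun q => (NB.const_smul (hu.sm q) (hm q) (c q)).mono le_rfl ?_⟩
  have h1 := hu.hL q
  have h2 := hu.hμ q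
  have h3 := hu.hZ q
  calc |c q| * (L q ^ m * Z q * μ q ^ k) ≤ Z' q * (L q ^ m * Z q * μ q ^ k) :=
        mul_le_mul_of_nonneg_right (hc q) (by positivity)
    _ = _ := by simp only [Pi.mul_apply]; ring

theorem Tm.const_smul (hu : A.Tm L μ Z u) (c : ℝ) : A.Tm L μ Z (fun q p => c • u q p) := by
  refine tm_of hu.hL hu.hμ hu.hZ (fun q => (hu.sm q).const_smul c) fun k => ?_
  obtain ⟨m, hm⟩ := hu.bd k
  exact ⟨|c|, m, fun q => NB.const_smul (hu.sm q) (hm q) c⟩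

/-- Multiplication by constants of size `≤ L ^ e`. -/
theorem Tm.lmul (hu : A.Tm L μ Z u) (c : P → ℝ) (e : ℕ) (hc : ∀ q, |c q| ≤ L q ^ e) :
    A.Tm L μ Z (fun q p => c q • u q p) :=   (hu.cmul (Z' := fun q => L q ^ e) c hc).absorb e hu.hZ fun _ => le_rfl

/-- `NB_smul_graded`; take the maximum of the exponents for `j ≤ k` (`Tm.bd_le`). -/
theorem Tm.smul {a : P → M → ℝ} (ha : A.Tm L μ Z a) (hu : A.Tm L μ Z' u) :
    A.Tm L μ (Z * Z') (fun q p => a q p • u q p) := by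
  refine tm_of hu.hL hu.hμ (fun q => mul_nonneg (ha.hZ q) (hu.hZ q))
    (fun q => (ha.sm q).smul (hu.sm q)) fun k => ?_
  obtain ⟨m, hm⟩ := ha.bd_le' k
  obtain ⟨n, hn⟩ := hu.bd_le' k
  refine ⟨2 ^ k, m + n, fun q => (A.NB_smul_graded (ha.sm q) (hu.sm q) (hu.hμ q)
    (fun j hj => hm j hj q) (fun j hj => hn j hj q)).mono le_rfl (le_of_eq ?_)⟩
  simp only [Pi.mul_apply]
  ring

theorem Tm.mul {a b : P → M → ℝ} (ha : A.Tm L μ Z a) (hb : A.Tm L μ Z' b) :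
    A.Tm L μ (Z * Z') (fun q p => a q p * b q p) := ha.smul hb

theorem Tm.apply {n : Type} [Fintype n] {w : P → M → n → ℝ} (h : A.Tm L μ Z w) (j : n) :
    A.Tm L μ Z (fun q p => w q p j) := by
  refine ⟨h.hL, h.hμ, h.hZ, fun q => (h.sm q).apply j, fun k => ?_⟩
  obtain ⟨m, hm⟩ := h.bd k
  exact ⟨m, fun q => NB.apply (h.sm q) (hm q) j⟩

theorem tm_pi (hL : ∀ q, 2 ≤ L q) (hμ : ∀ q, 1 ≤ μ q) (hZ : ∀ q, 0 ≤ Z q) {n : Type} [Fintype n]
    {w : P → M → n → ℝ} (h : ∀ j, A.Tm L μ Z (fun q p => w q p j)) : A.Tm L μ Z w := by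
  have hs : ∀ q, Sm (w q) := fun q => sm_pi fun j => (h j).sm q
  refine ⟨hL, hμ, hZ, hs, fun k => ?_⟩
  obtain ⟨m, hm⟩ := tm_unif hL hμ hZ Finset.univ (fun _ => k) (w := fun j q p => w q p j)
    fun j => (h j).bd k
  refine ⟨m, fun q => A.NB_pi (hs q) ?_ fun j => hm j (Finset.mem_univ j) q⟩
  have h1 := hL q
  have h2 := hμ q
  have h3 := hZ q
  positivity

theorem Tm.dot {a b : P → M → V4} (ha : A.Tm L μ Z a) (hb : A.Tm L μ Z' b) :
    A.Tm L μ (Z * Z') (fun q p => a q p ⬝ᵥ b q p) :=   tm_sum ha.hL ha.hμ (fun q => mul_nonneg (ha.hZ q) (hb.hZ q)) Finset.univ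
    (w := fun i q p => a q p i * b q p i) fun i _ => (ha.apply i).mul (hb.apply i)

/-- Componentwise: `tm_pi`, `fin_cases`, sums of products of components. -/
theorem Tm.cross3 {a b c : P → M → V4} (ha : A.Tm L μ Z a) (hb : A.Tm L μ Z' b)
    (hc : A.Tm L μ Z'' c) :
    A.Tm L μ (Z * Z' * Z'') (fun q p => cross3 (a q p) (b q p) (c q p)) := by
  have t : ∀ i j k, A.Tm L μ (Z * Z' * Z'') (fun q p => a q p i * b q p j * c q p k) :=
    fun i j k => ((ha.apply i).mul (hb.apply j)).mul (hc.apply k)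
  have d : ∀ i j k, A.Tm L μ (Z * Z' * Z'') (fun q p => d3 (a q p) (b q p) (c q p) i j k) :=
    fun i j k => ((((t i j k).sub (t i k j)).sub ((t j i k).sub (t j k i))).add
      ((t k i j).sub (t k j i))).congr fun q p => by simp only [d3]; ring
  refine tm_pi ha.hL ha.hμ (t 0 0 0).hZ fun j => ?_
  fin_cases j
  · exact (d 1 2 3).neg
  · exact d 0 2 3
  · exact (d 0 1 3).neg
  · exact d 0 1 2

theorem Tm.D (h : A.Tm L μ Z u) (α : A.Idx) : A.Tm L μ (Z * μ) (fun q => A.D α (u q)) := by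
  refine ⟨h.hL, h.hμ, fun q => mul_nonneg (h.hZ q) (zero_le_one.trans (h.hμ q)),
    fun q => A.D_sm α (h.sm q), fun k => ?_⟩
  obtain ⟨m, hm⟩ := h.bd (k + 1)
  refine ⟨m, fun q => ((hm q).D α).mono le_rfl (le_of_eq ?_)⟩
  simp only [Pi.mul_apply]
  ring

theorem Tm.bd_le (h : A.Tm L μ Z u) (K : ℕ) :
    ∃ m : ℕ, ∀ k ≤ K, ∀ q, A.NB k (u q) (L q ^ m * Z q * μ q ^ k) := h.bd_le' K

theorem Tm.bound (h : A.Tm L μ Z u) : ∃ m : ℕ, ∀ q p, ‖u q p‖ ≤ L q ^ m * Z q := by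
  obtain ⟨m, hm⟩ := h.bd 0
  exact ⟨m, fun q p => by simpa using (hm q).norm_le p⟩

/-- Finitely many entries (if `A.Idx` is empty the claim is vacuous). -/
theorem TmT.bound {T : P → A.Ten} (h : A.TmT L μ Z T) :
    ∃ m : ℕ, ∀ q α β p, |T q α β p| ≤ L q ^ m * Z q := by
  choose m hm using fun x : A.Idx × A.Idx => (h x.1 x.2).bound
  refine ⟨∑ x, m x, fun q α β p => (hm (α, β) q p).trans ?_⟩
  have h1 := (h α β).hL q
  exact mul_le_mul_of_nonneg_right (pow_le_pow_right₀ (by linarith)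
    (Finset.single_le_sum (fun _ _ => Nat.zero_le _) (Finset.mem_univ (α, β)))) ((h α β).hZ q)

/-- From explicit bounds. -/
theorem tm_of_bound (hL : ∀ q, 2 ≤ L q) (hμ : ∀ q, 1 ≤ μ q) (hu : ∀ q, Sm (u q)) (c : ℕ → ℝ)
    (e : ℕ) (h : ∀ (r : ℕ) q, A.NB r (u q) (c r * L q ^ e * μ q ^ r)) : A.Tm L μ 1 u :=   tm_of hL hμ (fun _ => zero_le_one) hu fun k => ⟨c k, e, fun q => (h k q).mono le_rfl
    (le_of_eq (by simp only [Pi.one_apply]; ring))⟩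

end Atl

end Crest.Agent.R216
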