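import Crest.Agent.R216.Flat
import Crest.Agent.R216.Loop2

/-!
# R216: order-zero geometry and the turning points
-/

set_option autoImplicit false
set_option linter.unusedSectionVars false

open scoped Manifold ContDiff Topology
open Matrix

noncomputable section

namespace Crest.Agent.R216

open Real Per

namespace LocData

variable {ι : Type} [Fintype ι] {L : LocData ι}

namespace Frame

variable (F : L.Frame) (τ : Shape) (Cσ : ℝ) (ψ : R2 → ℝ) (hψ : ContDiff ℝ ∞ ψ)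
  {U : ℕ → Fin 4 → Per R2}

theorem tn_smul (δ : Derivation ℝ (Per R2) (Per R2)) (c : Per R2) (P : Fin 4 → Per R2) :
    vD δ (c • P) = c • vD δ P + δ c • P := funext fun i => by
  simp only [vD, Pi.smul_apply, Pi.add_apply, smul_eq_mul, Derivation.leibniz, mul_comm]

theorem tn_vadd (V W : Fin 4 → Per R2) (q : R2 × ℝ) : vev (V + W) q = vev V q + vev W q := rfl
theorem tn_vsub (V W : Fin 4 → Per R2) (q : R2 × ℝ) : vev (V - W) q = vev V q - vev W q := rfl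
theorem tn_vsmul (c : Per R2) (V : Fin 4 → Per R2) (q : R2 × ℝ) : vev (c • V) q = c.1 q • vev V q := rfl

theorem tn_TT (hU : U 0 = L.aP • F.Vh (F.loop τ Cσ)) :
    L.TT ψ hψ U = L.fxP + (((F.loop τ Cσ).rP * (F.loop τ Cσ).u1 - (F.loop τ Cσ).pP) • F.E1P +
      ((F.loop τ Cσ).rP * (F.loop τ Cσ).u2) • F.E2P) := by
  have h1 : vD (Th (P := R2)) F.E1P = 0 := Th_vcst _ _
  have h2 : vD (Th (P := R2)) F.E2P = 0 := Th_vcst _ _
  have h3 : L.aP = (F.loop τ Cσ).aP := rfl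
  rw [TT, PP, hU, Vh, tn_smul, gs_add, tn_smul, tn_smul, h1, h2, h3, LoopPar.lp_a, LoopPar.Th_V2,
    ← LoopPar.a_Th_V1, LoopPar.u2]
  module

/-- a derivative of `TT` -/
theorem tn_D (hU : U 0 = L.aP • F.Vh (F.loop τ Cσ)) (D : Derivation ℝ (Per R2) (Per R2)) :
    vD D (L.TT ψ hψ U) =
      ((F.loop τ Cσ).rP * (2 * D (F.loop τ Cσ).sig * (F.loop τ Cσ).isq)) • F.nP (F.loop τ Cσ) +
      (vD D L.fxP + D (F.loop τ Cσ).rP • ((F.loop τ Cσ).u1 • F.E1P + (F.loop τ Cσ).u2 • F.E2P) -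
        D (F.loop τ Cσ).pP • F.E1P +
        ((F.loop τ Cσ).rP * (F.loop τ Cσ).u1 - (F.loop τ Cσ).pP) • vD D F.E1P +
        ((F.loop τ Cσ).rP * (F.loop τ Cσ).u2) • vD D F.E2P) := by
  rw [tn_TT F τ Cσ ψ hψ hU, gs_add, gs_add, tn_smul, tn_smul, map_sub, Derivation.leibniz,
    Derivation.leibniz, ((F.loop τ Cσ).D_u D).1, ((F.loop τ Cσ).D_u D).2, nP]
  simp only [smul_eq_mul]
  module

theorem tn_l (Q : LoopPar R2) (z : R2) (θ : ℝ) : vev (F.lP Q) (z, θ) =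
    Q.r z • F.ν z - F.β1 z • (Q.u1.1 (z, θ) • F.E1 z + Q.u2.1 (z, θ) • F.E2 z) := rfl

theorem tn_n (Q : LoopPar R2) (z : R2) (θ : ℝ) : vev (F.nP Q) (z, θ) =
    (-Q.u2.1 (z, θ)) • F.E1 z + Q.u1.1 (z, θ) • F.E2 z := rfl

theorem tn_u1 (Q : LoopPar R2) (q : R2 × ℝ) : Q.u1.1 q = 1 - 2 * Q.sig.1 q ^ 2 := by
  simpa only [map_sub, map_mul, map_pow, map_one, map_ofNat, ev_apply] using
    congrArg (ev q) (show Q.u1 = 1 - 2 * Q.sig ^ 2 from rfl)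

theorem tn_u2 (Q : LoopPar R2) (q : R2 × ℝ) : Q.u2.1 q = 2 * Q.sig.1 q * √(1 - Q.sig.1 q ^ 2) := by
  have h := congrArg (ev q) Q.u2_eq
  simp only [map_mul, map_ofNat, ev_apply] at h
  exact h

theorem tn_usq (Q : LoopPar R2) (q : R2 × ℝ) : Q.u1.1 q ^ 2 + Q.u2.1 q ^ 2 = 1 := by
  simpa only [map_add, map_pow, map_one, ev_apply] using congrArg (ev q) Q.u_sq

theorem tn_isq (Q : LoopPar R2) (q : R2 × ℝ) : Q.isq.1 q = (√(1 - Q.sig.1 q ^ 2))⁻¹ :=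
  eq_inv_of_mul_eq_one_left (congrArg (ev q) Q.isq_mul)

theorem tn_coef (Q : LoopPar R2) (x : Per R2) (q : R2 × ℝ) :
    (Q.rP * (2 * x * Q.isq)).1 q = Q.r q.1 * (2 * x.1 q * (√(1 - Q.sig.1 q ^ 2))⁻¹) := by
  rw [← tn_isq, ← ev_apply]
  simp only [map_mul, map_ofNat, ev_apply]
  rfl

/-- `a_Th_V1`, `Th_V2`, `fx_eq`. -/
theorem TT_eq (hU : U 0 = L.aP • F.Vh (F.loop τ Cσ)) {z : R2} (hz : z ∈ F.Ω) (θ : ℝ) :
    vev (L.TT ψ hψ U) (z, θ) =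
      (F.loop τ Cσ).r z • ((F.loop τ Cσ).u1.1 (z, θ) • F.E1 z + (F.loop τ Cσ).u2.1 (z, θ) • F.E2 z)
        + F.β1 z • F.ν z + F.β' z • dy L.f z := by
  have h : vev (L.TT ψ hψ U) (z, θ) = dx L.f z +
      (((F.loop τ Cσ).r z * (F.loop τ Cσ).u1.1 (z, θ) - F.p0 z) • F.E1 z +
        ((F.loop τ Cσ).r z * (F.loop τ Cσ).u2.1 (z, θ)) • F.E2 z) := by
    rw [tn_TT F τ Cσ ψ hψ hU]
    rfl
  rw [h, F.fx_eq z hz]
  module

/-- `ThTh_V`, `Th_S`. -/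
theorem ww_eq (hU : U 0 = L.aP • F.Vh (F.loop τ Cσ)) (z : R2) (θ : ℝ) :
    ∃ e : ℝ, 0 < e ∧ vev (L.ww ψ hψ U) (z, θ) =
      (L.a z * cos θ * e) • vev (F.nP (F.loop τ Cσ)) (z, θ) := by
  have h1 : vD (Th (P := R2)) F.E1P = 0 := Th_vcst _ _
  have h2 : vD (Th (P := R2)) F.E2P = 0 := Th_vcst _ _
  have h3 : vD (Th (P := R2)) L.fxP = 0 := Th_vcst _ _
  have h4 : Th (F.loop τ Cσ).sig = (F.loop τ Cσ).aP * (F.loop τ Cσ).vP * Th (F.loop τ Cσ).S := by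
    rw [LoopPar.sig, Derivation.leibniz, Derivation.leibniz, LoopPar.lp_a, LoopPar.lp_v]
    simp only [mul_zero, add_zero, smul_eq_mul]
  have h5 : (Th (F.loop τ Cσ).sig).1 (z, θ) =
      L.a z * (F.loop τ Cσ).vh z * (cos θ * Sg (τ.τ z) (Cσ * z.2) θ) := by
    rw [h4]
    exact congrArg (fun x => L.a z * (F.loop τ Cσ).vh z * x) ((F.loop τ Cσ).Th_S z θ)
  have p1 := (F.loop τ Cσ).r_pos z
  have p2 := (F.loop τ Cσ).vh_pos z
  have p3 : 0 < Sg (τ.τ z) (Cσ * z.2) θ := lt_of_lt_of_le (by norm_num) (Sg_pos (τ.mem z) _ _)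
  have p4 := Real.sqrt_pos.2 ((F.loop τ Cσ).sig_lt (z, θ))
  refine ⟨(F.loop τ Cσ).r z * (2 * (F.loop τ Cσ).vh z * Sg (τ.τ z) (Cσ * z.2) θ *
    (√(1 - (F.loop τ Cσ).sig.1 (z, θ) ^ 2))⁻¹),
    mul_pos p1 (mul_pos (mul_pos (mul_pos two_pos p2) p3) (inv_pos.2 p4)), ?_⟩
  have h6 : L.ww ψ hψ U = ((F.loop τ Cσ).rP * (2 * Th (F.loop τ Cσ).sig * (F.loop τ Cσ).isq)) •
      F.nP (F.loop τ Cσ) := by
    rw [ww, tn_D F τ Cσ ψ hψ hU, h1, h2, h3, LoopPar.lp_r, LoopPar.lp_p]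
    module
  have h7 : ∀ r a v c g i : ℝ, r * (2 * (a * v * (c * g)) * i) = a * c * (r * (2 * v * g * i)) := by
    intros
    ring
  rw [h6, tn_vsmul, tn_coef, h5, h7]

/-- Orthogonality relations on `Ω` (`u_sq`). -/
theorem ln_orth (hU : U 0 = L.aP • F.Vh (F.loop τ Cσ)) {z : R2} (hz : z ∈ F.Ω) (θ : ℝ) :
    let l := vev (F.lP (F.loop τ Cσ)) (z, θ)
    let n := vev (F.nP (F.loop τ Cσ)) (z, θ)
    let T := vev (L.TT ψ hψ U) (z, θ)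
    let r := (F.loop τ Cσ).r z
    l ⬝ᵥ l = r ^ 2 + F.β1 z ^ 2 ∧ n ⬝ᵥ n = 1 ∧ n ⬝ᵥ l = 0 ∧ l ⬝ᵥ T = 0 ∧ l ⬝ᵥ dy L.f z = 0 ∧
      n ⬝ᵥ T = 0 ∧ n ⬝ᵥ dy L.f z = 0 ∧
      r • l = (r ^ 2 + F.β1 z ^ 2) • F.ν z - F.β1 z • T + (F.β1 z * F.β' z) • dy L.f z ∧
      (L.H22 z = 0 → n ⬝ᵥ dy (dy L.f) z = 0 ∧ l ⬝ᵥ dy (dy L.f) z = r * F.c' z) := by
  intro l n T r
  have hl : l = _ := tn_l F _ z θ
  have hn : n = _ := tn_n F _ z θ
  have hT : T = _ := TT_eq F τ Cσ ψ hψ hU hz θ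
  have hu := tn_usq (F.loop τ Cσ) (z, θ)
  have hr : (F.loop τ Cσ).r z = r := rfl
  rw [hr] at hl hT
  clear_value l n T r
  subst hl hn hT
  generalize (F.loop τ Cσ).u1.1 (z, θ) = u1 at *
  generalize (F.loop τ Cσ).u2.1 (z, θ) = u2 at *
  have a11 := F.E11 z hz
  have a22 := F.E22 z hz
  have a33 := F.νν z hz
  have a12 := F.E12 z hz
  have a13 := F.E1ν z hz
  have a23 := F.E2ν z hz
  have a14 := F.E1b z hz
  have a24 := F.E2b z hz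
  have a34 := F.νb z hz
  have a21 := (dotProduct_comm _ _).trans a12
  have a31 := (dotProduct_comm _ _).trans a13
  have a32 := (dotProduct_comm _ _).trans a23
  refine ⟨?_, ?_, ?_, ?_, ?_, ?_, ?_, by module, fun h => ?_⟩
  rotate_right
  · rw [F.c_eq z hz, h]
    constructor <;>
    simp only [add_dotProduct, sub_dotProduct, dotProduct_add, smul_dotProduct, dotProduct_smul,
      smul_eq_mul, a22, a33, a12, a13, a23, a14, a24, a34, a32] <;> ring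
  all_goals simp only [add_dotProduct, sub_dotProduct, dotProduct_add, dotProduct_sub, smul_dotProduct,
      dotProduct_smul, smul_eq_mul, a11, a22, a33, a12, a13, a23, a14, a24, a34, a21, a31, a32]
  · linear_combination F.β1 z ^ 2 * hu
  · linear_combination hu
  · ring
  · linear_combination (-(F.β1 z * r)) * hu
  · ring
  · ring
  · ring

/-- Where `a = 0`: `r = p0`, `u1 = 1`, `u2 = 0`. -/
theorem ln_zero {z : R2} (hz : L.s z ≤ 0) (θ : ℝ) :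
    vev (F.lP (F.loop τ Cσ)) (z, θ) = F.p0 z • F.ν z - F.β1 z • F.E1 z ∧
      vev (F.nP (F.loop τ Cσ)) (z, θ) = F.E2 z ∧ (F.loop τ Cσ).r z = F.p0 z := by
  have ha : L.a z = 0 := by rw [LocData.a, expNegInvGlue.zero_of_nonpos hz, zero_mul]
  have hs : (F.loop τ Cσ).sig.1 (z, θ) = 0 := by
    change L.a z * _ * _ = 0
    rw [ha, zero_mul, zero_mul]
  have hr : (F.loop τ Cσ).r z = F.p0 z := by
    change √(F.p0 z ^ 2 + L.a z ^ 2) = _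
    rw [ha, zero_pow two_ne_zero, add_zero, Real.sqrt_sq (F.p0_pos z).le]
  rw [tn_l, tn_n, tn_u1, tn_u2, hs, hr]
  simp

theorem tn_mS_pos (t : ℝ) : 0 < mS t := by
  unfold mS
  nlinarith [sq_nonneg (t + 2)]

/-- the constant shape -/
def tnC (t : ℝ) (ht : t ∈ Set.Icc (0 : ℝ) (1 / 10)) : Shape := ⟨fun _ => t, contDiff_const, fun _ => ht⟩

def tnr (z : R2) : ℝ := rf (L.a z) (F.p0 z)

theorem tnr_sm : ContDiff ℝ ∞ F.tnr := (F.loop (tnC 0 ⟨le_rfl, by norm_num⟩) 0).r_sm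

theorem tnr_pos (z : R2) : 0 < F.tnr z := (F.loop (tnC 0 ⟨le_rfl, by norm_num⟩) 0).r_pos z

theorem tn_den (z : R2) : 0 < 2 * F.tnr z * (F.tnr z + F.p0 z) := by
  have := F.tnr_pos z
  have := F.p0_pos z
  positivity

/-- the amplitude `a vh` as a function of the point and of the value of the shape parameter -/
def tnG (p : R2 × ℝ) : ℝ := L.a p.1 * (√(2 * F.tnr p.1 * (F.tnr p.1 + F.p0 p.1) * mS p.2))⁻¹

theorem tnG_sm : ContDiff ℝ ∞ F.tnG := by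
  have h1 : ContDiff ℝ ∞ fun p : R2 × ℝ => F.tnr p.1 := F.tnr_sm.comp contDiff_fst
  have h2 : ContDiff ℝ ∞ fun p : R2 × ℝ => F.p0 p.1 := F.p0_sm.comp contDiff_fst
  have h3 : ContDiff ℝ ∞ fun p : R2 × ℝ => mS p.2 := by
    unfold mS
    fun_prop
  exact (L.a_sm.comp contDiff_fst).mul (((((contDiff_const.mul h1).mul (h1.add h2)).mul h3).sqrt
    fun p => (mul_pos (F.tn_den p.1) (tn_mS_pos p.2)).ne').inv
    fun p => (Real.sqrt_pos.2 (mul_pos (F.tn_den p.1) (tn_mS_pos p.2))).ne')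

theorem tnG_lt (z : R2) {t : ℝ} (ht : t ∈ Set.Icc (0 : ℝ) (1 / 10)) : F.tnG (z, t) ^ 2 < 1 :=
  (F.loop (tnC t ht) 0).amp_lt z

theorem tnG_t {z : R2} {t : ℝ} (ht : 0 ≤ t) (ha : L.a z ≠ 0) : fderiv ℝ F.tnG (z, t) (0, 1) ≠ 0 := by
  have hd := F.tn_den z
  have hm := tn_mS_pos t
  have h1 : HasDerivAt (fun t => F.tnG (z, t)) (fderiv ℝ F.tnG (z, t) (0, 1)) t :=
    (F.tnG_sm.differentiable (by simp) (z, t)).hasFDerivAt.comp_hasDerivAt t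
      ((hasDerivAt_const t z).prodMk (hasDerivAt_id t))
  have h2 : HasDerivAt mS (1 / 4 + t / 8) t := by
    have := ((((hasDerivAt_id' t).div_const 4).const_add (1 / 2)).fun_add
      ((hasDerivAt_pow 2 t).div_const 16)).add_const (3 / 6400)
    exact this.congr_deriv (by norm_num; ring)
  have h3 := (((h2.const_mul (2 * F.tnr z * (F.tnr z + F.p0 z))).sqrt (mul_pos hd hm).ne').inv
    (Real.sqrt_pos.2 (mul_pos hd hm)).ne').const_mul (L.a z)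
  rw [h1.unique h3]
  have h4 := Real.sqrt_pos.2 (mul_pos hd hm)
  refine mul_ne_zero ha (div_ne_zero (neg_ne_zero.2 (ne_of_gt ?_)) (by positivity))
  positivity

def tns (x : R2 × ℝ × ℝ) : ℝ := F.tnG (x.1, x.2.1) * x.2.2
def tnu1 (x : R2 × ℝ × ℝ) : ℝ := 1 - 2 * F.tns x ^ 2
def tnu2 (x : R2 × ℝ × ℝ) : ℝ := 2 * F.tns x * √(1 - F.tns x ^ 2)
def tnl (x : R2 × ℝ × ℝ) : V4 :=
  F.tnr x.1 • F.ν x.1 - F.β1 x.1 • (F.tnu1 x • F.E1 x.1 + F.tnu2 x • F.E2 x.1)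
def tnn (x : R2 × ℝ × ℝ) : V4 := (-F.tnu2 x) • F.E1 x.1 + F.tnu1 x • F.E2 x.1
def tnN (x : R2 × ℝ × ℝ) : V4 :=
  dy (dx L.f) x.1 + dy F.tnr x.1 • (F.tnu1 x • F.E1 x.1 + F.tnu2 x • F.E2 x.1) - dy F.p0 x.1 • F.E1 x.1 +
    (F.tnr x.1 * F.tnu1 x - F.p0 x.1) • dy F.E1 x.1 + (F.tnr x.1 * F.tnu2 x) • dy F.E2 x.1
def tnk (v : R2 × ℝ) (x : R2 × ℝ × ℝ) : ℝ :=
  F.tnr x.1 * (2 * (fderiv ℝ F.tnG (x.1, x.2.1) v * x.2.2) * (√(1 - F.tns x ^ 2))⁻¹)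

theorem tns_c : Continuous F.tns := by
  have := F.tnG_sm.continuous
  unfold tns
  fun_prop

theorem tn_cont : Continuous F.tnl ∧ Continuous F.tnn ∧ Continuous F.tnN := by
  have h0 := F.tns_c
  have h1 : Continuous F.tnu1 := by
    unfold tnu1
    fun_prop
  have h2 : Continuous F.tnu2 := by
    unfold tnu2
    fun_prop
  have := F.tnr_sm.continuous
  have := F.ν_sm.continuous
  have := F.β1_sm.continuous
  have := F.E1_sm.continuous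
  have := F.E2_sm.continuous
  have := F.p0_sm.continuous
  have := (dy_sm (dx_sm L.f_sm)).continuous
  have := (dy_sm F.tnr_sm).continuous
  have := (dy_sm F.p0_sm).continuous
  have := (dy_sm F.E1_sm).continuous
  have := (dy_sm F.E2_sm).continuous
  unfold tnl tnn tnN
  refine ⟨?_, ?_, ?_⟩ <;> fun_prop

theorem tns_lt {x : R2 × ℝ × ℝ} (h1 : x.2.1 ∈ Set.Icc (0 : ℝ) (1 / 10)) (h2 : x.2.2 ^ 2 ≤ 1) :
    0 < √(1 - F.tns x ^ 2) := by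
  have h3 := F.tnG_lt x.1 h1
  have h4 := mul_le_mul_of_nonneg_left h2 (sq_nonneg (F.tnG (x.1, x.2.1)))
  rw [Real.sqrt_pos, tns, mul_pow]
  linarith

theorem tnk_cont (v : R2 × ℝ) :
    ContinuousOn (F.tnk v) (Set.univ ×ˢ Set.Icc 0 (1 / 10) ×ˢ Set.Icc (-1) 1) := by
  have h0 := F.tns_c
  have h1 := F.tnr_sm.continuous
  have h2 : Continuous fun p => fderiv ℝ F.tnG p v :=
    (F.tnG_sm.continuous_fderiv (by simp)).clm_apply continuous_const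
  have h3 : Continuous fun x : R2 × ℝ × ℝ => fderiv ℝ F.tnG (x.1, x.2.1) v := h2.comp (by fun_prop)
  have h4 : ContinuousOn (fun x => (√(1 - F.tns x ^ 2))⁻¹)
      (Set.univ ×ˢ Set.Icc 0 (1 / 10) ×ˢ Set.Icc (-1) 1) :=
    ContinuousOn.inv₀ (by fun_prop) fun x hx => (F.tns_lt hx.2.1 (sq_le_one_iff_abs_le_one _ |>.2
      (abs_le.2 hx.2.2))).ne'
  unfold tnk
  fun_prop

theorem tn_sig (z : R2) {θ : ℝ} (h : cos θ = 0) :
    (F.loop τ Cσ).sig.1 (z, θ) = F.tns (z, τ.τ z, sin θ) :=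
  congrArg (fun x => F.tnG (z, τ.τ z) * x) (Sf_turn (τ.τ z) (Cσ * z.2) h)

theorem tn_Ysig (z : R2) {θ : ℝ} (h : cos θ = 0) : (Yp ψ hψ (F.loop τ Cσ).sig).1 (z, θ) =
    fderiv ℝ F.tnG (z, τ.τ z) ((0, 1), 0) * sin θ +
      fderiv ℝ F.tnG (z, τ.τ z) (0, 1) * sin θ * dy τ.τ z := by
  have hs : ContDiff ℝ ∞ fun z => F.tnG (z, τ.τ z) := F.tnG_sm.comp (contDiff_id.prodMk τ.sm)
  have e : (F.loop τ Cσ).sig = cst _ hs * (F.loop τ Cσ).S := rfl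
  have h1 : (Yp ψ hψ (F.loop τ Cσ).S).1 (z, θ) = 0 := by
    change (pd ((0, 1), 0) (F.loop τ Cσ).S).1 (z, θ) + dy ψ z * (pd (0, 1) (F.loop τ Cσ).S).1 (z, θ) = 0
    rw [LoopPar.pd_S_turn _ _ _ h, LoopPar.pd_S_turn _ _ _ h, mul_zero, add_zero]
  have h2 : (F.loop τ Cσ).S.1 (z, θ) = sin θ := Sf_turn (τ.τ z) (Cσ * z.2) h
  have h3 : dy (fun z => F.tnG (z, τ.τ z)) z = fderiv ℝ F.tnG (z, τ.τ z) ((0, 1), dy τ.τ z) := by
    have := (F.tnG_sm.differentiable (by simp) (z, τ.τ z)).hasFDerivAt.comp z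
      ((hasFDerivAt_id z).prodMk (τ.sm.differentiable (by simp) z).hasFDerivAt)
    exact congrArg (fun Φ : R2 →L[ℝ] ℝ => Φ (0, 1)) this.fderiv
  have h4 : ((((0 : ℝ), (1 : ℝ)), dy τ.τ z) : R2 × ℝ) = ((0, 1), 0) + dy τ.τ z • (0, 1) := by simp
  rw [e, Derivation.leibniz, Yp_cst]
  change F.tnG (z, τ.τ z) * (Yp ψ hψ (F.loop τ Cσ).S).1 (z, θ) +
    (F.loop τ Cσ).S.1 (z, θ) * dy (fun z => F.tnG (z, τ.τ z)) z = _
  rw [h1, h2, h3, h4, map_add, map_smul, smul_eq_mul]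
  ring

theorem tn_M (hU : U 0 = L.aP • F.Vh (F.loop τ Cσ)) (z : R2) {θ : ℝ} (h : cos θ = 0) :
    vev (F.lP (F.loop τ Cσ)) (z, θ) = F.tnl (z, τ.τ z, sin θ) ∧
    vev (F.nP (F.loop τ Cσ)) (z, θ) = F.tnn (z, τ.τ z, sin θ) ∧
    vev (L.MM ψ hψ U) (z, θ) =
      (F.tnk ((0, 1), 0) (z, τ.τ z, sin θ) + F.tnk (0, 1) (z, τ.τ z, sin θ) * dy τ.τ z) •
        vev (F.nP (F.loop τ Cσ)) (z, θ) + F.tnN (z, τ.τ z, sin θ) := by
  have h1 : (F.loop τ Cσ).u1.1 (z, θ) = F.tnu1 (z, τ.τ z, sin θ) := by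
    rw [tn_u1, tn_sig F τ Cσ z h, tnu1]
  have h2 : (F.loop τ Cσ).u2.1 (z, θ) = F.tnu2 (z, τ.τ z, sin θ) := by
    rw [tn_u2, tn_sig F τ Cσ z h, tnu2]
  refine ⟨by rw [tn_l, h1, h2]; rfl, by rw [tn_n, h1, h2]; rfl, ?_⟩
  rw [MM, tn_D F τ Cσ ψ hψ hU, tn_vadd, tn_vsmul, tn_coef, tn_Ysig F τ Cσ ψ hψ z h, tn_sig F τ Cσ z h]
  congr 1
  · congr 1
    simp only [tnk]
    change F.tnr z * _ = _
    ring
  · rw [tnN, ← h1, ← h2, fxP, E1P, E2P, LoopPar.rP, LoopPar.pP, Yp_vcst, Yp_vcst, Yp_vcst, Yp_cst, Yp_cst]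
    rfl

end Frame

/-- At a turning point (`cos θ = 0`, `e = sin θ = ±1`): `sig = e a vh`, `u1 = 1 - 2 sig²`, `u2 = 2 sig √(1 - sig²)` are functions of `(z, τ z, e)`.
Differentiating `TT_eq` on the open set `Ω` (`Yp_congr`, `D_u` with `D = Yp`): `M = (dy r) u + r d n + N`, `d = 2 (Yp sig) isq`,
`N = r (u1 dy E1 + u2 dy E2) + (dy β1) ν + β1 dy ν + (dy β') b + β' c`; hence `l ⬝ M = -β1 dy r + l ⬝ N =: Σ`, `n ⬝ M = r d + n ⬝ N`. By `pd_S_turn`,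
`Yp sig = e dy (a vh)`, and with `vh z = w z * (mS (τ z))^{-1/2}`, `w = (√(2 r (r + p0)))⁻¹`:
`dy (a vh) = dy (a w) (mS t)^{-1/2} - a w (1/4 + t/8) (mS t)^{-3/2}/2 * dy τ`. Define `Σ, B₀, κ` by these formulas with `t, e` as free variables (continuity on `Icc 0 (1/10) × Icc (-1) 1`: `mS t > 1/2`,
`(a vhf)² < 1`, cf. `amp_lt`; it may help to apply `LoopPar` facts to constant shapes `τ ≡ t`). `r z = rf (a z) (p0 z)` does not depend on `τ`. -/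
theorem Frame.exists_turn (F : L.Frame) : ∃ Sg B0 κ : R2 × ℝ × ℝ → ℝ,
    ContinuousOn Sg (Set.univ ×ˢ Set.Icc 0 (1 / 10) ×ˢ Set.Icc (-1) 1) ∧
    ContinuousOn B0 (Set.univ ×ˢ Set.Icc 0 (1 / 10) ×ˢ Set.Icc (-1) 1) ∧
    ContinuousOn κ (Set.univ ×ˢ Set.Icc 0 (1 / 10) ×ˢ Set.Icc (-1) 1) ∧
    (∀ z t e, t ∈ Set.Icc (0 : ℝ) (1 / 10) → (e = 1 ∨ e = -1) → L.a z ≠ 0 → κ (z, t, e) ≠ 0) ∧
    ∀ (τ : Shape) (Cσ : ℝ) (ψ : R2 → ℝ) (hψ : ContDiff ℝ ∞ ψ) (U : ℕ → Fin 4 → Per R2),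
      U 0 = L.aP • F.Vh (F.loop τ Cσ) → ∀ z ∈ F.Ω, ∀ θ, cos θ = 0 →
        vev (F.lP (F.loop τ Cσ)) (z, θ) ⬝ᵥ vev (L.MM ψ hψ U) (z, θ) = Sg (z, τ.τ z, sin θ) ∧
        vev (F.nP (F.loop τ Cσ)) (z, θ) ⬝ᵥ vev (L.MM ψ hψ U) (z, θ) =
          B0 (z, τ.τ z, sin θ) + κ (z, τ.τ z, sin θ) * dy τ.τ z := by
  obtain ⟨c1, c2, c3⟩ := F.tn_cont
  refine ⟨fun x => F.tnl x ⬝ᵥ F.tnN x, fun x => F.tnk ((0, 1), 0) x + F.tnn x ⬝ᵥ F.tnN x, F.tnk (0, 1),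
    (c1.dotProduct c3).continuousOn, (F.tnk_cont _).add (c2.dotProduct c3).continuousOn, F.tnk_cont _,
    fun z t e ht he ha => ?_, fun τ Cσ ψ hψ U hU z hz θ h => ?_⟩
  · have he' : e ^ 2 = 1 := by rcases he with rfl | rfl <;> norm_num
    have he0 : e ≠ 0 := fun h0 => by simp [h0] at he'
    exact mul_ne_zero (F.tnr_pos z).ne' (mul_ne_zero (mul_ne_zero two_ne_zero
      (mul_ne_zero (F.tnG_t ht.1 ha) he0)) (inv_ne_zero (F.tns_lt (x := (z, t, e)) ht he'.le).ne'))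
  · obtain ⟨h1, h2, h3⟩ := F.tn_M τ Cσ ψ hψ hU z h
    obtain ⟨-, a1, a2, -⟩ := F.ln_orth τ Cσ ψ hψ hU hz θ
    rw [h3, dotProduct_add, dotProduct_add, dotProduct_smul, dotProduct_smul, a1, dotProduct_comm, a2,
      smul_zero, zero_add, smul_eq_mul, mul_one, h1, h2]
    exact ⟨rfl, by ring⟩

end LocData

end Crest.Agent.R216
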